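import Mathlib

/-!
# Noncommutative power series `D⟨⟨w_j : j ∈ ι⟩⟩`

`NPS ι D` is the ring of formal power series in noncommuting variables `w_j` (`j : ι`) which
commute with the coefficients in `D` (but not with each other).  An element is its coefficient
function `List ι → D`.
-/

set_option autoImplicit false
set_option linter.unusedSectionVars false

namespace Crest.Agent.R180

/-- noncommutative formal power series over `D` in the variables `ι` (variables commute with `D`). -/
def NPS (ι D : Type) : Type := List ι → D

namespace NPS

variable {ι D : Type}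

@[ext] theorem ext {f g : NPS ι D} (h : ∀ m, f m = g m) : f = g := funext h

section ring
variable [Ring D]

instance : AddCommGroup (NPS ι D) := inferInstanceAs (AddCommGroup (List ι → D))

@[simp] theorem add_apply (f g : NPS ι D) (m : List ι) : (f + g) m = f m + g m := rfl
@[simp] theorem sub_apply (f g : NPS ι D) (m : List ι) : (f - g) m = f m - g m := rfl
@[simp] theorem neg_apply (f : NPS ι D) (m : List ι) : (-f) m = - f m := rfl
@[simp] theorem zero_apply (m : List ι) : (0 : NPS ι D) m = 0 := rfl

/-- left shift: coefficients of words starting with `a` -/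
def tl (a : ι) (f : NPS ι D) : NPS ι D := fun m => f (a :: m)

@[simp] theorem tl_apply (a : ι) (f : NPS ι D) (m : List ι) : tl a f m = f (a :: m) := rfl

/-- convolution product (recursive form) -/
def mulAux : List ι → NPS ι D → NPS ι D → D
  | [], f, g => f [] * g []
  | a :: l, f, g => f [] * g (a :: l) + mulAux l (tl a f) g

instance : Mul (NPS ι D) := ⟨fun f g m => mulAux m f g⟩

@[simp] theorem mul_nil (f g : NPS ι D) : (f * g) [] = f [] * g [] := rfl
theorem mul_cons (f g : NPS ι D) (a : ι) (l : List ι) :
    (f * g) (a :: l) = f [] * g (a :: l) + (tl a f * g) l := rfl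

/-- constant series -/
def cst (d : D) : NPS ι D := fun m => match m with
  | [] => d
  | _ :: _ => 0

@[simp] theorem cst_nil (d : D) : (cst d : NPS ι D) [] = d := rfl
@[simp] theorem cst_cons (d : D) (a : ι) (l : List ι) : (cst d : NPS ι D) (a :: l) = 0 := rfl

instance : One (NPS ι D) := ⟨cst 1⟩

@[simp] theorem one_nil : (1 : NPS ι D) [] = 1 := rfl
@[simp] theorem one_cons (a : ι) (l : List ι) : (1 : NPS ι D) (a :: l) = 0 := rfl

theorem tl_add (a : ι) (f g : NPS ι D) : tl a (f + g) = tl a f + tl a g := rfl

private theorem zero_mul' (m : List ι) : ∀ g : NPS ι D, ((0 : NPS ι D) * g) m = 0 := by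
  induction m with
  | nil => intro g; simp
  | cons a l ih =>
    intro g
    rw [mul_cons]
    have : tl a (0 : NPS ι D) = 0 := rfl
    rw [this, ih]; simp

private theorem mul_zero' (m : List ι) : ∀ f : NPS ι D, (f * (0 : NPS ι D)) m = 0 := by
  induction m with
  | nil => intro g; simp
  | cons a l ih =>
    intro f
    rw [mul_cons, ih]; simp

private theorem add_mul' (m : List ι) :
    ∀ f g h : NPS ι D, ((f + g) * h) m = (f * h) m + (g * h) m := by
  induction m with
  | nil => intro f g h; simp [add_mul]
  | cons a l ih =>
    intro f g h
    rw [mul_cons, mul_cons, mul_cons, tl_add, ih]; simp [add_mul]; abel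

private theorem mul_add' (m : List ι) :
    ∀ f g h : NPS ι D, (f * (g + h)) m = (f * g) m + (f * h) m := by
  induction m with
  | nil => intro f g h; simp [mul_add]
  | cons a l ih =>
    intro f g h
    rw [mul_cons, mul_cons, mul_cons, ih]; simp [mul_add]; abel

private theorem one_mul' (m : List ι) (f : NPS ι D) : ((1 : NPS ι D) * f) m = f m := by
  cases m with
  | nil => simp
  | cons a l =>
    rw [mul_cons]
    have : tl a (1 : NPS ι D) = 0 := rfl
    rw [this, zero_mul']; simp

private theorem mul_one' (m : List ι) : ∀ f : NPS ι D, (f * (1 : NPS ι D)) m = f m := by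
  induction m with
  | nil => intro f; simp
  | cons a l ih =>
    intro f
    rw [mul_cons, ih]; simp

/-- left multiplication by a constant -/
def lsc (d : D) (g : NPS ι D) : NPS ι D := fun m => d * g m

@[simp] theorem lsc_apply (d : D) (g : NPS ι D) (m : List ι) : lsc d g m = d * g m := rfl

private theorem tl_mul (a : ι) (f g : NPS ι D) :
    tl a (f * g) = lsc (f []) (tl a g) + tl a f * g := rfl

private theorem smul_mul' (d : D) (m : List ι) :
    ∀ g h : NPS ι D, (lsc d g * h) m = d * (g * h) m := by
  induction m with
  | nil => intro g h; simp [mul_assoc]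
  | cons a l ih =>
    intro g h
    rw [mul_cons, mul_cons]
    have : tl a (lsc d g) = lsc d (tl a g) := rfl
    rw [this, ih]; simp [mul_add, mul_assoc]

private theorem mul_assoc' (m : List ι) :
    ∀ f g h : NPS ι D, ((f * g) * h) m = (f * (g * h)) m := by
  induction m with
  | nil => intro f g h; simp [mul_assoc]
  | cons a l ih =>
    intro f g h
    rw [mul_cons, mul_cons, tl_mul, add_mul', ih, mul_cons]
    rw [smul_mul']; simp only [mul_nil, mul_add, mul_assoc, add_assoc]

instance : Ring (NPS ι D) :=
  { (inferInstance : AddCommGroup (NPS ι D)) with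
    mul := (· * ·)
    one := 1
    left_distrib := fun f g h => ext fun m => mul_add' m f g h
    right_distrib := fun f g h => ext fun m => add_mul' m f g h
    zero_mul := fun g => ext fun m => zero_mul' m g
    mul_zero := fun g => ext fun m => mul_zero' m g
    mul_assoc := fun f g h => ext fun m => mul_assoc' m f g h
    one_mul := fun f => ext fun m => one_mul' m f
    mul_one := fun f => ext fun m => mul_one' m f
    zsmul := fun n f => n • f
    zsmul_zero' := SubNegMonoid.zsmul_zero'
    zsmul_succ' := SubNegMonoid.zsmul_succ'
    zsmul_neg' := SubNegMonoid.zsmul_neg'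
    neg_add_cancel := neg_add_cancel }

/-- constants as a ring hom -/
def C : D →+* NPS ι D where
  toFun := cst
  map_one' := rfl
  map_zero' := ext fun m => by cases m <;> rfl
  map_add' x y := ext fun m => by cases m <;> simp
  map_mul' x y := ext fun m => by
    cases m with
    | nil => simp
    | cons a l =>
      rw [mul_cons]
      have : tl a (cst x : NPS ι D) = 0 := rfl
      rw [this, zero_mul']; simp

@[simp] theorem C_nil (d : D) : (C d : NPS ι D) [] = d := rfl
@[simp] theorem C_cons (d : D) (a : ι) (l : List ι) : (C d : NPS ι D) (a :: l) = 0 := rfl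

/-- the variable `w_j` -/
def var [DecidableEq ι] (j : ι) : NPS ι D := fun m => if m = [j] then 1 else 0

/-- constant term as a ring hom -/
def const : NPS ι D →+* D where
  toFun f := f []
  map_one' := rfl
  map_zero' := rfl
  map_add' _ _ := rfl
  map_mul' _ _ := rfl

@[simp] theorem const_apply (f : NPS ι D) : const f = f [] := rfl

end ring
end NPS
end Crest.Agent.R180
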