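import Mathlib
import Crest.Agent.R180.NPS

/-!
# Row 180 (Kurosh problem for division rings): all definitions

See `Crest/Agent/R180/PLAN.md`-style header in `Main.lean` for the proof.  DO NOT change definitions here.
-/

set_option autoImplicit false
set_option linter.unusedSectionVars false

namespace Crest.Agent.R180

open Module

/-! ## normalized trace, projections -/

/-- normalized trace of a finite dimensional algebra -/
noncomputable def ntr (F D : Type) [Field F] [Ring D] [Algebra F D] : D →ₗ[F] F :=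
  ((finrank F D : F)⁻¹) • (LinearMap.trace F D ∘ₗ LinearMap.mul F D)

open Classical in
/-- trace-orthogonal projection of `D` onto a subalgebra `A`
(well defined if `D` is a finite-dimensional domain over `F`, char 0; see `Ntr.lean`). -/
noncomputable def pr (F : Type) {D : Type} [Field F] [Ring D] [Algebra F D]
    (A : Subalgebra F D) : D →ₗ[F] D :=
  if h : ∃ f : D →ₗ[F] D, (∀ x, f x ∈ A) ∧ ∀ x, ∀ a ∈ A, ntr F D (a * x) = ntr F D (a * f x)
  then h.choose else 0

/-- degree of an element -/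
noncomputable def mdeg (F : Type) {D : Type} [Field F] [Ring D] [Algebra F D] (θ : D) : ℕ :=
  finrank F (Algebra.adjoin F ({θ} : Set D))

/-! ## first and second order parts of noncommutative power series -/

section lin
variable (F : Type) {D ι : Type} [Field F] [Ring D] [Algebra F D] [Fintype ι]

/-- linear part of `f` as a linear map on directions `c : ι → F` -/
noncomputable def lin (f : NPS ι D) : (ι → F) →ₗ[F] D where
  toFun c := ∑ j, c j • f [j]
  map_add' c d := by simp [add_smul, Finset.sum_add_distrib]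
  map_smul' a c := by simp [Finset.smul_sum, mul_smul]

/-- quadratic part -/
noncomputable def quad (f : NPS ι D) (a b : ι → F) : D := ∑ j, ∑ k, (a j * b k) • f [j, k]

/-- the space `V = π_L (dg (F^ι))`, `L = F[g_0]` -/
noncomputable def Vs (g : NPS ι D) : Submodule F D :=
  LinearMap.range ((pr F (Algebra.adjoin F ({g []} : Set D))) ∘ₗ (lin F g))

/-- subalgebra generated by the ratios of elements of `V` -/
def Kalg {F D : Type} [Field F] [Ring D] [Algebra F D] (V : Submodule F D) : Subalgebra F D :=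
  Algebra.adjoin F {x | ∃ v ∈ V, v ≠ 0 ∧ v * x ∈ V}

/-- dimension of `K` -/
noncomputable def nK (g : NPS ι D) : ℕ := finrank F (Kalg (Vs F g))

/-- `c2 = [D:F]/m^2` -/
noncomputable def c2 (g : NPS ι D) : ℕ := finrank F D / (mdeg F (g [])) ^ 2

/-- `a = [L:K]` -/
noncomputable def aK (g : NPS ι D) : ℕ := mdeg F (g []) / nK F g

/-- `o = dim K - dim V` -/
noncomputable def oK (g : NPS ι D) : ℕ := nK F g - finrank F (Vs F g)

/-- `v⁻¹ W` : the space of `x` with `v x ∈ v K`, and `x` trace-orthogonal to the linear part: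
`Nn = { x | ∃ κ ∈ K, v * x = κ ∧ ∀ ξ, tr (x * lin g ξ) = 0 }` (`v ≠ 0` in `V`). -/
def InN (g : NPS ι D) (v x : D) : Prop :=
  v * x ∈ Kalg (Vs F g) ∧ ∀ ξ : ι → F, ntr F D (x * lin F g ξ) = 0

end lin

/-! ## Central extensions `D ⊂ D₁ = D ⊗ E₁` -/

/-- `D₁` is `D ⊗_F E₁` where `E₁` has `F₁`-basis `b`. -/
structure CExt (F D F₁ D₁ β : Type) [Field F] [Ring D] [Algebra F D] [Field F₁] [Ring D₁]
    [Algebra F₁ D₁] where
  φ : F →+* F₁
  i : D →+* D₁
  i_alg : ∀ a, i (algebraMap F D a) = algebraMap F₁ D₁ (φ a)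
  b : β → D₁
  k0 : β
  b_k0 : b k0 = 1
  comm : ∀ d k, Commute (i d) (b k)
  indep : ∀ (n : ℕ) (e : Fin n → D), LinearIndependent F e →
    LinearIndependent F₁ (fun p : Fin n × β => i (e p.1) * b p.2)
  span : Submodule.span F₁ (Set.range fun p : D × β => i p.1 * b p.2) = ⊤

namespace CExt
variable {F D F₁ D₁ β : Type} [Field F] [Ring D] [Algebra F D] [Field F₁] [Ring D₁]
    [Algebra F₁ D₁] (e : CExt F D F₁ D₁ β)

/-- `E₁` = centralizer of `D` in `D₁` -/
def E : Subalgebra F₁ D₁ := Subalgebra.centralizer F₁ (Set.range e.i)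

/-- linear part of `f` in the direction `δ ∈ E₁^ι` -/
def linE {ι : Type} [Fintype ι] (f : NPS ι D) (δ : ι → D₁) : D₁ := ∑ j, e.i (f [j]) * δ j

/-- the `F₁`-span of (the image of) a subspace of `D` -/
def bc (W : Submodule F D) : Submodule F₁ D₁ := Submodule.span F₁ (e.i '' (W : Set D))

/-- `W ⊗ E₁` -/
def bcE (W : Submodule F D) : Submodule F₁ D₁ :=
  Submodule.span F₁ {x | ∃ w ∈ W, ∃ y ∈ e.E, x = e.i w * y}

end CExt

/-- symbol algebra extension of degree `r`: `E₀ = F₀⟨u,v⟩`, `v u = ζ u v`, `u^r = s`, `v^r = t`. -/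
structure SymData (F D F₀ D₀ : Type) [Field F] [Ring D] [Algebra F D] [Field F₀] [Ring D₀]
    [Algebra F₀ D₀] (r : ℕ) (ζ : F) where
  e : CExt F D F₀ D₀ (Fin r × Fin r)
  u : D₀
  v : D₀
  s : F₀
  t : F₀
  b_eq : ∀ i j : Fin r, e.b (i, j) = u ^ (i : ℕ) * v ^ (j : ℕ)
  comm_u : ∀ d, Commute (e.i d) u
  comm_v : ∀ d, Commute (e.i d) v
  vu : v * u = algebraMap F₀ D₀ (e.φ ζ) * (u * v)
  u_pow : u ^ r = algebraMap F₀ D₀ s
  v_pow : v ^ r = algebraMap F₀ D₀ t
  algInd : ∀ P : MvPolynomial (Fin 2) F, MvPolynomial.eval₂ e.φ ![s, t] P = 0 → P = 0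

/-! ## Laurent series -/

/-- Laurent series (the variable commutes with the coefficients) -/
abbrev Lau (R : Type) [Zero R] : Type := HahnSeries ℤ R

/-- coefficientwise image -/
noncomputable def lauMap {R S : Type} [Ring R] [Ring S] (f : R →+* S) : Lau R →+* Lau S where
  toFun x := x.map f
  map_one' := by
    ext n; by_cases h : n = 0 <;> simp [h, HahnSeries.coeff_one]
  map_zero' := by ext; simp
  map_add' x y := by ext; simp
  map_mul' x y := by
    exact HahnSeries.map_mul (f : R →ₙ+* S)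

section lau
variable {F D : Type} [Field F] [Ring D] [Algebra F D]

theorem lauMap_comm (f : Lau F) (x : Lau D) :
    lauMap (algebraMap F D) f * x = x * lauMap (algebraMap F D) f := by
  ext n
  rw [HahnSeries.coeff_mul, HahnSeries.coeff_mul]
  refine Finset.sum_equiv (Equiv.prodComm ℤ ℤ) ?_ ?_
  · intro p
    simp only [Finset.mem_antidiagonal, Equiv.prodComm_apply, Prod.fst_swap, Prod.snd_swap]
    constructor
    · rintro ⟨h1, h2, h3⟩; exact ⟨h2, h1, by rw [← h3, add_comm]⟩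
    · rintro ⟨h1, h2, h3⟩; exact ⟨h2, h1, by rw [← h3, add_comm]⟩
  · intro p _
    simp only [Equiv.prodComm_apply, Prod.fst_swap, Prod.snd_swap]
    exact Algebra.commutes (f.coeff p.1) (x.coeff p.2)

noncomputable instance lauAlgebra : Algebra (Lau F) (Lau D) :=
  RingHom.toAlgebra' (lauMap (algebraMap F D)) (fun f x => lauMap_comm f x)

/-- integral elements -/
def IsInt {R : Type} [Zero R] (x : Lau R) : Prop := ∀ n : ℤ, n < 0 → x.coeff n = 0

/-- `n ↦ n • x_n` : the Euler derivation -/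
noncomputable def eulerD {R : Type} [Ring R] (x : Lau R) : Lau R where
  coeff n := n • x.coeff n
  isPWO_support' := x.isPWO_support.mono (by
    intro n hn; simp only [Function.mem_support] at hn ⊢
    intro h; exact hn (by rw [h, smul_zero]))

/-- embedding of power series -/
noncomputable abbrev ofPS {R : Type} [Ring R] : PowerSeries R →+* Lau R :=
  HahnSeries.ofPowerSeries ℤ R

/-- constants -/
noncomputable abbrev lc {R : Type} [Ring R] : R →+* Lau R := HahnSeries.C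

/-- `Θ = θ₀ + ε^N X + O(ε^{N+1})`, `X` commutes with `θ₀`, `N ≥ 1` -/
structure LTerm {R : Type} [Ring R] (Θ : Lau R) (θ₀ X : R) (N : ℕ) : Prop where
  hN : 1 ≤ N
  comm : Commute X θ₀
  int : IsInt Θ
  zero : Θ.coeff 0 = θ₀
  mid : ∀ n : ℤ, 0 < n → n < N → Θ.coeff n = 0
  top : Θ.coeff N = X

end lau

/-! ## Evaluations (explicit formulas) -/

section eval
variable {F D F₁ D₁ β ι : Type} [Field F] [Ring D] [Algebra F D] [Field F₁] [Ring D₁]
    [Algebra F₁ D₁] [Fintype ι]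

/-- evaluation `w_j ↦ Q_j ∈ ε D₁[[ε]]` -/
noncomputable def evQ (e : CExt F D F₁ D₁ β) (Q : ι → PowerSeries D₁) (f : NPS ι D) :
    PowerSeries D₁ :=
  PowerSeries.mk fun n => ∑ k ∈ Finset.range (n + 1), ∑ l : Fin k → ι,
    e.i (f (List.ofFn l)) * PowerSeries.coeff n ((List.ofFn l).map Q).prod

/-- evaluation of `f ∈ D⟨⟨z₁,z₂⟩⟩` at `z_i = ε Z_i` -/
noncomputable def evZ (e : CExt F D F₁ D₁ β) (Z : Fin 2 → D₁) (f : NPS (Fin 2) D) :
    PowerSeries D₁ :=
  PowerSeries.mk fun n => ∑ m : Fin n → Fin 2,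
    e.i (f (List.ofFn m)) * ((List.ofFn m).map Z).prod

/-- degree `n` part of `f ∈ D⟨⟨z₁,z₂⟩⟩`, evaluated at `Z` -/
noncomputable def evHom (e : CExt F D F₁ D₁ β) (Z : Fin 2 → D₁) (n : ℕ) (f : NPS (Fin 2) D) : D₁ :=
  ∑ m : Fin n → Fin 2, e.i (f (List.ofFn m)) * ((List.ofFn m).map Z).prod

/-- substitution `w_j ↦ w_j(z) ∈ F⟨⟨z⟩⟩` (no constant terms) -/
noncomputable def subst {κ : Type} (w : ι → NPS κ F) (f : NPS ι D) : NPS κ D :=
  fun m => ∑ k ∈ Finset.range (m.length + 1), ∑ l : Fin k → ι,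
    algebraMap F D (((List.ofFn l).map w).prod m) * f (List.ofFn l)

/-- the data of an E-step -/
structure EData (e : CExt F D F₁ D₁ β) (ι : Type) where
  Q : ι → PowerSeries D₁
  Q0 : ∀ j, PowerSeries.coeff 0 (Q j) = 0
  QE : ∀ j n, PowerSeries.coeff n (Q j) ∈ e.E
  U : PowerSeries D₁
  U0 : PowerSeries.coeff 0 U = 1

/-- An E-step: the ring homomorphism `Ψ : D⟨⟨w_j⟩⟩ → D₁((ε))⟨⟨w'_{jk}⟩⟩`,
`w_j ↦ U⁻¹ (Q_j + ε Σ_k b_k w'_{jk}) U`. -/
structure EStep {e : CExt F D F₁ D₁ β} [Fintype β] [DecidableEq β] [DecidableEq ι]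
    (T : EData e ι) where
  ev : NPS ι D →+* NPS (ι × β) (PowerSeries D₁)
  ev_C : ∀ d, ev (NPS.C d) = NPS.C (PowerSeries.C (e.i d))
  ev_var : ∀ j, ev (NPS.var j) = NPS.C (T.Q j) +
    ∑ k, NPS.C (PowerSeries.X * PowerSeries.C (e.b k)) * NPS.var (j, k)
  ev_deg : ∀ (n : ℕ) (f : NPS ι D), (∀ m : List ι, m.length < n → f m = 0) →
    ∀ l k, k < n → PowerSeries.coeff k (ev f l) = 0
  Ψ : NPS ι D →+* NPS (ι × β) (Lau D₁)
  Ψ_spec : ∀ f m, ofPS T.U * Ψ f m = ofPS (ev f m * T.U)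

end eval

/-! ## States -/

section good
variable (F : Type) {D ι : Type} [Field F] [Ring D] [Algebra F D] [Fintype ι]

/-- the directions `a`, `b` are independent modulo inner derivations -/
def GoodPair (X Y : NPS ι D) (a b : ι → F) : Prop :=
  ∀ (α β : F) (h : D), lin F X (α • a + β • b) = h * X [] - X [] * h →
    lin F Y (α • a + β • b) = h * Y [] - Y [] * h → α = 0 ∧ β = 0

/-- `X₀, Y₀` have trivial centralizer -/
def Good1 (X Y : NPS ι D) : Prop :=
  ∀ h : D, h * X [] = X [] * h → h * Y [] = Y [] * h → ∃ a : F, h = algebraMap F D a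

/-- good states -/
def GoodXY (X Y : NPS ι D) : Prop := Good1 F X Y ∧ ∃ a b : ι → F, GoodPair F X Y a b

/-- the subring generated by scalars and `X`, `Y` -/
def AlgXY (X Y : NPS ι D) : Subring (NPS ι D) :=
  Subring.closure (Set.range (fun a : F => (NPS.C (algebraMap F D a) : NPS ι D)) ∪ {X, Y})

end good

/-- States.  `F` a field of characteristic zero with all roots of unity, `D` a finite dimensional
division algebra (domain) with centre `F`, three series `X`, `Y`, `g`, `g ∈ F⟨X,Y⟩`. -/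
structure St where
  F : Type
  D : Type
  ι : Type
  [fF : Field F]
  [cF : CharZero F]
  [rD : Ring D]
  [dD : IsDomain D]
  [aD : Algebra F D]
  [fD : FiniteDimensional F D]
  [zD : Algebra.IsCentral F D]
  [ιf : Fintype ι]
  [ιd : DecidableEq ι]
  rou : ∀ n : ℕ, 0 < n → ∃ ζ : F, IsPrimitiveRoot ζ n
  X : NPS ι D
  Y : NPS ι D
  g : NPS ι D
  hg : g ∈ AlgXY F X Y

attribute [instance] St.fF St.cF St.rD St.dD St.aD St.fD St.zD St.ιf St.ιd

namespace St

/-- reachability -/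
def Reach (s s' : St) : Prop :=
  ∃ (Ψ : NPS s.ι s.D →+* NPS s'.ι s'.D) (φ : s.F →+* s'.F),
    (∀ a, Ψ (NPS.C (algebraMap s.F s.D a)) = NPS.C (algebraMap s'.F s'.D (φ a))) ∧
    Ψ s.X = s'.X ∧ Ψ s.Y = s'.Y ∧ Ψ s.g = s'.g

def Good (s : St) : Prop := GoodXY s.F s.X s.Y
def θ (s : St) : s.D := s.g []
/-- `L = F[θ]` -/
def L (s : St) : Subalgebra s.F s.D := Algebra.adjoin s.F ({s.g []} : Set s.D)
noncomputable def m (s : St) : ℕ := mdeg s.F (s.g [])
noncomputable def n2 (s : St) : ℕ := finrank s.F s.D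
noncomputable def V (s : St) : Submodule s.F s.D := Vs s.F s.g
noncomputable def K (s : St) : Subalgebra s.F s.D := Kalg s.V
noncomputable def nK (s : St) : ℕ := R180.nK s.F s.g
noncomputable def c2 (s : St) : ℕ := R180.c2 s.F s.g
noncomputable def aK (s : St) : ℕ := R180.aK s.F s.g
noncomputable def oK (s : St) : ℕ := R180.oK s.F s.g
noncomputable def dV (s : St) : ℕ := finrank s.F s.V

/-- the class of states: reachable from `s₀`, good, `V ≠ 0` -/
def Cls (s₀ s : St) : Prop := Reach s₀ s ∧ s.Good ∧ s.V ≠ ⊥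

/-- `c2`-minimal -/
def Cmin (s₀ s : St) : Prop := Cls s₀ s ∧ ∀ s', Cls s₀ s' → s.c2 ≤ s'.c2

/-- `(c2, a)`-minimal -/
def Amin (s₀ s : St) : Prop := Cmin s₀ s ∧ ∀ s', Cmin s₀ s' → s.aK ≤ s'.aK

/-- `o`-minimal among the `(c2,a)`-minimal states with `nK ≥ B` -/
def Omin (s₀ : St) (B : ℕ) (s : St) : Prop :=
  (Amin s₀ s ∧ B ≤ s.nK) ∧ ∀ s', Amin s₀ s' → B ≤ s'.nK → s.oK ≤ s'.oK

/-- A formal two-variable family through `s`: `w_j(z) ∈ F⟨⟨z₁,z₂⟩⟩` without constant term,
`g(w(z)) U ≡ U (θ + K)` in degrees `≤ N`, where `K` is homogeneous of degree `N`, with values in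
the centralizer of `θ`. -/
structure IsFam (s : St) (N : ℕ) (w : s.ι → NPS (Fin 2) s.F) (U K : NPS (Fin 2) s.D) : Prop where
  hN : 2 ≤ N
  w0 : ∀ j, w j [] = 0
  gp : GoodPair s.F s.X s.Y (fun j => w j [0]) (fun j => w j [1])
  U0 : U [] = 1
  Kdeg : ∀ m : List (Fin 2), m.length ≠ N → K m = 0
  Kcomm : ∀ m, Commute (K m) (s.g [])
  eq : ∀ m : List (Fin 2), m.length ≤ N →
    ((subst w s.g : NPS (Fin 2) s.D) * U) m = (U * ((NPS.C (s.g []) : NPS (Fin 2) s.D) + K)) m

/-- second order form `G₂(ξ,ξ')`, `h` with `lin g ξ' = [h, θ]` -/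
noncomputable def G2 (s : St) (ξ ξ' : s.ι → s.F) (h : s.D) : s.D :=
  quad s.F s.g ξ ξ' + lin s.F s.g ξ * h

/-- `ξ ∈ Λ` with witness `h` : `lin g ξ = [h, θ]` -/
def InLam (s : St) (ξ : s.ι → s.F) (h : s.D) : Prop :=
  lin s.F s.g ξ = h * s.g [] - s.g [] * h

end St

/-- rotation of a word -/
def rot (k : ℕ) (m : List (Fin 2)) : List (Fin 2) := m.rotate k

end Crest.Agent.R180
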