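import Mathlib
import Crest.Agent.R180.Defs

/-!
# Piece B1: normalized trace, inverses, projections (independent)

`D` = finite dimensional domain over a field `F` of characteristic zero.
`ntr F D x = trace (left mult. by x) / [D:F]`.
* inverses: `divisionRingOfFiniteDimensional` (or: left multiplication by `x ≠ 0` is injective, hence
  bijective); for a subalgebra `A ∋ x` apply this to `A`.
* nondegeneracy on a subalgebra `A`: if `0 ≠ x ∈ A` take `a = x⁻¹ ∈ A`, `ntr 1 = 1`.
* `pr`: the form `(a,b) ↦ ntr (a b)` is nondegenerate on `A`, so for each `x` the functional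
  `a ↦ ntr (a x)` on `A` is `a ↦ ntr (a y)` for a unique `y ∈ A`.
* `ntr_unique`: for `f : D →ₗ W` with `f (xy) = f (yx)`; enough for `W = F` (compose with functionals):
  `f x = ntr (z x)` for a unique `z` (nondegeneracy), then `ntr ((z x - x z) y) = 0` for all `y`, so
  `z` is central, `z ∈ F`.
* `exists_decomp`: `D = Cent θ ⊕ [D,θ]`: `im (ad θ) = (ker ad θ)^⊥` (skew-adjoint, dimension count) and
  `Cent θ ∩ (Cent θ)^⊥ = 0`.
-/

set_option autoImplicit false
set_option linter.unusedSectionVars false

namespace Crest.Agent.R180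
open Module

variable {F D : Type} [Field F] [Ring D] [Algebra F D]

theorem ntr_apply (x : D) :
    ntr F D x = (finrank F D : F)⁻¹ * LinearMap.trace F D (LinearMap.mul F D x) := by
  simp [ntr]

theorem ntr_comm (x y : D) : ntr F D (x * y) = ntr F D (y * x) := by
  rw [ntr_apply, ntr_apply]
  congr 1
  have h : ∀ a b : D, LinearMap.mul F D (a * b) = LinearMap.mul F D a * LinearMap.mul F D b := by
    intro a b
    ext c
    simp [mul_assoc]
  rw [h, h, LinearMap.trace_mul_comm]

section dom
variable [CharZero F] [IsDomain D] [FiniteDimensional F D]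

theorem ntr_one : ntr F D 1 = 1 := by
  rw [ntr_apply]
  have h : LinearMap.mul F D 1 = 1 := by
    ext c
    simp
  rw [h, LinearMap.trace_one]
  have h2 : (finrank F D : F) ≠ 0 := by
    have : 0 < finrank F D := finrank_pos
    exact_mod_cast this.ne'
  exact inv_mul_cancel₀ h2

variable (F) in
include F in
omit [CharZero F] in
theorem exists_inverse (x : D) (hx : x ≠ 0) : ∃ y : D, x * y = 1 ∧ y * x = 1 := by
  have hinj : Function.Injective (LinearMap.mulLeft F x) := by
    intro a b hab
    simpa [hx] using hab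
  have hsurj : Function.Surjective (LinearMap.mulLeft F x) :=
    LinearMap.injective_iff_surjective.1 hinj
  obtain ⟨y, hy⟩ := hsurj 1
  have hy' : x * y = 1 := by simpa using hy
  refine ⟨y, hy', ?_⟩
  have : x * (y * x) = x * 1 := by rw [← mul_assoc, hy']; simp
  exact mul_left_cancel₀ hx this

omit [CharZero F] in
theorem exists_inverse_mem (A : Subalgebra F D) (x : D) (hxA : x ∈ A) (hx : x ≠ 0) :
    ∃ y ∈ A, x * y = 1 ∧ y * x = 1 := by
  obtain ⟨y, h1, h2⟩ := exists_inverse F (D := A) ⟨x, hxA⟩ (by
    intro h; apply hx; exact congrArg Subtype.val h)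
  exact ⟨y, y.2, congrArg Subtype.val h1, congrArg Subtype.val h2⟩

omit [CharZero F] in
/-- a left inverse is in the subalgebra -/
theorem inv_mem (A : Subalgebra F D) (x y : D) (hxA : x ∈ A) (hxy : x * y = 1) : y ∈ A := by
  have hx : x ≠ 0 := by
    rintro rfl
    simp at hxy
  obtain ⟨y', hy', h1, h2⟩ := exists_inverse_mem A x hxA hx
  have : x * y = x * y' := by rw [hxy, h1]
  rw [mul_left_cancel₀ hx this]
  exact hy'

omit [CharZero F] in
/-- quotients: `v ≠ 0`, `v, v*x ∈ A` imply `x ∈ A` -/
theorem quot_mem (A : Subalgebra F D) (v x : D) (hv : v ≠ 0) (hvA : v ∈ A) (h : v * x ∈ A) :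
    x ∈ A := by
  obtain ⟨y, hy, h1, h2⟩ := exists_inverse_mem A v hvA hv
  have : x = y * (v * x) := by rw [← mul_assoc, h2, one_mul]
  rw [this]
  exact A.mul_mem hy h

theorem ntr_nondeg (A : Subalgebra F D) (x : D) (hx : x ∈ A)
    (h : ∀ a ∈ A, ntr F D (a * x) = 0) : x = 0 := by
  by_contra hx0
  obtain ⟨y, hy, h1, h2⟩ := exists_inverse_mem A x hx hx0
  have := h y hy
  rw [h2, ntr_one] at this
  exact one_ne_zero this

/-- the bilinear form `ntr (a b)` on a subalgebra -/
noncomputable def trB (A : Subalgebra F D) : LinearMap.BilinForm F A :=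
  LinearMap.mk₂ F (fun a b : A => ntr F D ((a : D) * (b : D)))
    (by intro a b c; simp [add_mul]) (by intro a b c; simp)
    (by intro a b c; simp [mul_add]) (by intro a b c; simp)

theorem trB_apply (A : Subalgebra F D) (a b : A) : trB A a b = ntr F D ((a : D) * (b : D)) := rfl

theorem trB_symm (A : Subalgebra F D) (a b : A) : trB A a b = trB A b a := by
  rw [trB_apply, trB_apply, ntr_comm]

theorem trB_isRefl (A : Subalgebra F D) : (trB A).IsRefl := by
  intro a b h
  rw [trB_symm]; exact h

theorem trB_nondeg (A : Subalgebra F D) : (trB A).Nondegenerate := by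
  refine ⟨?_, ?_⟩
  · intro x hx
    apply Subtype.ext
    apply ntr_nondeg A _ x.2
    intro a ha
    have := hx ⟨a, ha⟩
    rw [trB_apply, ntr_comm] at this
    exact this
  · intro x hx
    apply Subtype.ext
    apply ntr_nondeg A _ x.2
    intro a ha
    exact hx ⟨a, ha⟩

variable (F D) in
/-- the bilinear form `ntr (a b)` on `D` -/
noncomputable def trD : LinearMap.BilinForm F D :=
  LinearMap.mk₂ F (fun a b : D => ntr F D (a * b))
    (by intro a b c; simp [add_mul]) (by intro a b c; simp)
    (by intro a b c; simp [mul_add]) (by intro a b c; simp)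

theorem trD_apply (a b : D) : trD F D a b = ntr F D (a * b) := rfl

theorem trD_isRefl : (trD F D).IsRefl := by
  intro a b h
  rw [trD_apply, ntr_comm]; exact h

theorem ntr_nondeg_top (x : D) (h : ∀ a, ntr F D (a * x) = 0) : x = 0 :=
  ntr_nondeg (⊤ : Subalgebra F D) x (by simp) (fun a _ => h a)

theorem trD_nondeg : (trD F D).Nondegenerate := by
  refine ⟨?_, ?_⟩
  · intro x hx
    apply ntr_nondeg_top (F := F) x
    intro a
    have := hx a
    rw [trD_apply, ntr_comm] at this
    exact this
  · intro x hx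
    apply ntr_nondeg_top (F := F) x
    intro a
    exact hx a

theorem exists_pr (A : Subalgebra F D) :
    ∃ f : D →ₗ[F] D, (∀ x, f x ∈ A) ∧ ∀ x, ∀ a ∈ A, ntr F D (a * x) = ntr F D (a * f x) := by
  classical
  -- the map `A → Dual A`
  let T : A →ₗ[F] Dual F A := (trB A).flip
  have hT : ∀ a b : A, T b a = ntr F D ((a : D) * (b : D)) := fun a b => rfl
  have hinj : Function.Injective T := by
    rw [← LinearMap.ker_eq_bot, LinearMap.ker_eq_bot']
    intro b hb
    have : (b : D) = 0 := by
      apply ntr_nondeg A _ b.2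
      intro a ha
      have := hT ⟨a, ha⟩ b
      rw [hb] at this
      simpa using this.symm
    exact Subtype.ext this
  have hfin : finrank F A = finrank F (Dual F A) := (Subspace.dual_finrank_eq).symm
  let e : A ≃ₗ[F] Dual F A := LinearEquiv.ofInjectiveOfFinrankEq T hinj hfin
  have he : ∀ b, e b = T b := fun b => rfl
  let S : D →ₗ[F] Dual F A := LinearMap.mk₂ F (fun (x : D) (a : A) => ntr F D ((a : D) * x))
    (by intro a b c; simp [mul_add]) (by intro a b c; simp)
    (by intro a b c; simp [add_mul]) (by intro a b c; simp)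
  have hS : ∀ (x : D) (a : A), S x a = ntr F D ((a : D) * x) := fun x a => rfl
  refine ⟨A.val.toLinearMap ∘ₗ e.symm.toLinearMap ∘ₗ S, ?_, ?_⟩
  · intro x
    exact (e.symm (S x)).2
  · intro x a ha
    have h1 : e (e.symm (S x)) = S x := e.apply_symm_apply _
    have h2 := congrArg (fun φ => φ ⟨a, ha⟩) h1
    simp only [he, hT, hS] at h2
    exact h2.symm

theorem pr_mem (A : Subalgebra F D) (x : D) : pr F A x ∈ A := by
  have h := exists_pr (F := F) A
  unfold pr
  rw [dif_pos h]
  exact h.choose_spec.1 x

theorem pr_spec (A : Subalgebra F D) (x a : D) (ha : a ∈ A) :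
    ntr F D (a * pr F A x) = ntr F D (a * x) := by
  have h := exists_pr (F := F) A
  unfold pr
  rw [dif_pos h]
  exact (h.choose_spec.2 x a ha).symm

theorem pr_unique (A : Subalgebra F D) (x y : D) (hy : y ∈ A)
    (h : ∀ a ∈ A, ntr F D (a * x) = ntr F D (a * y)) : pr F A x = y := by
  have : pr F A x - y = 0 := by
    apply ntr_nondeg A _ (A.sub_mem (pr_mem A x) hy)
    intro a ha
    rw [mul_sub, map_sub, pr_spec A x a ha, h a ha, sub_self]
  exact sub_eq_zero.1 this

theorem pr_of_mem (A : Subalgebra F D) (x : D) (hx : x ∈ A) : pr F A x = x :=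
  pr_unique A x x hx (fun _ _ => rfl)

theorem pr_mul_left (A : Subalgebra F D) (a x : D) (ha : a ∈ A) :
    pr F A (a * x) = a * pr F A x := by
  apply pr_unique A _ _ (A.mul_mem ha (pr_mem A x))
  intro b hb
  rw [← mul_assoc, ← mul_assoc, pr_spec A x _ (A.mul_mem hb ha)]

theorem pr_mul_right (A : Subalgebra F D) (a x : D) (ha : a ∈ A) :
    pr F A (x * a) = pr F A x * a := by
  apply pr_unique A _ _ (A.mul_mem (pr_mem A x) ha)
  intro b hb
  rw [← mul_assoc, ← mul_assoc, ntr_comm, ntr_comm (b * pr F A x) a, ← mul_assoc, ← mul_assoc,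
    pr_spec A x _ (A.mul_mem ha hb)]

/-- `dim (A ∩ W^⊥) = dim A - rank`; form needed: for a subspace `W`, the space
`pr A (W)` has dimension `dim A - dim {a ∈ A | ∀ w ∈ W, ntr (a w) = 0}` -/
theorem finrank_pr_map (A : Subalgebra F D) (W N : Submodule F D)
    (hN : ∀ a, a ∈ N ↔ a ∈ A ∧ ∀ w ∈ W, ntr F D (a * w) = 0) :
    finrank F (W.map (pr F A)) + finrank F N = finrank F A := by
  classical
  -- everything inside `A`
  let W' : Submodule F A := (W.map (pr F A)).comap A.val.toLinearMap
  let N' : Submodule F A := N.comap A.val.toLinearMap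
  have hW' : finrank F W' = finrank F (W.map (pr F A)) := by
    have hmap : W'.map A.val.toLinearMap = W.map (pr F A) := by
      rw [Submodule.map_comap_eq, inf_eq_right]
      rintro _ ⟨w, hw, rfl⟩
      exact ⟨⟨pr F A w, pr_mem A w⟩, rfl⟩
    rw [← hmap]
    exact (Submodule.equivMapOfInjective A.val.toLinearMap Subtype.val_injective W').finrank_eq
  have hN' : finrank F N' = finrank F N := by
    have hmap : N'.map A.val.toLinearMap = N := by
      rw [Submodule.map_comap_eq, inf_eq_right]
      intro a ha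
      exact ⟨⟨a, ((hN a).1 ha).1⟩, rfl⟩
    rw [← hmap]
    exact (Submodule.equivMapOfInjective A.val.toLinearMap Subtype.val_injective N').finrank_eq
  have horth : (trB A).orthogonal W' = N' := by
    ext a
    rw [LinearMap.BilinForm.mem_orthogonal_iff]
    constructor
    · intro h
      show (a : D) ∈ N
      rw [hN]
      refine ⟨a.2, fun w hw => ?_⟩
      have h1 := h ⟨pr F A w, pr_mem A w⟩ ⟨w, hw, rfl⟩
      rw [trB_apply, ntr_comm] at h1
      rw [← pr_spec A w a a.2]
      exact h1
    · intro h b hb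
      obtain ⟨w, hw, hwb⟩ := hb
      have h1 : (a : D) ∈ N := h
      have h2 := ((hN a).1 h1).2 w hw
      rw [trB_apply, ntr_comm]
      have h3 : (b : D) = pr F A w := hwb.symm
      rw [h3, pr_spec A w a a.2, h2]
  have h := LinearMap.BilinForm.finrank_orthogonal (trB_nondeg A) W'
  have h' := Submodule.finrank_le W'
  rw [horth] at h
  rw [← hW', ← hN', h]
  omega

/-- uniqueness of trace functionals -/
theorem ntr_unique [Algebra.IsCentral F D] {W : Type} [AddCommGroup W] [Module F W]
    (f : D →ₗ[F] W) (hf : ∀ x y, f (x * y) = f (y * x)) (x : D) : f x = ntr F D x • f 1 := by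
  have key : ∀ φ : D →ₗ[F] F, (∀ x y, φ (x * y) = φ (y * x)) → ∀ x, φ x = ntr F D x * φ 1 := by
    intro φ hφ x
    obtain ⟨z, hz⟩ : ∃ z : D, ∀ y, φ y = ntr F D (z * y) := by
      refine ⟨((trD F D).toDual trD_nondeg).symm φ, fun y => ?_⟩
      have := LinearMap.BilinForm.apply_toDual_symm_apply (hB := trD_nondeg (F := F) (D := D)) φ y
      rw [trD_apply] at this
      exact this.symm
    have hzc : ∀ y, z * y = y * z := by
      intro y
      have : z * y - y * z = 0 := by
        apply ntr_nondeg_top (F := F)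
        intro a
        have h1 : ntr F D (z * (y * a)) = ntr F D (z * (a * y)) := by
          rw [← hz, ← hz, hφ]
        have e1 : ntr F D (a * (z * y)) = ntr F D (z * (y * a)) := by
          rw [ntr_comm a (z * y), mul_assoc]
        have e2 : ntr F D (a * (y * z)) = ntr F D (z * (a * y)) := by
          rw [← mul_assoc, ntr_comm (a * y) z]
        rw [mul_sub, map_sub, e1, e2, h1, sub_self]
      exact sub_eq_zero.1 this
    have hzm : z ∈ Subalgebra.center F D := by
      rw [Subalgebra.mem_center_iff]
      intro b; exact (hzc b).symm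
    rw [Algebra.IsCentral.center_eq_bot] at hzm
    obtain ⟨c, rfl⟩ := Algebra.mem_bot.1 hzm
    have h1 : ∀ y, φ y = c * ntr F D y := by
      intro y
      rw [hz, ← Algebra.smul_def, map_smul, smul_eq_mul]
    rw [h1, h1, ntr_one]; ring
  have h0 : ∀ φ : Dual F W, φ (f x - ntr F D x • f 1) = 0 := by
    intro φ
    have := key (φ ∘ₗ f) (by intro x y; simp [hf x y]) x
    simp only [LinearMap.comp_apply] at this
    rw [map_sub, map_smul, this, smul_eq_mul, sub_self]
  exact sub_eq_zero.1 ((Module.forall_dual_apply_eq_zero_iff F _).1 h0)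

/-- commutators with `θ` are orthogonal to `Cent(θ)` -/
theorem ntr_mul_comm_zero (θ c h : D) (hc : Commute c θ) :
    ntr F D (c * (h * θ - θ * h)) = 0 := by
  rw [mul_sub, map_sub, ← mul_assoc, ← mul_assoc, ntr_comm (c * h) θ, ← mul_assoc, ← hc.eq,
    sub_self]

/-- orthogonal characterization of commutators: if `x ⊥ Cent(θ)` then `x ∈ [D,θ]` -/
theorem mem_comm_of_orth (θ x : D) (hx : ∀ c, Commute c θ → ntr F D (c * x) = 0) :
    ∃ h, x = h * θ - θ * h := by
  let R : Submodule F D := LinearMap.range (LinearMap.mulRight F θ - LinearMap.mulLeft F θ)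
  have hR : ∀ y, y ∈ (trD F D).orthogonal R ↔ Commute y θ := by
    intro y
    rw [LinearMap.BilinForm.mem_orthogonal_iff]
    constructor
    · intro h
      have : θ * y - y * θ = 0 := by
        apply ntr_nondeg_top (F := F)
        intro a
        have h1 := h (a * θ - θ * a) ⟨a, by simp⟩
        rw [trD_apply] at h1
        rw [sub_mul, map_sub, mul_assoc, mul_assoc, ntr_comm θ (a * y), mul_assoc,
          ← map_sub, ← mul_sub] at h1
        exact h1
      exact (sub_eq_zero.1 this).symm
    · rintro h _ ⟨a, rfl⟩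
      rw [trD_apply, ntr_comm]
      simpa using ntr_mul_comm_zero θ y a h
  have hx' : x ∈ (trD F D).orthogonal ((trD F D).orthogonal R) := by
    rw [LinearMap.BilinForm.mem_orthogonal_iff]
    intro c hc
    rw [trD_apply]
    exact hx c ((hR c).1 hc)
  rw [LinearMap.BilinForm.orthogonal_orthogonal trD_nondeg trD_isRefl] at hx'
  obtain ⟨h, hh⟩ := hx'
  exact ⟨h, by rw [← hh]; simp⟩

theorem mem_cent (θ c : D) : c ∈ Subalgebra.centralizer F ({θ} : Set D) ↔ Commute c θ := by
  rw [Subalgebra.mem_centralizer_iff]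
  constructor
  · intro h; exact (h θ rfl).symm
  · intro h g hg
    rw [Set.mem_singleton_iff] at hg
    subst hg
    exact h.eq.symm

variable (F) in
include F in
/-- `D = Cent(θ) + [D,θ]` -/
theorem exists_decomp (θ x : D) : ∃ c h : D, Commute c θ ∧ x = c + (h * θ - θ * h) := by
  let A : Subalgebra F D := Subalgebra.centralizer F ({θ} : Set D)
  obtain ⟨h, hh⟩ := mem_comm_of_orth (F := F) θ (x - pr F A x) (by
    intro c hc
    rw [mul_sub, map_sub, pr_spec A x c ((mem_cent θ c).2 hc), sub_self])
  exact ⟨pr F A x, h, (mem_cent θ _).1 (pr_mem A x), by rw [← hh]; abel⟩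

variable (F) in
include F in
/-- `Cent(θ) ∩ [D,θ] = 0` -/
theorem decomp_unique (θ c h : D) (hc : Commute c θ) (h0 : c = h * θ - θ * h) : c = 0 := by
  apply ntr_nondeg (Subalgebra.centralizer F ({θ} : Set D)) c
  · rw [Subalgebra.mem_centralizer_iff]
    intro g hg
    rw [Set.mem_singleton_iff] at hg
    subst hg
    exact hc.eq.symm
  · intro a ha
    rw [Subalgebra.mem_centralizer_iff] at ha
    have h1 := ha θ rfl
    rw [h0]
    exact ntr_mul_comm_zero θ a h h1.symm

end dom
end Crest.Agent.R180
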