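import Mathlib
import Crest.Agent.R180.Ntr

/-!
# Piece C1: Laurent series `Lau D = D((ε))` over `Lau F = F((ε))` (independent of the rest)

Everything is checked on coefficients.  `Lau D` is an algebra over the field `Lau F` via
`lauAlgebra` (coefficientwise algebra map, see `Defs.lean`).  A finite `F`-basis of `D` is a
`Lau F`-basis of `Lau D`.
-/

set_option autoImplicit false
set_option linter.unusedSectionVars false

namespace Crest.Agent.R180
open Module

/-- `ε^n` -/
noncomputable def epow {R : Type} [Ring R] (n : ℤ) : Lau R := HahnSeries.single n 1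

section general
variable {R : Type} [Ring R]

theorem epow_coeff_mul (n k : ℤ) (x : Lau R) : (epow n * x).coeff k = x.coeff (k - n) := by
  rw [epow, HahnSeries.coeff_single_mul, one_mul]

theorem epow_mul_coeff (n k : ℤ) (x : Lau R) : (x * epow n).coeff k = x.coeff (k - n) := by
  rw [epow, HahnSeries.coeff_mul_single, mul_one]

theorem epow_comm (n : ℤ) (x : Lau R) : epow n * x = x * epow n := by
  ext k
  rw [epow_coeff_mul, epow_mul_coeff]

theorem epow_add (m n : ℤ) : (epow (m + n) : Lau R) = epow m * epow n := by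
  rw [epow, epow, epow, HahnSeries.single_mul_single, one_mul]

theorem epow_zero : (epow 0 : Lau R) = 1 := rfl

theorem IsInt.add {x y : Lau R} (hx : IsInt x) (hy : IsInt y) : IsInt (x + y) := by
  intro n hn
  rw [HahnSeries.coeff_add, hx n hn, hy n hn, add_zero]

/-- every Laurent series is bounded below -/
theorem lau_exists_lb (x : Lau R) : ∃ p : ℤ, ∀ k < p, x.coeff k = 0 :=
  ⟨x.order, fun _ hk => HahnSeries.coeff_eq_zero_of_lt_order hk⟩

theorem coeff_mul_Icc (x y : Lau R) (p q n : ℤ) (hx : ∀ k < p, x.coeff k = 0)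
    (hy : ∀ k < q, y.coeff k = 0) :
    (x * y).coeff n = ∑ i ∈ Finset.Icc p (n - q), x.coeff i * y.coeff (n - i) := by
  rw [HahnSeries.coeff_mul]
  refine Finset.sum_bij_ne_zero (fun a _ _ => a.1) ?_ ?_ ?_ ?_
  · intro a ha _
    rw [Finset.mem_antidiagonal] at ha
    obtain ⟨h1, h2, h3⟩ := ha
    have h1' : ¬ a.1 < p := fun h => h1 (hx _ h)
    have h2' : ¬ a.2 < q := fun h => h2 (hy _ h)
    rw [Finset.mem_Icc]
    constructor <;> omega
  · intro a ha _ b hb _ hab
    rw [Finset.mem_antidiagonal] at ha hb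
    ext
    · exact hab
    · have := ha.2.2; have := hb.2.2; omega
  · intro i _ hne
    refine ⟨(i, n - i), ?_, ?_, rfl⟩
    · rw [Finset.mem_antidiagonal]
      refine ⟨?_, ?_, by simp⟩
      · intro h; exact hne (by rw [h, zero_mul])
      · intro h; exact hne (by rw [h, mul_zero])
    · exact hne
  · intro a ha _
    rw [Finset.mem_antidiagonal] at ha
    have : n - a.1 = a.2 := by have := ha.2.2; omega
    rw [this]

/-- more general leading coefficient rule -/
theorem coeff_mul_lead (x y : Lau R) (p q : ℤ) (hx : ∀ n < p, x.coeff n = 0)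
    (hy : ∀ n < q, y.coeff n = 0) :
    (∀ n < p + q, (x * y).coeff n = 0) ∧ (x * y).coeff (p + q) = x.coeff p * y.coeff q ∧
    (x * y).coeff (p + q + 1) = x.coeff p * y.coeff (q + 1) + x.coeff (p + 1) * y.coeff q := by
  refine ⟨fun n hn => ?_, ?_, ?_⟩
  · rw [coeff_mul_Icc x y p q n hx hy, Finset.Icc_eq_empty (by omega), Finset.sum_empty]
  · rw [coeff_mul_Icc x y p q _ hx hy]
    have : p + q - q = p := by ring
    rw [this, Finset.Icc_self, Finset.sum_singleton]
    congr 2; ring
  · rw [coeff_mul_Icc x y p q _ hx hy]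
    have : Finset.Icc p (p + q + 1 - q) = {p, p + 1} := by
      ext k; simp only [Finset.mem_Icc, Finset.mem_insert, Finset.mem_singleton]; omega
    rw [this, Finset.sum_pair (by omega)]
    congr 3 <;> ring

theorem IsInt.mul {x y : Lau R} (hx : IsInt x) (hy : IsInt y) :
    IsInt (x * y) ∧ (x * y).coeff 0 = x.coeff 0 * y.coeff 0 := by
  obtain ⟨h1, h2, _⟩ := coeff_mul_lead x y 0 0 hx hy
  rw [add_zero] at h1 h2
  exact ⟨h1, h2⟩

theorem ofPS_coeff_nat (y : PowerSeries R) (n : ℕ) :
    (ofPS y).coeff (n : ℤ) = PowerSeries.coeff n y := by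
  exact HahnSeries.ofPowerSeries_apply_coeff y n

theorem isInt_ofPS (y : PowerSeries R) : IsInt (ofPS y) := by
  intro n hn
  rw [HahnSeries.ofPowerSeries_apply]
  apply HahnSeries.embDomain_of_notMem_range
  rintro ⟨m, hm⟩
  change (m : ℤ) = n at hm
  omega

theorem exists_ofPS (x : Lau R) (hx : IsInt x) : ∃ y : PowerSeries R, ofPS y = x := by
  refine ⟨PowerSeries.mk fun n => x.coeff (n : ℤ), ?_⟩
  ext n
  rcases lt_or_ge n 0 with h | h
  · rw [isInt_ofPS _ n h, hx n h]
  · obtain ⟨m, rfl⟩ := Int.eq_ofNat_of_zero_le h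
    rw [ofPS_coeff_nat, PowerSeries.coeff_mk]

/-- normalisation of a nonzero vector -/
theorem exists_normalize {κ : Type} [Finite κ] (x : κ → Lau R) (hx : x ≠ 0) :
    ∃ n : ℤ, (∀ k, IsInt (epow n * x k)) ∧ ∃ k, (epow n * x k).coeff 0 ≠ 0 := by
  classical
  have hne : {k | x k ≠ 0}.Nonempty := by
    by_contra h
    apply hx
    ext1 k
    by_contra h'
    exact h ⟨k, h'⟩
  obtain ⟨k, hk, hmin⟩ := Set.exists_min_image {k | x k ≠ 0} (fun k => (x k).order)
    (Set.toFinite _) hne
  refine ⟨-(x k).order, fun l n hn => ?_, k, ?_⟩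
  · rw [epow_coeff_mul]
    by_cases hl : x l = 0
    · rw [hl, HahnSeries.coeff_zero]
    · apply HahnSeries.coeff_eq_zero_of_lt_order
      have := hmin l hl

      omega
  · rw [epow_coeff_mul]
    have : 0 - -(x k).order = (x k).order := by ring
    rw [this]
    exact fun h => hk (HahnSeries.coeff_order_eq_zero.1 h)

theorem eulerD_coeff (x : Lau R) (n : ℤ) : (eulerD x).coeff n = n • x.coeff n := rfl

theorem eulerD_add (x y : Lau R) : eulerD (x + y) = eulerD x + eulerD y := by
  ext n
  rw [HahnSeries.coeff_add, eulerD_coeff, eulerD_coeff, eulerD_coeff, HahnSeries.coeff_add,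
    smul_add]

theorem eulerD_mul (x y : Lau R) : eulerD (x * y) = eulerD x * y + x * eulerD y := by
  obtain ⟨p, hp⟩ := lau_exists_lb x
  obtain ⟨q, hq⟩ := lau_exists_lb y
  ext n
  rw [HahnSeries.coeff_add, eulerD_coeff, coeff_mul_Icc x y p q n hp hq,
    coeff_mul_Icc (eulerD x) y p q n (fun k hk => by rw [eulerD_coeff, hp k hk, smul_zero]) hq,
    coeff_mul_Icc x (eulerD y) p q n hp (fun k hk => by rw [eulerD_coeff, hq k hk, smul_zero]),
    ← Finset.sum_add_distrib, Finset.smul_sum]
  refine Finset.sum_congr rfl fun i _ => ?_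
  rw [eulerD_coeff, eulerD_coeff, smul_mul_assoc, mul_smul_comm, ← add_smul]
  congr 1; ring

theorem eulerD_lc (x : R) : eulerD (lc x) = 0 := by
  ext n
  rw [eulerD_coeff, HahnSeries.coeff_zero]
  by_cases h : n = 0
  · rw [h, zero_smul]
  · rw [HahnSeries.C_apply, HahnSeries.coeff_single_of_ne h, smul_zero]

theorem lc_coeff_zero (x : R) : (lc x : Lau R).coeff 0 = x := by
  rw [HahnSeries.C_apply, HahnSeries.coeff_single_same]

theorem lc_coeff_ne (x : R) (n : ℤ) (h : n ≠ 0) : (lc x : Lau R).coeff n = 0 := by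
  rw [HahnSeries.C_apply, HahnSeries.coeff_single_of_ne h]

theorem eulerD_eq_zero [IsDomain R] [CharZero R] (x : Lau R) (hx : eulerD x = 0) :
    x = lc (x.coeff 0) := by
  ext n
  by_cases h : n = 0
  · rw [h, lc_coeff_zero]
  · rw [lc_coeff_ne _ n h]
    have h1 : (eulerD x).coeff n = 0 := by rw [hx, HahnSeries.coeff_zero]
    rw [eulerD_coeff, zsmul_eq_mul] at h1
    rcases mul_eq_zero.1 h1 with h2 | h2
    · exact absurd (Int.cast_eq_zero.1 h2) h
    · exact h2

/-- inverse of a unit of the valuation ring -/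
theorem inv_int [IsDomain R] (x y : Lau R) (hxy : x * y = 1) (hx : IsInt x)
    (h0 : x.coeff 0 ≠ 0) : IsInt y ∧ x.coeff 0 * y.coeff 0 = 1 := by
  have hy : y ≠ 0 := by
    rintro rfl
    rw [mul_zero] at hxy
    have : (1 : Lau R).coeff 0 = 0 := by rw [← hxy, HahnSeries.coeff_zero]
    rw [HahnSeries.coeff_one, if_pos rfl] at this
    exact one_ne_zero this
  obtain ⟨h1, h2, _⟩ := coeff_mul_lead x y 0 y.order hx
    (fun n hn => HahnSeries.coeff_eq_zero_of_lt_order hn)
  rw [zero_add, hxy] at h2
  have h3 : y.coeff y.order ≠ 0 := fun h => hy (HahnSeries.coeff_order_eq_zero.1 h)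
  have h4 : y.order = 0 := by
    by_contra h
    rw [HahnSeries.coeff_one, if_neg h] at h2
    rcases mul_eq_zero.1 h2.symm with h5 | h5
    · exact h0 h5
    · exact h3 h5
  rw [h4, HahnSeries.coeff_one, if_pos rfl] at h2
  refine ⟨fun n hn => HahnSeries.coeff_eq_zero_of_lt_order (by rw [h4]; exact hn), h2.symm⟩

end general

section alg
variable {F D : Type} [Field F] [Ring D] [Algebra F D]

theorem lau_algebraMap_coeff (f : Lau F) (n : ℤ) :
    (algebraMap (Lau F) (Lau D) f).coeff n = algebraMap F D (f.coeff n) := rfl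

theorem lau_smul_def (f : Lau F) (x : Lau D) : f • x = algebraMap (Lau F) (Lau D) f * x :=
  Algebra.smul_def f x

theorem lau_algebraMap_epow (n : ℤ) : algebraMap (Lau F) (Lau D) (epow n) = epow n := by
  ext k
  rw [lau_algebraMap_coeff, epow, epow]
  by_cases h : k = n
  · rw [h, HahnSeries.coeff_single_same, HahnSeries.coeff_single_same, map_one]
  · rw [HahnSeries.coeff_single_of_ne h, HahnSeries.coeff_single_of_ne h, map_zero]

theorem lau_algebraMap_lc (a : F) :
    algebraMap (Lau F) (Lau D) (lc a) = lc (algebraMap F D a) := by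
  ext k
  rw [lau_algebraMap_coeff]
  by_cases h : k = 0
  · rw [h, lc_coeff_zero, lc_coeff_zero]
  · rw [lc_coeff_ne _ _ h, lc_coeff_ne _ _ h, map_zero]

theorem lc_mul_coeff {R : Type} [Ring R] (a : R) (x : Lau R) (n : ℤ) :
    (lc a * x).coeff n = a * x.coeff n := by
  rw [HahnSeries.C_apply, HahnSeries.coeff_single_zero_mul]

theorem mul_lc_coeff {R : Type} [Ring R] (a : R) (x : Lau R) (n : ℤ) :
    (x * lc a).coeff n = x.coeff n * a := by
  rw [HahnSeries.C_apply, HahnSeries.coeff_mul_single_zero]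

theorem epow_smul (n : ℤ) (x : Lau D) : (epow n : Lau F) • x = epow n * x := by
  rw [lau_smul_def, lau_algebraMap_epow]

theorem lc_smul (a : F) (x : Lau D) (n : ℤ) : ((lc a : Lau F) • x).coeff n = a • x.coeff n := by
  rw [lau_smul_def, lau_algebraMap_lc, lc_mul_coeff, Algebra.smul_def]

theorem smul_int (f : Lau F) (x : Lau D) (hf : IsInt f) (hx : IsInt x) :
    IsInt (f • x) ∧ (f • x).coeff 0 = f.coeff 0 • x.coeff 0 := by
  rw [lau_smul_def]
  have h : IsInt (algebraMap (Lau F) (Lau D) f) := fun n hn => by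
    rw [lau_algebraMap_coeff, hf n hn, map_zero]
  obtain ⟨h1, h2⟩ := h.mul hx
  exact ⟨h1, by rw [h2, lau_algebraMap_coeff, Algebra.smul_def]⟩

instance lau_charZero [CharZero F] : CharZero (Lau F) := by
  refine ⟨fun m n hmn => ?_⟩
  have h : ∀ k : ℕ, ((k : Lau F)).coeff 0 = (k : F) := fun k => by
    rw [← HahnSeries.single_zero_natCast, HahnSeries.coeff_single_same]
  have h1 : ((m : Lau F)).coeff 0 = ((n : Lau F)).coeff 0 := by
    rw [hmn]
  rw [h, h] at h1
  exact_mod_cast h1

instance lau_isDomain [IsDomain D] : IsDomain (Lau D) := inferInstance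

/-- coefficientwise coordinates -/
noncomputable def lauCoord (l : D →ₗ[F] F) (x : Lau D) : Lau F := x.map l

theorem lauCoord_coeff (l : D →ₗ[F] F) (x : Lau D) (n : ℤ) :
    (lauCoord l x).coeff n = l (x.coeff n) := rfl

theorem lauCoord_smul (l : D →ₗ[F] F) (f : Lau F) (x : Lau D) :
    lauCoord l (f • x) = f * lauCoord l x := by
  obtain ⟨p, hp⟩ := lau_exists_lb f
  obtain ⟨q, hq⟩ := lau_exists_lb x
  ext n
  rw [lauCoord_coeff, lau_smul_def, coeff_mul_Icc (algebraMap (Lau F) (Lau D) f) x p q n
    (fun k hk => by rw [lau_algebraMap_coeff, hp k hk, map_zero]) hq,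
    coeff_mul_Icc f (lauCoord l x) p q n hp
    (fun k hk => by rw [lauCoord_coeff, hq k hk, map_zero]), map_sum]
  refine Finset.sum_congr rfl fun i _ => ?_
  rw [lau_algebraMap_coeff, lauCoord_coeff, ← Algebra.smul_def, map_smul, smul_eq_mul]

theorem lauCoord_add (l : D →ₗ[F] F) (x y : Lau D) :
    lauCoord l (x + y) = lauCoord l x + lauCoord l y := by
  ext n
  rw [HahnSeries.coeff_add, lauCoord_coeff, lauCoord_coeff, lauCoord_coeff,
    HahnSeries.coeff_add, map_add]

theorem lau_coeff_sum {R ι : Type} [Ring R] (s : Finset ι) (f : ι → Lau R) (n : ℤ) :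
    (∑ i ∈ s, f i).coeff n = ∑ i ∈ s, (f i).coeff n := by
  classical
  induction s using Finset.induction_on with
  | empty => simp
  | insert a s ha ih => rw [Finset.sum_insert ha, Finset.sum_insert ha, HahnSeries.coeff_add, ih]

theorem lau_smul_lc_coeff (f : Lau F) (d : D) (n : ℤ) :
    (f • (lc d : Lau D)).coeff n = f.coeff n • d := by
  rw [lau_smul_def, mul_lc_coeff, lau_algebraMap_coeff, Algebra.smul_def]

/-- the coordinate isomorphism -/
noncomputable def lauEquiv {n : Type} [Fintype n] (b : Basis n F D) :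
    Lau D ≃ₗ[Lau F] (n → Lau F) where
  toFun x k := lauCoord (b.coord k) x
  map_add' x y := by
    funext k
    exact lauCoord_add _ _ _
  map_smul' f x := by
    funext k
    exact lauCoord_smul _ _ _
  invFun g := ∑ k, g k • lc (b k)
  left_inv x := by
    ext j
    rw [lau_coeff_sum]
    simp only [lau_smul_lc_coeff, lauCoord_coeff, Basis.coord_apply]
    exact b.sum_repr _
  right_inv g := by
    classical
    funext k
    ext j
    rw [lauCoord_coeff, lau_coeff_sum]
    simp only [lau_smul_lc_coeff, Basis.coord_apply, map_sum, map_smul, Basis.repr_self,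
      Finsupp.single_apply,
      smul_eq_mul, mul_ite, mul_one, mul_zero, Finset.sum_ite_eq', Finset.mem_univ, if_true]

/-- a basis of `D/F` gives a basis of `Lau D/Lau F` -/
noncomputable def lauBasis {n : Type} [Fintype n] (b : Basis n F D) : Basis n (Lau F) (Lau D) :=
  Basis.ofEquivFun (lauEquiv b)

theorem lauBasis_apply {n : Type} [Fintype n] (b : Basis n F D) (k : n) :
    lauBasis b k = lc (b k) := by
  classical
  rw [lauBasis, Basis.coe_ofEquivFun]
  change ∑ l, (Function.update (0 : n → Lau F) k 1) l • lc (b l) = _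
  rw [Finset.sum_eq_single k]
  · rw [Function.update_self, one_smul]
  · intro l _ hl
    rw [Function.update_of_ne hl, Pi.zero_apply, zero_smul]
  · intro h
    exact absurd (Finset.mem_univ k) h

theorem lauBasis_repr {n : Type} [Fintype n] (b : Basis n F D) (x : Lau D) (k : n) (j : ℤ) :
    ((lauBasis b).repr x k).coeff j = b.repr (x.coeff j) k := by
  rw [lauBasis, Basis.ofEquivFun_repr_apply]
  rfl

instance lau_finite [FiniteDimensional F D] : FiniteDimensional (Lau F) (Lau D) :=
  Module.Finite.of_basis (lauBasis (Module.finBasis F D))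

theorem lau_finrank [FiniteDimensional F D] : finrank (Lau F) (Lau D) = finrank F D := by
  rw [Module.finrank_eq_card_basis (lauBasis (Module.finBasis F D)), Fintype.card_fin]

/-- an element is in `Lau F` iff all coefficients are in `F` -/
theorem lau_mem_range (x : Lau D) :
    (∃ a : Lau F, x = algebraMap (Lau F) (Lau D) a) ↔
      ∀ n, ∃ a : F, x.coeff n = algebraMap F D a := by
  classical
  constructor
  · rintro ⟨a, rfl⟩ n
    exact ⟨a.coeff n, rfl⟩
  · intro h
    choose g hg using h
    let c : ℤ → F := fun n => if x.coeff n = 0 then 0 else g n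
    have hc : Function.support c ⊆ x.support := by
      intro n hn h0
      exact hn (if_pos h0)
    refine ⟨⟨c, x.isPWO_support.mono hc⟩, ?_⟩
    ext n
    rw [lau_algebraMap_coeff]
    change x.coeff n = algebraMap F D (if x.coeff n = 0 then 0 else g n)
    split_ifs with h0
    · rw [h0, map_zero]
    · exact hg n

instance lau_central [Algebra.IsCentral F D] : Algebra.IsCentral (Lau F) (Lau D) := by
  refine ⟨fun x hx => ?_⟩
  rw [Algebra.mem_bot]
  obtain ⟨a, ha⟩ := (lau_mem_range (F := F) x).2 (fun n => by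
    have h1 : x.coeff n ∈ Subalgebra.center F D := by
      rw [Subalgebra.mem_center_iff]
      intro d
      have h2 := (Subalgebra.mem_center_iff.1 hx) (lc d)
      have h3 : ((lc d : Lau D) * x).coeff n = (x * lc d).coeff n := by rw [h2]
      rwa [lc_mul_coeff, mul_lc_coeff] at h3
    have h4 := Algebra.IsCentral.out h1
    rw [Algebra.mem_bot] at h4
    obtain ⟨a, ha⟩ := h4
    exact ⟨a, ha.symm⟩)
  exact ⟨a, ha.symm⟩

theorem ntr_lau [CharZero F] [FiniteDimensional F D] (x : Lau D) (n : ℤ) :
    (ntr (Lau F) (Lau D) x).coeff n = ntr F D (x.coeff n) := by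
  classical
  set b := Module.finBasis F D with hb
  have hinv : ((finrank (Lau F) (Lau D) : Lau F))⁻¹ = lc ((finrank F D : F)⁻¹) := by
    rw [lau_finrank]
    by_cases h : (finrank F D : F) = 0
    · have h' : finrank F D = 0 := by exact_mod_cast h
      rw [h', Nat.cast_zero, Nat.cast_zero, inv_zero, inv_zero, map_zero]
    · apply inv_eq_of_mul_eq_one_right
      have : (finrank F D : Lau F) = lc (finrank F D : F) := by
        rw [map_natCast]
      rw [this, ← map_mul, mul_inv_cancel₀ h, map_one]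
  have h1 : LinearMap.trace (Lau F) (Lau D) (LinearMap.mul (Lau F) (Lau D) x) =
      ∑ k, (lauBasis b).repr (x * lc (b k)) k := by
    rw [LinearMap.trace_eq_matrix_trace (Lau F) (lauBasis b), Matrix.trace]
    refine Finset.sum_congr rfl fun k _ => ?_
    rw [Matrix.diag_apply, LinearMap.toMatrix_apply, lauBasis_apply, LinearMap.mul_apply']
  have h2 : LinearMap.trace F D (LinearMap.mul F D (x.coeff n)) =
      ∑ k, b.repr (x.coeff n * b k) k := by
    rw [LinearMap.trace_eq_matrix_trace F b, Matrix.trace]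
    refine Finset.sum_congr rfl fun k _ => ?_
    rw [Matrix.diag_apply, LinearMap.toMatrix_apply, LinearMap.mul_apply']
  rw [ntr, ntr, LinearMap.smul_apply, LinearMap.smul_apply, LinearMap.comp_apply,
    LinearMap.comp_apply, h1, h2, hinv, smul_eq_mul, lc_mul_coeff, smul_eq_mul, lau_coeff_sum]
  congr 1
  refine Finset.sum_congr rfl fun k _ => ?_
  rw [lauBasis_repr, mul_lc_coeff]

end alg
end Crest.Agent.R180
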