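import Mathlib
import Crest.Agent.R180.Laurent

/-!
# Piece D2: central extensions `D₁ = D ⊗_F E₁`  (needs `Ntr`, part 2 needs `Laurent`)

For an `F`-basis `e_k` of `D` the elements `i(e_k) b_l` form an `F₁`-basis of `D₁` (fields `indep`,
`span`).  So every `F`-linear `f : D → D` has a unique extension `ext f : D₁ → D₁`, which is
`E₁`-linear: `ext f (i d * y) = i (f d) * y` for `y ∈ E₁`.
* `E_eq_span`: if `x = Σ x_l b_l` (`x_l ∈ D F₁`) commutes with `i(D)`, then every `x_l` does, so
  `x_l ∈ F₁` (base change of `Z(D) = F`: write `x_l = Σ_k i(e_k) f_k` with `e_0 = 1`; use that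
  `(h ↦ [h, e_k])_k` has kernel `F`; or use the functionals: `ext`).
* `bcE_ker`: exactness of base change of vector spaces.
-/

set_option autoImplicit false
set_option linter.unusedSectionVars false

namespace Crest.Agent.R180
open Module

namespace CExt

/-- generalized inverse of a linear map -/
theorem exists_ginv {F V W : Type*} [Field F] [AddCommGroup V] [Module F V] [AddCommGroup W]
    [Module F W] (f : V →ₗ[F] W) : ∃ g : W →ₗ[F] V, ∀ x, f (g (f x)) = f x := by
  obtain ⟨s, hs⟩ := LinearMap.exists_rightInverse_of_surjective f.rangeRestrict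
    (LinearMap.range_rangeRestrict f)
  obtain ⟨g, hg⟩ := LinearMap.exists_extend s
  refine ⟨g, fun x => ?_⟩
  have h1 : g (f x) = s (f.rangeRestrict x) := by
    have := LinearMap.congr_fun hg (f.rangeRestrict x)
    simpa using this
  have h2 := LinearMap.congr_fun hs (f.rangeRestrict x)
  have h3 := congrArg Subtype.val h2
  rw [h1]
  simpa using h3

/-- projection onto a subspace -/
theorem exists_proj {F V : Type*} [Field F] [AddCommGroup V] [Module F V] (W : Submodule F V) :
    ∃ p : V →ₗ[F] V, (∀ x, p x ∈ W) ∧ ∀ x ∈ W, p x = x := by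
  obtain ⟨g, hg⟩ := LinearMap.exists_extend (LinearMap.id : W →ₗ[F] W)
  refine ⟨W.subtype ∘ₗ g, fun x => (g x).2, fun x hx => ?_⟩
  have := LinearMap.congr_fun hg ⟨x, hx⟩
  simp only [LinearMap.coe_comp, Function.comp_apply, Submodule.subtype_apply,
    LinearMap.id_coe, id_eq] at this ⊢
  rw [this]

variable {F D F₁ D₁ β : Type} [Field F] [Ring D] [Algebra F D] [Field F₁] [Ring D₁]
    [Algebra F₁ D₁] (e : CExt F D F₁ D₁ β)

theorem φ_inj : Function.Injective e.φ := e.φ.injective

theorem b_mem_E (k : β) : e.b k ∈ e.E := by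
  rw [E, Subalgebra.mem_centralizer_iff]
  rintro _ ⟨d, rfl⟩
  exact e.comm d k

theorem mem_E_iff (x : D₁) : x ∈ e.E ↔ ∀ d, Commute (e.i d) x := by
  rw [E, Subalgebra.mem_centralizer_iff]
  constructor
  · intro h d
    exact h _ ⟨d, rfl⟩
  · rintro h _ ⟨d, rfl⟩
    exact h d

theorem alg_mem_E (a : F₁) : algebraMap F₁ D₁ a ∈ e.E := Subalgebra.algebraMap_mem _ _

theorem span_DE : Submodule.span F₁ {x | ∃ d, ∃ y ∈ e.E, x = e.i d * y} = ⊤ := by
  rw [eq_top_iff, ← e.span]
  apply Submodule.span_mono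
  rintro _ ⟨⟨d, l⟩, rfl⟩
  exact ⟨d, e.b l, e.b_mem_E l, rfl⟩

theorem i_smul_api (a : F) (d : D) : e.i (a • d) = e.φ a • e.i d := by
  rw [Algebra.smul_def, map_mul, e.i_alg, Algebra.smul_def]

theorem indep_fin {κ : Type} [Finite κ] (v : κ → D) (hv : LinearIndependent F v) :
    LinearIndependent F₁ (fun p : κ × β => e.i (v p.1) * e.b p.2) := by
  obtain ⟨n, ⟨σ⟩⟩ := Finite.exists_equiv_fin κ
  have h1 := e.indep n (v ∘ σ.symm) (hv.comp _ σ.symm.injective)
  have h2 := h1.comp (fun p : κ × β => (σ p.1, p.2)) (by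
    rintro ⟨a, b⟩ ⟨c, d⟩ h
    simp only [Prod.mk.injEq, EmbeddingLike.apply_eq_iff_eq] at h
    rw [h.1, h.2])
  have h3 : (fun p : κ × β => e.i (v p.1) * e.b p.2) =
      (fun p : Fin n × β => e.i ((v ∘ σ.symm) p.1) * e.b p.2) ∘ (fun p : κ × β => (σ p.1, p.2)) := by
    funext p
    simp
  rw [h3]
  exact h2

theorem span_bas {κ : Type} [Finite κ] (v : Basis κ F D) :
    ⊤ ≤ Submodule.span F₁ (Set.range (fun p : κ × β => e.i (v p.1) * e.b p.2)) := by
  classical
  have := Fintype.ofFinite κ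
  rw [← e.span, Submodule.span_le]
  rintro _ ⟨⟨d, l⟩, rfl⟩
  have h : e.i d * e.b l = ∑ k, e.φ (v.repr d k) • (e.i (v k) * e.b l) := by
    conv_lhs => rw [← v.sum_repr d]
    rw [map_sum, Finset.sum_mul]
    refine Finset.sum_congr rfl fun k _ => ?_
    rw [e.i_smul_api, smul_mul_assoc]
  simp only [SetLike.mem_coe]
  rw [h]
  exact Submodule.sum_mem _ fun k _ => Submodule.smul_mem _ _ (Submodule.subset_span ⟨(k, l), rfl⟩)

/-- the `F₁`-basis `i(v_k) b_l` of `D₁` -/
noncomputable def bas {κ : Type} [Finite κ] (v : Basis κ F D) : Basis (κ × β) F₁ D₁ :=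
  Basis.mk (e.indep_fin v v.linearIndependent) (e.span_bas v)

@[simp] theorem bas_apply {κ : Type} [Finite κ] (v : Basis κ F D) (p : κ × β) :
    e.bas v p = e.i (v p.1) * e.b p.2 := by
  simp [bas]

open Classical in
/-- `E₁`-linear extension of an `F`-linear endomorphism of `D` -/
noncomputable def ext (f : D →ₗ[F] D) : D₁ →ₗ[F₁] D₁ :=
  if h : ∃ f' : D₁ →ₗ[F₁] D₁, ∀ d, ∀ y ∈ e.E, f' (e.i d * y) = e.i (f d) * y then h.choose else 0

/-- `F`-linear functional, seen as endomorphism of `D` -/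
noncomputable def fun' (F : Type) {D : Type} [Field F] [Ring D] [Algebra F D] (f : D →ₗ[F] F) :
    D →ₗ[F] D := (Algebra.linearMap F D) ∘ₗ f

section fd
variable [FiniteDimensional F D] [IsDomain D] [Fintype β] [CharZero F]
  [Algebra.IsCentral F D]

include e in
theorem finrank_eq : finrank F₁ D₁ = finrank F D * Fintype.card β := by
  rw [finrank_eq_card_basis (e.bas (finBasis F D)), Fintype.card_prod, Fintype.card_fin]

/-- auxiliary version of `ext` -/
noncomputable def ext0 (f : D →ₗ[F] D) : D₁ →ₗ[F₁] D₁ :=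
  (e.bas (finBasis F D)).constr F₁ (fun p => e.i (f (finBasis F D p.1)) * e.b p.2)

theorem ext0_b (f : D →ₗ[F] D) (d : D) (l : β) :
    e.ext0 f (e.i d * e.b l) = e.i (f d) * e.b l := by
  have key : ∀ k, e.ext0 f (e.i (finBasis F D k) * e.b l) = e.i (f (finBasis F D k)) * e.b l := by
    intro k
    have := (e.bas (finBasis F D)).constr_basis F₁
      (fun p => e.i (f (finBasis F D p.1)) * e.b p.2) (k, l)
    rw [bas_apply] at this
    exact this
  conv_lhs => rw [← (finBasis F D).sum_repr d]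
  conv_rhs => rw [← (finBasis F D).sum_repr d]
  simp only [map_sum, Finset.sum_mul, map_smul, e.i_smul_api, smul_mul_assoc, key]

theorem hom_ext_b {g g' : D₁ →ₗ[F₁] D₁}
    (h : ∀ d l, g (e.i d * e.b l) = g' (e.i d * e.b l)) : g = g' := by
  refine LinearMap.ext_on_range (v := fun p : D × β => e.i p.1 * e.b p.2) e.span ?_
  rintro ⟨d, l⟩
  exact h d l

theorem E_eq_span : Subalgebra.toSubmodule e.E = Submodule.span F₁ (Set.range e.b) := by
  apply le_antisymm
  · intro x hx
    rw [Subalgebra.mem_toSubmodule, mem_E_iff] at hx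
    -- the map `Δ`
    let n := finrank F D
    let v : Basis (Fin n) F D := finBasis F D
    let δ : Fin n → (D →ₗ[F] D) := fun j => LinearMap.mulLeft F (v j) - LinearMap.mulRight F (v j)
    let Δ : D →ₗ[F] (Fin n → D) := LinearMap.pi δ
    obtain ⟨G, hG⟩ := exists_ginv Δ
    let g : Fin n → (D →ₗ[F] D) := fun j => G ∘ₗ LinearMap.single F (fun _ => D) j
    have hGg : ∀ y, G y = ∑ j, g j (y j) := by
      intro y
      have : y = ∑ j, Pi.single (M := fun _ : Fin n => D) j (y j) :=
        (Finset.univ_sum_single y).symm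
      conv_lhs => rw [this]
      rw [map_sum]
      rfl
    -- kernel of Δ
    have hker : ∀ h, Δ h = 0 → ∃ a : F, algebraMap F D a = h := by
      intro h hh
      have h1 : ∀ j, v j * h = h * v j := by
        intro j
        have := congrFun hh j
        simpa [Δ, δ, sub_eq_zero] using this
      have h2 : ∀ d, d * h = h * d := by
        intro d
        rw [← v.sum_repr d, Finset.sum_mul, Finset.mul_sum]
        refine Finset.sum_congr rfl fun k _ => ?_
        rw [smul_mul_assoc, mul_smul_comm, h1]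
      have h3 : h ∈ Subalgebra.center F D := by
        rw [Subalgebra.mem_center_iff]
        exact h2
      rw [Algebra.IsCentral.center_eq_bot, Algebra.mem_bot] at h3
      exact h3
    -- the residual functional
    let ρ : D →ₗ[F] D := LinearMap.id - G ∘ₗ Δ
    have hρ : ∀ h, ∃ a : F, algebraMap F D a = ρ h := by
      intro h
      apply hker
      simp only [ρ, LinearMap.sub_apply, LinearMap.id_coe, id_eq, LinearMap.coe_comp,
        Function.comp_apply, map_sub, hG, sub_self]
    -- extension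
    have hext : (LinearMap.id : D₁ →ₗ[F₁] D₁) = ∑ j, e.ext0 (g j) ∘ₗ e.ext0 (δ j) + e.ext0 ρ := by
      apply e.hom_ext_b
      intro d l
      simp only [LinearMap.id_coe, id_eq, LinearMap.add_apply, LinearMap.sum_apply,
        LinearMap.coe_comp, Function.comp_apply, ext0_b]
      rw [← Finset.sum_mul, ← map_sum, ← add_mul, ← map_add]
      congr 2
      have := hGg (Δ d)
      simp only [ρ, LinearMap.sub_apply, LinearMap.id_coe, id_eq, LinearMap.coe_comp,
        Function.comp_apply]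
      rw [this]
      simp [Δ]
    have hδ : ∀ j, e.ext0 (δ j) =
        LinearMap.mulLeft F₁ (e.i (v j)) - LinearMap.mulRight F₁ (e.i (v j)) := by
      intro j
      apply e.hom_ext_b
      intro d l
      have hc : e.b l * e.i (v j) = e.i (v j) * e.b l := (e.comm (v j) l).symm
      simp only [ext0_b, δ, LinearMap.sub_apply, LinearMap.mulLeft_apply,
        LinearMap.mulRight_apply, map_sub, map_mul, sub_mul, mul_assoc, hc]
    have hx0 : ∀ j, e.ext0 (δ j) x = 0 := by
      intro j
      rw [hδ]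
      simp [(hx (v j)).eq]
    have hx1 := LinearMap.congr_fun hext x
    simp only [LinearMap.id_coe, id_eq, LinearMap.add_apply, LinearMap.sum_apply,
        LinearMap.coe_comp, Function.comp_apply, hx0, map_zero, Finset.sum_const_zero,
        zero_add] at hx1
    rw [hx1]
    -- values of `ext0 ρ`
    have hall : ∀ z ∈ Submodule.span F₁ (Set.range fun p : D × β => e.i p.1 * e.b p.2),
        e.ext0 ρ z ∈ Submodule.span F₁ (Set.range e.b) := by
      intro z hz
      induction hz using Submodule.span_induction with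
      | mem z hz =>
        obtain ⟨⟨d, l⟩, rfl⟩ := hz
        simp only [ext0_b]
        obtain ⟨a, ha⟩ := hρ d
        rw [← ha, e.i_alg, ← Algebra.smul_def]
        exact Submodule.smul_mem _ _ (Submodule.subset_span ⟨l, rfl⟩)
      | zero => simp
      | add z w _ _ hz hw => rw [map_add]; exact Submodule.add_mem _ hz hw
      | smul a z _ hz => rw [map_smul]; exact Submodule.smul_mem _ _ hz
    exact hall x (by rw [e.span]; trivial)
  · rw [Submodule.span_le]
    rintro _ ⟨l, rfl⟩
    exact e.b_mem_E l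

include e in
theorem b_indep : LinearIndependent F₁ e.b := by
  have h1 := e.indep 1 (fun _ => (1 : D)) (by
    rw [linearIndependent_unique_iff]
    exact one_ne_zero)
  have h2 := h1.comp (fun k : β => ((0 : Fin 1), k)) (by
    intro a b h
    simpa using h)
  have h3 : e.b = (fun p : Fin 1 × β => e.i 1 * e.b p.2) ∘ (fun k : β => ((0 : Fin 1), k)) := by
    funext k
    simp
  rw [h3]
  exact h2

theorem finrank_E : finrank F₁ e.E = Fintype.card β := by
  have h1 : finrank F₁ e.E = finrank F₁ (Subalgebra.toSubmodule e.E) := rfl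
  rw [h1, e.E_eq_span, finrank_span_eq_card e.b_indep]

theorem mem_E_span_induction (P : D₁ → Prop) (hb : ∀ l, P (e.b l)) (h0 : P 0)
    (hadd : ∀ x y, P x → P y → P (x + y)) (hsmul : ∀ (a : F₁) x, P x → P (a • x))
    (y : D₁) (hy : y ∈ e.E) : P y := by
  have hy' : y ∈ Submodule.span F₁ (Set.range e.b) := by
    rw [← e.E_eq_span]; exact hy
  induction hy' using Submodule.span_induction with
  | mem z hz => obtain ⟨l, rfl⟩ := hz; exact hb l
  | zero => exact h0
  | add z w _ _ hz hw =>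
    exact hadd _ _ (hz (by rw [← Subalgebra.mem_toSubmodule, e.E_eq_span]; assumption))
      (hw (by rw [← Subalgebra.mem_toSubmodule, e.E_eq_span]; assumption))
  | smul a z _ hz =>
    exact hsmul _ _ (hz (by rw [← Subalgebra.mem_toSubmodule, e.E_eq_span]; assumption))

theorem ext0_apply (f : D →ₗ[F] D) (d : D) (y : D₁) (hy : y ∈ e.E) :
    e.ext0 f (e.i d * y) = e.i (f d) * y := by
  refine e.mem_E_span_induction (fun y => e.ext0 f (e.i d * y) = e.i (f d) * y)
    (fun l => e.ext0_b f d l) (by simp) ?_ ?_ y hy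
  · intro x y hx hy
    simp only [mul_add, map_add, hx, hy]
  · intro a x hx
    simp only [mul_smul_comm, map_smul, hx]

theorem ext_apply (f : D →ₗ[F] D) (d : D) (y : D₁) (hy : y ∈ e.E) :
    e.ext f (e.i d * y) = e.i (f d) * y := by
  classical
  have h : ∃ f' : D₁ →ₗ[F₁] D₁, ∀ d, ∀ y ∈ e.E, f' (e.i d * y) = e.i (f d) * y :=
    ⟨e.ext0 f, e.ext0_apply f⟩
  rw [ext, dif_pos h]
  exact h.choose_spec d y hy

theorem ext_i (f : D →ₗ[F] D) (d : D) : e.ext f (e.i d) = e.i (f d) := by
  have := e.ext_apply f d 1 (one_mem _)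
  rwa [mul_one, mul_one] at this

/-- induction principle -/
theorem ind (P : D₁ → Prop) (hb : ∀ d l, P (e.i d * e.b l)) (h0 : P 0)
    (hadd : ∀ x y, P x → P y → P (x + y)) (hsmul : ∀ (a : F₁) x, P x → P (a • x))
    (x : D₁) : P x := by
  have hx : x ∈ Submodule.span F₁ (Set.range fun p : D × β => e.i p.1 * e.b p.2) := by
    rw [e.span]; trivial
  induction hx using Submodule.span_induction with
  | mem z hz => obtain ⟨p, rfl⟩ := hz; exact hb p.1 p.2
  | zero => exact h0
  | add z w _ _ hz hw => exact hadd _ _ hz hw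
  | smul a z _ hz => exact hsmul _ _ hz

theorem ext_mul_right (f : D →ₗ[F] D) (x y : D₁) (hy : y ∈ e.E) :
    e.ext f (x * y) = e.ext f x * y := by
  refine e.ind (fun x => e.ext f (x * y) = e.ext f x * y) ?_ (by simp) ?_ ?_ x
  · intro d l
    rw [mul_assoc, e.ext_apply _ _ _ (mul_mem (e.b_mem_E l) hy),
      e.ext_apply _ _ _ (e.b_mem_E l), mul_assoc]
  · intro x z hx hz
    simp only [add_mul, map_add, hx, hz]
  · intro a x hx
    simp only [smul_mul_assoc, map_smul, hx]

theorem ext_mul_left (f : D →ₗ[F] D) (x y : D₁) (hy : y ∈ e.E) :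
    e.ext f (y * x) = y * e.ext f x := by
  refine e.ind (fun x => e.ext f (y * x) = y * e.ext f x) ?_ (by simp) ?_ ?_ x
  · intro d l
    have h1 := fun d => ((e.mem_E_iff y).1 hy d).eq
    rw [← mul_assoc, ← h1, mul_assoc, e.ext_apply _ _ _ (mul_mem hy (e.b_mem_E l)),
      e.ext_apply _ _ _ (e.b_mem_E l), ← mul_assoc, h1, mul_assoc]
  · intro x z hx hz
    simp only [mul_add, map_add, hx, hz]
  · intro a x hx
    simp only [mul_smul_comm, map_smul, hx]

theorem ext_unique (f : D →ₗ[F] D) (f' : D₁ →ₗ[F₁] D₁)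
    (h : ∀ d, ∀ y ∈ e.E, f' (e.i d * y) = e.i (f d) * y) : f' = e.ext f := by
  apply e.hom_ext_b
  intro d l
  rw [h _ _ (e.b_mem_E l), e.ext_apply _ _ _ (e.b_mem_E l)]

theorem ext_b (f : D →ₗ[F] D) (d : D) (l : β) :
    e.ext f (e.i d * e.b l) = e.i (f d) * e.b l := e.ext_apply _ _ _ (e.b_mem_E l)

theorem ext_comp (f g : D →ₗ[F] D) : e.ext (f ∘ₗ g) = e.ext f ∘ₗ e.ext g := by
  apply e.hom_ext_b
  intro d l
  simp only [ext_b, LinearMap.coe_comp, Function.comp_apply]

theorem ext_add (f g : D →ₗ[F] D) : e.ext (f + g) = e.ext f + e.ext g := by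
  apply e.hom_ext_b
  intro d l
  simp only [ext_b, LinearMap.add_apply, map_add, add_mul]

theorem ext_sub (f g : D →ₗ[F] D) : e.ext (f - g) = e.ext f - e.ext g := by
  apply e.hom_ext_b
  intro d l
  simp only [ext_b, LinearMap.sub_apply, map_sub, sub_mul]

theorem ext_id : e.ext (LinearMap.id : D →ₗ[F] D) = LinearMap.id := by
  apply e.hom_ext_b
  intro d l
  simp only [ext_b, LinearMap.id_coe, id_eq]

theorem ext_zero : e.ext (0 : D →ₗ[F] D) = 0 := by
  apply e.hom_ext_b
  intro d l
  simp only [ext_b, LinearMap.zero_apply, map_zero, zero_mul]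

theorem ext_sum {κ : Type} (s : Finset κ) (f : κ → (D →ₗ[F] D)) :
    e.ext (∑ k ∈ s, f k) = ∑ k ∈ s, e.ext (f k) := by
  apply e.hom_ext_b
  intro d l
  simp only [ext_b, LinearMap.sum_apply, map_sum, Finset.sum_mul]

theorem ext_mulL (t : D) (x : D₁) : e.ext (LinearMap.mulLeft F t) x = e.i t * x := by
  have : e.ext (LinearMap.mulLeft F t) = LinearMap.mulLeft F₁ (e.i t) := by
    apply e.hom_ext_b
    intro d l
    simp only [ext_b, LinearMap.mulLeft_apply, map_mul, mul_assoc]
  rw [this, LinearMap.mulLeft_apply]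

theorem ext_mulR (t : D) (x : D₁) : e.ext (LinearMap.mulRight F t) x = x * e.i t := by
  have : e.ext (LinearMap.mulRight F t) = LinearMap.mulRight F₁ (e.i t) := by
    apply e.hom_ext_b
    intro d l
    have hc : e.b l * e.i t = e.i t * e.b l := (e.comm t l).symm
    simp only [ext_b, LinearMap.mulRight_apply, map_mul, mul_assoc, hc]
  rw [this, LinearMap.mulRight_apply]

theorem ext_fun_apply' (f : D →ₗ[F] F) (d : D) (y : D₁) (hy : y ∈ e.E) :
    e.ext (fun' F f) (e.i d * y) = algebraMap F₁ D₁ (e.φ (f d)) * y := by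
  rw [e.ext_apply _ _ _ hy]
  simp only [fun', LinearMap.coe_comp, Function.comp_apply, Algebra.linearMap_apply, e.i_alg]

/-- the extension of a functional takes values in `E₁` -/
theorem ext_fun_mem (f : D →ₗ[F] F) (x : D₁) : e.ext (fun' F f) x ∈ e.E := by
  refine e.ind (fun x => e.ext (fun' F f) x ∈ e.E) ?_ (by simp) ?_ ?_ x
  · intro d l
    rw [e.ext_fun_apply' _ _ _ (e.b_mem_E l)]
    exact mul_mem (e.alg_mem_E _) (e.b_mem_E l)
  · intro x z hx hz
    rw [map_add]
    exact add_mem hx hz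
  · intro a x hx
    rw [map_smul]
    exact Subalgebra.smul_mem _ hx _

theorem ext_fun_apply (f : D →ₗ[F] F) (d : D) (y : D₁) (hy : y ∈ e.E) :
    e.ext (fun' F f) (e.i d * y) = algebraMap F₁ D₁ (e.φ (f d)) * y :=
  e.ext_fun_apply' f d y hy

/-- expansion in a basis with coefficients in `E₁` -/
theorem sum_ext_fun {κ : Type} [Fintype κ] (v : Basis κ F D) (x : D₁) :
    x = ∑ k, e.i (v k) * e.ext (fun' F (v.coord k)) x := by
  refine e.ind (fun x => x = ∑ k, e.i (v k) * e.ext (fun' F (v.coord k)) x) ?_ (by simp) ?_ ?_ x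
  · intro d l
    conv_lhs => rw [← v.sum_repr d]
    rw [map_sum, Finset.sum_mul]
    refine Finset.sum_congr rfl fun k _ => ?_
    rw [e.ext_fun_apply' _ _ _ (e.b_mem_E l), e.i_smul_api, ← Algebra.smul_def, mul_smul_comm,
      smul_mul_assoc]
    rfl
  · intro x z hx hz
    simp only [map_add, mul_add, Finset.sum_add_distrib]
    rw [← hx, ← hz]
  · intro a x hx
    simp only [map_smul, mul_smul_comm]
    rw [← Finset.smul_sum, ← hx]

/-- if all functionals vanish then the element vanishes -/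
theorem eq_zero_of_ext_fun (x : D₁) (h : ∀ f : D →ₗ[F] F, e.ext (fun' F f) x = 0) : x = 0 := by
  rw [e.sum_ext_fun (finBasis F D) x]
  simp [h]

theorem i_mem_bc (W : Submodule F D) (w : D) (hw : w ∈ W) : e.i w ∈ e.bc W :=
  Submodule.subset_span ⟨w, hw, rfl⟩

theorem bc_le_bcE (W : Submodule F D) : e.bc W ≤ e.bcE W := by
  rw [bc, Submodule.span_le]
  rintro _ ⟨w, hw, rfl⟩
  exact Submodule.subset_span ⟨w, hw, 1, one_mem _, (mul_one _).symm⟩

theorem mul_mem_bcE (W : Submodule F D) (w : D) (hw : w ∈ W) (y : D₁) (hy : y ∈ e.E) :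
    e.i w * y ∈ e.bcE W := Submodule.subset_span ⟨w, hw, y, hy, rfl⟩

/-- `ext f` maps `W ⊗ E` into `W' ⊗ E` -/
theorem ext_mem_bcE (f : D →ₗ[F] D) (W W' : Submodule F D) (h : ∀ w ∈ W, f w ∈ W') (x : D₁)
    (hx : x ∈ e.bcE W) : e.ext f x ∈ e.bcE W' := by
  induction hx using Submodule.span_induction with
  | mem z hz =>
    obtain ⟨w, hw, y, hy, rfl⟩ := hz
    rw [e.ext_apply _ _ _ hy]
    exact e.mul_mem_bcE _ _ (h w hw) _ hy
  | zero => simp
  | add z w _ _ hz hw => rw [map_add]; exact Submodule.add_mem _ hz hw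
  | smul a z _ hz => rw [map_smul]; exact Submodule.smul_mem _ _ hz

theorem ext_mem_bc (f : D →ₗ[F] D) (W W' : Submodule F D) (h : ∀ w ∈ W, f w ∈ W') (x : D₁)
    (hx : x ∈ e.bc W) : e.ext f x ∈ e.bc W' := by
  induction hx using Submodule.span_induction with
  | mem z hz =>
    obtain ⟨w, hw, rfl⟩ := hz
    rw [e.ext_i]
    exact e.i_mem_bc _ _ (h w hw)
  | zero => simp
  | add z w _ _ hz hw => rw [map_add]; exact Submodule.add_mem _ hz hw
  | smul a z _ hz => rw [map_smul]; exact Submodule.smul_mem _ _ hz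

theorem bcE_top : e.bcE (⊤ : Submodule F D) = ⊤ := by
  rw [eq_top_iff, ← e.span_DE]
  apply Submodule.span_mono
  rintro _ ⟨d, y, hy, rfl⟩
  exact ⟨d, trivial, y, hy, rfl⟩

theorem ext_mem_of_range (f : D →ₗ[F] D) (W : Submodule F D) (h : ∀ w, f w ∈ W) (x : D₁) :
    e.ext f x ∈ e.bcE W :=
  e.ext_mem_bcE f ⊤ W (fun w _ => h w) x (by rw [e.bcE_top]; trivial)

theorem ext_eq_zero_of_mem (f : D →ₗ[F] D) (W : Submodule F D) (h : ∀ w ∈ W, f w = 0) (x : D₁)
    (hx : x ∈ e.bcE W) : e.ext f x = 0 := by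
  have := e.ext_mem_bcE f W ⊥ (fun w hw => by rw [h w hw]; exact zero_mem _) x hx
  have h2 : e.bcE (⊥ : Submodule F D) = ⊥ := by
    rw [bcE, Submodule.span_eq_bot]
    rintro _ ⟨w, hw, y, hy, rfl⟩
    rw [(Submodule.mem_bot F).1 hw, map_zero, zero_mul]
  rw [h2] at this
  exact (Submodule.mem_bot F₁).1 this

theorem bcE_ker (f : D →ₗ[F] D) : e.bcE (LinearMap.ker f) = LinearMap.ker (e.ext f) := by
  apply le_antisymm
  · intro x hx
    rw [LinearMap.mem_ker]
    exact e.ext_eq_zero_of_mem f _ (fun w hw => hw) x hx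
  · intro x hx
    rw [LinearMap.mem_ker] at hx
    obtain ⟨g, hg⟩ := exists_ginv f
    have h1 := e.ext_mem_of_range (LinearMap.id - g ∘ₗ f) (LinearMap.ker f) (by
      intro w
      simp only [LinearMap.mem_ker, LinearMap.sub_apply, LinearMap.id_coe, id_eq,
        LinearMap.coe_comp, Function.comp_apply, map_sub, hg, sub_self]) x
    rw [e.ext_sub, e.ext_id, e.ext_comp] at h1
    simpa only [LinearMap.sub_apply, LinearMap.id_coe, id_eq,
        LinearMap.coe_comp, Function.comp_apply, hx, map_zero, sub_zero] using h1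

theorem bcE_mul_E (W : Submodule F D) (x y : D₁) (hx : x ∈ e.bcE W) (hy : y ∈ e.E) :
    x * y ∈ e.bcE W ∧ y * x ∈ e.bcE W := by
  induction hx using Submodule.span_induction with
  | mem z hz =>
    obtain ⟨w, hw, y', hy', rfl⟩ := hz
    constructor
    · rw [mul_assoc]
      exact e.mul_mem_bcE _ _ hw _ (mul_mem hy' hy)
    · rw [← mul_assoc, ← ((e.mem_E_iff y).1 hy w).eq, mul_assoc]
      exact e.mul_mem_bcE _ _ hw _ (mul_mem hy hy')
  | zero => simp
  | add z w _ _ hz hw =>
    rw [add_mul, mul_add]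
    exact ⟨Submodule.add_mem _ hz.1 hw.1, Submodule.add_mem _ hz.2 hw.2⟩
  | smul a z _ hz =>
    rw [smul_mul_assoc, mul_smul_comm]
    exact ⟨Submodule.smul_mem _ _ hz.1, Submodule.smul_mem _ _ hz.2⟩

theorem bc_comm_E (x y : D₁) (hx : x ∈ e.bc (⊤ : Submodule F D)) (hy : y ∈ e.E) :
    Commute x y := by
  induction hx using Submodule.span_induction with
  | mem z hz =>
    obtain ⟨w, _, rfl⟩ := hz
    exact (e.mem_E_iff y).1 hy w
  | zero => exact Commute.zero_left _
  | add z w _ _ hz hw => exact hz.add_left hw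
  | smul a z _ hz => exact hz.smul_left a

/-- elements of `D F₁` commute with `E₁`, and conversely -/
theorem mem_bc_top_iff [IsDomain D₁] [CharZero F₁] [FiniteDimensional F₁ D₁]
    [Algebra.IsCentral F₁ D₁] (x : D₁) :
    x ∈ e.bc (⊤ : Submodule F D) ↔ ∀ y ∈ e.E, Commute x y := by
  constructor
  · intro hx y hy
    exact e.bc_comm_E x y hx hy
  · intro h
    have key : ∀ f : D →ₗ[F] F, ∃ c : F₁, algebraMap F₁ D₁ c = e.ext (fun' F f) x := by
      intro f
      have hE := e.ext_fun_mem f x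
      have h1 : ∀ y ∈ e.E, y * e.ext (fun' F f) x = e.ext (fun' F f) x * y := by
        intro y hy
        rw [← e.ext_mul_left _ _ _ hy, ← e.ext_mul_right _ _ _ hy, (h y hy).eq]
      have h2 : e.ext (fun' F f) x ∈ Subalgebra.center F₁ D₁ := by
        rw [Subalgebra.mem_center_iff]
        intro z
        refine e.ind (fun z => z * e.ext (fun' F f) x = e.ext (fun' F f) x * z) ?_ (by simp)
          ?_ ?_ z
        · intro d l
          rw [mul_assoc, h1 _ (e.b_mem_E l), ← mul_assoc, ((e.mem_E_iff _).1 hE d).eq, mul_assoc]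
        · intro x y hx hy
          rw [add_mul, mul_add, hx, hy]
        · intro a x hx
          rw [smul_mul_assoc, mul_smul_comm, hx]
      rw [Algebra.IsCentral.center_eq_bot, Algebra.mem_bot] at h2
      exact h2
    rw [e.sum_ext_fun (finBasis F D) x]
    refine Submodule.sum_mem _ fun k _ => ?_
    obtain ⟨c, hc⟩ := key ((finBasis F D).coord k)
    rw [← hc, ← Algebra.commutes, ← Algebra.smul_def]
    exact Submodule.smul_mem _ _ (e.i_mem_bc _ _ trivial)

theorem mem_bcE_iff_proj (W : Submodule F D) (p : D →ₗ[F] D) (h1 : ∀ x, p x ∈ W)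
    (h2 : ∀ x ∈ W, p x = x) (x : D₁) : x ∈ e.bcE W ↔ e.ext p x = x := by
  constructor
  · intro hx
    have := e.ext_eq_zero_of_mem (LinearMap.id - p) W (fun w hw => by
      simp [h2 w hw]) x hx
    rw [e.ext_sub, e.ext_id, LinearMap.sub_apply, sub_eq_zero] at this
    exact this.symm
  · intro hx
    rw [← hx]
    exact e.ext_mem_of_range p W h1 x

theorem bcE_inf_bc_top (W : Submodule F D) : e.bcE W ⊓ e.bc ⊤ = e.bc W := by
  obtain ⟨p, h1, h2⟩ := exists_proj W
  apply le_antisymm
  · rintro x ⟨hx, hx'⟩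
    rw [← (e.mem_bcE_iff_proj W p h1 h2 x).1 hx]
    exact e.ext_mem_bc p ⊤ W (fun w _ => h1 w) x hx'
  · refine le_inf (e.bc_le_bcE W) ?_
    exact Submodule.span_mono (Set.image_mono (by intro x _; trivial))

theorem bc_mono {W W' : Submodule F D} (h : W ≤ W') : e.bc W ≤ e.bc W' :=
  Submodule.span_mono (Set.image_mono h)

theorem bcE_mono {W W' : Submodule F D} (h : W ≤ W') : e.bcE W ≤ e.bcE W' := by
  apply Submodule.span_mono
  rintro _ ⟨w, hw, y, hy, rfl⟩
  exact ⟨w, h hw, y, hy, rfl⟩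

/-- `ext f x ∈ W ⊗ E` implies `x ∈ f⁻¹ W ⊗ E` -/
theorem mem_bcE_comap (f : D →ₗ[F] D) (W : Submodule F D) (x : D₁) (hx : e.ext f x ∈ e.bcE W) :
    x ∈ e.bcE (W.comap f) := by
  obtain ⟨p, h1, h2⟩ := exists_proj W
  have h3 : W.comap f = LinearMap.ker ((LinearMap.id - p) ∘ₗ f) := by
    ext w
    simp only [Submodule.mem_comap, LinearMap.mem_ker, LinearMap.coe_comp, Function.comp_apply,
      LinearMap.sub_apply, LinearMap.id_coe, id_eq, sub_eq_zero]
    exact ⟨fun h => (h2 _ h).symm, fun h => by rw [h]; exact h1 _⟩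
  rw [h3, e.bcE_ker, LinearMap.mem_ker, e.ext_comp, LinearMap.comp_apply, e.ext_sub, e.ext_id,
    LinearMap.sub_apply, LinearMap.id_apply, (e.mem_bcE_iff_proj W p h1 h2 _).1 hx, sub_self]

theorem bcE_inf (W W' : Submodule F D) : e.bcE W ⊓ e.bcE W' = e.bcE (W ⊓ W') := by
  apply le_antisymm
  · rintro x ⟨hx, hx'⟩
    obtain ⟨p, h1, h2⟩ := exists_proj W'
    have h3 := (e.mem_bcE_iff_proj W' p h1 h2 x).1 hx'
    have h4 : x ∈ e.bcE (W.comap p) := e.mem_bcE_comap p W x (by rw [h3]; exact hx)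
    rw [← h3]
    refine e.ext_mem_bcE p (W.comap p) (W ⊓ W') (fun w hw => ⟨hw, h1 w⟩) x h4
  · exact le_inf (e.bcE_mono inf_le_left) (e.bcE_mono inf_le_right)

theorem bc_inf (W W' : Submodule F D) : e.bc W ⊓ e.bc W' = e.bc (W ⊓ W') := by
  rw [← e.bcE_inf_bc_top W, ← e.bcE_inf_bc_top W', ← e.bcE_inf_bc_top (W ⊓ W'), ← e.bcE_inf]
  ext x
  simp only [Submodule.mem_inf]
  tauto

/-- images of independent families under `i` -/
theorem i_indep {κ : Type} [Finite κ] (v : κ → D) (hv : LinearIndependent F v) :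
    LinearIndependent F₁ (fun k => e.i (v k)) := by
  have h1 := (e.indep_fin v hv).comp (fun k : κ => (k, e.k0)) (by
    intro a b h
    simpa using h)
  have h3 : (fun k => e.i (v k)) = (fun p : κ × β => e.i (v p.1) * e.b p.2) ∘
      (fun k : κ => (k, e.k0)) := by
    funext k
    simp [e.b_k0]
  rw [h3]
  exact h1

theorem bc_eq_span (W : Submodule F D) {κ : Type} [Fintype κ] (v : Basis κ F W) :
    e.bc W = Submodule.span F₁ (Set.range fun k => e.i (v k : D)) := by
  apply le_antisymm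
  · rw [bc, Submodule.span_le]
    rintro _ ⟨w, hw, rfl⟩
    have h : w = ∑ k, v.repr ⟨w, hw⟩ k • (v k : D) := by
      have := congrArg Subtype.val (v.sum_repr ⟨w, hw⟩)
      simp only [AddSubmonoidClass.coe_finsetSum, Submodule.coe_smul] at this
      exact this.symm
    rw [h]
    simp only [map_sum, e.i_smul_api, SetLike.mem_coe]
    exact Submodule.sum_mem _ fun k _ =>
      Submodule.smul_mem _ _ (Submodule.subset_span ⟨k, rfl⟩)
  · rw [Submodule.span_le]
    rintro _ ⟨k, rfl⟩
    exact e.i_mem_bc _ _ (v k).2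

theorem bcE_eq_span (W : Submodule F D) {κ : Type} [Fintype κ] (v : Basis κ F W) :
    e.bcE W = Submodule.span F₁ (Set.range fun p : κ × β => e.i (v p.1 : D) * e.b p.2) := by
  apply le_antisymm
  · rw [bcE, Submodule.span_le]
    rintro _ ⟨w, hw, y, hy, rfl⟩
    simp only [SetLike.mem_coe]
    refine e.mem_E_span_induction (fun y => e.i w * y ∈ Submodule.span F₁
      (Set.range fun p : κ × β => e.i (v p.1 : D) * e.b p.2)) ?_ (by simp) ?_ ?_ y hy
    · intro l
      have h : w = ∑ k, v.repr ⟨w, hw⟩ k • (v k : D) := by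
        have := congrArg Subtype.val (v.sum_repr ⟨w, hw⟩)
        simp only [AddSubmonoidClass.coe_finsetSum, Submodule.coe_smul] at this
        exact this.symm
      rw [h]
      simp only [map_sum, e.i_smul_api, Finset.sum_mul, smul_mul_assoc]
      exact Submodule.sum_mem _ fun k _ =>
        Submodule.smul_mem _ _ (Submodule.subset_span ⟨(k, l), rfl⟩)
    · intro x z hx hz
      rw [mul_add]
      exact Submodule.add_mem _ hx hz
    · intro a x hx
      rw [mul_smul_comm]
      exact Submodule.smul_mem _ _ hx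
  · rw [Submodule.span_le]
    rintro _ ⟨p, rfl⟩
    exact e.mul_mem_bcE _ _ (v p.1).2 _ (e.b_mem_E _)

theorem finrank_bc (W : Submodule F D) : finrank F₁ (e.bc W) = finrank F W := by
  let v := finBasis F W
  have hv : LinearIndependent F (fun k => (v k : D)) :=
    v.linearIndependent.map' W.subtype (Submodule.ker_subtype W)
  rw [e.bc_eq_span W v, finrank_span_eq_card (e.i_indep _ hv), Fintype.card_fin]

theorem finrank_bcE (W : Submodule F D) :
    finrank F₁ (e.bcE W) = finrank F W * Fintype.card β := by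
  let v := finBasis F W
  have hv : LinearIndependent F (fun k => (v k : D)) :=
    v.linearIndependent.map' W.subtype (Submodule.ker_subtype W)
  rw [e.bcE_eq_span W v, finrank_span_eq_card (e.indep_fin _ hv), Fintype.card_prod,
    Fintype.card_fin]

/-- unique coordinates `x = Σ_k x_k b_k`, `x_k ∈ D F₁` -/
theorem exists_coord (x : D₁) : ∃ c : β → D₁, (∀ k, c k ∈ e.bc (⊤ : Submodule F D)) ∧
    x = ∑ k, c k * e.b k := by
  classical
  refine e.ind (fun x => ∃ c : β → D₁, (∀ k, c k ∈ e.bc (⊤ : Submodule F D)) ∧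
    x = ∑ k, c k * e.b k) ?_ ?_ ?_ ?_ x
  · intro d l
    refine ⟨fun k => if k = l then e.i d else 0, fun k => ?_, ?_⟩
    · dsimp only
      split_ifs
      · exact e.i_mem_bc _ _ trivial
      · exact zero_mem _
    · simp
  · exact ⟨0, fun k => zero_mem _, by simp⟩
  · rintro x y ⟨c, hc, rfl⟩ ⟨c', hc', rfl⟩
    refine ⟨c + c', fun k => add_mem (hc k) (hc' k), ?_⟩
    simp only [Pi.add_apply, add_mul, Finset.sum_add_distrib]
  · rintro a x ⟨c, hc, rfl⟩
    refine ⟨a • c, fun k => Submodule.smul_mem _ _ (hc k), ?_⟩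
    simp only [Pi.smul_apply, smul_mul_assoc, Finset.smul_sum]

theorem coord_unique (c : β → D₁) (hc : ∀ k, c k ∈ e.bc (⊤ : Submodule F D))
    (h : ∑ k, c k * e.b k = 0) : ∀ k, c k = 0 := by
  let v := finBasis F D
  have h1 : ∀ k, ∃ a : Fin (finrank F D) → F₁, c k = ∑ j, a j • e.i (v j) := by
    intro k
    have := hc k
    have h2 : e.bc (⊤ : Submodule F D) ≤ Submodule.span F₁ (Set.range fun j => e.i (v j)) := by
      rw [bc, Submodule.span_le]
      rintro _ ⟨d, _, rfl⟩
      rw [← v.sum_repr d]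
      simp only [map_sum, e.i_smul_api, SetLike.mem_coe]
      exact Submodule.sum_mem _ fun k _ =>
        Submodule.smul_mem _ _ (Submodule.subset_span ⟨k, rfl⟩)
    obtain ⟨a, ha⟩ := (Submodule.mem_span_range_iff_exists_fun F₁).1 (h2 this)
    exact ⟨a, ha.symm⟩
  choose a ha using h1
  have h2 : ∑ p : Fin (finrank F D) × β, a p.2 p.1 • (e.i (v p.1) * e.b p.2) = 0 := by
    rw [Fintype.sum_prod_type_right, ← h]
    refine Finset.sum_congr rfl fun k _ => ?_
    rw [ha k, Finset.sum_mul]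
    refine Finset.sum_congr rfl fun j _ => ?_
    rw [smul_mul_assoc]
  have h3 := Fintype.linearIndependent_iff.1 (e.indep_fin v v.linearIndependent)
    (fun p => a p.2 p.1) h2
  intro k
  rw [ha k]
  exact Finset.sum_eq_zero fun j _ => by rw [h3 (j, k), zero_smul]

/-- `Σ x_k b_k ∈ W ⊗ E₁` iff all `x_k ∈ W F₁` -/
theorem mem_bcE_iff_coord (W : Submodule F D) (c : β → D₁)
    (hc : ∀ k, c k ∈ e.bc (⊤ : Submodule F D)) :
    ∑ k, c k * e.b k ∈ e.bcE W ↔ ∀ k, c k ∈ e.bc W := by
  constructor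
  · intro h
    obtain ⟨p, h1, h2⟩ := exists_proj W
    have h3 := (e.mem_bcE_iff_proj W p h1 h2 _).1 h
    have h4 : ∀ k, c k - e.ext p (c k) = 0 := by
      apply e.coord_unique
      · intro k
        exact sub_mem (hc k) (e.ext_mem_bc p ⊤ ⊤ (fun _ _ => trivial) _ (hc k))
      · simp only [sub_mul, Finset.sum_sub_distrib]
        rw [sub_eq_zero]
        rw [map_sum] at h3
        rw [← h3]
        exact Finset.sum_congr rfl fun k _ => e.ext_mul_right _ _ _ (e.b_mem_E k)
    intro k
    rw [sub_eq_zero.1 (h4 k)]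
    exact e.ext_mem_bc p ⊤ W (fun w _ => h1 w) _ (hc k)
  · intro h
    exact Submodule.sum_mem _ fun k _ => (e.bcE_mul_E W _ _ (e.bc_le_bcE W (h k)) (e.b_mem_E k)).1

/-- base change of an injectivity statement: if `t p ∈ W, p ∈ W ⇒ p = 0`, the same over `F₁` -/
theorem bc_inj (W : Submodule F D) (t : D) (h : ∀ p ∈ W, t * p ∈ W → p = 0) :
    ∀ p ∈ e.bc W, e.i t * p ∈ e.bc W → p = 0 := by
  intro p hp htp
  have h1 : p ∈ e.bcE (W.comap (LinearMap.mulLeft F t)) := by
    apply e.mem_bcE_comap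
    rw [e.ext_mulL]
    exact e.bc_le_bcE W htp
  have h2 : p ∈ e.bcE (W ⊓ W.comap (LinearMap.mulLeft F t)) := by
    rw [← e.bcE_inf]
    exact ⟨e.bc_le_bcE W hp, h1⟩
  have h3 : W ⊓ W.comap (LinearMap.mulLeft F t) = ⊥ := by
    rw [Submodule.eq_bot_iff]
    rintro x ⟨hx, hx'⟩
    exact h x hx hx'
  rw [h3] at h2
  have := e.ext_eq_zero_of_mem LinearMap.id ⊥ (fun w hw => by simpa using hw) p h2
  rwa [e.ext_id, LinearMap.id_apply] at this

/-- the centralizer of `θ` in `D₁` is `Cent(θ) ⊗ E₁` -/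
theorem mem_bcE_centralizer (θ : D) (x : D₁) :
    x ∈ e.bcE (Subalgebra.toSubmodule (Subalgebra.centralizer F ({θ} : Set D))) ↔
      Commute x (e.i θ) := by
  have h1 : Subalgebra.toSubmodule (Subalgebra.centralizer F ({θ} : Set D)) =
      LinearMap.ker (LinearMap.mulRight F θ - LinearMap.mulLeft F θ) := by
    ext w
    simp only [Subalgebra.mem_toSubmodule, Subalgebra.mem_centralizer_iff,
      Set.mem_singleton_iff, forall_eq, LinearMap.mem_ker, LinearMap.sub_apply,
      LinearMap.mulRight_apply, LinearMap.mulLeft_apply, sub_eq_zero]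
    exact eq_comm
  rw [h1, e.bcE_ker, LinearMap.mem_ker, e.ext_sub, LinearMap.sub_apply, e.ext_mulL,
    e.ext_mulR, sub_eq_zero]
  exact Iff.rfl

/-- `bcE` of a subalgebra is a subalgebra -/
theorem bcE_mul (A : Subalgebra F D) (x y : D₁) (hx : x ∈ e.bcE (Subalgebra.toSubmodule A))
    (hy : y ∈ e.bcE (Subalgebra.toSubmodule A)) : x * y ∈ e.bcE (Subalgebra.toSubmodule A) := by
  induction hx using Submodule.span_induction with
  | mem z hz =>
    obtain ⟨w, hw, u, hu, rfl⟩ := hz
    have hz' := (e.bcE_mul_E (Subalgebra.toSubmodule A) y u hy hu).2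
    rw [mul_assoc, ← e.ext_mulL]
    exact e.ext_mem_bcE _ _ _ (fun d hd => A.mul_mem hw hd) _ hz'
  | zero => simp
  | add z w _ _ hz hw => rw [add_mul]; exact Submodule.add_mem _ hz hw
  | smul a z _ hz => rw [smul_mul_assoc]; exact Submodule.smul_mem _ _ hz

theorem bc_mul (A : Subalgebra F D) (x y : D₁) (hx : x ∈ e.bc (Subalgebra.toSubmodule A))
    (hy : y ∈ e.bc (Subalgebra.toSubmodule A)) : x * y ∈ e.bc (Subalgebra.toSubmodule A) := by
  induction hx using Submodule.span_induction with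
  | mem z hz =>
    obtain ⟨w, hw, rfl⟩ := hz
    rw [← e.ext_mulL]
    exact e.ext_mem_bc _ _ _ (fun d hd => A.mul_mem hw hd) _ hy
  | zero => simp
  | add z w _ _ hz hw => rw [add_mul]; exact Submodule.add_mem _ hz hw
  | smul a z _ hz => rw [smul_mul_assoc]; exact Submodule.smul_mem _ _ hz

theorem linE_const {ι : Type} [Fintype ι] (f : NPS ι D) (c : ι → F) (y : D₁) (hy : y ∈ e.E) :
    e.linE f (fun j => algebraMap F₁ D₁ (e.φ (c j)) * y) = e.i (lin F f c) * y := by
  have h : lin F f c = ∑ j, c j • f [j] := rfl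
  rw [linE, h, map_sum, Finset.sum_mul]
  refine Finset.sum_congr rfl fun j _ => ?_
  rw [e.i_smul_api, ← Algebra.smul_def, mul_smul_comm, smul_mul_assoc]

end fd

end CExt
end Crest.Agent.R180
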