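import Mathlib
import Crest.Agent.R180.CExtApi

/-!
# Piece D4: trivial extension and Laurent extension
`lau`: `D ⊂ D₁ ⊂ D₁((η))`, everything coefficientwise; `D₁` is finite dimensional over `F₁`
(basis `i(e_k) b_l`).
-/

set_option autoImplicit false
set_option linter.unusedSectionVars false

namespace Crest.Agent.R180
open Module

/-! ## auxiliary lemmas on Laurent series -/
section lauAux
variable {F₁ D₁ : Type} [Field F₁] [Ring D₁] [Algebra F₁ D₁]

theorem lauAux_coeff_mul_lc {R : Type} [Ring R] (x : Lau R) (a : R) (n : ℤ) :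
    (x * lc a).coeff n = x.coeff n * a := by
  rw [HahnSeries.C_apply]; exact HahnSeries.coeff_mul_single_zero

theorem lauAux_coeff_lc_mul {R : Type} [Ring R] (x : Lau R) (a : R) (n : ℤ) :
    (lc a * x).coeff n = a * x.coeff n := by
  rw [HahnSeries.C_apply]; exact HahnSeries.coeff_single_zero_mul

theorem lauAux_algebraMap_coeff (f : Lau F₁) (n : ℤ) :
    (algebraMap (Lau F₁) (Lau D₁) f).coeff n = algebraMap F₁ D₁ (f.coeff n) := rfl

theorem lauAux_smul_def (f : Lau F₁) (x : Lau D₁) :
    f • x = algebraMap (Lau F₁) (Lau D₁) f * x := Algebra.smul_def f x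

theorem lauAux_smul_lc_coeff (f : Lau F₁) (v : D₁) (n : ℤ) :
    (f • (lc v : Lau D₁)).coeff n = f.coeff n • v := by
  rw [lauAux_smul_def, lauAux_coeff_mul_lc, lauAux_algebraMap_coeff, Algebra.smul_def]

theorem lauAux_smul_coeff (f : Lau F₁) (x : Lau D₁) (n : ℤ) :
    (f • x).coeff n =
      ∑ ij ∈ Finset.antidiagonal
        (algebraMap (Lau F₁) (Lau D₁) f).isPWO_support x.isPWO_support n,
        f.coeff ij.1 • x.coeff ij.2 := by
  rw [lauAux_smul_def, HahnSeries.coeff_mul]
  refine Finset.sum_congr rfl fun ij _ => ?_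
  rw [lauAux_algebraMap_coeff, Algebra.smul_def]

/-- Laurent series with coefficients in a submodule -/
def lauAuxSub (M : Submodule F₁ D₁) : Submodule (Lau F₁) (Lau D₁) where
  carrier := {x | ∀ n, x.coeff n ∈ M}
  add_mem' := by
    intro x y hx hy n
    rw [HahnSeries.coeff_add]
    exact M.add_mem (hx n) (hy n)
  zero_mem' := by intro n; simp
  smul_mem' := by
    intro f x hx n
    rw [lauAux_smul_coeff]
    exact M.sum_mem fun ij _ => M.smul_mem _ (hx _)

theorem mem_lauAuxSub (M : Submodule F₁ D₁) (x : Lau D₁) :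
    x ∈ lauAuxSub M ↔ ∀ n, x.coeff n ∈ M := Iff.rfl

theorem lauAux_lc_coeff_mem (M : Submodule F₁ D₁) (v : D₁) (hv : v ∈ M) (n : ℤ) :
    (lc v : Lau D₁).coeff n ∈ M := by
  rw [HahnSeries.C_apply, HahnSeries.coeff_single]
  split_ifs
  · exact hv
  · exact M.zero_mem

theorem lauAux_span_range {κ : Type} [Fintype κ] (v : κ → D₁) (x : Lau D₁)
    (hx : ∀ n, x.coeff n ∈ Submodule.span F₁ (Set.range v)) :
    x ∈ Submodule.span (Lau F₁) (Set.range fun k => (lc (v k) : Lau D₁)) := by
  classical
  have h1 : ∀ n, ∃ c : κ → F₁, ∑ k, c k • v k = x.coeff n ∧ (x.coeff n = 0 → c = 0) := by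
    intro n
    by_cases h0 : x.coeff n = 0
    · exact ⟨0, by simp [h0], fun _ => rfl⟩
    · obtain ⟨c, hc⟩ := (Submodule.mem_span_range_iff_exists_fun F₁).1 (hx n)
      exact ⟨c, hc, fun h => absurd h h0⟩
  choose c hc hc0 using h1
  have hsupp : ∀ k, (Function.support fun n => c n k) ⊆ x.support := by
    intro k n hn
    rw [Function.mem_support] at hn
    rw [HahnSeries.mem_support]
    intro h0
    exact hn (by rw [hc0 n h0]; rfl)
  let f : κ → Lau F₁ := fun k => ⟨fun n => c n k, x.isPWO_support.mono (hsupp k)⟩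
  have hf : x = ∑ k, f k • (lc (v k) : Lau D₁) := by
    ext n
    rw [HahnSeries.coeff_sum]
    simp only [lauAux_smul_lc_coeff]
    exact (hc n).symm
  rw [hf]
  exact Submodule.sum_mem _ fun k _ => Submodule.smul_mem _ _ (Submodule.subset_span ⟨k, rfl⟩)

theorem lauAux_mem_span_lc [Module.Finite F₁ D₁] (S : Set D₁) (x : Lau D₁) :
    x ∈ Submodule.span (Lau F₁) ((lc : D₁ →+* Lau D₁) '' S) ↔
      ∀ n, x.coeff n ∈ Submodule.span F₁ S := by
  constructor
  · intro hx
    have : Submodule.span (Lau F₁) ((lc : D₁ →+* Lau D₁) '' S) ≤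
        lauAuxSub (Submodule.span F₁ S) := by
      rw [Submodule.span_le]
      rintro _ ⟨v, hv, rfl⟩
      exact fun n => lauAux_lc_coeff_mem _ v (Submodule.subset_span hv) n
    exact this hx
  · intro hx
    -- a finite subset of `S` spans
    obtain ⟨T, hTS, hT⟩ : ∃ T : Finset D₁, (T : Set D₁) ⊆ S ∧
        Submodule.span F₁ (T : Set D₁) = Submodule.span F₁ S := by
      have hfg : (Submodule.span F₁ S).FG := IsNoetherian.noetherian _
      obtain ⟨T, hTS, hT⟩ := (Submodule.fg_span_iff_fg_span_finset_subset S).1 hfg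
      exact ⟨T, hTS, hT.symm⟩
    have h2 := lauAux_span_range (F₁ := F₁) (fun k : T => (k : D₁)) x (by
      intro n
      have := hx n
      rw [← hT] at this
      simpa using this)
    refine Submodule.span_mono ?_ h2
    rintro _ ⟨k, rfl⟩
    exact ⟨k, hTS k.2, rfl⟩

theorem lauAux_indep {κ : Type} (v : κ → D₁) (hv : LinearIndependent F₁ v) :
    LinearIndependent (Lau F₁) (fun k => (lc (v k) : Lau D₁)) := by
  rw [linearIndependent_iff'] at hv ⊢
  intro s g hg k hk
  ext n
  refine hv s (fun k => (g k).coeff n) ?_ k hk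
  have := congrArg (fun x : Lau D₁ => x.coeff n) hg
  simp only [HahnSeries.coeff_sum, lauAux_smul_lc_coeff, HahnSeries.coeff_zero] at this
  exact this

end lauAux

namespace CExt
variable {F D F₁ D₁ β : Type} [Field F] [Ring D] [Algebra F D] [Field F₁] [Ring D₁]
    [Algebra F₁ D₁] (e : CExt F D F₁ D₁ β)

/-! ## part 2: trivial extension and Laurent extension -/

/-- the trivial extension -/
noncomputable def triv (F D : Type) [Field F] [Ring D] [Algebra F D] : CExt F D F D Unit where
  φ := RingHom.id F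
  i := RingHom.id D
  i_alg := fun _ => rfl
  b := fun _ => 1
  k0 := ()
  b_k0 := rfl
  comm := fun _ _ => Commute.one_right _
  indep := by
    intro n e he
    have h := he.comp (Prod.fst : Fin n × Unit → Fin n) (by
      rintro ⟨a, _⟩ ⟨b, _⟩ h
      simpa using h)
    simpa [Function.comp_def] using h
  span := by
    rw [eq_top_iff]
    intro x _
    exact Submodule.subset_span ⟨(x, ()), by simp⟩

theorem triv_E [Algebra.IsCentral F D] (x : D) (hx : x ∈ (triv F D).E) :
    ∃ c : F, x = algebraMap F D c := by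
  have h1 : x ∈ Subalgebra.center F D := by
    rw [Subalgebra.mem_center_iff]
    intro d
    have h2 := (Subalgebra.mem_centralizer_iff F).1 hx d ⟨d, rfl⟩
    exact h2
  obtain ⟨c, hc⟩ := Algebra.mem_bot.1 (Algebra.IsCentral.out h1)
  exact ⟨c, hc.symm⟩

/-- a finite `F₁`-spanning family of `D₁` -/
theorem lauAux_span_top [FiniteDimensional F D] :
    Submodule.span F₁ (Set.range fun p : Fin (finrank F D) × β =>
      e.i (Module.finBasis F D p.1) * e.b p.2) = ⊤ := by
  rw [eq_top_iff, ← e.span, Submodule.span_le]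
  rintro _ ⟨⟨d, l⟩, rfl⟩
  simp only [SetLike.mem_coe]
  have hd : d = ∑ k, (Module.finBasis F D).repr d k • Module.finBasis F D k :=
    ((Module.finBasis F D).sum_repr d).symm
  have h2 : e.i d * e.b l = ∑ k, e.φ ((Module.finBasis F D).repr d k) •
      (e.i (Module.finBasis F D k) * e.b l) := by
    conv_lhs => rw [hd]
    rw [map_sum, Finset.sum_mul]
    refine Finset.sum_congr rfl fun k _ => ?_
    rw [Algebra.smul_def, map_mul, e.i_alg, ← Algebra.smul_def, smul_mul_assoc]
  rw [h2]
  exact Submodule.sum_mem _ fun k _ => Submodule.smul_mem _ _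
    (Submodule.subset_span ⟨(k, l), rfl⟩)

include e in
theorem lauAux_finite [FiniteDimensional F D] [Fintype β] : Module.Finite F₁ D₁ := by
  refine ⟨⟨(Set.finite_range fun p : Fin (finrank F D) × β =>
      e.i (Module.finBasis F D p.1) * e.b p.2).toFinset, ?_⟩⟩
  rw [Set.Finite.coe_toFinset]
  exact e.lauAux_span_top

/-- `D ⊂ D₁ ⊂ D₁((η))` -/
noncomputable def lau [FiniteDimensional F D] [Fintype β] : CExt F D (Lau F₁) (Lau D₁) β where
  φ := lc.comp e.φ
  i := lc.comp e.i
  i_alg := by
    intro a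
    simp only [RingHom.comp_apply, e.i_alg]
    ext n
    rw [lauAux_algebraMap_coeff, HahnSeries.C_apply, HahnSeries.C_apply, HahnSeries.coeff_single,
      HahnSeries.coeff_single]
    split_ifs <;> simp
  b := fun k => lc (e.b k)
  k0 := e.k0
  b_k0 := by
    rw [e.b_k0, map_one]
  comm := by
    intro d k
    exact (e.comm d k).map (lc : D₁ →+* Lau D₁)
  indep := by
    intro n f hf
    have h := lauAux_indep (F₁ := F₁) _ (e.indep n f hf)
    simpa only [map_mul, RingHom.comp_apply] using h
  span := by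
    rw [eq_top_iff]
    intro x _
    have h := lauAux_span_range (F₁ := F₁) (fun p : Fin (finrank F D) × β =>
      e.i (Module.finBasis F D p.1) * e.b p.2) x (by
        intro n; rw [e.lauAux_span_top]; trivial)
    refine Submodule.span_mono ?_ h
    rintro _ ⟨⟨k, l⟩, rfl⟩
    exact ⟨(Module.finBasis F D k, l), by simp only [map_mul, RingHom.comp_apply]⟩

section laufd
variable [FiniteDimensional F D] [IsDomain D] [Fintype β] [CharZero F]
  [Algebra.IsCentral F D]

theorem lau_mem_E (x : Lau D₁) : x ∈ e.lau.E ↔ ∀ n, x.coeff n ∈ e.E := by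
  have h1 : x ∈ e.lau.E ↔ ∀ d : D, lc (e.i d) * x = x * lc (e.i d) := by
    unfold E
    rw [Subalgebra.mem_centralizer_iff]
    constructor
    · intro h d
      exact h _ ⟨d, rfl⟩
    · rintro h _ ⟨d, rfl⟩
      exact h d
  have h2 : ∀ y : D₁, y ∈ e.E ↔ ∀ d : D, e.i d * y = y * e.i d := by
    intro y
    unfold E
    rw [Subalgebra.mem_centralizer_iff]
    constructor
    · intro h d
      exact h _ ⟨d, rfl⟩
    · rintro h _ ⟨d, rfl⟩
      exact h d
  rw [h1]
  simp only [h2]
  constructor
  · intro h n d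
    have := congrArg (fun z : Lau D₁ => z.coeff n) (h d)
    simp only [lauAux_coeff_lc_mul, lauAux_coeff_mul_lc] at this
    exact this
  · intro h d
    ext n
    rw [lauAux_coeff_lc_mul, lauAux_coeff_mul_lc]
    exact h n d

theorem lau_mem_bc (W : Submodule F D) (x : Lau D₁) :
    x ∈ e.lau.bc W ↔ ∀ n, x.coeff n ∈ e.bc W := by
  have := e.lauAux_finite
  unfold bc
  rw [← lauAux_mem_span_lc]
  have : (e.lau.i '' (W : Set D)) = (lc : D₁ →+* Lau D₁) '' (e.i '' (W : Set D)) := by
    rw [Set.image_image]; rfl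
  rw [this]

theorem lau_mem_bcE (W : Submodule F D) (x : Lau D₁) :
    x ∈ e.lau.bcE W ↔ ∀ n, x.coeff n ∈ e.bcE W := by
  have := e.lauAux_finite
  constructor
  · intro hx
    have h : e.lau.bcE W ≤ lauAuxSub (e.bcE W) := by
      unfold bcE
      rw [Submodule.span_le]
      rintro _ ⟨w, hw, y, hy, rfl⟩ n
      have h1 : (e.lau.i w * y).coeff n = e.i w * y.coeff n := lauAux_coeff_lc_mul y (e.i w) n
      rw [h1]
      exact Submodule.subset_span ⟨w, hw, _, (e.lau_mem_E y).1 hy n, rfl⟩
    exact h hx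
  · intro hx
    have h2 := (lauAux_mem_span_lc (F₁ := F₁) {x | ∃ w ∈ W, ∃ y ∈ e.E, x = e.i w * y} x).2 hx
    refine Submodule.span_mono ?_ h2
    rintro _ ⟨_, ⟨w, hw, y, hy, rfl⟩, rfl⟩
    refine ⟨w, hw, lc y, ?_, ?_⟩
    · rw [lau_mem_E]
      intro n
      rw [HahnSeries.C_apply, HahnSeries.coeff_single]
      split_ifs
      · exact hy
      · exact e.E.zero_mem
    · rw [map_mul]; rfl

/-- coefficientwise linear map -/
noncomputable def lauAuxMap (g : D₁ →ₗ[F₁] D₁) : Lau D₁ →ₗ[Lau F₁] Lau D₁ where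
  toFun x := ⟨fun n => g (x.coeff n), x.isPWO_support.mono (by
    intro n hn
    rw [Function.mem_support] at hn
    rw [HahnSeries.mem_support]
    intro h; exact hn (by rw [h, map_zero]))⟩
  map_add' x y := by
    ext n
    simp
  map_smul' f x := by
    ext n
    simp only [RingHom.id_apply]
    have hsub : HahnSeries.support (⟨fun n => g (x.coeff n), x.isPWO_support.mono (by
        intro n hn
        rw [Function.mem_support] at hn
        rw [HahnSeries.mem_support]
        intro h; exact hn (by rw [h, map_zero]))⟩ : Lau D₁) ⊆ x.support := by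
      intro n hn
      rw [HahnSeries.mem_support] at hn ⊢
      intro h
      apply hn
      show g (x.coeff n) = 0
      rw [h, map_zero]
    rw [lauAux_smul_def f (⟨fun n => g (x.coeff n), _⟩ : Lau D₁),
      HahnSeries.coeff_mul_right' x.isPWO_support hsub]
    rw [lauAux_smul_coeff f x n, map_sum]
    refine Finset.sum_congr rfl fun ij _ => ?_
    rw [lauAux_algebraMap_coeff, map_smul, Algebra.smul_def]

theorem lau_ext (f : D →ₗ[F] D) (x : Lau D₁) (n : ℤ) :
    (e.lau.ext f x).coeff n = e.ext f (x.coeff n) := by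
  have h := e.lau.ext_unique f (lauAuxMap (e.ext f)) (by
    intro d y hy
    ext n
    have h1 : (e.lau.i d * y).coeff n = e.i d * y.coeff n := lauAux_coeff_lc_mul y (e.i d) n
    have h2 : (e.lau.i (f d) * y).coeff n = e.i (f d) * y.coeff n :=
      lauAux_coeff_lc_mul y (e.i (f d)) n
    rw [h2]
    show e.ext f ((e.lau.i d * y).coeff n) = _
    rw [h1]
    exact e.ext_apply f d _ ((e.lau_mem_E y).1 hy n))
  rw [← h]
  rfl

/-- generating pairs stay generating in `E₁((η))` -/
theorem lau_gen (Z : Fin 2 → D₁)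
    (hgen : ∀ h ∈ e.E, (∀ i, h * Z i = Z i * h) → ∃ c : F₁, h = algebraMap F₁ D₁ c) :
    ∀ h ∈ e.lau.E, (∀ i, h * lc (Z i) = lc (Z i) * h) →
      ∃ c : Lau F₁, h = algebraMap (Lau F₁) (Lau D₁) c := by
  intro h hh hZ
  rw [lau_mem_range]
  intro n
  refine hgen _ ((e.lau_mem_E h).1 hh n) fun i => ?_
  have := congrArg (fun z : Lau D₁ => z.coeff n) (hZ i)
  simp only [lauAux_coeff_lc_mul, lauAux_coeff_mul_lc] at this
  exact this

end laufd

end CExt
end Crest.Agent.R180
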