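import Mathlib
import Crest.Agent.R180.CExtApi

/-!
# Piece D3: traces and genericity in central extensions
`ntr_mul`: for fixed `y`, `d ↦ ntr (i d * y)` is an `F`-linear trace functional to `F₁` (module via `φ`):
use `ntr_unique` (give `F₁` the module structure through `e.φ`, e.g. `Module.compHom`, or redo the argument).
`orth_bcE`: `ntr (i d * y * x) = 0` for all `y ∈ E` iff `ext (ntr (d * ·)) x = 0` (nondegeneracy on `E`).
`gen_cond`: the vectors `(lin X a, lin Y a)`, `(lin X b, lin Y b)` of `D²` are independent modulo the subspace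
`{([h,X₀],[h,Y₀])}`; choose functionals on `D²` vanishing on it and dual to them, extend `E₁`-linearly to `D₁²`
(`ext`), and apply them to the equations: get `[h, Z 0] = 0`, `[h, Z 1] = 0`.
`cent_XY`: base change of the kernel of `h ↦ ([h,X₀],[h,Y₀])`.
-/

set_option autoImplicit false
set_option linter.unusedSectionVars false

namespace Crest.Agent.R180
open Module

namespace CExt
variable {F D F₁ D₁ β : Type} [Field F] [Ring D] [Algebra F D] [Field F₁] [Ring D₁]
    [Algebra F₁ D₁] (e : CExt F D F₁ D₁ β)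

section fd
variable [FiniteDimensional F D] [IsDomain D] [Fintype β] [CharZero F]
  [Algebra.IsCentral F D]

/-- induction principle from `span_DE` -/
theorem de_induction {P : D₁ → Prop} (h0 : P 0) (hadd : ∀ x y, P x → P y → P (x + y))
    (hgen : ∀ d, ∀ y ∈ e.E, P (e.i d * y)) (x : D₁) : P x := by
  have hx : x ∈ Submodule.span F₁ {x | ∃ d, ∃ y ∈ e.E, x = e.i d * y} := by
    rw [e.span_DE]; trivial
  refine Submodule.span_induction (p := fun x _ => ∀ a : F₁, P (a • x)) ?_ ?_ ?_ ?_ hx 1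
    |> fun h => by simpa using h
  · rintro x ⟨d, y, hy, rfl⟩ a
    have : a • (e.i d * y) = e.i d * (a • y) := by rw [mul_smul_comm]
    rw [this]
    exact hgen d _ (e.E.smul_mem hy a)
  · intro a; simpa using h0
  · intro x y _ _ hx hy a
    rw [smul_add]; exact hadd _ _ (hx a) (hy a)
  · intro b x _ hx a
    rw [smul_smul]; exact hx _

theorem i_smul (a : F) (d : D) : e.i (a • d) = e.φ a • e.i d := by
  rw [Algebra.smul_def, map_mul, e.i_alg, ← Algebra.smul_def]

theorem comm_E {y : D₁} (hy : y ∈ e.E) (d : D) : e.i d * y = y * e.i d :=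
  (e.mem_E_iff y).1 hy d

section ntr
variable [IsDomain D₁] [CharZero F₁] [FiniteDimensional F₁ D₁] [Algebra.IsCentral F₁ D₁]

/-- trace is multiplicative: by uniqueness of trace functionals on `D` (`ntr_unique`) -/
theorem ntr_mul (d : D) (y : D₁) (hy : y ∈ e.E) :
    ntr F₁ D₁ (e.i d * y) = e.φ (ntr F D d) * ntr F₁ D₁ y := by
  let _ : Module F F₁ := Module.compHom F₁ e.φ
  have hsm : ∀ (a : F) (c : F₁), a • c = e.φ a * c := fun a c => rfl
  let f : D →ₗ[F] F₁ :=
    { toFun := fun d => ntr F₁ D₁ (e.i d * y)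
      map_add' := fun a b => by rw [map_add, add_mul, map_add]
      map_smul' := fun a b => by
        rw [e.i_smul, smul_mul_assoc, map_smul, hsm, smul_eq_mul]; rfl }
  have hf : ∀ a b, f (a * b) = f (b * a) := by
    intro a b
    change ntr F₁ D₁ (e.i (a * b) * y) = ntr F₁ D₁ (e.i (b * a) * y)
    have h1 : e.i (a * b) * y = e.i a * (e.i b * y) := by rw [e.i.map_mul, mul_assoc]
    have h2 : e.i (b * a) * y = (e.i b * y) * e.i a := by
      rw [e.i.map_mul, mul_assoc, e.comm_E hy a, mul_assoc]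
    rw [h1, h2, ntr_comm]
  have := ntr_unique f hf d
  rw [hsm] at this
  have h1 : f 1 = ntr F₁ D₁ y := by
    change ntr F₁ D₁ (e.i 1 * y) = _
    rw [map_one, one_mul]
  rw [h1] at this
  exact this

theorem ntr_i (d : D) : ntr F₁ D₁ (e.i d) = e.φ (ntr F D d) := by
  have := e.ntr_mul d 1 (one_mem _)
  rwa [mul_one, ntr_one, mul_one] at this

theorem ntr_alg_mul (a : F₁) (y : D₁) :
    ntr F₁ D₁ (algebraMap F₁ D₁ a * y) = a * ntr F₁ D₁ y := by
  rw [← Algebra.smul_def, map_smul, smul_eq_mul]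

/-- partial trace `D₁ → E₁` -/
theorem ntr_ptr (x : D₁) : ntr F₁ D₁ (e.ext (fun' F (ntr F D)) x) = ntr F₁ D₁ x := by
  refine e.de_induction (P := fun x => ntr F₁ D₁ (e.ext (fun' F (ntr F D)) x) = ntr F₁ D₁ x)
    ?_ ?_ ?_ x
  · simp
  · intro x y hx hy
    simp only [map_add] at *
    rw [hx, hy]
  · intro d y hy
    rw [e.ext_fun_apply _ _ _ hy, e.ntr_mul d y hy, ntr_alg_mul]

theorem ext_mulLeft (d : D) (x : D₁) : e.ext (LinearMap.mulLeft F d) x = e.i d * x := by
  refine e.de_induction (P := fun x => e.ext (LinearMap.mulLeft F d) x = e.i d * x) ?_ ?_ ?_ x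
  · simp
  · intro x y hx hy
    rw [map_add, hx, hy, mul_add]
  · intro d' y hy
    rw [e.ext_apply _ _ _ hy, LinearMap.mulLeft_apply, map_mul, mul_assoc]

/-- `ntr (d * ·)` as an endomorphism -/
noncomputable def nd (F : Type) {D : Type} [Field F] [Ring D] [Algebra F D] (d : D) : D →ₗ[F] D :=
  fun' F (ntr F D) ∘ₗ LinearMap.mulLeft F d

theorem nd_apply (d x : D) : nd F d x = algebraMap F D (ntr F D (d * x)) := rfl

theorem mem_ker_nd (d x : D) : x ∈ LinearMap.ker (nd F d) ↔ ntr F D (d * x) = 0 := by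
  rw [LinearMap.mem_ker, nd_apply, map_eq_zero_iff _ (FaithfulSMul.algebraMap_injective F D)]

theorem ext_nd_eq_zero (d : D) (x : D₁) (h : ∀ y ∈ e.E, ntr F₁ D₁ (e.i d * y * x) = 0) :
    e.ext (nd F d) x = 0 := by
  have h1 : e.ext (nd F d) x = e.ext (fun' F (ntr F D)) (e.i d * x) := by
    rw [nd, e.ext_comp, LinearMap.comp_apply, e.ext_mulLeft]
  rw [h1]
  refine ntr_nondeg e.E _ (e.ext_fun_mem _ _) ?_
  intro y hy
  rw [← e.ext_mul_left _ _ _ hy, e.ntr_ptr, ← mul_assoc, ← e.comm_E hy]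
  exact h y hy

theorem bcE_finset_inf {ι : Type} (s : Finset ι) (f : ι → Submodule F D) (x : D₁)
    (h : ∀ k ∈ s, x ∈ e.bcE (f k)) : x ∈ e.bcE (s.inf f) := by
  classical
  induction s using Finset.induction_on with
  | empty => simp only [Finset.inf_empty]; rw [e.bcE_top]; trivial
  | insert a s ha ih =>
    rw [Finset.inf_insert, ← e.bcE_inf]
    exact ⟨h a (Finset.mem_insert_self _ _), ih fun k hk => h k (Finset.mem_insert_of_mem hk)⟩

/-- orthogonal complements commute with base change: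
for a subalgebra `A` of `D` and a subspace `W₁`, let `W = {x ∈ A | x ⊥ W₁}`; then
`{x ∈ A ⊗ E₁ | x ⊥ W₁ ⊗ E₁} = W ⊗ E₁`. -/
theorem orth_bcE (A : Subalgebra F D) (W₁ W : Submodule F D)
    (hW : ∀ x, x ∈ W ↔ x ∈ A ∧ ∀ y ∈ W₁, ntr F D (y * x) = 0) (x : D₁) :
    x ∈ e.bcE W ↔ x ∈ e.bcE (Subalgebra.toSubmodule A) ∧
      ∀ d ∈ W₁, ∀ y ∈ e.E, ntr F₁ D₁ (e.i d * y * x) = 0 := by
  constructor
  · intro hx
    refine ⟨e.bcE_mono (fun w hw => ((hW w).1 hw).1) hx, ?_⟩
    intro d hd y hy
    refine Submodule.span_induction (p := fun x _ => ntr F₁ D₁ (e.i d * y * x) = 0) ?_ ?_ ?_ ?_ hx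
    · rintro x ⟨w, hw, y', hy', rfl⟩
      have : e.i d * y * (e.i w * y') = e.i (d * w) * (y * y') := by
        rw [map_mul, mul_assoc, ← mul_assoc y, ← e.comm_E hy w]; simp only [mul_assoc]
      rw [this, e.ntr_mul _ _ (mul_mem hy hy'), ((hW w).1 hw).2 d hd, map_zero, zero_mul]
    · simp
    · intro x y _ _ hx hy
      rw [mul_add, map_add, hx, hy, add_zero]
    · intro a x _ hx
      rw [mul_smul_comm, map_smul, hx, smul_zero]
  · rintro ⟨hxA, hx⟩
    obtain ⟨s, hs⟩ := (inferInstance : FiniteDimensional F W₁).fg_top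
    have key : (Subalgebra.toSubmodule A) ⊓ s.inf (fun d : W₁ => LinearMap.ker (nd F (d : D))) ≤ W := by
      rintro z ⟨hzA, hz⟩
      rw [hW]
      refine ⟨hzA, ?_⟩
      intro y hy
      have hz' : ∀ d ∈ s, ntr F D ((d : D) * z) = 0 := by
        intro d hd
        rw [← mem_ker_nd]
        exact (Finset.inf_le (f := fun d : W₁ => LinearMap.ker (nd F (d : D))) hd) hz
      have hy' : (⟨y, hy⟩ : W₁) ∈ Submodule.span F (s : Set W₁) := by rw [hs]; trivial
      have := Submodule.span_induction (p := fun (y : W₁) _ => ntr F D ((y : D) * z) = 0)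
        (fun d hd => hz' d hd) (by simp)
        (fun a b _ _ ha hb => by
          rw [Submodule.coe_add, add_mul, map_add, ha, hb, add_zero])
        (fun a b _ hb => by
          rw [Submodule.coe_smul, smul_mul_assoc, map_smul, hb, smul_zero]) hy'
      exact this
    refine e.bcE_mono key ?_
    rw [← e.bcE_inf]
    refine ⟨hxA, e.bcE_finset_inf _ _ _ ?_⟩
    intro d _
    rw [e.bcE_ker, LinearMap.mem_ker]
    exact e.ext_nd_eq_zero _ _ (hx d d.2)

/-- The genericity condition for an E-step in the directions `p = a Z₀ + b Z₁`. -/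
theorem gen_cond {ι : Type} [Fintype ι] (X Y : NPS ι D) (a b : ι → F)
    (hab : GoodPair F X Y a b) (Z : Fin 2 → D₁) (hZ : ∀ i, Z i ∈ e.E)
    (hgen : ∀ h ∈ e.E, (∀ i, h * Z i = Z i * h) → ∃ c : F₁, h = algebraMap F₁ D₁ c)
    (h h' : D₁) (hh : h ∈ e.E)
    (hX : e.linE X (fun j =>
        h * (algebraMap F₁ D₁ (e.φ (a j)) * Z 0 + algebraMap F₁ D₁ (e.φ (b j)) * Z 1) -
        (algebraMap F₁ D₁ (e.φ (a j)) * Z 0 + algebraMap F₁ D₁ (e.φ (b j)) * Z 1) * h) =
      h' * e.i (X []) - e.i (X []) * h')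
    (hY : e.linE Y (fun j =>
        h * (algebraMap F₁ D₁ (e.φ (a j)) * Z 0 + algebraMap F₁ D₁ (e.φ (b j)) * Z 1) -
        (algebraMap F₁ D₁ (e.φ (a j)) * Z 0 + algebraMap F₁ D₁ (e.φ (b j)) * Z 1) * h) =
      h' * e.i (Y []) - e.i (Y []) * h') :
    ∃ c : F₁, h = algebraMap F₁ D₁ c := by
  -- functionals
  let Φ : D →ₗ[F] D × D := LinearMap.prod (LinearMap.mulRight F (X []) - LinearMap.mulLeft F (X []))
    (LinearMap.mulRight F (Y []) - LinearMap.mulLeft F (Y []))
  let v : (ι → F) →ₗ[F] D × D := LinearMap.prod (lin F X) (lin F Y)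
  let c2 : F × F →ₗ[F] (ι → F) :=
    LinearMap.coprod (LinearMap.toSpanSingleton F _ a) (LinearMap.toSpanSingleton F _ b)
  let Ψ : F × F →ₗ[F] (D × D) ⧸ (LinearMap.range Φ) :=
    (LinearMap.range Φ).mkQ ∘ₗ v ∘ₗ c2
  have hΨ : LinearMap.ker Ψ = ⊥ := by
    rw [LinearMap.ker_eq_bot']
    rintro ⟨α, β'⟩ h0
    have h1 : v (c2 (α, β')) ∈ LinearMap.range Φ := by
      rw [← Submodule.Quotient.mk_eq_zero]; exact h0
    obtain ⟨k, hk⟩ := h1
    have hc : c2 (α, β') = α • a + β' • b := by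
      simp [c2]
    rw [hc] at hk
    have hk1 := congrArg Prod.fst hk
    have hk2 := congrArg Prod.snd hk
    replace hk1 : k * X [] - X [] * k = lin F X (α • a + β' • b) := hk1
    replace hk2 : k * Y [] - Y [] * k = lin F Y (α • a + β' • b) := hk2
    obtain ⟨h2, h3⟩ := hab α β' k hk1.symm hk2.symm
    simp [h2, h3]
  obtain ⟨L, hL⟩ := LinearMap.exists_leftInverse_of_injective Ψ hΨ
  let lam : D × D →ₗ[F] F × F := L ∘ₗ (LinearMap.range Φ).mkQ
  have hlam0 : ∀ k, lam (Φ k) = 0 := by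
    intro k
    have : (LinearMap.range Φ).mkQ (Φ k) = 0 := by
      rw [Submodule.mkQ_apply, Submodule.Quotient.mk_eq_zero]; exact ⟨k, rfl⟩
    simp only [lam, LinearMap.comp_apply, this, map_zero]
  have hlam1 : ∀ p, lam (v (c2 p)) = p := fun p => by
    have := LinearMap.congr_fun hL p
    simpa [lam, Ψ] using this
  have hlama : lam (v a) = (1, 0) := by
    have := hlam1 (1, 0)
    simpa [c2] using this
  have hlamb : lam (v b) = (0, 1) := by
    have := hlam1 (0, 1)
    simpa [c2] using this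
  set z : Fin 2 → D₁ := fun k => h * Z k - Z k * h with hz
  have hzE : ∀ k, z k ∈ e.E := fun k => sub_mem (mul_mem hh (hZ k)) (mul_mem (hZ k) hh)
  have hlin : ∀ W : NPS ι D, e.linE W (fun j =>
        h * (algebraMap F₁ D₁ (e.φ (a j)) * Z 0 + algebraMap F₁ D₁ (e.φ (b j)) * Z 1) -
        (algebraMap F₁ D₁ (e.φ (a j)) * Z 0 + algebraMap F₁ D₁ (e.φ (b j)) * Z 1) * h) =
      e.i (lin F W a) * z 0 + e.i (lin F W b) * z 1 := by
    intro W
    rw [← e.linE_const W a (z 0) (hzE 0), ← e.linE_const W b (z 1) (hzE 1)]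
    simp only [linE]
    rw [← Finset.sum_add_distrib]
    refine Finset.sum_congr rfl fun j _ => ?_
    rw [← mul_add]
    congr 1
    simp only [hz]
    rw [mul_add, ← mul_assoc, ← mul_assoc, ← Algebra.commutes (e.φ (a j)) h,
      ← Algebra.commutes (e.φ (b j)) h]
    noncomm_ring
  rw [hlin] at hX hY
  -- the key computation
  have key : ∀ (ψ : D × D →ₗ[F] F), (∀ k, ψ (Φ k) = 0) →
      algebraMap F₁ D₁ (e.φ (ψ (v a))) * z 0 + algebraMap F₁ D₁ (e.φ (ψ (v b))) * z 1 = 0 := by
    intro ψ hψ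
    have hsplit : ∀ p : D × D, ψ p = (ψ ∘ₗ LinearMap.inl F D D) p.1 +
        (ψ ∘ₗ LinearMap.inr F D D) p.2 := by
      intro p
      simp only [LinearMap.comp_apply, LinearMap.inl_apply, LinearMap.inr_apply]
      rw [← map_add]; simp
    set μ := ψ ∘ₗ LinearMap.inl F D D with hμ
    set ν := ψ ∘ₗ LinearMap.inr F D D with hν
    have h1 : ∀ k : D₁, e.ext (fun' F μ) (k * e.i (X []) - e.i (X []) * k) +
        e.ext (fun' F ν) (k * e.i (Y []) - e.i (Y []) * k) = 0 := by
      intro k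
      refine e.de_induction (P := fun k => e.ext (fun' F μ) (k * e.i (X []) - e.i (X []) * k) +
        e.ext (fun' F ν) (k * e.i (Y []) - e.i (Y []) * k) = 0) ?_ ?_ ?_ k
      · simp
      · intro x y hx hy
        have e1 : ∀ t : D₁, (x + y) * t - t * (x + y) = (x * t - t * x) + (y * t - t * y) := by
          intro t; noncomm_ring
        rw [e1, e1, map_add, map_add]
        calc _ = (e.ext (fun' F μ) (x * e.i (X []) - e.i (X []) * x) +
              e.ext (fun' F ν) (x * e.i (Y []) - e.i (Y []) * x)) +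
              (e.ext (fun' F μ) (y * e.i (X []) - e.i (X []) * y) +
              e.ext (fun' F ν) (y * e.i (Y []) - e.i (Y []) * y)) := by abel
          _ = 0 := by rw [hx, hy, add_zero]
      · intro d y hy
        have e1 : ∀ t : D, e.i d * y * e.i t - e.i t * (e.i d * y) = e.i (d * t - t * d) * y := by
          intro t
          rw [mul_assoc, ← e.comm_E hy t, map_sub, map_mul, map_mul, sub_mul, mul_assoc, mul_assoc]
        rw [e1, e1, e.ext_fun_apply _ _ _ hy, e.ext_fun_apply _ _ _ hy, ← add_mul, ← map_add,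
          ← map_add]
        have := hψ d
        rw [hsplit] at this
        have h3 : μ (d * X [] - X [] * d) + ν (d * Y [] - Y [] * d) = 0 := this
        rw [h3]; simp
    have h2 := h1 h'
    rw [← hX, ← hY, map_add, map_add, e.ext_fun_apply _ _ _ (hzE 0), e.ext_fun_apply _ _ _ (hzE 1),
      e.ext_fun_apply _ _ _ (hzE 0), e.ext_fun_apply _ _ _ (hzE 1)] at h2
    rw [hsplit (v a), hsplit (v b)]
    simp only [map_add, add_mul]
    rw [← h2]
    have ev : ∀ c, (v c).1 = lin F X c ∧ (v c).2 = lin F Y c := fun c => ⟨rfl, rfl⟩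
    rw [(ev a).1, (ev a).2, (ev b).1, (ev b).2]
    abel
  have hz0 : z 0 = 0 := by
    have := key (LinearMap.fst F F F ∘ₗ lam) (fun k => by
      rw [LinearMap.comp_apply, hlam0]; simp)
    have e1 : (LinearMap.fst F F F ∘ₗ lam) (v a) = 1 := by
      change (lam (v a)).1 = 1; rw [hlama]
    have e2 : (LinearMap.fst F F F ∘ₗ lam) (v b) = 0 := by
      change (lam (v b)).1 = 0; rw [hlamb]
    rw [e1, e2] at this
    simpa using this
  have hz1 : z 1 = 0 := by
    have := key (LinearMap.snd F F F ∘ₗ lam) (fun k => by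
      rw [LinearMap.comp_apply, hlam0]; simp)
    have e1 : (LinearMap.snd F F F ∘ₗ lam) (v a) = 0 := by
      change (lam (v a)).2 = 0; rw [hlama]
    have e2 : (LinearMap.snd F F F ∘ₗ lam) (v b) = 1 := by
      change (lam (v b)).2 = 1; rw [hlamb]
    rw [e1, e2] at this
    simpa using this
  refine hgen h hh ?_
  intro k
  fin_cases k
  · exact sub_eq_zero.1 hz0
  · exact sub_eq_zero.1 hz1

/-- base change of `Good1` : the centralizer of `X₀, Y₀` in `D₁` is `E₁` -/
theorem cent_XY {ι : Type} (X Y : NPS ι D) (hG : Good1 F X Y) (h : D₁)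
    (hX : h * e.i (X []) = e.i (X []) * h) (hY : h * e.i (Y []) = e.i (Y []) * h) : h ∈ e.E := by
  have hmulR : ∀ (t : D) (x : D₁), e.ext (LinearMap.mulRight F t - LinearMap.mulLeft F t) x =
      x * e.i t - e.i t * x := by
    intro t x
    refine e.de_induction (P := fun x => e.ext (LinearMap.mulRight F t - LinearMap.mulLeft F t) x =
      x * e.i t - e.i t * x) ?_ ?_ ?_ x
    · simp
    · intro x y hx hy
      rw [map_add, hx, hy]; noncomm_ring
    · intro d y hy
      rw [e.ext_apply _ _ _ hy]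
      simp only [LinearMap.sub_apply, LinearMap.mulRight_apply, LinearMap.mulLeft_apply, map_sub,
        map_mul, sub_mul]
      rw [mul_assoc, mul_assoc, mul_assoc, e.comm_E hy t]
  have h1 : ∀ t : D, h * e.i t = e.i t * h →
      h ∈ e.bcE (LinearMap.ker (LinearMap.mulRight F t - LinearMap.mulLeft F t)) := by
    intro t ht
    rw [e.bcE_ker, LinearMap.mem_ker, hmulR, ht, sub_self]
  have h2 : h ∈ e.bcE (LinearMap.ker (LinearMap.mulRight F (X []) - LinearMap.mulLeft F (X [])) ⊓
      LinearMap.ker (LinearMap.mulRight F (Y []) - LinearMap.mulLeft F (Y []))) := by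
    rw [← e.bcE_inf]; exact ⟨h1 _ hX, h1 _ hY⟩
  refine Submodule.span_induction (p := fun x _ => x ∈ e.E) ?_ ?_ ?_ ?_ h2
  · rintro x ⟨w, ⟨hw1, hw2⟩, y, hy, rfl⟩
    obtain ⟨c, rfl⟩ := hG w (by simpa [LinearMap.mem_ker, sub_eq_zero] using hw1)
      (by simpa [LinearMap.mem_ker, sub_eq_zero] using hw2)
    rw [e.i_alg]
    exact mul_mem (e.alg_mem_E _) hy
  · exact zero_mem _
  · intro x y _ _ hx hy; exact add_mem hx hy
  · intro a x _ hx; exact e.E.smul_mem hx a

end ntr
end fd

end CExt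
end Crest.Agent.R180
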