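import Mathlib
import Crest.Agent.R180.Ntr

/-!
# Piece B3: derivations of finite dimensional division algebras are inner

`A ⊂ D` subalgebra, `δ : A → D` an `F`-linear derivation.  Let `x_i` be a basis of `A` and `y_i` the
dual basis for the nondegenerate form `ntr_D (x y)` on `A`.  Then `Σ a x_i ⊗ y_i = Σ x_i ⊗ y_i a`
for `a ∈ A`.  Put `h₀ = Σ x_i δ(y_i)`, `c = Σ x_i y_i`.  Then `a h₀ = Σ x_i δ(y_i a) = h₀ a + c δ(a)`,
`c` commutes with `A`, and `c ≠ 0` since `ntr c = Σ ntr(x_i y_i) = dim A ≠ 0`.
So `δ a = c⁻¹ (a h₀ - h₀ a) = h a - a h` with `h = - c⁻¹ h₀`.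
-/

set_option autoImplicit false
set_option linter.unusedSectionVars false

namespace Crest.Agent.R180
open Module

variable {F D : Type} [Field F] [Ring D] [Algebra F D] [CharZero F] [IsDomain D]
  [FiniteDimensional F D]

theorem casimir_aux (A : Subalgebra F D) {W : Type} [AddCommGroup W] [Module F W]
    (Φ : A →ₗ[F] A →ₗ[F] W) {n : ℕ} (b : Basis (Fin n) F A) (a : A) :
    ∑ i, Φ (a * b i) ((trB A).dualBasis (trB_nondeg A) b i)
      = ∑ i, Φ (b i) ((trB A).dualBasis (trB_nondeg A) b i * a) := by
  classical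
  set d := (trB A).dualBasis (trB_nondeg A) b with hd
  have hrepr : ∀ (x : A) (j : Fin n), b.repr x j = trB A (d j) x := by
    intro x j
    have h1 : (Finsupp.lapply j ∘ₗ b.repr.toLinearMap : A →ₗ[F] F) = trB A (d j) := by
      apply b.ext
      intro i
      have := (trB A).apply_dualBasis_left (trB_nondeg A) b j i
      rw [hd, this]
      simp [Finsupp.single_apply]
    have := LinearMap.congr_fun h1 x
    simpa using this
  have hrepr' : ∀ (y : A) (j : Fin n), d.repr y j = trB A y (b j) := by
    intro y j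
    exact (trB A).dualBasis_repr_apply (trB_nondeg A) b y j
  have e1 : ∀ i, Φ (a * b i) (d i) = ∑ j, trB A (d j) (a * b i) • Φ (b j) (d i) := by
    intro i
    conv_lhs => rw [← b.sum_repr (a * b i)]
    simp only [map_sum, map_smul, LinearMap.sum_apply, LinearMap.smul_apply, hrepr]
  have e2 : ∀ j, Φ (b j) (d j * a) = ∑ i, trB A (d j * a) (b i) • Φ (b j) (d i) := by
    intro j
    conv_lhs => rw [← d.sum_repr (d j * a)]
    simp only [map_sum, map_smul, hrepr']
  simp only [e1, e2]
  rw [Finset.sum_comm]
  refine Finset.sum_congr rfl fun j _ => Finset.sum_congr rfl fun i _ => ?_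
  congr 1
  rw [trB_apply, trB_apply]
  simp [mul_assoc]

theorem inner_of_derivation (A : Subalgebra F D) (δ : A →ₗ[F] D)
    (hδ : ∀ a b : A, δ (a * b) = (a : D) * δ b + δ a * (b : D)) :
    ∃ h : D, ∀ a : A, δ a = h * (a : D) - (a : D) * h := by
  classical
  set n := finrank F A
  let b : Basis (Fin n) F A := finBasis F A
  set d := (trB A).dualBasis (trB_nondeg A) b with hd
  set h₀ : D := ∑ i, (b i : D) * δ (d i) with hh₀
  set c : D := ∑ i, (b i : D) * (d i : D) with hc
  have hcomm : ∀ a : A, (a : D) * c = c * (a : D) := by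
    intro a
    have := casimir_aux A (LinearMap.mk₂ F (fun x y : A => (x : D) * (y : D))
      (by intro a b c; simp [add_mul]) (by intro a b c; simp)
      (by intro a b c; simp [mul_add]) (by intro a b c; simp)) b a
    simp only [LinearMap.mk₂_apply] at this
    rw [hc, Finset.mul_sum, Finset.sum_mul]
    simpa [mul_assoc] using this
  have hh : ∀ a : A, (a : D) * h₀ = h₀ * (a : D) + c * δ a := by
    intro a
    have := casimir_aux A (LinearMap.mk₂ F (fun x y : A => (x : D) * δ y)
      (by intro a b c; simp [add_mul]) (by intro a b c; simp)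
      (by intro a b c; simp [mul_add]) (by intro a b c; simp)) b a
    simp only [LinearMap.mk₂_apply, hδ] at this
    rw [hh₀, hc, Finset.mul_sum, Finset.sum_mul, Finset.sum_mul, ← Finset.sum_add_distrib]
    rw [← hd] at this
    simp only [mul_add] at this
    rw [← Finset.sum_congr rfl (fun i _ => show ((a * b i : A) : D) * δ (d i)
      = (a : D) * ((b i : D) * δ (d i)) by simp [mul_assoc]), this]
    refine Finset.sum_congr rfl fun i _ => ?_
    rw [add_comm]
    simp [mul_assoc]
  have hc0 : c ≠ 0 := by
    intro h0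
    have h1 : ntr F D c = (n : F) := by
      rw [hc, map_sum]
      have : ∀ i, ntr F D ((b i : D) * (d i : D)) = 1 := by
        intro i
        have := (trB A).apply_dualBasis_left (trB_nondeg A) b i i
        rw [trB_apply, ntr_comm] at this
        simpa using this
      simp [this]
    rw [h0, map_zero] at h1
    have h2 : 0 < n := finrank_pos
    have h3 : (n : F) = 0 := h1.symm
    rw [Nat.cast_eq_zero] at h3
    omega
  obtain ⟨y, hy1, hy2⟩ := exists_inverse F c hc0
  have hyc : ∀ a : A, y * (a : D) = (a : D) * y := by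
    intro a
    have h1 : y * (a : D) = y * ((a : D) * c) * y := by
      rw [mul_assoc, mul_assoc, hy1, mul_one]
    rw [h1, hcomm, ← mul_assoc, hy2, one_mul]
  refine ⟨-(y * h₀), fun a => ?_⟩
  have h1 : δ a = y * ((a : D) * h₀ - h₀ * (a : D)) := by
    rw [hh a, add_sub_cancel_left, ← mul_assoc, hy2, one_mul]
  rw [h1, mul_sub, ← mul_assoc, hyc, mul_assoc]
  rw [neg_mul, mul_neg, mul_assoc]
  abel

end Crest.Agent.R180
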