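import Mathlib

/-!
# Piece CS: clock and shift matrices (independent)
`C = diag(1, ζ, …, ζ^{r-1})`, `S` = cyclic shift, oriented so that `S * C = ζ • (C * S)`.
-/

set_option autoImplicit false

namespace Crest.Agent.R180

namespace CS

variable (F : Type) [Field F] (r : ℕ)

/-- cyclic shift -/
def shiftMat : Matrix (Fin r) (Fin r) F :=
  Matrix.of fun i j => if (j : ℕ) = ((i : ℕ) + 1) % r then 1 else 0

lemma shift_pow (hr : 0 < r) (k : ℕ) (i j : Fin r) :
    (shiftMat F r ^ k) i j = if (j : ℕ) = ((i : ℕ) + k) % r then 1 else 0 := by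
  induction k generalizing i j with
  | zero =>
    rw [pow_zero, Matrix.one_apply, add_zero, Nat.mod_eq_of_lt i.isLt]
    by_cases h : i = j
    · subst h; simp
    · rw [if_neg h, if_neg]
      intro h2
      exact h (Fin.ext h2.symm)
  | succ k ih =>
    rw [pow_succ, Matrix.mul_apply]
    rw [Finset.sum_eq_single (⟨((i : ℕ) + k) % r, Nat.mod_lt _ hr⟩ : Fin r)]
    · rw [ih]
      simp only [if_true, one_mul]
      unfold shiftMat
      simp only [Matrix.of_apply]
      rw [Nat.mod_add_mod, add_assoc]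
    · intro l _ hl
      rw [ih, if_neg, zero_mul]
      intro h
      exact hl (Fin.ext h)
    · intro h
      exact absurd (Finset.mem_univ _) h

end CS

open CS in
theorem exists_clock_shift (F : Type) [Field F] (r : ℕ) (hr : 0 < r) (ζ : F)
    (hζ : IsPrimitiveRoot ζ r) :
    ∃ C S : Matrix (Fin r) (Fin r) F, C ^ r = 1 ∧ S ^ r = 1 ∧ S * C = ζ • (C * S) ∧
      LinearIndependent F (fun p : Fin r × Fin r => C ^ (p.1 : ℕ) * S ^ (p.2 : ℕ)) := by
  set C : Matrix (Fin r) (Fin r) F := Matrix.diagonal (fun i => ζ ^ (i : ℕ)) with hC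
  have hCpow : ∀ a : ℕ, C ^ a = Matrix.diagonal (fun i : Fin r => (ζ ^ (i : ℕ)) ^ a) := by
    intro a
    rw [hC, Matrix.diagonal_pow]
    rfl
  have hζr : ζ ^ r = 1 := hζ.pow_eq_one
  have hCS : ∀ (a b : ℕ) (i j : Fin r), (C ^ a * shiftMat F r ^ b) i j
      = (ζ ^ (i : ℕ)) ^ a * (if (j : ℕ) = ((i : ℕ) + b) % r then 1 else 0) := by
    intro a b i j
    rw [hCpow, Matrix.diagonal_mul, shift_pow F r hr]
  refine ⟨C, shiftMat F r, ?_, ?_, ?_, ?_⟩
  · rw [hCpow]
    ext i j
    rw [Matrix.diagonal_apply, Matrix.one_apply]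
    rw [← pow_mul, mul_comm, pow_mul, hζr, one_pow]
  · ext i j
    rw [shift_pow F r hr, Matrix.one_apply, Nat.add_mod_right, Nat.mod_eq_of_lt i.isLt]
    by_cases h : i = j
    · subst h; simp
    · rw [if_neg h, if_neg]
      intro h2
      exact h (Fin.ext h2.symm)
  · ext i j
    rw [hC, Matrix.mul_diagonal, Matrix.smul_apply, Matrix.diagonal_mul, smul_eq_mul]
    unfold shiftMat
    simp only [Matrix.of_apply]
    by_cases h : (j : ℕ) = ((i : ℕ) + 1) % r
    · rw [if_pos h, one_mul, mul_one, h, ← pow_succ']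
      have h1 : ζ ^ ((i : ℕ) + 1) = ζ ^ (((i : ℕ) + 1) % r) := by
        conv_lhs => rw [← Nat.mod_add_div ((i : ℕ) + 1) r, pow_add, pow_mul, hζr, one_pow, mul_one]
      rw [h1]
    · rw [if_neg h]; simp
  · rw [Fintype.linearIndependent_iff]
    intro g hg
    have key : ∀ b : Fin r, (fun a : Fin r => g (a, b)) = 0 := by
      intro b
      apply Matrix.eq_zero_of_forall_index_sum_pow_mul_eq_zero (f := fun i : Fin r => ζ ^ (i : ℕ))
      · intro i j hij
        exact Fin.ext (hζ.pow_inj i.isLt j.isLt hij)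
      · intro i
        have h1 := congrFun (congrFun hg i) (⟨((i : ℕ) + b) % r, Nat.mod_lt _ hr⟩ : Fin r)
        rw [Matrix.zero_apply, Matrix.sum_apply, Fintype.sum_prod_type] at h1
        rw [← h1]
        refine Finset.sum_congr rfl fun a _ => ?_
        rw [Finset.sum_eq_single b]
        · rw [Matrix.smul_apply, hCS, if_pos rfl, mul_one, smul_eq_mul, mul_comm]
        · intro b' _ hb'
          rw [Matrix.smul_apply, hCS, if_neg, mul_zero, smul_zero]
          intro h2
          apply hb'
          have h3 : ((i : ℕ) + b) % r = ((i : ℕ) + b') % r := h2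
          have h4 : (b : ℕ) ≡ b' [MOD r] := Nat.ModEq.add_left_cancel' (i : ℕ) h3
          have h5 : (b : ℕ) = b' := by
            have := h4
            unfold Nat.ModEq at this
            rwa [Nat.mod_eq_of_lt b.isLt, Nat.mod_eq_of_lt b'.isLt] at this
          exact (Fin.ext h5).symm
        · intro h
          exact absurd (Finset.mem_univ _) h
    intro p
    exact congrFun (key p.2) p.1

end Crest.Agent.R180
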