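import Mathlib
import Crest.Agent.R180.Ntr

/-!
# Piece B2: double centralizer dimension formula (elementary, by traces), basic facts on invariants

`D` central over `F`, finite dimensional domain, char 0. `A ⊂ D` a commutative subalgebra,
`C = Cent(A)`.  Claim `dim C · dim A = dim D`.
Proof: let `b_i` be a basis of `A`, `b_i^*` the dual basis for the form `tr_{A/F}(xy)` (nondegenerate, char 0).
`Σ b_i ⊗ b_i^*` commutes with `A`, so `P x = Σ b_i x b_i^*` maps `D` to `C`; `Σ b_i b_i^* = 1`
(standard for separable extensions; or only use that `z = Σ b_i b_i^* ∈ A` satisfies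
`tr_{A/F}(z) = Σ tr(b_i b_i^*) = [A:F]` and more precisely `z = 1` because
`tr_{A/F}(z a) = Σ tr(b_i^* (a b_i)) = tr_{A/F}(a)` = trace of the matrix of multiplication by `a`).
So `P` is a projection onto `C` and `tr_F (P) = dim C`.
On the other hand for `a, b ∈ D`: `tr_F (x ↦ a x b) = [D:F] ntr(a) ntr(b)` (for fixed `b` this is a
trace functional in `a`, use `ntr_unique`; for `a = 1` it is the trace of right multiplication, again a
trace functional).  `D` is a free left `A`-module (A is a field), so `trace_{D/F}(a) = [D:A] tr_{A/F}(a)`,
i.e. `ntr(a) = tr_{A/F}(a)/[A:F]` on `A`.  Hence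
`dim C = Σ [D:F] ntr(b_i) ntr(b_i^*) = [D:F]/[A:F] · ntr(Σ tr_{A/F}(b_i) b_i^*) = [D:F]/[A:F]`
as `Σ tr_{A/F}(b_i) b_i^* = 1`.
-/

set_option autoImplicit false
set_option linter.unusedSectionVars false

namespace Crest.Agent.R180
open Module

variable {F D : Type} [Field F] [Ring D] [Algebra F D] [CharZero F] [IsDomain D]
  [FiniteDimensional F D]

theorem dc_ntr_apply (x : D) :
    ntr F D x = ((finrank F D : F)⁻¹) * LinearMap.trace F D (LinearMap.mulLeft F x) := by
  rfl

theorem dc_finrank_ne_zero (F D : Type) [Field F] [Ring D] [Algebra F D] [CharZero F] [IsDomain D]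
  [FiniteDimensional F D] : (finrank F D : F) ≠ 0 := by
  have : 0 < finrank F D := finrank_pos
  exact_mod_cast this.ne'

theorem dc_trace_mulLeft_eq (x : D) :
    LinearMap.trace F D (LinearMap.mulLeft F x) = (finrank F D : F) * ntr F D x := by
  rw [dc_ntr_apply, ← mul_assoc, mul_inv_cancel₀ (dc_finrank_ne_zero F D), one_mul]

/-- trace of left multiplication by `a ∈ A` on `A` -/
theorem dc_trace_mulLeft_sub (A : Subalgebra F D) (a : A) :
    LinearMap.trace F A (LinearMap.mulLeft F a) = (finrank F A : F) * ntr F D (a : D) := by
  let _ : DivisionRing A := divisionRingOfFiniteDimensional F A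
  have hfin : Module.Finite A D := Module.Finite.of_restrictScalars_finite F A D
  let b := Module.finBasis F A
  let c := Module.finBasis A D
  have h1 : LinearMap.trace F D (LinearMap.mulLeft F (a : D)) =
      (finrank A D : F) * LinearMap.trace F A (LinearMap.mulLeft F a) := by
    rw [LinearMap.trace_eq_matrix_trace F (b.smulTower c), LinearMap.trace_eq_matrix_trace F b,
      Matrix.trace, Matrix.trace]
    simp only [Matrix.diag_apply, LinearMap.toMatrix_apply, LinearMap.mulLeft_apply]
    rw [Fintype.sum_prod_type, Finset.mul_sum]
    refine Finset.sum_congr rfl fun i _ => ?_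
    have : ∀ k, (b.smulTower c).repr ((a : D) * (b.smulTower c) (i, k)) (i, k) =
        b.repr (a * b i) i := by
      intro k
      have h2 : (a : D) * (b.smulTower c) (i, k) = (a * b i) • c k := by
        rw [Basis.smulTower_apply]
        show (a : D) * ((b i : D) * c k) = ((a * b i : A) : D) * c k
        push_cast
        rw [mul_assoc]
      rw [h2, Basis.smulTower_repr_mk, map_smul, Basis.repr_self]
      simp
    rw [Finset.sum_congr rfl fun k _ => this k, Finset.sum_const, Finset.card_univ, Fintype.card_fin, nsmul_eq_mul]
  have h3 : finrank F A * finrank A D = finrank F D := Module.finrank_mul_finrank F A D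
  have h4 := dc_trace_mulLeft_eq (F := F) (a : D)
  rw [h1, ← h3] at h4
  push_cast at h4
  have h5 : (finrank A D : F) ≠ 0 := by
    intro h0
    have := dc_finrank_ne_zero F D
    rw [← h3] at this
    push_cast at this
    rw [h0, mul_zero] at this
    exact this rfl
  have h6 : (finrank A D : F) * (LinearMap.trace F A (LinearMap.mulLeft F a)) =
      (finrank A D : F) * ((finrank F A : F) * ntr F D (a : D)) := by
    rw [h4]; ring
  exact mul_left_cancel₀ h5 h6

theorem dc_trace_sandwich [Algebra.IsCentral F D] (a b : D) :
    LinearMap.trace F D (LinearMap.mulLeft F a ∘ₗ LinearMap.mulRight F b) =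
      (finrank F D : F) * (ntr F D a * ntr F D b) := by
  have h1 : ∀ b a : D, LinearMap.trace F D (LinearMap.mulLeft F a ∘ₗ LinearMap.mulRight F b) =
      ntr F D a * LinearMap.trace F D (LinearMap.mulRight F b) := by
    intro b a
    let f : D →ₗ[F] F :=
      { toFun := fun a => LinearMap.trace F D (LinearMap.mulLeft F a ∘ₗ LinearMap.mulRight F b)
        map_add' := by
          intro x y
          rw [← map_add]
          congr 1
          ext z
          simp [add_mul]
        map_smul' := by
          intro c x
          rw [RingHom.id_apply, ← map_smul]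
          congr 1
          ext z
          simp }
    have hf : ∀ x y, f (x * y) = f (y * x) := by
      intro x y
      show LinearMap.trace F D _ = LinearMap.trace F D _
      have e1 : LinearMap.mulLeft F (x * y) ∘ₗ LinearMap.mulRight F b =
          LinearMap.mulLeft F x * (LinearMap.mulLeft F y ∘ₗ LinearMap.mulRight F b) := by
        ext z
        simp [mul_assoc]
      have e2 : LinearMap.mulLeft F (y * x) ∘ₗ LinearMap.mulRight F b =
          (LinearMap.mulLeft F y ∘ₗ LinearMap.mulRight F b) * LinearMap.mulLeft F x := by
        ext z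
        simp [mul_assoc]
      rw [e1, e2, LinearMap.trace_mul_comm]
    have h2 := ntr_unique f hf a
    have h3 : f 1 = LinearMap.trace F D (LinearMap.mulRight F b) := by
      show LinearMap.trace F D _ = LinearMap.trace F D _
      congr 1
      ext z
      simp
    rw [h3] at h2
    exact h2
  have h2 : ∀ b : D, LinearMap.trace F D (LinearMap.mulRight F b) =
      ntr F D b * finrank F D := by
    intro b
    let f : D →ₗ[F] F :=
      { toFun := fun b => LinearMap.trace F D (LinearMap.mulRight F b)
        map_add' := by
          intro x y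
          rw [← map_add]
          congr 1
          ext z
          simp [mul_add]
        map_smul' := by
          intro c x
          rw [RingHom.id_apply, ← map_smul]
          congr 1
          ext z
          simp }
    have hf : ∀ x y, f (x * y) = f (y * x) := by
      intro x y
      show LinearMap.trace F D _ = LinearMap.trace F D _
      have e1 : LinearMap.mulRight F (x * y) = LinearMap.mulRight F y * LinearMap.mulRight F x := by
        ext z
        simp [mul_assoc]
      have e2 : LinearMap.mulRight F (y * x) = LinearMap.mulRight F x * LinearMap.mulRight F y := by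
        ext z
        simp [mul_assoc]
      rw [e1, e2, LinearMap.trace_mul_comm]
    have h2 := ntr_unique f hf b
    have h3 : f 1 = finrank F D := by
      show LinearMap.trace F D _ = _
      have : LinearMap.mulRight F (1 : D) = 1 := by
        ext z; simp
      rw [this, LinearMap.trace_one]
    rw [h3] at h2
    exact h2
  rw [h1, h2]
  ring

theorem double_centralizer [Algebra.IsCentral F D] (A : Subalgebra F D)
    (hA : ∀ x ∈ A, ∀ y ∈ A, x * y = y * x) :
    finrank F (Subalgebra.centralizer F (A : Set D)) * finrank F A = finrank F D := by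
  set C := Subalgebra.centralizer F (A : Set D) with hC
  let b := Module.finBasis F A
  -- the form on `A`
  let B : LinearMap.BilinForm F A :=
    ((LinearMap.mul F D).compr₂ (ntr F D)).domRestrict₁₂ A.toSubmodule A.toSubmodule
  have hBapp : ∀ x y : A, B x y = ntr F D ((x : D) * (y : D)) := fun x y => rfl
  have hB : B.Nondegenerate := by
    constructor
    · intro x hx
      have h0 : (x : D) = 0 := by
        refine ntr_nondeg A (x : D) x.2 fun a ha => ?_
        rw [ntr_comm]
        exact hx ⟨a, ha⟩
      exact Subtype.ext h0
    · intro x hx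
      have h0 : (x : D) = 0 := by
        refine ntr_nondeg A (x : D) x.2 fun a ha => ?_
        exact hx ⟨a, ha⟩
      exact Subtype.ext h0
  let d := B.dualBasis hB b
  -- expansions
  have hexp1 : ∀ y : A, y = ∑ j, B (d j) y • b j := by
    intro y
    conv_lhs => rw [← b.sum_repr y]
    refine Finset.sum_congr rfl fun j _ => ?_
    congr 1
    conv_rhs => rw [← b.sum_repr y]
    rw [map_sum]
    simp only [map_smul, smul_eq_mul]
    have : ∀ i, B (d j) (b i) = if i = j then 1 else 0 := fun i =>
      LinearMap.BilinForm.apply_dualBasis_left hB b j i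
    simp [this]
  have hexp2 : ∀ y : A, y = ∑ i, B y (b i) • d i := by
    intro y
    conv_lhs => rw [← d.sum_repr y]
    refine Finset.sum_congr rfl fun j _ => ?_
    congr 1
    exact LinearMap.BilinForm.dualBasis_repr_apply hB b y j
  let P : D →ₗ[F] D :=
    ∑ i, LinearMap.mulLeft F ((b i : A) : D) ∘ₗ LinearMap.mulRight F ((d i : A) : D)
  have hPapp : ∀ x : D, P x = ∑ i, ((b i : A) : D) * (x * ((d i : A) : D)) := by
    intro x
    simp [P]
  have hPC : ∀ x : D, P x ∈ C := by
    intro x
    rw [hC, Subalgebra.mem_centralizer_iff]
    intro a ha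
    rw [hPapp, Finset.mul_sum, Finset.sum_mul]
    let a' : A := ⟨a, ha⟩
    have e1 : ∀ i, a * (((b i : A) : D) * (x * ((d i : A) : D))) =
        ∑ j, B (d j) (a' * b i) • (((b j : A) : D) * (x * ((d i : A) : D))) := by
      intro i
      have h1 : a * ((b i : A) : D) = ∑ j, B (d j) (a' * b i) • ((b j : A) : D) := by
        have := congrArg (fun z : A => (z : D)) (hexp1 (a' * b i))
        simpa using this
      rw [← mul_assoc, h1, Finset.sum_mul]
      simp
    have e2 : ∀ j, (((b j : A) : D) * (x * ((d j : A) : D))) * a =
        ∑ i, B (d j) (a' * b i) • (((b j : A) : D) * (x * ((d i : A) : D))) := by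
      intro j
      have h1 : ((d j : A) : D) * a = ∑ i, B (d j) (a' * b i) • ((d i : A) : D) := by
        have := congrArg (fun z : A => (z : D)) (hexp2 (d j * a'))
        have h2 : ∀ i, B (d j * a') (b i) = B (d j) (a' * b i) := by
          intro i
          rw [hBapp, hBapp]
          push_cast
          rw [mul_assoc]
        simp only [h2] at this
        simpa using this
      rw [mul_assoc, mul_assoc, h1, Finset.mul_sum, Finset.mul_sum]
      simp
    rw [Finset.sum_congr rfl fun i _ => e1 i, Finset.sum_congr rfl fun i _ => e2 i,
      Finset.sum_comm]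
  -- the Casimir element
  have hz : ∑ i, ((b i : A) : D) * ((d i : A) : D) = algebraMap F D (finrank F A) := by
    rw [← sub_eq_zero]
    refine ntr_nondeg A _ ?_ ?_
    · exact A.sub_mem (A.sum_mem fun i _ => A.mul_mem (b i).2 (d i).2) (A.algebraMap_mem _)
    · intro a ha
      let a' : A := ⟨a, ha⟩
      rw [mul_sub, map_sub, Finset.mul_sum, map_sum, sub_eq_zero]
      have h1 : ∀ i, ntr F D (a * (((b i : A) : D) * ((d i : A) : D))) = B (d i) (a' * b i) := by
        intro i
        rw [hBapp, ← mul_assoc, ntr_comm]
        rfl
      rw [Finset.sum_congr rfl fun i _ => h1 i]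
      have h2 : ∑ i, B (d i) (a' * b i) = LinearMap.trace F A (LinearMap.mulLeft F a') := by
        rw [LinearMap.trace_eq_matrix_trace F b, Matrix.trace]
        refine Finset.sum_congr rfl fun i _ => ?_
        rw [Matrix.diag_apply, LinearMap.toMatrix_apply, LinearMap.mulLeft_apply]
        conv_rhs => rw [hexp1 (a' * b i)]
        rw [map_sum, Finset.sum_apply']
        simp [Finsupp.single_apply]
      rw [h2, dc_trace_mulLeft_sub]
      rw [← Algebra.commutes, ← Algebra.smul_def, map_smul, smul_eq_mul]
  have hzC : ∀ x ∈ C, P x = (finrank F A : F) • x := by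
    intro x hx
    rw [hC, Subalgebra.mem_centralizer_iff] at hx
    rw [hPapp]
    have : ∀ i, ((b i : A) : D) * (x * ((d i : A) : D)) = (((b i : A) : D) * ((d i : A) : D)) * x := by
      intro i
      rw [← hx _ (d i).2, mul_assoc]
    rw [Finset.sum_congr rfl fun i _ => this i, ← Finset.sum_mul, hz, Algebra.smul_def]
  have hm := dc_finrank_ne_zero F A
  have hproj : LinearMap.IsProj C.toSubmodule ((finrank F A : F)⁻¹ • P) := by
    constructor
    · intro x
      exact C.toSubmodule.smul_mem _ (hPC x)
    · intro x hx
      rw [LinearMap.smul_apply, hzC x hx, smul_smul, inv_mul_cancel₀ hm, one_smul]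
  have ht1 := hproj.trace
  rw [map_smul, smul_eq_mul] at ht1
  have ht2 : LinearMap.trace F D P = finrank F D := by
    have : LinearMap.trace F D P = ∑ i, LinearMap.trace F D
      (LinearMap.mulLeft F ((b i : A) : D) ∘ₗ LinearMap.mulRight F ((d i : A) : D)) := by
      rw [← map_sum]
    rw [this, Finset.sum_congr rfl fun i _ => dc_trace_sandwich ((b i : A) : D) ((d i : A) : D),
      ← Finset.mul_sum]
    have h1 : ∑ i, ntr F D ((b i : A) : D) * ntr F D ((d i : A) : D) = 1 := by
      have h2 := congrArg (fun z : A => ntr F D (z : D)) (hexp2 1)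
      have h3 : ∀ i, B 1 (b i) = ntr F D ((b i : A) : D) := by
        intro i
        rw [hBapp]
        simp
      simp only [h3] at h2
      rw [← ntr_one (F := F) (D := D)]
      have h4 : ntr F D ((1 : A) : D) = ntr F D 1 := rfl
      rw [h4] at h2
      rw [h2]
      simp
    rw [h1, mul_one]
  rw [ht2] at ht1
  have h5 : (finrank F C : F) * (finrank F A : F) = finrank F D := by
    have h6 : (finrank F C.toSubmodule : F) = finrank F C := by
      rw [Subalgebra.finrank_toSubmodule]
    rw [← h6, ← ht1]
    field_simp
  exact_mod_cast h5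

/-- subalgebras: `dim A` divides `dim B` for `A ≤ B` (B is a left vector space over the division ring A) -/
theorem finrank_dvd_of_le (A B : Subalgebra F D) (h : A ≤ B) : finrank F A ∣ finrank F B := by
  let _ : DivisionRing A := divisionRingOfFiniteDimensional F A
  let _ : Module A B := Module.compHom B (Subalgebra.inclusion h).toRingHom
  have _ : IsScalarTower F A B := by
    constructor
    intro x y z
    show (Subalgebra.inclusion h (x • y)) * z = x • ((Subalgebra.inclusion h y) * z)
    rw [map_smul, smul_mul_assoc]
  exact Dvd.intro _ (Module.finrank_mul_finrank F A B)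

theorem adjoin_comm (θ : D) : ∀ x ∈ Algebra.adjoin F ({θ} : Set D),
    ∀ y ∈ Algebra.adjoin F ({θ} : Set D), x * y = y * x := by
  intro x hx y hy
  have := Algebra.commute_of_mem_adjoin_of_forall_mem_commute (a := x) (b := y) (R := F)
    (s := {θ}) hy ?_
  · exact this.eq
  · intro z hz
    rw [Set.mem_singleton_iff] at hz
    subst hz
    exact (Algebra.commute_of_mem_adjoin_self hx).symm

theorem centralizer_adjoin (θ x : D) :
    x ∈ Subalgebra.centralizer F ((Algebra.adjoin F ({θ} : Set D) : Subalgebra F D) : Set D) ↔
      Commute x θ := by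
  rw [Subalgebra.mem_centralizer_iff]
  constructor
  · intro h
    exact (h θ (Algebra.self_mem_adjoin_singleton F θ)).symm
  · intro h y hy
    have := Algebra.commute_of_mem_adjoin_of_forall_mem_commute (a := x) (b := y) (R := F)
      (s := {θ}) hy ?_
    · exact this.eq.symm
    · intro z hz
      rw [Set.mem_singleton_iff] at hz
      subst hz
      exact h

theorem mdeg_pos (θ : D) : 0 < mdeg F θ := finrank_pos

/-- `m² ∣ [D:F]` : `L = F[θ]` is contained in its centralizer `C`, `[C:F] = [D:F]/m`, and `C` is a
left vector space over `L`. -/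
theorem mdeg_sq_dvd [Algebra.IsCentral F D] (θ : D) : (mdeg F θ) ^ 2 ∣ finrank F D := by
  set A := Algebra.adjoin F ({θ} : Set D) with hA
  have h1 := double_centralizer A (adjoin_comm θ)
  have h2 : A ≤ Subalgebra.centralizer F (A : Set D) := by
    intro x hx
    rw [Subalgebra.mem_centralizer_iff]
    intro y hy
    exact adjoin_comm (F := F) θ y hy x hx
  obtain ⟨k, hk⟩ := finrank_dvd_of_le A _ h2
  refine ⟨k, ?_⟩
  rw [← h1, hk]
  show _ = (finrank F A) ^ 2 * k
  ring

end Crest.Agent.R180
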