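import Mathlib
import Crest.Agent.R180.Laurent

/-!
# Piece C2: reduction of subspaces modulo `ε`

For a `Lau F`-subspace `M` of `κ → Lau D` (κ finite, `D` finite dimensional over `F`), the reduction
`red M = { x(0) : x ∈ M integral } ⊂ (κ → D)` is an `F`-subspace with `dim red M = dim M`.

Proof. (≤) if `x_1..x_k ∈ M` are integral with `F`-independent reductions, they are `Lau F`-independent:
normalise a relation `Σ f_i x_i = 0` by a power of `ε` so that all `f_i` are integral and some
`f_i(0) ≠ 0`, then reduce (`exists_normalize`, `smul_int`).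
(≥) Induction on `dim M`: in coordinates (`κ × basis of D`, `lauBasis`) `M ⊂ (Fin n → Lau F)`; take
`0 ≠ x ∈ M`, normalised so that it is integral with `x_j(0) ≠ 0` for some coordinate `j`; let
`M' = {y ∈ M : y_j = 0}`, `dim M' = dim M - 1`; all elements of `red M'` have `j`-th coordinate `0`, and
`x(0)` has not, so `dim red M ≥ dim red M' + 1`.
-/

set_option autoImplicit false
set_option linter.unusedSectionVars false

namespace Crest.Agent.R180
open Module

variable {F D : Type} [Field F] [Ring D] [Algebra F D]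

/-! ### auxiliary facts -/

theorem isInt_zero {R : Type} [Zero R] : IsInt (0 : Lau R) := fun n _ => by simp

theorem isInt_lc {R : Type} [Ring R] (a : R) : IsInt (lc a : Lau R) := fun n hn => by
  simp [lc, HahnSeries.coeff_single_of_ne (ne_of_lt hn)]

theorem isInt_sum {R n : Type} [Ring R] (s : Finset n) (x : n → Lau R) (hx : ∀ i ∈ s, IsInt (x i)) :
    IsInt (∑ i ∈ s, x i) := by
  intro k hk
  rw [HahnSeries.coeff_sum]
  exact Finset.sum_eq_zero fun i hi => hx i hi k hk

theorem isInt_lc_smul (a : F) (x : Lau D) (hx : IsInt x) : IsInt ((lc a : Lau F) • x) := by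
  intro n hn
  rw [lc_smul, hx n hn, smul_zero]

/-- reduction of a subspace of `κ → Lau D` -/
def red {κ : Type} (M : Submodule (Lau F) (κ → Lau D)) : Submodule F (κ → D) where
  carrier := {y | ∃ x ∈ M, (∀ k, IsInt (x k)) ∧ ∀ k, (x k).coeff 0 = y k}
  zero_mem' := ⟨0, M.zero_mem, fun _ => isInt_zero, fun _ => by simp⟩
  add_mem' := by
    rintro y y' ⟨x, hx, hi, h0⟩ ⟨x', hx', hi', h0'⟩
    refine ⟨x + x', M.add_mem hx hx', fun k => (hi k).add (hi' k), fun k => ?_⟩
    simp [h0, h0']
  smul_mem' := by
    rintro a y ⟨x, hx, hi, h0⟩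
    refine ⟨(lc a : Lau F) • x, M.smul_mem _ hx, fun k => isInt_lc_smul a _ (hi k), fun k => ?_⟩
    rw [Pi.smul_apply, lc_smul, h0, Pi.smul_apply]

theorem mem_red {κ : Type} (M : Submodule (Lau F) (κ → Lau D)) (y : κ → D) :
    y ∈ red M ↔ ∃ x ∈ M, (∀ k, IsInt (x k)) ∧ ∀ k, (x k).coeff 0 = y k := Iff.rfl

/-- integral vectors with independent reductions are independent -/
theorem lcv {κ n : Type} [Finite n] (x : n → κ → Lau D) (hx : ∀ i k, IsInt (x i k))
    (hind : LinearIndependent F (fun i => (fun k => (x i k).coeff 0 : κ → D))) :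
    LinearIndependent (Lau F) x := by
  classical
  cases nonempty_fintype n
  rw [Fintype.linearIndependent_iff]
  intro f hf
  by_contra hne
  push Not at hne
  have hf0 : f ≠ 0 := by
    rintro rfl
    obtain ⟨i, hi⟩ := hne
    exact hi rfl
  obtain ⟨N, hN, i0, hi0⟩ := exists_normalize f hf0
  have h1 : ∑ i, (epow N * f i) • x i = 0 := by
    have h := congrArg (fun v => (epow N : Lau F) • v) hf
    simp only [smul_zero, Finset.smul_sum, smul_smul] at h
    exact h
  have h2 : ∑ i, (epow N * f i).coeff 0 • (fun k => (x i k).coeff 0 : κ → D) = 0 := by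
    funext k
    have h := congrArg (fun v : κ → Lau D => (v k).coeff 0) h1
    simp only [Finset.sum_apply, Pi.smul_apply, Pi.zero_apply, HahnSeries.coeff_zero,
      HahnSeries.coeff_sum] at h
    rw [Finset.sum_apply, Pi.zero_apply, ← h]
    refine Finset.sum_congr rfl fun i _ => ?_
    rw [(smul_int (epow N * f i) (x i k) (hN i) (hx i k)).2]
    rfl
  rw [Fintype.linearIndependent_iff] at hind
  exact hi0 (hind _ h2 i0)

theorem finrank_red_le {κ : Type} [Finite κ] [FiniteDimensional F D]
    (M : Submodule (Lau F) (κ → Lau D)) : finrank F (red M) ≤ finrank (Lau F) M := by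
  classical
  let b := Module.finBasis F (red M)
  have hb : ∀ i, ∃ x ∈ M, (∀ k, IsInt (x k)) ∧ ∀ k, (x k).coeff 0 = (b i : κ → D) k :=
    fun i => (b i).2
  choose x hxM hxI hx0 using hb
  have hli : LinearIndependent (Lau F) x := by
    apply lcv x hxI
    have h1 : (fun i => (fun k => (x i k).coeff 0 : κ → D)) = fun i => (b i : κ → D) := by
      funext i k
      exact hx0 i k
    rw [h1]
    exact b.linearIndependent.map' (red M).subtype (Submodule.ker_subtype _)
  have hli' : LinearIndependent (Lau F) (fun i => (⟨x i, hxM i⟩ : M)) := by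
    apply LinearIndependent.of_comp M.subtype
    exact hli
  have := hli'.fintype_card_le_finrank
  simpa using this

/-- one coordinate of a vector -/
noncomputable def crd {κ : Type} [FiniteDimensional F D] (k : κ)
    (j : Fin (finrank F D)) : (κ → Lau D) →ₗ[Lau F] Lau F :=
  ((lauBasis (finBasis F D)).coord j) ∘ₗ LinearMap.proj k

theorem crd_coeff {κ : Type} [FiniteDimensional F D] (k : κ) (j : Fin (finrank F D))
    (x : κ → Lau D) (n : ℤ) :
    (crd (F := F) k j x).coeff n = (finBasis F D).repr ((x k).coeff n) j := by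
  unfold crd
  simp only [LinearMap.comp_apply, LinearMap.proj_apply, Basis.coord_apply]
  exact lauBasis_repr _ _ _ _

theorem le_finrank_red {κ : Type} [Finite κ] [FiniteDimensional F D] :
    ∀ (n : ℕ) (M : Submodule (Lau F) (κ → Lau D)), n ≤ finrank (Lau F) M → n ≤ finrank F (red M) := by
  classical
  intro n
  induction n with
  | zero => intro M _; exact Nat.zero_le _
  | succ n ih =>
    intro M hM
    have hpos : 0 < finrank (Lau F) M := by omega
    have hnt : Nontrivial M := Module.finrank_pos_iff.1 hpos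
    obtain ⟨⟨x, hxM⟩, hx0⟩ := exists_ne (0 : M)
    have hx : x ≠ 0 := by
      intro h; exact hx0 (Subtype.ext h)
    obtain ⟨N, hN, k, hk⟩ := exists_normalize x hx
    -- normalised vector
    let y : κ → Lau D := (epow N : Lau F) • x
    have hyM : y ∈ M := M.smul_mem _ hxM
    have hy : ∀ k, y k = epow N * x k := fun k => epow_smul N (x k)
    have hyI : ∀ k, IsInt (y k) := fun k => by rw [hy]; exact hN k
    have hyk : (y k).coeff 0 ≠ 0 := by rw [hy]; exact hk
    -- coordinate with nonzero reduction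
    obtain ⟨j, hj⟩ : ∃ j, (finBasis F D).repr ((y k).coeff 0) j ≠ 0 := by
      by_contra hcon
      push Not at hcon
      apply hyk
      apply (finBasis F D).repr.injective
      ext j
      simpa using hcon j
    let φ : (κ → Lau D) →ₗ[Lau F] Lau F := crd k j
    let ψ : (κ → D) →ₗ[F] F := ((finBasis F D).coord j) ∘ₗ LinearMap.proj k
    let M' : Submodule (Lau F) (κ → Lau D) := M ⊓ LinearMap.ker φ
    have hM'n : n ≤ finrank (Lau F) M' := by
      have h1 := LinearMap.finrank_range_add_finrank_ker (φ.domRestrict M)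
      have h2 : finrank (Lau F) (LinearMap.range (φ.domRestrict M)) ≤ 1 := by
        have := Submodule.finrank_le (LinearMap.range (φ.domRestrict M))
        simpa using this
      have h3 : finrank (Lau F) (LinearMap.ker (φ.domRestrict M)) ≤ finrank (Lau F) M' := by
        have e : (LinearMap.ker (φ.domRestrict M)).map M.subtype ≤ M' := by
          rintro _ ⟨z, hz, rfl⟩
          exact ⟨z.2, hz⟩
        rw [LinearEquiv.finrank_eq (Submodule.equivMapOfInjective M.subtype
          M.injective_subtype (LinearMap.ker (φ.domRestrict M)))]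
        exact Submodule.finrank_mono e
      omega
    have h4 := ih M' hM'n
    -- strict inclusion
    have hsub : red M' ≤ red M := by
      rintro z ⟨w, hw, hwi, hw0⟩
      exact ⟨w, hw.1, hwi, hw0⟩
    have hker : red M' ≤ LinearMap.ker ψ := by
      rintro z ⟨w, hw, hwi, hw0⟩
      have h5 : φ w = 0 := hw.2
      have h6 : (φ w).coeff 0 = 0 := by rw [h5]; simp
      rw [crd_coeff, hw0] at h6
      simpa [ψ] using h6
    have hlt : red M' < red M := by
      refine lt_of_le_of_ne hsub ?_
      intro heq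
      have h7 : (fun k => (y k).coeff 0 : κ → D) ∈ red M := ⟨y, hyM, hyI, fun _ => rfl⟩
      rw [← heq] at h7
      have h8 := hker h7
      apply hj
      simpa [ψ] using h8
    have := Submodule.finrank_lt_finrank_of_lt hlt
    omega

theorem finrank_red {κ : Type} [Finite κ] [FiniteDimensional F D]
    (M : Submodule (Lau F) (κ → Lau D)) : finrank F (red M) = finrank (Lau F) M :=
  le_antisymm (finrank_red_le M) (le_finrank_red _ M le_rfl)

/-- reduction of a subspace of `Lau D` -/
def red1 (M : Submodule (Lau F) (Lau D)) : Submodule F D where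
  carrier := {y | ∃ x ∈ M, IsInt x ∧ x.coeff 0 = y}
  zero_mem' := ⟨0, M.zero_mem, isInt_zero, by simp⟩
  add_mem' := by
    rintro y y' ⟨x, hx, hi, h0⟩ ⟨x', hx', hi', h0'⟩
    exact ⟨x + x', M.add_mem hx hx', hi.add hi', by simp [h0, h0']⟩
  smul_mem' := by
    rintro a y ⟨x, hx, hi, h0⟩
    exact ⟨(lc a : Lau F) • x, M.smul_mem _ hx, isInt_lc_smul a _ hi, by rw [lc_smul, h0]⟩

theorem mem_red1 (M : Submodule (Lau F) (Lau D)) (y : D) :
    y ∈ red1 M ↔ ∃ x ∈ M, IsInt x ∧ x.coeff 0 = y := Iff.rfl

theorem finrank_red1 [FiniteDimensional F D] (M : Submodule (Lau F) (Lau D)) :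
    finrank F (red1 M) = finrank (Lau F) M := by
  let e : (Unit → Lau D) ≃ₗ[Lau F] Lau D := LinearEquiv.funUnique Unit (Lau F) (Lau D)
  let e' : (Unit → D) ≃ₗ[F] D := LinearEquiv.funUnique Unit F D
  let N : Submodule (Lau F) (Unit → Lau D) := M.comap (e : (Unit → Lau D) →ₗ[Lau F] Lau D)
  have h1 : finrank (Lau F) N = finrank (Lau F) M := by
    have h := LinearEquiv.finrank_eq (e.ofSubmodule' M)
    exact h
  have h2 : red1 M = (red N).map (e' : (Unit → D) →ₗ[F] D) := by
    ext y
    constructor
    · rintro ⟨x, hx, hi, h0⟩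
      refine ⟨fun _ => y, ⟨fun _ => x, ?_, fun _ => hi, fun _ => h0⟩, rfl⟩
      exact hx
    · rintro ⟨z, ⟨x, hx, hi, h0⟩, rfl⟩
      exact ⟨x (), hx, hi (), h0 ()⟩
  rw [h2, ← h1, ← finrank_red N]
  exact LinearEquiv.finrank_eq (e'.submoduleMap (red N)).symm

/-- reduction of a subalgebra is a subalgebra -/
def redAlg (A : Subalgebra (Lau F) (Lau D)) : Subalgebra F D where
  carrier := {y | ∃ x ∈ A, IsInt x ∧ x.coeff 0 = y}
  mul_mem' := by
    rintro y y' ⟨x, hx, hi, h0⟩ ⟨x', hx', hi', h0'⟩
    refine ⟨x * x', A.mul_mem hx hx', (hi.mul hi').1, ?_⟩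
    rw [(hi.mul hi').2, h0, h0']
  add_mem' := by
    rintro y y' ⟨x, hx, hi, h0⟩ ⟨x', hx', hi', h0'⟩
    exact ⟨x + x', A.add_mem hx hx', hi.add hi', by simp [h0, h0']⟩
  algebraMap_mem' := by
    intro a
    refine ⟨algebraMap (Lau F) (Lau D) (lc a), A.algebraMap_mem _, ?_, ?_⟩
    · intro n hn
      rw [lau_algebraMap_coeff, isInt_lc a n hn, map_zero]
    · rw [lau_algebraMap_coeff, lc_coeff_zero]

theorem mem_redAlg (A : Subalgebra (Lau F) (Lau D)) (y : D) :
    y ∈ redAlg A ↔ ∃ x ∈ A, IsInt x ∧ x.coeff 0 = y := Iff.rfl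

theorem finrank_redAlg [FiniteDimensional F D] (A : Subalgebra (Lau F) (Lau D)) :
    finrank F (redAlg A) = finrank (Lau F) A := by
  have h := finrank_red1 (F := F) (Subalgebra.toSubmodule A)
  have h1 : Subalgebra.toSubmodule (redAlg A) = red1 (Subalgebra.toSubmodule A) := by
    ext y
    exact Iff.rfl
  have h2 : finrank F (Subalgebra.toSubmodule (redAlg A)) = finrank F (redAlg A) := rfl
  have h3 : finrank (Lau F) (Subalgebra.toSubmodule A) = finrank (Lau F) A := rfl
  rw [← h2, h1, h, h3]

/-- integral elements with independent reductions are independent -/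
theorem lc1 {n : Type} [Finite n] (x : n → Lau D) (hx : ∀ k, IsInt (x k))
    (hind : LinearIndependent F (fun k => (x k).coeff 0)) : LinearIndependent (Lau F) x := by
  let e : (Unit → Lau D) ≃ₗ[Lau F] Lau D := LinearEquiv.funUnique Unit (Lau F) (Lau D)
  let e' : (Unit → D) ≃ₗ[F] D := LinearEquiv.funUnique Unit F D
  have h := lcv (F := F) (fun (i : n) (_ : Unit) => x i) (fun i _ => hx i) (by
    have h := hind.map' (e'.symm : D →ₗ[F] (Unit → D)) (LinearEquiv.ker _)
    exact h)
  have h' := h.map' (e : (Unit → Lau D) →ₗ[Lau F] Lau D) (LinearEquiv.ker _)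
  exact h'

/-- if `x ∈ M` is nonzero, some multiple is integral with nonzero reduction -/
theorem exists_scale (x : Lau D) (hx : x ≠ 0) :
    ∃ n : ℤ, IsInt ((epow n : Lau F) • x) ∧ ((epow n : Lau F) • x).coeff 0 ≠ 0 := by
  obtain ⟨N, hN, k, hk⟩ := exists_normalize (fun _ : Unit => x) (by
    intro h; exact hx (congrFun h ()))
  exact ⟨N, by rw [epow_smul]; exact hN (), by rw [epow_smul]; exact hk⟩

end Crest.Agent.R180
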