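import Mathlib
import Crest.Agent.R180.Red
import Crest.Agent.R180.DC

/-!
# Piece E1: residues of `F''[Θ]`
`A ⊂ redAlg (F''[Θ])`.  `θ = Θ(0)`.  For `p = minpoly F₁ θ`:
`p(Θ) = ε^N p'(θ) X + O(ε^{N+1})` because `Θ = θ + ε^N X + O(ε^{N+1})`, `X` commutes with `θ`
and `2N ≥ N+1`; so `ε^{-N} p(Θ) ∈ F''[Θ]` is integral with residue `p'(θ) X`; `p'(θ) ≠ 0` in `F₁[θ]`
(characteristic 0, degree) is invertible in `F₁[θ]`.  `redAlg` is a subalgebra.
-/

set_option autoImplicit false
set_option linter.unusedSectionVars false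

namespace Crest.Agent.R180
open Module

/-- `x = a + ε^N b + O(ε^{N+1})` -/
structure LExp {R : Type} [Ring R] (x : Lau R) (a b : R) (N : ℕ) : Prop where
  int : IsInt x
  zero : x.coeff 0 = a
  mid : ∀ n : ℤ, 0 < n → n < N → x.coeff n = 0
  top : x.coeff N = b

theorem LExp.add {R : Type} [Ring R] {x y : Lau R} {a b c d : R} {N : ℕ} (hx : LExp x a b N)
    (hy : LExp y c d N) : LExp (x + y) (a + c) (b + d) N where
  int := hx.int.add hy.int
  zero := by rw [HahnSeries.coeff_add, hx.zero, hy.zero]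
  mid := fun n h1 h2 => by rw [HahnSeries.coeff_add, hx.mid n h1 h2, hy.mid n h1 h2, add_zero]
  top := by rw [HahnSeries.coeff_add, hx.top, hy.top]

theorem LExp.mul {R : Type} [Ring R] {x y : Lau R} {a b c d : R} {N : ℕ} (hN : 1 ≤ N)
    (hx : LExp x a b N) (hy : LExp y c d N) : LExp (x * y) (a * c) (a * d + b * c) N where
  int := (hx.int.mul hy.int).1
  zero := by rw [(hx.int.mul hy.int).2, hx.zero, hy.zero]
  mid := fun n h1 h2 => by
    rw [coeff_mul_Icc x y 0 0 n hx.int hy.int]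
    refine Finset.sum_eq_zero fun i hi => ?_
    rw [Finset.mem_Icc] at hi
    by_cases h : 0 < i
    · rw [hx.mid i h (by omega), zero_mul]
    · rw [hy.mid (n - i) (by omega) (by omega), mul_zero]
  top := by
    rw [coeff_mul_Icc x y 0 0 N hx.int hy.int]
    have h0 : (0 : ℤ) ≠ (N : ℤ) := by omega
    have hsub : ({0, (N : ℤ)} : Finset ℤ) ⊆ Finset.Icc (0 : ℤ) ((N : ℤ) - 0) := by
      intro i hi
      simp only [Finset.mem_insert, Finset.mem_singleton] at hi
      rw [Finset.mem_Icc]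
      omega
    rw [← Finset.sum_subset hsub]
    · rw [Finset.sum_pair h0, hx.zero, hx.top, sub_zero, hy.top, sub_self, hy.zero]
    · intro i hi hi2
      rw [Finset.mem_Icc] at hi
      simp only [Finset.mem_insert, Finset.mem_singleton, not_or] at hi2
      rw [hx.mid i (by omega) (by omega), zero_mul]

theorem lExp_const {R : Type} [Ring R] (a : R) {N : ℕ} (hN : 1 ≤ N) : LExp (lc a : Lau R) a 0 N where
  int := isInt_lc a
  zero := lc_coeff_zero a
  mid := fun n h1 _ => lc_coeff_ne a n (by omega)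
  top := lc_coeff_ne a N (by omega)

theorem LExp.congr {R : Type} [Ring R] {x : Lau R} {a b a' b' : R} {N : ℕ} (hx : LExp x a b N)
    (ha : a = a') (hb : b = b') : LExp x a' b' N := by
  subst ha; subst hb; exact hx

theorem lExp_aeval {F₁ D₁ : Type} [Field F₁] [Ring D₁] [Algebra F₁ D₁] {Θ : Lau D₁} {θ₀ X : D₁}
    {N : ℕ} (h : LTerm Θ θ₀ X N) (p : Polynomial F₁) :
    LExp (Polynomial.aeval Θ (p.map (lc : F₁ →+* Lau F₁))) (Polynomial.aeval θ₀ p)
      (Polynomial.aeval θ₀ (Polynomial.derivative p) * X) N := by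
  have hΘ : LExp Θ θ₀ X N := ⟨h.int, h.zero, h.mid, h.top⟩
  induction p using Polynomial.induction_on with
  | C a =>
    have h1 := lExp_const (algebraMap F₁ D₁ a) h.hN
    rw [Polynomial.map_C, Polynomial.aeval_C, lau_algebraMap_lc]
    refine h1.congr ?_ ?_
    · simp
    · simp
  | add p q hp hq =>
    rw [Polynomial.map_add, map_add]
    refine (hp.add hq).congr ?_ ?_
    · simp
    · rw [Polynomial.derivative_add, map_add, add_mul]
  | monomial n a ih =>
    have e1 : (Polynomial.C a * Polynomial.X ^ (n + 1) : Polynomial F₁) =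
        (Polynomial.C a * Polynomial.X ^ n) * Polynomial.X := by rw [pow_succ, mul_assoc]
    rw [e1]
    generalize Polynomial.C a * Polynomial.X ^ n = q at ih ⊢
    rw [Polynomial.map_mul, Polynomial.map_X, map_mul, Polynomial.aeval_X]
    refine (ih.mul h.hN hΘ).congr ?_ ?_
    · rw [map_mul, Polynomial.aeval_X]
    · rw [Polynomial.derivative_mul, Polynomial.derivative_X, mul_one, map_add, map_mul,
        Polynomial.aeval_X, add_mul, mul_assoc, mul_assoc, h.comm.eq, add_comm]

/-- in a finite dimensional domain, subalgebras are closed under inverses -/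
theorem exists_inv_mem_sub {F₁ D₁ : Type} [Field F₁] [Ring D₁] [IsDomain D₁]
    [Algebra F₁ D₁] [FiniteDimensional F₁ D₁] (A : Subalgebra F₁ D₁) (x : D₁) (hx : x ∈ A)
    (hx0 : x ≠ 0) : ∃ y ∈ A, y * x = 1 := by
  let f : A →ₗ[F₁] A :=
    { toFun := fun y => ⟨y.1 * x, A.mul_mem y.2 hx⟩
      map_add' := fun y z => by
        apply Subtype.ext
        show (y.1 + z.1) * x = y.1 * x + z.1 * x
        rw [add_mul]
      map_smul' := fun c y => by
        apply Subtype.ext
        show (c • y.1) * x = c • (y.1 * x)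
        rw [smul_mul_assoc] }
  have hinj : Function.Injective f := by
    intro y z hyz
    have h1 : y.1 * x = z.1 * x := congrArg Subtype.val hyz
    exact Subtype.ext (mul_right_cancel₀ hx0 h1)
  have hsurj : Function.Surjective f := LinearMap.surjective_of_injective hinj
  obtain ⟨y, hy⟩ := hsurj 1
  exact ⟨y.1, y.2, congrArg Subtype.val hy⟩

/-- **E1** -/
theorem lift_adjoin {F₁ D₁ : Type} [Field F₁] [CharZero F₁] [Ring D₁] [IsDomain D₁]
    [Algebra F₁ D₁] [FiniteDimensional F₁ D₁] (Θ : Lau D₁) (θ₀ X : D₁) (N : ℕ)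
    (h : LTerm Θ θ₀ X N) :
    Algebra.adjoin F₁ ({θ₀, X} : Set D₁) ≤ redAlg (Algebra.adjoin (Lau F₁) ({Θ} : Set (Lau D₁))) := by
  set A := Algebra.adjoin (Lau F₁) ({Θ} : Set (Lau D₁)) with hA
  have hΘA : Θ ∈ A := Algebra.subset_adjoin rfl
  have hθ : θ₀ ∈ redAlg A := ⟨Θ, hΘA, h.int, h.zero⟩
  have hadj : Algebra.adjoin F₁ ({θ₀} : Set D₁) ≤ redAlg A := by
    refine Algebra.adjoin_le ?_
    intro y hy
    rw [Set.mem_singleton_iff] at hy
    rw [hy]; exact hθ
  -- the minimal polynomial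
  set p := minpoly F₁ θ₀ with hp
  have hint : IsIntegral F₁ θ₀ := Algebra.IsIntegral.isIntegral θ₀
  have hpm : p.Monic := minpoly.monic hint
  have hpd : 0 < p.natDegree := minpoly.natDegree_pos hint
  have hp0 : Polynomial.aeval θ₀ p = 0 := minpoly.aeval F₁ θ₀
  have hd0 : Polynomial.derivative p ≠ 0 := by
    intro hd
    have := Polynomial.derivative_eq_zero.mp hd
    omega
  have hpd2 : Polynomial.aeval θ₀ (Polynomial.derivative p) ≠ 0 := by
    intro hz
    have h1 := minpoly.degree_le_of_ne_zero F₁ θ₀ hd0 hz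
    have h2 := Polynomial.degree_derivative_lt (p := p) hpm.ne_zero
    exact absurd (lt_of_lt_of_le h2 h1) (lt_irrefl _)
  have key := lExp_aeval h p
  set P := Polynomial.aeval Θ (p.map (lc : F₁ →+* Lau F₁)) with hP
  have hPA : P ∈ A := by
    rw [hP, hA]
    exact Polynomial.aeval_mem_adjoin_singleton _ _
  have hpX : Polynomial.aeval θ₀ (Polynomial.derivative p) * X ∈ redAlg A := by
    refine ⟨(epow (-(N : ℤ)) : Lau F₁) • P, A.smul_mem hPA _, ?_, ?_⟩
    · intro n hn
      rw [epow_smul, epow_coeff_mul]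
      rcases lt_trichotomy (n - -(N : ℤ)) 0 with h1 | h1 | h1
      · exact key.int _ h1
      · rw [h1, key.zero, hp0]
      · exact key.mid _ h1 (by omega)
    · rw [epow_smul, epow_coeff_mul]
      have : (0 : ℤ) - -(N : ℤ) = N := by ring
      rw [this, key.top]
  obtain ⟨u, hu, hu1⟩ := exists_inv_mem_sub (Algebra.adjoin F₁ ({θ₀} : Set D₁))
    (Polynomial.aeval θ₀ (Polynomial.derivative p)) (Polynomial.aeval_mem_adjoin_singleton _ _) hpd2
  have hX : X ∈ redAlg A := by
    have := (redAlg A).mul_mem (hadj hu) hpX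
    rwa [← mul_assoc, hu1, one_mul] at this
  refine Algebra.adjoin_le ?_
  intro y hy
  rcases hy with hy | hy
  · rw [hy]; exact hθ
  · rw [Set.mem_singleton_iff] at hy
    rw [hy]; exact hX

/-- consequence of E1 -/
theorem mdeg_ge {F₁ D₁ : Type} [Field F₁] [CharZero F₁] [Ring D₁] [IsDomain D₁]
    [Algebra F₁ D₁] [FiniteDimensional F₁ D₁] (Θ : Lau D₁) (θ₀ X : D₁) (N : ℕ)
    (h : LTerm Θ θ₀ X N) :
    finrank F₁ (Algebra.adjoin F₁ ({θ₀, X} : Set D₁)) ≤ mdeg (Lau F₁) Θ := by
  unfold mdeg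
  rw [← finrank_redAlg]
  have hle : Subalgebra.toSubmodule (Algebra.adjoin F₁ ({θ₀, X} : Set D₁)) ≤
      Subalgebra.toSubmodule (redAlg (Algebra.adjoin (Lau F₁) ({Θ} : Set (Lau D₁)))) :=
    lift_adjoin Θ θ₀ X N h
  exact Submodule.finrank_mono hle

end Crest.Agent.R180
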