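import Mathlib
import Crest.Agent.R180.Defs

/-!
# Piece A1: API of noncommutative power series  (independent of everything else)

All statements are elementary.  `NPS ι D = List ι → D`, product = convolution, recursive formula
`NPS.mul_nil`, `NPS.mul_cons` in `NPS.lean`.
* domain: take `m` a shortest word with `f m ≠ 0`, `m'` a shortest word with `g m' ≠ 0`; then
  `(f*g)(m ++ m') = f m * g m'`.
* units: if `f [] = 1` define the inverse recursively in the length of the word (or as a geometric
  series `Σ (1-f)^n`, which is a finite sum in each coefficient).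
-/

set_option autoImplicit false
set_option linter.unusedSectionVars false

namespace Crest.Agent.R180
namespace NPS

variable {ι D : Type} [Ring D]

theorem mul_apply (f g : NPS ι D) (m : List ι) :
    (f * g) m = ∑ k ∈ Finset.range (m.length + 1), f (m.take k) * g (m.drop k) := by
  induction m generalizing f with
  | nil => simp
  | cons a l ih =>
    rw [mul_cons, ih, List.length_cons, Finset.sum_range_succ' _ (l.length + 1)]
    simp only [List.take_succ_cons, List.drop_succ_cons, List.take_zero, List.drop_zero, tl_apply]
    rw [add_comm]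

theorem mul_one_letter (f g : NPS ι D) (a : ι) :
    (f * g) [a] = f [] * g [a] + f [a] * g [] := by
  rw [mul_cons]; simp

theorem mul_two_letters (f g : NPS ι D) (a b : ι) :
    (f * g) [a, b] = f [] * g [a, b] + f [a] * g [b] + f [a, b] * g [] := by
  rw [mul_cons, mul_cons]; simp [add_assoc]

theorem C_mul (d : D) (f : NPS ι D) (m : List ι) : (C d * f : NPS ι D) m = d * f m := by
  cases m with
  | nil => simp
  | cons a l =>
    rw [mul_cons]
    have : tl a (C d : NPS ι D) = 0 := rfl
    rw [this, zero_mul]; simp

theorem mul_C (d : D) (f : NPS ι D) (m : List ι) : (f * C d : NPS ι D) m = f m * d := by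
  induction m generalizing f with
  | nil => simp
  | cons a l ih =>
    rw [mul_cons, ih]; simp

theorem var_mul_nil [DecidableEq ι] (j : ι) (f : NPS ι D) : (var j * f : NPS ι D) [] = 0 := by
  simp [var]

theorem var_mul_cons [DecidableEq ι] (j a : ι) (f : NPS ι D) (m : List ι) :
    (var j * f : NPS ι D) (a :: m) = if a = j then f m else 0 := by
  rw [mul_cons]
  have h0 : (var j : NPS ι D) [] = 0 := by simp [var]
  rw [h0, zero_mul, zero_add]
  split_ifs with h
  · have : tl a (var j : NPS ι D) = 1 := by
      ext l; cases l with
      | nil => simp [var, h]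
      | cons b l => simp [var]
    rw [this, one_mul]
  · have : tl a (var j : NPS ι D) = 0 := by
      ext l; simp [var, h]
    rw [this, zero_mul]; simp

theorem C_comm_var [DecidableEq ι] (d : D) (j : ι) : Commute (C d : NPS ι D) (var j) := by
  show (C d : NPS ι D) * var j = var j * C d
  ext m
  rw [C_mul, mul_C]
  unfold var
  split_ifs <;> simp

/-- scalars are central -/
theorem C_central {F : Type} [Field F] [Algebra F D] (a : F) (f : NPS ι D) :
    Commute (C (algebraMap F D a)) f := by
  show (C (algebraMap F D a) : NPS ι D) * f = f * C (algebraMap F D a)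
  ext m
  rw [C_mul, mul_C]
  exact Algebra.commutes a _

theorem nontriv [Nontrivial D] : Nontrivial (NPS ι D) := by
  refine ⟨⟨0, 1, fun h => ?_⟩⟩
  have h1 := congrFun h ([] : List ι)
  exact zero_ne_one h1

instance isDomain [IsDomain D] : IsDomain (NPS ι D) := by
  have : Nontrivial (NPS ι D) := nontriv
  have : NoZeroDivisors (NPS ι D) := by
    refine ⟨fun {f g} hfg => ?_⟩
    by_contra hne
    rw [not_or] at hne
    obtain ⟨hf, hg⟩ := hne
    have hf' : ∃ n : ℕ, ∃ m : List ι, m.length = n ∧ f m ≠ 0 := by
      by_contra h
      push Not at h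
      exact hf (ext fun m => h _ m rfl)
    have hg' : ∃ n : ℕ, ∃ m : List ι, m.length = n ∧ g m ≠ 0 := by
      by_contra h
      push Not at h
      exact hg (ext fun m => h _ m rfl)
    classical
    obtain ⟨m, hm, hfm⟩ := Nat.find_spec hf'
    obtain ⟨m', hm', hgm⟩ := Nat.find_spec hg'
    have hfmin : ∀ l : List ι, l.length < m.length → f l = 0 := by
      intro l hl
      by_contra h
      exact Nat.find_min hf' (hm ▸ hl) ⟨l, rfl, h⟩
    have hgmin : ∀ l : List ι, l.length < m'.length → g l = 0 := by
      intro l hl
      by_contra h
      exact Nat.find_min hg' (hm' ▸ hl) ⟨l, rfl, h⟩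
    have key : (f * g) (m ++ m') = f m * g m' := by
      rw [mul_apply]
      rw [Finset.sum_eq_single m.length]
      · simp
      · intro k hk hkm
        rw [Finset.mem_range, List.length_append] at hk
        rcases lt_or_gt_of_ne hkm with h | h
        · rw [hfmin, zero_mul]
          rw [List.length_take]
          exact lt_of_le_of_lt (min_le_left _ _) h
        · rw [hgmin, mul_zero]
          rw [List.length_drop, List.length_append]
          omega
      · intro h
        exfalso
        apply h
        rw [Finset.mem_range, List.length_append]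
        omega
    rw [hfg] at key
    have : f m * g m' = 0 := by rw [← key]; rfl
    rcases mul_eq_zero.mp this with h | h
    · exact hfm h
    · exact hgm h
  exact NoZeroDivisors.to_isDomain _

/-- the ring hom induced by a ring hom of coefficients -/
noncomputable def map {D' : Type} [Ring D'] (φ : D →+* D') : NPS ι D →+* NPS ι D' where
  toFun f := fun m => φ (f m)
  map_one' := by
    ext m; cases m <;> simp
  map_zero' := by
    ext m; simp
  map_add' f g := by
    ext m; exact map_add φ _ _
  map_mul' f g := by
    ext m
    have h1 : φ ((f * g) m) = ∑ k ∈ Finset.range (m.length + 1), φ (f (m.take k)) * φ (g (m.drop k)) := by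
      rw [mul_apply, map_sum]
      exact Finset.sum_congr rfl fun k _ => map_mul φ _ _
    exact h1.trans (mul_apply (D := D') (fun m => φ (f m)) (fun m => φ (g m)) m).symm

@[simp] theorem map_apply {D' : Type} [Ring D'] (φ : D →+* D') (f : NPS ι D) (m : List ι) :
    map φ f m = φ (f m) := rfl

/-- recursive definition of the right inverse -/
private def rinv (f : NPS ι D) : List ι → D
  | [] => 1
  | a :: l => - ∑ k : Fin (l.length + 1), f (a :: l.take k) * rinv f (l.drop k)
termination_by l => l.length
decreasing_by
  simp only [List.length_drop, List.length_cons]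
  omega

private theorem exists_rinv (f : NPS ι D) (h : f [] = 1) : ∃ g : NPS ι D, f * g = 1 ∧ g [] = 1 := by
  obtain ⟨g, hg⟩ : ∃ g : NPS ι D, g = rinv f := ⟨rinv f, rfl⟩
  have h1 : g [] = 1 := by rw [hg, rinv]
  have h2 : ∀ (a : ι) (l : List ι), g (a :: l) =
      - ∑ k ∈ Finset.range (l.length + 1), f (a :: l.take k) * g (l.drop k) := by
    intro a l
    rw [← Fin.sum_univ_eq_sum_range (fun k => f (a :: List.take k l) * g (List.drop k l)), hg, rinv]
  refine ⟨g, ?_, h1⟩
  ext m
  cases m with
  | nil => rw [mul_nil, h, h1]; simp
  | cons a l =>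
    rw [mul_cons, h, one_mul, mul_apply, h2, one_cons]
    simp

theorem exists_inv (f : NPS ι D) (h : f [] = 1) : ∃ g : NPS ι D, f * g = 1 ∧ g * f = 1 ∧ g [] = 1 := by
  obtain ⟨g, hg, hg1⟩ := exists_rinv f h
  obtain ⟨k, hk, hk1⟩ := exists_rinv g hg1
  have hfk : f = k := by
    calc f = f * (g * k) := by rw [hk, mul_one]
      _ = (f * g) * k := by rw [mul_assoc]
      _ = k := by rw [hg, one_mul]
  refine ⟨g, hg, ?_, hg1⟩
  rw [hfk]; exact hk

/-- products only depend on lower order coefficients -/
theorem mul_congr (n : ℕ) (f f' g g' : NPS ι D) (hf : ∀ m : List ι, m.length ≤ n → f m = f' m)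
    (hg : ∀ m : List ι, m.length ≤ n → g m = g' m) :
    ∀ m : List ι, m.length ≤ n → (f * g) m = (f' * g') m := by
  intro m hm
  rw [mul_apply, mul_apply]
  refine Finset.sum_congr rfl fun k _ => ?_
  rw [hf _ (by rw [List.length_take]; omega), hg _ (by rw [List.length_drop]; omega)]

/-- order estimate -/
theorem mul_order (p q : ℕ) (f g : NPS ι D) (hf : ∀ m : List ι, m.length < p → f m = 0)
    (hg : ∀ m : List ι, m.length < q → g m = 0) :
    ∀ m : List ι, m.length < p + q → (f * g) m = 0 := by
  intro m hm
  rw [mul_apply]
  refine Finset.sum_eq_zero fun k hk => ?_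
  rw [Finset.mem_range] at hk
  rcases lt_or_ge k p with h | h
  · rw [hf _ (by rw [List.length_take]; omega), zero_mul]
  · rw [hg _ (by rw [List.length_drop]; omega), mul_zero]

/-- words: `w_{l₁} ⋯ w_{l_k}` has the single coefficient `1` at `l` -/
theorem prod_var [DecidableEq ι] (l m : List ι) :
    ((l.map (var : ι → NPS ι D)).prod) m = if m = l then 1 else 0 := by
  induction l generalizing m with
  | nil =>
    cases m with
    | nil => simp
    | cons a m => simp
  | cons b l ih =>
    rw [List.map_cons, List.prod_cons]
    cases m with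
    | nil => rw [var_mul_nil]; simp
    | cons a m =>
      rw [var_mul_cons, ih]
      by_cases h : a = b
      · subst h; simp
      · simp [h]

end NPS
end Crest.Agent.R180
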