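import Mathlib
import Crest.Agent.R180.NPSApi

/-!
# Piece A2: evaluation of noncommutative power series

General principle: `T` a ring which is complete and separated for a multiplicative filtration
`I n` (`CFilt`).  Given `i : D →+* T` and `R j ∈ I 1` commuting with `i D`, there is a ring hom
`ev : NPS ι D →+* T` with `ev f ≡ Σ_{|l| < n} i (f l) R_l  (mod I n)`.

Proof of `exists_eval`: for each `f` let `x_k = Σ_{l : Fin k → ι} i (f l) * R_l ∈ I k`; `ev f` = the sum
given by completeness; additivity and multiplicativity hold modulo every `I n`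
(`Σ_{|l|<n} i ((f*g) l) R_l ≡ (Σ_{|l|<n} i (f l) R_l) (Σ_{|l|<n} i (g l) R_l)`), hence by separatedness.
-/

set_option autoImplicit false
set_option linter.unusedSectionVars false

namespace Crest.Agent.R180

/-- complete separated multiplicative filtration -/
structure CFilt (T : Type) [Ring T] where
  I : ℕ → AddSubgroup T
  I0 : I 0 = ⊤
  anti : ∀ n, I (n + 1) ≤ I n
  mul_mem : ∀ m n x y, x ∈ I m → y ∈ I n → x * y ∈ I (m + n)
  sep : ∀ x, (∀ n, x ∈ I n) → x = 0
  complete : ∀ x : ℕ → T, (∀ n, x n ∈ I n) → ∃ s, ∀ n, s - ∑ k ∈ Finset.range n, x k ∈ I n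

namespace EvalAux

/-- homogeneous part of degree `k` -/
noncomputable def Hk {T ι D : Type} [Ring T] [Fintype ι] [Ring D] (i : D →+* T) (R : ι → T)
    (k : ℕ) (f : NPS ι D) : T :=
  ∑ l : Fin k → ι, i (f (List.ofFn l)) * ((List.ofFn l).map R).prod

section
variable {T ι D : Type} [Ring T] [Fintype ι] [Ring D] (i : D →+* T) (R : ι → T)

theorem Hk_zero (f : NPS ι D) : Hk i R 0 f = i (f []) := by
  simp [Hk]

theorem Hk_add (k : ℕ) (f g : NPS ι D) : Hk i R k (f + g) = Hk i R k f + Hk i R k g := by
  simp [Hk, add_mul, Finset.sum_add_distrib]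

theorem Hk_of_zero (k : ℕ) : Hk i R k (0 : NPS ι D) = 0 := by
  simp [Hk]

theorem Hk_lsc (k : ℕ) (d : D) (f : NPS ι D) : Hk i R k (NPS.lsc d f) = i d * Hk i R k f := by
  simp [Hk, Finset.mul_sum, mul_assoc]

theorem Hk_succ (hc : ∀ d j, Commute (i d) (R j)) (k : ℕ) (f : NPS ι D) :
    Hk i R (k + 1) f = ∑ a, R a * Hk i R k (NPS.tl a f) := by
  unfold Hk
  rw [← (Fin.consEquiv (fun _ : Fin (k + 1) => ι)).sum_comp, Fintype.sum_prod_type]
  refine Finset.sum_congr rfl fun a _ => ?_
  rw [Finset.mul_sum]
  refine Finset.sum_congr rfl fun l _ => ?_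
  have h1 : List.ofFn ((Fin.consEquiv fun _ : Fin (k + 1) => ι) (a, l)) = a :: List.ofFn l := by
    rw [List.ofFn_succ]; rfl
  rw [h1, List.map_cons, List.prod_cons, NPS.tl_apply, ← mul_assoc, ← mul_assoc, (hc _ a).eq]

theorem Hk_mul (hc : ∀ d j, Commute (i d) (R j)) (k : ℕ) : ∀ (f g : NPS ι D),
    Hk i R k (f * g) = ∑ p ∈ Finset.HasAntidiagonal.antidiagonal k, Hk i R p.1 f * Hk i R p.2 g := by
  induction k with
  | zero => intro f g; simp [Hk_zero]
  | succ k ih =>
    intro f g
    rw [Hk_succ i R hc, Finset.Nat.sum_antidiagonal_succ]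
    have h1 : ∀ a, NPS.tl a (f * g) = NPS.lsc (f []) (NPS.tl a g) + NPS.tl a f * g :=
      fun a => rfl
    simp only [h1, Hk_add, Hk_lsc, mul_add, Finset.sum_add_distrib, ih]
    congr 1
    · rw [Hk_zero, Hk_succ i R hc, Finset.mul_sum]
      refine Finset.sum_congr rfl fun a _ => ?_
      rw [← mul_assoc, ← mul_assoc, (hc _ a).eq]
    · simp only [Hk_succ i R hc, Finset.sum_mul, Finset.mul_sum]
      rw [Finset.sum_comm]
      refine Finset.sum_congr rfl fun p _ => Finset.sum_congr rfl fun a _ => ?_
      rw [mul_assoc]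

theorem Hk_one (k : ℕ) : Hk i R k (1 : NPS ι D) = if k = 0 then 1 else 0 := by
  cases k with
  | zero => simp [Hk_zero]
  | succ k =>
    rw [if_neg (Nat.succ_ne_zero k)]
    unfold Hk
    refine Finset.sum_eq_zero fun l _ => ?_
    rw [List.ofFn_succ, NPS.one_cons, map_zero, zero_mul]

end

section
variable {T ι D : Type} [Ring T] [Fintype ι] [Ring D] (c : CFilt T) (i : D →+* T) (R : ι → T)

theorem anti_le (m n : ℕ) (h : m ≤ n) : c.I n ≤ c.I m := by
  induction h with
  | refl => exact le_refl _
  | step _ ih => exact (c.anti _).trans ih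

theorem prod_mem (hR : ∀ j, R j ∈ c.I 1) (l : List ι) : (l.map R).prod ∈ c.I l.length := by
  induction l with
  | nil => simp [c.I0]
  | cons a l ih =>
    simp only [List.map_cons, List.prod_cons, List.length_cons]
    rw [add_comm]
    exact c.mul_mem _ _ _ _ (hR a) ih

theorem Hk_mem (hR : ∀ j, R j ∈ c.I 1) (k : ℕ) (f : NPS ι D) : Hk i R k f ∈ c.I k := by
  unfold Hk
  refine AddSubgroup.sum_mem _ fun l _ => ?_
  have h1 : i (f (List.ofFn l)) ∈ c.I 0 := by rw [c.I0]; exact AddSubgroup.mem_top _
  have h2 := prod_mem c R hR (List.ofFn l)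
  rw [List.length_ofFn] at h2
  have := c.mul_mem 0 k _ _ h1 h2
  rwa [zero_add] at this

/-- `x` is the value of the evaluation at `f` -/
def IsVal (f : NPS ι D) (x : T) : Prop := ∀ n, x - ∑ k ∈ Finset.range n, Hk i R k f ∈ c.I n

theorem IsVal.unique {f : NPS ι D} {x y : T} (hx : IsVal c i R f x) (hy : IsVal c i R f y) :
    x = y := by
  rw [← sub_eq_zero]
  refine c.sep _ fun n => ?_
  have := AddSubgroup.sub_mem _ (hx n) (hy n)
  simpa using this

theorem IsVal.add {f g : NPS ι D} {x y : T} (hx : IsVal c i R f x) (hy : IsVal c i R g y) :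
    IsVal c i R (f + g) (x + y) := by
  intro n
  have := AddSubgroup.add_mem _ (hx n) (hy n)
  have h2 : x + y - ∑ k ∈ Finset.range n, Hk i R k (f + g) =
    x - ∑ k ∈ Finset.range n, Hk i R k f + (y - ∑ k ∈ Finset.range n, Hk i R k g) := by
    simp only [Hk_add, Finset.sum_add_distrib]; abel
  rw [h2]; exact this

theorem IsVal.one : IsVal c i R (1 : NPS ι D) 1 := by
  intro n
  cases n with
  | zero => rw [c.I0]; exact AddSubgroup.mem_top _
  | succ n =>
    have : (1 : T) - ∑ k ∈ Finset.range (n + 1), Hk i R k (1 : NPS ι D) = 0 := by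
      simp [Hk_one]
    rw [this]; exact AddSubgroup.zero_mem _

theorem IsVal.zero : IsVal c i R (0 : NPS ι D) 0 := by
  intro n
  have : (0 : T) - ∑ k ∈ Finset.range n, Hk i R k (0 : NPS ι D) = 0 := by
    simp [Hk_of_zero]
  rw [this]; exact AddSubgroup.zero_mem _

theorem IsVal.mul (hR : ∀ j, R j ∈ c.I 1) (hc : ∀ d j, Commute (i d) (R j))
    {f g : NPS ι D} {x y : T} (hx : IsVal c i R f x) (hy : IsVal c i R g y) :
    IsVal c i R (f * g) (x * y) := by
  intro n
  set Sf := ∑ k ∈ Finset.range n, Hk i R k f with hSf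
  set Sg := ∑ k ∈ Finset.range n, Hk i R k g with hSg
  have hd : ∀ z : T, z ∈ c.I 0 := fun z => by rw [c.I0]; exact AddSubgroup.mem_top _
  have e1 : (x - Sf) * y ∈ c.I n := by
    have := c.mul_mem n 0 _ _ (hx n) (hd y)
    simpa using this
  have e2 : Sf * (y - Sg) ∈ c.I n := by
    have := c.mul_mem 0 n _ _ (hd Sf) (hy n)
    simpa using this
  have e3 : Sf * Sg - ∑ k ∈ Finset.range n, Hk i R k (f * g) ∈ c.I n := by
    have h1 : ∑ k ∈ Finset.range n, Hk i R k (f * g) =
        ∑ p ∈ (Finset.range n ×ˢ Finset.range n).filter (fun p => p.1 + p.2 < n),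
          Hk i R p.1 f * Hk i R p.2 g := by
      simp only [Hk_mul i R hc]
      rw [Finset.sum_sigma']
      refine Finset.sum_bij' (fun a _ => a.2) (fun b _ => ⟨b.1 + b.2, b⟩) ?_ ?_ ?_ ?_ ?_
      · rintro ⟨k, p⟩ h
        simp only [Finset.mem_sigma, Finset.mem_range, Finset.HasAntidiagonal.mem_antidiagonal] at h
        simp only [Finset.mem_filter, Finset.mem_product, Finset.mem_range]
        omega
      · rintro p h
        simp only [Finset.mem_filter, Finset.mem_product, Finset.mem_range] at h
        simp only [Finset.mem_sigma, Finset.mem_range, Finset.HasAntidiagonal.mem_antidiagonal]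
        exact ⟨h.2, trivial⟩
      · rintro ⟨k, p⟩ h
        simp only [Finset.mem_sigma, Finset.mem_range, Finset.HasAntidiagonal.mem_antidiagonal] at h
        obtain ⟨_, rfl⟩ := h
        rfl
      · rintro p h; rfl
      · rintro ⟨k, p⟩ h; rfl
    have h2 : Sf * Sg = ∑ p ∈ Finset.range n ×ˢ Finset.range n,
        Hk i R p.1 f * Hk i R p.2 g := by
      rw [Finset.sum_product, hSf, hSg, Finset.sum_mul_sum]
    rw [h2, h1, ← Finset.sum_filter_add_sum_filter_not (Finset.range n ×ˢ Finset.range n)
      (fun p => p.1 + p.2 < n), add_sub_cancel_left]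
    refine AddSubgroup.sum_mem _ fun p hp => ?_
    simp only [Finset.mem_filter, Finset.mem_product, Finset.mem_range, not_lt] at hp
    exact anti_le c n _ hp.2 (c.mul_mem _ _ _ _ (Hk_mem c i R hR _ f) (Hk_mem c i R hR _ g))
  have e4 := AddSubgroup.add_mem _ (AddSubgroup.add_mem _ e1 e2) e3
  have e5 : x * y - ∑ k ∈ Finset.range n, Hk i R k (f * g) =
      (x - Sf) * y + Sf * (y - Sg) + (Sf * Sg - ∑ k ∈ Finset.range n, Hk i R k (f * g)) := by
    noncomm_ring
  rw [e5]; exact e4

end

end EvalAux

open EvalAux in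
theorem exists_eval {T ι D : Type} [Ring T] [Fintype ι] [Ring D] (c : CFilt T) (i : D →+* T)
    (R : ι → T) (hR : ∀ j, R j ∈ c.I 1) (hc : ∀ d j, Commute (i d) (R j)) :
    ∃ ev : NPS ι D →+* T, ∀ (f : NPS ι D) (n : ℕ),
      ev f - ∑ k ∈ Finset.range n, ∑ l : Fin k → ι,
        i (f (List.ofFn l)) * ((List.ofFn l).map R).prod ∈ c.I n := by
  have hex : ∀ f : NPS ι D, ∃ x, IsVal c i R f x := fun f =>
    c.complete (fun k => Hk i R k f) (fun k => Hk_mem c i R hR k f)
  choose ev hev using hex
  exact ⟨{ toFun := ev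
           map_one' := (hev 1).unique c i R (IsVal.one c i R)
           map_zero' := (hev 0).unique c i R (IsVal.zero c i R)
           map_add' := fun f g => (hev (f + g)).unique c i R ((hev f).add c i R (hev g))
           map_mul' := fun f g => (hev (f * g)).unique c i R ((hev f).mul c i R hR hc (hev g)) },
    fun f n => hev f n⟩

namespace EvalAux

/-- the degree filtration of `NPS κ D` -/
def filtNPS (κ D : Type) [Ring D] : CFilt (NPS κ D) where
  I n :=
    { carrier := {f | ∀ m : List κ, m.length < n → f m = 0}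
      zero_mem' := fun m _ => rfl
      add_mem' := fun {f g} hf hg m hm => by simp [hf m hm, hg m hm]
      neg_mem' := fun {f} hf m hm => by simp [hf m hm] }
  I0 := by
    ext f
    simp only [AddSubgroup.mem_top, iff_true]
    intro m hm
    exact absurd hm (Nat.not_lt_zero _)
  anti n f hf := fun m hm => hf m (Nat.lt_succ_of_lt hm)
  mul_mem p q f g hf hg := fun m hm => NPS.mul_order p q f g hf hg m hm
  sep x hx := NPS.ext fun m => hx (m.length + 1) m (Nat.lt_succ_self _)
  complete x hx := by
    refine ⟨fun m => ∑ k ∈ Finset.range (m.length + 1), x k m, fun n m hm => ?_⟩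
    have h1 : ∀ (s : Finset ℕ) (m : List κ), (∑ k ∈ s, x k) m = ∑ k ∈ s, x k m := by
      intro s m
      classical
      induction s using Finset.induction_on with
      | empty => rfl
      | insert a s ha ih => rw [Finset.sum_insert ha, Finset.sum_insert ha, NPS.add_apply, ih]
    rw [NPS.sub_apply, h1, sub_eq_zero]
    refine Finset.sum_subset (fun k hk => ?_) (fun k _ hk => ?_)
    · simp only [Finset.mem_range] at hk ⊢; omega
    · simp only [Finset.mem_range, not_lt] at hk
      exact hx k m (by omega)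

/-- the order filtration of power series -/
def filtPS (R : Type) [Ring R] : CFilt (PowerSeries R) where
  I n :=
    { carrier := {f | ∀ m : ℕ, m < n → PowerSeries.coeff m f = 0}
      zero_mem' := fun m _ => by simp
      add_mem' := fun {f g} hf hg m hm => by simp [hf m hm, hg m hm]
      neg_mem' := fun {f} hf m hm => by simp [hf m hm] }
  I0 := by
    ext f
    simp only [AddSubgroup.mem_top, iff_true]
    intro m hm
    exact absurd hm (Nat.not_lt_zero _)
  anti n f hf := fun m hm => hf m (Nat.lt_succ_of_lt hm)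
  mul_mem p q f g hf hg := fun m hm => by
    rw [PowerSeries.coeff_mul]
    refine Finset.sum_eq_zero fun a ha => ?_
    rw [Finset.HasAntidiagonal.mem_antidiagonal] at ha
    by_cases h : a.1 < p
    · rw [hf _ h, zero_mul]
    · rw [hg _ (by omega), mul_zero]
  sep x hx := PowerSeries.ext fun m => by
    rw [hx (m + 1) m (Nat.lt_succ_self _)]; simp
  complete x hx := by
    refine ⟨PowerSeries.mk fun m => ∑ k ∈ Finset.range (m + 1), PowerSeries.coeff m (x k),
      fun n m hm => ?_⟩
    rw [map_sub, map_sum, PowerSeries.coeff_mk, sub_eq_zero]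
    refine Finset.sum_subset (fun k hk => ?_) (fun k _ hk => ?_)
    · simp only [Finset.mem_range] at hk ⊢; omega
    · simp only [Finset.mem_range, not_lt] at hk
      exact hx k m (by omega)

theorem nps_sum_apply {κ D α : Type} [Ring D] (s : Finset α) (x : α → NPS κ D) (m : List κ) :
    (∑ k ∈ s, x k) m = ∑ k ∈ s, x k m := by
  classical
  induction s using Finset.induction_on with
  | empty => rfl
  | insert a s ha ih => rw [Finset.sum_insert ha, Finset.sum_insert ha, NPS.add_apply, ih]

end EvalAux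

section
variable {F D F₁ D₁ β ι : Type} [Field F] [Ring D] [Algebra F D] [Field F₁] [Ring D₁]
    [Algebra F₁ D₁] [Fintype ι]

open EvalAux in
/-- substitution is a ring hom (`T = NPS κ D`, `I n` = series without terms of degree `< n`) -/
theorem exists_substHom {κ : Type} (w : ι → NPS κ F) (w0 : ∀ j, w j [] = 0) :
    ∃ Φ : NPS ι D →+* NPS κ D, (∀ f, Φ f = subst w f) ∧ ∀ d, Φ (NPS.C d) = NPS.C d := by
  obtain ⟨ev, hev⟩ := exists_eval (filtNPS κ D) (NPS.C : D →+* NPS κ D)
    (fun j => NPS.map (algebraMap F D) (w j))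
    (by
      intro j m hm
      have : m = [] := List.length_eq_zero_iff.mp (by omega)
      subst this
      rw [NPS.map_apply, w0, map_zero])
    (by
      intro d j
      refine NPS.ext fun m => ?_
      rw [NPS.C_mul, NPS.mul_C, NPS.map_apply]
      exact (Algebra.commutes _ _).symm)
  have h1 : ∀ f, ev f = subst w f := by
    intro f
    refine NPS.ext fun m => ?_
    have h := hev f (m.length + 1) m (Nat.lt_succ_self _)
    rw [NPS.sub_apply, sub_eq_zero] at h
    rw [h, nps_sum_apply]
    unfold subst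
    refine Finset.sum_congr rfl fun k _ => ?_
    rw [nps_sum_apply]
    refine Finset.sum_congr rfl fun l _ => ?_
    rw [NPS.C_mul]
    have h2 : ((List.ofFn l).map (fun j => NPS.map (algebraMap F D) (w j))).prod =
        NPS.map (algebraMap F D) (((List.ofFn l).map w).prod) := by
      rw [map_list_prod, List.map_map]; rfl
    rw [h2, NPS.map_apply]
    exact (Algebra.commutes _ _).symm
  refine ⟨ev, h1, fun d => ?_⟩
  rw [h1]
  refine NPS.ext fun m => ?_
  unfold subst
  rw [Finset.sum_range_succ']
  rw [Finset.sum_eq_zero]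
  · cases m with
    | nil => simp
    | cons a m => simp
  · intro k _
    refine Finset.sum_eq_zero fun l _ => ?_
    simp

open EvalAux in
/-- `evQ` is a ring hom (`T = PowerSeries D₁`) -/
theorem exists_evQHom (e : CExt F D F₁ D₁ β) (Q : ι → PowerSeries D₁)
    (Q0 : ∀ j, PowerSeries.coeff 0 (Q j) = 0) (QE : ∀ j n, PowerSeries.coeff n (Q j) ∈ e.E) :
    ∃ Φ : NPS ι D →+* PowerSeries D₁, ∀ f, Φ f = evQ e Q f := by
  obtain ⟨ev, hev⟩ := exists_eval (filtPS D₁) ((PowerSeries.C : D₁ →+* PowerSeries D₁).comp e.i)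
    Q
    (by
      intro j m hm
      have : m = 0 := by omega
      subst this
      exact Q0 j)
    (by
      intro d j
      refine PowerSeries.ext fun n => ?_
      rw [RingHom.comp_apply, PowerSeries.coeff_C_mul, PowerSeries.coeff_mul_C]
      have := QE j n
      rw [CExt.E, Subalgebra.mem_centralizer_iff] at this
      exact this _ ⟨d, rfl⟩)
  refine ⟨ev, fun f => PowerSeries.ext fun n => ?_⟩
  have h := hev f (n + 1) n (Nat.lt_succ_self _)
  rw [map_sub, sub_eq_zero] at h
  rw [h, map_sum, evQ, PowerSeries.coeff_mk]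
  refine Finset.sum_congr rfl fun k _ => ?_
  rw [map_sum]
  refine Finset.sum_congr rfl fun l _ => ?_
  rw [RingHom.comp_apply, PowerSeries.coeff_C_mul]

open EvalAux in
/-- `evZ` is a ring hom -/
theorem exists_evZHom (e : CExt F D F₁ D₁ β) (Z : Fin 2 → D₁) (hZ : ∀ i, Z i ∈ e.E) :
    ∃ Φ : NPS (Fin 2) D →+* PowerSeries D₁, ∀ f, Φ f = evZ e Z f := by
  obtain ⟨ev, hev⟩ := exists_eval (filtPS D₁) ((PowerSeries.C : D₁ →+* PowerSeries D₁).comp e.i)
    (fun j => PowerSeries.X * PowerSeries.C (Z j))
    (by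
      intro j m hm
      have : m = 0 := by omega
      subst this
      simp)
    (by
      intro d j
      have := hZ j
      rw [CExt.E, Subalgebra.mem_centralizer_iff] at this
      have h2 : Commute (e.i d) (Z j) := this _ ⟨d, rfl⟩
      rw [RingHom.comp_apply]
      exact (PowerSeries.commute_X _).mul_right (h2.map PowerSeries.C))
  refine ⟨ev, fun f => PowerSeries.ext fun n => ?_⟩
  have h := hev f (n + 1) n (Nat.lt_succ_self _)
  rw [map_sub, sub_eq_zero] at h
  have hp : ∀ l : List (Fin 2), (l.map (fun j => PowerSeries.X * PowerSeries.C (Z j))).prod =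
      PowerSeries.X ^ l.length * PowerSeries.C ((l.map Z).prod) := by
    intro l
    induction l with
    | nil => simp
    | cons a l ih =>
      simp only [List.map_cons, List.prod_cons, List.length_cons, ih, map_mul]
      rw [pow_succ', mul_assoc, mul_assoc]
      congr 1
      rw [← mul_assoc, ← mul_assoc,
        ((PowerSeries.commute_X (PowerSeries.C (Z a))).symm.pow_left l.length).eq]
  have hc : ∀ (k : ℕ) (d : D₁), PowerSeries.coeff n (PowerSeries.X ^ k * PowerSeries.C d) =
      if n = k then d else 0 := by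
    intro k d
    rw [PowerSeries.coeff_mul_C, PowerSeries.coeff_X_pow]
    split_ifs <;> simp
  rw [h, map_sum, evZ, PowerSeries.coeff_mk, Finset.sum_eq_single n]
  · rw [map_sum]
    refine Finset.sum_congr rfl fun l _ => ?_
    rw [RingHom.comp_apply, PowerSeries.coeff_C_mul, hp, hc, List.length_ofFn, if_pos rfl]
  · intro k _ hk
    rw [map_sum]
    refine Finset.sum_eq_zero fun l _ => ?_
    rw [RingHom.comp_apply, PowerSeries.coeff_C_mul, hp, hc, List.length_ofFn,
      if_neg (Ne.symm hk), mul_zero]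
  · intro hn
    simp at hn

end

end Crest.Agent.R180
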