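import Mathlib
import Crest.Agent.R180.Eval

/-!
# Piece A2b: existence of E-steps

Apply `exists_eval` to `T = NPS (ι × β) (PowerSeries D₁)` with `I n` = series all of whose coefficients
are divisible by `X^n`, `i d = C (C (e.i d))`, `R j = C (T.Q j) + Σ_k C (X * C (e.b k)) * var (j,k)`
(these commute with `i d` because the coefficients of `Q j` and `b k` are in `E₁ = Cent (i D)`).
Then `Ψ` = map `PowerSeries D₁ → Lau D₁` coefficientwise, conjugated by `U`
(a unit of `PowerSeries D₁` since its constant coefficient is `1`; noncommutative geometric series, or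
use `NPS.exists_inv` for one variable, or a recursive inverse).
`ev_nil` : the constant term; both sides are determined modulo `X^n` by the words of length `< n`.
-/

set_option autoImplicit false
set_option linter.unusedSectionVars false

namespace Crest.Agent.R180

section
variable {F D F₁ D₁ β ι : Type} [Field F] [Ring D] [Algebra F D] [Field F₁] [Ring D₁]
    [Algebra F₁ D₁] [Fintype ι]

variable [Fintype β] [DecidableEq β] [DecidableEq ι]

theorem sum_nps_apply {κ R : Type} [Ring R] {α : Type*} (s : Finset α) (x : α → NPS κ R)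
    (l : List κ) : (∑ j ∈ s, x j) l = ∑ j ∈ s, x j l := by
  classical
  induction s using Finset.induction_on with
  | empty => simp
  | insert a s ha ih => rw [Finset.sum_insert ha, Finset.sum_insert ha, NPS.add_apply, ih]

/-- divisibility by `X^n` of all coefficients -/
def xI (κ R : Type) [Ring R] (n : ℕ) : AddSubgroup (NPS κ (PowerSeries R)) where
  carrier := {x | ∀ l, ∀ k < n, PowerSeries.coeff k (x l) = 0}
  add_mem' := by
    intro x y hx hy l k hk
    simp only [NPS.add_apply, map_add, hx l k hk, hy l k hk, add_zero]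
  zero_mem' := by
    intro l k hk
    simp
  neg_mem' := by
    intro x hx l k hk
    simp only [NPS.neg_apply, map_neg, hx l k hk, neg_zero]

theorem mem_xI {κ R : Type} [Ring R] {n : ℕ} {x : NPS κ (PowerSeries R)} :
    x ∈ xI κ R n ↔ ∀ l, ∀ k < n, PowerSeries.coeff k (x l) = 0 := Iff.rfl

theorem ps_mul_zero {R : Type} [Ring R] (m n : ℕ) (p q : PowerSeries R)
    (hp : ∀ k < m, PowerSeries.coeff k p = 0)
    (hq : ∀ k < n, PowerSeries.coeff k q = 0) : ∀ k < m + n, PowerSeries.coeff k (p * q) = 0 := by
  intro k hk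
  rw [PowerSeries.coeff_mul]
  refine Finset.sum_eq_zero fun ij hij => ?_
  have := Finset.HasAntidiagonal.mem_antidiagonal.mp hij
  by_cases h : ij.1 < m
  · rw [hp _ h, zero_mul]
  · rw [hq _ (by omega), mul_zero]

/-- limit of a series -/
noncomputable def limS {κ R : Type} [Ring R] (x : ℕ → NPS κ (PowerSeries R)) : NPS κ (PowerSeries R) :=
  fun l => PowerSeries.mk fun k => ∑ j ∈ Finset.range (k + 1), PowerSeries.coeff k (x j l)

theorem limS_apply {κ R : Type} [Ring R] (x : ℕ → NPS κ (PowerSeries R)) (l : List κ) (k : ℕ) :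
    PowerSeries.coeff k (limS x l) = ∑ j ∈ Finset.range (k + 1), PowerSeries.coeff k (x j l) := by
  unfold limS
  rw [PowerSeries.coeff_mk]

/-- the filtration of `NPS κ (PowerSeries R)` by divisibility by `X^n` -/
noncomputable def xFilt (κ R : Type) [Ring R] : CFilt (NPS κ (PowerSeries R)) where
  I n := xI κ R n
  I0 := by
    ext x
    constructor
    · intro _; trivial
    · intro _ l k hk; omega
  anti n := by
    intro x hx l k hk
    exact hx l k (by omega)
  mul_mem := by
    intro m n x y hx hy l
    induction l generalizing x with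
    | nil =>
      intro k hk
      rw [NPS.mul_nil]
      exact ps_mul_zero m n _ _ (hx []) (hy []) k hk
    | cons a l ih =>
      intro k hk
      rw [NPS.mul_cons, map_add, ps_mul_zero m n _ _ (hx []) (hy (a :: l)) k hk, zero_add]
      exact ih (NPS.tl a x) (fun l' k' hk' => hx (a :: l') k' hk') k hk
  sep := by
    intro x hx
    refine NPS.ext fun m => ?_
    refine PowerSeries.ext fun k => ?_
    rw [hx (k + 1) m k (by omega)]
    simp
  complete := by
    intro x hx
    refine ⟨limS x, ?_⟩
    intro n l k hk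
    rw [NPS.sub_apply, map_sub, sum_nps_apply, map_sum, limS_apply, sub_eq_zero]
    have hsub : Finset.range (k + 1) ⊆ Finset.range n := by
      intro j hj
      simp only [Finset.mem_range] at hj ⊢
      omega
    rw [Finset.sum_subset hsub]
    intro j _ hj2
    have : k < j := by
      simp only [Finset.mem_range] at hj2
      omega
    exact hx j l k this

/-- the images of the variables -/
noncomputable def Rj {e : CExt F D F₁ D₁ β} (T : EData e ι) (j : ι) :
    NPS (ι × β) (PowerSeries D₁) :=
  NPS.C (T.Q j) + ∑ k, NPS.C (PowerSeries.X * PowerSeries.C (e.b k)) * NPS.var (j, k)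

theorem Rj_mem {e : CExt F D F₁ D₁ β} (T : EData e ι) (j : ι) :
    Rj T j ∈ (xFilt (ι × β) D₁).I 1 := by
  intro l k hk
  have hk0 : k = 0 := by omega
  subst hk0
  unfold Rj
  rw [NPS.add_apply, map_add, sum_nps_apply, map_sum]
  have h1 : PowerSeries.coeff 0 ((NPS.C (T.Q j) : NPS (ι × β) (PowerSeries D₁)) l) = 0 := by
    cases l with
    | nil => simpa using T.Q0 j
    | cons a l => simp
  rw [h1, zero_add]
  refine Finset.sum_eq_zero fun b _ => ?_
  rw [NPS.C_mul, mul_assoc]
  simp

theorem Rj_comm {e : CExt F D F₁ D₁ β} (T : EData e ι) (d : D) (j : ι) :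
    Commute (NPS.C (PowerSeries.C (e.i d)) : NPS (ι × β) (PowerSeries D₁)) (Rj T j) := by
  unfold Rj
  refine Commute.add_right ?_ (Commute.sum_right _ _ _ fun k _ => ?_)
  · have : Commute (PowerSeries.C (e.i d)) (T.Q j) := by
      show PowerSeries.C (e.i d) * T.Q j = T.Q j * PowerSeries.C (e.i d)
      ext n
      rw [PowerSeries.coeff_C_mul, PowerSeries.coeff_mul_C]
      have := T.QE j n
      rw [CExt.E, Subalgebra.mem_centralizer_iff] at this
      exact this _ ⟨d, rfl⟩
    exact this.map (NPS.C : PowerSeries D₁ →+* NPS (ι × β) (PowerSeries D₁))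
  · refine Commute.mul_right ?_ (NPS.C_comm_var _ _)
    have : Commute (PowerSeries.C (e.i d)) (PowerSeries.X * PowerSeries.C (e.b k)) := by
      refine Commute.mul_right ?_ ?_
      · exact (PowerSeries.commute_X _)
      · exact (e.comm d k).map (PowerSeries.C : D₁ →+* PowerSeries D₁)
    exact this.map (NPS.C : PowerSeries D₁ →+* NPS (ι × β) (PowerSeries D₁))

/-- conjugation by `U` -/
def conjU {R : Type} [Ring R] (U V : R) (h : U * V = 1) (h' : V * U = 1) : R →+* R where
  toFun x := V * x * U
  map_one' := by rw [mul_one, h']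
  map_zero' := by simp
  map_add' x y := by rw [mul_add, add_mul]
  map_mul' x y := by
    have : V * x * U * (V * y * U) = V * x * (U * V) * y * U := by noncomm_ring
    rw [this, h]; noncomm_ring

/-- the truncated evaluation -/
noncomputable def evT {T ι D : Type} [Ring T] [Fintype ι] [Ring D] (i : D →+* T)
    (R : ι → T) (f : NPS ι D) (n : ℕ) : T :=
  ∑ k ∈ Finset.range n, ∑ l : Fin k → ι, i (f (List.ofFn l)) * ((List.ofFn l).map R).prod

theorem evT_C {T ι D : Type} [Ring T] [Fintype ι] [Ring D] (i : D →+* T)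
    (R : ι → T) (d : D) (n : ℕ) (hn : 1 ≤ n) : evT i R (NPS.C d) n = i d := by
  unfold evT
  rw [Finset.sum_eq_single 0]
  · simp
  · intro k _ hk
    refine Finset.sum_eq_zero fun l _ => ?_
    obtain ⟨k', rfl⟩ := Nat.exists_eq_succ_of_ne_zero hk
    rw [List.ofFn_succ, NPS.C_cons, map_zero, zero_mul]
  · intro h
    exact absurd (Finset.mem_range.mpr (by omega)) h

theorem evT_var {T ι D : Type} [Ring T] [Fintype ι] [DecidableEq ι] [Ring D] (i : D →+* T)
    (R : ι → T) (j : ι) (n : ℕ) (hn : 2 ≤ n) : evT i R (NPS.var j) n = R j := by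
  unfold evT
  rw [Finset.sum_eq_single 1]
  · rw [Finset.sum_eq_single (fun _ => j)]
    · simp [NPS.var]
    · intro l _ hl
      have : List.ofFn l ≠ [j] := by
        intro h
        apply hl
        funext x
        have hx : x = 0 := Subsingleton.elim _ _
        subst hx
        simpa using h
      unfold NPS.var
      rw [if_neg this, map_zero, zero_mul]
    · intro h
      exact absurd (Finset.mem_univ _) h
  · intro k _ hk
    refine Finset.sum_eq_zero fun l _ => ?_
    have : List.ofFn l ≠ [j] := by
      intro h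
      apply hk
      have := congrArg List.length h
      simpa using this
    unfold NPS.var
    rw [if_neg this, map_zero, zero_mul]
  · intro h
    exact absurd (Finset.mem_range.mpr (by omega)) h

theorem evT_zero {T ι D : Type} [Ring T] [Fintype ι] [Ring D] (i : D →+* T)
    (R : ι → T) (f : NPS ι D) (n : ℕ) (hf : ∀ m : List ι, m.length < n → f m = 0) :
    evT i R f n = 0 := by
  unfold evT
  refine Finset.sum_eq_zero fun k hk => Finset.sum_eq_zero fun l _ => ?_
  rw [hf _ (by simpa using Finset.mem_range.mp hk), map_zero, zero_mul]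

theorem eq_of_evT {κ S ι D : Type} [Ring S] [Fintype ι] [Ring D]
    (i : D →+* NPS κ (PowerSeries S)) (R : ι → NPS κ (PowerSeries S))
    (ev : NPS ι D →+* NPS κ (PowerSeries S))
    (hev : ∀ (f : NPS ι D) (n : ℕ), ev f - evT i R f n ∈ xI κ S n)
    (f : NPS ι D) (t : NPS κ (PowerSeries S)) (N : ℕ) (h : ∀ n, N ≤ n → evT i R f n = t) :
    ev f = t := by
  rw [← sub_eq_zero]
  refine NPS.ext fun l => ?_
  refine PowerSeries.ext fun k => ?_
  have := hev f (max N (k + 1)) l k (by omega)
  rw [h _ (le_max_left _ _)] at this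
  rw [this]
  simp

/-- existence of E-steps (`T = NPS (ι × β) (PowerSeries D₁)`, `I n` = all coefficients divisible by
`X^n`; then map `PowerSeries D₁ → Lau D₁` and conjugate by `U`, which is a unit of `PowerSeries D₁`
since its constant coefficient is `1`) -/
theorem exists_EStep {e : CExt F D F₁ D₁ β} (T : EData e ι) : Nonempty (EStep T) := by
  set i : D →+* NPS (ι × β) (PowerSeries D₁) :=
    (NPS.C : PowerSeries D₁ →+* NPS (ι × β) (PowerSeries D₁)).comp
      ((PowerSeries.C : D₁ →+* PowerSeries D₁).comp e.i) with hi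
  obtain ⟨ev, hev⟩ := exists_eval (xFilt (ι × β) D₁) i (Rj T) (Rj_mem T) (fun d j => Rj_comm T d j)
  have hev' : ∀ (f : NPS ι D) (n : ℕ), ev f - evT i (Rj T) f n ∈ xI (ι × β) D₁ n := hev
  have hU0 : PowerSeries.constantCoeff T.U = ((1 : D₁ˣ) : D₁) := by
    rw [← PowerSeries.coeff_zero_eq_constantCoeff_apply, T.U0]; rfl
  have h1 : T.U * PowerSeries.invOfUnit T.U 1 = 1 := PowerSeries.mul_invOfUnit _ _ hU0
  have h2 : PowerSeries.invOfUnit T.U 1 * T.U = 1 := PowerSeries.invOfUnit_mul _ _ hU0
  refine ⟨{ ev := ev
            ev_C := ?_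
            ev_var := ?_
            ev_deg := ?_
            Ψ := (NPS.map ((ofPS : PowerSeries D₁ →+* Lau D₁).comp (conjU _ _ h1 h2))).comp ev
            Ψ_spec := ?_ }⟩
  · intro d
    exact eq_of_evT i (Rj T) ev hev' _ _ 1 fun n hn => evT_C i (Rj T) d n hn
  · intro j
    exact eq_of_evT i (Rj T) ev hev' _ _ 2 fun n hn => evT_var i (Rj T) j n hn
  · intro n f hf l k hk
    have := hev' f n l k hk
    rwa [evT_zero i (Rj T) f n hf, sub_zero] at this
  · intro f m
    have e1 : ((NPS.map ((ofPS : PowerSeries D₁ →+* Lau D₁).comp (conjU _ _ h1 h2))).comp ev) f m =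
        ofPS (PowerSeries.invOfUnit T.U 1 * (ev f m) * T.U) := rfl
    rw [e1, ← map_mul]
    congr 1
    rw [← mul_assoc, ← mul_assoc, h1, one_mul]

/-- a polynomial truncation of `f` -/
noncomputable def truncN (f : NPS ι D) (n : ℕ) : NPS ι D :=
  evT (NPS.C : D →+* NPS ι D) (NPS.var : ι → NPS ι D) f n

theorem truncN_apply (f : NPS ι D) (n : ℕ) (m : List ι) (hm : m.length < n) :
    truncN f n m = f m := by
  unfold truncN evT
  rw [sum_nps_apply, Finset.sum_eq_single m.length]
  · rw [sum_nps_apply, Finset.sum_eq_single (fun x : Fin m.length => m.get x)]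
    · rw [NPS.C_mul, NPS.prod_var, List.ofFn_get]
      simp
    · intro l _ hl
      rw [NPS.C_mul, NPS.prod_var, if_neg, mul_zero]
      intro h
      apply hl
      have h2 : List.ofFn (fun x : Fin m.length => m.get x) = List.ofFn l := by
        rw [List.ofFn_get]; exact h
      exact (List.ofFn_injective h2).symm
    · intro h
      exact absurd (Finset.mem_univ _) h
  · intro k _ hk
    rw [sum_nps_apply]
    refine Finset.sum_eq_zero fun l _ => ?_
    rw [NPS.C_mul, NPS.prod_var, if_neg, mul_zero]
    intro h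
    apply hk
    rw [h]; simp
  · intro h
    exact absurd (Finset.mem_range.mpr hm) h

/-- the constant term of `ev f` is `evQ` -/
theorem EStep.ev_nil {e : CExt F D F₁ D₁ β} {T : EData e ι} (S : EStep T) (f : NPS ι D) :
    S.ev f [] = evQ e T.Q f := by
  ext n
  have hvar : ∀ j, S.ev (NPS.var j) [] = T.Q j := by
    intro j
    rw [S.ev_var, NPS.add_apply, sum_nps_apply, NPS.C_nil]
    rw [Finset.sum_eq_zero, add_zero]
    intro k _
    rw [NPS.C_mul]
    simp [NPS.var]
  have h1 : PowerSeries.coeff n (S.ev f []) = PowerSeries.coeff n (S.ev (truncN f (n + 1)) []) := by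
    have := S.ev_deg (n + 1) (f - truncN f (n + 1)) (fun m hm => by
      rw [NPS.sub_apply, truncN_apply f (n + 1) m hm, sub_self]) [] n (by omega)
    rw [map_sub, NPS.sub_apply, map_sub, sub_eq_zero] at this
    exact this
  rw [h1]
  set c : NPS ι D →+* PowerSeries D₁ :=
    (NPS.const : NPS (ι × β) (PowerSeries D₁) →+* PowerSeries D₁).comp S.ev with hc
  have h2 : S.ev (truncN f (n + 1)) [] = c (truncN f (n + 1)) := rfl
  have h3 : ∀ j, c (NPS.var j) = T.Q j := hvar
  have h4 : ∀ d, c (NPS.C d) = PowerSeries.C (e.i d) := by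
    intro d
    show S.ev (NPS.C d) [] = _
    rw [S.ev_C, NPS.C_nil]
  rw [h2, truncN, evT, map_sum, map_sum, evQ, PowerSeries.coeff_mk]
  refine Finset.sum_congr rfl fun k _ => ?_
  rw [map_sum, map_sum]
  refine Finset.sum_congr rfl fun l _ => ?_
  rw [map_mul, map_list_prod, h4, List.map_map, PowerSeries.coeff_C_mul]
  congr 3
  refine List.map_congr_left fun j _ => ?_
  exact h3 j

end

end Crest.Agent.R180
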