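import Mathlib
import Crest.Agent.R180.EvalE
import Crest.Agent.R180.CExtApi

/-!
# Piece A3: low order coefficients of an E-step

`S.ev f` is determined modulo `X^3` by the words of length `≤ 2` of `f`
(write `f = Σ_{|m| ≤ 2} C (f m) * w_m + (terms of degree ≥ 3)` and use `ev_C, ev_var, ev_deg`;
`NPS.prod_var` gives the coefficients of words).
The Euler derivation statement `euler_chain`: both
`f ↦ X d/dX (S.ev f [])` and `f ↦ Σ_{j,k} c_{jk} · S.ev f [(j,k)]` are derivations over
`f ↦ S.ev f []`, which agree on constants (`0`) and variables if `X d/dX Q_j = Σ_k c_{jk} X b_k`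
(possible with `c_{jk} ∈ F₁[[X]]`, as all coefficients of `Q_j` lie in `E₁ = span b`,
see `CExt.E_eq_span` in `CExtApi.lean`), hence on all polynomials,
hence on all series modulo every power of `X`.  Conjugating by `U` adds the inner term `h`.
-/

set_option autoImplicit false
set_option linter.unusedSectionVars false

namespace Crest.Agent.R180
namespace EStep
open Module

section coords
variable {F D F₁ D₁ β : Type} [Field F] [Ring D] [Algebra F D] [Field F₁] [Ring D₁]
    [Algebra F₁ D₁] (e : CExt F D F₁ D₁ β)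

theorem i_smul (a : F) (d : D) : e.i (a • d) = e.φ a • e.i d := by
  rw [Algebra.smul_def, map_mul, e.i_alg, Algebra.smul_def]

theorem exists_lam [Nontrivial D] : ∃ l : D →ₗ[F] F, l 1 = 1 := by
  have h : ¬ ∀ f : Module.Dual F D, f (1 : D) = 0 := by
    rw [Module.forall_dual_apply_eq_zero_iff]
    exact one_ne_zero
  push Not at h
  obtain ⟨f, hf⟩ := h
  refine ⟨(f 1)⁻¹ • f, ?_⟩
  rw [LinearMap.smul_apply, smul_eq_mul, inv_mul_cancel₀ hf]

/-- the commutator map -/
noncomputable def adm {n : ℕ} (b : Fin n → D) : D →ₗ[F] (Fin n → D) :=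
  LinearMap.pi fun r => LinearMap.mulRight F (b r) - LinearMap.mulLeft F (b r)

theorem adm_apply {n : ℕ} (b : Fin n → D) (d : D) (r : Fin n) :
    adm (F := F) b d r = d * b r - b r * d := by
  simp [adm]

theorem exists_R [Algebra.IsCentral F D] {n : ℕ} (b : Basis (Fin n) F D) (l : D →ₗ[F] F)
    (hl : l 1 = 1) : ∃ R : (Fin n → D) →ₗ[F] D, ∀ d : D, R (adm (F := F) b d) = d - algebraMap F D (l d) := by
  have hker : ∀ d, adm (F := F) b d = 0 → d = algebraMap F D (l d) := by
    intro d hd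
    have hc : d ∈ Subalgebra.center F D := by
      rw [Subalgebra.mem_center_iff]
      intro x
      have hx : x ∈ Submodule.span F (Set.range b) := by rw [b.span_eq]; trivial
      induction hx using Submodule.span_induction with
      | mem x hx =>
        obtain ⟨r, rfl⟩ := hx
        have := congrFun hd r
        rw [adm_apply] at this
        exact (sub_eq_zero.mp this).symm
      | zero => simp
      | add x y _ _ hx hy => rw [add_mul, mul_add, hx, hy]
      | smul a x _ hx => rw [smul_mul_assoc, hx, mul_smul_comm]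
    have hb := Algebra.IsCentral.out (K := F) (D := D) hc
    rw [Algebra.mem_bot] at hb
    obtain ⟨a, rfl⟩ := hb
    rw [Algebra.algebraMap_eq_smul_one, map_smul, hl, smul_eq_mul, mul_one,
      Algebra.algebraMap_eq_smul_one]
  let W : Submodule F D := LinearMap.ker l
  have hinj : LinearMap.ker ((adm (F := F) b) ∘ₗ W.subtype) = ⊥ := by
    rw [LinearMap.ker_eq_bot']
    rintro ⟨d, hd⟩ h
    have h1 := hker d h
    have h2 : l d = 0 := hd
    rw [h2, map_zero] at h1
    exact Subtype.ext h1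
  obtain ⟨L, hL⟩ := LinearMap.exists_leftInverse_of_injective _ hinj
  refine ⟨W.subtype ∘ₗ L, fun d => ?_⟩
  have hdW : d - algebraMap F D (l d) ∈ W := by
    show l _ = 0
    rw [map_sub, Algebra.algebraMap_eq_smul_one, map_smul, hl, smul_eq_mul, mul_one, sub_self]
  have h1 : adm (F := F) b (d - algebraMap F D (l d)) = adm (F := F) b d := by
    ext r
    rw [adm_apply, adm_apply, sub_mul, mul_sub, Algebra.commutes (l d) (b r)]
    abel
  have h2 := LinearMap.congr_fun hL ⟨_, hdW⟩
  have h3 : L (adm (F := F) b (d - algebraMap F D (l d))) = ⟨_, hdW⟩ := h2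
  rw [h1] at h3
  rw [LinearMap.comp_apply, h3]
  rfl

theorem span_basis {n : ℕ} (b : Basis (Fin n) F D) :
    ⊤ ≤ Submodule.span F₁ (Set.range fun p : Fin n × β => e.i (b p.1) * e.b p.2) := by
  rw [← e.span, Submodule.span_le]
  rintro _ ⟨⟨d, k⟩, rfl⟩
  have hd : d = ∑ r, b.repr d r • b r := (b.sum_repr d).symm
  show e.i d * e.b k ∈ _
  rw [hd, map_sum, Finset.sum_mul]
  refine Submodule.sum_mem _ fun r _ => ?_
  rw [i_smul, smul_mul_assoc]
  exact Submodule.smul_mem _ _ (Submodule.subset_span ⟨(r, k), rfl⟩)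

/-- the `F₁`-basis of `D₁` -/
noncomputable def bas {n : ℕ} (b : Basis (Fin n) F D) : Basis (Fin n × β) F₁ D₁ :=
  Basis.mk (e.indep n b b.linearIndependent) (span_basis e b)

theorem bas_apply {n : ℕ} (b : Basis (Fin n) F D) (p : Fin n × β) :
    bas e b p = e.i (b p.1) * e.b p.2 := by
  rw [bas, Basis.mk_apply]

/-- extension of a linear map -/
noncomputable def extf {n : ℕ} (b : Basis (Fin n) F D) (f : D →ₗ[F] D) : D₁ →ₗ[F₁] D₁ :=
  (bas e b).constr F₁ fun p => e.i (f (b p.1)) * e.b p.2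

theorem extf_apply {n : ℕ} (b : Basis (Fin n) F D) (f : D →ₗ[F] D) (d : D) (k : β) :
    extf e b f (e.i d * e.b k) = e.i (f d) * e.b k := by
  have hd : d = ∑ r, b.repr d r • b r := (b.sum_repr d).symm
  conv_lhs => rw [hd, map_sum, Finset.sum_mul, map_sum]
  conv_rhs => rw [hd, map_sum, map_sum, Finset.sum_mul]
  refine Finset.sum_congr rfl fun r _ => ?_
  rw [i_smul, smul_mul_assoc, map_smul, map_smul, i_smul, smul_mul_assoc]
  congr 1
  have := (bas e b).constr_basis F₁ (fun p => e.i (f (b p.1)) * e.b p.2) (r, k)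
  rw [bas_apply] at this
  exact this

theorem E_le_span [FiniteDimensional F D] [Algebra.IsCentral F D] (x : D₁) (hx : x ∈ e.E) :
    x ∈ Submodule.span F₁ (Set.range e.b) := by
  rcases subsingleton_or_nontrivial D with hs | hn
  · have h1 : (1 : D₁) = 0 := by
      rw [← map_one e.i, Subsingleton.elim (1 : D) 0, map_zero]
    have : x = 0 := by rw [← mul_one x, h1, mul_zero]
    rw [this]
    exact Submodule.zero_mem _
  obtain ⟨l, hl⟩ := exists_lam (F := F) (D := D)
  obtain ⟨R, hR⟩ := exists_R (Module.finBasis F D) l hl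
  set b := Module.finBasis F D with hb
  -- the linear maps
  let Lam : D₁ →ₗ[F₁] D₁ := (bas e b).constr F₁ fun p => e.φ (l (b p.1)) • e.b p.2
  let G : D₁ →ₗ[F₁] D₁ := ∑ r, (extf e b (R ∘ₗ LinearMap.single F (fun _ => D) r)) ∘ₗ
    (LinearMap.mulRight F₁ (e.i (b r)) - LinearMap.mulLeft F₁ (e.i (b r)))
  have hG : G = LinearMap.id - Lam := by
    refine (bas e b).ext fun p => ?_
    rw [LinearMap.sub_apply, LinearMap.id_apply, (bas e b).constr_basis]
    rw [LinearMap.sum_apply]
    have h1 : ∀ r, ((extf e b (R ∘ₗ LinearMap.single F (fun _ => D) r)) ∘ₗ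
      (LinearMap.mulRight F₁ (e.i (b r)) - LinearMap.mulLeft F₁ (e.i (b r)))) (bas e b p) =
        e.i (R (Pi.single r (adm (F := F) b (b p.1) r))) * e.b p.2 := by
      intro r
      rw [LinearMap.comp_apply, LinearMap.sub_apply, LinearMap.mulRight_apply,
        LinearMap.mulLeft_apply, bas_apply]
      have h2 : e.i (b p.1) * e.b p.2 * e.i (b r) - e.i (b r) * (e.i (b p.1) * e.b p.2) =
          e.i (adm (F := F) b (b p.1) r) * e.b p.2 := by
        rw [adm_apply, map_sub, map_mul, map_mul, sub_mul, mul_assoc, ← (e.comm (b r) p.2).eq]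
        simp only [mul_assoc]
      rw [h2, extf_apply]
      rfl
    simp only [h1]
    rw [← Finset.sum_mul, ← map_sum, ← map_sum]
    have h3 : ∑ r, (Pi.single r (adm (F := F) b (b p.1) r) : Fin _ → D) = adm (F := F) b (b p.1) :=
      Finset.univ_sum_single _
    rw [h3, hR, map_sub, sub_mul, bas_apply, e.i_alg, Algebra.smul_def]
  have hGx : G x = 0 := by
    rw [LinearMap.sum_apply]
    refine Finset.sum_eq_zero fun r _ => ?_
    rw [LinearMap.comp_apply, LinearMap.sub_apply, LinearMap.mulRight_apply,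
        LinearMap.mulLeft_apply]
    have h4 : e.i (b r) * x = x * e.i (b r) := by
      have := hx
      unfold CExt.E at this
      rw [Subalgebra.mem_centralizer_iff] at this
      exact this _ ⟨_, rfl⟩
    rw [h4, sub_self, map_zero]
  have hxL : x = Lam x := by
    have := hGx
    rw [hG, LinearMap.sub_apply, LinearMap.id_apply, sub_eq_zero] at this
    exact this
  have hLam : ∀ y, Lam y ∈ Submodule.span F₁ (Set.range e.b) := by
    intro y
    have hy : y ∈ Submodule.span F₁ (Set.range (bas e b)) := by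
      rw [(bas e b).span_eq]; trivial
    induction hy using Submodule.span_induction with
    | mem x hx =>
      obtain ⟨r, rfl⟩ := hx
      rw [(bas e b).constr_basis]
      exact Submodule.smul_mem _ _ (Submodule.subset_span ⟨_, rfl⟩)
    | zero => rw [map_zero]; exact Submodule.zero_mem _
    | add x y _ _ hx hy => rw [map_add]; exact Submodule.add_mem _ hx hy
    | smul a x _ hx => rw [map_smul]; exact Submodule.smul_mem _ _ hx
  rw [hxL]
  exact hLam x

end coords

variable {F D F₁ D₁ β ι : Type} [Field F] [Ring D] [Algebra F D] [Field F₁] [Ring D₁]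
    [Algebra F₁ D₁] [Fintype ι] [Fintype β] [DecidableEq β] [DecidableEq ι]
    {e : CExt F D F₁ D₁ β} {T : EData e ι} (S : EStep T)

theorem nps_decomp (f : NPS ι D) : f = NPS.C (f []) + ∑ j, NPS.var j * NPS.tl j f := by
  ext m
  cases m with
  | nil =>
    rw [NPS.add_apply, EvalAux.nps_sum_apply, Finset.sum_eq_zero, NPS.C_nil, add_zero]
    intro j _
    exact NPS.var_mul_nil j _
  | cons a l =>
    rw [NPS.add_apply, EvalAux.nps_sum_apply, NPS.C_cons, zero_add,
      Finset.sum_eq_single a]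
    · rw [NPS.var_mul_cons, if_pos rfl]; rfl
    · intro b _ hb
      rw [NPS.var_mul_cons, if_neg (Ne.symm hb)]
    · intro h; exact absurd (Finset.mem_univ a) h

theorem ev_decomp (f : NPS ι D) : S.ev f = NPS.C (PowerSeries.C (e.i (f []))) +
    ∑ j, S.ev (NPS.var j) * S.ev (NPS.tl j f) := by
  conv_lhs => rw [nps_decomp f]
  rw [map_add, S.ev_C, map_sum]
  simp only [map_mul]

theorem ev_var_mul_nil (j : ι) (g : NPS (ι × β) (PowerSeries D₁)) :
    (S.ev (NPS.var j) * g) [] = T.Q j * g [] := by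
  rw [S.ev_var, NPS.mul_nil, NPS.add_apply, NPS.C_nil, EvalAux.nps_sum_apply, Finset.sum_eq_zero, add_zero]
  intro k _
  rw [NPS.C_mul]
  simp [NPS.var]

theorem ev_var_mul_cons (j : ι) (g : NPS (ι × β) (PowerSeries D₁)) (p : ι × β) (l : List (ι × β)) :
    (S.ev (NPS.var j) * g) (p :: l) = T.Q j * g (p :: l) +
      if p.1 = j then PowerSeries.X * PowerSeries.C (e.b p.2) * g l else 0 := by
  rw [S.ev_var, add_mul, NPS.add_apply, NPS.C_mul, Finset.sum_mul, EvalAux.nps_sum_apply]
  congr 1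
  have h1 : ∀ k : β, (NPS.C (PowerSeries.X * PowerSeries.C (e.b k)) * NPS.var (j, k) * g :
      NPS (ι × β) (PowerSeries D₁)) (p :: l) =
      if p = (j, k) then PowerSeries.X * PowerSeries.C (e.b k) * g l else 0 := by
    intro k
    rw [mul_assoc, NPS.C_mul, NPS.var_mul_cons]
    split_ifs <;> simp
  simp only [h1]
  split_ifs with h
  · rw [Finset.sum_eq_single p.2]
    · rw [if_pos]; rw [← h]
    · intro b _ hb
      rw [if_neg]
      intro h2
      exact hb (by rw [h2])
    · intro h; exact absurd (Finset.mem_univ _) h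
  · apply Finset.sum_eq_zero
    intro k _
    rw [if_neg]
    intro h2; exact h (by rw [h2])

theorem ev_rec_nil (f : NPS ι D) : S.ev f [] = PowerSeries.C (e.i (f [])) +
    ∑ j, T.Q j * S.ev (NPS.tl j f) [] := by
  conv_lhs => rw [ev_decomp S f]
  rw [NPS.add_apply, EvalAux.nps_sum_apply, NPS.C_nil]
  simp only [ev_var_mul_nil]

theorem ev_rec_cons (f : NPS ι D) (p : ι × β) (l : List (ι × β)) : S.ev f (p :: l) =
    ∑ j, T.Q j * S.ev (NPS.tl j f) (p :: l) +
      PowerSeries.X * PowerSeries.C (e.b p.2) * S.ev (NPS.tl p.1 f) l := by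
  conv_lhs => rw [ev_decomp S f]
  rw [NPS.add_apply, EvalAux.nps_sum_apply, NPS.C_cons, zero_add]
  simp only [ev_var_mul_cons]
  rw [Finset.sum_add_distrib]
  simp

theorem coeff_zero_Q_mul (j : ι) (x : PowerSeries D₁) : PowerSeries.coeff 0 (T.Q j * x) = 0 := by
  rw [PowerSeries.coeff_mul]
  simp [T.Q0]

theorem coeff_one_Q_mul (j : ι) (x : PowerSeries D₁) :
    PowerSeries.coeff 1 (T.Q j * x) = PowerSeries.coeff 1 (T.Q j) * PowerSeries.coeff 0 x := by
  rw [PowerSeries.coeff_mul, Finset.Nat.antidiagonal_succ]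
  have := T.Q0 j
  simp at this
  simp [this]

theorem coeff_two_Q_mul (j : ι) (x : PowerSeries D₁) (hx : PowerSeries.coeff 0 x = 0) :
    PowerSeries.coeff 2 (T.Q j * x) = PowerSeries.coeff 1 (T.Q j) * PowerSeries.coeff 1 x := by
  rw [PowerSeries.coeff_mul, Finset.Nat.sum_antidiagonal_eq_sum_range_succ_mk,
    Finset.sum_range_succ, Finset.sum_range_succ, Finset.sum_range_one]
  simp only [T.Q0, zero_mul, Nat.sub_self, hx, mul_zero, add_zero, zero_add]

theorem i_comm_Q (d : D) (j : ι) (n : ℕ) :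
    Commute (e.i d) (PowerSeries.coeff n (T.Q j)) := by
  have := T.QE j n
  unfold CExt.E at this
  rw [Subalgebra.mem_centralizer_iff] at this
  exact this (e.i d) ⟨d, rfl⟩

theorem ev_nil_coeff0 (f : NPS ι D) : PowerSeries.coeff 0 (S.ev f []) = e.i (f []) := by
  rw [ev_rec_nil, map_add, map_sum, Finset.sum_eq_zero, add_zero]
  · simp
  · intro j _; exact coeff_zero_Q_mul _ _

theorem ev_nil_coeff1 (f : NPS ι D) : PowerSeries.coeff 1 (S.ev f []) =
    ∑ j, e.i (f [j]) * PowerSeries.coeff 1 (T.Q j) := by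
  rw [ev_rec_nil, map_add, map_sum, PowerSeries.coeff_C, if_neg one_ne_zero, zero_add]
  refine Finset.sum_congr rfl fun j _ => ?_
  rw [coeff_one_Q_mul, ev_nil_coeff0]
  exact ((i_comm_Q _ _ _).eq).symm

theorem coeff_X_C_mul_zero (y : D₁) (x : PowerSeries D₁) :
    PowerSeries.coeff 0 (PowerSeries.X * PowerSeries.C y * x) = 0 := by
  rw [mul_assoc, PowerSeries.coeff_zero_X_mul]

theorem coeff_X_C_mul_succ (y : D₁) (x : PowerSeries D₁) (n : ℕ) :
    PowerSeries.coeff (n + 1) (PowerSeries.X * PowerSeries.C y * x) =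
      y * PowerSeries.coeff n x := by
  rw [mul_assoc, PowerSeries.coeff_succ_X_mul, PowerSeries.coeff_C_mul]

theorem i_comm_b (d : D) (k : β) : Commute (e.i d) (e.b k) := e.comm d k

theorem ev_one_coeff0 (f : NPS ι D) (p : ι × β) : PowerSeries.coeff 0 (S.ev f [p]) = 0 := by
  rw [ev_rec_cons, map_add, map_sum, Finset.sum_eq_zero, zero_add]
  · exact coeff_X_C_mul_zero _ _
  · intro j _; exact coeff_zero_Q_mul _ _

theorem ev_one_coeff1 (f : NPS ι D) (p : ι × β) :
    PowerSeries.coeff 1 (S.ev f [p]) = e.i (f [p.1]) * e.b p.2 := by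
  rw [ev_rec_cons, map_add, map_sum, Finset.sum_eq_zero, zero_add]
  · rw [coeff_X_C_mul_succ _ _ 0, ev_nil_coeff0]
    exact (e.comm _ _).eq.symm
  · intro j _; rw [coeff_one_Q_mul, ev_one_coeff0, mul_zero]

theorem ev_two_coeff0 (f : NPS ι D) (p q : ι × β) : PowerSeries.coeff 0 (S.ev f [p, q]) = 0 := by
  rw [ev_rec_cons, map_add, map_sum, Finset.sum_eq_zero, zero_add]
  · exact coeff_X_C_mul_zero _ _
  · intro j _; exact coeff_zero_Q_mul _ _

theorem ev_two_coeff1 (f : NPS ι D) (p q : ι × β) : PowerSeries.coeff 1 (S.ev f [p, q]) = 0 := by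
  rw [ev_rec_cons, map_add, map_sum, Finset.sum_eq_zero, zero_add]
  · rw [coeff_X_C_mul_succ _ _ 0, ev_one_coeff0, mul_zero]
  · intro j _; rw [coeff_one_Q_mul, ev_two_coeff0, mul_zero]

theorem ev_two_coeff2 (f : NPS ι D) (p q : ι × β) :
    PowerSeries.coeff 2 (S.ev f [p, q]) = e.i (f [p.1, q.1]) * (e.b p.2 * e.b q.2) := by
  rw [ev_rec_cons, map_add, map_sum, Finset.sum_eq_zero, zero_add]
  · rw [coeff_X_C_mul_succ _ _ 1, ev_one_coeff1, ← mul_assoc, ← mul_assoc]
    rw [(e.comm _ p.2).eq]; rfl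
  · intro j _; rw [coeff_two_Q_mul _ _ (ev_two_coeff0 S _ _ _), ev_two_coeff1, mul_zero]


section conj

theorem exists_V (T : EData e ι) : ∃ V : PowerSeries D₁, T.U * V = 1 ∧ V * T.U = 1 ∧
    PowerSeries.coeff 0 V = 1 := by
  have h : PowerSeries.constantCoeff T.U = ((1 : D₁ˣ) : D₁) := by
    rw [← PowerSeries.coeff_zero_eq_constantCoeff_apply, T.U0]; rfl
  refine ⟨PowerSeries.invOfUnit T.U 1, PowerSeries.mul_invOfUnit _ _ h,
    PowerSeries.invOfUnit_mul _ _ h, ?_⟩
  rw [PowerSeries.coeff_zero_eq_constantCoeff_apply, PowerSeries.constantCoeff_invOfUnit]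
  simp

theorem Ψ_eq (V : PowerSeries D₁) (hV : V * T.U = 1) (f : NPS ι D) (m : List (ι × β)) :
    S.Ψ f m = ofPS (V * S.ev f m * T.U) := by
  have h := S.Ψ_spec f m
  calc S.Ψ f m = ofPS (V * T.U) * S.Ψ f m := by rw [hV, map_one, one_mul]
    _ = ofPS V * (ofPS T.U * S.Ψ f m) := by rw [map_mul, mul_assoc]
    _ = ofPS V * ofPS (S.ev f m * T.U) := by rw [h]
    _ = ofPS (V * S.ev f m * T.U) := by rw [← map_mul, mul_assoc]

theorem conj_coeff (V x U : PowerSeries D₁) (hV : PowerSeries.coeff 0 V = 1)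
    (hU : PowerSeries.coeff 0 U = 1) (n : ℕ) (hx : ∀ k < n, PowerSeries.coeff k x = 0) :
    (∀ k < n, PowerSeries.coeff k (V * x * U) = 0) ∧
      PowerSeries.coeff n (V * x * U) = PowerSeries.coeff n x := by
  have hxy : x = PowerSeries.X ^ n * PowerSeries.mk fun k => PowerSeries.coeff (n + k) x := by
    ext k
    rw [PowerSeries.coeff_X_pow_mul']
    split_ifs with h
    · rw [PowerSeries.coeff_mk]; congr 2; omega
    · exact hx k (by omega)
  set y := PowerSeries.mk fun k => PowerSeries.coeff (n + k) x with hy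
  have h1 : V * x * U = PowerSeries.X ^ n * (V * y * U) := by
    rw [hxy, ← mul_assoc V, (PowerSeries.commute_X_pow V n).eq]
    simp only [mul_assoc]
  constructor
  · intro k hk
    rw [h1, PowerSeries.coeff_X_pow_mul', if_neg (by omega)]
  · rw [h1, PowerSeries.coeff_X_pow_mul', if_pos le_rfl, Nat.sub_self]
    rw [PowerSeries.coeff_zero_eq_constantCoeff_apply, map_mul, map_mul]
    rw [PowerSeries.coeff_zero_eq_constantCoeff_apply] at hV hU
    rw [hV, hU, one_mul, mul_one, hy]
    rw [← PowerSeries.coeff_zero_eq_constantCoeff_apply, PowerSeries.coeff_mk, add_zero]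

end conj

/-- all coefficients of `Ψ f` are integral -/
theorem Ψ_int (f : NPS ι D) (m : List (ι × β)) : IsInt (S.Ψ f m) := by
  obtain ⟨V, _, hV, _⟩ := exists_V T
  rw [Ψ_eq S V hV]
  exact isInt_ofPS _

theorem Ψ_coeff (n : ℕ) (f : NPS ι D) (m : List (ι × β))
    (h : ∀ k < n, PowerSeries.coeff k (S.ev f m) = 0) :
    (∀ k : ℤ, k < n → (S.Ψ f m).coeff k = 0) ∧
      (S.Ψ f m).coeff n = PowerSeries.coeff n (S.ev f m) := by
  obtain ⟨V, _, hV, hV0⟩ := exists_V T
  obtain ⟨h1, h2⟩ := conj_coeff V (S.ev f m) T.U hV0 T.U0 n h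
  rw [Ψ_eq S V hV]
  constructor
  · intro k hk
    rcases lt_or_ge k 0 with hk0 | hk0
    · exact isInt_ofPS _ k hk0
    · obtain ⟨j, rfl⟩ := Int.eq_ofNat_of_zero_le hk0
      rw [ofPS_coeff_nat]
      exact h1 j (by omega)
  · rw [ofPS_coeff_nat, h2]

theorem Ψ_nil_coeff0 (f : NPS ι D) : (S.Ψ f []).coeff 0 = e.i (f []) := by
  have h := (Ψ_coeff S 0 f [] (fun k hk => absurd hk (Nat.not_lt_zero k))).2
  rw [ev_nil_coeff0] at h
  exact h

theorem Ψ_one_coeff0 (f : NPS ι D) (p : ι × β) : (S.Ψ f [p]).coeff 0 = 0 := by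
  have h := (Ψ_coeff S 0 f [p] (fun k hk => absurd hk (Nat.not_lt_zero k))).2
  rw [ev_one_coeff0] at h
  exact h

theorem Ψ_one_coeff1 (f : NPS ι D) (p : ι × β) :
    (S.Ψ f [p]).coeff 1 = e.i (f [p.1]) * e.b p.2 := by
  have h := (Ψ_coeff S 1 f [p] (fun k hk => by
    obtain rfl : k = 0 := by omega
    exact ev_one_coeff0 S f p)).2
  rw [ev_one_coeff1] at h
  exact h

theorem ev_two_coeff_lt (f : NPS ι D) (p q : ι × β) (k : ℕ) (hk : k < 2) :
    PowerSeries.coeff k (S.ev f [p, q]) = 0 := by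
  interval_cases k
  · exact ev_two_coeff0 S f p q
  · exact ev_two_coeff1 S f p q

theorem Ψ_two_coeff01 (f : NPS ι D) (p q : ι × β) (n : ℤ) (hn : n < 2) :
    (S.Ψ f [p, q]).coeff n = 0 :=
  (Ψ_coeff S 2 f [p, q] (ev_two_coeff_lt S f p q)).1 n hn

theorem Ψ_two_coeff2 (f : NPS ι D) (p q : ι × β) :
    (S.Ψ f [p, q]).coeff 2 = e.i (f [p.1, q.1]) * (e.b p.2 * e.b q.2) := by
  have h := (Ψ_coeff S 2 f [p, q] (ev_two_coeff_lt S f p q)).2
  rw [ev_two_coeff2] at h
  exact h

/-- scalars go to scalars -/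
theorem Ψ_scalar (a : F) : S.Ψ (NPS.C (algebraMap F D a)) =
    NPS.C (algebraMap (Lau F₁) (Lau D₁) (lc (e.φ a))) := by
  obtain ⟨V, _, hV, _⟩ := exists_V T
  ext m : 1
  rw [Ψ_eq S V hV, S.ev_C]
  cases m with
  | nil =>
    rw [NPS.C_nil, NPS.C_nil, e.i_alg, lau_algebraMap_lc]
    have hc : V * PowerSeries.C (algebraMap F₁ D₁ (e.φ a)) =
        PowerSeries.C (algebraMap F₁ D₁ (e.φ a)) * V := by
      ext n
      rw [PowerSeries.coeff_mul_C, PowerSeries.coeff_C_mul]
      exact (Algebra.commutes _ _).symm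
    rw [hc, mul_assoc, hV, mul_one]
    exact HahnSeries.ofPowerSeries_C _
  | cons p l =>
    rw [NPS.C_cons, NPS.C_cons, mul_zero, zero_mul, map_zero]

/-- if `evQ g * U ≡ U * (θ + X^N x)  mod X^(N+1)` then `Ψ g [] = θ + ε^N x + …` -/
theorem lterm (g : NPS ι D) (N : ℕ) (hN : 1 ≤ N) (x : D₁) (hx : Commute x (e.i (g [])))
    (heq : ∀ n ≤ N, PowerSeries.coeff n (evQ e T.Q g * T.U) =
      PowerSeries.coeff n (T.U * (PowerSeries.C (e.i (g [])) + PowerSeries.X ^ N * PowerSeries.C x))) :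
    LTerm (S.Ψ g []) (e.i (g [])) x N := by
  obtain ⟨V, _, hV, _⟩ := exists_V T
  have hco : ∀ n ≤ N, PowerSeries.coeff n (V * S.ev g [] * T.U) =
      PowerSeries.coeff n (PowerSeries.C (e.i (g [])) + PowerSeries.X ^ N * PowerSeries.C x) := by
    intro n hn
    have h1 : V * S.ev g [] * T.U = V * (evQ e T.Q g * T.U) := by
      rw [ev_nil, mul_assoc]
    have h2 : (PowerSeries.C (e.i (g [])) + PowerSeries.X ^ N * PowerSeries.C x : PowerSeries D₁)
        = V * (T.U * (PowerSeries.C (e.i (g [])) + PowerSeries.X ^ N * PowerSeries.C x)) := by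
      rw [← mul_assoc, hV, one_mul]
    rw [h1, h2, PowerSeries.coeff_mul, PowerSeries.coeff_mul]
    refine Finset.sum_congr rfl fun p hp => ?_
    rw [heq p.2 (by rw [Finset.HasAntidiagonal.mem_antidiagonal] at hp; omega)]
  have hnat : ∀ n : ℕ, n ≤ N → (S.Ψ g []).coeff (n : ℤ) =
      PowerSeries.coeff n (PowerSeries.C (e.i (g [])) + PowerSeries.X ^ N * PowerSeries.C x) := by
    intro n hn
    rw [Ψ_eq S V hV, ofPS_coeff_nat, hco n hn]
  refine ⟨hN, hx, Ψ_int S g [], Ψ_nil_coeff0 S g, ?_, ?_⟩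
  · intro n h0 h1
    obtain ⟨j, rfl⟩ := Int.eq_ofNat_of_zero_le h0.le
    rw [hnat j (by omega), map_add, PowerSeries.coeff_C, if_neg (by omega),
      PowerSeries.coeff_X_pow_mul', if_neg (by omega), add_zero]
  · rw [hnat N le_rfl, map_add, PowerSeries.coeff_C, if_neg (by omega),
      PowerSeries.coeff_X_pow_mul', if_pos le_rfl, Nat.sub_self, zero_add, PowerSeries.coeff_C,
      if_pos rfl]

section euler

/-- Euler derivation on power series -/
noncomputable def eul (x : PowerSeries D₁) : PowerSeries D₁ :=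
  PowerSeries.mk fun n => (n : ℤ) • PowerSeries.coeff n x

theorem coeff_eul (x : PowerSeries D₁) (n : ℕ) :
    PowerSeries.coeff n (eul x) = (n : ℤ) • PowerSeries.coeff n x := by
  rw [eul, PowerSeries.coeff_mk]

theorem ofPS_eul (x : PowerSeries D₁) : ofPS (eul x) = eulerD (ofPS x) := by
  ext n
  rw [eulerD_coeff]
  rcases lt_or_ge n 0 with h | h
  · rw [isInt_ofPS _ n h, isInt_ofPS _ n h, smul_zero]
  · obtain ⟨m, rfl⟩ := Int.eq_ofNat_of_zero_le h
    rw [ofPS_coeff_nat, ofPS_coeff_nat, coeff_eul]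

theorem ofPS_inj : Function.Injective (ofPS : PowerSeries D₁ →+* Lau D₁) :=
  HahnSeries.ofPowerSeries_injective

theorem eul_add (x y : PowerSeries D₁) : eul (x + y) = eul x + eul y := by
  ext n
  rw [map_add, coeff_eul, coeff_eul, coeff_eul, map_add, smul_add]

theorem eul_mul (x y : PowerSeries D₁) : eul (x * y) = eul x * y + x * eul y := by
  apply ofPS_inj
  rw [map_add, map_mul, map_mul, ofPS_eul, ofPS_eul, ofPS_eul, map_mul, eulerD_mul]

theorem eul_zero : eul (0 : PowerSeries D₁) = 0 := by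
  ext n
  rw [coeff_eul, map_zero, smul_zero]

theorem eul_sum {α : Type} (s : Finset α) (x : α → PowerSeries D₁) :
    eul (∑ a ∈ s, x a) = ∑ a ∈ s, eul (x a) := by
  classical
  induction s using Finset.induction_on with
  | empty => simp [eul_zero]
  | insert a s ha ih => rw [Finset.sum_insert ha, Finset.sum_insert ha, eul_add, ih]

theorem eul_C (x : D₁) : eul (PowerSeries.C x) = 0 := by
  ext n
  rw [coeff_eul, PowerSeries.coeff_C, map_zero]
  split_ifs with h
  · rw [h]; simp
  · rw [smul_zero]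

theorem eul_one : eul (1 : PowerSeries D₁) = 0 := by
  have := eul_C (1 : D₁)
  rwa [map_one] at this

/-- scalar power series are central -/
theorem map_central (γ : PowerSeries F₁) (x : PowerSeries D₁) :
    PowerSeries.map (algebraMap F₁ D₁) γ * x = x * PowerSeries.map (algebraMap F₁ D₁) γ := by
  ext n
  rw [PowerSeries.coeff_mul, PowerSeries.coeff_mul, ← Finset.Nat.sum_antidiagonal_swap]
  refine Finset.sum_congr rfl fun p _ => ?_
  rw [PowerSeries.coeff_map, Prod.fst_swap, Prod.snd_swap, PowerSeries.coeff_map]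
  exact Algebra.commutes _ _

theorem algebraMap_ofPS (γ : PowerSeries F₁) :
    algebraMap (Lau F₁) (Lau D₁) (ofPS γ) = ofPS (PowerSeries.map (algebraMap F₁ D₁) γ) := by
  ext n
  rw [lau_algebraMap_coeff]
  rcases lt_or_ge n 0 with h | h
  · rw [isInt_ofPS _ n h, isInt_ofPS _ n h, map_zero]
  · obtain ⟨m, rfl⟩ := Int.eq_ofNat_of_zero_le h
    rw [ofPS_coeff_nat, ofPS_coeff_nat, PowerSeries.coeff_map]

theorem exists_gamma [Algebra.IsCentral F D] [FiniteDimensional F D] (T : EData e ι) :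
    ∃ γ : ι × β → PowerSeries F₁, ∀ j, eul (T.Q j) =
      ∑ k, PowerSeries.map (algebraMap F₁ D₁) (γ (j, k)) * (PowerSeries.X * PowerSeries.C (e.b k)) := by
  have h : ∀ (j : ι) (n : ℕ), ∃ a : β → F₁,
      ∑ k, a k • e.b k = ((n + 1 : ℕ) : ℤ) • PowerSeries.coeff (n + 1) (T.Q j) := by
    intro j n
    have h1 : ((n + 1 : ℕ) : ℤ) • PowerSeries.coeff (n + 1) (T.Q j) ∈ e.E :=
      Subalgebra.zsmul_mem _ (T.QE j (n + 1)) _
    have h2 := E_le_span e _ h1
    rw [Submodule.mem_span_range_iff_exists_fun] at h2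
    exact h2
  choose a ha using h
  refine ⟨fun p => PowerSeries.mk fun n => a p.1 n p.2, fun j => ?_⟩
  ext n
  rw [map_sum]
  have h3 : ∀ k, (PowerSeries.map (algebraMap F₁ D₁) (PowerSeries.mk fun n => a j n k) *
      (PowerSeries.X * PowerSeries.C (e.b k))) = PowerSeries.X *
        (PowerSeries.map (algebraMap F₁ D₁) (PowerSeries.mk fun n => a j n k) *
          PowerSeries.C (e.b k)) := by
    intro k
    rw [← mul_assoc, ← mul_assoc, ← (PowerSeries.commute_X _).eq]
  simp only [h3]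
  cases n with
  | zero =>
    rw [coeff_eul]
    simp
  | succ n =>
    rw [coeff_eul, ← ha]
    refine Finset.sum_congr rfl fun k _ => ?_
    rw [PowerSeries.coeff_succ_X_mul, PowerSeries.coeff_mul_C, PowerSeries.coeff_map,
      PowerSeries.coeff_mk, Algebra.smul_def]

theorem eul_ev (γ : ι × β → PowerSeries F₁) (hγ : ∀ j, eul (T.Q j) =
      ∑ k, PowerSeries.map (algebraMap F₁ D₁) (γ (j, k)) * (PowerSeries.X * PowerSeries.C (e.b k))) :
    ∀ (n : ℕ) (f : NPS ι D), PowerSeries.coeff n (eul (S.ev f []) -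
      ∑ p, PowerSeries.map (algebraMap F₁ D₁) (γ p) * S.ev f [p]) = 0 := by
  have hrec : ∀ f : NPS ι D, eul (S.ev f []) -
      ∑ p, PowerSeries.map (algebraMap F₁ D₁) (γ p) * S.ev f [p] =
      ∑ j, T.Q j * (eul (S.ev (NPS.tl j f) []) -
      ∑ p, PowerSeries.map (algebraMap F₁ D₁) (γ p) * S.ev (NPS.tl j f) [p]) := by
    intro f
    have h1 : eul (S.ev f []) = ∑ j, (eul (T.Q j) * S.ev (NPS.tl j f) [] +
        T.Q j * eul (S.ev (NPS.tl j f) [])) := by
      rw [ev_rec_nil, eul_add, eul_C, zero_add, eul_sum]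
      simp only [eul_mul]
    have h2 : ∑ p, PowerSeries.map (algebraMap F₁ D₁) (γ p) * S.ev f [p] =
        ∑ j, (T.Q j * ∑ p, PowerSeries.map (algebraMap F₁ D₁) (γ p) * S.ev (NPS.tl j f) [p]) +
        ∑ j, eul (T.Q j) * S.ev (NPS.tl j f) [] := by
      have h3 : ∀ p : ι × β, PowerSeries.map (algebraMap F₁ D₁) (γ p) * S.ev f [p] =
          ∑ j, T.Q j * (PowerSeries.map (algebraMap F₁ D₁) (γ p) * S.ev (NPS.tl j f) [p]) +
          PowerSeries.map (algebraMap F₁ D₁) (γ p) * (PowerSeries.X * PowerSeries.C (e.b p.2)) *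
            S.ev (NPS.tl p.1 f) [] := by
        intro p
        rw [ev_rec_cons, mul_add, Finset.mul_sum]
        congr 1
        · refine Finset.sum_congr rfl fun j _ => ?_
          rw [← mul_assoc, map_central, mul_assoc]
        · simp only [mul_assoc]
      rw [Finset.sum_congr rfl fun p _ => h3 p, Finset.sum_add_distrib, Finset.sum_comm]
      congr 1
      · refine Finset.sum_congr rfl fun j _ => ?_
        rw [Finset.mul_sum]
      · rw [Fintype.sum_prod_type]
        refine Finset.sum_congr rfl fun j _ => ?_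
        rw [hγ j, Finset.sum_mul]
    rw [h1, h2, Finset.sum_add_distrib]
    simp only [mul_sub, Finset.sum_sub_distrib]
    abel
  intro n
  induction n using Nat.strong_induction_on with
  | _ n ih =>
    intro f
    rw [hrec f, map_sum]
    refine Finset.sum_eq_zero fun j _ => ?_
    rw [PowerSeries.coeff_mul]
    refine Finset.sum_eq_zero fun p hp => ?_
    rw [Finset.HasAntidiagonal.mem_antidiagonal] at hp
    rcases Nat.eq_zero_or_pos p.1 with h | h
    · rw [h, T.Q0, zero_mul]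
    · rw [ih p.2 (by omega), mul_zero]

end euler

/-- Euler derivation of the constant term = linear part in some direction, up to inner terms.
The direction does not depend on `f`. -/
theorem euler_chain [Algebra.IsCentral F D] [FiniteDimensional F D] :
    ∃ (c : ι × β → Lau F₁) (h : Lau D₁), ∀ f : NPS ι D,
      eulerD (S.Ψ f []) = lin (Lau F₁) (S.Ψ f) c + (h * S.Ψ f [] - S.Ψ f [] * h) := by
  obtain ⟨γ, hγ⟩ := exists_gamma T
  obtain ⟨V, hUV, hV, _⟩ := exists_V T
  refine ⟨fun p => ofPS (γ p), -ofPS (V * eul T.U), fun f => ?_⟩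
  have hP : eul (S.ev f []) = ∑ p, PowerSeries.map (algebraMap F₁ D₁) (γ p) * S.ev f [p] := by
    rw [← sub_eq_zero]
    ext n
    rw [eul_ev S γ hγ n f, map_zero]
  have hVe : eul V = -(V * eul T.U * V) := by
    have h1 : eul (V * T.U) = 0 := by rw [hV, eul_one]
    rw [eul_mul] at h1
    have h2 : (eul V * T.U + V * eul T.U) * V = 0 := by rw [h1, zero_mul]
    rw [add_mul, mul_assoc (eul V), hUV, mul_one] at h2
    exact eq_neg_of_add_eq_zero_left h2
  have hlin : lin (Lau F₁) (S.Ψ f) (fun p => ofPS (γ p)) =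
      ofPS (V * eul (S.ev f []) * T.U) := by
    rw [hP, Finset.mul_sum, Finset.sum_mul, map_sum]
    show ∑ p, (ofPS (γ p) : Lau F₁) • S.Ψ f [p] = _
    refine Finset.sum_congr rfl fun p _ => ?_
    rw [lau_smul_def, algebraMap_ofPS, Ψ_eq S V hV, ← map_mul, ← mul_assoc, ← mul_assoc,
      map_central, mul_assoc V]
  rw [hlin, Ψ_eq S V hV, ← ofPS_eul, ← map_neg, ← map_mul, ← map_mul, ← map_sub, ← map_add]
  congr 1
  rw [eul_mul, eul_mul, hVe]
  have h3 : V * S.ev f [] * eul T.U = V * S.ev f [] * T.U * (V * eul T.U) := by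
    rw [mul_assoc (V * S.ev f []) T.U, ← mul_assoc T.U V, hUV, one_mul]
  rw [h3]
  noncomm_ring

end EStep
end Crest.Agent.R180
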