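import Mathlib
import Crest.Agent.R180.DC

/-!
# Piece INV: elementary facts on the invariants `V, K, m, c2, a, o`

`L = F[g_0]`, `V = pr_L (lin g (F^ι)) ⊂ L`, `K` = subalgebra generated by the ratios of elements of `V`.
All subalgebras of a finite dimensional domain are closed under inverses (`exists_inverse_mem`).
-/

set_option autoImplicit false
set_option linter.unusedSectionVars false

namespace Crest.Agent.R180
open Module

variable {F D : Type} [Field F] [Ring D] [Algebra F D] [CharZero F] [IsDomain D]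
  [FiniteDimensional F D]

section inv
variable {ι : Type} [Fintype ι] (g : NPS ι D)

theorem c2_mul [Algebra.IsCentral F D] : c2 F g * (mdeg F (g [])) ^ 2 = finrank F D := by
  unfold c2
  exact Nat.div_mul_cancel (mdeg_sq_dvd (g []))

theorem Vs_le : Vs F g ≤ Subalgebra.toSubmodule (Algebra.adjoin F ({g []} : Set D)) := by
  rintro v ⟨ξ, rfl⟩
  exact pr_mem _ _

theorem mem_Vs_iff (v : D) : v ∈ Vs F g ↔
    ∃ ξ : ι → F, pr F (Algebra.adjoin F ({g []} : Set D)) (lin F g ξ) = v := Iff.rfl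

theorem mem_Vs_orth (x : D) (hx : x ∈ Algebra.adjoin F ({g []} : Set D)) :
    (∀ v ∈ Vs F g, ntr F D (x * v) = 0) ↔ ∀ ξ : ι → F, ntr F D (x * lin F g ξ) = 0 := by
  constructor
  · intro h ξ
    rw [← pr_spec _ _ x hx]
    exact h _ ((mem_Vs_iff g _).2 ⟨ξ, rfl⟩)
  · intro h v hv
    obtain ⟨ξ, rfl⟩ := (mem_Vs_iff g v).1 hv
    rw [pr_spec _ _ x hx]
    exact h ξ

/-- `V ≠ 0` iff some element of `L` pairs nontrivially with the linear part -/
theorem Vs_ne_bot_iff : Vs F g ≠ ⊥ ↔ ∃ x ∈ Algebra.adjoin F ({g []} : Set D), ∃ ξ : ι → F,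
    ntr F D (x * lin F g ξ) ≠ 0 := by
  rw [Ne, ← not_forall_not, not_iff_not]
  constructor
  · intro h x ⟨hx, ξ, hξ⟩
    apply hξ
    refine (mem_Vs_orth g x hx).1 ?_ ξ
    intro v hv
    rw [h, Submodule.mem_bot] at hv
    simp [hv]
  · intro h
    rw [Submodule.eq_bot_iff]
    intro v hv
    refine ntr_nondeg (Algebra.adjoin F ({g []} : Set D)) v (Vs_le g hv) ?_
    intro a ha
    refine (mem_Vs_orth g a ha).2 ?_ v hv
    intro ξ
    by_contra hne
    exact h a ⟨ha, ξ, hne⟩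


theorem Kalg_le : Kalg (Vs F g) ≤ Algebra.adjoin F ({g []} : Set D) := by
  unfold Kalg
  refine Algebra.adjoin_le ?_
  rintro x ⟨v, hv, hv0, hvx⟩
  exact quot_mem _ v x hv0 (Vs_le g hv) (Vs_le g hvx)

/-- `V = v V₁`, `V₁ ⊂ K` -/
theorem Vs_sub (v w : D) (hv : v ∈ Vs F g) (hv0 : v ≠ 0) (hw : w ∈ Vs F g) :
    ∃ κ ∈ Kalg (Vs F g), w = v * κ := by
  obtain ⟨y, -, hy, -⟩ := exists_inverse_mem (⊤ : Subalgebra F D) v Algebra.mem_top hv0
  have hw' : v * (y * w) = w := by rw [← mul_assoc, hy, one_mul]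
  refine ⟨y * w, Algebra.subset_adjoin ⟨v, hv, hv0, ?_⟩, hw'.symm⟩
  rw [hw']; exact hw

/-- `K` is generated by `V₁ = v⁻¹ V` for any nonzero `v ∈ V` -/
theorem Kalg_eq (v : D) (hv : v ∈ Vs F g) (hv0 : v ≠ 0) :
    Kalg (Vs F g) = Algebra.adjoin F {x | v * x ∈ Vs F g} := by
  obtain ⟨y, -, hy, -⟩ := exists_inverse_mem (⊤ : Subalgebra F D) v Algebra.mem_top hv0
  have key : ∀ w ∈ Vs F g, ∃ κ ∈ Algebra.adjoin F {x | v * x ∈ Vs F g}, w = v * κ := by
    intro w hw
    have hw' : v * (y * w) = w := by rw [← mul_assoc, hy, one_mul]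
    refine ⟨y * w, Algebra.subset_adjoin ?_, hw'.symm⟩
    show v * (y * w) ∈ Vs F g
    rw [hw']; exact hw
  apply le_antisymm
  · unfold Kalg
    refine Algebra.adjoin_le ?_
    rintro x ⟨v', hv', hv'0, hx⟩
    obtain ⟨κ, hκ, e1⟩ := key v' hv'
    obtain ⟨κ', hκ', e2⟩ := key (v' * x) hx
    have e3 : κ * x = κ' := by
      apply mul_left_cancel₀ hv0
      rw [← mul_assoc, ← e1, e2]
    have hκ0 : κ ≠ 0 := by
      rintro rfl
      apply hv'0
      rw [e1, mul_zero]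
    exact quot_mem _ κ x hκ0 hκ (by rw [e3]; exact hκ')
  · refine Algebra.adjoin_mono ?_
    intro x hx
    exact ⟨v, hv, hv0, hx⟩

theorem aK_mul : aK F g * nK F g = mdeg F (g []) := by
  unfold aK
  exact Nat.div_mul_cancel (finrank_dvd_of_le _ _ (Kalg_le g))

theorem nK_pos : 0 < nK F g := by
  unfold nK
  exact finrank_pos

theorem finrank_Vs_le (h : Vs F g ≠ ⊥) : finrank F (Vs F g) ≤ nK F g := by
  obtain ⟨v, hv, hv0⟩ := Submodule.exists_mem_ne_zero_of_ne_bot h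
  have hle : Vs F g ≤ (Subalgebra.toSubmodule (Kalg (Vs F g))).map (LinearMap.mulLeft F v) := by
    intro w hw
    obtain ⟨κ, hκ, e⟩ := Vs_sub g v w hv hv0 hw
    exact ⟨κ, hκ, e.symm⟩
  calc finrank F (Vs F g)
      ≤ finrank F ((Subalgebra.toSubmodule (Kalg (Vs F g))).map (LinearMap.mulLeft F v)) :=
        Submodule.finrank_mono hle
    _ ≤ finrank F (Subalgebra.toSubmodule (Kalg (Vs F g))) := Submodule.finrank_map_le _ _
    _ = nK F g := rfl

end inv
end Crest.Agent.R180
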