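import Mathlib
import Crest.Agent.R180.E1
import Crest.Agent.R180.EStepCoeff
import Crest.Agent.R180.CExtNtr
import Crest.Agent.R180.Inv

/-!
# Piece E3: reduction of projections, of `V''` and of `K''`
Notation: `Θ = Ψ g []`, `L'' = F''[Θ]`, `A = F₁[θ, X] ⊂ D₁`.
If `dim L'' = dim A` then `redAlg L'' = A` (E1 and `finrank_redAlg`).
`pr_red`: let `y = pr_B x`; if `y ≠ 0` scale it by `ε^k` to be integral with nonzero residue `ȳ ∈ redAlg B`; if `k > 0`
then `ntr(a ȳ) = 0` for all `a ∈ redAlg B`, contradiction with nondegeneracy; so `y` is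
integral and compare `ntr (a y(0)) = ntr (a x(0))` for all `a ∈ redAlg B` (lift `a`, use `ntr_lau`).
`exists_V_lift`: `y = ε^{-1} pr_{L''} (lin (Ψ g) δ)` for constant `δ` with `dirE δ = δ̄`.
`K_ge`: `x` with `v₁ x = pr_A(∂_δ g)`: lifts `v'', y ∈ V''` of `v₁` and of `v₁ x`; `v''⁻¹ y ∈ K''` is integral with residue `x`
(`inv_int`; in the domain `Lau D₁` the element `v''` has an inverse, `exists_inverse`).
-/

set_option autoImplicit false
set_option linter.unusedSectionVars false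

namespace Crest.Agent.R180
open Module

section
variable {F D F₁ D₁ β ι : Type} [Field F] [CharZero F] [Ring D] [IsDomain D] [Algebra F D]
    [FiniteDimensional F D] [Algebra.IsCentral F D]
    [Field F₁] [CharZero F₁] [Ring D₁] [IsDomain D₁] [Algebra F₁ D₁]
    [FiniteDimensional F₁ D₁] [Algebra.IsCentral F₁ D₁]
    [Fintype ι] [Fintype β] [DecidableEq β] [DecidableEq ι]
    {e : CExt F D F₁ D₁ β} {T : EData e ι} (S : EStep T)

/-- **E3a** -/
theorem redAlg_L (g : NPS ι D) (X : D₁) (N : ℕ) (h : LTerm (S.Ψ g []) (e.i (g [])) X N)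
    (hm : mdeg (Lau F₁) (S.Ψ g []) =
      finrank F₁ (Algebra.adjoin F₁ ({e.i (g []), X} : Set D₁))) :
    redAlg (Algebra.adjoin (Lau F₁) ({S.Ψ g []} : Set (Lau D₁))) =
      Algebra.adjoin F₁ ({e.i (g []), X} : Set D₁) := by
  have h1 := lift_adjoin (F₁ := F₁) (S.Ψ g []) (e.i (g [])) X N h
  have h2 : finrank F₁ (redAlg (Algebra.adjoin (Lau F₁) ({S.Ψ g []} : Set (Lau D₁)))) =
      finrank F₁ (Algebra.adjoin F₁ ({e.i (g []), X} : Set D₁)) := by
    rw [finrank_redAlg, ← hm, mdeg]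
  apply Subalgebra.toSubmodule_injective
  refine (Submodule.eq_of_le_of_finrank_eq
    (S₁ := Subalgebra.toSubmodule (Algebra.adjoin F₁ ({e.i (g []), X} : Set D₁)))
    (S₂ := Subalgebra.toSubmodule (redAlg (Algebra.adjoin (Lau F₁) ({S.Ψ g []} : Set (Lau D₁)))))
    ?_ ?_).symm
  · exact fun x hx => h1 hx
  · exact h2.symm

/-- **E3b**: reduction of the projection -/
theorem pr_red (B : Subalgebra (Lau F₁) (Lau D₁)) (x : Lau D₁) (hx : IsInt x) :
    IsInt (pr (Lau F₁) B x) ∧ (pr (Lau F₁) B x).coeff 0 = pr F₁ (redAlg B) (x.coeff 0) := by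
  set y := pr (Lau F₁) B x with hy
  have hyB : y ∈ B := pr_mem B x
  have hspec : ∀ b ∈ B, ntr (Lau F₁) (Lau D₁) (b * y) = ntr (Lau F₁) (Lau D₁) (b * x) :=
    fun b hb => pr_spec B x b hb
  have hint : IsInt y := by
    by_cases hy0 : y = 0
    · rw [hy0]; exact isInt_zero
    obtain ⟨n, hn1, hn2⟩ := exists_scale (F := F₁) y hy0
    rcases le_or_gt n 0 with hn | hn
    · intro k hk
      have h1 := hn1 (k + n) (by omega)
      rw [epow_smul, epow_coeff_mul] at h1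
      have : k + n - n = k := by ring
      rwa [this] at h1
    · exfalso
      apply hn2
      set z : Lau D₁ := (epow n : Lau F₁) • y with hz
      have hzB : z ∈ B := B.smul_mem hyB _
      apply ntr_nondeg (F := F₁) (redAlg B) (z.coeff 0) ((mem_redAlg B _).2 ⟨z, hzB, hn1, rfl⟩)
      intro a ha
      obtain ⟨b, hb, hbi, hb0⟩ := (mem_redAlg B a).1 ha
      have h1 : ntr (Lau F₁) (Lau D₁) (b * z) = epow n * ntr (Lau F₁) (Lau D₁) (b * x) := by
        rw [hz, mul_smul_comm, map_smul, smul_eq_mul, hspec b hb]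
      have h2 : (ntr (Lau F₁) (Lau D₁) (b * z)).coeff 0 = ntr F₁ D₁ (a * z.coeff 0) := by
        rw [ntr_lau, (hbi.mul hn1).2, hb0]
      rw [← h2, h1, epow_coeff_mul, ntr_lau, (hbi.mul hx).1 _ (by omega), map_zero]
  refine ⟨hint, ?_⟩
  symm
  apply pr_unique
  · exact (mem_redAlg B _).2 ⟨y, hyB, hint, rfl⟩
  · intro a ha
    obtain ⟨b, hb, hbi, hb0⟩ := (mem_redAlg B a).1 ha
    have h1 : ntr F₁ D₁ (a * x.coeff 0) = (ntr (Lau F₁) (Lau D₁) (b * x)).coeff 0 := by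
      rw [ntr_lau, (hbi.mul hx).2, hb0]
    have h2 : ntr F₁ D₁ (a * y.coeff 0) = (ntr (Lau F₁) (Lau D₁) (b * y)).coeff 0 := by
      rw [ntr_lau, (hbi.mul hint).2, hb0]
    rw [h1, h2, hspec b hb]

/-- direction `δ̄ ∈ E₁^ι` with given coordinates in `F₁` -/
noncomputable def dirE (e : CExt F D F₁ D₁ β) (δ : ι × β → F₁) (j : ι) : D₁ :=
  ∑ k, δ (j, k) • e.b k

theorem dirE_mem (e : CExt F D F₁ D₁ β) (δ : ι × β → F₁) (j : ι) : dirE e δ j ∈ e.E :=
  sum_mem fun k _ => e.E.smul_mem (e.b_mem_E k) _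

theorem exists_dirE (e : CExt F D F₁ D₁ β) (δ : ι → D₁) (hδ : ∀ j, δ j ∈ e.E) :
    ∃ δ' : ι × β → F₁, δ = dirE e δ' := by
  have h : ∀ j, ∃ c : β → F₁, ∑ k, c k • e.b k = δ j := by
    intro j
    have : δ j ∈ Submodule.span F₁ (Set.range e.b) := by
      rw [← e.E_eq_span]; exact hδ j
    exact (Submodule.mem_span_range_iff_exists_fun F₁).1 this
  choose c hc using h
  refine ⟨fun p => c p.1 p.2, ?_⟩
  funext j
  rw [dirE, hc]

/-- leading term of the linear part -/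
theorem lin_lead (g : NPS ι D) (δ : ι × β → Lau F₁) (hδ : ∀ p, IsInt (δ p)) :
    (∀ n < 1, (lin (Lau F₁) (S.Ψ g) δ).coeff n = 0) ∧
    (lin (Lau F₁) (S.Ψ g) δ).coeff 1 = e.linE g (dirE e fun p => (δ p).coeff 0) := by
  have key : ∀ p : ι × β, (∀ n < 1, (δ p • S.Ψ g [p]).coeff n = 0) ∧
      (δ p • S.Ψ g [p]).coeff 1 = (δ p).coeff 0 • (e.i (g [p.1]) * e.b p.2) := by
    intro p
    have h0 : ∀ n < 0, (algebraMap (Lau F₁) (Lau D₁) (δ p)).coeff n = 0 := fun n hn => by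
      rw [lau_algebraMap_coeff, hδ p n hn, map_zero]
    have h1 : ∀ n < 1, (S.Ψ g [p]).coeff n = 0 := by
      intro n hn
      rcases lt_or_eq_of_le (show n ≤ 0 by omega) with h | h
      · exact S.Ψ_int g [p] n h
      · rw [h]; exact S.Ψ_one_coeff0 g p
    obtain ⟨h2, h3, _⟩ := coeff_mul_lead _ _ 0 1 h0 h1
    rw [zero_add] at h2 h3
    rw [lau_smul_def]
    refine ⟨h2, ?_⟩
    rw [h3, lau_algebraMap_coeff, S.Ψ_one_coeff1, Algebra.smul_def]
  have hlin : lin (Lau F₁) (S.Ψ g) δ = ∑ p, δ p • S.Ψ g [p] := rfl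
  refine ⟨fun n hn => ?_, ?_⟩
  · rw [hlin, lau_coeff_sum]
    exact Finset.sum_eq_zero fun p _ => (key p).1 n hn
  · rw [hlin, lau_coeff_sum, CExt.linE, Fintype.sum_prod_type]
    refine Finset.sum_congr rfl fun j _ => ?_
    rw [dirE, Finset.mul_sum]
    refine Finset.sum_congr rfl fun k _ => ?_
    rw [(key (j, k)).2, mul_smul_comm]

/-- leading term of the quadratic part -/
theorem quad_lead (g : NPS ι D) (δ δ' : ι × β → Lau F₁) (hδ : ∀ p, IsInt (δ p))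
    (hδ' : ∀ p, IsInt (δ' p)) :
    ∀ n < 2, (quad (Lau F₁) (S.Ψ g) δ δ').coeff n = 0 := by
  intro n hn
  rw [quad, lau_coeff_sum]
  refine Finset.sum_eq_zero fun p _ => ?_
  rw [lau_coeff_sum]
  refine Finset.sum_eq_zero fun q _ => ?_
  have h0 : ∀ n < 0, (algebraMap (Lau F₁) (Lau D₁) (δ p * δ' q)).coeff n = 0 := fun n hn => by
    rw [lau_algebraMap_coeff, ((hδ p).mul (hδ' q)).1 n hn, map_zero]
  obtain ⟨h2, _, _⟩ := coeff_mul_lead (algebraMap (Lau F₁) (Lau D₁) (δ p * δ' q))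
    (S.Ψ g [p, q]) 0 2 h0 (fun n hn => S.Ψ_two_coeff01 g p q n hn)
  rw [zero_add] at h2
  rw [lau_smul_def]
  exact h2 n hn

/-- elements of `V''` with prescribed residue -/
theorem exists_V_lift (g : NPS ι D) (X : D₁) (N : ℕ) (h : LTerm (S.Ψ g []) (e.i (g [])) X N)
    (hm : mdeg (Lau F₁) (S.Ψ g []) =
      finrank F₁ (Algebra.adjoin F₁ ({e.i (g []), X} : Set D₁)))
    (δ : ι → D₁) (hδ : ∀ j, δ j ∈ e.E) :
    ∃ y ∈ Vs (Lau F₁) (S.Ψ g), IsInt y ∧
      y.coeff 0 = pr F₁ (Algebra.adjoin F₁ ({e.i (g []), X} : Set D₁)) (e.linE g δ) := by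
  obtain ⟨δ', hδ'⟩ := exists_dirE e δ hδ
  set L := Algebra.adjoin (Lau F₁) ({S.Ψ g []} : Set (Lau D₁)) with hL
  obtain ⟨h1, h2⟩ := lin_lead S g (fun p => (lc (δ' p) : Lau F₁)) (fun p => isInt_lc _)
  set ξ : ι × β → Lau F₁ := fun p => (lc (δ' p) : Lau F₁) with hξ
  set x : Lau D₁ := (epow (-1) : Lau F₁) • lin (Lau F₁) (S.Ψ g) ξ with hx
  have hxi : IsInt x := by
    intro n hn
    rw [hx, epow_smul, epow_coeff_mul]
    exact h1 _ (by omega)
  have hx0 : x.coeff 0 = e.linE g δ := by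
    rw [hx, epow_smul, epow_coeff_mul]
    have : (0 : ℤ) - -1 = 1 := by norm_num
    rw [this, h2, hδ']
    congr 1
    funext j
    rw [dirE, dirE]
    refine Finset.sum_congr rfl fun k _ => ?_
    rw [lc_coeff_zero]
  obtain ⟨h3, h4⟩ := pr_red L x hxi
  refine ⟨pr (Lau F₁) L x, ?_, h3, ?_⟩
  · rw [hx, map_smul]
    refine Submodule.smul_mem _ _ ?_
    exact ⟨ξ, rfl⟩
  · rw [h4, hx0, hL, redAlg_L S g X N h hm]

/-- **E3** -/
theorem K_ge (g : NPS ι D) (X : D₁) (N : ℕ) (h : LTerm (S.Ψ g []) (e.i (g [])) X N)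
    (hm : mdeg (Lau F₁) (S.Ψ g []) =
      finrank F₁ (Algebra.adjoin F₁ ({e.i (g []), X} : Set D₁)))
    (v₁ : D₁) (hv : v₁ ≠ 0) (δ₁ : ι → D₁) (hδ₁ : ∀ j, δ₁ j ∈ e.E)
    (hδv : pr F₁ (Algebra.adjoin F₁ ({e.i (g []), X} : Set D₁)) (e.linE g δ₁) = v₁) :
    Algebra.adjoin F₁ {x | ∃ δ : ι → D₁, (∀ j, δ j ∈ e.E) ∧
        v₁ * x = pr F₁ (Algebra.adjoin F₁ ({e.i (g []), X} : Set D₁)) (e.linE g δ)} ≤
      redAlg (Kalg (Vs (Lau F₁) (S.Ψ g))) := by
  apply Algebra.adjoin_le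
  rintro x ⟨δ, hδ, hx⟩
  obtain ⟨v, hvV, hvi, hv0⟩ := exists_V_lift S g X N h hm δ₁ hδ₁
  obtain ⟨y, hyV, hyi, hy0⟩ := exists_V_lift S g X N h hm δ hδ
  rw [hδv] at hv0
  rw [← hx] at hy0
  have hvne : v ≠ 0 := by
    rintro rfl
    apply hv
    rw [← hv0, HahnSeries.coeff_zero]
  obtain ⟨w, hw1, hw2⟩ := exists_inverse (Lau F₁) v hvne
  obtain ⟨hwi, hw0⟩ := inv_int v w hw1 hvi (by rw [hv0]; exact hv)
  rw [hv0] at hw0
  have hw0' : w.coeff 0 * v₁ = 1 := by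
    have : v₁ * (w.coeff 0 * v₁ - 1) = 0 := by
      rw [mul_sub, ← mul_assoc, hw0, one_mul, mul_one, sub_self]
    rcases mul_eq_zero.1 this with h5 | h5
    · exact absurd h5 hv
    · exact sub_eq_zero.1 h5
  change x ∈ redAlg (Kalg (Vs (Lau F₁) (S.Ψ g)))
  rw [mem_redAlg]
  refine ⟨w * y, ?_, (hwi.mul hyi).1, ?_⟩
  · apply Algebra.subset_adjoin
    refine ⟨v, hvV, hvne, ?_⟩
    rw [← mul_assoc, hw1, one_mul]
    exact hyV
  · rw [(hwi.mul hyi).2, hy0, ← mul_assoc, hw0', one_mul]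

end
end Crest.Agent.R180
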