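import Mathlib
import Crest.Agent.R180.E3

/-!
# Piece E2: lower bound for `dim V''`
Let `N' = L'' ∩ range(lin)^⊥`.  Then `red N' ∩ M = 0` : let `y ∈ N'` be
integral with residue `ȳ ∈ M`.  For constant directions `δ` the coefficient of `ε^1` of
`ntr (y * lin (Ψ g) δ) = 0` gives `ntr (ȳ * linE g δ̄) = 0` (`lin_lead`, `ntr_lau`), for all
`δ̄ ∈ E₁^ι` (`exists_dirE`).  The direction of `euler_chain` gives `ntr (y * eulerD Θ) = 0` (commutators with `Θ`
are orthogonal to `y ∈ L''`), whose `ε^N` coefficient is `N ntr (ȳ X)`.  So `ȳ = 0`.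
As `M, red N' ⊂ redAlg L''` (E1), `dim M ≤ dim L'' - dim N' = dim V''` (`finrank_pr_map`).
-/

set_option autoImplicit false
set_option linter.unusedSectionVars false

namespace Crest.Agent.R180
open Module

section
variable {F D F₁ D₁ β ι : Type} [Field F] [CharZero F] [Ring D] [IsDomain D] [Algebra F D]
    [FiniteDimensional F D] [Algebra.IsCentral F D]
    [Field F₁] [CharZero F₁] [Ring D₁] [IsDomain D₁] [Algebra F₁ D₁]
    [FiniteDimensional F₁ D₁] [Algebra.IsCentral F₁ D₁]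
    [Fintype ι] [Fintype β] [DecidableEq β] [DecidableEq ι]
    {e : CExt F D F₁ D₁ β} {T : EData e ι} (S : EStep T)

/-- elements of `F''[Θ]` commute with `Θ` -/
theorem commute_of_mem_adjoin {A B : Type} [CommRing A] [Ring B] [Algebra A B] (Θ y : B)
    (hy : y ∈ Algebra.adjoin A ({Θ} : Set B)) : y * Θ = Θ * y := by
  induction hy using Algebra.adjoin_induction with
  | mem x hx => rw [Set.mem_singleton_iff.1 hx]
  | algebraMap r => exact Algebra.commutes r Θ
  | add x y _ _ hx hy => rw [add_mul, mul_add, hx, hy]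
  | mul x y _ _ hx hy => rw [mul_assoc, hy, ← mul_assoc, hx, mul_assoc]

/-- **E2** -/
theorem dV_ge (g : NPS ι D) (X : D₁) (N : ℕ) (h : LTerm (S.Ψ g []) (e.i (g [])) X N)
    (M : Submodule F₁ D₁)
    (hM : M ≤ Subalgebra.toSubmodule (Algebra.adjoin F₁ ({e.i (g []), X} : Set D₁)))
    (hnd : ∀ x ∈ M, (∀ δ : ι → D₁, (∀ j, δ j ∈ e.E) → ntr F₁ D₁ (x * e.linE g δ) = 0) →
      ntr F₁ D₁ (x * X) = 0 → x = 0) :
    finrank F₁ M ≤ finrank (Lau F₁) (Vs (Lau F₁) (S.Ψ g)) := by
  classical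
  set Θ : Lau D₁ := S.Ψ g [] with hΘ
  set L : Subalgebra (Lau F₁) (Lau D₁) := Algebra.adjoin (Lau F₁) ({Θ} : Set (Lau D₁)) with hL
  set W : Submodule (Lau F₁) (Lau D₁) := LinearMap.range (lin (Lau F₁) (S.Ψ g)) with hW
  -- the orthogonal complement of `W` in `L`
  let N' : Submodule (Lau F₁) (Lau D₁) :=
    { carrier := {a | a ∈ L ∧ ∀ w ∈ W, ntr (Lau F₁) (Lau D₁) (a * w) = 0}
      zero_mem' := ⟨L.zero_mem, fun w _ => by rw [zero_mul, map_zero]⟩
      add_mem' := by
        rintro a b ⟨ha, ha'⟩ ⟨hb, hb'⟩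
        exact ⟨L.add_mem ha hb, fun w hw => by rw [add_mul, map_add, ha' w hw, hb' w hw, add_zero]⟩
      smul_mem' := by
        rintro c a ⟨ha, ha'⟩
        exact ⟨L.smul_mem ha c, fun w hw => by rw [smul_mul_assoc, map_smul, ha' w hw, smul_zero]⟩ }
  have hN' : ∀ a, a ∈ N' ↔ a ∈ L ∧ ∀ w ∈ W, ntr (Lau F₁) (Lau D₁) (a * w) = 0 := fun a => Iff.rfl
  have h1 := finrank_pr_map L W N' hN'
  have hV : Vs (Lau F₁) (S.Ψ g) = W.map (pr (Lau F₁) L) := by
    rw [Vs, LinearMap.range_comp]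
  rw [hV]
  -- everything reduces into `redAlg L`
  have hML : M ≤ Subalgebra.toSubmodule (redAlg L) := fun x hx =>
    lift_adjoin Θ (e.i (g [])) X N h (hM hx)
  have hNL : red1 N' ≤ Subalgebra.toSubmodule (redAlg L) := by
    rintro y ⟨x, hx, hxi, hx0⟩
    exact ⟨x, hx.1, hxi, hx0⟩
  have hdisj : M ⊓ red1 N' = ⊥ := by
    rw [eq_bot_iff]
    rintro _ ⟨hxM, y, hy, hyi, rfl⟩
    obtain ⟨hyL, hyW⟩ := hy
    change y.coeff 0 = 0
    apply hnd _ hxM
    · intro δ hδ
      obtain ⟨δ', rfl⟩ := exists_dirE e δ hδ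
      let δ'' : ι × β → Lau F₁ := fun p => lc (δ' p)
      have hl := lin_lead S g δ'' (fun p => isInt_lc _)
      have h2 : (fun p => (δ'' p).coeff 0) = δ' := by
        funext p; exact lc_coeff_zero _
      rw [h2] at hl
      have h3 := hyW _ (LinearMap.mem_range_self (lin (Lau F₁) (S.Ψ g)) δ'')
      have h4 := (coeff_mul_lead y (lin (Lau F₁) (S.Ψ g) δ'') 0 1 hyi hl.1).2.1
      rw [zero_add, hl.2] at h4
      rw [← h4, ← ntr_lau, h3]
      simp
    · obtain ⟨c, k, hck⟩ := S.euler_chain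
      have h2 := hck g
      rw [← hΘ] at h2
      have h3 := hyW _ (LinearMap.mem_range_self (lin (Lau F₁) (S.Ψ g)) c)
      have h4 : ntr (Lau F₁) (Lau D₁) (y * eulerD Θ) = 0 := by
        rw [h2, mul_add, map_add, h3, zero_add, mul_sub, map_sub, ← mul_assoc, ← mul_assoc,
          ntr_comm (y * k) Θ, ← mul_assoc, ← commute_of_mem_adjoin Θ y hyL, sub_self]
      have h5 : ∀ n < (N : ℤ), (eulerD Θ).coeff n = 0 := by
        intro n hn
        rw [eulerD_coeff]
        rcases lt_trichotomy n 0 with h0 | h0 | h0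
        · rw [h.int n h0, smul_zero]
        · rw [h0, zero_smul]
        · rw [h.mid n h0 hn, smul_zero]
      have h6 := (coeff_mul_lead y (eulerD Θ) 0 N hyi h5).2.1
      rw [zero_add, eulerD_coeff, h.top] at h6
      have h7 : ntr F₁ D₁ (y.coeff 0 * ((N : ℤ) • X)) = 0 := by
        rw [← h6, ← ntr_lau, h4]
        simp
      rw [mul_smul_comm, map_zsmul] at h7
      have hN0 : (N : ℤ) ≠ 0 := by
        have := h.hN
        omega
      rw [zsmul_eq_mul] at h7
      rcases mul_eq_zero.1 h7 with h8 | h8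
      · exact absurd (Int.cast_eq_zero.1 h8) hN0
      · exact h8
  have h2 := Submodule.finrank_sup_add_finrank_inf_eq M (red1 N')
  rw [hdisj, finrank_bot, add_zero] at h2
  have h3 : finrank F₁ (M ⊔ red1 N' : Submodule F₁ D₁) ≤
      finrank F₁ (Subalgebra.toSubmodule (redAlg L)) := Submodule.finrank_mono (sup_le hML hNL)
  have h4 : finrank F₁ (Subalgebra.toSubmodule (redAlg L)) = finrank (Lau F₁) L :=
    finrank_redAlg L
  have h5 := finrank_red1 (F := F₁) N'
  omega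

end
end Crest.Agent.R180
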