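import Mathlib
import Crest.Agent.R180.E3

/-!
# Piece E4: if `V'' = 0` then `Θ` is algebraic
-/

set_option autoImplicit false
set_option linter.unusedSectionVars false

namespace Crest.Agent.R180
open Module

section
variable {F D F₁ D₁ β ι : Type} [Field F] [CharZero F] [Ring D] [IsDomain D] [Algebra F D]
    [FiniteDimensional F D] [Algebra.IsCentral F D]
    [Field F₁] [CharZero F₁] [Ring D₁] [IsDomain D₁] [Algebra F₁ D₁]
    [FiniteDimensional F₁ D₁] [Algebra.IsCentral F₁ D₁]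
    [Fintype ι] [Fintype β] [DecidableEq β] [DecidableEq ι]
    {e : CExt F D F₁ D₁ β} {T : EData e ι} (S : EStep T)

/-- elements of `F[θ]` commute with `θ` -/
theorem start_comm {F D : Type} [Field F] [Ring D] [Algebra F D] (θ y : D)
    (hy : y ∈ Algebra.adjoin F ({θ} : Set D)) : Commute y θ := by
  have h : Algebra.adjoin F ({θ} : Set D) ≤ Subalgebra.centralizer F ({θ} : Set D) := by
    apply Algebra.adjoin_le
    intro x hx
    rw [Set.mem_singleton_iff] at hx
    subst hx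
    rw [SetLike.mem_coe, Subalgebra.mem_centralizer_iff]
    intro g hg
    rw [Set.mem_singleton_iff] at hg
    subst hg
    rfl
  have := h hy
  rw [Subalgebra.mem_centralizer_iff] at this
  exact (this θ rfl).symm

/-- constancy of the traces of the powers of `Θ` -/
theorem start_pow {F₁ D₁ : Type} [Field F₁] [CharZero F₁] [Ring D₁] [IsDomain D₁] [Algebra F₁ D₁]
    [FiniteDimensional F₁ D₁] (Θ : Lau D₁)
    (hΘ : ∀ y ∈ Algebra.adjoin (Lau F₁) ({Θ} : Set (Lau D₁)),
      ntr (Lau F₁) (Lau D₁) (y * eulerD Θ) = 0) (hint : IsInt Θ) (n : ℕ) :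
    ntr (Lau F₁) (Lau D₁) (Θ ^ n) = lc (ntr F₁ D₁ (Θ.coeff 0 ^ n)) := by
  have hmem : Θ ∈ Algebra.adjoin (Lau F₁) ({Θ} : Set (Lau D₁)) :=
    Algebra.subset_adjoin rfl
  have h1 : ∀ n : ℕ, ∀ y ∈ Algebra.adjoin (Lau F₁) ({Θ} : Set (Lau D₁)),
      ntr (Lau F₁) (Lau D₁) (y * eulerD (Θ ^ n)) = 0 := by
    intro n
    induction n with
    | zero =>
      intro y hy
      have : eulerD (1 : Lau D₁) = 0 := by
        have := eulerD_lc (1 : D₁)
        rwa [map_one] at this
      rw [pow_zero, this, mul_zero, map_zero]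
    | succ n ih =>
      intro y hy
      rw [pow_succ, eulerD_mul, mul_add, map_add, ← mul_assoc, ← mul_assoc,
        ntr_comm (y * eulerD (Θ ^ n)) Θ, ← mul_assoc,
        ih _ ((Algebra.adjoin (Lau F₁) ({Θ} : Set (Lau D₁))).mul_mem hmem hy), zero_add]
      exact hΘ _ ((Algebra.adjoin (Lau F₁) ({Θ} : Set (Lau D₁))).mul_mem hy
        ((Algebra.adjoin (Lau F₁) ({Θ} : Set (Lau D₁))).pow_mem hmem n))
  have h2 : ntr (Lau F₁) (Lau D₁) (eulerD (Θ ^ n)) = 0 := by
    have := h1 n 1 (Subalgebra.one_mem _)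
    rwa [one_mul] at this
  have hpow : IsInt (Θ ^ n) ∧ (Θ ^ n).coeff 0 = Θ.coeff 0 ^ n := by
    clear h1 h2
    induction n with
    | zero =>
      rw [pow_zero, pow_zero]
      refine ⟨?_, by rw [HahnSeries.coeff_one, if_pos rfl]⟩
      intro k hk
      rw [HahnSeries.coeff_one, if_neg hk.ne]
    | succ n ih =>
      rw [pow_succ, pow_succ]
      obtain ⟨h3, h4⟩ := ih.1.mul hint
      exact ⟨h3, by rw [h4, ih.2]⟩
  ext k
  rw [ntr_lau]
  by_cases hk : k = 0
  · rw [hk, lc_coeff_zero, hpow.2]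
  · rw [lc_coeff_ne _ _ hk]
    have h3 : (ntr (Lau F₁) (Lau D₁) (eulerD (Θ ^ n))).coeff k = 0 := by
      rw [h2, HahnSeries.coeff_zero]
    rw [ntr_lau, eulerD_coeff, map_zsmul, zsmul_eq_mul] at h3
    rcases mul_eq_zero.1 h3 with h4 | h4
    · exact absurd (Int.cast_eq_zero.1 h4) hk
    · exact h4

/-- **E4** (for the start): if `V'' = 0` then `Θ` is a root of the minimal polynomial of `θ`.
Proof: `ntr (y * lin (Ψ g) c) = 0` for all `y ∈ L''` and all directions, so by `euler_chain`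
`ntr (y * eulerD Θ) = 0`; hence for `q ∈ F₁[T]` (constant coefficients)
`eulerD (ntr (q(Θ))) = ntr (q'(Θ) eulerD Θ) = 0`, so `ntr (q(Θ))` is constant, equal to
`ntr (q(θ))`.  With `q = p q₁`, `p = minpoly`, we get `ntr (p(Θ) q₁(Θ)) = 0` for all `q₁`, hence
`p(Θ) ⊥ L''`, `p(Θ) = 0`. -/
theorem start_aux (g : NPS ι D) (hV : Vs (Lau F₁) (S.Ψ g) = ⊥) :
    Polynomial.aeval (S.Ψ g [])
      ((minpoly F (g [])).map ((lc : F₁ →+* Lau F₁).comp e.φ)) = 0 := by
  classical
  set Θ := S.Ψ g [] with hΘdef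
  set L := Algebra.adjoin (Lau F₁) ({Θ} : Set (Lau D₁)) with hL
  have hmem : Θ ∈ L := Algebra.subset_adjoin rfl
  have hint : IsInt Θ := S.Ψ_int g []
  have h0 : Θ.coeff 0 = e.i (g []) := S.Ψ_nil_coeff0 g
  have hlin : ∀ y ∈ L, ∀ c, ntr (Lau F₁) (Lau D₁) (y * lin (Lau F₁) (S.Ψ g) c) = 0 := by
    intro y hy c
    rw [← pr_spec L _ y hy]
    have : pr (Lau F₁) L (lin (Lau F₁) (S.Ψ g) c) ∈ Vs (Lau F₁) (S.Ψ g) := ⟨c, rfl⟩
    rw [hV, Submodule.mem_bot] at this
    rw [this, mul_zero, map_zero]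
  have heul : ∀ y ∈ L, ntr (Lau F₁) (Lau D₁) (y * eulerD Θ) = 0 := by
    intro y hy
    obtain ⟨c, h, hc⟩ := S.euler_chain
    rw [hΘdef, hc g, mul_add, map_add, hlin y hy c, zero_add]
    exact ntr_mul_comm_zero _ y h (start_comm _ y hy)
  have hpow := start_pow Θ heul hint
  -- polynomials with constant coefficients
  have hpoly : ∀ q : Polynomial F₁, ntr (Lau F₁) (Lau D₁)
      (Polynomial.aeval Θ (q.map (lc : F₁ →+* Lau F₁))) =
      lc (ntr F₁ D₁ (Polynomial.aeval (Θ.coeff 0) q)) := by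
    intro q
    induction q using Polynomial.induction_on' with
    | add p q hp hq =>
      rw [Polynomial.map_add, map_add, map_add, hp, hq, map_add, map_add, map_add]
    | monomial n a =>
      rw [Polynomial.map_monomial, Polynomial.aeval_monomial, Polynomial.aeval_monomial,
        ← Algebra.smul_def, ← Algebra.smul_def, map_smul, map_smul, hpow, smul_eq_mul, smul_eq_mul,
        map_mul]
  set p : Polynomial F₁ := (minpoly F (g [])).map e.φ with hp
  have hp0 : Polynomial.aeval (Θ.coeff 0) p = 0 := by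
    rw [h0, hp, Polynomial.aeval_def, Polynomial.eval₂_map]
    have h1 : (algebraMap F₁ D₁).comp e.φ = e.i.comp (algebraMap F D) := by
      ext a
      simp [e.i_alg]
    rw [h1, ← Polynomial.hom_eval₂, ← Polynomial.aeval_def, minpoly.aeval, map_zero]
  rw [← Polynomial.map_map]
  change Polynomial.aeval Θ (p.map (lc : F₁ →+* Lau F₁)) = 0
  apply ntr_nondeg L
  · rw [hL, Algebra.adjoin_singleton_eq_range_aeval]
    exact ⟨_, rfl⟩
  · intro y hy
    rw [hL, Algebra.adjoin_singleton_eq_range_aeval] at hy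
    obtain ⟨Q, rfl⟩ := hy
    change ntr (Lau F₁) (Lau D₁) (Polynomial.aeval Θ Q * Polynomial.aeval Θ (p.map (lc : F₁ →+* Lau F₁))) = 0
    induction Q using Polynomial.induction_on' with
    | add a b ha hb =>
      rw [map_add, add_mul, map_add, ha, hb, add_zero]
    | monomial n a =>
      rw [Polynomial.aeval_monomial, ← Algebra.smul_def, smul_mul_assoc, map_smul]
      have h1 : Θ ^ n * Polynomial.aeval Θ (p.map (lc : F₁ →+* Lau F₁))
          = Polynomial.aeval Θ ((Polynomial.X ^ n * p).map (lc : F₁ →+* Lau F₁)) := by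
        rw [Polynomial.map_mul, map_mul, Polynomial.map_pow, Polynomial.map_X, map_pow,
          Polynomial.aeval_X]
      rw [h1, hpoly, map_mul, hp0, mul_zero, map_zero, map_zero, smul_zero]

end
end Crest.Agent.R180
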