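import Mathlib
import Crest.Agent.R180.EStepCoeff
import Crest.Agent.R180.CExtNtr

/-!
# Piece E5/E6: E-steps preserve good states

Let `p_j = coeff 1 (Q_j) ∈ E₁`, `W₀ = evQ`-values: up to conjugation by `U`,
`Ψ X [] = X₀ + ε ∂_p X + O(ε²)`, `∂_p X = linE X p`, `Ψ X [(j,k)] = ε X_j b_k + O(ε²)`.

**E6** Suppose `Σ δ_{jk} Ψ X [(j,k)] = [h, Ψ X []]` with `δ` integral, the same for `Y`.
Conjugate by `U` (replace `h` by `h̃ = U h U⁻¹`): `[h̃, evQ X] = ε ∂_δ̄ X + O(ε²)`.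
Subtract from `h̃` a central element so that its lowest coefficient `h_{i₀}` is not in `F₁`
(if `h̃` is central then the left side is `0` and `∂_δ̄ X = 0`: done with `h₀ = h' = 0`).
If `i₀ < 0`: order `i₀`: `[h_{i₀}, X₀] = 0 = [h_{i₀}, Y₀]`, so `h_{i₀} ∈ E₁` (`cent_XY`); order `i₀+1 ≤ 0`:
`[h_{i₀+1}, X₀] + Σ X_j [h_{i₀}, p_j] = 0`, so by the genericity condition `hgen` `h_{i₀} ∈ F₁`, contradiction.
So `i₀ ≥ 0`; order 0: `h₀ ∈ E₁`; order 1: the claim.

**E5** `Good1`: same argument with `δ = 0`: an `h` commuting with `Ψ X [], Ψ Y []` has lowest noncentral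
coefficient `h_{i₀}`; orders `i₀`, `i₀+1` give `h_{i₀} ∈ F₁`, contradiction.
`GoodPair`: if `a, b` is a good pair of `(X,Y)` then `a''_{(j,k)} = a_j` if `k = k0` and `0` otherwise, similarly `b''`,
is a good pair of `(Ψ X, Ψ Y)`: given `α a'' + β b''` inner, scale so that `α, β` are integral and not both have zero
residue (if not both are zero); E6 gives `∂_{ᾱ a + β̄ b} X = [h', X₀] + Σ X_j [h₀, p_j]`; apply the partial trace
`ext (fun' ntr) : D₁ → E₁`... more precisely the map `id_D ⊗ ntr_{E₁}` : equivalently, pair with functionals: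
for the functional `f` on `D²` vanishing on `{([h,X₀],[h,Y₀])}` and dual to `a`, `b`, apply `ext f` and then `ntr F₁ D₁`:
the terms `ntr (ext f (X_j) [h₀, p_j])` vanish because `ext f (X_j) ∈ F₁` and the trace of a commutator is `0`.
-/

set_option autoImplicit false
set_option linter.unusedSectionVars false

namespace Crest.Agent.R180
open Module

variable {F D F₁ D₁ β ι : Type} [Field F] [CharZero F] [Ring D] [IsDomain D] [Algebra F D]
    [FiniteDimensional F D] [Algebra.IsCentral F D]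
    [Field F₁] [CharZero F₁] [Ring D₁] [IsDomain D₁] [Algebra F₁ D₁]
    [FiniteDimensional F₁ D₁] [Algebra.IsCentral F₁ D₁]
    [Fintype ι] [Fintype β] [DecidableEq β] [DecidableEq ι]
    {e : CExt F D F₁ D₁ β} {T : EData e ι} (S : EStep T)

/-- the genericity condition on the first order part of the point `Q` -/
def GenQ (T : EData e ι) (X Y : NPS ι D) : Prop :=
  ∀ h ∈ e.E, ∀ h' : D₁,
    e.linE X (fun j => h * PowerSeries.coeff 1 (T.Q j) - PowerSeries.coeff 1 (T.Q j) * h) =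
      h' * e.i (X []) - e.i (X []) * h' →
    e.linE Y (fun j => h * PowerSeries.coeff 1 (T.Q j) - PowerSeries.coeff 1 (T.Q j) * h) =
      h' * e.i (Y []) - e.i (Y []) * h' →
    ∃ c : F₁, h = algebraMap F₁ D₁ c

/-- truncation of a Laurent series below `m` -/
noncomputable def lauTrunc {R : Type} [Ring R] (m : ℤ) (x : Lau R) : Lau R where
  coeff n := if n < m then 0 else x.coeff n
  isPWO_support' := x.isPWO_support.mono (by
    intro n hn
    simp only [Function.mem_support] at hn ⊢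
    intro h; exact hn (by rw [h, ite_self]))

theorem lauTrunc_coeff {R : Type} [Ring R] (m : ℤ) (x : Lau R) (n : ℤ) :
    (lauTrunc m x).coeff n = if n < m then 0 else x.coeff n := rfl

/-- cutting off central coefficients does not change commutators -/
theorem lauTrunc_comm {F₁ D₁ : Type} [Field F₁] [Ring D₁] [Algebra F₁ D₁] (m : ℤ) (x : Lau D₁)
    (hx : ∀ n < m, ∃ a : F₁, x.coeff n = algebraMap F₁ D₁ a) (y : Lau D₁) :
    lauTrunc m x * y - y * lauTrunc m x = x * y - y * x := by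
  obtain ⟨c, hc⟩ := (lau_mem_range (F := F₁) (x - lauTrunc m x)).2 (fun n => by
    rw [HahnSeries.coeff_sub, lauTrunc_coeff]
    split_ifs with h
    · rw [sub_zero]; exact hx n h
    · exact ⟨0, by rw [sub_self, map_zero]⟩)
  have h1 : x = algebraMap (Lau F₁) (Lau D₁) c + lauTrunc m x := by rw [← hc]; abel
  have h2 : algebraMap (Lau F₁) (Lau D₁) c * y = y * algebraMap (Lau F₁) (Lau D₁) c :=
    Algebra.commutes c y
  rw [h1, add_mul, mul_add, h2]
  have h3 : lauTrunc m x = lauTrunc m (algebraMap (Lau F₁) (Lau D₁) c + lauTrunc m x) := by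
    rw [← h1]
  rw [← h3]
  abel

/-- the equation `lin (Ψ X) δ = [h, Ψ X []]`, conjugated by `U` -/
theorem conj_eq (X : NPS ι D) (δ : ι × β → Lau F₁) (h V : Lau D₁)
    (hUV : ofPS T.U * V = 1) (hVU : V * ofPS T.U = 1)
    (hX : lin (Lau F₁) (S.Ψ X) δ = h * S.Ψ X [] - S.Ψ X [] * h) :
    (ofPS T.U * h * V) * ofPS (S.ev X []) - ofPS (S.ev X []) * (ofPS T.U * h * V) =
      ∑ p, δ p • ofPS (S.ev X [p]) := by
  have h1 : ∀ m, ofPS (S.ev X m) = ofPS T.U * S.Ψ X m * V := by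
    intro m
    rw [S.Ψ_spec, map_mul, mul_assoc, hUV, mul_one]
  have h2 : ∑ p, δ p • ofPS (S.ev X [p]) = ofPS T.U * lin (Lau F₁) (S.Ψ X) δ * V := by
    change _ = ofPS T.U * (∑ j, δ j • S.Ψ X [j]) * V
    rw [Finset.mul_sum, Finset.sum_mul]
    refine Finset.sum_congr rfl fun p _ => ?_
    rw [h1, mul_smul_comm, smul_mul_assoc]
  rw [h2, hX, h1, mul_sub, sub_mul]
  have h3 : ∀ a b : Lau D₁, ofPS T.U * (a * b) * V = (ofPS T.U * a * V) * (ofPS T.U * b * V) := by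
    intro a b
    have : (ofPS T.U * a * V) * (ofPS T.U * b * V) = ofPS T.U * a * (V * ofPS T.U) * b * V := by
      simp only [mul_assoc]
    rw [this, hVU, mul_one]; simp only [mul_assoc]
  rw [h3, h3]

theorem evsum_coeff (X : NPS ι D) (δ : ι × β → Lau F₁) (hδ : ∀ p, IsInt (δ p)) :
    (∀ n < 1, (∑ p, δ p • ofPS (S.ev X [p])).coeff n = 0) ∧
    (∑ p, δ p • ofPS (S.ev X [p])).coeff 1 =
      e.linE X (fun j => ∑ k, (δ (j, k)).coeff 0 • e.b k) := by
  have h0 : ∀ p : ι × β, ∀ n < 1, (ofPS (S.ev X [p])).coeff n = 0 := by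
    intro p n hn
    rcases lt_or_ge n 0 with h | h
    · exact isInt_ofPS _ n h
    · have : n = ((0 : ℕ) : ℤ) := by simp; omega
      rw [this, ofPS_coeff_nat, S.ev_one_coeff0]
  have h1 : ∀ p : ι × β, (∀ n < 1, (δ p • ofPS (S.ev X [p])).coeff n = 0) ∧
      (δ p • ofPS (S.ev X [p])).coeff 1 = (δ p).coeff 0 • (e.i (X [p.1]) * e.b p.2) := by
    intro p
    have ha : ∀ n < 0, (algebraMap (Lau F₁) (Lau D₁) (δ p)).coeff n = 0 := by
      intro n hn; rw [lau_algebraMap_coeff, hδ p n hn, map_zero]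
    obtain ⟨g1, g2, -⟩ := coeff_mul_lead (algebraMap (Lau F₁) (Lau D₁) (δ p))
      (ofPS (S.ev X [p])) 0 1 ha (h0 p)
    rw [zero_add] at g1 g2
    refine ⟨fun n hn => by rw [lau_smul_def]; exact g1 n hn, ?_⟩
    rw [lau_smul_def, g2, lau_algebraMap_coeff, Algebra.smul_def]
    congr 1
    have : (1 : ℤ) = ((1 : ℕ) : ℤ) := rfl
    rw [this, ofPS_coeff_nat, S.ev_one_coeff1]
  refine ⟨fun n hn => ?_, ?_⟩
  · rw [lau_coeff_sum]
    exact Finset.sum_eq_zero fun p _ => (h1 p).1 n hn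
  · rw [lau_coeff_sum]
    simp only [CExt.linE]
    rw [Fintype.sum_prod_type]
    refine Finset.sum_congr rfl fun j _ => ?_
    rw [Finset.mul_sum]
    refine Finset.sum_congr rfl fun k _ => ?_
    rw [(h1 (j, k)).2, mul_smul_comm]

/-- leading coefficients of a commutator -/
theorem comm_lead {R : Type} [Ring R] (k x : Lau R) (p : ℤ) (hk : ∀ n < p, k.coeff n = 0)
    (hx : ∀ n < 0, x.coeff n = 0) :
    (k * x - x * k).coeff p = k.coeff p * x.coeff 0 - x.coeff 0 * k.coeff p ∧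
    (k * x - x * k).coeff (p + 1) = (k.coeff p * x.coeff 1 - x.coeff 1 * k.coeff p) +
      (k.coeff (p + 1) * x.coeff 0 - x.coeff 0 * k.coeff (p + 1)) := by
  obtain ⟨-, g1, g2⟩ := coeff_mul_lead k x p 0 hk hx
  obtain ⟨-, f1, f2⟩ := coeff_mul_lead x k 0 p hx hk
  rw [add_zero, zero_add] at *
  rw [HahnSeries.coeff_sub, HahnSeries.coeff_sub, g1, g2, f1, f2]
  refine ⟨rfl, ?_⟩
  rw [zero_add]
  abel

theorem linE_bracket (X : NPS ι D) (q : ι → D₁) (h : D₁) (hh : h ∈ e.E) :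
    h * (∑ j, e.i (X [j]) * q j) - (∑ j, e.i (X [j]) * q j) * h =
      e.linE X (fun j => h * q j - q j * h) := by
  simp only [CExt.linE]
  rw [Finset.mul_sum, Finset.sum_mul, ← Finset.sum_sub_distrib]
  refine Finset.sum_congr rfl fun j _ => ?_
  rw [← mul_assoc, ← e.comm_E hh, mul_sub, mul_assoc, mul_assoc]

/-- **E6** -/
theorem inner_lead (X Y : NPS ι D) (hG : Good1 F X Y) (hgen : GenQ T X Y)
    (δ : ι × β → Lau F₁) (hδ : ∀ p, IsInt (δ p)) (h : Lau D₁)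
    (hX : lin (Lau F₁) (S.Ψ X) δ = h * S.Ψ X [] - S.Ψ X [] * h)
    (hY : lin (Lau F₁) (S.Ψ Y) δ = h * S.Ψ Y [] - S.Ψ Y [] * h) :
    ∃ h₀ ∈ e.E, ∃ h' : D₁,
      e.linE X (fun j => ∑ k, (δ (j, k)).coeff 0 • e.b k) =
        (h' * e.i (X []) - e.i (X []) * h') +
        e.linE X (fun j => h₀ * PowerSeries.coeff 1 (T.Q j) - PowerSeries.coeff 1 (T.Q j) * h₀) ∧
      e.linE Y (fun j => ∑ k, (δ (j, k)).coeff 0 • e.b k) =
        (h' * e.i (Y []) - e.i (Y []) * h') +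
        e.linE Y (fun j => h₀ * PowerSeries.coeff 1 (T.Q j) - PowerSeries.coeff 1 (T.Q j) * h₀) := by
  classical
  -- the inverse of `U`
  have hU0 : (ofPS T.U : Lau D₁) ≠ 0 := by
    intro h0
    have h1 : (ofPS T.U : Lau D₁).coeff ((0 : ℕ) : ℤ) = 1 := by rw [ofPS_coeff_nat, T.U0]
    rw [h0, HahnSeries.coeff_zero] at h1
    exact zero_ne_one h1
  obtain ⟨V, -, hUV, hVU⟩ := exists_inverse_mem (⊤ : Subalgebra (Lau F₁) (Lau D₁))
    (ofPS T.U : Lau D₁) Algebra.mem_top hU0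
  have eX := conj_eq S X δ h V hUV hVU hX
  have eY := conj_eq S Y δ h V hUV hVU hY
  set k := ofPS T.U * h * V with hk
  obtain ⟨lX0, lX1⟩ := evsum_coeff S X δ hδ
  obtain ⟨lY0, lY1⟩ := evsum_coeff S Y δ hδ
  have cX0 : (ofPS (S.ev X [])).coeff 0 = e.i (X []) := by
    have : (0 : ℤ) = ((0 : ℕ) : ℤ) := rfl
    rw [this, ofPS_coeff_nat, S.ev_nil_coeff0]
  have cY0 : (ofPS (S.ev Y [])).coeff 0 = e.i (Y []) := by
    have : (0 : ℤ) = ((0 : ℕ) : ℤ) := rfl
    rw [this, ofPS_coeff_nat, S.ev_nil_coeff0]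
  have cX1 : (ofPS (S.ev X [])).coeff 1 = ∑ j, e.i (X [j]) * PowerSeries.coeff 1 (T.Q j) := by
    have : (1 : ℤ) = ((1 : ℕ) : ℤ) := rfl
    rw [this, ofPS_coeff_nat, S.ev_nil_coeff1]
  have cY1 : (ofPS (S.ev Y [])).coeff 1 = ∑ j, e.i (Y [j]) * PowerSeries.coeff 1 (T.Q j) := by
    have : (1 : ℤ) = ((1 : ℕ) : ℤ) := rfl
    rw [this, ofPS_coeff_nat, S.ev_nil_coeff1]
  -- all coefficients of negative order are central
  have hcent : ∀ n < 0, ∃ a : F₁, k.coeff n = algebraMap F₁ D₁ a := by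
    by_contra hcon
    push Not at hcon
    obtain ⟨n₀, hn₀, hbad⟩ := hcon
    -- the least bad index
    obtain ⟨i₀, ⟨hi₀, hbad'⟩, hmin⟩ : ∃ i : ℤ, (i < 0 ∧ ∀ a : F₁, k.coeff i ≠ algebraMap F₁ D₁ a) ∧
        ∀ j < i, ¬ (j < 0 ∧ ∀ a : F₁, k.coeff j ≠ algebraMap F₁ D₁ a) := by
      obtain ⟨p, hp⟩ := lau_exists_lb k
      obtain ⟨i, hi, hi'⟩ := Int.exists_least_of_bdd
        (P := fun i : ℤ => i < 0 ∧ ∀ a : F₁, k.coeff i ≠ algebraMap F₁ D₁ a)
        ⟨p, fun z hz => by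
          by_contra hlt
          push Not at hlt
          exact hz.2 0 (by rw [hp z hlt, map_zero])⟩ ⟨n₀, hn₀, hbad⟩
      refine ⟨i, hi, fun j hj hj' => ?_⟩
      exact absurd (hi' j hj') (not_le.2 hj)
    have hcen : ∀ n < i₀, ∃ a : F₁, k.coeff n = algebraMap F₁ D₁ a := by
      intro n hn
      by_contra hcon
      push Not at hcon
      exact hmin n hn ⟨by omega, hcon⟩
    set k' := lauTrunc i₀ k with hk'
    have hk0 : ∀ n < i₀, k'.coeff n = 0 := fun n hn => by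
      rw [hk', lauTrunc_coeff, if_pos hn]
    have hk1 : k'.coeff i₀ = k.coeff i₀ := by
      rw [hk', lauTrunc_coeff, if_neg (lt_irrefl _)]
    rw [← lauTrunc_comm i₀ k hcen] at eX eY
    obtain ⟨gX0, gX1⟩ := comm_lead k' (ofPS (S.ev X [])) i₀ hk0 (isInt_ofPS _)
    obtain ⟨gY0, gY1⟩ := comm_lead k' (ofPS (S.ev Y [])) i₀ hk0 (isInt_ofPS _)
    rw [eX, lX0 i₀ (by omega), cX0] at gX0
    rw [eY, lY0 i₀ (by omega), cY0] at gY0
    rw [eX, lX0 (i₀ + 1) (by omega), cX0, cX1] at gX1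
    rw [eY, lY0 (i₀ + 1) (by omega), cY0, cY1] at gY1
    have hE : k'.coeff i₀ ∈ e.E := e.cent_XY X Y hG _ (sub_eq_zero.1 gX0.symm)
      (sub_eq_zero.1 gY0.symm)
    rw [linE_bracket X _ _ hE] at gX1
    rw [linE_bracket Y _ _ hE] at gY1
    obtain ⟨c, hc⟩ := hgen _ hE (- k'.coeff (i₀ + 1)) (by
      rw [eq_comm, add_eq_zero_iff_eq_neg] at gX1
      rw [gX1]; noncomm_ring) (by
      rw [eq_comm, add_eq_zero_iff_eq_neg] at gY1
      rw [gY1]; noncomm_ring)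
    exact hbad' c (by rw [← hk1, hc])
  set k' := lauTrunc 0 k with hk'
  have hk0 : ∀ n < 0, k'.coeff n = 0 := fun n hn => by
    rw [hk', lauTrunc_coeff, if_pos hn]
  rw [← lauTrunc_comm 0 k hcent] at eX eY
  obtain ⟨gX0, gX1⟩ := comm_lead k' (ofPS (S.ev X [])) 0 hk0 (isInt_ofPS _)
  obtain ⟨gY0, gY1⟩ := comm_lead k' (ofPS (S.ev Y [])) 0 hk0 (isInt_ofPS _)
  rw [eX, lX0 0 (by omega), cX0] at gX0
  rw [eY, lY0 0 (by omega), cY0] at gY0
  rw [zero_add, eX, lX1, cX0, cX1] at gX1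
  rw [zero_add, eY, lY1, cY0, cY1] at gY1
  have hE : k'.coeff 0 ∈ e.E := e.cent_XY X Y hG _ (sub_eq_zero.1 gX0.symm)
    (sub_eq_zero.1 gY0.symm)
  rw [linE_bracket X _ _ hE] at gX1
  rw [linE_bracket Y _ _ hE] at gY1
  exact ⟨k'.coeff 0, hE, k'.coeff 1, by rw [gX1]; abel, by rw [gY1]; abel⟩

end Crest.Agent.R180
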