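import Mathlib
import Crest.Agent.R180.EGood

/-!
# Piece E5: E-steps preserve good states

`Good1`: an `h` commuting with `Ψ X [], Ψ Y []`: conjugate by `U`, subtract a central element so that the lowest
coefficient `h_{i₀}` is not in `F₁`; orders `i₀`, `i₀+1` give `h_{i₀} ∈ E₁` (`cent_XY`) and then `h_{i₀} ∈ F₁` (`hgen`),
contradiction (this is also `inner_lead`'s argument; you may apply `inner_lead` with `δ = 0` to `ε^k h`).
`GoodPair`: if `a, b` is a good pair of `(X,Y)` then `a''_{(j,k)} = a_j` if `k = k0` and `0` otherwise, similarly `b''`,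
is a good pair of `(Ψ X, Ψ Y)`: given `α a'' + β b''` inner, scale so that `α, β` are integral and not both have zero
residue (if not both are zero); E6 gives `∂_{ᾱ a + β̄ b} X = [h', X₀] + Σ X_j [h₀, p_j]`, same for `Y`;
for a functional `f = (f₁,f₂)` on `D²` vanishing on `{([h,X₀],[h,Y₀])}` and dual to `a`, `b`, apply `ext f₁` to the first
equation, `ext f₂` to the second, add and apply `ntr F₁ D₁`:
the terms `ntr (ext f (X_j) [h₀, p_j])` vanish because `ext f (X_j) ∈ F₁` and the trace of a commutator is `0`;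
so `ᾱ = 0`, `β̄ = 0`, contradiction.
`alg_der`: `{g | equation holds}` contains scalars, `X`, `Y` and is closed under `+`, `*`, `-`.
-/

set_option autoImplicit false
set_option linter.unusedSectionVars false

namespace Crest.Agent.R180
open Module

variable {F D F₁ D₁ β ι : Type} [Field F] [CharZero F] [Ring D] [IsDomain D] [Algebra F D]
    [FiniteDimensional F D] [Algebra.IsCentral F D]
    [Field F₁] [CharZero F₁] [Ring D₁] [IsDomain D₁] [Algebra F₁ D₁]
    [FiniteDimensional F₁ D₁] [Algebra.IsCentral F₁ D₁]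
    [Fintype ι] [Fintype β] [DecidableEq β] [DecidableEq ι]
    {e : CExt F D F₁ D₁ β} {T : EData e ι} (S : EStep T)

/-! ## auxiliary: functionals dual to a good pair -/

/-- functionals on `D²` vanishing on inner directions and dual to a good pair -/
theorem exists_dual_pair (X Y : NPS ι D) (a b : ι → F) (hab : GoodPair F X Y a b) (s t : F) :
    ∃ μ ν : D →ₗ[F] F,
      (∀ k, μ (k * X [] - X [] * k) + ν (k * Y [] - Y [] * k) = 0) ∧
      μ (lin F X a) + ν (lin F Y a) = s ∧ μ (lin F X b) + ν (lin F Y b) = t := by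
  let Φ : D →ₗ[F] D × D := LinearMap.prod (LinearMap.mulRight F (X []) - LinearMap.mulLeft F (X []))
    (LinearMap.mulRight F (Y []) - LinearMap.mulLeft F (Y []))
  let v : (ι → F) →ₗ[F] D × D := LinearMap.prod (lin F X) (lin F Y)
  let c2 : F × F →ₗ[F] (ι → F) :=
    LinearMap.coprod (LinearMap.toSpanSingleton F _ a) (LinearMap.toSpanSingleton F _ b)
  let Ψ : F × F →ₗ[F] (D × D) ⧸ (LinearMap.range Φ) :=
    (LinearMap.range Φ).mkQ ∘ₗ v ∘ₗ c2
  have hΨ : LinearMap.ker Ψ = ⊥ := by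
    rw [LinearMap.ker_eq_bot']
    rintro ⟨α, β'⟩ h0
    have h1 : v (c2 (α, β')) ∈ LinearMap.range Φ := by
      rw [← Submodule.Quotient.mk_eq_zero]; exact h0
    obtain ⟨k, hk⟩ := h1
    have hc : c2 (α, β') = α • a + β' • b := by
      simp [c2]
    rw [hc] at hk
    have hk1 := congrArg Prod.fst hk
    have hk2 := congrArg Prod.snd hk
    replace hk1 : k * X [] - X [] * k = lin F X (α • a + β' • b) := hk1
    replace hk2 : k * Y [] - Y [] * k = lin F Y (α • a + β' • b) := hk2
    obtain ⟨h2, h3⟩ := hab α β' k hk1.symm hk2.symm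
    simp [h2, h3]
  obtain ⟨L, hL⟩ := LinearMap.exists_leftInverse_of_injective Ψ hΨ
  let st : F × F →ₗ[F] F := LinearMap.coprod (LinearMap.toSpanSingleton F _ s)
    (LinearMap.toSpanSingleton F _ t)
  let ψ : D × D →ₗ[F] F := st ∘ₗ L ∘ₗ (LinearMap.range Φ).mkQ
  have hψ0 : ∀ k, ψ (Φ k) = 0 := by
    intro k
    have : (LinearMap.range Φ).mkQ (Φ k) = 0 := by
      rw [Submodule.mkQ_apply, Submodule.Quotient.mk_eq_zero]; exact ⟨k, rfl⟩
    simp only [ψ, LinearMap.comp_apply, this, map_zero]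
  have hψ1 : ∀ p, ψ (v (c2 p)) = st p := fun p => by
    have := LinearMap.congr_fun hL p
    have h2 : L (Ψ p) = p := this
    show st (L (Ψ p)) = st p
    rw [h2]
  have hψa : ψ (v a) = s := by
    have := hψ1 (1, 0)
    simpa [c2, st] using this
  have hψb : ψ (v b) = t := by
    have := hψ1 (0, 1)
    simpa [c2, st] using this
  have hsplit : ∀ p : D × D, (ψ ∘ₗ LinearMap.inl F D D) p.1 +
      (ψ ∘ₗ LinearMap.inr F D D) p.2 = ψ p := by
    intro p
    simp only [LinearMap.comp_apply, LinearMap.inl_apply, LinearMap.inr_apply]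
    rw [← map_add]; simp
  exact ⟨ψ ∘ₗ LinearMap.inl F D D, ψ ∘ₗ LinearMap.inr F D D,
    fun k => (hsplit (Φ k)).trans (hψ0 k), (hsplit (v a)).trans hψa, (hsplit (v b)).trans hψb⟩

/-- the extended functionals vanish on inner directions of `D₁` -/
theorem ext_fun_inner (e : CExt F D F₁ D₁ β) (X₀ Y₀ : D) (μ ν : D →ₗ[F] F)
    (h : ∀ k, μ (k * X₀ - X₀ * k) + ν (k * Y₀ - Y₀ * k) = 0) (k : D₁) :
    e.ext (CExt.fun' F μ) (k * e.i X₀ - e.i X₀ * k) +
      e.ext (CExt.fun' F ν) (k * e.i Y₀ - e.i Y₀ * k) = 0 := by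
  refine e.de_induction (P := fun k => e.ext (CExt.fun' F μ) (k * e.i X₀ - e.i X₀ * k) +
    e.ext (CExt.fun' F ν) (k * e.i Y₀ - e.i Y₀ * k) = 0) ?_ ?_ ?_ k
  · simp
  · intro x y hx hy
    have e1 : ∀ t : D₁, (x + y) * t - t * (x + y) = (x * t - t * x) + (y * t - t * y) := by
      intro t; noncomm_ring
    rw [e1, e1, map_add, map_add]
    calc _ = (e.ext (CExt.fun' F μ) (x * e.i X₀ - e.i X₀ * x) +
          e.ext (CExt.fun' F ν) (x * e.i Y₀ - e.i Y₀ * x)) +
          (e.ext (CExt.fun' F μ) (y * e.i X₀ - e.i X₀ * y) +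
          e.ext (CExt.fun' F ν) (y * e.i Y₀ - e.i Y₀ * y)) := by abel
      _ = 0 := by rw [hx, hy, add_zero]
  · intro d y hy
    have e1 : ∀ t : D, e.i d * y * e.i t - e.i t * (e.i d * y) = e.i (d * t - t * d) * y := by
      intro t
      rw [mul_assoc, ← e.comm_E hy t, map_sub, map_mul, map_mul, sub_mul, mul_assoc, mul_assoc]
    rw [e1, e1, e.ext_fun_apply _ _ _ hy, e.ext_fun_apply _ _ _ hy, ← add_mul, ← map_add,
      ← map_add]
    rw [h d]; simp

/-! ## auxiliary: coefficients of `Ψ f []` -/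

/-- first order coefficient of `Ψ f []` -/
theorem Ψ_nil_coeff1 (f : NPS ι D) :
    (S.Ψ f []).coeff 1 = e.linE f (fun j => PowerSeries.coeff 1 (T.Q j)) +
      (e.i (f []) * PowerSeries.coeff 1 T.U - PowerSeries.coeff 1 T.U * e.i (f [])) := by
  have h := S.Ψ_spec f []
  have hint := S.Ψ_int f []
  have hU : IsInt (ofPS T.U) := isInt_ofPS _
  have h1 := (coeff_mul_lead (ofPS T.U) (S.Ψ f []) 0 0 hU hint).2.2
  rw [h] at h1
  have h2 : ∀ (y : PowerSeries D₁) (n : ℕ), (ofPS y).coeff (n : ℤ) = PowerSeries.coeff n y :=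
    fun y n => HahnSeries.ofPowerSeries_apply_coeff y n
  have h20 : ∀ (y : PowerSeries D₁), (ofPS y).coeff 0 = PowerSeries.coeff 0 y :=
    fun y => h2 y 0
  have h21 : ∀ (y : PowerSeries D₁), (ofPS y).coeff 1 = PowerSeries.coeff 1 y :=
    fun y => h2 y 1
  simp only [zero_add] at h1
  rw [h21, h21, h20, T.U0, one_mul, S.Ψ_nil_coeff0] at h1
  have h3 : PowerSeries.coeff 1 (S.ev f [] * T.U) =
      PowerSeries.coeff 0 (S.ev f []) * PowerSeries.coeff 1 T.U +
      PowerSeries.coeff 1 (S.ev f []) * PowerSeries.coeff 0 T.U := by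
    rw [PowerSeries.coeff_mul, Finset.Nat.antidiagonal_succ]
    simp
  rw [h3, S.ev_nil_coeff0, S.ev_nil_coeff1, T.U0, mul_one] at h1
  rw [CExt.linE]
  have h4 : (S.Ψ f []).coeff 1 = (e.i (f []) * PowerSeries.coeff 1 T.U +
      ∑ j, e.i (f [j]) * PowerSeries.coeff 1 (T.Q j)) - PowerSeries.coeff 1 T.U * e.i (f []) := by
    rw [h1]; abel
  rw [h4]; abel

/-- the lowest coefficient of an element commuting with `Ψ X []`, `Ψ Y []` is central -/
theorem lead_central (X Y : NPS ι D) (hG : Good1 F X Y) (hgen : GenQ T X Y) (h : Lau D₁) (n : ℤ)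
    (hn : ∀ k < n, h.coeff k = 0) (hX : h * S.Ψ X [] = S.Ψ X [] * h)
    (hY : h * S.Ψ Y [] = S.Ψ Y [] * h) : ∃ c : F₁, h.coeff n = algebraMap F₁ D₁ c := by
  have key : ∀ f : NPS ι D, h * S.Ψ f [] = S.Ψ f [] * h →
      h.coeff n * e.i (f []) = e.i (f []) * h.coeff n ∧
      h.coeff n * (S.Ψ f []).coeff 1 + h.coeff (n + 1) * e.i (f []) =
        (S.Ψ f []).coeff 1 * h.coeff n + e.i (f []) * h.coeff (n + 1) := by
    intro f hf
    have hint := S.Ψ_int f []
    have h1 := coeff_mul_lead h (S.Ψ f []) n 0 hn hint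
    have h2 := coeff_mul_lead (S.Ψ f []) h 0 n hint hn
    rw [hf] at h1
    obtain ⟨-, h12, h13⟩ := h1
    obtain ⟨-, h22, h23⟩ := h2
    rw [add_zero] at h12 h13
    rw [zero_add] at h22 h23
    rw [h22, S.Ψ_nil_coeff0] at h12
    rw [h23, S.Ψ_nil_coeff0, zero_add] at h13
    refine ⟨h12.symm, ?_⟩
    rw [← h13]; abel
  obtain ⟨hX1, hX2⟩ := key X hX
  obtain ⟨hY1, hY2⟩ := key Y hY
  have hE : h.coeff n ∈ e.E := e.cent_XY X Y hG _ hX1 hY1
  have comp : ∀ f : NPS ι D, h.coeff n * e.i (f []) = e.i (f []) * h.coeff n →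
      h.coeff n * (S.Ψ f []).coeff 1 + h.coeff (n + 1) * e.i (f []) =
        (S.Ψ f []).coeff 1 * h.coeff n + e.i (f []) * h.coeff (n + 1) →
      e.linE f (fun j => h.coeff n * PowerSeries.coeff 1 (T.Q j) -
        PowerSeries.coeff 1 (T.Q j) * h.coeff n) =
        ((h.coeff n * PowerSeries.coeff 1 T.U - PowerSeries.coeff 1 T.U * h.coeff n) -
          h.coeff (n + 1)) * e.i (f []) -
        e.i (f []) * ((h.coeff n * PowerSeries.coeff 1 T.U - PowerSeries.coeff 1 T.U * h.coeff n) -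
          h.coeff (n + 1)) := by
    intro f hf1 hf2
    rw [Ψ_nil_coeff1] at hf2
    have hl : e.linE f (fun j => h.coeff n * PowerSeries.coeff 1 (T.Q j) -
        PowerSeries.coeff 1 (T.Q j) * h.coeff n) =
        h.coeff n * e.linE f (fun j => PowerSeries.coeff 1 (T.Q j)) -
        e.linE f (fun j => PowerSeries.coeff 1 (T.Q j)) * h.coeff n := by
      simp only [CExt.linE]
      rw [Finset.mul_sum, Finset.sum_mul, ← Finset.sum_sub_distrib]
      refine Finset.sum_congr rfl fun j _ => ?_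
      rw [mul_sub, ← mul_assoc, e.comm_E hE, mul_assoc, mul_assoc]
    rw [hl]
    set A := e.linE f (fun j => PowerSeries.coeff 1 (T.Q j))
    set x := h.coeff n
    set u := PowerSeries.coeff 1 T.U
    set y := h.coeff (n + 1)
    set w := e.i (f [])
    have h5 : x * A - A * x = (A + (w * u - u * w)) * x + w * y - y * w - x * (w * u - u * w)
        - A * x := by
      rw [← sub_eq_zero] at hf2 ⊢
      rw [← hf2]; noncomm_ring
    rw [h5]
    have h6 : x * (w * u - u * w) = w * (x * u) - (x * u) * w := by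
      rw [mul_sub, ← mul_assoc, hf1, mul_assoc, ← mul_assoc x u w]
    have h7 : (w * u - u * w) * x = w * (u * x) - u * x * w := by
      rw [sub_mul, mul_assoc, mul_assoc u w x, ← hf1, ← mul_assoc u x w]
    rw [add_mul, h6, h7]
    noncomm_ring
  exact hgen _ hE _ (comp X hX1 hX2) (comp Y hY1 hY2)

/-- **E5**, first part -/
theorem good1_next (X Y : NPS ι D) (hG : Good1 F X Y) (hgen : GenQ T X Y) :
    Good1 (Lau F₁) (S.Ψ X) (S.Ψ Y) := by
  classical
  intro h hX hY
  by_contra hcon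
  have hne : ∃ n, ¬ ∃ c : F₁, h.coeff n = algebraMap F₁ D₁ c := by
    by_contra h0
    push Not at h0
    apply hcon
    rw [lau_mem_range]
    exact h0
  -- the smallest such index
  have hwf : ∃ n, (¬ ∃ c : F₁, h.coeff n = algebraMap F₁ D₁ c) ∧
      ∀ k < n, ∃ c : F₁, h.coeff k = algebraMap F₁ D₁ c := by
    have hP : {n | ¬ ∃ c : F₁, h.coeff n = algebraMap F₁ D₁ c} ⊆ h.support := by
      intro n hn
      rw [HahnSeries.mem_support]
      intro h0
      exact hn ⟨0, by rw [h0, map_zero]⟩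
    have hwf := (h.isWF_support.mono hP)
    have hnem : {n | ¬ ∃ c : F₁, h.coeff n = algebraMap F₁ D₁ c}.Nonempty := hne
    refine ⟨hwf.min hnem, hwf.min_mem hnem, ?_⟩
    intro k hk
    by_contra hk'
    exact hwf.not_lt_min hnem hk' hk
  obtain ⟨n, hn, hlt⟩ := hwf
  -- truncation
  let h1 : Lau D₁ := ⟨fun k => if k < n then h.coeff k else 0, h.isPWO_support.mono (by
    intro k hk
    rw [Function.mem_support] at hk
    rw [HahnSeries.mem_support]
    intro h0
    apply hk
    simp [h0])⟩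
  have hc1 : ∀ k, h1.coeff k = if k < n then h.coeff k else 0 := fun k => rfl
  have hcen : ∃ c : Lau F₁, h1 = algebraMap (Lau F₁) (Lau D₁) c := by
    rw [lau_mem_range]
    intro k
    rw [hc1]
    split_ifs with hk
    · exact hlt k hk
    · exact ⟨0, by rw [map_zero]⟩
  obtain ⟨c, hc⟩ := hcen
  have hcomm : ∀ x : Lau D₁, h1 * x = x * h1 := by
    intro x
    rw [hc]
    exact Algebra.commutes c x
  obtain ⟨d, hd⟩ := lead_central S X Y hG hgen (h - h1) n (by
      intro k hk
      rw [HahnSeries.coeff_sub, hc1, if_pos hk, sub_self])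
    (by rw [sub_mul, mul_sub, hX, hcomm]) (by rw [sub_mul, mul_sub, hY, hcomm])
  apply hn
  refine ⟨d, ?_⟩
  rw [HahnSeries.coeff_sub, hc1, if_neg (lt_irrefl n), sub_zero] at hd
  exact hd

/-- **E5** -/
theorem good_next (X Y : NPS ι D) (hG : GoodXY F X Y) (hgen : GenQ T X Y) :
    GoodXY (Lau F₁) (S.Ψ X) (S.Ψ Y) := by
  obtain ⟨hG1, a, b, hab⟩ := hG
  refine ⟨good1_next S X Y hG1 hgen, fun p => if p.2 = e.k0 then lc (e.φ (a p.1)) else 0,
    fun p => if p.2 = e.k0 then lc (e.φ (b p.1)) else 0, ?_⟩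
  set a' : ι × β → Lau F₁ := fun p => if p.2 = e.k0 then lc (e.φ (a p.1)) else 0 with ha'
  set b' : ι × β → Lau F₁ := fun p => if p.2 = e.k0 then lc (e.φ (b p.1)) else 0 with hb'
  intro α γ h hX hY
  by_contra hcon
  have hx : (![α, γ] : Fin 2 → Lau F₁) ≠ 0 := by
    intro h0
    exact hcon ⟨congrFun h0 0, congrFun h0 1⟩
  obtain ⟨n, hint, k, hk⟩ := exists_normalize _ hx
  have hα : IsInt (epow n * α) := hint 0
  have hγ : IsInt (epow n * γ) := hint 1
  set A := (epow n * α).coeff 0 with hA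
  set B := (epow n * γ).coeff 0 with hB
  set δ : ι × β → Lau F₁ := (epow n : Lau F₁) • (α • a' + γ • b') with hδdef
  have hδp : ∀ p : ι × β, ∀ m : ℤ, (δ p).coeff m = if p.2 = e.k0 then
      (epow n * α).coeff m * e.φ (a p.1) + (epow n * γ).coeff m * e.φ (b p.1) else 0 := by
    intro p m
    have h1 : δ p = (epow n * α) * a' p + (epow n * γ) * b' p := by
      simp only [hδdef, Pi.smul_apply, Pi.add_apply, smul_eq_mul]
      rw [mul_add, mul_assoc, mul_assoc]
    rw [h1, ha', hb']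
    simp only
    split_ifs with h2
    · rw [HahnSeries.coeff_add, HahnSeries.C_apply, HahnSeries.C_apply,
        HahnSeries.coeff_mul_single_zero, HahnSeries.coeff_mul_single_zero]
    · simp
  have hδint : ∀ p, IsInt (δ p) := by
    intro p m hm
    rw [hδp, hα m hm, hγ m hm]
    simp
  have hlinδ : ∀ f : NPS (ι × β) (Lau D₁),
      lin (Lau F₁) f (α • a' + γ • b') = h * f [] - f [] * h →
      lin (Lau F₁) f δ = (epow n * h) * f [] - f [] * (epow n * h) := by
    intro f hf
    rw [hδdef, map_smul, hf, epow_smul, mul_sub, ← mul_assoc, ← mul_assoc (f []),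
      ← epow_comm n (f []), mul_assoc (epow n) (f []) h]
  obtain ⟨h₀, hh₀, h', e1, e2⟩ := inner_lead S X Y hG1 hgen δ hδint (epow n * h)
    (hlinδ _ hX) (hlinδ _ hY)
  -- the left sides
  have hleft : ∀ f : NPS ι D, e.linE f (fun j => ∑ k, (δ (j, k)).coeff 0 • e.b k) =
      e.i (lin F f a) * algebraMap F₁ D₁ A + e.i (lin F f b) * algebraMap F₁ D₁ B := by
    intro f
    rw [← e.linE_const f a _ (e.alg_mem_E A), ← e.linE_const f b _ (e.alg_mem_E B)]
    simp only [CExt.linE]
    rw [← Finset.sum_add_distrib]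
    refine Finset.sum_congr rfl fun j _ => ?_
    rw [← mul_add]
    congr 1
    have h3 : ∀ k, (δ (j, k)).coeff 0 • e.b k = if k = e.k0 then
        (A * e.φ (a j) + B * e.φ (b j)) • (1 : D₁) else 0 := by
      intro k
      rw [hδp]
      simp only
      split_ifs with h4
      · rw [h4, e.b_k0]
      · rw [zero_smul]
    simp only [h3]
    rw [Finset.sum_ite_eq' Finset.univ e.k0]
    simp only [Finset.mem_univ, if_true]
    rw [Algebra.smul_def, mul_one, map_add, map_mul, map_mul, ← map_mul, ← map_mul, ← map_mul,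
      ← map_mul, mul_comm A, mul_comm B]
  rw [hleft] at e1 e2
  have hcommut : ∀ (c : F₁) (j : ι), ntr F₁ D₁ (algebraMap F₁ D₁ c *
      (h₀ * PowerSeries.coeff 1 (T.Q j) - PowerSeries.coeff 1 (T.Q j) * h₀)) = 0 := by
    intro c j
    rw [CExt.ntr_alg_mul, map_sub, ntr_comm, sub_self, mul_zero]
  have hmemE : ∀ j, h₀ * PowerSeries.coeff 1 (T.Q j) - PowerSeries.coeff 1 (T.Q j) * h₀ ∈ e.E :=
    fun j => sub_mem (mul_mem hh₀ (T.QE j 1)) (mul_mem (T.QE j 1) hh₀)
  have hlin0 : ∀ (μ : D →ₗ[F] F) (f : NPS ι D), ntr F₁ D₁ (e.ext (CExt.fun' F μ)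
      (e.linE f (fun j => h₀ * PowerSeries.coeff 1 (T.Q j) -
        PowerSeries.coeff 1 (T.Q j) * h₀))) = 0 := by
    intro μ f
    simp only [CExt.linE]
    rw [map_sum, map_sum]
    refine Finset.sum_eq_zero fun j _ => ?_
    rw [e.ext_fun_apply _ _ _ (hmemE j)]
    exact hcommut _ _
  have key : ∀ s t : F, e.φ s * A + e.φ t * B = 0 := by
    intro s t
    obtain ⟨μ, ν, hμν, hs, ht⟩ := exists_dual_pair X Y a b hab s t
    have h5 := ext_fun_inner e (X []) (Y []) μ ν hμν h'
    have f1 := congrArg (fun z => ntr F₁ D₁ (e.ext (CExt.fun' F μ) z)) e1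
    have f2 := congrArg (fun z => ntr F₁ D₁ (e.ext (CExt.fun' F ν) z)) e2
    simp only [map_add] at f1 f2
    rw [hlin0, add_zero, e.ext_fun_apply _ _ _ (e.alg_mem_E A),
      e.ext_fun_apply _ _ _ (e.alg_mem_E B)] at f1 f2
    have f3 := congrArg₂ (· + ·) f1 f2
    simp only [← map_add] at f3
    rw [h5, map_zero] at f3
    have f4 : ∀ c d : F₁, ntr F₁ D₁ (algebraMap F₁ D₁ c * algebraMap F₁ D₁ d) = c * d := by
      intro c d
      rw [CExt.ntr_alg_mul, ← mul_one (algebraMap F₁ D₁ d), CExt.ntr_alg_mul, ntr_one, mul_one]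
    simp only [map_add, f4] at f3
    rw [← hs, ← ht, map_add, map_add, ← f3]
    ring
  have hA0 : A = 0 := by
    have := key 1 0
    simpa using this
  have hB0 : B = 0 := by
    have := key 0 1
    simpa using this
  apply hk
  fin_cases k
  · exact hA0
  · exact hB0

/-- Leibniz rule for `linE` -/
theorem linE_mul (f g : NPS ι D) (δ : ι → D₁) (hδ : ∀ j, δ j ∈ e.E) :
    e.linE (f * g) δ = e.i (f []) * e.linE g δ + e.linE f δ * e.i (g []) := by
  simp only [CExt.linE]
  rw [Finset.mul_sum, Finset.sum_mul, ← Finset.sum_add_distrib]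
  refine Finset.sum_congr rfl fun j _ => ?_
  rw [NPS.mul_cons, NPS.mul_nil, NPS.tl_apply, map_add, map_mul, map_mul, add_mul, mul_assoc,
    mul_assoc, mul_assoc, e.comm_E (hδ j) (g [])]

/-- derivations determined on `X`, `Y`: (induction on the subring closure) -/
theorem alg_der (X Y g : NPS ι D) (hg : g ∈ AlgXY F X Y) (δ δ' : ι → D₁)
    (hδ : ∀ j, δ j ∈ e.E) (hδ' : ∀ j, δ' j ∈ e.E) (h' : D₁)
    (hX : e.linE X δ = (h' * e.i (X []) - e.i (X []) * h') + e.linE X δ')
    (hY : e.linE Y δ = (h' * e.i (Y []) - e.i (Y []) * h') + e.linE Y δ') :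
    e.linE g δ = (h' * e.i (g []) - e.i (g []) * h') + e.linE g δ' := by
  refine Subring.closure_induction (p := fun g _ =>
    e.linE g δ = (h' * e.i (g []) - e.i (g []) * h') + e.linE g δ') ?_ ?_ ?_ ?_ ?_ ?_ hg
  · rintro x (⟨a, rfl⟩ | rfl | rfl)
    · have h0 : ∀ δ : ι → D₁, e.linE (NPS.C (algebraMap F D a) : NPS ι D) δ = 0 := by
        intro δ
        simp [CExt.linE]
      show e.linE (NPS.C (algebraMap F D a) : NPS ι D) δ =
        (h' * e.i ((NPS.C (algebraMap F D a) : NPS ι D) []) -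
          e.i ((NPS.C (algebraMap F D a) : NPS ι D) []) * h') +
        e.linE (NPS.C (algebraMap F D a) : NPS ι D) δ'
      rw [h0, h0, NPS.C_nil, e.i_alg, Algebra.commutes, sub_self, add_zero]
    · exact hX
    · exact hY
  · simp [CExt.linE]
  · have h0 : ∀ δ : ι → D₁, e.linE (1 : NPS ι D) δ = 0 := by
      intro δ
      simp [CExt.linE]
    rw [h0, h0, NPS.one_nil, map_one]; simp
  · intro x y _ _ hx hy
    have h0 : ∀ δ : ι → D₁, e.linE (x + y) δ = e.linE x δ + e.linE y δ := by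
      intro δ
      simp [CExt.linE, add_mul, Finset.sum_add_distrib]
    rw [h0, h0, hx, hy, NPS.add_apply, map_add]; noncomm_ring
  · intro x _ hx
    have h0 : ∀ δ : ι → D₁, e.linE (-x) δ = - e.linE x δ := by
      intro δ
      simp [CExt.linE]
    rw [h0, h0, hx, NPS.neg_apply, map_neg]; noncomm_ring
  · intro x y _ _ hx hy
    rw [linE_mul x y δ hδ, linE_mul x y δ' hδ', hx, hy, NPS.mul_nil, map_mul]
    noncomm_ring

/-- the same over `D` itself: inner directions for `X`, `Y` are inner for `g` -/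
theorem alg_der0 (X Y g : NPS ι D) (hg : g ∈ AlgXY F X Y) (c : ι → F) (h : D)
    (hX : lin F X c = h * X [] - X [] * h) (hY : lin F Y c = h * Y [] - Y [] * h) :
    lin F g c = h * g [] - g [] * h := by
  have hlin : ∀ f : NPS ι D, lin F f c = ∑ j, c j • f [j] := fun f => rfl
  refine Subring.closure_induction (p := fun g _ =>
    lin F g c = h * g [] - g [] * h) ?_ ?_ ?_ ?_ ?_ ?_ hg
  · rintro x (⟨a, rfl⟩ | rfl | rfl)
    · show lin F (NPS.C (algebraMap F D a) : NPS ι D) c =
        h * (NPS.C (algebraMap F D a) : NPS ι D) [] - (NPS.C (algebraMap F D a) : NPS ι D) [] * h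
      rw [hlin, NPS.C_nil, ← Algebra.commutes, sub_self]
      simp
    · exact hX
    · exact hY
  · simp [hlin]
  · rw [hlin, NPS.one_nil]; simp
  · intro x y _ _ hx hy
    have h0 : lin F (x + y) c = lin F x c + lin F y c := by
      simp [hlin, Finset.sum_add_distrib]
    rw [h0, hx, hy, NPS.add_apply]; noncomm_ring
  · intro x _ hx
    have h0 : lin F (-x) c = - lin F x c := by
      simp [hlin]
    rw [h0, hx, NPS.neg_apply]; noncomm_ring
  · intro x y _ _ hx hy
    have h0 : lin F (x * y) c = x [] * lin F y c + lin F x c * y [] := by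
      simp only [hlin]
      rw [Finset.mul_sum, Finset.sum_mul, ← Finset.sum_add_distrib]
      refine Finset.sum_congr rfl fun j _ => ?_
      rw [NPS.mul_cons, NPS.mul_nil, NPS.tl_apply, smul_add, mul_smul_comm, smul_mul_assoc]
    rw [h0, hx, hy, NPS.mul_nil]
    noncomm_ring

end Crest.Agent.R180
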