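import Mathlib
import Crest.Agent.R180.Eval

/-!
# Piece FP: perturbing a formal family

`Q_j = w_j(εZ) + ε^N ω_j`.  Then for every series `f`:
`evQ Q f ≡ evZ Z (subst w f) + ε^N Σ_j i(f[j]) ω_j   (mod ε^{N+1})`
(words of length `≥ 2` do not feel `ε^N ω` modulo `ε^{N+1}` because every `Q_j` has no constant term),
`evZ` is a ring hom (`exists_evZHom`), `evZ Z K = ε^N evHom Z N K` for homogeneous `K`.
With `h`, `x` as in `hx` and `Ut = evZ Z U * (1 + ε^N h)` one gets the claim by a direct computation: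
`evQ g * Ut ≡ evZ U (θ + ε^N K(Z)) + ε^N (linE g ω + θ h)` and
`Ut (θ + ε^N (K(Z) + x)) ≡ evZ U (θ + ε^N (K(Z)+x)) + ε^N h θ`.
-/

set_option autoImplicit false
set_option linter.unusedSectionVars false

namespace Crest.Agent.R180

variable {F D F₁ D₁ β ι : Type} [Field F] [Ring D] [Algebra F D] [Field F₁] [Ring D₁]
    [Algebra F₁ D₁] [Fintype ι]

/-- `Q_j = w_j(εZ) + ε^N ω_j` -/
noncomputable def famQ (e : CExt F D F₁ D₁ β) (Z : Fin 2 → D₁) (w : ι → NPS (Fin 2) F) (N : ℕ)
    (ω : ι → D₁) (j : ι) : PowerSeries D₁ :=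
  (PowerSeries.mk fun n => ∑ m : Fin n → Fin 2,
    algebraMap F₁ D₁ (e.φ (w j (List.ofFn m))) * ((List.ofFn m).map Z).prod) +
  PowerSeries.X ^ N * PowerSeries.C (ω j)

/-! ### auxiliary lemmas on power series -/

namespace FPaux

theorem X_pow_comm (N : ℕ) (B : PowerSeries D₁) :
    B * (PowerSeries.X ^ N : PowerSeries D₁) = PowerSeries.X ^ N * B :=
  ((PowerSeries.commute_X B).pow_right N)

theorem coeff_Xmul_lt (N n : ℕ) (h : n < N) (B : PowerSeries D₁) :
    PowerSeries.coeff n ((PowerSeries.X ^ N : PowerSeries D₁) * B) = 0 := by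
  rw [PowerSeries.coeff_X_pow_mul', if_neg (by omega)]

theorem coeff_Xmul_eq (N : ℕ) (B : PowerSeries D₁) :
    PowerSeries.coeff N ((PowerSeries.X ^ N : PowerSeries D₁) * B) = PowerSeries.coeff 0 B := by
  rw [PowerSeries.coeff_X_pow_mul', if_pos le_rfl, Nat.sub_self]

theorem coeff_Xmul_le (N n : ℕ) (h : n ≤ N) (B : PowerSeries D₁) :
    PowerSeries.coeff n ((PowerSeries.X ^ N : PowerSeries D₁) * B) =
      if n = N then PowerSeries.coeff 0 B else 0 := by
  split_ifs with h1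
  · subst h1; exact coeff_Xmul_eq n B
  · exact coeff_Xmul_lt N n (by omega) B

/-- products only depend on lower order terms -/
theorem mul_congr_le (N : ℕ) (A A' B B' : PowerSeries D₁)
    (hA : ∀ n ≤ N, PowerSeries.coeff n A = PowerSeries.coeff n A')
    (hB : ∀ n ≤ N, PowerSeries.coeff n B = PowerSeries.coeff n B') :
    ∀ n ≤ N, PowerSeries.coeff n (A * B) = PowerSeries.coeff n (A' * B') := by
  intro n hn
  rw [PowerSeries.coeff_mul, PowerSeries.coeff_mul]
  refine Finset.sum_congr rfl fun p hp => ?_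
  have := Finset.HasAntidiagonal.mem_antidiagonal.1 hp
  rw [hA _ (by omega), hB _ (by omega)]

/-- indicator of the words of length one -/
def rOne (ω : ι → D₁) : List ι → D₁
  | [] => 0
  | [j] => ω j
  | _ :: _ :: _ => 0

theorem prod_perturb (P Q : ι → PowerSeries D₁) (N : ℕ) (ω : ι → D₁)
    (hP : ∀ j, PowerSeries.coeff 0 (P j) = 0) (hQ0 : ∀ j, PowerSeries.coeff 0 (Q j) = 0)
    (hQ : ∀ j, Q j = P j + PowerSeries.X ^ N * PowerSeries.C (ω j)) (l : List ι) :
    ∃ R : PowerSeries D₁, (l.map Q).prod = (l.map P).prod + PowerSeries.X ^ N * R ∧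
      PowerSeries.coeff 0 R = rOne ω l := by
  induction l with
  | nil => exact ⟨0, by simp, by simp [rOne]⟩
  | cons j l ih =>
    obtain ⟨R', h1, h2⟩ := ih
    refine ⟨P j * R' + PowerSeries.C (ω j) * (l.map Q).prod, ?_, ?_⟩
    · rw [List.map_cons, List.prod_cons, List.map_cons, List.prod_cons]
      have e1 : Q j * (l.map Q).prod = P j * (l.map Q).prod +
          PowerSeries.X ^ N * (PowerSeries.C (ω j) * (l.map Q).prod) := by
        rw [hQ j, add_mul, mul_assoc]
      have e2 : P j * (l.map Q).prod = P j * (l.map P).prod + PowerSeries.X ^ N * (P j * R') := by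
        rw [h1, mul_add, ← mul_assoc, X_pow_comm, mul_assoc]
      rw [e1, e2, mul_add, add_assoc]
    · rw [map_add]
      have e3 : PowerSeries.coeff 0 (P j * R') = 0 := by
        rw [PowerSeries.coeff_zero_eq_constantCoeff_apply, map_mul,
          ← PowerSeries.coeff_zero_eq_constantCoeff_apply, hP j, zero_mul]
      rw [e3, zero_add, PowerSeries.coeff_zero_eq_constantCoeff_apply, map_mul]
      cases l with
      | nil => simp [rOne]
      | cons k l =>
        have : PowerSeries.constantCoeff ((List.map Q (k :: l)).prod) = 0 := by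
          rw [List.map_cons, List.prod_cons, map_mul,
            ← PowerSeries.coeff_zero_eq_constantCoeff_apply, hQ0 k, zero_mul]
        rw [this, mul_zero]; rfl

theorem coeff_prod_perturb (P Q : ι → PowerSeries D₁) (N : ℕ) (ω : ι → D₁)
    (hP : ∀ j, PowerSeries.coeff 0 (P j) = 0) (hQ0 : ∀ j, PowerSeries.coeff 0 (Q j) = 0)
    (hQ : ∀ j, Q j = P j + PowerSeries.X ^ N * PowerSeries.C (ω j)) (l : List ι) (n : ℕ)
    (hn : n ≤ N) :
    PowerSeries.coeff n (l.map Q).prod = PowerSeries.coeff n (l.map P).prod +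
      if n = N then rOne ω l else 0 := by
  obtain ⟨R, h1, h2⟩ := prod_perturb P Q N ω hP hQ0 hQ l
  rw [h1, map_add, coeff_Xmul_le N n hn, h2]

theorem sum_rOne (e : CExt F D F₁ D₁ β) (f : NPS ι D) (ω : ι → D₁) (n : ℕ) (hn : 1 ≤ n) :
    ∑ k ∈ Finset.range (n + 1), ∑ l : Fin k → ι,
      e.i (f (List.ofFn l)) * rOne ω (List.ofFn l) = e.linE f ω := by
  rw [Finset.sum_eq_single 1]
  · rw [CExt.linE]
    refine Fintype.sum_equiv (Equiv.funUnique (Fin 1) ι) _ _ fun l => ?_
    simp [rOne]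
  · intro k _ hk
    refine Finset.sum_eq_zero fun l _ => ?_
    match k, l with
    | 0, l => simp [rOne]
    | 1, l => exact absurd rfl hk
    | (k + 2), l =>
      have : rOne ω (List.ofFn l) = 0 := by
        rw [List.ofFn_succ, List.ofFn_succ]; rfl
      rw [this, mul_zero]
  · intro h
    exact absurd (Finset.mem_range.2 (by omega)) h

theorem evQ_perturb (e : CExt F D F₁ D₁ β) (P Q : ι → PowerSeries D₁) (N : ℕ) (hN : 1 ≤ N)
    (ω : ι → D₁)
    (hP : ∀ j, PowerSeries.coeff 0 (P j) = 0) (hQ0 : ∀ j, PowerSeries.coeff 0 (Q j) = 0)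
    (hQ : ∀ j, Q j = P j + PowerSeries.X ^ N * PowerSeries.C (ω j)) (f : NPS ι D) (n : ℕ)
    (hn : n ≤ N) :
    PowerSeries.coeff n (evQ e Q f) = PowerSeries.coeff n (evQ e P f) +
      if n = N then e.linE f ω else 0 := by
  rw [evQ, evQ, PowerSeries.coeff_mk, PowerSeries.coeff_mk]
  have : ∀ k, ∀ l : Fin k → ι, e.i (f (List.ofFn l)) *
      PowerSeries.coeff n ((List.ofFn l).map Q).prod =
      e.i (f (List.ofFn l)) * PowerSeries.coeff n ((List.ofFn l).map P).prod +
      if n = N then e.i (f (List.ofFn l)) * rOne ω (List.ofFn l) else 0 := by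
    intro k l
    rw [coeff_prod_perturb P Q N ω hP hQ0 hQ _ n hn, mul_add]
    split_ifs <;> simp
  simp_rw [this, Finset.sum_add_distrib]
  congr 1
  split_ifs with h
  · exact sum_rOne e f ω n (by omega)
  · simp

/-- the unperturbed family -/
noncomputable def famP (e : CExt F D F₁ D₁ β) (Z : Fin 2 → D₁) (w : ι → NPS (Fin 2) F)
    (j : ι) : PowerSeries D₁ :=
  PowerSeries.mk fun n => ∑ m : Fin n → Fin 2,
    algebraMap F₁ D₁ (e.φ (w j (List.ofFn m))) * ((List.ofFn m).map Z).prod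

theorem famQ_eq (e : CExt F D F₁ D₁ β) (Z : Fin 2 → D₁) (w : ι → NPS (Fin 2) F) (N : ℕ)
    (ω : ι → D₁) (j : ι) :
    famQ e Z w N ω j = famP e Z w j + PowerSeries.X ^ N * PowerSeries.C (ω j) := rfl

theorem famP_eq_evZ (e : CExt F D F₁ D₁ β) (Z : Fin 2 → D₁) (w : ι → NPS (Fin 2) F) (j : ι) :
    famP e Z w j = evZ e Z (NPS.map (algebraMap F D) (w j)) := by
  rw [famP, evZ]
  congr 1
  funext n
  refine Finset.sum_congr rfl fun m _ => ?_
  rw [NPS.map_apply, e.i_alg]

theorem famP_coeff0 (e : CExt F D F₁ D₁ β) (Z : Fin 2 → D₁) (w : ι → NPS (Fin 2) F)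
    (w0 : ∀ j, w j [] = 0) (j : ι) : PowerSeries.coeff 0 (famP e Z w j) = 0 := by
  rw [famP, PowerSeries.coeff_mk]
  simp [w0]

theorem coeff_evZ (e : CExt F D F₁ D₁ β) (Z : Fin 2 → D₁) (f : NPS (Fin 2) D) (n : ℕ) :
    PowerSeries.coeff n (evZ e Z f) = evHom e Z n f := by
  rw [evZ, evHom, PowerSeries.coeff_mk]

theorem evQ_famP (e : CExt F D F₁ D₁ β) (Z : Fin 2 → D₁) (hZ : ∀ i, Z i ∈ e.E)
    (w : ι → NPS (Fin 2) F) (f : NPS ι D) :
    evQ e (famP e Z w) f = evZ e Z (subst w f) := by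
  obtain ⟨Φ, hΦ⟩ := exists_evZHom e Z hZ (D := D)
  have hprod : ∀ l : List ι, (l.map (famP e Z w)).prod =
      evZ e Z (NPS.map (algebraMap F D) (l.map w).prod) := by
    intro l
    induction l with
    | nil =>
      rw [← hΦ]
      simp
    | cons j l ih =>
      rw [List.map_cons, List.prod_cons, ih, famP_eq_evZ, List.map_cons, List.prod_cons,
        ← hΦ, ← hΦ, ← hΦ, map_mul, map_mul]
  ext n
  rw [evQ, evZ, PowerSeries.coeff_mk, PowerSeries.coeff_mk]
  simp_rw [hprod, coeff_evZ, evHom, subst, NPS.map_apply, map_sum, map_mul, e.i_alg,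
    Finset.sum_mul, Finset.mul_sum, List.length_ofFn]
  rw [Finset.sum_comm]
  refine Finset.sum_congr rfl fun k _ => ?_
  rw [Finset.sum_comm]
  refine Finset.sum_congr rfl fun m _ => ?_
  refine Finset.sum_congr rfl fun l _ => ?_
  rw [← mul_assoc, ← Algebra.commutes]

end FPaux

open FPaux

theorem famQ_coeff0 (e : CExt F D F₁ D₁ β) (Z : Fin 2 → D₁) (w : ι → NPS (Fin 2) F) (N : ℕ)
    (hN : 1 ≤ N) (ω : ι → D₁) (w0 : ∀ j, w j [] = 0) (j : ι) :
    PowerSeries.coeff 0 (famQ e Z w N ω j) = 0 := by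
  rw [famQ_eq, map_add, famP_coeff0 e Z w w0, coeff_Xmul_lt N 0 (by omega), add_zero]

theorem famQ_coeff1 (e : CExt F D F₁ D₁ β) (Z : Fin 2 → D₁) (w : ι → NPS (Fin 2) F) (N : ℕ)
    (hN : 2 ≤ N) (ω : ι → D₁) (j : ι) :
    PowerSeries.coeff 1 (famQ e Z w N ω j) =
      algebraMap F₁ D₁ (e.φ (w j [0])) * Z 0 + algebraMap F₁ D₁ (e.φ (w j [1])) * Z 1 := by
  rw [famQ_eq, map_add, coeff_Xmul_lt N 1 (by omega), add_zero, famP, PowerSeries.coeff_mk]
  rw [← Fintype.sum_equiv (Equiv.funUnique (Fin 1) (Fin 2)).symm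
    (fun a : Fin 2 => algebraMap F₁ D₁ (e.φ (w j [a])) * Z a) _ ?_]
  · rw [Fin.sum_univ_two]
  · intro a
    simp

theorem famQ_mem (e : CExt F D F₁ D₁ β) (Z : Fin 2 → D₁) (hZ : ∀ i, Z i ∈ e.E)
    (w : ι → NPS (Fin 2) F) (N : ℕ) (ω : ι → D₁) (hω : ∀ j, ω j ∈ e.E) (j : ι) (n : ℕ) :
    PowerSeries.coeff n (famQ e Z w N ω j) ∈ e.E := by
  rw [famQ_eq, map_add]
  refine add_mem ?_ ?_
  · rw [famP, PowerSeries.coeff_mk]
    refine sum_mem fun m _ => mul_mem (Subalgebra.algebraMap_mem _ _) ?_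
    refine list_prod_mem fun x hx => ?_
    obtain ⟨i, _, rfl⟩ := List.mem_map.1 hx
    exact hZ i
  · rw [PowerSeries.coeff_X_pow_mul']
    split_ifs
    · rw [PowerSeries.coeff_C]
      split_ifs
      · exact hω j
      · exact zero_mem _
    · exact zero_mem _

theorem fp_main (e : CExt F D F₁ D₁ β) (Z : Fin 2 → D₁) (hZ : ∀ i, Z i ∈ e.E)
    (w : ι → NPS (Fin 2) F) (w0 : ∀ j, w j [] = 0) (N : ℕ) (hN : 1 ≤ N) (ω : ι → D₁)
    (hω : ∀ j, ω j ∈ e.E) (g : NPS ι D) (U K : NPS (Fin 2) D) (U0 : U [] = 1)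
    (Kdeg : ∀ m : List (Fin 2), m.length ≠ N → K m = 0)
    (heq : ∀ m : List (Fin 2), m.length ≤ N →
      ((subst w g : NPS (Fin 2) D) * U) m = (U * ((NPS.C (g []) : NPS (Fin 2) D) + K)) m)
    (h x : D₁) (hx : e.linE g ω = x + (h * e.i (g []) - e.i (g []) * h)) :
    PowerSeries.coeff 0 (evZ e Z U * (1 + PowerSeries.X ^ N * PowerSeries.C h)) = 1 ∧
    ∀ n ≤ N, PowerSeries.coeff n
        (evQ e (famQ e Z w N ω) g * (evZ e Z U * (1 + PowerSeries.X ^ N * PowerSeries.C h))) =
      PowerSeries.coeff n ((evZ e Z U * (1 + PowerSeries.X ^ N * PowerSeries.C h)) *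
        (PowerSeries.C (e.i (g [])) + PowerSeries.X ^ N * PowerSeries.C (evHom e Z N K + x))) := by
  obtain ⟨Φ, hΦ⟩ := exists_evZHom e Z hZ (D := D)
  set Y : PowerSeries D₁ := PowerSeries.X ^ N with hY
  set Uz := evZ e Z U with hUz
  set G := evZ e Z (subst w g) with hG
  set θ := e.i (g []) with hθ
  set κ := evHom e Z N K with hκ
  have hYc : ∀ B : PowerSeries D₁, B * Y = Y * B := X_pow_comm N
  have hY0 : PowerSeries.constantCoeff Y = 0 := by
    rw [hY, map_pow, PowerSeries.constantCoeff_X, zero_pow (by omega)]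
  have hUz0 : PowerSeries.coeff 0 Uz = 1 := by
    rw [hUz, coeff_evZ, evHom]
    simp [U0]
  have hUz0' : PowerSeries.constantCoeff Uz = 1 := by
    rw [← PowerSeries.coeff_zero_eq_constantCoeff_apply]; exact hUz0
  -- degree zero part of subst
  have hG0 : PowerSeries.coeff 0 G = θ := by
    rw [hG, coeff_evZ, evHom, hθ]
    simp [subst]
  have hG0' : PowerSeries.constantCoeff G = θ := by
    rw [← PowerSeries.coeff_zero_eq_constantCoeff_apply]; exact hG0
  have hK : evZ e Z K = Y * PowerSeries.C κ := by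
    ext n
    rw [coeff_evZ, hY, PowerSeries.coeff_X_pow_mul']
    rcases lt_trichotomy n N with h1 | h1 | h1
    · rw [if_neg (by omega), evHom]
      refine Finset.sum_eq_zero fun m _ => ?_
      rw [Kdeg _ (by simp; omega), map_zero, zero_mul]
    · subst h1
      rw [if_pos le_rfl, Nat.sub_self, PowerSeries.coeff_zero_C]
    · rw [if_pos (by omega), PowerSeries.coeff_C, if_neg (by omega), evHom]
      refine Finset.sum_eq_zero fun m _ => ?_
      rw [Kdeg _ (by simp; omega), map_zero, zero_mul]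
  have hC : evZ e Z (NPS.C (g [])) = PowerSeries.C θ := by
    ext n
    rw [coeff_evZ, evHom]
    cases n with
    | zero => simp [hθ]
    | succ n =>
      rw [PowerSeries.coeff_C, if_neg (by omega)]
      refine Finset.sum_eq_zero fun m _ => ?_
      rw [List.ofFn_succ, NPS.C_cons, map_zero, zero_mul]
  -- (2)
  have h2 : ∀ n ≤ N, PowerSeries.coeff n (G * Uz) =
      PowerSeries.coeff n (Uz * (PowerSeries.C θ + Y * PowerSeries.C κ)) := by
    intro n hn
    have e1 : G * Uz = evZ e Z (subst w g * U) := by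
      rw [hG, hUz, ← hΦ, ← hΦ, ← hΦ, map_mul]
    have e2 : Uz * (PowerSeries.C θ + Y * PowerSeries.C κ) =
        evZ e Z (U * ((NPS.C (g []) : NPS (Fin 2) D) + K)) := by
      rw [← hK, ← hC, hUz, ← hΦ, ← hΦ, ← hΦ, ← hΦ, ← map_add, ← map_mul]
    rw [e1, e2, coeff_evZ, coeff_evZ, evHom, evHom]
    refine Finset.sum_congr rfl fun m _ => ?_
    rw [heq _ (by simpa using hn)]
  -- (1)
  have h1 : ∀ n ≤ N, PowerSeries.coeff n (evQ e (famQ e Z w N ω) g) =
      PowerSeries.coeff n (G + Y * PowerSeries.C (e.linE g ω)) := by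
    intro n hn
    rw [evQ_perturb e (famP e Z w) (famQ e Z w N ω) N hN ω (famP_coeff0 e Z w w0)
      (famQ_coeff0 e Z w N hN ω w0) (famQ_eq e Z w N ω) g n hn, evQ_famP e Z hZ w g, map_add,
      coeff_Xmul_le N n hn, PowerSeries.coeff_zero_C]
  refine ⟨?_, ?_⟩
  · rw [PowerSeries.coeff_zero_eq_constantCoeff_apply, map_mul, hUz0', map_add, map_mul, hY0]
    simp
  · intro n hn
    rw [mul_congr_le N _ (G + Y * PowerSeries.C (e.linE g ω)) _ _ h1 (fun _ _ => rfl) n hn]
    have e1 : (G + Y * PowerSeries.C (e.linE g ω)) * (Uz * (1 + Y * PowerSeries.C h)) =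
        G * Uz + Y * (G * Uz * PowerSeries.C h +
          PowerSeries.C (e.linE g ω) * (Uz * (1 + Y * PowerSeries.C h))) := by
      have : G * Uz * Y = Y * (G * Uz) := hYc _
      calc (G + Y * PowerSeries.C (e.linE g ω)) * (Uz * (1 + Y * PowerSeries.C h))
          = G * Uz + G * Uz * Y * PowerSeries.C h +
            Y * (PowerSeries.C (e.linE g ω) * (Uz * (1 + Y * PowerSeries.C h))) := by
              noncomm_ring
        _ = _ := by rw [this]; noncomm_ring
    have e2 : Uz * (1 + Y * PowerSeries.C h) * (PowerSeries.C θ + Y * PowerSeries.C (κ + x)) =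
        Uz * (PowerSeries.C θ + Y * PowerSeries.C κ) + Y * (Uz * PowerSeries.C x +
          Uz * PowerSeries.C h * (PowerSeries.C θ + Y * PowerSeries.C (κ + x))) := by
      have : Uz * Y = Y * Uz := hYc _
      calc Uz * (1 + Y * PowerSeries.C h) * (PowerSeries.C θ + Y * PowerSeries.C (κ + x))
          = Uz * (PowerSeries.C θ + Y * PowerSeries.C κ) + Uz * Y * PowerSeries.C x +
            Uz * Y * PowerSeries.C h * (PowerSeries.C θ + Y * PowerSeries.C (κ + x)) := by
              rw [map_add]; noncomm_ring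
        _ = _ := by rw [this]; noncomm_ring
    rw [e1, e2, map_add, map_add, h2 n hn, coeff_Xmul_le N n hn, coeff_Xmul_le N n hn]
    congr 1
    split_ifs with hnN
    · rw [PowerSeries.coeff_zero_eq_constantCoeff_apply,
        PowerSeries.coeff_zero_eq_constantCoeff_apply]
      simp only [map_add, map_mul, hUz0', hG0', hY0, PowerSeries.constantCoeff_C, hx, map_one]
      noncomm_ring
    · rfl

/-- the case `w = 0`, `N = 1` : `Q_j = ε ω_j`, `U = 1 + ε h` -/
theorem fp_one (e : CExt F D F₁ D₁ β) (ω : ι → D₁) (hω : ∀ j, ω j ∈ e.E) (g : NPS ι D)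
    (h x : D₁) (hx : e.linE g ω = x + (h * e.i (g []) - e.i (g []) * h)) :
    ∀ n ≤ 1, PowerSeries.coeff n
        (evQ e (fun j => PowerSeries.X * PowerSeries.C (ω j)) g *
          (1 + PowerSeries.X * PowerSeries.C h)) =
      PowerSeries.coeff n ((1 + PowerSeries.X * PowerSeries.C h) *
        (PowerSeries.C (e.i (g [])) + PowerSeries.X ^ 1 * PowerSeries.C x)) := by
  have hZ : ∀ i : Fin 2, (fun _ => 0 : Fin 2 → D₁) i ∈ e.E := fun _ => zero_mem _
  obtain ⟨Φ, hΦ⟩ := exists_evZHom e (fun _ => 0) hZ (D := D)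
  have hsub : ∀ m : List (Fin 2), (subst (fun _ : ι => (0 : NPS (Fin 2) F)) g : NPS (Fin 2) D) m =
      (NPS.C (g []) : NPS (Fin 2) D) m := by
    intro m
    rw [subst, Finset.sum_eq_single 0]
    · cases m with
      | nil => simp
      | cons a m => simp
    · intro k _ hk
      refine Finset.sum_eq_zero fun l _ => ?_
      obtain ⟨k, rfl⟩ := Nat.exists_eq_succ_of_ne_zero hk
      rw [List.ofFn_succ, List.map_cons, List.prod_cons, zero_mul, NPS.zero_apply, map_zero,
        zero_mul]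
    · intro h
      exact absurd (Finset.mem_range.2 (by omega)) h
  have hsub' : (subst (fun _ : ι => (0 : NPS (Fin 2) F)) g : NPS (Fin 2) D) =
      (NPS.C (g []) : NPS (Fin 2) D) := NPS.ext hsub
  have key := (fp_main e (fun _ => 0) hZ (fun _ => 0) (fun _ => rfl) 1 le_rfl ω hω g
    (1 : NPS (Fin 2) D) 0 rfl (fun _ _ => rfl) (fun m _ => by rw [hsub', mul_one, one_mul, add_zero])
    h x hx).2
  have e1 : evZ e (fun _ => 0) (1 : NPS (Fin 2) D) = 1 := by rw [← hΦ, map_one]
  have e2 : evHom e (fun _ => 0) 1 (0 : NPS (Fin 2) D) = 0 := by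
    rw [evHom]; simp
  have e3 : famQ e (fun _ => 0) (fun _ : ι => (0 : NPS (Fin 2) F)) 1 ω =
      fun j => PowerSeries.X * PowerSeries.C (ω j) := by
    funext j
    rw [famQ_eq, pow_one]
    have : famP e (fun _ => 0) (fun _ : ι => (0 : NPS (Fin 2) F)) j = 0 := by
      ext n
      rw [famP, PowerSeries.coeff_mk]
      simp
    rw [this, zero_add]
  rw [e1, e2, e3, one_mul, zero_add] at key
  simpa using key

end Crest.Agent.R180
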