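import Mathlib
import Crest.Agent.R180.ETheory
import Crest.Agent.R180.EGood2
import Crest.Agent.R180.CExtLau
import Crest.Agent.R180.FP

/-!
# The next state of an E-step, and the numerical output (glue, mostly by helper59)
-/

set_option autoImplicit false
set_option linter.unusedSectionVars false

namespace Crest.Agent.R180
open Module

section
variable (s : St) {F₁ D₁ β : Type} [Field F₁] [CharZero F₁] [Ring D₁] [IsDomain D₁]
    [Algebra F₁ D₁] [FiniteDimensional F₁ D₁] [Algebra.IsCentral F₁ D₁]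
    [Fintype β] [DecidableEq β]

/-- ring homs map `AlgXY` to `AlgXY` -/
theorem map_algXY {F D ι F' D' ι' : Type} [Field F] [Ring D] [Algebra F D] [Field F'] [Ring D']
    [Algebra F' D'] (Ψ : NPS ι D →+* NPS ι' D') (φ : F →+* F')
    (h : ∀ a, Ψ (NPS.C (algebraMap F D a)) = NPS.C (algebraMap F' D' (φ a)))
    (X Y g : NPS ι D) (hg : g ∈ AlgXY F X Y) : Ψ g ∈ AlgXY F' (Ψ X) (Ψ Y) := by
  have h1 : AlgXY F X Y ≤ (AlgXY F' (Ψ X) (Ψ Y)).comap Ψ := by
    unfold AlgXY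
    rw [Subring.closure_le]
    rintro x (⟨a, rfl⟩ | rfl | rfl)
    · have h2 : (NPS.C (algebraMap F' D' (φ a)) : NPS ι' D') ∈ AlgXY F' (Ψ X) (Ψ Y) :=
        Subring.subset_closure (Or.inl ⟨φ a, rfl⟩)
      rw [← h] at h2
      exact h2
    · exact Subring.subset_closure (Or.inr (Or.inl rfl))
    · exact Subring.subset_closure (Or.inr (Or.inr rfl))
  exact h1 hg

/-- the state after an E-step -/
noncomputable def St.next {e : CExt s.F s.D F₁ D₁ β} {T : EData e s.ι} (S : EStep T) : St where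
  F := Lau F₁
  D := Lau D₁
  ι := s.ι × β
  rou := by
    intro n hn
    obtain ⟨ζ, hζ⟩ := s.rou n hn
    exact ⟨lc (e.φ ζ), hζ.map_of_injective
      (f := (lc : F₁ →+* Lau F₁).comp e.φ) (RingHom.injective _)⟩
  X := S.Ψ s.X
  Y := S.Ψ s.Y
  g := S.Ψ s.g
  hg := map_algXY S.Ψ ((lc : F₁ →+* Lau F₁).comp e.φ) (fun a => S.Ψ_scalar a) s.X s.Y s.g s.hg

/-- numerical output of an E-step -/
structure ESout (s' : St) (e : CExt s.F s.D F₁ D₁ β) (X : D₁) : Prop where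
  reach : St.Reach s s'
  good : s'.Good
  n2 : s'.n2 = finrank F₁ D₁
  m : finrank F₁ (Algebra.adjoin F₁ ({e.i (s.g []), X} : Set D₁)) ≤ s'.m
  V : ∀ M : Submodule F₁ D₁,
    M ≤ Subalgebra.toSubmodule (Algebra.adjoin F₁ ({e.i (s.g []), X} : Set D₁)) →
    (∀ x ∈ M, (∀ δ : s.ι → D₁, (∀ j, δ j ∈ e.E) → ntr F₁ D₁ (x * e.linE s.g δ) = 0) →
      ntr F₁ D₁ (x * X) = 0 → x = 0) → finrank F₁ M ≤ s'.dV
  K : s'.m = finrank F₁ (Algebra.adjoin F₁ ({e.i (s.g []), X} : Set D₁)) →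
    ∀ v₁ : D₁, v₁ ≠ 0 → ∀ δ₁ : s.ι → D₁, (∀ j, δ₁ j ∈ e.E) →
    pr F₁ (Algebra.adjoin F₁ ({e.i (s.g []), X} : Set D₁)) (e.linE s.g δ₁) = v₁ →
    finrank F₁ (Algebra.adjoin F₁ {x | ∃ δ : s.ι → D₁, (∀ j, δ j ∈ e.E) ∧
        v₁ * x = pr F₁ (Algebra.adjoin F₁ ({e.i (s.g []), X} : Set D₁)) (e.linE s.g δ)}) ≤ s'.nK

theorem next_reach {e : CExt s.F s.D F₁ D₁ β} {T : EData e s.ι} (S : EStep T) :
    St.Reach s (s.next S) :=
  ⟨S.Ψ, (lc : F₁ →+* Lau F₁).comp e.φ, fun a => S.Ψ_scalar a, rfl, rfl, rfl⟩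

theorem next_ESout {e : CExt s.F s.D F₁ D₁ β} {T : EData e s.ι} (S : EStep T) (hs : s.Good)
    (hgen : GenQ T s.X s.Y) (N : ℕ) (X : D₁) (h : LTerm (S.Ψ s.g []) (e.i (s.g [])) X N) :
    ESout s (s.next S) e X where
  reach := next_reach s S
  good := good_next S s.X s.Y hs hgen
  n2 := lau_finrank
  m := mdeg_ge _ _ _ _ h
  V := fun M hM hnd => dV_ge S s.g X N h M hM hnd
  K := by
    intro hm v₁ hv δ₁ hδ₁ hδv
    have h1 := K_ge S s.g X N h hm v₁ hv δ₁ hδ₁ hδv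
    have h2 := finrank_redAlg (Kalg (Vs (Lau F₁) (S.Ψ s.g)))
    have h3 : Subalgebra.toSubmodule (Algebra.adjoin F₁ {x | ∃ δ : s.ι → D₁, (∀ j, δ j ∈ e.E) ∧
        v₁ * x = pr F₁ (Algebra.adjoin F₁ ({e.i (s.g []), X} : Set D₁)) (e.linE s.g δ)}) ≤
      Subalgebra.toSubmodule (redAlg (Kalg (Vs (Lau F₁) (S.Ψ s.g)))) := h1
    exact le_trans (Submodule.finrank_mono h3) (le_of_eq h2)

theorem nxtAux_coeff1 {R : Type} [Ring R] (y : R) :
    PowerSeries.coeff 1 (PowerSeries.X * PowerSeries.C y) = y := by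
  simp

theorem nxtAux_mem (e : CExt s.F s.D F₁ D₁ β) (y : D₁) (hy : y ∈ e.E) (n : ℕ) :
    PowerSeries.coeff n (PowerSeries.X * PowerSeries.C y) ∈ e.E := by
  cases n with
  | zero => simp
  | succ n =>
    rw [PowerSeries.coeff_succ_X_mul, PowerSeries.coeff_C]
    split_ifs
    · exact hy
    · exact zero_mem _

/-- **SS**: E-step along a formal family -/
theorem ss (hs : s.Good) (e : CExt s.F s.D F₁ D₁ β) (N : ℕ) (w : s.ι → NPS (Fin 2) s.F)
    (U K : NPS (Fin 2) s.D) (fam : s.IsFam N w U K) (Z : Fin 2 → D₁) (hZ : ∀ i, Z i ∈ e.E)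
    (hgenZ : ∀ h ∈ e.E, (∀ i, h * Z i = Z i * h) → ∃ c : F₁, h = algebraMap F₁ D₁ c)
    (ω : s.ι → D₁) (hω : ∀ j, ω j ∈ e.E) (h x : D₁)
    (hx : e.linE s.g ω = x + (h * e.i (s.g []) - e.i (s.g []) * h))
    (hxc : Commute x (e.i (s.g []))) :
    ∃ s' : St, ESout s s' e (evHom e Z N K + x) := by
  have hN1 : 1 ≤ N := le_trans (by norm_num) fam.hN
  obtain ⟨f0, f1⟩ := fp_main e Z hZ w fam.w0 N hN1 ω hω s.g U K fam.U0 fam.Kdeg fam.eq h x hx
  let T : EData e s.ι :=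
    { Q := famQ e Z w N ω
      Q0 := fun j => famQ_coeff0 e Z w N hN1 ω fam.w0 j
      QE := fun j n => famQ_mem e Z hZ w N ω hω j n
      U := evZ e Z U * (1 + PowerSeries.X ^ N * PowerSeries.C h)
      U0 := f0 }
  obtain ⟨S⟩ := exists_EStep T
  have hgen : GenQ T s.X s.Y := by
    intro k hk k' hX hY
    have h1 : ∀ j, PowerSeries.coeff 1 (T.Q j) =
        algebraMap F₁ D₁ (e.φ (w j [0])) * Z 0 + algebraMap F₁ D₁ (e.φ (w j [1])) * Z 1 :=
      fun j => famQ_coeff1 e Z w N fam.hN ω j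
    simp only [h1] at hX hY
    exact e.gen_cond s.X s.Y (fun j => w j [0]) (fun j => w j [1]) fam.gp Z hZ hgenZ k k' hk hX hY
  have hcomm : Commute (evHom e Z N K + x) (e.i (s.g [])) := by
    refine Commute.add_left ?_ hxc
    unfold evHom
    refine Commute.sum_left _ _ _ fun m _ => ?_
    refine Commute.mul_left ((fam.Kcomm _).map e.i) ?_
    refine Commute.symm ?_
    refine Commute.list_prod_right _ _ fun y hy => ?_
    obtain ⟨i, _, rfl⟩ := List.mem_map.1 hy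
    exact (e.mem_E_iff _).1 (hZ i) _
  have hl : LTerm (S.Ψ s.g []) (e.i (s.g [])) (evHom e Z N K + x) N :=
    S.lterm s.g N hN1 _ hcomm f1
  exact ⟨s.next S, next_ESout s S hs hgen N _ hl⟩

/-- **SS1**: first order E-step in the direction `p = a Z₀ + b Z₁` -/
theorem ss1 (hs : s.Good) (e : CExt s.F s.D F₁ D₁ β) (a b : s.ι → s.F)
    (hab : GoodPair s.F s.X s.Y a b) (Z : Fin 2 → D₁) (hZ : ∀ i, Z i ∈ e.E)
    (hgenZ : ∀ h ∈ e.E, (∀ i, h * Z i = Z i * h) → ∃ c : F₁, h = algebraMap F₁ D₁ c)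
    (h x : D₁)
    (hx : e.linE s.g (fun j => algebraMap F₁ D₁ (e.φ (a j)) * Z 0 +
      algebraMap F₁ D₁ (e.φ (b j)) * Z 1) = x + (h * e.i (s.g []) - e.i (s.g []) * h))
    (hxc : Commute x (e.i (s.g []))) :
    ∃ s' : St, ESout s s' e x := by
  set ω : s.ι → D₁ := fun j => algebraMap F₁ D₁ (e.φ (a j)) * Z 0 +
      algebraMap F₁ D₁ (e.φ (b j)) * Z 1 with hω'
  have hω : ∀ j, ω j ∈ e.E := fun j =>
    add_mem (mul_mem (e.alg_mem_E _) (hZ 0)) (mul_mem (e.alg_mem_E _) (hZ 1))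
  have f1 := fp_one e ω hω s.g h x hx
  let T : EData e s.ι :=
    { Q := fun j => PowerSeries.X * PowerSeries.C (ω j)
      Q0 := fun j => by simp
      QE := fun j n => nxtAux_mem s e (ω j) (hω j) n
      U := 1 + PowerSeries.X * PowerSeries.C h
      U0 := by simp }
  obtain ⟨S⟩ := exists_EStep T
  have hgen : GenQ T s.X s.Y := by
    intro k hk k' hX hY
    have h1 : ∀ j, PowerSeries.coeff 1 (T.Q j) = ω j := fun j => nxtAux_coeff1 (ω j)
    simp only [h1] at hX hY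
    exact e.gen_cond s.X s.Y a b hab Z hZ hgenZ k k' hk hX hY
  have hl : LTerm (S.Ψ s.g []) (e.i (s.g [])) x 1 :=
    S.lterm s.g 1 le_rfl _ hxc f1
  exact ⟨s.next S, next_ESout s S hs hgen 1 _ hl⟩

/-- **SS0**: E-step with the trivial extension -/
theorem ss0 (hs : s.Good) (c : s.ι → s.F) (h x : s.D)
    (hx : lin s.F s.g c = x + (h * s.g [] - s.g [] * h)) (hxc : Commute x (s.g [])) :
    ∃ s' : St, ESout s s' (CExt.triv s.F s.D) x := by
  set e := CExt.triv s.F s.D with he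
  set ω : s.ι → s.D := fun j => algebraMap s.F s.D (c j) with hω'
  have hω : ∀ j, ω j ∈ e.E := fun j => e.alg_mem_E _
  have hx' : e.linE s.g ω = x + (h * e.i (s.g []) - e.i (s.g []) * h) := by
    show ∑ j, s.g [j] * algebraMap s.F s.D (c j) = x + (h * s.g [] - s.g [] * h)
    rw [← hx]
    show _ = ∑ j, c j • s.g [j]
    refine Finset.sum_congr rfl fun j _ => ?_
    rw [Algebra.smul_def, Algebra.commutes]
  have f1 := fp_one e ω hω s.g h x hx'
  let T : EData e s.ι :=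
    { Q := fun j => PowerSeries.X * PowerSeries.C (ω j)
      Q0 := fun j => by simp
      QE := fun j n => nxtAux_mem s e (ω j) (hω j) n
      U := 1 + PowerSeries.X * PowerSeries.C h
      U0 := by simp }
  obtain ⟨S⟩ := exists_EStep T
  have hgen : GenQ T s.X s.Y := by
    intro k hk k' _ _
    exact CExt.triv_E k hk
  have hl : LTerm (S.Ψ s.g []) (e.i (s.g [])) x 1 :=
    S.lterm s.g 1 le_rfl _ hxc f1
  exact ⟨s.next S, next_ESout s S hs hgen 1 _ hl⟩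

end
end Crest.Agent.R180
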