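import Mathlib
import Crest.Agent.R180.Next
import Crest.Agent.R180.Inv

/-!
# Piece NUM: numerical consequences of an E-step of degree `r`

`c2 s · m² = [D:F]`, `c2 s' · m'² = r² [D:F]`.  `Cmin s` gives `c2 s ≤ c2 s'`, so `m' ≤ r m`, hence `m' = r m` and
`c2 s' = c2 s`: `s'` is `Cmin`.  Then `aK s ≤ aK s'`, `aK s' · nK s' = r · aK s · nK s`, and
`nK s' ≥ dV s' ≥ r nK s - o₁`.  If `aK s' ≥ aK s + 1` we get `(aK s + 1)(r nK s - o₁) ≤ r aK s nK s`, i.e.
`r nK s ≤ (aK s + 1) o₁`, contradiction.  So `aK s' = aK s`, `nK s' = r nK s`, `oK s' = nK s' - dV s' ≤ o₁`.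
-/

set_option autoImplicit false
set_option linter.unusedSectionVars false

namespace Crest.Agent.R180
open Module

theorem num_c2_mul (s : St) : s.c2 * s.m ^ 2 = s.n2 := c2_mul s.g

theorem num_m_pos (s : St) : 0 < s.m := mdeg_pos (s.g [])

theorem num_aK_mul (s : St) : s.aK * s.nK = s.m := aK_mul s.g

theorem num_nK_pos (s : St) : 0 < s.nK := nK_pos s.g

theorem num_n2_pos (s : St) : 0 < s.n2 := finrank_pos

/-- only `c2`-minimality -/
theorem num_m {s₀ s s' : St} (h : St.Cmin s₀ s) (hC : St.Cls s₀ s') (r : ℕ)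
    (hn : s'.n2 = r ^ 2 * s.n2) : s'.m ≤ r * s.m := by
  have h1 := num_c2_mul s
  have h2 := num_c2_mul s'
  have h3 := h.2 s' hC
  have h4 := num_n2_pos s
  have hc : 0 < s.c2 := by
    rcases Nat.eq_zero_or_pos s.c2 with h0 | h0
    · rw [h0, zero_mul] at h1; omega
    · exact h0
  have h5 : s.c2 * s'.m ^ 2 ≤ s.c2 * (r * s.m) ^ 2 := by
    calc s.c2 * s'.m ^ 2 ≤ s'.c2 * s'.m ^ 2 := Nat.mul_le_mul_right _ h3
      _ = r ^ 2 * s.n2 := by rw [h2, hn]
      _ = s.c2 * (r * s.m) ^ 2 := by rw [← h1]; ring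
  have h6 : s'.m ^ 2 ≤ (r * s.m) ^ 2 := Nat.le_of_mul_le_mul_left h5 hc
  exact (Nat.pow_le_pow_iff_left (by norm_num)).1 h6

theorem num_cmin {s₀ s s' : St} (h : St.Cmin s₀ s) (hC : St.Cls s₀ s') (r : ℕ) (hr : 0 < r)
    (hn : s'.n2 = r ^ 2 * s.n2) (hm : r * s.m ≤ s'.m) : s'.m = r * s.m ∧ St.Cmin s₀ s' := by
  have hle := num_m h hC r hn
  have heq : s'.m = r * s.m := le_antisymm hle hm
  have h1 := num_c2_mul s
  have h2 := num_c2_mul s'
  have hpos : 0 < (r * s.m) ^ 2 := by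
    have := num_m_pos s
    positivity
  have hc : s'.c2 = s.c2 := by
    have : s'.c2 * (r * s.m) ^ 2 = s.c2 * (r * s.m) ^ 2 := by
      rw [← heq, h2, hn, heq, ← h1]; ring
    exact Nat.eq_of_mul_eq_mul_right hpos this
  refine ⟨heq, hC, ?_⟩
  intro s'' hs''
  rw [hc]
  exact h.2 s'' hs''

theorem num_lemma {s₀ s s' : St} (h : St.Amin s₀ s) (hC : St.Cls s₀ s') (r : ℕ) (hr : 0 < r)
    (hn : s'.n2 = r ^ 2 * s.n2) (hm : r * s.m ≤ s'.m) (o₁ : ℕ) (hV : r * s.nK ≤ s'.dV + o₁)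
    (ho : (s.aK + 1) * o₁ < r * s.nK) :
    St.Amin s₀ s' ∧ s'.m = r * s.m ∧ s'.nK = r * s.nK ∧ s'.aK = s.aK ∧ s'.oK ≤ o₁ := by
  obtain ⟨heq, hcm⟩ := num_cmin h.1 hC r hr hn hm
  have ha := h.2 s' hcm
  have h1 := num_aK_mul s
  have h2 := num_aK_mul s'
  have hdV : s'.dV ≤ s'.nK := finrank_Vs_le s'.g hC.2.2
  have hmul : s'.aK * s'.nK = r * (s.aK * s.nK) := by rw [h1, h2, heq]
  have haeq : s'.aK = s.aK := by
    by_contra hne
    have hlt : s.aK + 1 ≤ s'.aK := by omega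
    have e1 : (s.aK + 1) * s'.nK ≤ r * (s.aK * s.nK) := by
      rw [← hmul]; exact Nat.mul_le_mul_right _ hlt
    have e2 : r * s.nK ≤ s'.nK + o₁ := by omega
    have e3 : (s.aK + 1) * (r * s.nK) ≤ (s.aK + 1) * (s'.nK + o₁) := Nat.mul_le_mul_left _ e2
    have e4 : (s.aK + 1) * (s'.nK + o₁) = (s.aK + 1) * s'.nK + (s.aK + 1) * o₁ := by ring
    have e5 : (s.aK + 1) * (r * s.nK) = r * (s.aK * s.nK) + r * s.nK := by ring
    omega
  have hapos : 0 < s.aK := by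
    rcases Nat.eq_zero_or_pos s.aK with h0 | h0
    · rw [h0, zero_mul] at h1
      have := num_m_pos s
      omega
    · exact h0
  have hneq : s'.nK = r * s.nK := by
    rw [haeq] at hmul
    have : s.aK * s'.nK = s.aK * (r * s.nK) := by rw [hmul]; ring
    exact Nat.eq_of_mul_eq_mul_left hapos this
  refine ⟨⟨hcm, ?_⟩, heq, hneq, haeq, ?_⟩
  · intro s'' hs''
    rw [haeq]
    exact h.2 s'' hs''
  · have : s'.oK = s'.nK - s'.dV := rfl
    omega

theorem reach_refl (s : St) : St.Reach s s :=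
  ⟨RingHom.id _, RingHom.id _, fun _ => rfl, rfl, rfl, rfl⟩

theorem reach_trans {s s' s'' : St} (h : St.Reach s s') (h' : St.Reach s' s'') :
    St.Reach s s'' := by
  obtain ⟨Ψ, φ, h1, h2, h3, h4⟩ := h
  obtain ⟨Ψ', φ', h1', h2', h3', h4'⟩ := h'
  refine ⟨Ψ'.comp Ψ, φ'.comp φ, ?_, ?_, ?_, ?_⟩
  · intro a
    rw [RingHom.comp_apply, h1, h1', RingHom.comp_apply]
  · rw [RingHom.comp_apply, h2, h2']
  · rw [RingHom.comp_apply, h3, h3']
  · rw [RingHom.comp_apply, h4, h4']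

/-- `V ≠ 0` iff `dV > 0` -/
theorem V_ne_bot_iff (s : St) : s.V ≠ ⊥ ↔ 0 < s.dV := by
  unfold St.dV
  rw [Nat.pos_iff_ne_zero, ne_eq, ne_eq, Submodule.finrank_eq_zero]

/-- A state obtained by an E-step from a state with `V ≠ 0` has `V ≠ 0` (take `M = F₁ λ`, `λ ∈ L` with
`ntr (λ lin g c) ≠ 0`), so it is in the class. -/
theorem ESout.cls {s₀ s s' : St} {F₁ D₁ β : Type} [Field F₁] [CharZero F₁] [Ring D₁] [IsDomain D₁]
    [Algebra F₁ D₁] [FiniteDimensional F₁ D₁] [Algebra.IsCentral F₁ D₁]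
    [Fintype β] [DecidableEq β] {e : CExt s.F s.D F₁ D₁ β} {X : D₁} (h : ESout s s' e X)
    (hs : St.Cls s₀ s) : St.Cls s₀ s' := by
  refine ⟨reach_trans hs.1 h.reach, h.good, ?_⟩
  rw [V_ne_bot_iff]
  obtain ⟨x, hx, ξ, hξ⟩ := (Vs_ne_bot_iff s.g).1 hs.2.2
  set A := Algebra.adjoin F₁ ({e.i (s.g []), X} : Set D₁) with hA
  have hxA : e.i x ∈ A := by
    refine Algebra.adjoin_induction (p := fun x _ => e.i x ∈ A) ?_ ?_ ?_ ?_ hx
    · intro y hy
      rw [Set.mem_singleton_iff] at hy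
      subst hy
      exact Algebra.subset_adjoin (by simp)
    · intro a
      rw [e.i_alg]
      exact A.algebraMap_mem _
    · intro y z _ _ hy hz
      rw [map_add]; exact A.add_mem hy hz
    · intro y z _ _ hy hz
      rw [map_mul]; exact A.mul_mem hy hz
  have hx0 : x ≠ 0 := by
    rintro rfl
    apply hξ
    rw [zero_mul, map_zero]
  have hix0 : e.i x ≠ 0 := by
    intro h0
    obtain ⟨y, hy, -⟩ := exists_inverse s.F x hx0
    have h1 : e.i x * e.i y = 1 := by rw [← map_mul, hy, map_one]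
    rw [h0, zero_mul] at h1
    exact zero_ne_one h1
  have hM := h.V (Submodule.span F₁ {e.i x}) ?_ ?_
  · rw [finrank_span_singleton hix0] at hM
    omega
  · rw [Submodule.span_le, Set.singleton_subset_iff]
    exact hxA
  · intro y hy h1 _
    obtain ⟨c, rfl⟩ := Submodule.mem_span_singleton.1 hy
    have h2 := h1 (fun j => algebraMap F₁ D₁ (e.φ (ξ j))) (fun j => e.alg_mem_E _)
    have h3 : e.linE s.g (fun j => algebraMap F₁ D₁ (e.φ (ξ j))) = e.i (lin s.F s.g ξ) := by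
      have := e.linE_const s.g ξ 1 (one_mem _)
      simpa using this
    rw [h3, smul_mul_assoc, ← map_mul, map_smul, e.ntr_i, smul_eq_mul, mul_eq_zero] at h2
    rcases h2 with h2 | h2
    · rw [h2, zero_smul]
    · exact absurd (e.φ.injective (by rw [h2, map_zero])) hξ

end Crest.Agent.R180
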