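import Mathlib
import Crest.Agent.R180.Next
import Crest.Agent.R180.Num

/-!
# Stages, the start and one stage step (pieces START, STEP)
-/

set_option autoImplicit false
set_option linter.unusedSectionVars false

namespace Crest.Agent.R180
open Module

/-- scalars acting on noncommutative power series -/
noncomputable instance NPS.algebra {ι F D : Type} [Field F] [Ring D] [Algebra F D] :
    Algebra F (NPS ι D) :=
  RingHom.toAlgebra' ((NPS.C : D →+* NPS ι D).comp (algebraMap F D))
    (fun a f => (NPS.C_central a f).eq)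

theorem NPS.algebraMap_def {ι F D : Type} [Field F] [Ring D] [Algebra F D] (a : F) :
    algebraMap F (NPS ι D) a = NPS.C (algebraMap F D a) := rfl

/-- a stage: `F⟨X,Y⟩` is dense in `D⟨⟨w₀,w₁⟩⟩` -/
structure Stage where
  F : Type
  D : Type
  [fF : Field F]
  [cF : CharZero F]
  [rD : Ring D]
  [dD : IsDomain D]
  [aD : Algebra F D]
  [fD : FiniteDimensional F D]
  [zD : Algebra.IsCentral F D]
  rou : ∀ n : ℕ, 0 < n → ∃ ζ : F, IsPrimitiveRoot ζ n
  X : NPS (Fin 2) D
  Y : NPS (Fin 2) D
  g1 : Good1 F X Y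
  gp : GoodPair F X Y ![1, 0] ![0, 1]

attribute [instance] Stage.fF Stage.cF Stage.rD Stage.dD Stage.aD Stage.fD Stage.zD

/-- the state of a stage and an element -/
def Stage.toSt (σ : Stage) (g : NPS (Fin 2) σ.D) (hg : g ∈ AlgXY σ.F σ.X σ.Y) : St where
  F := σ.F
  D := σ.D
  ι := Fin 2
  rou := σ.rou
  X := σ.X
  Y := σ.Y
  g := g
  hg := hg

end Crest.Agent.R180
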