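import Mathlib
import Crest.Agent.R180.Stage
import Crest.Agent.R180.Casimir

/-!
# Piece FINDIM
-/

set_option autoImplicit false
set_option linter.unusedSectionVars false

namespace Crest.Agent.R180
open Module

section
variable {F D : Type} [Field F] [Ring D] [Algebra F D]

theorem fd_smul_apply {ι : Type} (a : F) (f : NPS ι D) (m : List ι) : (a • f) m = a • f m := by
  rw [Algebra.smul_def, NPS.algebraMap_def, NPS.C_mul, ← Algebra.smul_def]

/-- the constant term as an algebra homomorphism -/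
noncomputable def fd_const : NPS (Fin 2) D →ₐ[F] D :=
  { (NPS.const : NPS (Fin 2) D →+* D) with
    commutes' := fun _ => rfl }

theorem fd_const_apply (f : NPS (Fin 2) D) : fd_const (F := F) f = f [] := rfl

/-- the coefficient of `w₀` -/
noncomputable def fd_coef : NPS (Fin 2) D →ₗ[F] D where
  toFun f := f [0]
  map_add' _ _ := rfl
  map_smul' a f := by simpa using fd_smul_apply a f [0]

theorem fd_coef_apply (f : NPS (Fin 2) D) : fd_coef (F := F) f = f [0] := rfl

end

/-- **FINDIM**: at a stage, `F⟨X,Y⟩` is not finite dimensional: there is no finite dimensional `F`-subspace `M` of `D⟨⟨w⟩⟩` with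
`1 ∈ M`, `X M ⊂ M`, `Y M ⊂ M`.
Otherwise the `F`-algebra `A = F⟨X,Y⟩ ⊂ M` (it is contained in `M`) is finite dimensional and a domain, so
a division ring, and the constant term map `A → D` is injective, with image `A₀ = F⟨X₀,Y₀⟩`.  The coefficient of `w₀` gives a derivation
`δ : A₀ → D`, `δ X₀ = X [0]`, `δ Y₀ = Y [0]`; `inner_of_derivation` gives `h` with `X [0] = [h, X₀]`, `Y [0] = [h,Y₀]`, contradiction to
`GoodPair` (`α = 1, β = 0`). -/
theorem stage_infinite (σ : Stage) (M : Submodule σ.F (NPS (Fin 2) σ.D)) (hM : FiniteDimensional σ.F M)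
    (h1 : (1 : NPS (Fin 2) σ.D) ∈ M) (hX : ∀ m ∈ M, σ.X * m ∈ M) (hY : ∀ m ∈ M, σ.Y * m ∈ M) :
    False := by
  classical
  let A : Subalgebra σ.F (NPS (Fin 2) σ.D) := Algebra.adjoin σ.F {σ.X, σ.Y}
  let S : Subalgebra σ.F (NPS (Fin 2) σ.D) :=
    { carrier := {a | ∀ m ∈ M, a * m ∈ M}
      mul_mem' := fun {a b} ha hb m hm => by rw [mul_assoc]; exact ha _ (hb m hm)
      add_mem' := fun {a b} ha hb m hm => by rw [add_mul]; exact M.add_mem (ha m hm) (hb m hm)
      algebraMap_mem' := fun r m hm => by rw [← Algebra.smul_def]; exact M.smul_mem r hm }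
  have hAS : A ≤ S := by
    refine Algebra.adjoin_le ?_
    rintro x (rfl | rfl)
    · exact hX
    · exact hY
  have hAM : ∀ a ∈ A, a ∈ M := fun a ha => by
    have := hAS ha 1 h1
    rwa [mul_one] at this
  have hAfin : FiniteDimensional σ.F A :=
    Submodule.finiteDimensional_of_le (S₁ := Subalgebra.toSubmodule A) (S₂ := M) hAM
  have hXA : σ.X ∈ A := Algebra.subset_adjoin (by simp)
  have hYA : σ.Y ∈ A := Algebra.subset_adjoin (by simp)
  let c : A →ₐ[σ.F] σ.D := (fd_const (F := σ.F)).comp A.val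
  have hc : ∀ a : A, c a = (a : NPS (Fin 2) σ.D) [] := fun a => rfl
  have hinj : Function.Injective c := by
    rw [injective_iff_map_eq_zero]
    intro a ha
    by_contra h0
    obtain ⟨y, hy, _⟩ := exists_inverse σ.F a h0
    have := congrArg c hy
    rw [map_mul, ha, zero_mul, map_one] at this
    exact zero_ne_one this
  let e : A ≃ₐ[σ.F] c.range := AlgEquiv.ofInjective c hinj
  have he : ∀ a : A, ((e a : c.range) : σ.D) = (a : NPS (Fin 2) σ.D) [] := fun a => rfl
  let δ : c.range →ₗ[σ.F] σ.D := (fd_coef (F := σ.F)) ∘ₗ A.val.toLinearMap ∘ₗ e.symm.toLinearMap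
  have hδapp : ∀ a : A, δ (e a) = (a : NPS (Fin 2) σ.D) [0] := by
    intro a
    change ((e.symm (e a) : A) : NPS (Fin 2) σ.D) [0] = _
    rw [e.symm_apply_apply]
  have hδ : ∀ a b : c.range, δ (a * b) = (a : σ.D) * δ b + δ a * (b : σ.D) := by
    intro a b
    obtain ⟨x, rfl⟩ := e.surjective a
    obtain ⟨y, rfl⟩ := e.surjective b
    rw [← map_mul, hδapp, hδapp, hδapp, he, he]
    exact NPS.mul_one_letter _ _ _
  obtain ⟨h, hh⟩ := inner_of_derivation c.range δ hδ
  have hX0 := hh (e ⟨σ.X, hXA⟩)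
  have hY0 := hh (e ⟨σ.Y, hYA⟩)
  rw [hδapp, he] at hX0 hY0
  have hgp := σ.gp 1 0 h
    (by simpa [lin, Fin.sum_univ_two] using hX0)
    (by simpa [lin, Fin.sum_univ_two] using hY0)
  exact one_ne_zero hgp.1

end Crest.Agent.R180
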