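import Mathlib
import Crest.Agent.R180.Num

/-!
# Piece S1a: at `c2`-minimal states the linear part lies in `L + [D,θ]`

Write `lin g c = x + [h, θ]`, `x` commuting with `θ` (`exists_decomp`).  `ss0` gives `s'` with `n2 s' = n2 s` and
`m' ≥ dim F[θ, x]`; `num_m` (`r = 1`) gives `m' ≤ m`.  So `F[θ,x] = F[θ]` and `x ∈ L`.
(`CExt.triv`: `e.i = id`.)
-/

set_option autoImplicit false
set_option linter.unusedSectionVars false

namespace Crest.Agent.R180
open Module

/-- elements of `V` are in `L`, so they commute with `θ` -/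
theorem V_comm {s : St} (v : s.D) (hv : v ∈ s.V) : Commute v (s.g []) := by
  have hvL : v ∈ Algebra.adjoin s.F ({s.g []} : Set s.D) := Vs_le s.g hv
  exact adjoin_comm (s.g []) v hvL (s.g []) (Algebra.subset_adjoin rfl)

/-- auxiliary: if `lin g c = x + [h, θ]` with `x ∈ L` then `x = pr_L (lin g c)`. -/
theorem S1a_pr {s : St} (c : s.ι → s.F) (x h : s.D)
    (hx : lin s.F s.g c = x + (h * s.g [] - s.g [] * h))
    (hxL : x ∈ Algebra.adjoin s.F ({s.g []} : Set s.D)) :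
    pr s.F (Algebra.adjoin s.F ({s.g []} : Set s.D)) (lin s.F s.g c) = x := by
  refine pr_unique _ _ _ hxL ?_
  intro a ha
  have hc : Commute a (s.g []) :=
    adjoin_comm (s.g []) a ha (s.g []) (Algebra.subset_adjoin rfl)
  rw [hx, mul_add, map_add, ntr_mul_comm_zero (s.g []) a h hc, add_zero]

/-- **S1a**.  Note that then `v = pr_L (lin g c) ∈ V`. -/
theorem S1a {s₀ s : St} (h : St.Cmin s₀ s) (c : s.ι → s.F) :
    ∃ v ∈ s.V, ∃ k : s.D, lin s.F s.g c = v + (k * s.g [] - s.g [] * k) := by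
  obtain ⟨x, k, hxc, hx⟩ := exists_decomp s.F (s.g []) (lin s.F s.g c)
  obtain ⟨s', hs'⟩ := ss0 s h.1.2.1 c k x hx hxc
  have hC : St.Cls s₀ s' := hs'.cls h.1
  have hn : s'.n2 = 1 ^ 2 * s.n2 := by
    rw [hs'.n2]; simp [St.n2]
  have hm := num_m h hC 1 hn
  have hm' := hs'.m
  have hle : Algebra.adjoin s.F ({s.g []} : Set s.D) ≤
      Algebra.adjoin s.F ({(CExt.triv s.F s.D).i (s.g []), x} : Set s.D) := by
    apply Algebra.adjoin_mono
    rintro y hy
    left
    exact hy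
  have hfin : finrank s.F (Algebra.adjoin s.F
      ({(CExt.triv s.F s.D).i (s.g []), x} : Set s.D)) ≤
      finrank s.F (Algebra.adjoin s.F ({s.g []} : Set s.D)) := by
    calc _ ≤ s'.m := hm'
      _ ≤ 1 * s.m := hm
      _ = _ := by rw [one_mul]; rfl
  have heq : Subalgebra.toSubmodule (Algebra.adjoin s.F ({s.g []} : Set s.D)) =
      Subalgebra.toSubmodule (Algebra.adjoin s.F
        ({(CExt.triv s.F s.D).i (s.g []), x} : Set s.D)) :=
    Submodule.eq_of_le_of_finrank_le hle hfin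
  have hxL : x ∈ Algebra.adjoin s.F ({s.g []} : Set s.D) := by
    rw [← Subalgebra.mem_toSubmodule, heq]
    exact Algebra.subset_adjoin (by simp)
  refine ⟨x, ?_, k, hx⟩
  show x ∈ Vs s.F s.g
  rw [mem_Vs_iff]
  exact ⟨c, S1a_pr c x k hx hxL⟩

/-- every element of `V` occurs -/
theorem S1a' {s₀ s : St} (h : St.Cmin s₀ s) (v : s.D) (hv : v ∈ s.V) :
    ∃ (c : s.ι → s.F) (k : s.D), lin s.F s.g c = v + (k * s.g [] - s.g [] * k) := by
  have hv' : v ∈ Vs s.F s.g := hv
  rw [mem_Vs_iff] at hv'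
  obtain ⟨c, hc⟩ := hv'
  obtain ⟨v', hv'V, k, hk⟩ := S1a h c
  have hv'L : v' ∈ Algebra.adjoin s.F ({s.g []} : Set s.D) := Vs_le s.g hv'V
  have h2 := S1a_pr c v' k hk hv'L
  refine ⟨c, k, ?_⟩
  rw [hk, ← h2, hc]

end Crest.Agent.R180
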