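import Mathlib
import Crest.Agent.R180.Defs
import Crest.Agent.R180.ClockShift

/-!
# Piece D1: twisted Hahn series
-/

set_option autoImplicit false
set_option linter.unusedSectionVars false

namespace Crest.Agent.R180
open Module HahnSeries

/-- the exponent group -/
abbrev Gam : Type := ℤ ×ₗ ℤ

namespace Sym

/-- bimultiplicative twist -/
noncomputable def tw {F : Type} [Field F] (ζ : F) (a b : Gam) : F :=
  ζ ^ ((ofLex a).2 * (ofLex b).1)

theorem tw_ne {F : Type} [Field F] {ζ : F} (hζ : ζ ≠ 0) (a b : Gam) : tw ζ a b ≠ 0 :=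
  zpow_ne_zero _ hζ

/-- multiplication by `r` on exponents -/
def rm (r : ℕ) : Gam →+ Gam where
  toFun a := toLex ((r : ℤ) * (ofLex a).1, (r : ℤ) * (ofLex a).2)
  map_zero' := by simp
  map_add' a b := by
    apply ofLex.injective
    ext <;> simp [mul_add]

@[simp] theorem rm_fst (r : ℕ) (a : Gam) : (ofLex (rm r a)).1 = (r : ℤ) * (ofLex a).1 := rfl
@[simp] theorem rm_snd (r : ℕ) (a : Gam) : (ofLex (rm r a)).2 = (r : ℤ) * (ofLex a).2 := rfl

theorem gam_ext {a b : Gam} (h1 : (ofLex a).1 = (ofLex b).1) (h2 : (ofLex a).2 = (ofLex b).2) :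
    a = b := ofLex.injective (Prod.ext h1 h2)

theorem rm_inj {r : ℕ} (hr : 0 < r) : Function.Injective (rm r) := by
  intro a b h
  have h1 : (r : ℤ) * (ofLex a).1 = (r : ℤ) * (ofLex b).1 := by
    rw [← rm_fst, ← rm_fst, h]
  have h2 : (r : ℤ) * (ofLex a).2 = (r : ℤ) * (ofLex b).2 := by
    rw [← rm_snd, ← rm_snd, h]
  have hr' : (r : ℤ) ≠ 0 := by exact_mod_cast hr.ne'
  exact gam_ext (mul_left_cancel₀ hr' h1) (mul_left_cancel₀ hr' h2)

theorem rm_le {r : ℕ} (hr : 0 < r) (a b : Gam) : rm r a ≤ rm r b ↔ a ≤ b := by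
  have hr' : (0 : ℤ) < r := by exact_mod_cast hr
  rw [Prod.Lex.le_iff, Prod.Lex.le_iff, rm_fst, rm_fst, rm_snd, rm_snd,
    mul_lt_mul_iff_right₀ hr', mul_le_mul_iff_right₀ hr', mul_right_inj' hr'.ne']

/-- a ring containing `D` and commuting units `W γ`, multiplicative up to the twist -/
structure TwRep (F D R : Type) [Field F] [Ring D] [Algebra F D] [Ring R] (ζ : F) (r : ℕ) where
  hz : ζ ≠ 0
  sc : D →+* R
  W : Gam → Rˣ
  sc_inj : Function.Injective sc
  comm : ∀ d γ, sc d * (W γ : R) = W γ * sc d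
  mul : ∀ a b, (W a : R) * W b = sc (algebraMap F D (tw ζ a b)) * W (a + b)
  Wr : ∀ a : Gam, W (rm r a) = 1

section
variable {F D R : Type} [Field F] [Ring D] [Algebra F D] [Ring R] {ζ : F} {r : ℕ}

theorem TwRep.W0 (T : TwRep F D R ζ r) : T.W 0 = 1 := by
  have := T.Wr 0
  rwa [map_zero] at this

theorem TwRep.cancel (T : TwRep F D R ζ r) {d d' : D} {γ : Gam}
    (h : T.sc d * T.W γ = T.sc d' * T.W γ) : d = d' :=
  T.sc_inj ((Units.mul_left_inj _).1 h)

theorem TwRep.mul' (T : TwRep F D R ζ r) (a b : Gam) (x y : D) :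
    (T.sc x * T.W a) * (T.sc y * T.W b) =
      T.sc (x * y * algebraMap F D (tw ζ a b)) * T.W (a + b) := by
  calc (T.sc x * T.W a) * (T.sc y * T.W b) = T.sc x * (T.W a * T.sc y) * T.W b := by
        simp only [mul_assoc]
    _ = T.sc x * (T.sc y * T.W a) * T.W b := by rw [T.comm]
    _ = T.sc x * T.sc y * (T.W a * T.W b) := by simp only [mul_assoc]
    _ = _ := by rw [T.mul, map_mul, map_mul]; simp only [mul_assoc]

/-- the subring of twisted Hahn series -/
def TH (T : TwRep F D R ζ r) : Subring (HahnSeries Gam R) where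
  carrier := {x | ∀ γ, ∃ d, x.coeff γ = T.sc d * T.W γ}
  mul_mem' := by
    intro x y hx hy γ
    choose dx hdx using hx
    choose dy hdy using hy
    refine ⟨∑ ij ∈ Finset.antidiagonal x.isPWO_support y.isPWO_support γ,
      dx ij.1 * dy ij.2 * algebraMap F D (tw ζ ij.1 ij.2), ?_⟩
    rw [HahnSeries.coeff_mul, map_sum, Finset.sum_mul]
    apply Finset.sum_congr rfl
    intro ij h
    rw [Finset.mem_antidiagonal] at h
    rw [hdx, hdy, T.mul', h.2.2]
  one_mem' := by
    intro γ
    by_cases h : γ = 0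
    · subst h
      exact ⟨1, by simp [T.W0, HahnSeries.coeff_one]⟩
    · exact ⟨0, by simp [HahnSeries.coeff_one, h]⟩
  zero_mem' := fun γ => ⟨0, by simp⟩
  add_mem' := by
    intro x y hx hy γ
    obtain ⟨d, hd⟩ := hx γ
    obtain ⟨e, he⟩ := hy γ
    exact ⟨d + e, by rw [HahnSeries.coeff_add, hd, he, map_add, add_mul]⟩
  neg_mem' := by
    intro x hx γ
    obtain ⟨d, hd⟩ := hx γ
    exact ⟨-d, by rw [HahnSeries.coeff_neg, hd, map_neg, neg_mul]⟩

variable {T : TwRep F D R ζ r}

/-- coordinates -/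
noncomputable def co (x : TH T) (γ : Gam) : D := (x.2 γ).choose

theorem co_spec (x : TH T) (γ : Gam) : (x : HahnSeries Gam R).coeff γ = T.sc (co x γ) * T.W γ :=
  (x.2 γ).choose_spec

theorem co_eq {x : TH T} {γ : Gam} {d : D}
    (h : (x : HahnSeries Gam R).coeff γ = T.sc d * T.W γ) : co x γ = d :=
  T.cancel (by rw [← co_spec, h])

theorem co_ext {x y : TH T} (h : ∀ γ, co x γ = co y γ) : x = y := by
  apply Subtype.ext
  ext γ
  rw [co_spec, co_spec, h]

theorem co_add (x y : TH T) (γ : Gam) : co (x + y) γ = co x γ + co y γ := by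
  apply co_eq
  rw [Subring.coe_add, HahnSeries.coeff_add, co_spec, co_spec, map_add, add_mul]

theorem co_zero (γ : Gam) : co (0 : TH T) γ = 0 := by
  apply co_eq
  simp

theorem co_neg (x : TH T) (γ : Gam) : co (-x) γ = - co x γ := by
  apply co_eq
  rw [Subring.coe_neg, HahnSeries.coeff_neg, co_spec, map_neg, neg_mul]

theorem co_sum {ι : Type} (s : Finset ι) (f : ι → TH T) (γ : Gam) :
    co (∑ i ∈ s, f i) γ = ∑ i ∈ s, co (f i) γ := by
  classical
  induction s using Finset.induction_on with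
  | empty => simp [co_zero]
  | insert a s ha ih => rw [Finset.sum_insert ha, Finset.sum_insert ha, co_add, ih]

/-- element with given coordinates -/
noncomputable def ofCo (T : TwRep F D R ζ r) (y : HahnSeries Gam D) : TH T :=
  ⟨{ coeff := fun γ => T.sc (y.coeff γ) * T.W γ
     isPWO_support' := y.isPWO_support.mono (by
      intro γ hγ
      simp only [Function.mem_support] at hγ ⊢
      intro h
      apply hγ
      simp [h]) }, fun γ => ⟨y.coeff γ, rfl⟩⟩

theorem co_ofCo (y : HahnSeries Gam D) (γ : Gam) : co (ofCo T y) γ = y.coeff γ :=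
  co_eq rfl

/-- monomials -/
noncomputable def mono (T : TwRep F D R ζ r) (γ : Gam) (d : D) : TH T :=
  ⟨single γ (T.sc d * T.W γ), by
    intro γ'
    by_cases h : γ' = γ
    · subst h; exact ⟨d, by simp⟩
    · exact ⟨0, by rw [HahnSeries.coeff_single_of_ne h]; simp⟩⟩

theorem co_mono_same (γ : Gam) (d : D) : co (mono T γ d) γ = d := by
  apply co_eq
  simp [mono]

theorem co_mono_ne {γ γ' : Gam} (d : D) (h : γ' ≠ γ) : co (mono T γ d) γ' = 0 := by
  apply co_eq
  simp only [mono]
  rw [HahnSeries.coeff_single_of_ne h]; simp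

theorem co_mono_mul (a : Gam) (d : D) (x : TH T) (γ : Gam) :
    co (mono T a d * x) γ = d * co x (γ - a) * algebraMap F D (tw ζ a (γ - a)) := by
  apply co_eq
  rw [Subring.coe_mul]
  simp only [mono]
  rw [HahnSeries.coeff_single_mul, co_spec, T.mul', add_sub_cancel]

theorem co_mul_mono (a : Gam) (d : D) (x : TH T) (γ : Gam) :
    co (x * mono T a d) γ = co x (γ - a) * d * algebraMap F D (tw ζ (γ - a) a) := by
  apply co_eq
  rw [Subring.coe_mul]
  simp only [mono]
  rw [HahnSeries.coeff_mul_single, co_spec, T.mul', sub_add_cancel]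

theorem mono_mul_mono (a b : Gam) (x y : D) :
    mono T a x * mono T b y = mono T (a + b) (x * y * algebraMap F D (tw ζ a b)) := by
  apply co_ext
  intro γ
  rw [co_mono_mul]
  by_cases h : γ = a + b
  · subst h
    rw [add_sub_cancel_left, co_mono_same, co_mono_same]
  · rw [co_mono_ne _ h, co_mono_ne, mul_zero, zero_mul]
    intro h'
    apply h
    rw [← h']; abel

theorem mono_add (γ : Gam) (d e : D) : mono T γ (d + e) = mono T γ d + mono T γ e := by
  apply co_ext
  intro γ'
  rw [co_add]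
  by_cases h : γ' = γ
  · subst h; simp [co_mono_same]
  · simp [co_mono_ne _ h]

theorem mono_one : mono T 0 1 = 1 := by
  apply Subtype.ext
  simp [mono, T.W0]

theorem mono_zero (γ : Gam) : mono T γ 0 = 0 := by
  apply Subtype.ext
  simp [mono]

instance instNZD [IsDomain D] : NoZeroDivisors (TH T) where
  eq_zero_or_eq_zero_of_mul_eq_zero := by
    intro x y hxy
    by_contra hcon
    push Not at hcon
    obtain ⟨hx, hy⟩ := hcon
    have hx' : (x : HahnSeries Gam R) ≠ 0 := fun h => hx (Subtype.ext h)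
    have hy' : (y : HahnSeries Gam R) ≠ 0 := fun h => hy (Subtype.ext h)
    have h1 := HahnSeries.coeff_mul_order_add_order (x : HahnSeries Gam R) (y : HahnSeries Gam R)
    rw [← Subring.coe_mul, hxy] at h1
    rw [HahnSeries.leadingCoeff_eq, HahnSeries.leadingCoeff_eq, co_spec x, co_spec y, T.mul',
      Subring.coe_zero, HahnSeries.coeff_zero] at h1
    have hcx : co x (x : HahnSeries Gam R).order ≠ 0 := by
      intro h
      have := HahnSeries.leadingCoeff_ne_zero.2 hx'
      rw [HahnSeries.leadingCoeff_eq, co_spec, h] at this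
      simp at this
    have hcy : co y (y : HahnSeries Gam R).order ≠ 0 := by
      intro h
      have := HahnSeries.leadingCoeff_ne_zero.2 hy'
      rw [HahnSeries.leadingCoeff_eq, co_spec, h] at this
      simp at this
    have h2 : (0 : D) = co x (x : HahnSeries Gam R).order * co y (y : HahnSeries Gam R).order *
        algebraMap F D (tw ζ (x : HahnSeries Gam R).order (y : HahnSeries Gam R).order) := by
      apply T.cancel (γ := (x : HahnSeries Gam R).order + (y : HahnSeries Gam R).order)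
      rw [← h1]; simp
    have hz : ζ ≠ 0 := T.hz
    have h3 : algebraMap F D (tw ζ (x : HahnSeries Gam R).order (y : HahnSeries Gam R).order) ≠ 0 := by
      intro h
      exact tw_ne hz _ _ ((map_eq_zero_iff _ (algebraMap F D).injective).1 h)
    exact mul_ne_zero (mul_ne_zero hcx hcy) h3 h2.symm

theorem gam_zsub (a b : Gam) : (ofLex (a - b)).1 = (ofLex a).1 - (ofLex b).1 ∧
    (ofLex (a - b)).2 = (ofLex a).2 - (ofLex b).2 := ⟨rfl, rfl⟩

theorem tw_rm_left {r : ℕ} (hr : ζ ^ r = 1) (a b : Gam) : tw ζ (rm r a) b = 1 := by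
  unfold tw
  rw [rm_snd, mul_assoc, zpow_mul, zpow_natCast, hr, one_zpow]

theorem tw_rm_right {r : ℕ} (hr : ζ ^ r = 1) (a b : Gam) : tw ζ a (rm r b) = 1 := by
  unfold tw
  rw [rm_fst, show (ofLex a).2 * ((r : ℤ) * (ofLex b).1) = r * ((ofLex a).2 * (ofLex b).1) by ring,
    zpow_mul, zpow_natCast, hr, one_zpow]

/-- coefficientwise image -/
noncomputable def hm {A B : Type} [Ring A] [Ring B] (f : A →+* B) :
    HahnSeries Gam A →+* HahnSeries Gam B where
  toFun x := x.map f
  map_one' := by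
    ext n; by_cases h : n = 0 <;> simp [h, HahnSeries.coeff_one]
  map_zero' := by ext; simp
  map_add' x y := by ext; simp
  map_mul' x y := HahnSeries.map_mul (f : A →ₙ+* B)

/-- the embedding `t^γ ↦ t^{r γ}` -/
noncomputable def preA (T : TwRep F D R ζ r) (hr : 0 < r) :
    HahnSeries Gam F →+* HahnSeries Gam R :=
  (HahnSeries.embDomainRingHom (rm r) (rm_inj hr) (rm_le hr)).comp
    (hm (T.sc.comp (algebraMap F D)))

theorem preA_rm (hr : 0 < r) (f : HahnSeries Gam F) (a : Gam) :
    (preA T hr f).coeff (rm r a) = T.sc (algebraMap F D (f.coeff a)) := by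
  simp only [preA, RingHom.comp_apply, HahnSeries.embDomainRingHom_apply]
  exact HahnSeries.embDomain_coeff (f := ⟨⟨rm r, rm_inj hr⟩, rm_le hr _ _⟩)

theorem preA_not (hr : 0 < r) (f : HahnSeries Gam F) (a : Gam) (ha : ∀ b, rm r b ≠ a) :
    (preA T hr f).coeff a = 0 := by
  simp only [preA, RingHom.comp_apply, HahnSeries.embDomainRingHom_apply]
  apply HahnSeries.embDomain_of_notMem_range
  rintro ⟨b, hb⟩
  exact ha b hb

theorem preA_mem (hr : 0 < r) (f : HahnSeries Gam F) : preA T hr f ∈ TH T := by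
  intro γ
  by_cases h : ∃ b, rm r b = γ
  · obtain ⟨b, rfl⟩ := h
    exact ⟨algebraMap F D (f.coeff b), by rw [preA_rm, T.Wr]; simp⟩
  · push Not at h
    exact ⟨0, by rw [preA_not hr f γ h]; simp⟩

theorem preA_central (hr : 0 < r) (f : HahnSeries Gam F) (a : Gam) (d : D) (γ : Gam) :
    (preA T hr f).coeff a * (T.sc d * T.W γ) = (T.sc d * T.W γ) * (preA T hr f).coeff a := by
  by_cases h : ∃ b, rm r b = a
  · obtain ⟨b, rfl⟩ := h
    rw [preA_rm, ← mul_assoc, ← map_mul, Algebra.commutes, map_mul, mul_assoc, T.comm, mul_assoc]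
  · push Not at h
    rw [preA_not hr f a h]; simp

/-- the structure map of the `F₀`-algebra `TH` -/
noncomputable def algT (T : TwRep F D R ζ r) (hr : 0 < r) : HahnSeries Gam F →+* TH T :=
  (preA T hr).codRestrict (TH T) (preA_mem hr)

theorem algT_comm (hr : 0 < r) (f : HahnSeries Gam F) (x : TH T) :
    algT T hr f * x = x * algT T hr f := by
  apply Subtype.ext
  rw [Subring.coe_mul, Subring.coe_mul]
  change preA T hr f * (x : HahnSeries Gam R) = x * preA T hr f
  ext γ
  rw [HahnSeries.coeff_mul, HahnSeries.coeff_mul]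
  refine Finset.sum_equiv (Equiv.prodComm Gam Gam) ?_ ?_
  · intro p
    simp only [Finset.mem_antidiagonal, Equiv.prodComm_apply, Prod.fst_swap, Prod.snd_swap]
    constructor
    · rintro ⟨h1, h2, h3⟩; exact ⟨h2, h1, by rw [← h3, add_comm]⟩
    · rintro ⟨h1, h2, h3⟩; exact ⟨h2, h1, by rw [← h3, add_comm]⟩
  · intro p _
    simp only [Equiv.prodComm_apply, Prod.fst_swap, Prod.snd_swap]
    rw [co_spec x, preA_central]

/-- the algebra structure -/
noncomputable abbrev algInst (T : TwRep F D R ζ r) (hr : 0 < r) : Algebra (HahnSeries Gam F) (TH T) :=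
  RingHom.toAlgebra' (algT T hr) (fun f x => algT_comm hr f x)

theorem co_algT_rm (hr : 0 < r) (f : HahnSeries Gam F) (a : Gam) :
    co (algT T hr f) (rm r a) = algebraMap F D (f.coeff a) := by
  apply co_eq
  change (preA T hr f).coeff (rm r a) = _
  rw [preA_rm, T.Wr]; simp

theorem co_algT_not (hr : 0 < r) (f : HahnSeries Gam F) (a : Gam) (ha : ∀ b, rm r b ≠ a) :
    co (algT T hr f) a = 0 := by
  apply co_eq
  change (preA T hr f).coeff a = _
  rw [preA_not hr f a ha]; simp

theorem co_algT_mul_mono (hr : 0 < r) (hζ : ζ ^ r = 1) (f : HahnSeries Gam F) (b : Gam) (d : D)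
    (a : Gam) : co (algT T hr f * mono T b d) (rm r a + b) = algebraMap F D (f.coeff a) * d := by
  rw [co_mul_mono, add_sub_cancel_right, co_algT_rm, tw_rm_left hζ, map_one, mul_one]

theorem co_algT_mul_mono_not (hr : 0 < r) (f : HahnSeries Gam F) (b : Gam) (d : D)
    (γ : Gam) (h : ∀ a, rm r a + b ≠ γ) : co (algT T hr f * mono T b d) γ = 0 := by
  rw [co_mul_mono, co_algT_not hr f (γ - b), zero_mul, zero_mul]
  intro a ha
  exact h a (by rw [ha]; abel)

/-- the exponent `(i,j)` -/
def ex (i j : ℕ) : Gam := toLex ((i : ℤ), (j : ℤ))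

@[simp] theorem ex_fst (i j : ℕ) : (ofLex (ex i j)).1 = i := rfl
@[simp] theorem ex_snd (i j : ℕ) : (ofLex (ex i j)).2 = j := rfl

theorem exists_div (hr : 0 < r) (γ : Gam) : ∃ (p : Fin r × Fin r) (a : Gam),
    rm r a + ex p.1 p.2 = γ := by
  have hr' : (r : ℤ) ≠ 0 := by exact_mod_cast hr.ne'
  have hr'' : (0 : ℤ) < r := by exact_mod_cast hr
  have key : ∀ n : ℤ, ∃ (i : Fin r) (q : ℤ), (r : ℤ) * q + (i : ℕ) = n := by
    intro n
    refine ⟨⟨(n % r).toNat, ?_⟩, n / r, ?_⟩
    · have h1 := Int.emod_lt_of_pos n hr''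
      have h2 := Int.emod_nonneg n hr'
      omega
    · have h2 := Int.emod_nonneg n hr'
      simp only [Int.toNat_of_nonneg h2]
      exact Int.mul_ediv_add_emod n r
  obtain ⟨i, q, hi⟩ := key (ofLex γ).1
  obtain ⟨j, q', hj⟩ := key (ofLex γ).2
  exact ⟨(i, j), toLex (q, q'), gam_ext hi hj⟩

theorem div_unique (hr : 0 < r) {p p' : Fin r × Fin r} {a a' : Gam}
    (h : rm r a + ex p.1 p.2 = rm r a' + ex p'.1 p'.2) : p = p' ∧ a = a' := by
  have key : ∀ (i i' : Fin r) (q q' : ℤ), (r : ℤ) * q + (i : ℕ) = (r : ℤ) * q' + (i' : ℕ) →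
      i = i' ∧ q = q' := by
    intro i i' q q' h
    have hr' : (r : ℤ) ≠ 0 := by exact_mod_cast hr.ne'
    have h1 : ((i : ℕ) : ℤ) = (i' : ℕ) := by
      have e1 := congrArg (· % (r : ℤ)) h
      simp only [Int.mul_add_emod_self_left] at e1
      rw [Int.emod_eq_of_lt (by positivity) (by exact_mod_cast i.2),
        Int.emod_eq_of_lt (by positivity) (by exact_mod_cast i'.2)] at e1
      exact e1
    refine ⟨Fin.ext (by exact_mod_cast h1), ?_⟩
    rw [h1] at h
    exact mul_left_cancel₀ hr' (add_right_cancel h)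
  have h1 : (r : ℤ) * (ofLex a).1 + ((p.1 : ℕ) : ℤ) = (r : ℤ) * (ofLex a').1 + ((p'.1 : ℕ) : ℤ) := by
    have := congrArg (fun z : Gam => (ofLex z).1) h
    exact this
  have h2 : (r : ℤ) * (ofLex a).2 + ((p.2 : ℕ) : ℤ) = (r : ℤ) * (ofLex a').2 + ((p'.2 : ℕ) : ℤ) := by
    have := congrArg (fun z : Gam => (ofLex z).2) h
    exact this
  obtain ⟨e1, e2⟩ := key _ _ _ _ h1
  obtain ⟨e3, e4⟩ := key _ _ _ _ h2
  exact ⟨Prod.ext e1 e3, gam_ext e2 e4⟩

theorem tw_zero_left (b : Gam) : tw ζ 0 b = 1 := by simp [tw]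
theorem tw_zero_right (b : Gam) : tw ζ b 0 = 1 := by simp [tw]

/-- constants -/
noncomputable def iT (T : TwRep F D R ζ r) : D →+* TH T where
  toFun d := mono T 0 d
  map_one' := mono_one
  map_mul' x y := by rw [mono_mul_mono, tw_zero_left, map_one, mul_one, add_zero]
  map_zero' := mono_zero 0
  map_add' := mono_add 0

theorem iT_apply (d : D) : iT T d = mono T 0 d := rfl

theorem iT_mul_mono (d : D) (γ : Gam) (e : D) : iT T d * mono T γ e = mono T γ (d * e) := by
  rw [iT_apply, mono_mul_mono, tw_zero_left, map_one, mul_one, zero_add]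

theorem mono_mul_iT (d : D) (γ : Gam) (e : D) : mono T γ e * iT T d = mono T γ (e * d) := by
  rw [iT_apply, mono_mul_mono, tw_zero_right, map_one, mul_one, add_zero]

theorem co_iT_mul (d : D) (x : TH T) (γ : Gam) : co (iT T d * x) γ = d * co x γ := by
  rw [iT_apply, co_mono_mul, tw_zero_left, map_one, mul_one, sub_zero]

theorem co_mul_iT (d : D) (x : TH T) (γ : Gam) : co (x * iT T d) γ = co x γ * d := by
  rw [iT_apply, co_mul_mono, tw_zero_right, map_one, mul_one, sub_zero]

theorem ex_add (i j k l : ℕ) : ex i j + ex k l = ex (i + k) (j + l) := by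
  apply gam_ext <;> simp

theorem mono_u_pow (n : ℕ) : mono T (ex 1 0) 1 ^ n = mono T (ex n 0) 1 := by
  induction n with
  | zero => rw [pow_zero, ← mono_one]; rfl
  | succ n ih =>
    rw [pow_succ, ih, mono_mul_mono, ex_add, mul_one]
    simp [tw]

theorem mono_v_pow (n : ℕ) : mono T (ex 0 1) 1 ^ n = mono T (ex 0 n) 1 := by
  induction n with
  | zero => rw [pow_zero, ← mono_one]; rfl
  | succ n ih =>
    rw [pow_succ, ih, mono_mul_mono, ex_add, mul_one]
    simp [tw]

theorem mono_uv (i j : ℕ) : mono T (ex 1 0) 1 ^ i * mono T (ex 0 1) 1 ^ j = mono T (ex i j) 1 := by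
  rw [mono_u_pow, mono_v_pow, mono_mul_mono, ex_add]
  simp [tw]

theorem rm_ex (r' i j : ℕ) : rm r' (ex i j) = ex (r' * i) (r' * j) := by
  apply gam_ext <;> simp

theorem algT_single (hr : 0 < r) (a : Gam) (c : F) :
    algT T hr (single a c) = mono T (rm r a) (algebraMap F D c) := by
  apply co_ext
  intro γ
  by_cases h : ∃ b, rm r b = γ
  · obtain ⟨b, rfl⟩ := h
    rw [co_algT_rm]
    by_cases hb : b = a
    · subst hb; rw [co_mono_same]; simp
    · rw [HahnSeries.coeff_single_of_ne hb, map_zero, co_mono_ne]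
      exact fun h => hb (rm_inj hr h)
  · push Not at h
    rw [co_algT_not hr _ _ h, co_mono_ne]
    exact fun h' => h a h'.symm

end
end Sym
end Crest.Agent.R180
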