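import Mathlib
import Crest.Agent.R180.SymExistAux1

/-!
# Piece D1: twisted Hahn series, part 2
-/

set_option autoImplicit false
set_option linter.unusedSectionVars false

namespace Crest.Agent.R180
open Module HahnSeries
namespace Sym
section
variable {F D R : Type} [Field F] [Ring D] [Algebra F D] [Ring R] {ζ : F} {r : ℕ}
variable {T : TwRep F D R ζ r}

theorem isPWO_pre (hr : 0 < r) (x : TH T) (b : Gam) (f : Gam → F)
    (hf : ∀ a, f a ≠ 0 → co x (rm r a + b) ≠ 0) : (Function.support f).IsPWO := by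
  intro g
  have h1 : ∀ n, rm r (g n).1 + b ∈ (x : HahnSeries Gam R).support := by
    intro n
    rw [HahnSeries.mem_support]
    intro h
    apply hf (g n).1 (g n).2
    exact co_eq (by rw [h]; simp)
  obtain ⟨m, n, hmn, hle⟩ := (x : HahnSeries Gam R).isPWO_support
    (fun n => ⟨rm r (g n).1 + b, h1 n⟩)
  refine ⟨m, n, hmn, ?_⟩
  exact (rm_le hr _ _).1 (le_of_add_le_add_right hle)

section ext
variable (hr : 0 < r) (hζ : ζ ^ r = 1)

theorem sum_coord (hζ : ζ ^ r = 1) {n : ℕ} (e : Fin n → D)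
    (g : Fin n × (Fin r × Fin r) → HahnSeries Gam F)
    (q : Fin r × Fin r) (a : Gam) :
    co (∑ p : Fin n × (Fin r × Fin r), algT T hr (g p) * mono T (ex p.2.1 p.2.2) (e p.1))
      (rm r a + ex q.1 q.2) = ∑ k, (g (k, q)).coeff a • e k := by
  rw [co_sum, Fintype.sum_prod_type]
  apply Finset.sum_congr rfl
  intro k _
  rw [Finset.sum_eq_single q]
  · rw [co_algT_mul_mono hr hζ, Algebra.smul_def]
  · intro q' _ hq'
    apply co_algT_mul_mono_not
    intro a' ha'
    exact hq' (div_unique hr ha').1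
  · intro h; exact absurd (Finset.mem_univ q) h

theorem indepT (hζ : ζ ^ r = 1) {n : ℕ} (e : Fin n → D) (he : LinearIndependent F e) :
    @LinearIndependent _ (HahnSeries Gam F) (TH T)
      (fun p : Fin n × (Fin r × Fin r) => iT T (e p.1) * mono T (ex p.2.1 p.2.2) 1) _ _
      (algInst T hr).toModule := by
  let _ := algInst T hr
  rw [Fintype.linearIndependent_iff]
  intro g hg p
  have hg' : ∑ p : Fin n × (Fin r × Fin r),
      algT T hr (g p) * mono T (ex p.2.1 p.2.2) (e p.1) = 0 := by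
    rw [← hg]
    apply Finset.sum_congr rfl
    intro p _
    rw [iT_mul_mono, mul_one]
    rfl
  ext a
  have h1 := sum_coord (T := T) hr hζ e g p.2 a
  rw [hg', co_zero] at h1
  have h2 := (Fintype.linearIndependent_iff.1 he) _ h1.symm p.1
  simpa using h2

theorem spanT (hζ : ζ ^ r = 1) {n : ℕ} (e : Basis (Fin n) F D) (x : TH T) :
    ∃ g : Fin n × (Fin r × Fin r) → HahnSeries Gam F,
      x = ∑ p : Fin n × (Fin r × Fin r), algT T hr (g p) * mono T (ex p.2.1 p.2.2) (e p.1) := by
  refine ⟨fun p => ⟨fun a => e.repr (co x (rm r a + ex p.2.1 p.2.2)) p.1,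
    isPWO_pre hr x (ex p.2.1 p.2.2) _ ?_⟩, ?_⟩
  · intro a ha h
    apply ha
    rw [h]; simp
  · apply co_ext
    intro γ
    obtain ⟨q, a, rfl⟩ := exists_div hr γ
    rw [sum_coord hr hζ]
    exact (e.sum_repr _).symm

end ext

end
end Sym
end Crest.Agent.R180
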