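import Mathlib
import Crest.Agent.R180.SymExistAux2

/-!
# Piece D1: twisted Hahn series, part 3
-/

set_option autoImplicit false
set_option linter.unusedSectionVars false

namespace Crest.Agent.R180
open Module HahnSeries
namespace Sym
section
variable {F D R : Type} [Field F] [Ring D] [Algebra F D] [Ring R] {ζ : F} {r : ℕ}
variable {T : TwRep F D R ζ r}

theorem finT [FiniteDimensional F D] (hr : 0 < r) (hζ : ζ ^ r = 1) :
    @Module.Finite (HahnSeries Gam F) (TH T) _ _ (algInst T hr).toModule := by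
  classical
  let _ := algInst T hr
  have e := Module.finBasis F D
  refine ⟨⟨Finset.univ.image (fun p : Fin (finrank F D) × (Fin r × Fin r) =>
    mono T (ex p.2.1 p.2.2) (e p.1)), ?_⟩⟩
  rw [eq_top_iff]
  rintro x -
  obtain ⟨g, hg⟩ := spanT hr hζ e x
  rw [hg]
  apply Submodule.sum_mem
  intro p _
  exact Submodule.smul_mem _ (g p) (Submodule.subset_span (by simp))

theorem spanDT [FiniteDimensional F D] (hr : 0 < r) (hζ : ζ ^ r = 1) :
    @Submodule.span (HahnSeries Gam F) (TH T) _ _ (algInst T hr).toModule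
      (Set.range fun p : D × (Fin r × Fin r) => iT T p.1 * mono T (ex p.2.1 p.2.2) 1) = ⊤ := by
  let _ := algInst T hr
  have e := Module.finBasis F D
  rw [eq_top_iff]
  rintro x -
  obtain ⟨g, hg⟩ := spanT hr hζ e x
  rw [hg]
  apply Submodule.sum_mem
  intro p _
  refine Submodule.smul_mem _ (g p) (Submodule.subset_span ⟨(e p.1, p.2), ?_⟩)
  simp only [iT_mul_mono, mul_one]

theorem nontrivT [Nontrivial D] : Nontrivial (TH T) := by
  refine ⟨⟨0, 1, ?_⟩⟩
  intro h
  have h1 := congrArg (fun x => co x 0) h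
  simp only [co_zero] at h1
  rw [← mono_one (T := T), co_mono_same] at h1
  exact zero_ne_one h1

theorem domT [IsDomain D] : IsDomain (TH T) := by
  have := nontrivT (T := T)
  exact NoZeroDivisors.to_isDomain _

theorem centT [IsDomain D] [Algebra.IsCentral F D] (hr : 0 < r) (hζ : IsPrimitiveRoot ζ r) :
    @Algebra.IsCentral (HahnSeries Gam F) _ (TH T) _ (algInst T hr) := by
  let _ := algInst T hr
  refine ⟨fun z hz => ?_⟩
  rw [Subalgebra.mem_center_iff] at hz
  have h1 : ∀ γ, ∃ a : F, algebraMap F D a = co z γ := by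
    intro γ
    have : co z γ ∈ Subalgebra.center F D := by
      rw [Subalgebra.mem_center_iff]
      intro d
      have := congrArg (fun x => co x γ) (hz (iT T d))
      simp only [co_iT_mul, co_mul_iT] at this
      exact this
    have h2 := Algebra.IsCentral.out this
    exact Algebra.mem_bot.1 h2
  have h2 : ∀ γ, co z γ ≠ 0 → ∃ a, rm r a = γ := by
    intro γ hγ
    have hu := congrArg (fun x => co x (γ + ex 1 0)) (hz (mono T (ex 1 0) 1))
    have hv := congrArg (fun x => co x (γ + ex 0 1)) (hz (mono T (ex 0 1) 1))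
    simp only [co_mono_mul, co_mul_mono, add_sub_cancel_right, one_mul, mul_one] at hu hv
    have hu' := mul_left_cancel₀ hγ hu
    have hv' := mul_left_cancel₀ hγ hv
    have hu2 : tw ζ (ex 1 0) γ = tw ζ γ (ex 1 0) := (algebraMap F D).injective hu'
    have hv2 : tw ζ (ex 0 1) γ = tw ζ γ (ex 0 1) := (algebraMap F D).injective hv'
    simp only [tw, ex_fst, ex_snd, Nat.cast_zero, zero_mul, zpow_zero, Nat.cast_one, mul_one,
      mul_zero, one_mul] at hu2 hv2
    obtain ⟨b, hb⟩ := (hζ.zpow_eq_one_iff_dvd _).1 hu2.symm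
    obtain ⟨a, ha⟩ := (hζ.zpow_eq_one_iff_dvd _).1 hv2
    exact ⟨toLex (a, b), gam_ext ha.symm hb.symm⟩
  choose f hf using h1
  have h3 : (Function.support fun a => f (rm r a)).IsPWO := by
    apply isPWO_pre hr z 0
    intro a ha h
    apply ha
    rw [add_zero, ← hf] at h
    exact (map_eq_zero_iff _ (algebraMap F D).injective).1 h
  rw [Algebra.mem_bot]
  refine ⟨⟨fun a => f (rm r a), h3⟩, ?_⟩
  change algT T hr _ = z
  apply co_ext
  intro γ
  by_cases h : ∃ b, rm r b = γ
  · obtain ⟨b, rfl⟩ := h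
    rw [co_algT_rm, hf]
  · rw [co_algT_not hr _ _ (by push Not at h; exact h)]
    by_contra h'
    exact h (h2 γ (fun h'' => h' h''.symm))

theorem iT_alg (hr : 0 < r) (a : F) :
    iT T (algebraMap F D a) = algT T hr (HahnSeries.C a) := by
  rw [show (HahnSeries.C a : HahnSeries Gam F) = single 0 a from rfl, algT_single, map_zero]
  rfl

theorem comm_iT (d : D) (γ : Gam) : Commute (iT T d) (mono T γ 1) := by
  unfold Commute SemiconjBy
  rw [iT_mul_mono, mono_mul_iT, one_mul, mul_one]

theorem vuT (hr : 0 < r) : mono T (ex 0 1) 1 * mono T (ex 1 0) 1 =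
    algT T hr (HahnSeries.C ζ) * (mono T (ex 1 0) 1 * mono T (ex 0 1) 1) := by
  rw [← iT_alg, mono_mul_mono, mono_mul_mono, iT_mul_mono, ex_add, ex_add]
  simp [tw]

/-- the central extension -/
noncomputable def cextT [FiniteDimensional F D] (T : TwRep F D R ζ r) (hr : 0 < r)
    (hζ : ζ ^ r = 1) :
    @CExt F D (HahnSeries Gam F) (TH T) (Fin r × Fin r) _ _ _ _ _ (algInst T hr) :=
  let _ := algInst T hr
  { φ := HahnSeries.C
    i := iT T
    i_alg := fun a => iT_alg hr a
    b := fun p => mono T (ex p.1 p.2) 1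
    k0 := (⟨0, hr⟩, ⟨0, hr⟩)
    b_k0 := mono_one
    comm := fun d _ => comm_iT d _
    indep := fun _ e he => indepT hr hζ e he
    span := spanDT hr hζ }

theorem algIndH (P : MvPolynomial (Fin 2) F)
    (h : MvPolynomial.eval₂ (HahnSeries.C : F →+* HahnSeries Gam F)
      ![single (ex 1 0) 1, single (ex 0 1) 1] P = 0) : P = 0 := by
  have key : ∀ i j : ℕ, (single (ex 1 0) 1 : HahnSeries Gam F) ^ i * single (ex 0 1) 1 ^ j =
      single (ex i j) 1 := by
    intro i j
    rw [HahnSeries.single_pow, HahnSeries.single_pow, HahnSeries.single_mul_single, one_pow,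
      one_pow, mul_one]
    have : i • ex 1 0 + j • ex 0 1 = ex i j := by
      apply gam_ext
      · change i • ((1 : ℕ) : ℤ) + j • ((0 : ℕ) : ℤ) = i
        simp
      · change i • ((0 : ℕ) : ℤ) + j • ((1 : ℕ) : ℤ) = j
        simp
    rw [this]
  ext m
  rw [MvPolynomial.eval₂_eq'] at h
  have h1 := congrArg (fun x : HahnSeries Gam F => x.coeff (ex (m 0) (m 1))) h
  simp only [Fin.prod_univ_two, Matrix.cons_val_zero, Matrix.cons_val_one, key,
    HahnSeries.coeff_zero, HahnSeries.coeff_sum] at h1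
  rw [Finset.sum_eq_single m] at h1
  · simpa using h1
  · intro m' _ hm'
    rw [HahnSeries.C_mul_eq_smul, HahnSeries.coeff_smul, HahnSeries.coeff_single_of_ne, smul_zero]
    intro h2
    apply hm'
    have e0 := congrArg (fun z : Gam => (ofLex z).1) h2
    have e1 := congrArg (fun z : Gam => (ofLex z).2) h2
    simp only [ex_fst, ex_snd, Nat.cast_inj] at e0 e1
    ext k
    fin_cases k
    · exact e0.symm
    · exact e1.symm
  · intro hm
    rw [MvPolynomial.notMem_support_iff.1 hm]
    simp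

/-- the symbol algebra data -/
noncomputable def symT [FiniteDimensional F D] (T : TwRep F D R ζ r) (hr : 0 < r)
    (hζ : ζ ^ r = 1) :
    @SymData F D (HahnSeries Gam F) (TH T) _ _ _ _ _ (algInst T hr) r ζ :=
  let _ := algInst T hr
  { e := cextT T hr hζ
    u := mono T (ex 1 0) 1
    v := mono T (ex 0 1) 1
    s := single (ex 1 0) 1
    t := single (ex 0 1) 1
    b_eq := fun i j => (mono_uv i j).symm
    comm_u := fun d => comm_iT d _
    comm_v := fun d => comm_iT d _
    vu := vuT hr
    u_pow := by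
      change _ = algT T hr _
      rw [mono_u_pow, algT_single, rm_ex, map_one, mul_one, mul_zero]
    v_pow := by
      change _ = algT T hr _
      rw [mono_v_pow, algT_single, rm_ex, map_one, mul_one, mul_zero]
    algInd := algIndH }

end

section rep
variable {F D : Type} [Field F] [Ring D] [Algebra F D] {ζ : F} {r : ℕ}

theorem exists_twRep [Nontrivial D] (hr : 0 < r) (hζ : IsPrimitiveRoot ζ r) :
    Nonempty (TwRep F D (Matrix (Fin r) (Fin r) D) ζ r) := by
  obtain ⟨C, S, hC, hS, hSC, -⟩ := exists_clock_shift F r hr ζ hζ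
  have : Nonempty (Fin r) := ⟨⟨0, hr⟩⟩
  have hz : ζ ≠ 0 := hζ.ne_zero hr.ne'
  let am : Matrix (Fin r) (Fin r) F →+* Matrix (Fin r) (Fin r) D := (algebraMap F D).mapMatrix
  have hC' : am C ^ r = 1 := by rw [← map_pow, hC, map_one]
  have hS' : am S ^ r = 1 := by rw [← map_pow, hS, map_one]
  let c : (Matrix (Fin r) (Fin r) D)ˣ := Units.ofPowEqOne (am C) r hC' hr.ne'
  let s : (Matrix (Fin r) (Fin r) D)ˣ := Units.ofPowEqOne (am S) r hS' hr.ne'
  have hc : c ^ r = 1 := by apply Units.ext; simp [c]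
  have hs : s ^ r = 1 := by apply Units.ext; simp [s]
  let sc : D →+* Matrix (Fin r) (Fin r) D := Matrix.scalar (Fin r)
  have hcomm : ∀ (d : D) (M : Matrix (Fin r) (Fin r) F), Commute (sc d) (am M) := by
    intro d M
    ext i j
    simp only [sc, am, Matrix.scalar_apply, Matrix.diagonal_mul, Matrix.mul_diagonal,
      RingHom.mapMatrix_apply, Matrix.map_apply]
    exact (Algebra.commutes _ _).symm
  have hcc : ∀ d, Commute (sc d) (c : Matrix (Fin r) (Fin r) D) := fun d => hcomm d C
  have hss : ∀ d, Commute (sc d) (s : Matrix (Fin r) (Fin r) D) := fun d => hcomm d S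
  let z : (Matrix (Fin r) (Fin r) D)ˣ :=
    Units.map (sc.comp (algebraMap F D) : F →* Matrix (Fin r) (Fin r) D) (Units.mk0 ζ hz)
  have hzv : (z : Matrix (Fin r) (Fin r) D) = sc (algebraMap F D ζ) := rfl
  have hsc : s * c = z * (c * s) := by
    apply Units.ext
    rw [Units.val_mul, Units.val_mul, Units.val_mul, hzv]
    change am S * am C = sc (algebraMap F D ζ) * (am C * am S)
    rw [← map_mul, ← map_mul, hSC]
    ext i j
    simp only [sc, am, Matrix.scalar_apply, Matrix.diagonal_mul,
      RingHom.mapMatrix_apply, Matrix.map_apply, Matrix.smul_apply, smul_eq_mul]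
    rw [map_mul]
  have hzc0 : Commute z c := Units.ext (hcc _)
  have hzs0 : Commute z s := Units.ext (hss _)
  have key1 : ∀ n : ℤ, s * c ^ n = z ^ n * c ^ n * s := by
    intro n
    have h1 : SemiconjBy s c (z * c) := by
      unfold SemiconjBy
      rw [hsc, mul_assoc]
    have h2 := h1.zpow_right n
    rw [hzc0.mul_zpow] at h2
    exact h2
  have key2 : ∀ m n : ℤ, s ^ m * c ^ n = z ^ (m * n) * (c ^ n * s ^ m) := by
    intro m n
    have h1 : SemiconjBy (c ^ n) s (z ^ (-n) * s) := by
      unfold SemiconjBy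
      rw [mul_assoc (z ^ (-n)), key1 n, mul_assoc (z ^ n), ← mul_assoc, ← zpow_add]
      simp
    have h2 := h1.zpow_right m
    rw [(hzs0.zpow_left _).mul_zpow, ← zpow_mul] at h2
    unfold SemiconjBy at h2
    rw [h2, mul_assoc (z ^ (-n * m)), ← mul_assoc, ← zpow_add]
    rw [show m * n + -n * m = 0 by ring]
    simp
  have hzz : ∀ n : ℤ, ((z ^ n : (Matrix (Fin r) (Fin r) D)ˣ) : Matrix (Fin r) (Fin r) D) =
      sc (algebraMap F D (ζ ^ n)) := by
    intro n
    rw [← map_zpow]
    change (sc.comp (algebraMap F D)) ((Units.mk0 ζ hz ^ n : Fˣ) : F) = _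
    rw [Units.val_zpow_eq_zpow_val]
    rfl
  refine ⟨{
    hz := hz
    sc := sc
    W := fun γ => c ^ (ofLex γ).1 * s ^ (ofLex γ).2
    sc_inj := ?_
    comm := ?_
    mul := ?_
    Wr := ?_ }⟩
  · intro x y hxy
    have := congrFun (congrFun hxy ⟨0, hr⟩) ⟨0, hr⟩
    simpa [sc] using this
  · intro d γ
    have h1 : Commute (sc d) ((c ^ (ofLex γ).1 * s ^ (ofLex γ).2 :
        (Matrix (Fin r) (Fin r) D)ˣ) : Matrix (Fin r) (Fin r) D) := by
      rw [Units.val_mul]
      exact ((hcc d).units_zpow_right _).mul_right ((hss d).units_zpow_right _)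
    exact h1
  · intro a b
    have h1 : (c ^ (ofLex a).1 * s ^ (ofLex a).2) * (c ^ (ofLex b).1 * s ^ (ofLex b).2) =
        z ^ ((ofLex a).2 * (ofLex b).1) * (c ^ (ofLex (a + b)).1 * s ^ (ofLex (a + b)).2) := by
      have e1 : (ofLex (a + b)).1 = (ofLex a).1 + (ofLex b).1 := rfl
      have e2 : (ofLex (a + b)).2 = (ofLex a).2 + (ofLex b).2 := rfl
      have e3 : c ^ (ofLex a).1 * z ^ ((ofLex a).2 * (ofLex b).1) =
          z ^ ((ofLex a).2 * (ofLex b).1) * c ^ (ofLex a).1 :=
        ((hzc0.zpow_right _).zpow_left _).eq.symm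
      calc (c ^ (ofLex a).1 * s ^ (ofLex a).2) * (c ^ (ofLex b).1 * s ^ (ofLex b).2)
          = c ^ (ofLex a).1 * (s ^ (ofLex a).2 * c ^ (ofLex b).1) * s ^ (ofLex b).2 := by
            simp only [mul_assoc]
        _ = c ^ (ofLex a).1 * z ^ ((ofLex a).2 * (ofLex b).1) *
            c ^ (ofLex b).1 * s ^ (ofLex a).2 * s ^ (ofLex b).2 := by
            rw [key2]; simp only [mul_assoc]
        _ = z ^ ((ofLex a).2 * (ofLex b).1) * (c ^ (ofLex a).1 *
            c ^ (ofLex b).1) * (s ^ (ofLex a).2 * s ^ (ofLex b).2) := by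
            rw [e3]; simp only [mul_assoc]
        _ = _ := by rw [← zpow_add, ← zpow_add, e1, e2, mul_assoc]
    have h2 := congrArg (fun x : (Matrix (Fin r) (Fin r) D)ˣ => (x : Matrix (Fin r) (Fin r) D)) h1
    simp only [Units.val_mul, hzz] at h2
    simp only [Units.val_mul]
    exact h2
  · intro a
    change c ^ ((r : ℤ) * (ofLex a).1) * s ^ ((r : ℤ) * (ofLex a).2) = 1
    rw [zpow_mul, zpow_mul, zpow_natCast, zpow_natCast, hc, hs, one_zpow, one_zpow, mul_one]

end rep
end Sym
end Crest.Agent.R180
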