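import Mathlib
import Crest.Agent.R180.Laurent
import Crest.Agent.R180.ClockShift
import Crest.Agent.R180.SymExistAux3

/-!
# Piece D1: existence of symbol algebra extensions

`F` a field, `D` a finite dimensional domain central over `F`, `r` prime (only `r ≥ 1` needed),
`ζ ∈ F` a primitive `r`-th root of unity.

Construction. `Γ = ℤ ×ₗ ℤ` (lexicographic, a linearly ordered abelian group), `C, S ∈ GL_r(F)` clock and
shift matrices with `C^r = S^r = 1`, `S C = ζ C S`; the `r²` matrices `C^i S^j` are linearly independent.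
`D₀ = { x ∈ HahnSeries Γ (Matrix (Fin r) (Fin r) D) | ∀ γ = (a,b), ∃ d ∈ D, x.coeff γ = d • (C^a S^b) }`
(a subring since scalar matrices from `D` commute with `C`, `S`).  Leading coefficients are `d C^a S^b`,
`d ≠ 0`, so products of nonzero elements are nonzero: domain.
`F₀ = HahnSeries Γ F` (a field), mapped to `D₀` by `Σ f_γ t^γ ↦ Σ f_γ t^{r γ} · 1`
(`HahnSeries.embDomain`).  `u = C t^{(1,0)}`, `v = S t^{(0,1)}`; `u^r = t^{(r,0)}` is the image of
`s = t^{(1,0)} ∈ F₀`, `v^r` the image of `t^{(0,1)}`.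
Basis: `x = Σ_{i,j<r} Σ_k f_{kij} e_k u^i v^j` where `f_{kij}` collects the exponents `≡ (i,j) mod r`.
Centre: an element commuting with `D`, `u`, `v` is in `F₀`.
(See `SymExistAux1`, `SymExistAux2`, `SymExistAux3` for the proofs.)
-/

set_option autoImplicit false
set_option linter.unusedSectionVars false

namespace Crest.Agent.R180
open Module

theorem exists_sym (F D : Type) [Field F] [CharZero F] [Ring D] [IsDomain D] [Algebra F D]
    [FiniteDimensional F D] [Algebra.IsCentral F D] (r : ℕ) (hr : r.Prime) (ζ : F)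
    (hζ : IsPrimitiveRoot ζ r) :
    ∃ (F₀ D₀ : Type) (_ : Field F₀) (_ : CharZero F₀) (_ : Ring D₀) (_ : IsDomain D₀)
      (_ : Algebra F₀ D₀) (_ : FiniteDimensional F₀ D₀) (_ : Algebra.IsCentral F₀ D₀),
      Nonempty (SymData F D F₀ D₀ r ζ) := by
  obtain ⟨T⟩ := Sym.exists_twRep (D := D) hr.pos hζ
  exact ⟨HahnSeries Gam F, Sym.TH T, inferInstance,
    charZero_of_injective_ringHom HahnSeries.C_injective, inferInstance, Sym.domT,
    Sym.algInst T hr.pos, Sym.finT hr.pos hζ.pow_eq_one, Sym.centT hr.pos hζ,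
    ⟨Sym.symT T hr.pos hζ.pow_eq_one⟩⟩

end Crest.Agent.R180
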