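import Mathlib
import Crest.Agent.R180.CExtNtr

/-!
# Piece SYM: calculus in a symbol extension `D₀ = D ⊗ F₀⟨u,v⟩`, `v u = ζ u v`

`bc ⊤ = D F₀` commutes with `u, v`.  Coordinates: `x = Σ_{(i,j)} c_{ij} u^i v^j`, `c_{ij} ∈ D F₀` (`CExt.exists_coord`,
`coord_unique`, `mem_bcE_iff_coord`, `b_eq`).
-/

set_option autoImplicit false
set_option linter.unusedSectionVars false

namespace Crest.Agent.R180
open Module

namespace SymData
variable {F D F₀ D₀ : Type} [Field F] [CharZero F] [Ring D] [IsDomain D] [Algebra F D]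
    [FiniteDimensional F D] [Algebra.IsCentral F D]
    [Field F₀] [CharZero F₀] [Ring D₀] [IsDomain D₀] [Algebra F₀ D₀]
    [FiniteDimensional F₀ D₀] [Algebra.IsCentral F₀ D₀] {r : ℕ} {ζ : F}
    (S : SymData F D F₀ D₀ r ζ)

theorem r_pos (S : SymData F D F₀ D₀ r ζ) : 0 < r := by
  have := S.e.k0.1.2
  omega

theorem s_ne_zero : S.s ≠ 0 := by
  intro h
  have := S.algInd (MvPolynomial.X 0) (by simp [h])
  exact MvPolynomial.X_ne_zero (R := F) (0 : Fin 2) this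

theorem t_ne_zero : S.t ≠ 0 := by
  intro h
  have := S.algInd (MvPolynomial.X 1) (by simp [h])
  exact MvPolynomial.X_ne_zero (R := F) (1 : Fin 2) this

theorem u_mem_E : S.u ∈ S.e.E := by
  rw [S.e.mem_E_iff]
  exact S.comm_u

theorem v_mem_E : S.v ∈ S.e.E := by
  rw [S.e.mem_E_iff]
  exact S.comm_v

include S in
theorem finrank_D0 : finrank F₀ D₀ = r ^ 2 * finrank F D := by
  rw [S.e.finrank_eq, Fintype.card_prod, Fintype.card_fin, pow_two, mul_comm]

theorem u_ne_zero : S.u ≠ 0 := by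
  intro h
  have h1 := S.u_pow
  rw [h, zero_pow S.r_pos.ne'] at h1
  have h2 : algebraMap F₀ D₀ S.s ≠ 0 := by
    rw [Ne, map_eq_zero_iff _ (FaithfulSMul.algebraMap_injective F₀ D₀)]
    exact S.s_ne_zero
  exact h2 h1.symm

theorem v_ne_zero : S.v ≠ 0 := by
  intro h
  have h1 := S.v_pow
  rw [h, zero_pow S.r_pos.ne'] at h1
  have h2 : algebraMap F₀ D₀ S.t ≠ 0 := by
    rw [Ne, map_eq_zero_iff _ (FaithfulSMul.algebraMap_injective F₀ D₀)]
    exact S.t_ne_zero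
  exact h2 h1.symm

/-- `ζ` in `F₀` -/
def z : F₀ := S.e.φ ζ

theorem z_ne_zero (hr : 0 < r) (hζ : IsPrimitiveRoot ζ r) : S.z ≠ 0 := by
  rw [z, Ne, map_eq_zero_iff _ S.e.φ_inj]
  exact hζ.ne_zero hr.ne'

theorem z_prim (hζ : IsPrimitiveRoot ζ r) : IsPrimitiveRoot S.z r :=
  hζ.map_of_injective S.e.φ_inj

theorem v_mul_u_pow (k : ℕ) : S.v * S.u ^ k = S.z ^ k • (S.u ^ k * S.v) := by
  induction k with
  | zero => simp
  | succ k ih =>
    have h1 : S.v * S.u = S.z • (S.u * S.v) := by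
      rw [S.vu, Algebra.smul_def]; rfl
    rw [pow_succ, ← mul_assoc, ih, smul_mul_assoc, mul_assoc, h1, mul_smul_comm, smul_smul,
      ← mul_assoc, pow_succ]

theorem v_pow_mul_u_pow (j k : ℕ) : S.v ^ j * S.u ^ k = S.z ^ (j * k) • (S.u ^ k * S.v ^ j) := by
  induction j with
  | zero => simp
  | succ j ih =>
    rw [pow_succ', mul_assoc, ih, mul_smul_comm, ← mul_assoc, v_mul_u_pow, smul_mul_assoc,
      smul_smul, mul_assoc]
    congr 1
    ring

theorem mon_mul_smul (i j k l : ℕ) : (S.u ^ i * S.v ^ j) * (S.u ^ k * S.v ^ l) =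
    (S.z ^ (j * k)) • (S.u ^ (i + k) * S.v ^ (j + l)) := by
  have : (S.u ^ i * S.v ^ j) * (S.u ^ k * S.v ^ l) =
      S.u ^ i * (S.v ^ j * S.u ^ k) * S.v ^ l := by simp only [mul_assoc]
  rw [this, v_pow_mul_u_pow, mul_smul_comm, smul_mul_assoc, pow_add, pow_add]
  simp only [mul_assoc]

theorem mon_mul (i j k l : ℕ) : (S.u ^ i * S.v ^ j) * (S.u ^ k * S.v ^ l) =
    algebraMap F₀ D₀ (S.z ^ (j * k)) * (S.u ^ (i + k) * S.v ^ (j + l)) := by
  rw [mon_mul_smul, Algebra.smul_def]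

theorem mon_pow (i j n : ℕ) : ∃ m : ℕ,
    (S.u ^ i * S.v ^ j) ^ n = S.z ^ m • (S.u ^ (i * n) * S.v ^ (j * n)) := by
  induction n with
  | zero => exact ⟨0, by simp⟩
  | succ n ih =>
    obtain ⟨m, hm⟩ := ih
    refine ⟨m + j * n * i, ?_⟩
    rw [pow_succ, hm, smul_mul_assoc, mon_mul_smul, smul_smul, ← pow_add]
    rfl

/-- `(u^i v^j)^r ∈ F₀` -/
theorem mon_pow_r (hr : 0 < r) (hζ : IsPrimitiveRoot ζ r) (i j : ℕ) :
    ∃ a : F₀, a ≠ 0 ∧ (S.u ^ i * S.v ^ j) ^ r = algebraMap F₀ D₀ a := by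
  obtain ⟨m, hm⟩ := S.mon_pow i j r
  refine ⟨S.z ^ m * (S.s ^ i * S.t ^ j), mul_ne_zero (pow_ne_zero _ (S.z_ne_zero hr hζ))
    (mul_ne_zero (pow_ne_zero _ S.s_ne_zero) (pow_ne_zero _ S.t_ne_zero)), ?_⟩
  rw [hm, mul_comm i r, mul_comm j r, pow_mul, pow_mul, S.u_pow, S.v_pow, Algebra.smul_def]
  simp only [map_mul, map_pow]

/-- coordinates with respect to `u^i v^j` -/
theorem exists_coord (x : D₀) : ∃ c : Fin r → Fin r → D₀,
    (∀ i j, c i j ∈ S.e.bc (⊤ : Submodule F D)) ∧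
    x = ∑ i, ∑ j, c i j * (S.u ^ (i : ℕ) * S.v ^ (j : ℕ)) := by
  obtain ⟨c, hc, hx⟩ := S.e.exists_coord x
  refine ⟨fun i j => c (i, j), fun i j => hc _, ?_⟩
  rw [hx, Fintype.sum_prod_type]
  simp only [S.b_eq]

theorem coord_mem (W : Submodule F D) (c : Fin r → Fin r → D₀)
    (hc : ∀ i j, c i j ∈ S.e.bc (⊤ : Submodule F D)) :
    ∑ i, ∑ j, c i j * (S.u ^ (i : ℕ) * S.v ^ (j : ℕ)) ∈ S.e.bcE W ↔ ∀ i j, c i j ∈ S.e.bc W := by
  have h := S.e.mem_bcE_iff_coord W (fun p => c p.1 p.2) (fun p => hc _ _)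
  rw [Fintype.sum_prod_type] at h
  simp only [S.b_eq] at h
  rw [h]
  exact ⟨fun h i j => h (i, j), fun h p => h _ _⟩

theorem coord_unique (c : Fin r → Fin r → D₀)
    (hc : ∀ i j, c i j ∈ S.e.bc (⊤ : Submodule F D))
    (h : ∑ i, ∑ j, c i j * (S.u ^ (i : ℕ) * S.v ^ (j : ℕ)) = 0) : ∀ i j, c i j = 0 := by
  have h1 := S.e.coord_unique (fun p => c p.1 p.2) (fun p => hc _ _) (by
    rw [Fintype.sum_prod_type]
    simp only [S.b_eq]
    exact h)
  exact fun i j => h1 (i, j)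

/-- elements of `E₀` have coordinates in `F₀` -/
theorem exists_coord_E (x : D₀) (hx : x ∈ S.e.E) : ∃ c : Fin r → Fin r → F₀,
    x = ∑ i, ∑ j, algebraMap F₀ D₀ (c i j) * (S.u ^ (i : ℕ) * S.v ^ (j : ℕ)) := by
  have h1 : x ∈ Submodule.span F₀ (Set.range S.e.b) := by
    rw [← S.e.E_eq_span]; exact hx
  obtain ⟨c, hc⟩ := (Submodule.mem_span_range_iff_exists_fun F₀).1 h1
  refine ⟨fun i j => c (i, j), ?_⟩
  rw [← hc, Fintype.sum_prod_type]
  simp only [S.b_eq, Algebra.smul_def]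

/-- independence of the monomials over `F₀` -/
theorem mon_indep (c : Fin r → Fin r → F₀)
    (h : ∑ i, ∑ j, algebraMap F₀ D₀ (c i j) * (S.u ^ (i : ℕ) * S.v ^ (j : ℕ)) = 0) :
    ∀ i j, c i j = 0 := by
  intro i j
  have h1 := Fintype.linearIndependent_iff.1 S.e.b_indep (fun p => c p.1 p.2) (by
    rw [Fintype.sum_prod_type]
    simp only [S.b_eq, Algebra.smul_def]
    exact h) (i, j)
  exact h1

theorem mon_mul_u (i j : ℕ) :
    (S.u ^ i * S.v ^ j) * S.u = S.z ^ j • (S.u * (S.u ^ i * S.v ^ j)) := by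
  have h := S.mon_mul_smul i j 1 0
  simp only [pow_one, pow_zero, mul_one, add_zero] at h
  rw [h, pow_succ', mul_assoc]

theorem v_mul_mon (i j : ℕ) :
    S.v * (S.u ^ i * S.v ^ j) = S.z ^ i • ((S.u ^ i * S.v ^ j) * S.v) := by
  have h := S.mon_mul_smul 0 1 i j
  simp only [pow_one, pow_zero, one_mul, zero_add] at h
  rw [h, add_comm 1 j, pow_succ, mul_assoc]

theorem one_sub_z_pow (hζ : IsPrimitiveRoot ζ r) (j : ℕ) (h0 : j ≠ 0) (hj : j < r) :
    S.z ^ j ≠ 1 := fun h => by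
  have := (S.z_prim hζ).pow_eq_one_iff_dvd j |>.1 h
  exact absurd (Nat.le_of_dvd (Nat.pos_of_ne_zero h0) this) (by omega)

/-- `u, v` generate -/
theorem gen_uv (hr : 1 < r) (hζ : IsPrimitiveRoot ζ r) (h : D₀) (hh : h ∈ S.e.E)
    (hu : h * S.u = S.u * h) (hv : h * S.v = S.v * h) : ∃ c : F₀, h = algebraMap F₀ D₀ c := by
  obtain ⟨c, hc⟩ := S.exists_coord_E h hh
  have h1 : ∀ i j, c i j * (S.z ^ (j : ℕ) - 1) = 0 := by
    apply S.mon_indep
    have : S.u * (∑ i, ∑ j, algebraMap F₀ D₀ (c i j * (S.z ^ (j : ℕ) - 1)) *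
        (S.u ^ (i : ℕ) * S.v ^ (j : ℕ))) = h * S.u - S.u * h := by
      rw [hc, Finset.mul_sum, Finset.mul_sum, Finset.sum_mul, ← Finset.sum_sub_distrib]
      refine Finset.sum_congr rfl fun i _ => ?_
      rw [Finset.mul_sum, Finset.mul_sum, Finset.sum_mul, ← Finset.sum_sub_distrib]
      refine Finset.sum_congr rfl fun j _ => ?_
      rw [← Algebra.smul_def, ← Algebra.smul_def, smul_mul_assoc, mon_mul_u, mul_smul_comm,
        mul_smul_comm, smul_smul, ← sub_smul]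
      congr 1
      ring
    rw [hu, sub_self] at this
    exact (mul_eq_zero.1 this).resolve_left S.u_ne_zero
  have h2 : ∀ i j, c i j * (S.z ^ (i : ℕ) - 1) = 0 := by
    apply S.mon_indep
    have : (∑ i, ∑ j, algebraMap F₀ D₀ (c i j * (S.z ^ (i : ℕ) - 1)) *
        (S.u ^ (i : ℕ) * S.v ^ (j : ℕ))) * S.v = S.v * h - h * S.v := by
      rw [hc, Finset.mul_sum, Finset.sum_mul, Finset.sum_mul, ← Finset.sum_sub_distrib]
      refine Finset.sum_congr rfl fun i _ => ?_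
      rw [Finset.mul_sum, Finset.sum_mul, Finset.sum_mul, ← Finset.sum_sub_distrib]
      refine Finset.sum_congr rfl fun j _ => ?_
      rw [← Algebra.smul_def, ← Algebra.smul_def, mul_smul_comm, v_mul_mon, smul_mul_assoc,
        smul_mul_assoc, smul_smul, ← sub_smul]
      congr 1
      ring
    rw [hv, sub_self] at this
    exact (mul_eq_zero.1 this).resolve_right S.v_ne_zero
  have h3 : ∀ i j : Fin r, ((i : ℕ) ≠ 0 ∨ (j : ℕ) ≠ 0) → c i j = 0 := by
    intro i j hij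
    rcases hij with hi | hj
    · exact (mul_eq_zero.1 (h2 i j)).resolve_right
        (sub_ne_zero.2 (S.one_sub_z_pow hζ i hi i.2))
    · exact (mul_eq_zero.1 (h1 i j)).resolve_right
        (sub_ne_zero.2 (S.one_sub_z_pow hζ j hj j.2))
  refine ⟨c ⟨0, by omega⟩ ⟨0, by omega⟩, ?_⟩
  rw [hc, Finset.sum_eq_single (⟨0, by omega⟩ : Fin r), Finset.sum_eq_single (⟨0, by omega⟩ : Fin r)]
  · simp
  · intro j _ hj
    rw [h3 _ j (Or.inr (fun h => hj (Fin.ext h))), map_zero, zero_mul]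
  · intro h; exact absurd (Finset.mem_univ _) h
  · intro i _ hi
    refine Finset.sum_eq_zero fun j _ => ?_
    rw [h3 i j (Or.inl (fun h => hi (Fin.ext h))), map_zero, zero_mul]
  · intro h; exact absurd (Finset.mem_univ _) h

/-- trace of `d u^i v^j` vanishes unless `(i,j) = (0,0)` -/
theorem ntr_mon (hr : 1 < r) (hζ : IsPrimitiveRoot ζ r) (c : D₀)
    (hc : c ∈ S.e.bc (⊤ : Submodule F D)) (i j : ℕ) (hi : i < r) (hj : j < r)
    (hij : (i, j) ≠ (0, 0)) : ntr F₀ D₀ (c * (S.u ^ i * S.v ^ j)) = 0 := by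
  have hcu : Commute c S.u := S.e.bc_comm_E c S.u hc S.u_mem_E
  have hcv : Commute c S.v := S.e.bc_comm_E c S.v hc S.v_mem_E
  obtain ⟨u', hu1, hu2⟩ := exists_inverse (F := F₀) S.u S.u_ne_zero
  obtain ⟨v', hv1, hv2⟩ := exists_inverse (F := F₀) S.v S.v_ne_zero
  have h1 : ntr F₀ D₀ (c * (S.u ^ i * S.v ^ j)) =
      S.z ^ j * ntr F₀ D₀ (c * (S.u ^ i * S.v ^ j)) := by
    conv_lhs => rw [← mul_one (c * (S.u ^ i * S.v ^ j)), ← hu1, ← mul_assoc, mul_assoc c,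
      mon_mul_u, mul_smul_comm, ← mul_assoc, hcu.eq, smul_mul_assoc, map_smul, mul_assoc S.u,
      mul_assoc S.u, ntr_comm, mul_assoc, hu2, mul_one, smul_eq_mul]
  have h2 : S.z ^ i * ntr F₀ D₀ (c * (S.u ^ i * S.v ^ j)) =
      ntr F₀ D₀ (c * (S.u ^ i * S.v ^ j)) := by
    conv_lhs => rw [← mul_one (c * (S.u ^ i * S.v ^ j)), ← hv1, ← mul_assoc, mul_assoc c,
      ← smul_eq_mul, ← map_smul, ← smul_mul_assoc, ← mul_smul_comm, ← v_mul_mon, ← mul_assoc,
      hcv.eq, mul_assoc S.v, mul_assoc S.v, ntr_comm, mul_assoc, hv2, mul_one]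
  by_contra h0
  have hij' : i ≠ 0 ∨ j ≠ 0 := by
    by_contra h
    push Not at h
    exact hij (by rw [h.1, h.2])
  rcases hij' with hi0 | hj0
  · exact S.one_sub_z_pow hζ i hi0 hi (mul_right_cancel₀ h0 (by rw [h2, one_mul]))
  · exact S.one_sub_z_pow hζ j hj0 hj (mul_right_cancel₀ h0 (by rw [← h1, one_mul]))

/-- the average `Σ_k y^k H y^{r-1-k}` -/
def avg (_S : SymData F D F₀ D₀ r ζ) (y H : D₀) : D₀ :=
  ∑ k ∈ Finset.range r, y ^ k * H * y ^ (r - 1 - k)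

/-- `avg` commutes with `y` (`y = u^i v^j`) -/
theorem avg_comm (hr : 0 < r) (hζ : IsPrimitiveRoot ζ r) (i j : ℕ) (H : D₀) :
    Commute (S.avg (S.u ^ i * S.v ^ j) H) (S.u ^ i * S.v ^ j) := by
  obtain ⟨a, -, ha⟩ := S.mon_pow_r hr hζ i j
  set y := S.u ^ i * S.v ^ j
  have h1 : y * S.avg y H - S.avg y H * y = y ^ r * H - H * y ^ r := by
    unfold avg
    rw [Finset.mul_sum, Finset.sum_mul, ← Finset.sum_sub_distrib]
    have h2 : ∀ k ∈ Finset.range r, y * (y ^ k * H * y ^ (r - 1 - k)) -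
        y ^ k * H * y ^ (r - 1 - k) * y = (fun k => y ^ k * H * y ^ (r - k)) (k + 1) -
          (fun k => y ^ k * H * y ^ (r - k)) k := by
      intro k hk
      rw [Finset.mem_range] at hk
      have e1 : r - k = (r - 1 - k) + 1 := by omega
      have e2 : r - (k + 1) = r - 1 - k := by omega
      simp only [e1, e2]
      rw [pow_succ y (r - 1 - k), pow_succ' y k]
      simp only [mul_assoc]
    rw [Finset.sum_congr rfl h2, Finset.sum_range_sub (fun k => y ^ k * H * y ^ (r - k)) r]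
    simp
  rw [ha, Algebra.commutes, sub_self, sub_eq_zero] at h1
  exact h1.symm

/-- if the `(i,j)` coordinate `c i j` of `H ∈ E₀` is nonzero then the average over `y = u^i v^j` is nonzero -/
theorem avg_ne_zero (hr : 1 < r) (hζ : IsPrimitiveRoot ζ r) (c : Fin r → Fin r → F₀)
    (i j : Fin r) (hc : c i j ≠ 0) :
    S.avg (S.u ^ (i : ℕ) * S.v ^ (j : ℕ))
      (∑ i, ∑ j, algebraMap F₀ D₀ (c i j) * (S.u ^ (i : ℕ) * S.v ^ (j : ℕ))) ≠ 0 := by
  have hz := S.z_ne_zero (by omega) hζ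
  set y := S.u ^ (i : ℕ) * S.v ^ (j : ℕ) with hy
  have hy0 : y ≠ 0 := mul_ne_zero (pow_ne_zero _ S.u_ne_zero) (pow_ne_zero _ S.v_ne_zero)
  let q : Fin r → Fin r → F₀ := fun k l => S.z ^ ((j : ℕ) * k) / S.z ^ ((l : ℕ) * i)
  have hq : ∀ k l : Fin r, y * (S.u ^ (k : ℕ) * S.v ^ (l : ℕ)) =
      q k l • ((S.u ^ (k : ℕ) * S.v ^ (l : ℕ)) * y) := by
    intro k l
    rw [hy, mon_mul_smul, mon_mul_smul, smul_smul, div_mul_cancel₀ _ (pow_ne_zero _ hz),
      add_comm (i : ℕ) k, add_comm (j : ℕ) l]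
  have hqn : ∀ (n : ℕ) (k l : Fin r), y ^ n * (S.u ^ (k : ℕ) * S.v ^ (l : ℕ)) =
      q k l ^ n • ((S.u ^ (k : ℕ) * S.v ^ (l : ℕ)) * y ^ n) := by
    intro n k l
    induction n with
    | zero => simp
    | succ n ih =>
      rw [pow_succ', mul_assoc, ih, mul_smul_comm, ← mul_assoc, hq, smul_mul_assoc, smul_smul,
        mul_assoc, ← pow_succ' y n, pow_succ (q k l)]
  have h1 : S.avg y (∑ i, ∑ j, algebraMap F₀ D₀ (c i j) * (S.u ^ (i : ℕ) * S.v ^ (j : ℕ))) =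
      (∑ k, ∑ l, algebraMap F₀ D₀ (c k l * ∑ n ∈ Finset.range r, q k l ^ n) *
        (S.u ^ (k : ℕ) * S.v ^ (l : ℕ))) * y ^ (r - 1) := by
    unfold avg
    have h2 : ∀ n ∈ Finset.range r, y ^ n *
        (∑ i, ∑ j, algebraMap F₀ D₀ (c i j) * (S.u ^ (i : ℕ) * S.v ^ (j : ℕ))) *
          y ^ (r - 1 - n) = ∑ k, ∑ l, (c k l * q k l ^ n) •
            ((S.u ^ (k : ℕ) * S.v ^ (l : ℕ)) * y ^ (r - 1)) := by
      intro n hn
      rw [Finset.mem_range] at hn
      rw [Finset.mul_sum, Finset.sum_mul]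
      refine Finset.sum_congr rfl fun k _ => ?_
      rw [Finset.mul_sum, Finset.sum_mul]
      refine Finset.sum_congr rfl fun l _ => ?_
      rw [← Algebra.smul_def, mul_smul_comm, smul_mul_assoc, hqn, smul_mul_assoc, smul_smul,
        mul_assoc, ← pow_add]
      congr 3
      omega
    rw [Finset.sum_congr rfl h2, Finset.sum_comm, Finset.sum_mul]
    refine Finset.sum_congr rfl fun k _ => ?_
    rw [Finset.sum_comm, Finset.sum_mul]
    refine Finset.sum_congr rfl fun l _ => ?_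
    rw [← Finset.sum_smul, ← Finset.mul_sum, ← Algebra.smul_def, smul_mul_assoc]
  rw [h1]
  intro h0
  have h3 := (mul_eq_zero.1 h0).resolve_right (pow_ne_zero _ hy0)
  have h4 := S.mon_indep _ h3 i j
  have h5 : q i j = 1 := by
    exact div_self (pow_ne_zero _ hz)
  rw [h5] at h4
  simp only [one_pow, Finset.sum_const, Finset.card_range, nsmul_eq_mul, mul_one] at h4
  rcases mul_eq_zero.1 h4 with h6 | h6
  · exact hc h6
  · exact absurd h6 (Nat.cast_ne_zero.2 (by omega))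

/-- powers of a nonscalar monomial `y` are independent over `D F₀` -/
theorem mon_pow_indep (hr : r.Prime) (hζ : IsPrimitiveRoot ζ r) (i j : Fin r)
    (hij : (i : ℕ) ≠ 0 ∨ (j : ℕ) ≠ 0) (p : Fin r → D₀)
    (hp : ∀ k, p k ∈ S.e.bc (⊤ : Submodule F D))
    (h : ∑ k, p k * (S.u ^ (i : ℕ) * S.v ^ (j : ℕ)) ^ (k : ℕ) = 0) : ∀ k, p k = 0 := by
  classical
  have hz := S.z_ne_zero hr.pos hζ
  -- reduce exponents
  let σ : Fin r → Fin r × Fin r := fun k =>
    (⟨((i : ℕ) * k) % r, Nat.mod_lt _ hr.pos⟩, ⟨((j : ℕ) * k) % r, Nat.mod_lt _ hr.pos⟩)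
  have hσ : ∀ k : Fin r, ∃ a : F₀, a ≠ 0 ∧ (S.u ^ (i : ℕ) * S.v ^ (j : ℕ)) ^ (k : ℕ) =
      a • (S.u ^ ((σ k).1 : ℕ) * S.v ^ ((σ k).2 : ℕ)) := by
    intro k
    obtain ⟨m, hm⟩ := S.mon_pow i j k
    refine ⟨S.z ^ m * (S.s ^ ((i : ℕ) * k / r) * S.t ^ ((j : ℕ) * k / r)),
      mul_ne_zero (pow_ne_zero _ hz)
      (mul_ne_zero (pow_ne_zero _ S.s_ne_zero) (pow_ne_zero _ S.t_ne_zero)), ?_⟩
    have e1 : ∀ n : ℕ, S.u ^ n = S.s ^ (n / r) • S.u ^ (n % r) := by
      intro n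
      conv_lhs => rw [← Nat.div_add_mod n r, pow_add, pow_mul, S.u_pow, ← map_pow,
        ← Algebra.smul_def]
    have e2 : ∀ n : ℕ, S.v ^ n = S.t ^ (n / r) • S.v ^ (n % r) := by
      intro n
      conv_lhs => rw [← Nat.div_add_mod n r, pow_add, pow_mul, S.v_pow, ← map_pow,
        ← Algebra.smul_def]
    rw [hm, e1 ((i : ℕ) * k), e2 ((j : ℕ) * k), smul_mul_assoc, mul_smul_comm, smul_smul, smul_smul,
      mul_assoc]
  choose a ha hak using hσ
  have hinj : Function.Injective σ := by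
    intro k l hkl
    have h1 : ((i : ℕ) * k) % r = ((i : ℕ) * l) % r := congrArg (fun x => (x.1 : ℕ)) hkl
    have h2 : ((j : ℕ) * k) % r = ((j : ℕ) * l) % r := congrArg (fun x => (x.2 : ℕ)) hkl
    have h3 : ∀ m : Fin r, (m : ℕ) ≠ 0 → ((m : ℕ) * k) % r = ((m : ℕ) * l) % r → k = l := by
      intro m hm hmk
      have hcop : Nat.gcd r m = 1 := by
        rw [← Nat.coprime_iff_gcd_eq_one, Nat.Prime.coprime_iff_not_dvd hr]
        intro hd
        exact absurd (Nat.le_of_dvd (Nat.pos_of_ne_zero hm) hd) (by have := m.2; omega)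
      have h4 : (k : ℕ) ≡ l [MOD r] := Nat.ModEq.cancel_left_of_coprime hcop hmk
      have h5 : (k : ℕ) % r = l % r := h4
      rw [Nat.mod_eq_of_lt k.2, Nat.mod_eq_of_lt l.2] at h5
      exact Fin.ext h5
    rcases hij with hi | hj
    · exact h3 i hi h1
    · exact h3 j hj h2
  -- coordinates
  let c : Fin r → Fin r → D₀ := fun x y => ∑ k, if σ k = (x, y) then a k • p k else 0
  have hc : ∀ x y, c x y ∈ S.e.bc (⊤ : Submodule F D) := by
    intro x y
    refine Submodule.sum_mem _ fun k _ => ?_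
    split_ifs
    · exact Submodule.smul_mem _ _ (hp k)
    · exact Submodule.zero_mem _
  have h1 : ∑ x, ∑ y, c x y * (S.u ^ (x : ℕ) * S.v ^ (y : ℕ)) = 0 := by
    rw [← h, ← Fintype.sum_prod_type (f := fun q : Fin r × Fin r =>
      c q.1 q.2 * (S.u ^ (q.1 : ℕ) * S.v ^ (q.2 : ℕ)))]
    simp only [c, Finset.sum_mul]
    rw [Finset.sum_comm]
    refine Finset.sum_congr rfl fun k _ => ?_
    rw [Finset.sum_eq_single (σ k)]
    · rw [if_pos rfl, hak, smul_mul_assoc, mul_smul_comm]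
    · intro q _ hq
      rw [if_neg (fun h => hq h.symm), zero_mul]
    · intro h; exact absurd (Finset.mem_univ _) h
  intro k
  have h2 := S.coord_unique c hc h1 (σ k).1 (σ k).2
  simp only [c] at h2
  rw [Finset.sum_eq_single k] at h2
  · rw [if_pos rfl] at h2
    exact (smul_eq_zero.1 h2).resolve_left (ha k)
  · intro l _ hl
    rw [if_neg (fun h => hl (hinj h))]
  · intro h; exact absurd (Finset.mem_univ _) h

end SymData
end Crest.Agent.R180
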