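import Mathlib
import Crest.Agent.R180.SymApi

/-!
# Piece SYMY: the element `Y = u + t v`
* `Yq`: the `q`-binomial theorem: with `A = u`, `B = t v` (`B A = ζ A B`),
  `(A+B)^k = Σ_n q(k,n) A^{k-n} B^n`, `q(k+1,n) = q(k,n-1) ζ^{?}+ …`; nonvanishing for `n ≤ k < r`: show by induction
  `q(k,n) ∏_{i=1}^{n} (1-ζ^i) ∏_{i=1}^{k-n} (1-ζ^i) = ∏_{i=1}^{k} (1-ζ^i)`.
* `Ycoef`: compare the coefficients of `u^{k-n} v^n` (total degree `k < r` determines `k`).
* `Y_cent`: coordinates.  If `x = Σ c_{ij} u^i v^j` commutes with `u + t v`, then so does `x - Σ_k c_{k0} Y^k`, so we may assume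
  `c_{k0} = 0`; now compare coefficients of `[x, Y]`, by induction on `j` all `c_{ij}` vanish.
-/

set_option autoImplicit false
set_option linter.unusedSectionVars false

namespace Crest.Agent.R180
open Module

/-! ### Gaussian binomials -/

/-- Gaussian binomial coefficients -/
def gq {F : Type} [Field F] (ζ : F) : ℕ → ℕ → F
  | 0, 0 => 1
  | 0, _ + 1 => 0
  | _ + 1, 0 => 1
  | k + 1, n + 1 => ζ ^ (n + 1) * gq ζ k (n + 1) + gq ζ k n

theorem gq_zero {F : Type} [Field F] (ζ : F) (k : ℕ) : gq ζ k 0 = 1 := by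
  cases k <;> simp [gq]

theorem gq_succ {F : Type} [Field F] (ζ : F) (k n : ℕ) :
    gq ζ (k + 1) (n + 1) = ζ ^ (n + 1) * gq ζ k (n + 1) + gq ζ k n := by
  rw [gq]

theorem gq_big {F : Type} [Field F] (ζ : F) : ∀ k n : ℕ, k < n → gq ζ k n = 0
  | 0, 0, h => absurd h (lt_irrefl _)
  | 0, _ + 1, _ => by rw [gq]
  | _ + 1, 0, h => absurd h (Nat.not_lt_zero _)
  | k + 1, n + 1, h => by
    rw [gq, gq_big ζ k (n + 1) (by omega), gq_big ζ k n (by omega), mul_zero, add_zero]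

theorem gq_self {F : Type} [Field F] (ζ : F) : ∀ k : ℕ, gq ζ k k = 1
  | 0 => by rw [gq]
  | k + 1 => by rw [gq, gq_big ζ k (k + 1) (by omega), gq_self ζ k, mul_zero, zero_add]

/-- `[m]! (1-ζ)^m` -/
def gf {F : Type} [Field F] (ζ : F) (m : ℕ) : F := ∏ i ∈ Finset.range m, (1 - ζ ^ (i + 1))

theorem gf_succ {F : Type} [Field F] (ζ : F) (m : ℕ) :
    gf ζ (m + 1) = gf ζ m * (1 - ζ ^ (m + 1)) := by
  rw [gf, Finset.prod_range_succ, gf]

theorem gf_ne {F : Type} [Field F] {ζ : F} {r : ℕ} (hζ : IsPrimitiveRoot ζ r) (m : ℕ)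
    (hm : m < r) : gf ζ m ≠ 0 := by
  rw [gf, Finset.prod_ne_zero_iff]
  intro i hi h
  rw [Finset.mem_range] at hi
  exact hζ.pow_ne_one_of_pos_of_lt (Nat.succ_ne_zero i) (by omega) (sub_eq_zero.1 h).symm

theorem gf_r {F : Type} [Field F] {ζ : F} {r : ℕ} (hr : 0 < r) (hζ : IsPrimitiveRoot ζ r) :
    gf ζ r = 0 := by
  obtain ⟨m, rfl⟩ : ∃ m, r = m + 1 := ⟨r - 1, by omega⟩
  rw [gf_succ, hζ.pow_eq_one, sub_self, mul_zero]

theorem gq_gf {F : Type} [Field F] (ζ : F) : ∀ k n : ℕ, n ≤ k →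
    gq ζ k n * gf ζ n * gf ζ (k - n) = gf ζ k
  | 0, n, h => by
    obtain rfl : n = 0 := by omega
    simp [gq, gf]
  | k + 1, 0, _ => by simp [gq, gf]
  | k + 1, n + 1, h => by
    rcases Nat.lt_or_ge n k with h1 | h1
    · have e1 := gq_gf ζ k (n + 1) (by omega)
      have e2 := gq_gf ζ k n (by omega)
      have h2 : k - n = (k - (n + 1)) + 1 := by omega
      have h3 : k + 1 - (n + 1) = k - n := by omega
      have h4 : ζ ^ (n + 1) * ζ ^ (k - (n + 1) + 1) = ζ ^ (k + 1) := by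
        rw [← pow_add]; congr 1; omega
      rw [h3, gq_succ, gf_succ ζ k]
      calc (ζ ^ (n + 1) * gq ζ k (n + 1) + gq ζ k n) * gf ζ (n + 1) * gf ζ (k - n)
          = ζ ^ (n + 1) * (gq ζ k (n + 1) * gf ζ (n + 1) * gf ζ (k - n)) +
            gq ζ k n * gf ζ (n + 1) * gf ζ (k - n) := by ring
        _ = ζ ^ (n + 1) * (gq ζ k (n + 1) * gf ζ (n + 1) * gf ζ (k - (n + 1))) *
              (1 - ζ ^ (k - (n + 1) + 1)) +
            gq ζ k n * gf ζ n * gf ζ (k - n) * (1 - ζ ^ (n + 1)) := by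
            rw [h2, gf_succ ζ (k - (n + 1)), gf_succ ζ n]; ring
        _ = gf ζ k * (1 - ζ ^ (n + 1) * ζ ^ (k - (n + 1) + 1)) := by rw [e1, e2]; ring
        _ = _ := by rw [h4]
    · obtain rfl : n = k := by omega
      rw [gq_self, Nat.sub_self]
      simp [gf]

theorem gq_ne {F : Type} [Field F] {ζ : F} {r : ℕ} (hζ : IsPrimitiveRoot ζ r) (k n : ℕ)
    (hk : k < r) (hn : n ≤ k) : gq ζ k n ≠ 0 := by
  intro h
  have := gq_gf ζ k n hn
  rw [h, zero_mul, zero_mul] at this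
  exact gf_ne hζ k hk this.symm

theorem gq_r {F : Type} [Field F] {ζ : F} {r : ℕ} (hr : 0 < r) (hζ : IsPrimitiveRoot ζ r) (n : ℕ)
    (h0 : 0 < n) (hn : n < r) : gq ζ r n = 0 := by
  have := gq_gf ζ r n hn.le
  rw [gf_r hr hζ] at this
  rcases mul_eq_zero.1 this with h | h
  · rcases mul_eq_zero.1 h with h | h
    · exact h
    · exact absurd h (gf_ne hζ n hn)
  · exact absurd h (gf_ne hζ (r - n) (by omega))

namespace SymData
variable {F D F₀ D₀ : Type} [Field F] [CharZero F] [Ring D] [IsDomain D] [Algebra F D]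
    [FiniteDimensional F D] [Algebra.IsCentral F D]
    [Field F₀] [CharZero F₀] [Ring D₀] [IsDomain D₀] [Algebra F₀ D₀]
    [FiniteDimensional F₀ D₀] [Algebra.IsCentral F₀ D₀] {r : ℕ} {ζ : F}
    (S : SymData F D F₀ D₀ r ζ)

/-- `Y = u + t v` -/
def Y (t : D) : D₀ := S.u + S.e.i t * S.v

theorem Y_zero_add (t : D) : S.Y t = S.u + S.e.i t * S.v := rfl

theorem sy_alg_swap (b : F₀) (x w : D₀) :
    x * (algebraMap F₀ D₀ b * w) = algebraMap F₀ D₀ b * (x * w) := by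
  rw [← mul_assoc, ← Algebra.commutes, mul_assoc]

theorem sy_swap_mid (a b M w : D₀) (h : b * M = M * b) : a * M * (b * w) = a * b * (M * w) := by
  rw [mul_assoc, mul_assoc, ← mul_assoc M, ← h, mul_assoc]

/-- `i (a x) = φ a i x` -/
theorem sy_i_alg_mul (a : F) (x : D) :
    S.e.i (algebraMap F D a * x) = algebraMap F₀ D₀ (S.e.φ a) * S.e.i x := by
  rw [map_mul, S.e.i_alg]

theorem sy_comm_i_mon (d : D) (i j : ℕ) : Commute (S.e.i d) (S.u ^ i * S.v ^ j) :=
  ((S.comm_u d).pow_right i).mul_right ((S.comm_v d).pow_right j)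

theorem sy_mon_u (i j : ℕ) : (S.u ^ i * S.v ^ j) * S.u =
    algebraMap F₀ D₀ (S.e.φ (ζ ^ j)) * (S.u ^ (i + 1) * S.v ^ j) := by
  have := S.mon_mul i j 1 0
  rw [pow_one, pow_zero, mul_one, mul_one, add_zero] at this
  rw [this, z, ← map_pow]

theorem sy_mon_v (i j : ℕ) : (S.u ^ i * S.v ^ j) * S.v = S.u ^ i * S.v ^ (j + 1) := by
  rw [mul_assoc, ← pow_succ]

theorem sy_v_mon (i j : ℕ) : S.v * (S.u ^ i * S.v ^ j) =
    algebraMap F₀ D₀ (S.e.φ (ζ ^ i)) * (S.u ^ i * S.v ^ (j + 1)) := by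
  have := S.mon_mul 0 1 i j
  rw [pow_one, pow_zero, one_mul, one_mul, zero_add] at this
  rw [this, z, ← map_pow, add_comm]

theorem Yexp (t : D) (k : ℕ) : (S.Y t) ^ k = ∑ n ∈ Finset.range (k + 1),
      S.e.i (algebraMap F D (gq ζ k n) * t ^ n) * (S.u ^ (k - n) * S.v ^ n) := by
  induction k with
  | zero => simp [gq]
  | succ k ih =>
    let A : ℕ → D₀ := fun n =>
      S.e.i (algebraMap F D (ζ ^ n * gq ζ k n) * t ^ n) * (S.u ^ (k + 1 - n) * S.v ^ n)
    let B : ℕ → D₀ := fun n =>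
      S.e.i (algebraMap F D (gq ζ k n) * t ^ (n + 1)) * (S.u ^ (k - n) * S.v ^ (n + 1))
    have hA : ∀ n ∈ Finset.range (k + 1),
        S.e.i (algebraMap F D (gq ζ k n) * t ^ n) * (S.u ^ (k - n) * S.v ^ n) * S.u = A n := by
      intro n hn
      rw [Finset.mem_range] at hn
      have h1 : k - n + 1 = k + 1 - n := by omega
      rw [mul_assoc, S.sy_mon_u, h1]
      show _ = S.e.i (algebraMap F D (ζ ^ n * gq ζ k n) * t ^ n) * (S.u ^ (k + 1 - n) * S.v ^ n)
      rw [S.sy_i_alg_mul, S.sy_i_alg_mul, map_mul, map_mul, sy_alg_swap]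
      simp only [mul_assoc]
    have hB : ∀ n ∈ Finset.range (k + 1),
        S.e.i (algebraMap F D (gq ζ k n) * t ^ n) * (S.u ^ (k - n) * S.v ^ n) *
          (S.e.i t * S.v) = B n := by
      intro n _
      show _ = S.e.i (algebraMap F D (gq ζ k n) * t ^ (n + 1)) * (S.u ^ (k - n) * S.v ^ (n + 1))
      rw [pow_succ t n, ← mul_assoc (algebraMap F D _) _ t, map_mul S.e.i _ t, ← S.sy_mon_v]
      exact sy_swap_mid _ _ _ _ (S.sy_comm_i_mon t (k - n) n).eq
    have hC0 : S.e.i (algebraMap F D (gq ζ (k + 1) 0) * t ^ 0) *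
        (S.u ^ (k + 1 - 0) * S.v ^ 0) = A 0 := by
      show _ = S.e.i (algebraMap F D (ζ ^ 0 * gq ζ k 0) * t ^ 0) * (S.u ^ (k + 1 - 0) * S.v ^ 0)
      simp [gq_zero]
    have hCs : ∀ n, S.e.i (algebraMap F D (gq ζ (k + 1) (n + 1)) * t ^ (n + 1)) *
        (S.u ^ (k + 1 - (n + 1)) * S.v ^ (n + 1)) = A (n + 1) + B n := by
      intro n
      show _ = S.e.i (algebraMap F D (ζ ^ (n + 1) * gq ζ k (n + 1)) * t ^ (n + 1)) *
        (S.u ^ (k + 1 - (n + 1)) * S.v ^ (n + 1)) +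
        S.e.i (algebraMap F D (gq ζ k n) * t ^ (n + 1)) * (S.u ^ (k - n) * S.v ^ (n + 1))
      have h1 : k + 1 - (n + 1) = k - n := by omega
      rw [h1, ← add_mul, ← map_add, ← add_mul, ← map_add, gq_succ]
    have hA0 : A (k + 1) = 0 := by
      show S.e.i (algebraMap F D (ζ ^ (k + 1) * gq ζ k (k + 1)) * t ^ (k + 1)) *
        (S.u ^ (k + 1 - (k + 1)) * S.v ^ (k + 1)) = 0
      rw [gq_big ζ k (k + 1) (by omega)]
      simp
    rw [pow_succ, ih, Y_zero_add, mul_add, Finset.sum_mul, Finset.sum_mul,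
      Finset.sum_congr rfl hA, Finset.sum_congr rfl hB, Finset.sum_range_succ' _ (k + 1), hC0,
      Finset.sum_congr rfl (fun n _ => hCs n), Finset.sum_add_distrib]
    have h5 : ∑ n ∈ Finset.range (k + 1), A n = ∑ n ∈ Finset.range (k + 1), A (n + 1) + A 0 := by
      rw [← Finset.sum_range_succ' A (k + 1), Finset.sum_range_succ A (k + 1), hA0, add_zero]
    rw [h5]
    abel

/-- `q`-binomial theorem with nonvanishing coefficients -/
theorem Yq (hr : 0 < r) (hζ : IsPrimitiveRoot ζ r) : ∃ q : ℕ → ℕ → F,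
    (∀ k < r, ∀ n ≤ k, q k n ≠ 0) ∧ (∀ k, q k 0 = 1) ∧
    ∀ (t : D) (k : ℕ), (S.Y t) ^ k = ∑ n ∈ Finset.range (k + 1),
      S.e.i (algebraMap F D (q k n) * t ^ n) * (S.u ^ (k - n) * S.v ^ n) :=
  ⟨gq ζ, fun k hk n hn => gq_ne hζ k n hk hn, gq_zero ζ, fun t k => S.Yexp t k⟩

/-- `Y^r = u^r + t^r v^r` -/
theorem Y_pow_r (hr : 0 < r) (hζ : IsPrimitiveRoot ζ r) (t : D) :
    (S.Y t) ^ r = S.u ^ r + S.e.i (t ^ r) * S.v ^ r := by
  rw [S.Yexp, Finset.sum_range_succ, Finset.range_eq_Ico, Finset.sum_eq_sum_Ico_succ_bot hr,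
    Finset.sum_eq_zero]
  · rw [gq_zero, gq_self]
    simp
  · intro n hn
    rw [Finset.mem_Ico] at hn
    rw [gq_r hr hζ n (by omega) hn.2]
    simp

/-- coefficient of `u^i v^j` of `Σ_{k < r} p_k Y^k` -/
theorem sy_sum_Y_pow (t : D) (p : ℕ → D₀) :
    ∑ k ∈ Finset.range r, p k * (S.Y t) ^ k =
    ∑ i ∈ Finset.range r, ∑ j ∈ Finset.range r,
      (if i + j < r then p (i + j) * S.e.i (algebraMap F D (gq ζ (i + j) j) * t ^ j) else 0) *
        (S.u ^ i * S.v ^ j) := by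
  have h1 : ∀ k ∈ Finset.range r, p k * (S.Y t) ^ k = ∑ n ∈ Finset.range (k + 1),
      p k * S.e.i (algebraMap F D (gq ζ k n) * t ^ n) * (S.u ^ (k - n) * S.v ^ n) := by
    intro k _
    rw [S.Yexp, Finset.mul_sum]
    refine Finset.sum_congr rfl fun n _ => ?_
    rw [mul_assoc]
  rw [Finset.sum_congr rfl h1, Finset.sum_sigma', ← Finset.sum_product']
  simp only [ite_mul, zero_mul]
  rw [← Finset.sum_filter]
  refine Finset.sum_bij' (fun a _ => (a.1 - a.2, a.2)) (fun b _ => ⟨b.1 + b.2, b.2⟩) ?_ ?_ ?_ ?_ ?_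
  · rintro ⟨k, n⟩ h
    simp only [Finset.mem_sigma, Finset.mem_range, Finset.mem_filter, Finset.mem_product] at h ⊢
    omega
  · rintro ⟨i, j⟩ h
    simp only [Finset.mem_sigma, Finset.mem_range, Finset.mem_filter, Finset.mem_product] at h ⊢
    omega
  · rintro ⟨k, n⟩ h
    simp only [Finset.mem_sigma, Finset.mem_range] at h
    simp only [Sigma.mk.injEq, heq_eq_eq, and_true]
    omega
  · rintro ⟨i, j⟩ h
    simp
  · rintro ⟨k, n⟩ h
    simp only [Finset.mem_sigma, Finset.mem_range] at h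
    have h2 : k - n + n = k := by omega
    simp only [h2]

theorem sy_bc_top_mul (x y : D₀) (hx : x ∈ S.e.bc (⊤ : Submodule F D))
    (hy : y ∈ S.e.bc (⊤ : Submodule F D)) : x * y ∈ S.e.bc (⊤ : Submodule F D) :=
  S.e.bc_mul (⊤ : Subalgebra F D) x y hx hy

theorem sy_alg_mul_bc (W : Submodule F D) (a : F₀) (x : D₀) (hx : x ∈ S.e.bc W) :
    algebraMap F₀ D₀ a * x ∈ S.e.bc W := by
  rw [← Algebra.smul_def]
  exact Submodule.smul_mem _ _ hx

theorem sy_of_alg_mul_bc (W : Submodule F D) (a : F₀) (ha : a ≠ 0) (x : D₀)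
    (hx : algebraMap F₀ D₀ a * x ∈ S.e.bc W) : x ∈ S.e.bc W := by
  rw [← Algebra.smul_def] at hx
  have := Submodule.smul_mem _ a⁻¹ hx
  rwa [smul_smul, inv_mul_cancel₀ ha, one_smul] at this

/-- extend a `Fin r` family by zero -/
def sy_ex (p : Fin r → D₀) (k : ℕ) : D₀ := if h : k < r then p ⟨k, h⟩ else 0

theorem sy_ex_fin (p : Fin r → D₀) (k : Fin r) : sy_ex p (k : ℕ) = p k := by
  rw [sy_ex, dif_pos k.2]

theorem sy_ex_mem (W : Submodule F D) (p : Fin r → D₀) (hp : ∀ k, p k ∈ S.e.bc W) (k : ℕ) :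
    sy_ex p k ∈ S.e.bc W := by
  rw [sy_ex]
  split
  · exact hp _
  · exact zero_mem _

/-- coefficient comparison.  `p_k, z_k ∈ D F₀`. -/
theorem Ycoef (hr : 0 < r) (hζ : IsPrimitiveRoot ζ r) (t : D) (W : Submodule F D)
    (p zz : Fin r → D₀) (hp : ∀ k, p k ∈ S.e.bc (⊤ : Submodule F D))
    (hz : ∀ k, zz k ∈ S.e.bc (⊤ : Submodule F D))
    (h : (∑ k, p k * (S.Y t) ^ (k : ℕ)) + ∑ k, zz k * S.v ^ (k : ℕ) ∈ S.e.bcE W) :
    (∀ k : Fin r, ∀ n < (k : ℕ), p k * S.e.i (t ^ n) ∈ S.e.bc W) ∧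
    (∀ k : Fin r, ∃ c : F, c ≠ 0 ∧ p k * S.e.i (algebraMap F D c * t ^ (k : ℕ)) + zz k ∈ S.e.bc W) := by
  let C : ℕ → ℕ → D₀ := fun i j =>
    (if i + j < r then sy_ex p (i + j) * S.e.i (algebraMap F D (gq ζ (i + j) j) * t ^ j) else 0) +
      (if i = 0 then sy_ex zz j else 0)
  have h1 : (∑ k, p k * (S.Y t) ^ (k : ℕ)) = ∑ k ∈ Finset.range r, sy_ex p k * (S.Y t) ^ k := by
    rw [← Fin.sum_univ_eq_sum_range (fun k => sy_ex p k * (S.Y t) ^ k) r]
    exact Finset.sum_congr rfl fun k _ => by rw [sy_ex_fin]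
  have h2 : (∑ k, zz k * S.v ^ (k : ℕ)) = ∑ i ∈ Finset.range r, ∑ j ∈ Finset.range r,
      (if i = 0 then sy_ex zz j else 0) * (S.u ^ i * S.v ^ j) := by
    symm
    rw [Finset.sum_eq_single 0]
    · rw [← Fin.sum_univ_eq_sum_range (fun j => (if (0 : ℕ) = 0 then sy_ex zz j else 0) *
        (S.u ^ 0 * S.v ^ j)) r]
      exact Finset.sum_congr rfl fun k _ => by rw [sy_ex_fin, if_pos rfl, pow_zero, one_mul]
    · intro i _ hi
      simp [hi]
    · intro h0
      exact absurd (Finset.mem_range.2 hr) h0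
  have h3 : (∑ k, p k * (S.Y t) ^ (k : ℕ)) + ∑ k, zz k * S.v ^ (k : ℕ) =
      ∑ i : Fin r, ∑ j : Fin r, C i j * (S.u ^ (i : ℕ) * S.v ^ (j : ℕ)) := by
    rw [h1, h2, S.sy_sum_Y_pow, ← Finset.sum_add_distrib,
      Fin.sum_univ_eq_sum_range (fun i => ∑ j : Fin r, C i j * (S.u ^ i * S.v ^ (j : ℕ))) r]
    refine Finset.sum_congr rfl fun i _ => ?_
    rw [Fin.sum_univ_eq_sum_range (fun j => C i j * (S.u ^ i * S.v ^ j)) r,
      ← Finset.sum_add_distrib]
    refine Finset.sum_congr rfl fun j _ => ?_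
    rw [← add_mul]
  have hC : ∀ i j : Fin r, C i j ∈ S.e.bc (⊤ : Submodule F D) := by
    intro i j
    apply add_mem
    · split
      · exact S.sy_bc_top_mul _ _ (S.sy_ex_mem _ p hp _) (S.e.i_mem_bc _ _ trivial)
      · exact zero_mem _
    · split
      · exact S.sy_ex_mem _ zz hz _
      · exact zero_mem _
  rw [h3, S.coord_mem W (fun i j : Fin r => C i j) hC] at h
  constructor
  · intro k n hn
    have h4 := h ⟨(k : ℕ) - n, by omega⟩ ⟨n, by omega⟩
    have h5 : (k : ℕ) - n + n = k := by omega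
    have h6 : (k : ℕ) - n ≠ 0 := by omega
    simp only [C, h5, h6, if_false, add_zero, k.2, if_true, sy_ex_fin] at h4
    rw [sy_i_alg_mul, sy_alg_swap] at h4
    refine S.sy_of_alg_mul_bc W _ ?_ _ h4
    rw [Ne, map_eq_zero]
    exact gq_ne hζ k n k.2 hn.le
  · intro k
    refine ⟨1, one_ne_zero, ?_⟩
    have h4 := h ⟨0, hr⟩ k
    simp only [C, zero_add, k.2, if_true, sy_ex_fin, gq_self] at h4
    exact h4

/-- powers of `Y` are independent over `D F₀` -/
theorem Y_indep (hr : 0 < r) (hζ : IsPrimitiveRoot ζ r) (t : D) (p : Fin r → D₀)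
    (hp : ∀ k, p k ∈ S.e.bc (⊤ : Submodule F D)) (h : ∑ k, p k * (S.Y t) ^ (k : ℕ) = 0) :
    ∀ k, p k = 0 := by
  have hbot : S.e.bc (⊥ : Submodule F D) = ⊥ := by
    rw [CExt.bc, Submodule.span_eq_bot]
    rintro _ ⟨w, hw, rfl⟩
    rw [SetLike.mem_coe, Submodule.mem_bot] at hw
    rw [hw, map_zero]
  have h0 := S.Ycoef hr hζ t ⊥ p (fun _ => 0) hp (fun _ => zero_mem _) (by
    rw [h]; simp)
  rw [hbot] at h0
  intro k
  rcases Nat.eq_zero_or_pos (k : ℕ) with hk | hk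
  · obtain ⟨c, hc, h1⟩ := h0.2 k
    rw [hk, pow_zero, mul_one, add_zero, S.e.i_alg, Submodule.mem_bot, mul_eq_zero] at h1
    rcases h1 with h1 | h1
    · exact h1
    · rw [map_eq_zero_iff _ (algebraMap F₀ D₀).injective, map_eq_zero] at h1
      exact absurd h1 hc
  · have h1 := h0.1 k 0 hk
    rwa [pow_zero, map_one, mul_one, Submodule.mem_bot] at h1

theorem sy_range_shift (f : ℕ → D₀) (hr : 0 < r) :
    ∑ i ∈ Finset.range r, f (i + 1) = ∑ i ∈ Finset.range r, (if i = 0 then f r else f i) := by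
  obtain ⟨m, rfl⟩ : ∃ m, r = m + 1 := ⟨r - 1, by omega⟩
  rw [Finset.sum_range_succ, Finset.sum_range_succ']
  simp

theorem sy_shift_u (hr : 0 < r) (E : ℕ → ℕ → D₀) :
    ∑ i ∈ Finset.range r, ∑ j ∈ Finset.range r, E i j * (S.u ^ (i + 1) * S.v ^ j) =
    ∑ i ∈ Finset.range r, ∑ j ∈ Finset.range r,
      (if i = 0 then E (r - 1) j * algebraMap F₀ D₀ S.s else E (i - 1) j) *
        (S.u ^ i * S.v ^ j) := by
  have h := sy_range_shift (r := r)
    (fun i => ∑ j ∈ Finset.range r, E (i - 1) j * (S.u ^ i * S.v ^ j)) hr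
  simp only [Nat.add_sub_cancel] at h
  rw [h]
  refine Finset.sum_congr rfl fun i _ => ?_
  split
  · next hi =>
    subst hi
    refine Finset.sum_congr rfl fun j _ => ?_
    rw [S.u_pow, pow_zero, one_mul, mul_assoc]
  · next hi => rfl

theorem sy_shift_v (hr : 0 < r) (G : ℕ → ℕ → D₀) :
    ∑ i ∈ Finset.range r, ∑ j ∈ Finset.range r, G i j * (S.u ^ i * S.v ^ (j + 1)) =
    ∑ i ∈ Finset.range r, ∑ j ∈ Finset.range r,
      (if j = 0 then G i (r - 1) * algebraMap F₀ D₀ S.t else G i (j - 1)) *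
        (S.u ^ i * S.v ^ j) := by
  refine Finset.sum_congr rfl fun i _ => ?_
  have h := sy_range_shift (r := r) (fun j => G i (j - 1) * (S.u ^ i * S.v ^ j)) hr
  simp only [Nat.add_sub_cancel] at h
  rw [h]
  refine Finset.sum_congr rfl fun j _ => ?_
  split
  · next hj =>
    subst hj
    rw [S.v_pow, pow_zero, mul_one, mul_assoc, Algebra.commutes]
  · next hj => rfl

theorem sy_bcA_comm (A : Subalgebra F D) (hA : ∀ x ∈ A, ∀ y ∈ A, x * y = y * x) (x y : D₀)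
    (hx : x ∈ S.e.bc (Subalgebra.toSubmodule A)) (hy : y ∈ S.e.bc (Subalgebra.toSubmodule A)) :
    Commute x y := by
  induction hx using Submodule.span_induction with
  | mem z hz =>
    obtain ⟨w, hw, rfl⟩ := hz
    induction hy using Submodule.span_induction with
    | mem z' hz' =>
      obtain ⟨w', hw', rfl⟩ := hz'
      show S.e.i w * S.e.i w' = S.e.i w' * S.e.i w
      rw [← map_mul, ← map_mul, hA w hw w' hw']
    | zero => exact Commute.zero_right _
    | add a b _ _ ha hb => exact ha.add_right hb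
    | smul c a _ ha => exact ha.smul_right c
  | zero => exact Commute.zero_left _
  | add a b _ _ ha hb => exact ha.add_left hb
  | smul c a _ ha => exact ha.smul_left c

theorem sy_ex_zero' (hr : 0 < r) (p : Fin r → D₀) : sy_ex p 0 = p ⟨0, hr⟩ := by
  rw [sy_ex, dif_pos hr]

/-- commutator relations in coordinates -/
theorem sy_cent_coord (hr : 0 < r) (A : Subalgebra F D)
    (hA : ∀ x ∈ A, ∀ y ∈ A, x * y = y * x) (t : D) (ht : t ∈ A) (d : ℕ → ℕ → D₀)
    (hd : ∀ i j, d i j ∈ S.e.bc (Subalgebra.toSubmodule A))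
    (hc : Commute (∑ i ∈ Finset.range r, ∑ j ∈ Finset.range r, d i j * (S.u ^ i * S.v ^ j))
      (S.Y t)) : ∀ i < r, ∀ j < r,
    (if i = 0 then d (r - 1) j * algebraMap F₀ D₀ (S.e.φ (ζ ^ j - 1)) * algebraMap F₀ D₀ S.s
      else d (i - 1) j * algebraMap F₀ D₀ (S.e.φ (ζ ^ j - 1))) +
    (if j = 0 then d i (r - 1) * S.e.i t * algebraMap F₀ D₀ (S.e.φ (1 - ζ ^ i)) *
        algebraMap F₀ D₀ S.t
      else d i (j - 1) * S.e.i t * algebraMap F₀ D₀ (S.e.φ (1 - ζ ^ i))) = 0 := by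
  have hu : ∀ i j, d i j * S.u = S.u * d i j := fun i j =>
    (S.e.bc_comm_E _ _ (S.e.bc_mono le_top (hd i j)) S.u_mem_E).eq
  have hv : ∀ i j, d i j * S.v = S.v * d i j := fun i j =>
    (S.e.bc_comm_E _ _ (S.e.bc_mono le_top (hd i j)) S.v_mem_E).eq
  have ha : ∀ i j, d i j * S.e.i t = S.e.i t * d i j := fun i j =>
    (S.sy_bcA_comm A hA _ _ (hd i j) (S.e.i_mem_bc _ _ ht)).eq
  have key : ∀ i j, d i j * (S.u ^ i * S.v ^ j) * S.Y t - S.Y t * (d i j * (S.u ^ i * S.v ^ j)) =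
      (d i j * algebraMap F₀ D₀ (S.e.φ (ζ ^ j - 1))) * (S.u ^ (i + 1) * S.v ^ j) +
      (d i j * S.e.i t * algebraMap F₀ D₀ (S.e.φ (1 - ζ ^ i))) * (S.u ^ i * S.v ^ (j + 1)) := by
    intro i j
    have e1 : d i j * (S.u ^ i * S.v ^ j) * S.Y t =
        d i j * (algebraMap F₀ D₀ (S.e.φ (ζ ^ j)) * (S.u ^ (i + 1) * S.v ^ j)) +
        d i j * S.e.i t * (S.u ^ i * S.v ^ (j + 1)) := by
      rw [Y_zero_add, mul_add, mul_assoc, S.sy_mon_u, ← S.sy_mon_v i j]
      congr 1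
      exact sy_swap_mid _ _ _ _ (S.sy_comm_i_mon t i j).eq
    have e2 : S.Y t * (d i j * (S.u ^ i * S.v ^ j)) =
        d i j * (S.u ^ (i + 1) * S.v ^ j) +
        d i j * S.e.i t * (algebraMap F₀ D₀ (S.e.φ (ζ ^ i)) * (S.u ^ i * S.v ^ (j + 1))) := by
      rw [Y_zero_add, add_mul, ← S.sy_v_mon i j]
      congr 1
      · rw [← mul_assoc, ← hu, mul_assoc, ← mul_assoc S.u, ← pow_succ']
      · rw [ha i j, mul_assoc, mul_assoc, ← mul_assoc S.v, ← hv, mul_assoc]
    rw [e1, e2, map_sub, map_sub, map_one, map_one, map_sub, map_sub, map_one, map_one]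
    simp only [mul_sub, sub_mul, mul_one, mul_assoc]
    abel
  let E : ℕ → ℕ → D₀ := fun i j => d i j * algebraMap F₀ D₀ (S.e.φ (ζ ^ j - 1))
  let G : ℕ → ℕ → D₀ := fun i j => d i j * S.e.i t * algebraMap F₀ D₀ (S.e.φ (1 - ζ ^ i))
  have h1 : (∑ i ∈ Finset.range r, ∑ j ∈ Finset.range r, E i j * (S.u ^ (i + 1) * S.v ^ j)) +
      ∑ i ∈ Finset.range r, ∑ j ∈ Finset.range r, G i j * (S.u ^ i * S.v ^ (j + 1)) = 0 := by
    have h2 := sub_eq_zero.2 hc.eq
    rw [Finset.sum_mul, Finset.mul_sum, ← Finset.sum_sub_distrib] at h2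
    rw [← Finset.sum_add_distrib, ← h2]
    refine Finset.sum_congr rfl fun i _ => ?_
    rw [← Finset.sum_add_distrib, Finset.sum_mul, Finset.mul_sum, ← Finset.sum_sub_distrib]
    exact Finset.sum_congr rfl fun j _ => (key i j).symm
  rw [S.sy_shift_u hr, S.sy_shift_v hr, ← Finset.sum_add_distrib] at h1
  have h2 : ∑ i : Fin r, ∑ j : Fin r,
      ((if (i : ℕ) = 0 then E (r - 1) j * algebraMap F₀ D₀ S.s else E (i - 1) j) +
        (if (j : ℕ) = 0 then G i (r - 1) * algebraMap F₀ D₀ S.t else G i (j - 1))) *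
        (S.u ^ (i : ℕ) * S.v ^ (j : ℕ)) = 0 := by
    rw [← h1, Fin.sum_univ_eq_sum_range (fun i => ∑ j : Fin r,
      ((if i = 0 then E (r - 1) j * algebraMap F₀ D₀ S.s else E (i - 1) j) +
        (if (j : ℕ) = 0 then G i (r - 1) * algebraMap F₀ D₀ S.t else G i (j - 1))) *
        (S.u ^ i * S.v ^ (j : ℕ))) r]
    refine Finset.sum_congr rfl fun i _ => ?_
    rw [← Finset.sum_add_distrib, Fin.sum_univ_eq_sum_range (fun j =>
      ((if i = 0 then E (r - 1) j * algebraMap F₀ D₀ S.s else E (i - 1) j) +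
        (if j = 0 then G i (r - 1) * algebraMap F₀ D₀ S.t else G i (j - 1))) *
        (S.u ^ i * S.v ^ j)) r]
    exact Finset.sum_congr rfl fun j _ => add_mul _ _ _
  have hE : ∀ i j, E i j ∈ S.e.bc (⊤ : Submodule F D) := fun i j => by
    show d i j * _ ∈ _
    rw [← Algebra.commutes]
    exact S.sy_alg_mul_bc _ _ _ (S.e.bc_mono le_top (hd i j))
  have hG : ∀ i j, G i j ∈ S.e.bc (⊤ : Submodule F D) := fun i j => by
    show d i j * _ * _ ∈ _
    rw [← Algebra.commutes]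
    exact S.sy_alg_mul_bc _ _ _ (S.sy_bc_top_mul _ _ (S.e.bc_mono le_top (hd i j))
      (S.e.i_mem_bc _ _ trivial))
  intro i hi j hj
  refine S.coord_unique (fun i j : Fin r =>
      ((if (i : ℕ) = 0 then E (r - 1) j * algebraMap F₀ D₀ S.s else E (i - 1) j) +
        (if (j : ℕ) = 0 then G i (r - 1) * algebraMap F₀ D₀ S.t else G i (j - 1)))) ?_ h2
        ⟨i, hi⟩ ⟨j, hj⟩
  intro i j
  refine add_mem ?_ ?_
  · split
    · rw [← Algebra.commutes]; exact S.sy_alg_mul_bc _ _ _ (hE _ _)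
    · exact hE _ _
  · split
    · rw [← Algebra.commutes]; exact S.sy_alg_mul_bc _ _ _ (hG _ _)
    · exact hG _ _

/-- centralizer of `Y` in `A ⊗ E₀` -/
theorem Y_cent (hr : 1 < r) (hζ : IsPrimitiveRoot ζ r) (A : Subalgebra F D)
    (hA : ∀ x ∈ A, ∀ y ∈ A, x * y = y * x) (t : D) (ht : t ∈ A) (x : D₀)
    (hx : x ∈ S.e.bcE (Subalgebra.toSubmodule A)) (hc : Commute x (S.Y t)) :
    ∃ p : Fin r → D₀, (∀ k, p k ∈ S.e.bc (Subalgebra.toSubmodule A)) ∧
      x = ∑ k, p k * (S.Y t) ^ (k : ℕ) := by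
  have hr0 : 0 < r := by omega
  obtain ⟨c, hc1, hc2⟩ := S.exists_coord x
  have hc3 : ∀ i j, c i j ∈ S.e.bc (Subalgebra.toSubmodule A) := by
    rw [hc2, S.coord_mem _ c hc1] at hx
    exact hx
  let p : Fin r → D₀ := fun k => c k ⟨0, hr0⟩
  have hp : ∀ k, p k ∈ S.e.bc (Subalgebra.toSubmodule A) := fun k => hc3 _ _
  refine ⟨p, hp, ?_⟩
  let c' : ℕ → ℕ → D₀ := fun i j => sy_ex (fun i' => sy_ex (c i') j) i
  have hc' : ∀ i j, c' i j ∈ S.e.bc (Subalgebra.toSubmodule A) := fun i j =>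
    S.sy_ex_mem _ _ (fun i' => S.sy_ex_mem _ _ (fun j' => hc3 i' j') j) i
  let d : ℕ → ℕ → D₀ := fun i j => c' i j -
    (if i + j < r then sy_ex p (i + j) * S.e.i (algebraMap F D (gq ζ (i + j) j) * t ^ j) else 0)
  have hd : ∀ i j, d i j ∈ S.e.bc (Subalgebra.toSubmodule A) := by
    intro i j
    refine sub_mem (hc' i j) ?_
    split
    · exact S.e.bc_mul A _ _ (S.sy_ex_mem _ _ hp _) (S.e.i_mem_bc _ _
        (A.mul_mem (A.algebraMap_mem _) (A.pow_mem ht _)))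
    · exact zero_mem _
  have hxc : x = ∑ i ∈ Finset.range r, ∑ j ∈ Finset.range r, c' i j * (S.u ^ i * S.v ^ j) := by
    rw [hc2, ← Fin.sum_univ_eq_sum_range (fun i => ∑ j ∈ Finset.range r,
      c' i j * (S.u ^ i * S.v ^ j)) r]
    refine Finset.sum_congr rfl fun i _ => ?_
    rw [← Fin.sum_univ_eq_sum_range (fun j => c' i j * (S.u ^ (i : ℕ) * S.v ^ j)) r]
    refine Finset.sum_congr rfl fun j _ => ?_
    show _ = sy_ex (fun i' => sy_ex (c i') j) i * _
    rw [sy_ex_fin, sy_ex_fin]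
  have hpY : ∑ k, p k * (S.Y t) ^ (k : ℕ) = ∑ k ∈ Finset.range r, sy_ex p k * (S.Y t) ^ k := by
    rw [← Fin.sum_univ_eq_sum_range (fun k => sy_ex p k * (S.Y t) ^ k) r]
    exact Finset.sum_congr rfl fun k _ => by rw [sy_ex_fin]
  have hy : x - ∑ k, p k * (S.Y t) ^ (k : ℕ) =
      ∑ i ∈ Finset.range r, ∑ j ∈ Finset.range r, d i j * (S.u ^ i * S.v ^ j) := by
    rw [hpY, S.sy_sum_Y_pow, hxc, ← Finset.sum_sub_distrib]
    refine Finset.sum_congr rfl fun i _ => ?_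
    rw [← Finset.sum_sub_distrib]
    exact Finset.sum_congr rfl fun j _ => (sub_mul _ _ _).symm
  have hpc : ∀ k, Commute (p k) (S.Y t) := by
    intro k
    refine Commute.add_right ?_ (Commute.mul_right ?_ ?_)
    · exact S.e.bc_comm_E _ _ (S.e.bc_mono le_top (hp k)) S.u_mem_E
    · exact S.sy_bcA_comm A hA _ _ (hp k) (S.e.i_mem_bc _ _ ht)
    · exact S.e.bc_comm_E _ _ (S.e.bc_mono le_top (hp k)) S.v_mem_E
  have hyc : Commute (x - ∑ k, p k * (S.Y t) ^ (k : ℕ)) (S.Y t) := by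
    refine hc.sub_left (Commute.sum_left _ _ _ fun k _ => ?_)
    exact (hpc k).mul_left ((Commute.refl _).pow_left _)
  rw [hy] at hyc
  have hrel := S.sy_cent_coord hr0 A hA t ht d hd hyc
  have hz : ∀ a : F, a ≠ 0 → ∀ y : D₀, y * algebraMap F₀ D₀ (S.e.φ a) = 0 → y = 0 := by
    intro a ha y h
    rcases mul_eq_zero.1 h with h | h
    · exact h
    · rw [map_eq_zero_iff _ (algebraMap F₀ D₀).injective, map_eq_zero] at h
      exact absurd h ha
  have hζ1 : ∀ j, 0 < j → j < r → ζ ^ j - 1 ≠ 0 := fun j h0 h1 h =>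
    hζ.pow_ne_one_of_pos_of_lt h0.ne' h1 (sub_eq_zero.1 h)
  have hd0 : ∀ j, j < r → ∀ i, i < r → d i j = 0 := by
    intro j
    induction j with
    | zero =>
      intro _ i hi
      show c' i 0 - (if i + 0 < r then sy_ex p (i + 0) *
        S.e.i (algebraMap F D (gq ζ (i + 0) 0) * t ^ 0) else 0) = 0
      rw [add_zero, if_pos hi, gq_zero, map_one, pow_zero, mul_one, map_one, mul_one, sub_eq_zero]
      show sy_ex (fun i' => sy_ex (c i') 0) i = sy_ex (fun i' => c i' ⟨0, hr0⟩) i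
      congr 1
      funext i'
      exact sy_ex_zero' hr0 _
    | succ j ih =>
      intro hj i hi
      have ih' := ih (by omega)
      rcases Nat.lt_or_ge (i + 1) r with h | h
      · have h1 := hrel (i + 1) h (j + 1) hj
        rw [if_neg (Nat.succ_ne_zero _), if_neg (Nat.succ_ne_zero _), Nat.add_sub_cancel,
          Nat.add_sub_cancel, ih' (i + 1) h, zero_mul, zero_mul, add_zero] at h1
        exact hz _ (hζ1 _ (Nat.succ_pos _) hj) _ h1
      · obtain rfl : i = r - 1 := by omega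
        have h1 := hrel 0 hr0 (j + 1) hj
        rw [if_pos rfl, if_neg (Nat.succ_ne_zero _), Nat.add_sub_cancel, ih' 0 hr0, zero_mul,
          zero_mul, add_zero] at h1
        have h2 : d (r - 1) (j + 1) * algebraMap F₀ D₀ (S.e.φ (ζ ^ (j + 1) - 1)) = 0 := by
          rcases mul_eq_zero.1 h1 with h | h
          · exact h
          · rw [map_eq_zero_iff _ (algebraMap F₀ D₀).injective] at h
            exact absurd h (S.s_ne_zero)
        exact hz _ (hζ1 _ (Nat.succ_pos _) hj) _ h2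
  rw [← sub_eq_zero, hy]
  refine Finset.sum_eq_zero fun i hi => Finset.sum_eq_zero fun j hj => ?_
  rw [hd0 j (Finset.mem_range.1 hj) i (Finset.mem_range.1 hi), zero_mul]

/-- `M_y(W) = Σ_{k<r} (W F₀) y^k` -/
def MY (W : Submodule F D) (y : D₀) : Submodule F₀ D₀ :=
  Submodule.span F₀ {x | ∃ p ∈ S.e.bc W, ∃ k < r, x = p * y ^ k}

theorem mem_MY (W : Submodule F D) (y x : D₀) : x ∈ S.MY W y ↔
    ∃ p : Fin r → D₀, (∀ k, p k ∈ S.e.bc W) ∧ x = ∑ k, p k * y ^ (k : ℕ) := by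
  constructor
  · intro hx
    induction hx using Submodule.span_induction with
    | mem z hz =>
      obtain ⟨p, hp, k, hk, rfl⟩ := hz
      refine ⟨Pi.single (⟨k, hk⟩ : Fin r) p, ?_, ?_⟩
      · intro j
        by_cases hj : j = ⟨k, hk⟩
        · subst hj; simpa using hp
        · rw [Pi.single_eq_of_ne hj]; exact zero_mem _
      · rw [Finset.sum_eq_single (⟨k, hk⟩ : Fin r)]
        · simp
        · intro j _ hj
          rw [Pi.single_eq_of_ne hj, zero_mul]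
        · simp
    | zero => exact ⟨0, fun _ => zero_mem _, by simp⟩
    | add a b _ _ ha hb =>
      obtain ⟨p, hp, rfl⟩ := ha
      obtain ⟨q, hq, rfl⟩ := hb
      exact ⟨p + q, fun k => add_mem (hp k) (hq k), by simp [add_mul, Finset.sum_add_distrib]⟩
    | smul c a _ ha =>
      obtain ⟨p, hp, rfl⟩ := ha
      exact ⟨c • p, fun k => Submodule.smul_mem _ _ (hp k), by
        simp [Finset.smul_sum]⟩
  · rintro ⟨p, hp, rfl⟩
    exact Submodule.sum_mem _ fun k _ => Submodule.subset_span ⟨p k, hp k, k, k.2, rfl⟩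

theorem finrank_MY (W : Submodule F D) (y : D₀)
    (hy : ∀ p : Fin r → D₀, (∀ k, p k ∈ S.e.bc (⊤ : Submodule F D)) →
      ∑ k, p k * y ^ (k : ℕ) = 0 → ∀ k, p k = 0) :
    finrank F₀ (S.MY W y) = r * finrank F W := by
  let L : (Fin r → S.e.bc W) →ₗ[F₀] D₀ :=
    { toFun := fun p => ∑ k, (p k : D₀) * y ^ (k : ℕ)
      map_add' := by intro p q; simp [add_mul, Finset.sum_add_distrib]
      map_smul' := by intro c p; simp [Finset.smul_sum] }
  have hL : Function.Injective L := by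
    rw [injective_iff_map_eq_zero]
    intro p hp
    funext k
    have := hy (fun k => (p k : D₀)) (fun k => S.e.bc_mono le_top (p k).2) hp k
    exact Subtype.ext this
  have hR : LinearMap.range L = S.MY W y := by
    ext x
    rw [S.mem_MY, LinearMap.mem_range]
    constructor
    · rintro ⟨p, rfl⟩
      exact ⟨fun k => (p k : D₀), fun k => (p k).2, rfl⟩
    · rintro ⟨p, hp, rfl⟩
      exact ⟨fun k => ⟨p k, hp k⟩, rfl⟩
  rw [← hR, LinearMap.finrank_range_of_inj hL, Module.finrank_pi_fintype]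
  simp [S.e.finrank_bc]

end SymData
end Crest.Agent.R180
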