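import Mathlib
import Crest.Agent.R180.Inv

/-!
# Piece T: two lemmas on generic elements of `V₁ = v⁻¹ V`

`K = Kalg V` is a field (finite dimensional commutative subalgebra of a domain); `V₁ = {x | v x ∈ V} ⊂ K`, `1 ∈ V₁`,
`K = F[V₁]` (`Kalg_eq`), `W = {p ∈ K | p ⊥ V₁}`, `dim W = dim K - dim V = o`.

**T1** (primitive element in `V₁`): if no `t ∈ V₁` generates `K`, then `V₁` is contained in the union of the finitely many
proper subfields `F ⊂ K' ⊊ K` (finite separable extension: `Field.finite_intermediateField_of_exists_primitive_element` or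
similar); an `F`-space over an infinite field is not a finite union of proper subspaces, so `V₁ ⊂ K'`, contradiction.

**T2**: if `dim V₁ ≥ 2 o + 2`, there is `t ∈ V₁ \ F` with `p, t p ∈ W ⇒ p = 0`.
For `t ∈ V₁` let `M_t : W → K/W`, `p ↦ t p`.  Choose `t₀ ∈ V₁` with `rank M_{t₀}` maximal and suppose `0 ≠ p ∈ ker M_{t₀}`.
Maximality implies (openness of linear independence: determinant of a matrix polynomial in `s`, `F` infinite, apply to
`M_{t₀} + s M_t`) that `M_t p ∈ im M_{t₀}` for all `t ∈ V₁`.  So `V₁ p` is contained in the preimage of `im M_{t₀}` in `K`, of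
dimension `≤ o + (o-1)`; but `dim V₁ p = dim V₁`, contradiction.  If `o ≥ 1`, then `t ∉ F` automatically (else `W ∋ p, t p`).
If `o = 0` take any `t ∈ V₁ \ F` (`dim V₁ ≥ 2`).
-/

set_option autoImplicit false
set_option linter.unusedSectionVars false

namespace Crest.Agent.R180
open Module

variable {F D ι : Type} [Field F] [CharZero F] [Ring D] [IsDomain D] [Algebra F D]
  [FiniteDimensional F D] [Fintype ι]

/-- `V₁ = v⁻¹ V` -/
def V1 (V : Submodule F D) (v : D) : Submodule F D where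
  carrier := {x | v * x ∈ V}
  zero_mem' := by simp
  add_mem' := by
    intro a b ha hb
    simp only [Set.mem_ofPred_eq, mul_add] at *
    exact V.add_mem ha hb
  smul_mem' := by
    intro c x hx
    simp only [Set.mem_ofPred_eq, mul_smul_comm] at *
    exact V.smul_mem c hx

/-- `W = V₁^⊥ ∩ K` -/
noncomputable def Wsp (V : Submodule F D) (v : D) : Submodule F D where
  carrier := {p | p ∈ Kalg V ∧ ∀ x, v * x ∈ V → ntr F D (x * p) = 0}
  zero_mem' := ⟨Subalgebra.zero_mem _, by simp⟩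
  add_mem' := by
    rintro a b ⟨ha, ha'⟩ ⟨hb, hb'⟩
    exact ⟨Subalgebra.add_mem _ ha hb, fun x hx => by rw [mul_add, map_add, ha' x hx, hb' x hx, add_zero]⟩
  smul_mem' := by
    rintro c a ⟨ha, ha'⟩
    exact ⟨Subalgebra.smul_mem _ ha c, fun x hx => by
      rw [mul_smul_comm, map_smul, ha' x hx, smul_zero]⟩

variable (g : NPS ι D) (v : D) (hv : v ∈ Vs F g) (hv0 : v ≠ 0)

include hv hv0

theorem finrank_V1 : finrank F (V1 (Vs F g) v) = finrank F (Vs F g) := by
  have hinj : Function.Injective (LinearMap.mulLeft F v) := by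
    intro a b hab
    exact mul_left_cancel₀ hv0 hab
  have hmap : (V1 (Vs F g) v).map (LinearMap.mulLeft F v) = Vs F g := by
    apply le_antisymm
    · rintro _ ⟨x, hx, rfl⟩
      exact hx
    · intro w hw
      obtain ⟨κ, _, rfl⟩ := Vs_sub g v w hv hv0 hw
      exact ⟨κ, hw, rfl⟩
  conv_rhs => rw [← hmap]
  exact LinearEquiv.finrank_eq (Submodule.equivMapOfInjective _ hinj _)

theorem V1_le_K : V1 (Vs F g) v ≤ Subalgebra.toSubmodule (Kalg (Vs F g)) := by
  intro x hx
  rw [Subalgebra.mem_toSubmodule, Kalg_eq g v hv hv0]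
  exact Algebra.subset_adjoin hx

theorem one_mem_V1 : (1 : D) ∈ V1 (Vs F g) v := by
  show v * 1 ∈ Vs F g
  rw [mul_one]
  exact hv

theorem Kalg_comm : ∀ x ∈ Kalg (Vs F g), ∀ y ∈ Kalg (Vs F g), x * y = y * x := by
  intro x hx y hy
  exact adjoin_comm (g []) x (Kalg_le g hx) y (Kalg_le g hy)

theorem finrank_V1_add_Wsp : finrank F (V1 (Vs F g) v) + finrank F (Wsp (Vs F g) v) =
    finrank F (Kalg (Vs F g)) := by
  have h := finrank_pr_map (Kalg (Vs F g)) (V1 (Vs F g) v) (Wsp (Vs F g) v) (by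
    intro a
    constructor
    · rintro ⟨h1, h2⟩
      refine ⟨h1, fun w hw => ?_⟩
      rw [ntr_comm]
      exact h2 w hw
    · rintro ⟨h1, h2⟩
      refine ⟨h1, fun w hw => ?_⟩
      rw [ntr_comm]
      exact h2 w hw)
  have h2 : (V1 (Vs F g) v).map (pr F (Kalg (Vs F g))) = V1 (Vs F g) v := by
    apply le_antisymm
    · rintro _ ⟨x, hx, rfl⟩
      rw [pr_of_mem _ _ (V1_le_K g v hv hv0 hx)]
      exact hx
    · intro x hx
      exact ⟨x, hx, pr_of_mem _ _ (V1_le_K g v hv hv0 hx)⟩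
  rw [h2] at h
  exact h

/-- `dim W = o` -/
theorem finrank_Wsp : finrank F (Wsp (Vs F g) v) = oK F g := by
  have h1 := finrank_V1_add_Wsp g v hv hv0
  have h2 := finrank_V1 g v hv hv0
  unfold oK nK
  omega

/-- `V = {x ∈ v K : v⁻¹ x ⊥ W}` -/
theorem mem_V_iff_orth (x : D) : v * x ∈ Vs F g ↔
    x ∈ Kalg (Vs F g) ∧ ∀ p ∈ Wsp (Vs F g) v, ntr F D (p * x) = 0 := by
  let U : Submodule F D :=
    { carrier := {x | x ∈ Kalg (Vs F g) ∧ ∀ p ∈ Wsp (Vs F g) v, ntr F D (p * x) = 0}
      zero_mem' := ⟨Subalgebra.zero_mem _, by simp⟩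
      add_mem' := by
        rintro a b ⟨ha, ha'⟩ ⟨hb, hb'⟩
        exact ⟨Subalgebra.add_mem _ ha hb, fun x hx => by
          rw [mul_add, map_add, ha' x hx, hb' x hx, add_zero]⟩
      smul_mem' := by
        rintro c a ⟨ha, ha'⟩
        exact ⟨Subalgebra.smul_mem _ ha c, fun x hx => by
          rw [mul_smul_comm, map_smul, ha' x hx, smul_zero]⟩ }
  have hle : V1 (Vs F g) v ≤ U := by
    intro y hy
    refine ⟨V1_le_K g v hv hv0 hy, fun p hp => ?_⟩
    rw [ntr_comm]
    exact hp.2 y hy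
  have h := finrank_pr_map (Kalg (Vs F g)) (Wsp (Vs F g) v) U (by
    intro a
    constructor
    · rintro ⟨h1, h2⟩
      refine ⟨h1, fun w hw => ?_⟩
      rw [ntr_comm]
      exact h2 w hw
    · rintro ⟨h1, h2⟩
      refine ⟨h1, fun w hw => ?_⟩
      rw [ntr_comm]
      exact h2 w hw)
  have h2 : (Wsp (Vs F g) v).map (pr F (Kalg (Vs F g))) = Wsp (Vs F g) v := by
    apply le_antisymm
    · rintro _ ⟨x, hx, rfl⟩
      rw [pr_of_mem _ _ hx.1]
      exact hx
    · intro x hx
      exact ⟨x, hx, pr_of_mem _ _ hx.1⟩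
  rw [h2] at h
  have h3 := finrank_V1_add_Wsp g v hv hv0
  have heq : V1 (Vs F g) v = U := Submodule.eq_of_le_of_finrank_eq hle (by omega)
  have h4 : v * x ∈ Vs F g ↔ x ∈ V1 (Vs F g) v := Iff.rfl
  rw [h4, heq]
  rfl

/-- `InN g v x ↔ v x ∈ W` -/
theorem inN_iff (x : D) : InN F g v x ↔ v * x ∈ Wsp (Vs F g) v := by
  have hvL : v ∈ Algebra.adjoin F ({g []} : Set D) := Vs_le g hv
  have key : v * x ∈ Kalg (Vs F g) → ((∀ ξ : ι → F, ntr F D (x * lin F g ξ) = 0) ↔
      ∀ y, v * y ∈ Vs F g → ntr F D (y * (v * x)) = 0) := by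
    intro hx
    have hxL : x ∈ Algebra.adjoin F ({g []} : Set D) := quot_mem _ v x hv0 hvL (Kalg_le g hx)
    rw [← mem_Vs_orth g x hxL]
    constructor
    · intro h y hy
      have hyL : y ∈ Algebra.adjoin F ({g []} : Set D) := quot_mem _ v y hv0 hvL (Vs_le g hy)
      have h1 : y * (v * x) = x * (v * y) := by
        rw [adjoin_comm (g []) v hvL x hxL, ← mul_assoc, adjoin_comm (g []) y hyL x hxL,
          mul_assoc, adjoin_comm (g []) y hyL v hvL]
      rw [h1]
      exact h _ hy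
    · intro h w hw
      obtain ⟨y, _, rfl⟩ := Vs_sub g v w hv hv0 hw
      have hyL : y ∈ Algebra.adjoin F ({g []} : Set D) := quot_mem _ v y hv0 hvL (Vs_le g hw)
      have h1 : y * (v * x) = x * (v * y) := by
        rw [adjoin_comm (g []) v hvL x hxL, ← mul_assoc, adjoin_comm (g []) y hyL x hxL,
          mul_assoc, adjoin_comm (g []) y hyL v hvL]
      rw [← h1]
      exact h _ hw
  constructor
  · rintro ⟨h1, h2⟩
    exact ⟨h1, (key h1).1 h2⟩
  · rintro ⟨h1, h2⟩
    exact ⟨h1, (key h1).2 h2⟩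

end Crest.Agent.R180
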