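import Mathlib
import Crest.Agent.R180.TLemmas

/-!
# Piece T1 : see the header of `TLemmas.lean` for the proof.
-/

set_option autoImplicit false
set_option linter.unusedSectionVars false

namespace Crest.Agent.R180
open Module

/-- primitive elements in a generating subspace -/
theorem prim_aux (F E : Type) [Field F] [CharZero F] [Field E] [Algebra F E]
    [FiniteDimensional F E] (V : Submodule F E) (hV : Algebra.adjoin F (V : Set E) = ⊤) :
    ∃ t ∈ V, Algebra.adjoin F ({t} : Set E) = ⊤ := by
  classical
  by_contra hcon
  push Not at hcon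
  have hfin : Finite (IntermediateField F E) :=
    Field.finite_intermediateField_of_exists_primitive_element F E
      (Field.exists_primitive_element F E)
  let _ : Fintype (IntermediateField F E) := Fintype.ofFinite _
  let S : Finset (Submodule F V) := (Finset.univ.filter (fun K : IntermediateField F E => K ≠ ⊤)).image
    (fun K => (Subalgebra.toSubmodule K.toSubalgebra).comap V.subtype)
  have htop : (⊤ : Submodule F V) ∉ S := by
    intro h
    rw [Finset.mem_image] at h
    obtain ⟨K, hK, hK'⟩ := h
    rw [Finset.mem_filter] at hK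
    apply hK.2
    have h1 : (V : Set E) ⊆ K.toSubalgebra := by
      intro x hx
      have : (⟨x, hx⟩ : V) ∈ (Subalgebra.toSubmodule K.toSubalgebra).comap V.subtype := by
        rw [hK']; trivial
      exact this
    have h2 : (⊤ : Subalgebra F E) ≤ K.toSubalgebra := by
      rw [← hV]; exact Algebra.adjoin_le h1
    apply IntermediateField.toSubalgebra_injective
    exact top_le_iff.1 h2
  apply Subspace.biUnion_ne_univ_of_top_notMem htop
  rw [Set.eq_univ_iff_forall]
  intro t
  rw [Set.mem_iUnion₂]
  refine ⟨(Subalgebra.toSubmodule (IntermediateField.adjoin F {(t : E)}).toSubalgebra).comap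
    V.subtype, ?_, ?_⟩
  · rw [Finset.mem_image]
    refine ⟨IntermediateField.adjoin F {(t : E)}, ?_, rfl⟩
    rw [Finset.mem_filter]
    refine ⟨Finset.mem_univ _, fun h => ?_⟩
    apply hcon t t.2
    rw [← IntermediateField.adjoin_simple_toSubalgebra_of_isAlgebraic
      (Algebra.IsAlgebraic.isAlgebraic (R := F) (t : E)), h]
    rfl
  · exact IntermediateField.mem_adjoin_simple_self F (t : E)

variable {F D ι : Type} [Field F] [CharZero F] [Ring D] [IsDomain D] [Algebra F D]
  [FiniteDimensional F D] [Fintype ι]

/-- the same in a commutative subalgebra of a domain -/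
theorem prim_aux2 (K : Subalgebra F D) (hK : ∀ x ∈ K, ∀ y ∈ K, x * y = y * x)
    (V : Submodule F D) (hV : Algebra.adjoin F (V : Set D) = K) :
    ∃ t ∈ V, Algebra.adjoin F ({t} : Set D) = K := by
  let _ : Field K := { divisionRingOfFiniteDimensional F K with
    mul_comm := fun x y => Subtype.ext (hK x x.2 y y.2) }
  have hVK : (V : Set D) ⊆ K := by rw [← hV]; exact Algebra.subset_adjoin
  let V' : Submodule F K := V.comap K.val.toLinearMap
  have himg : K.val '' (V' : Set K) = V := by
    ext x
    constructor
    · rintro ⟨y, hy, rfl⟩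
      exact hy
    · intro hx
      exact ⟨⟨x, hVK hx⟩, hx, rfl⟩
  have hgen : Algebra.adjoin F (V' : Set K) = ⊤ := by
    apply Subalgebra.map_injective (f := K.val) Subtype.val_injective
    rw [AlgHom.map_adjoin, himg, hV, Algebra.map_top]
    exact (Subalgebra.range_val K).symm
  obtain ⟨t, ht, htop⟩ := prim_aux F K V' hgen
  refine ⟨t, ht, ?_⟩
  have := congrArg (Subalgebra.map K.val) htop
  rw [AlgHom.map_adjoin, Set.image_singleton, Algebra.map_top] at this
  rw [show (t : D) = K.val t from rfl, this]
  exact Subalgebra.range_val K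

variable (g : NPS ι D) (v : D) (hv : v ∈ Vs F g) (hv0 : v ≠ 0)

include hv hv0

/-- **T1** -/
theorem exists_primitive : ∃ t, v * t ∈ Vs F g ∧ Algebra.adjoin F {t} = Kalg (Vs F g) := by
  obtain ⟨t, ht, h⟩ := prim_aux2 (Kalg (Vs F g)) (Kalg_comm g v hv hv0) (V1 (Vs F g) v)
    (Kalg_eq g v hv hv0).symm
  exact ⟨t, ht, h⟩

end Crest.Agent.R180
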