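import Mathlib
import Crest.Agent.R180.TLemmas

/-!
# Piece T2 : see the header of `TLemmas.lean` for the proof.
-/

set_option autoImplicit false
set_option linter.unusedSectionVars false

namespace Crest.Agent.R180
open Module

/-- for all but finitely many `s`, `1 + s N` is injective -/
theorem exists_one_add_smul_inj {F V : Type*} [Field F] [Infinite F] [AddCommGroup V] [Module F V]
    [FiniteDimensional F V] (N : Module.End F V) :
    ∃ s : F, s ≠ 0 ∧ ∀ x, x + s • N x = 0 → x = 0 := by
  have hfin : Set.Finite ({μ | N.HasEigenvalue μ} ∪ {0}) :=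
    (Module.End.finite_hasEigenvalue N).union (Set.finite_singleton 0)
  obtain ⟨μ, hμ⟩ := hfin.exists_notMem
  have h1 : ¬ N.HasEigenvalue μ := fun h => hμ (Or.inl h)
  have h2 : μ ≠ 0 := fun h => hμ (Or.inr h)
  refine ⟨-μ⁻¹, by simpa using h2, fun x hx => ?_⟩
  by_contra hx0
  apply h1
  refine Module.End.hasEigenvalue_of_hasEigenvector (x := x) ⟨?_, hx0⟩
  rw [Module.End.mem_eigenspace_iff]
  have h3 : x = μ⁻¹ • N x := by
    rw [neg_smul, add_neg_eq_zero] at hx
    exact hx
  conv_rhs => rw [h3]
  rw [smul_smul, mul_inv_cancel₀ h2, one_smul]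

/-- a generic member of a linear system of maps is injective -/
theorem exists_injective_of_rank {F T A B : Type*} [Field F] [Infinite F] [AddCommGroup T]
    [Module F T] [AddCommGroup A] [Module F A] [AddCommGroup B] [Module F B]
    [FiniteDimensional F A] [FiniteDimensional F B] (M : T →ₗ[F] A →ₗ[F] B)
    (h : ∀ p : A, p ≠ 0 → finrank F A ≤ finrank F (LinearMap.range (M.flip p))) :
    ∃ t, ∀ p, M t p = 0 → p = 0 := by
  classical
  -- maximal rank
  obtain ⟨t₀, ht₀⟩ : ∃ t₀, ∀ t, finrank F (LinearMap.range (M t)) ≤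
      finrank F (LinearMap.range (M t₀)) := by
    let S : Set ℕ := Set.range fun t => finrank F (LinearMap.range (M t))
    have hS : S.Nonempty := ⟨_, ⟨0, rfl⟩⟩
    have hb : BddAbove S := ⟨finrank F B, by
      rintro _ ⟨t, rfl⟩
      exact Submodule.finrank_le _⟩
    obtain ⟨t₀, ht₀⟩ := Nat.sSup_mem hS hb
    refine ⟨t₀, fun t => ?_⟩
    have : finrank F (LinearMap.range (M t)) ≤ sSup S := le_csSup hb ⟨t, rfl⟩
    rw [← ht₀] at this
    exact this
  refine ⟨t₀, fun p hp => ?_⟩
  by_contra hp0
  -- the rank of `M t₀` is less than `dim A`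
  have hker : 0 < finrank F (LinearMap.ker (M t₀)) := by
    apply Submodule.one_le_finrank_iff.2
    intro hbot
    have : p ∈ LinearMap.ker (M t₀) := hp
    rw [hbot, Submodule.mem_bot] at this
    exact hp0 this
  have hrn := LinearMap.finrank_range_add_finrank_ker (M t₀)
  have hlt : finrank F (LinearMap.range (M t₀)) < finrank F (LinearMap.range (M.flip p)) := by
    have := h p hp0
    omega
  -- some `M t p` is outside the range
  obtain ⟨t, ht⟩ : ∃ t, M t p ∉ LinearMap.range (M t₀) := by
    by_contra hcon
    push Not at hcon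
    have : LinearMap.range (M.flip p) ≤ LinearMap.range (M t₀) := by
      rintro _ ⟨t, rfl⟩
      exact hcon t
    have := Submodule.finrank_mono this
    omega
  -- complement of the kernel
  obtain ⟨C, hC⟩ := Submodule.exists_isCompl (LinearMap.ker (M t₀))
  have hCdim : finrank F C = finrank F (LinearMap.range (M t₀)) := by
    have := Submodule.finrank_add_eq_of_isCompl hC
    omega
  -- the family `L s`
  let L : F → (C × F →ₗ[F] B) := fun s =>
    LinearMap.coprod ((M (t₀ + s • t)).comp C.subtype) (LinearMap.toSpanSingleton F B (M t p))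
  have hL : ∀ s x, L s x = M (t₀ + s • t) x.1 + x.2 • M t p := fun s x => by
    simp [L]
  have hL0 : LinearMap.ker (L 0) = ⊥ := by
    rw [LinearMap.ker_eq_bot']
    intro x hx
    rw [hL, zero_smul, add_zero] at hx
    have h2 : x.2 = 0 := by
      by_contra h2
      apply ht
      refine ⟨-(x.2⁻¹ • (x.1 : A)), ?_⟩
      rw [map_neg, map_smul, eq_neg_of_add_eq_zero_left hx, smul_neg, neg_neg, smul_smul,
        inv_mul_cancel₀ h2, one_smul]
    rw [h2, zero_smul, add_zero] at hx
    have h1 : (x.1 : A) ∈ LinearMap.ker (M t₀) ⊓ C := ⟨hx, x.1.2⟩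
    rw [hC.inf_eq_bot, Submodule.mem_bot] at h1
    exact Prod.ext (Subtype.ext h1) h2
  obtain ⟨φ, hφ⟩ := LinearMap.exists_leftInverse_of_injective (L 0) hL0
  obtain ⟨s, hs, hinj⟩ := exists_one_add_smul_inj
    (φ.comp (((M t).comp C.subtype).comp (LinearMap.fst F C F)))
  have hLs : Function.Injective (L s) := by
    rw [← LinearMap.ker_eq_bot, LinearMap.ker_eq_bot']
    intro x hx
    apply hinj
    have h1 : L s x = L 0 x + s • M t x.1 := by
      rw [hL, hL]
      simp only [map_add, map_smul, LinearMap.add_apply, LinearMap.smul_apply, zero_smul,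
        add_zero]
      abel
    have h2 : φ (L 0 x) = x := by
      have := congrArg (fun f => f x) hφ
      simpa using this
    have h3 := congrArg φ h1
    rw [hx, map_zero, map_add, map_smul, h2] at h3
    exact h3.symm
  have hrange : LinearMap.range (L s) ≤ LinearMap.range (M (t₀ + s • t)) := by
    rintro _ ⟨x, rfl⟩
    rw [hL]
    refine ⟨x.1 + (x.2 * s⁻¹) • p, ?_⟩
    rw [map_add, map_smul]
    congr 1
    simp only [map_add, map_smul, LinearMap.add_apply, LinearMap.smul_apply, hp, zero_add]
    rw [smul_smul, mul_assoc, inv_mul_cancel₀ hs, mul_one]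
  have hd1 := Submodule.finrank_mono hrange
  rw [LinearMap.finrank_range_of_inj hLs, Module.finrank_prod, Module.finrank_self, hCdim] at hd1
  have := ht₀ (t₀ + s • t)
  omega

variable {F D ι : Type} [Field F] [CharZero F] [Ring D] [IsDomain D] [Algebra F D]
  [FiniteDimensional F D] [Fintype ι]

variable (g : NPS ι D) (v : D) (hv : v ∈ Vs F g) (hv0 : v ≠ 0)

include hv hv0

/-- **T2** -/
theorem exists_generic (h : 2 * oK F g + 2 ≤ finrank F (Vs F g)) :
    ∃ t, v * t ∈ Vs F g ∧ (¬ ∃ a : F, t = algebraMap F D a) ∧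
      ∀ p ∈ Wsp (Vs F g) v, t * p ∈ Wsp (Vs F g) v → p = 0 := by
  classical
  have hV1 := finrank_V1 g v hv hv0
  have hW := finrank_Wsp g v hv hv0
  set W := Wsp (Vs F g) v with hWdef
  set V₁ := V1 (Vs F g) v with hV₁def
  by_cases ho : oK F g = 0
  · -- `W = 0`
    have hW0 : W = ⊥ := Submodule.finrank_eq_zero.1 (by rw [hW, ho])
    obtain ⟨t, ht, ht'⟩ : ∃ t ∈ V₁, t ∉ Submodule.span F ({1} : Set D) := by
      by_contra hcon
      push Not at hcon
      have hle : V₁ ≤ Submodule.span F ({1} : Set D) := hcon
      have h1 := Submodule.finrank_mono hle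
      have h2 : finrank F (Submodule.span F ({1} : Set D)) ≤ 1 := by
        simpa using finrank_span_le_card (R := F) ({1} : Set D)
      omega
    refine ⟨t, ht, ?_, ?_⟩
    · rintro ⟨a, rfl⟩
      apply ht'
      rw [Algebra.algebraMap_eq_smul_one]
      exact Submodule.smul_mem _ _ (Submodule.mem_span_singleton_self _)
    · intro p hp _
      rw [hW0, Submodule.mem_bot] at hp
      exact hp
  · -- the linear system
    let M : V₁ →ₗ[F] W →ₗ[F] (D ⧸ W) :=
      ((LinearMap.mul F D).compl₁₂ V₁.subtype W.subtype).compr₂ W.mkQ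
    have hM : ∀ (t : V₁) (p : W), M t p = W.mkQ ((t : D) * (p : D)) := fun t p => rfl
    obtain ⟨t, ht⟩ := exists_injective_of_rank M (by
      intro p hp
      have hp' : (p : D) ≠ 0 := fun h => hp (Subtype.ext h)
      have hrn := LinearMap.finrank_range_add_finrank_ker (M.flip p)
      -- kernel: `t p ∈ W`
      have hk : finrank F (LinearMap.ker (M.flip p)) ≤ finrank F W := by
        let ψ : LinearMap.ker (M.flip p) →ₗ[F] W :=
          LinearMap.codRestrict W
            ((LinearMap.mulRight F (p : D)).comp (V₁.subtype.comp (Submodule.subtype _))) (by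
              intro c
              have hc := c.2
              rw [LinearMap.mem_ker, LinearMap.flip_apply, hM] at hc
              simpa using hc)
        refine LinearMap.finrank_le_finrank_of_injective (f := ψ) ?_
        intro c d hcd
        have h1 : ((c : V₁) : D) * (p : D) = ((d : V₁) : D) * (p : D) := congrArg Subtype.val hcd
        exact Subtype.ext (Subtype.ext (mul_right_cancel₀ hp' h1))
      omega)
    refine ⟨t, t.2, ?_, ?_⟩
    · rintro ⟨a, ha⟩
      -- `W ≠ 0`
      have hWne : W ≠ ⊥ := by
        intro hbot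
        apply ho
        rw [← hW, hbot, finrank_bot]
      obtain ⟨p, hp, hp0⟩ := Submodule.exists_mem_ne_zero_of_ne_bot hWne
      apply hp0
      have := ht ⟨p, hp⟩ (by
        rw [hM]
        simp only [Submodule.mkQ_apply, Submodule.Quotient.mk_eq_zero, ha,
          ← Algebra.smul_def]
        exact W.smul_mem a hp)
      exact congrArg Subtype.val this
    · intro p hp htp
      have := ht ⟨p, hp⟩ (by
        rw [hM]
        simpa using htp)
      exact congrArg Subtype.val this

end Crest.Agent.R180
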