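import Mathlib
import Crest.Agent.R180.SymY

/-!
# Piece YSb: the subalgebra `F₀[θ, v Y] = M_Y(L)` and its intersections with `W ⊗ E₀`
-/

set_option autoImplicit false
set_option linter.unusedSectionVars false

namespace Crest.Agent.R180
open Module

section
variable {F D F₀ D₀ : Type} [Field F] [CharZero F] [Ring D] [IsDomain D] [Algebra F D]
    [FiniteDimensional F D] [Algebra.IsCentral F D]
    [Field F₀] [CharZero F₀] [Ring D₀] [IsDomain D₀] [Algebra F₀ D₀]
    [FiniteDimensional F₀ D₀] [Algebra.IsCentral F₀ D₀] {r : ℕ} {ζ : F}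
    (S : SymData F D F₀ D₀ r ζ)

theorem ymy_Y_comm (t x : D) (h : x * t = t * x) : S.e.i x * S.Y t = S.Y t * S.e.i x := by
  unfold SymData.Y
  rw [mul_add, add_mul, (S.comm_u x).eq, ← mul_assoc, ← map_mul, h, map_mul, mul_assoc,
    (S.comm_v x).eq, mul_assoc]

theorem ymy_bc_comm (K : Subalgebra F D) (t : D) (h : ∀ x ∈ K, x * t = t * x) (p : D₀)
    (hp : p ∈ S.e.bc (Subalgebra.toSubmodule K)) : p * S.Y t = S.Y t * p := by
  induction hp using Submodule.span_induction with
  | mem z hz =>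
    obtain ⟨w, hw, rfl⟩ := hz
    exact ymy_Y_comm S t w (h w hw)
  | zero => simp
  | add z w _ _ hz hw => rw [add_mul, mul_add, hz, hw]
  | smul a z _ hz => rw [smul_mul_assoc, mul_smul_comm, hz]

theorem ymy_bc_comm_i (K : Subalgebra F D) (t : D) (h : ∀ x ∈ K, x * t = t * x) (p : D₀)
    (hp : p ∈ S.e.bc (Subalgebra.toSubmodule K)) : p * S.e.i t = S.e.i t * p := by
  induction hp using Submodule.span_induction with
  | mem z hz =>
    obtain ⟨w, hw, rfl⟩ := hz
    rw [← map_mul, h w hw, map_mul]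
  | zero => simp
  | add z w _ _ hz hw => rw [add_mul, mul_add, hz, hw]
  | smul a z _ hz => rw [smul_mul_assoc, mul_smul_comm, hz]

theorem ymy_one_mem (K : Subalgebra F D) : (1 : D₀) ∈ S.e.bc (Subalgebra.toSubmodule K) := by
  have := S.e.i_mem_bc (Subalgebra.toSubmodule K) 1 K.one_mem
  rwa [map_one] at this

theorem ymy_Yr_mem (hr : 0 < r) (hζ : IsPrimitiveRoot ζ r) (K : Subalgebra F D) (t : D)
    (ht : t ∈ K) : (S.Y t) ^ r ∈ S.e.bc (Subalgebra.toSubmodule K) := by
  rw [S.Y_pow_r hr hζ, S.u_pow, S.v_pow]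
  refine Submodule.add_mem _ ?_ ?_
  · rw [Algebra.algebraMap_eq_smul_one]
    exact Submodule.smul_mem _ _ (ymy_one_mem S K)
  · rw [Algebra.algebraMap_eq_smul_one, mul_smul_comm, mul_one]
    exact Submodule.smul_mem _ _ (S.e.i_mem_bc _ _ (K.pow_mem ht r))

theorem ymy_mul_Y (hr : 0 < r) (hζ : IsPrimitiveRoot ζ r) (K : Subalgebra F D) (t : D)
    (ht : t ∈ K) (x : D₀) (hx : x ∈ S.MY (Subalgebra.toSubmodule K) (S.Y t)) :
    x * S.Y t ∈ S.MY (Subalgebra.toSubmodule K) (S.Y t) := by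
  unfold SymData.MY at hx
  induction hx using Submodule.span_induction with
  | mem z hz =>
    obtain ⟨p, hp, k, hk, rfl⟩ := hz
    rw [mul_assoc, ← pow_succ]
    rcases Nat.lt_or_ge (k + 1) r with h | h
    · exact Submodule.subset_span ⟨p, hp, k + 1, h, rfl⟩
    · have : k + 1 = r := by omega
      rw [this]
      exact Submodule.subset_span ⟨p * S.Y t ^ r, S.e.bc_mul K _ _ hp (ymy_Yr_mem S hr hζ K t ht),
        0, hr, by rw [pow_zero, mul_one]⟩
  | zero => rw [zero_mul]; exact Submodule.zero_mem _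
  | add z w _ _ hz hw => rw [add_mul]; exact Submodule.add_mem _ hz hw
  | smul a z _ hz => rw [smul_mul_assoc]; exact Submodule.smul_mem _ _ hz

theorem ymy_mul_bc (K : Subalgebra F D) (hK : ∀ x ∈ K, ∀ y ∈ K, x * y = y * x) (t : D)
    (ht : t ∈ K) (x : D₀) (hx : x ∈ S.MY (Subalgebra.toSubmodule K) (S.Y t)) (q : D₀)
    (hq : q ∈ S.e.bc (Subalgebra.toSubmodule K)) :
    x * q ∈ S.MY (Subalgebra.toSubmodule K) (S.Y t) := by
  have hqY : ∀ k : ℕ, S.Y t ^ k * q = q * S.Y t ^ k := by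
    intro k
    have : Commute q (S.Y t) := ymy_bc_comm S K t (fun x hx => hK x hx t ht) q hq
    exact (this.pow_right k).eq.symm
  unfold SymData.MY at hx
  induction hx using Submodule.span_induction with
  | mem z hz =>
    obtain ⟨p, hp, k, hk, rfl⟩ := hz
    rw [mul_assoc, hqY, ← mul_assoc]
    exact Submodule.subset_span ⟨p * q, S.e.bc_mul K _ _ hp hq, k, hk, rfl⟩
  | zero => rw [zero_mul]; exact Submodule.zero_mem _
  | add z w _ _ hz hw => rw [add_mul]; exact Submodule.add_mem _ hz hw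
  | smul a z _ hz => rw [smul_mul_assoc]; exact Submodule.smul_mem _ _ hz

theorem ymy_mul (hr : 0 < r) (hζ : IsPrimitiveRoot ζ r) (K : Subalgebra F D)
    (hK : ∀ x ∈ K, ∀ y ∈ K, x * y = y * x) (t : D)
    (ht : t ∈ K) (x : D₀) (hx : x ∈ S.MY (Subalgebra.toSubmodule K) (S.Y t)) (y : D₀)
    (hy : y ∈ S.MY (Subalgebra.toSubmodule K) (S.Y t)) :
    x * y ∈ S.MY (Subalgebra.toSubmodule K) (S.Y t) := by
  unfold SymData.MY at hy
  induction hy using Submodule.span_induction with
  | mem z hz =>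
    obtain ⟨p, hp, k, hk, rfl⟩ := hz
    clear hk
    rw [← mul_assoc]
    have h1 := ymy_mul_bc S K hK t ht x hx p hp
    induction k with
    | zero => rw [pow_zero, mul_one]; exact h1
    | succ k ih => rw [pow_succ, ← mul_assoc]; exact ymy_mul_Y S hr hζ K t ht _ ih
  | zero => rw [mul_zero]; exact Submodule.zero_mem _
  | add z w _ _ hz hw => rw [mul_add]; exact Submodule.add_mem _ hz hw
  | smul a z _ hz => rw [mul_smul_comm]; exact Submodule.smul_mem _ _ hz

theorem ymy_bc_le_MY (hr : 0 < r) (W : Submodule F D) (y : D₀) : S.e.bc W ≤ S.MY W y := by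
  intro p hp
  exact Submodule.subset_span ⟨p, hp, 0, hr, by rw [pow_zero, mul_one]⟩

theorem ymy_adjoin_comm (θ : D) : ∀ x ∈ Algebra.adjoin F ({θ} : Set D),
    ∀ y ∈ Algebra.adjoin F ({θ} : Set D), x * y = y * x := by
  intro x hx y hy
  have := (Algebra.isMulCommutative_adjoin F (s := ({θ} : Set D)) (by
    rintro a ha b hb
    rw [Set.mem_singleton_iff] at ha hb
    rw [ha, hb])).is_comm.comm ⟨x, hx⟩ ⟨y, hy⟩
  exact congrArg Subtype.val this

/-- `F₀[θ, v Y] = Σ_{k<r} L Y^k` for `v, t ∈ L = F[θ]`, `v ≠ 0` (`Y^r ∈ L F₀` by `Y_pow_r`; `v` is invertible in `L`). -/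
theorem adjoin_eq_MY (hr : 1 < r) (hζ : IsPrimitiveRoot ζ r) (θ v t : D)
    (hv : v ∈ Algebra.adjoin F {θ}) (ht : t ∈ Algebra.adjoin F {θ}) (hv0 : v ≠ 0) :
    Subalgebra.toSubmodule (Algebra.adjoin F₀ ({S.e.i θ, S.e.i v * S.Y t} : Set D₀)) =
      S.MY (Subalgebra.toSubmodule (Algebra.adjoin F {θ})) (S.Y t) := by
  have hK := ymy_adjoin_comm (F := F) θ
  have hr0 : 0 < r := by omega
  apply le_antisymm
  · intro x hx
    rw [Subalgebra.mem_toSubmodule] at hx
    induction hx using Algebra.adjoin_induction with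
    | mem x hx =>
      rcases hx with rfl | hx
      · exact ymy_bc_le_MY S hr0 _ _ (S.e.i_mem_bc _ _ (Algebra.self_mem_adjoin_singleton F θ))
      · rw [Set.mem_singleton_iff] at hx
        rw [hx]
        exact Submodule.subset_span ⟨S.e.i v, S.e.i_mem_bc _ _ hv, 1, hr, by rw [pow_one]⟩
    | algebraMap a =>
      rw [Algebra.algebraMap_eq_smul_one]
      exact Submodule.smul_mem _ _ (ymy_bc_le_MY S hr0 _ _ (ymy_one_mem S _))
    | add x y _ _ hx hy => exact Submodule.add_mem _ hx hy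
    | mul x y _ _ hx hy => exact ymy_mul S hr0 hζ _ hK t ht x hx y hy
  · set B := Algebra.adjoin F₀ ({S.e.i θ, S.e.i v * S.Y t} : Set D₀) with hB
    have h1 : ∀ x ∈ Algebra.adjoin F ({θ} : Set D), S.e.i x ∈ B := by
      intro x hx
      induction hx using Algebra.adjoin_induction with
      | mem x hx =>
        rw [Set.mem_singleton_iff] at hx
        rw [hx]
        exact Algebra.subset_adjoin (Set.mem_insert _ _)
      | algebraMap a => rw [S.e.i_alg]; exact B.algebraMap_mem _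
      | add x y _ _ hx hy => rw [map_add]; exact B.add_mem hx hy
      | mul x y _ _ hx hy => rw [map_mul]; exact B.mul_mem hx hy
    have h2 : ∀ p ∈ S.e.bc (Subalgebra.toSubmodule (Algebra.adjoin F ({θ} : Set D))), p ∈ B := by
      intro p hp
      induction hp using Submodule.span_induction with
      | mem z hz =>
        obtain ⟨w, hw, rfl⟩ := hz
        exact h1 w hw
      | zero => exact B.zero_mem
      | add z w _ _ hz hw => exact B.add_mem hz hw
      | smul a z _ hz => exact B.smul_mem hz a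
    obtain ⟨v', hv', hvv, -⟩ := exists_inverse_mem (F := F) (Algebra.adjoin F ({θ} : Set D)) v hv hv0
    have h3 : S.Y t ∈ B := by
      have h4 : S.Y t = S.e.i v' * (S.e.i v * S.Y t) := by
        rw [← mul_assoc, ← map_mul, hK _ hv' _ hv, hvv, map_one, one_mul]
      rw [h4]
      exact B.mul_mem (h1 _ hv') (Algebra.subset_adjoin (Set.mem_insert_of_mem _ rfl))
    unfold SymData.MY
    rw [Submodule.span_le]
    rintro _ ⟨p, hp, k, hk, rfl⟩
    exact B.mul_mem (h2 p hp) (B.pow_mem h3 k)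

/-- `M_Y(K) ∩ (W ⊗ E₀) = W F₀` if `p, t p ∈ W ⇒ p = 0` (`K` commutative, `t ∈ K`, `W ⊂ K`). -/
theorem MY_inf (hr : 1 < r) (hζ : IsPrimitiveRoot ζ r) (K : Subalgebra F D)
    (hK : ∀ x ∈ K, ∀ y ∈ K, x * y = y * x) (t : D) (ht : t ∈ K) (W : Submodule F D)
    (hW : W ≤ Subalgebra.toSubmodule K) (hWt : ∀ p ∈ W, t * p ∈ W → p = 0) :
    S.MY (Subalgebra.toSubmodule K) (S.Y t) ⊓ S.e.bcE W = S.e.bc W := by
  have hr0 : 0 < r := by omega
  apply le_antisymm
  · rintro x ⟨hx, hxW⟩
    obtain ⟨p, hp, rfl⟩ := (S.mem_MY _ _ x).1 hx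
    have hp' : ∀ k, p k ∈ S.e.bc (⊤ : Submodule F D) := fun k => S.e.bc_mono le_top (hp k)
    obtain ⟨h1, h2⟩ := S.Ycoef hr0 hζ t W p (fun _ => 0) hp' (fun _ => Submodule.zero_mem _) (by
      simpa using hxW)
    have h3 : ∀ k : Fin r, p k * S.e.i (t ^ (k : ℕ)) ∈ S.e.bc W := by
      intro k
      obtain ⟨c, hc, h⟩ := h2 k
      rw [add_zero, ← Algebra.smul_def, S.e.i_smul_api, mul_smul_comm] at h
      have hc' : S.e.φ c ≠ 0 := by
        rw [Ne, map_eq_zero_iff _ S.e.φ_inj]
        exact hc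
      exact (Submodule.smul_mem_iff _ hc').1 h
    have h4 : ∀ k : Fin r, ∀ n ≤ (k : ℕ), p k * S.e.i (t ^ n) ∈ S.e.bc W := by
      intro k n hn
      rcases Nat.lt_or_ge n k with h | h
      · exact h1 k n h
      · rw [le_antisymm hn h]
        exact h3 k
    have h5 : ∀ k : Fin r, (k : ℕ) ≠ 0 → p k = 0 := by
      intro k hk
      have e0 := h4 k 0 (by omega)
      rw [pow_zero, map_one, mul_one] at e0
      have e1 := h4 k 1 (by omega)
      rw [pow_one, ymy_bc_comm_i S K t (fun x hx => hK x hx t ht) (p k) (hp k)] at e1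
      exact S.e.bc_inj W t hWt _ e0 e1
    rw [Finset.sum_eq_single (⟨0, hr0⟩ : Fin r)]
    · have := h4 ⟨0, hr0⟩ 0 le_rfl
      simpa using this
    · intro k _ hk
      rw [h5 k (fun h => hk (Fin.ext h)), zero_mul]
    · intro h; exact absurd (Finset.mem_univ _) h
  · exact le_inf ((S.e.bc_mono hW).trans (ymy_bc_le_MY S hr0 _ _)) (S.e.bc_le_bcE W)

theorem ymy_span_pow (t : D) (κ : D) (hκ : κ ∈ Algebra.adjoin F ({t} : Set D)) (k : ℕ)
    (hk : finrank F (Algebra.adjoin F ({t} : Set D)) ≤ k) :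
    ∃ a : ℕ → F, κ = ∑ n ∈ Finset.range k, a n • t ^ n := by
  have hint : IsIntegral F t := Algebra.IsIntegral.isIntegral t
  have hN : (minpoly F t).natDegree ≤ k := by
    refine le_trans ?_ hk
    have h1 : LinearIndependent F (fun i : Fin (minpoly F t).natDegree => t ^ (i : ℕ)) :=
      linearIndependent_pow t
    have h2 : LinearIndependent F (fun i : Fin (minpoly F t).natDegree =>
        (⟨t ^ (i : ℕ), Subalgebra.pow_mem _ (Algebra.self_mem_adjoin_singleton F t) _⟩ :
          Algebra.adjoin F ({t} : Set D))) := by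
      apply LinearIndependent.of_comp (Subalgebra.val _).toLinearMap
      exact h1
    simpa using h2.fintype_card_le_finrank
  rw [Algebra.adjoin_singleton_eq_range_aeval] at hκ
  obtain ⟨q, hq⟩ := hκ
  have hq' : Polynomial.aeval t q = κ := hq
  have hmon : (minpoly F t).Monic := minpoly.monic hint
  have h3 : Polynomial.aeval t (q %ₘ minpoly F t) = κ := by
    conv_rhs => rw [← hq', ← Polynomial.modByMonic_add_div q (minpoly F t)]
    simp [minpoly.aeval]
  have h4 : (q %ₘ minpoly F t).natDegree < k := by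
    refine lt_of_lt_of_le (Polynomial.natDegree_modByMonic_lt q hmon ?_) hN
    intro h
    have := minpoly.aeval F t
    rw [h, map_one] at this
    exact one_ne_zero this
  refine ⟨fun n => (q %ₘ minpoly F t).coeff n, ?_⟩
  rw [← h3, Polynomial.aeval_eq_sum_range' h4]

/-- `dim M_Y(K) ∩ (W ⊗ E₀) ≤ dim W · dim K` if `K = F[t]` and `W` contains no nonzero ideal of `K`:
`Σ p_k Y^k ∈ W ⊗ E₀` implies `p_k t^n ∈ W F₀` for `n ≤ k` (`Ycoef`), so `p_k = 0` for `k ≥ dim K`. -/
theorem finrank_MY_inf_le (hr : 1 < r) (hζ : IsPrimitiveRoot ζ r) (K : Subalgebra F D)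
    (t : D) (ht : Algebra.adjoin F {t} = K) (W : Submodule F D)
    (hW : W ≤ Subalgebra.toSubmodule K) (hWt : ∀ p ∈ W, (∀ κ ∈ K, p * κ ∈ W) → p = 0) :
    finrank F₀ ((S.MY (Subalgebra.toSubmodule K) (S.Y t) ⊓ S.e.bcE W : Submodule F₀ D₀)) ≤
      finrank F W * finrank F K := by
  have hr0 : 0 < r := by omega
  have key : ∀ (k : ℕ) (p : D₀), finrank F K ≤ k → p ∈ S.e.bc W →
      (∀ n < k, p * S.e.i (t ^ n) ∈ S.e.bc W) → p = 0 := by
    intro k p hk hp h
    have h1 : ∀ n ∈ Finset.range k, p ∈ S.e.bcE (W.comap (LinearMap.mulRight F (t ^ n))) := by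
      intro n hn
      apply S.e.mem_bcE_comap
      rw [S.e.ext_mulR]
      exact S.e.bc_le_bcE W (h n (Finset.mem_range.1 hn))
    have h2 := S.e.bcE_finset_inf _ _ p h1
    have h3 : p ∈ S.e.bcE (W ⊓ (Finset.range k).inf
        (fun n => W.comap (LinearMap.mulRight F (t ^ n)))) := by
      rw [← S.e.bcE_inf]
      exact ⟨S.e.bc_le_bcE W hp, h2⟩
    have h4 : (W ⊓ (Finset.range k).inf
        (fun n => W.comap (LinearMap.mulRight F (t ^ n)))) = ⊥ := by
      rw [Submodule.eq_bot_iff]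
      rintro x ⟨hx, hx'⟩
      apply hWt x hx
      intro κ hκ
      rw [← ht] at hκ
      obtain ⟨a, rfl⟩ := ymy_span_pow t κ hκ k (by rw [ht]; exact hk)
      rw [Finset.mul_sum]
      refine Submodule.sum_mem _ fun n hn => ?_
      rw [mul_smul_comm]
      refine Submodule.smul_mem _ _ ?_
      have := (Finset.inf_le hn : (Finset.range k).inf
        (fun n => W.comap (LinearMap.mulRight F (t ^ n))) ≤ _) hx'
      exact this
    rw [h4] at h3
    have := S.e.ext_eq_zero_of_mem LinearMap.id ⊥ (fun w hw => by simpa using hw) p h3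
    rwa [S.e.ext_id, LinearMap.id_apply] at this
  let T : (Fin (finrank F K) → S.e.bc W) →ₗ[F₀] D₀ :=
    { toFun := fun p => ∑ k, (p k : D₀) * S.Y t ^ (k : ℕ)
      map_add' := fun p q => by simp [add_mul, Finset.sum_add_distrib]
      map_smul' := fun a p => by simp [Finset.smul_sum] }
  have hle : (S.MY (Subalgebra.toSubmodule K) (S.Y t) ⊓ S.e.bcE W : Submodule F₀ D₀) ≤
      LinearMap.range T := by
    rintro x ⟨hx, hxW⟩
    obtain ⟨p, hp, rfl⟩ := (S.mem_MY _ _ x).1 hx
    have hp' : ∀ k, p k ∈ S.e.bc (⊤ : Submodule F D) := fun k => S.e.bc_mono le_top (hp k)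
    obtain ⟨h1, h2⟩ := S.Ycoef hr0 hζ t W p (fun _ => 0) hp' (fun _ => Submodule.zero_mem _) (by
      simpa using hxW)
    have h3 : ∀ k : Fin r, p k * S.e.i (t ^ (k : ℕ)) ∈ S.e.bc W := by
      intro k
      obtain ⟨c, hc, h⟩ := h2 k
      rw [add_zero, ← Algebra.smul_def, S.e.i_smul_api, mul_smul_comm] at h
      have hc' : S.e.φ c ≠ 0 := by
        rw [Ne, map_eq_zero_iff _ S.e.φ_inj]
        exact hc
      exact (Submodule.smul_mem_iff _ hc').1 h
    have h4 : ∀ k : Fin r, ∀ n ≤ (k : ℕ), p k * S.e.i (t ^ n) ∈ S.e.bc W := by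
      intro k n hn
      rcases Nat.lt_or_ge n k with h | h
      · exact h1 k n h
      · rw [le_antisymm hn h]
        exact h3 k
    have h5 : ∀ k : Fin r, p k ∈ S.e.bc W := by
      intro k
      have e0 := h4 k 0 (by omega)
      rwa [pow_zero, map_one, mul_one] at e0
    have h6 : ∀ k : Fin r, finrank F K ≤ (k : ℕ) → p k = 0 := by
      intro k hk
      exact key k (p k) hk (h5 k) (fun n hn => h4 k n hn.le)
    refine ⟨fun k => if h : (k : ℕ) < r then ⟨p ⟨k, h⟩, h5 _⟩ else 0, ?_⟩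
    let P : ℕ → D₀ := fun k => if h : k < r then p ⟨k, h⟩ * S.Y t ^ k else 0
    have e1 : (∑ k : Fin r, p k * S.Y t ^ (k : ℕ)) = ∑ k ∈ Finset.range r, P k := by
      rw [Finset.sum_range]
      refine Finset.sum_congr rfl fun k _ => ?_
      simp [P]
    have e2 : (∑ k : Fin (finrank F K), ((if h : (k : ℕ) < r then (⟨p ⟨k, h⟩, h5 _⟩ : S.e.bc W)
        else 0 : S.e.bc W) : D₀) * S.Y t ^ (k : ℕ)) = ∑ k ∈ Finset.range (finrank F K), P k := by
      rw [Finset.sum_range]
      refine Finset.sum_congr rfl fun k _ => ?_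
      simp only [P]
      split_ifs with h
      · rfl
      · simp
    change (∑ k : Fin (finrank F K), ((if h : (k : ℕ) < r then (⟨p ⟨k, h⟩, h5 _⟩ : S.e.bc W)
        else 0 : S.e.bc W) : D₀) * S.Y t ^ (k : ℕ)) = _
    rw [e1, e2]
    have e3 : ∀ m, (finrank F K ≤ m → r ≤ m → ∑ k ∈ Finset.range m, P k =
        ∑ k ∈ Finset.range (finrank F K), P k) := by
      intro m hm _
      symm
      apply Finset.sum_subset (Finset.range_mono hm)
      intro k _ hk
      rw [Finset.mem_range, not_lt] at hk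
      simp only [P]
      split_ifs with h
      · rw [h6 ⟨k, h⟩ hk, zero_mul]
      · rfl
    have e4 : ∀ m, (finrank F K ≤ m → r ≤ m → ∑ k ∈ Finset.range m, P k =
        ∑ k ∈ Finset.range r, P k) := by
      intro m _ hm
      symm
      apply Finset.sum_subset (Finset.range_mono hm)
      intro k _ hk
      rw [Finset.mem_range, not_lt] at hk
      simp only [P]
      rw [dif_neg (by omega)]
    rw [← e3 (max (finrank F K) r) (le_max_left _ _) (le_max_right _ _),
      ← e4 (max (finrank F K) r) (le_max_left _ _) (le_max_right _ _)]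
  calc finrank F₀ ((S.MY (Subalgebra.toSubmodule K) (S.Y t) ⊓ S.e.bcE W : Submodule F₀ D₀))
      ≤ finrank F₀ (LinearMap.range T) := Submodule.finrank_mono hle
    _ ≤ finrank F₀ (Fin (finrank F K) → S.e.bc W) := LinearMap.finrank_range_le T
    _ = finrank F K * finrank F₀ (S.e.bc W) := by
        rw [Module.finrank_pi_fintype]; simp
    _ = finrank F W * finrank F K := by rw [S.e.finrank_bc, mul_comm]

end
end Crest.Agent.R180
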