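import Mathlib
import Crest.Agent.R180.S1a
import Crest.Agent.R180.TLemmas
import Crest.Agent.R180.T1
import Crest.Agent.R180.EGood2

/-!
# Proofs of `pair_of_t` and `pair_primitive` (piece YSa)
-/

set_option autoImplicit false
set_option linter.unusedSectionVars false

namespace Crest.Agent.R180
open Module

/-- the direction `c` is inner for the pair `X, Y`, with witness `h` -/
def InnXY (s : St) (c : s.ι → s.F) (h : s.D) : Prop :=
  lin s.F s.X c = h * s.X [] - s.X [] * h ∧ lin s.F s.Y c = h * s.Y [] - s.Y [] * h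

theorem InnXY.comb {s : St} {c c' : s.ι → s.F} {h h' : s.D} (H : InnXY s c h)
    (H' : InnXY s c' h') (a b : s.F) : InnXY s (a • c + b • c') (a • h + b • h') := by
  constructor
  · rw [map_add, map_smul, map_smul, H.1, H'.1]
    simp only [add_mul, mul_add, smul_mul_assoc, mul_smul_comm, smul_sub]
    abel
  · rw [map_add, map_smul, map_smul, H.2, H'.2]
    simp only [add_mul, mul_add, smul_mul_assoc, mul_smul_comm, smul_sub]
    abel

theorem InnXY.g {s : St} {c : s.ι → s.F} {h : s.D} (H : InnXY s c h) :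
    lin s.F s.g c = h * s.g [] - s.g [] * h :=
  alg_der0 s.X s.Y s.g s.hg c h H.1 H.2

/-- a direction realising an element `v` of `V` modulo commutators, if inner, has `v = 0` -/
theorem inner_V_zero {s : St} (v : s.D) (hv : v ∈ s.V) (c : s.ι → s.F) (k h : s.D)
    (hc : lin s.F s.g c = v + (k * s.g [] - s.g [] * k)) (H : InnXY s c h) : v = 0 := by
  have h1 := H.g
  rw [hc] at h1
  refine decomp_unique (F := s.F) (s.g []) v (h - k) (V_comm v hv) ?_
  rw [eq_sub_of_add_eq h1]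
  noncomm_ring

theorem pair_of_t' {s₀ s : St} (h : St.Cmin s₀ s) (v t : s.D) (hv : v ∈ s.V) (hv0 : v ≠ 0)
    (ht : v * t ∈ s.V) (htF : ¬ ∃ a : s.F, t = algebraMap s.F s.D a) :
    ∃ (c₀ c₁ : s.ι → s.F) (k₀ k₁ : s.D), GoodPair s.F s.X s.Y c₀ c₁ ∧
      lin s.F s.g c₀ = v + (k₀ * s.g [] - s.g [] * k₀) ∧
      lin s.F s.g c₁ = v * t + (k₁ * s.g [] - s.g [] * k₁) := by
  obtain ⟨c₀, k₀, h0⟩ := S1a' h v hv
  obtain ⟨c₁, k₁, h1⟩ := S1a' h (v * t) ht
  refine ⟨c₀, c₁, k₀, k₁, ?_, h0, h1⟩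
  intro α β k hX hY
  have hmem : α • v + β • (v * t) ∈ s.V := s.V.add_mem (s.V.smul_mem _ hv) (s.V.smul_mem _ ht)
  have hz := inner_V_zero (α • v + β • (v * t)) hmem (α • c₀ + β • c₁)
    (α • k₀ + β • k₁) k (by
      rw [map_add, map_smul, map_smul, h0, h1]
      simp only [smul_add, smul_sub, add_mul, mul_add, smul_mul_assoc, mul_smul_comm]
      abel) ⟨hX, hY⟩
  have hz2 : v * (algebraMap s.F s.D α + β • t) = 0 := by
    rw [mul_add, mul_smul_comm, ← Algebra.commutes α v, ← Algebra.smul_def]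
    exact hz
  have hz3 : algebraMap s.F s.D α + β • t = 0 := (mul_eq_zero.1 hz2).resolve_left hv0
  have hβ : β = 0 := by
    by_contra hβ
    apply htF
    refine ⟨-(β⁻¹ * α), ?_⟩
    have : t = β⁻¹ • (β • t) := by rw [smul_smul, inv_mul_cancel₀ hβ, one_smul]
    rw [this, eq_neg_of_add_eq_zero_right hz3, smul_neg, map_neg, map_mul, Algebra.smul_def]
  refine ⟨?_, hβ⟩
  rw [hβ, zero_smul, add_zero] at hz3
  exact (map_eq_zero_iff _ (FaithfulSMul.algebraMap_injective s.F s.D)).1 hz3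

theorem pair_primitive' {s₀ s : St} (h : St.Cmin s₀ s) (v : s.D) (hv : v ∈ s.V) (hv0 : v ≠ 0) :
    ∃ (t : s.D) (c₀ c₁ : s.ι → s.F) (k₀ k₁ : s.D), v * t ∈ s.V ∧
      Algebra.adjoin s.F {t} = s.K ∧ GoodPair s.F s.X s.Y c₀ c₁ ∧
      lin s.F s.g c₀ = v + (k₀ * s.g [] - s.g [] * k₀) ∧
      lin s.F s.g c₁ = v * t + (k₁ * s.g [] - s.g [] * k₁) := by
  obtain ⟨t, ht, htK⟩ := exists_primitive s.g v hv hv0
  by_cases htF : ∃ a : s.F, t = algebraMap s.F s.D a
  · -- `K = F`
    obtain ⟨a, rfl⟩ := htF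
    have hK : s.K = ⊥ := by
      change Kalg (Vs s.F s.g) = ⊥
      rw [← htK, Algebra.adjoin_singleton_algebraMap]
    obtain ⟨c₀, k₀, h0⟩ := S1a' h v hv
    obtain ⟨p, q, hpq⟩ := h.1.2.1.2
    have key : ∃ c₁, GoodPair s.F s.X s.Y c₀ c₁ := by
      by_contra hcon
      push Not at hcon
      have hp := hcon p
      have hq := hcon q
      unfold GoodPair at hp hq
      push Not at hp hq
      obtain ⟨α, β, k, hX, hY, hne⟩ := hp
      obtain ⟨α', β', k', hX', hY', hne'⟩ := hq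
      have H : InnXY s (α • c₀ + β • p) k := ⟨hX, hY⟩
      have H' : InnXY s (α' • c₀ + β' • q) k' := ⟨hX', hY'⟩
      have hc0 : ∀ (γ : s.F) (k : s.D), γ ≠ 0 → ¬ InnXY s (γ • c₀) k := by
        intro γ k hγ Hi
        have H2 := Hi.comb Hi γ⁻¹ 0
        rw [zero_smul, add_zero, smul_smul, inv_mul_cancel₀ hγ, one_smul] at H2
        exact hv0 (inner_V_zero v hv c₀ k₀ _ h0 H2)
      have hβ : β ≠ 0 := by
        intro hβ
        subst hβ
        rw [zero_smul, add_zero] at H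
        by_cases hα : α = 0
        · exact hne hα rfl
        · exact hc0 α k hα H
      have hβ' : β' ≠ 0 := by
        intro hβ
        subst hβ
        rw [zero_smul, add_zero] at H'
        by_cases hα : α' = 0
        · exact hne' hα rfl
        · exact hc0 α' k' hα H'
      have H3 := H.comb H' α' (-α)
      have e3 : α' • (α • c₀ + β • p) + (-α) • (α' • c₀ + β' • q) =
          (α' * β) • p + (-(α * β')) • q := by
        ext j
        simp only [Pi.add_apply, Pi.smul_apply, smul_eq_mul]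
        ring
      rw [e3] at H3
      obtain ⟨e4, e5⟩ := hpq _ _ _ H3.1 H3.2
      have hα' : α' = 0 := (mul_eq_zero.1 e4).resolve_right hβ
      have hα : α = 0 := (mul_eq_zero.1 (neg_eq_zero.1 e5)).resolve_right hβ'
      rw [hα, zero_smul, zero_add] at H
      have H5 : InnXY s (β • p + (0 : s.F) • q) k := by rw [zero_smul, add_zero]; exact H
      exact hβ (hpq _ _ _ H5.1 H5.2).1
    obtain ⟨c₁, hc₁⟩ := key
    obtain ⟨w, hw, k₁, h1⟩ := S1a h c₁
    obtain ⟨κ, hκ, hwκ⟩ := Vs_sub s.g v w hv hv0 hw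
    have hκ' : κ ∈ (⊥ : Subalgebra s.F s.D) := by
      rw [← hK]; exact hκ
    obtain ⟨b, rfl⟩ := Algebra.mem_bot.1 hκ'
    refine ⟨algebraMap s.F s.D b, c₀, c₁, k₀, k₁, ?_, ?_, hc₁, h0, ?_⟩
    · rw [← hwκ]; exact hw
    · rw [hK, Algebra.adjoin_singleton_algebraMap]
    · rw [← hwκ]; exact h1
  · obtain ⟨c₀, c₁, k₀, k₁, hg, h0, h1⟩ := pair_of_t' h v t hv hv0 ht htF
    exact ⟨t, c₀, c₁, k₀, k₁, ht, htK, hg, h0, h1⟩

end Crest.Agent.R180
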