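import Mathlib
import Crest.Agent.R180.S1a
import Crest.Agent.R180.SymY
import Crest.Agent.R180.SymExist
import Crest.Agent.R180.TLemmas
import Crest.Agent.R180.T1
import Crest.Agent.R180.T2
import Crest.Agent.R180.YPair
import Crest.Agent.R180.YMY

/-!
# Common lemmas for the steps with `X = v Y`, `Y = u + t v` (pieces LB, S3, ND)
-/

set_option autoImplicit false
set_option linter.unusedSectionVars false

namespace Crest.Agent.R180
open Module

/-- Two directions realising `v` and `v t` which form a good pair, `t ∉ F`.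
(If `α c₀ + β c₁` is inner for `X, Y`, it is inner for `g` (`alg_der0`), so `α v + β v t ∈ [D,θ]`, hence `= 0`
(`decomp_unique`), so `α = β = 0` as `t ∉ F`.) -/
theorem pair_of_t {s₀ s : St} (h : St.Cmin s₀ s) (v t : s.D) (hv : v ∈ s.V) (hv0 : v ≠ 0)
    (ht : v * t ∈ s.V) (htF : ¬ ∃ a : s.F, t = algebraMap s.F s.D a) :
    ∃ (c₀ c₁ : s.ι → s.F) (k₀ k₁ : s.D), GoodPair s.F s.X s.Y c₀ c₁ ∧
      lin s.F s.g c₀ = v + (k₀ * s.g [] - s.g [] * k₀) ∧
      lin s.F s.g c₁ = v * t + (k₁ * s.g [] - s.g [] * k₁) := by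
  exact pair_of_t' h v t hv hv0 ht htF

/-- A good pair of directions with `t` a primitive element of `K(s)`.  If `K(s) ≠ F` use `T1` and `pair_of_t`.
If `K(s) = F`: then `V = v F`; take `c₀` with `lin g c₀ = v + […]`; `c₀` is not inner; from the good pair `(a,b)` of `s`, one of
`a`, `b` forms a good pair with `c₀` (call it `c₁`), and `lin g c₁ = v t + […]` with `t ∈ F`. -/
theorem pair_primitive {s₀ s : St} (h : St.Cmin s₀ s) (v : s.D) (hv : v ∈ s.V) (hv0 : v ≠ 0) :
    ∃ (t : s.D) (c₀ c₁ : s.ι → s.F) (k₀ k₁ : s.D), v * t ∈ s.V ∧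
      Algebra.adjoin s.F {t} = s.K ∧ GoodPair s.F s.X s.Y c₀ c₁ ∧
      lin s.F s.g c₀ = v + (k₀ * s.g [] - s.g [] * k₀) ∧
      lin s.F s.g c₁ = v * t + (k₁ * s.g [] - s.g [] * k₁) := by
  exact pair_primitive' h v hv hv0

end Crest.Agent.R180
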