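import Mathlib
import Crest.Agent.R180.YStep
import Crest.Agent.R180.Num

/-!
# Piece LB: `(c2,a)`-minimal states with `o` bounded and `nK` arbitrarily large

`0 ≠ v ∈ V`; `t, c₀, c₁, k₀, k₁` from `pair_primitive`.  For a prime `r` (large), `ζ`, `S : SymData` (`exists_sym`), apply `ss1` with
`e = S.e`, `Z = ![u, v]` (`gen_uv`), `a = c₀`, `b = c₁`: `x = i(v) (u + i(t) v) = i v * S.Y t`, `h = i k₀ * u + i k₁ * v` (`linE_const`).
`ESout`: `n2 s' = r² n2 s` (`finrank_D0`), `m' ≥ dim F₀[θ, v Y] = r m` (`adjoin_eq_MY`, `finrank_MY`, `Y_indep`).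
`dV s' ≥ r nK s - C₀`, `C₀ = oK s * nK s`: in `M_Y(K) = S.MY K (S.Y t)` (dimension `r nK`) the subspace
`M_Y(K) ∩ (W ⊗ E₀)`, `W = Wsp V v`, has dimension `≤ oK * nK` (`finrank_MY_inf_le`; `W` contains no nonzero ideal of `K`: if
`p κ ∈ W` for all `κ ∈ K` then, as `1 ∈ V₁`, `ntr (p κ) = 0`, so `p = 0`).  Let `M₀` be a complement of it in `M_Y(K)` and
`M = M₀ * v⁻¹` (`v⁻¹ ∈ L`).  If `x = p v⁻¹ ∈ M` kills all `linE g δ`, then (δ = c ⊗ y, `S1a'`) `ntr (p i(w) y) = 0` for all `w ∈ V₁`,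
`y ∈ E₀`, so `p ∈ W ⊗ E₀` (`orth_bcE` with `A = K`), so `p = 0`.
`num_lemma` with `o₁ = C₀` for `r` prime with `(aK+1) C₀ < r nK` and `B ≤ r`: `nK s' = r nK s ≥ B`, `oK s' ≤ C₀`.
-/

set_option autoImplicit false
set_option linter.unusedSectionVars false

namespace Crest.Agent.R180
open Module

/-- relative complement with a dimension estimate -/
theorem lb_compl {K V : Type*} [Field K] [AddCommGroup V] [Module K V] [FiniteDimensional K V]
    (A B : Submodule K V) : ∃ M₀ : Submodule K V, M₀ ≤ A ∧ M₀ ⊓ B = ⊥ ∧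
      finrank K A ≤ finrank K M₀ + finrank K (A ⊓ B : Submodule K V) := by
  obtain ⟨Q, hQ⟩ := Submodule.exists_isCompl (A ⊓ B)
  refine ⟨A ⊓ Q, inf_le_left, ?_, ?_⟩
  · rw [eq_bot_iff]
    have h1 := hQ.disjoint.le_bot
    refine le_trans ?_ h1
    refine le_inf (le_inf (inf_le_left.trans inf_le_left) inf_le_right)
      (inf_le_left.trans inf_le_right)
  · have h2 : A ≤ (A ⊓ Q) ⊔ (A ⊓ B) := by
      have h3 : (A ⊓ B) ⊔ Q ⊓ A = ((A ⊓ B) ⊔ Q) ⊓ A := by
        rw [sup_inf_assoc_of_le Q (inf_le_left : A ⊓ B ≤ A)]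
      rw [hQ.codisjoint.eq_top, top_inf_eq] at h3
      rw [sup_comm, inf_comm A Q, h3]
    calc finrank K A ≤ finrank K ((A ⊓ Q) ⊔ (A ⊓ B) : Submodule K V) := Submodule.finrank_mono h2
      _ ≤ _ := Submodule.finrank_add_le_finrank_add_finrank _ _

section
variable {F D F₀ D₀ : Type} [Field F] [CharZero F] [Ring D] [IsDomain D] [Algebra F D]
    [FiniteDimensional F D] [Algebra.IsCentral F D]
    [Field F₀] [CharZero F₀] [Ring D₀] [IsDomain D₀] [Algebra F₀ D₀]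
    [FiniteDimensional F₀ D₀] [Algebra.IsCentral F₀ D₀] {r : ℕ} {ζ : F}
    (S : SymData F D F₀ D₀ r ζ)

theorem lb_MY_le_bcE (K : Subalgebra F D) (t : D) (ht : t ∈ K) :
    S.MY (Subalgebra.toSubmodule K) (S.Y t) ≤ S.e.bcE (Subalgebra.toSubmodule K) := by
  have hY : S.Y t ∈ S.e.bcE (Subalgebra.toSubmodule K) := by
    unfold SymData.Y
    refine Submodule.add_mem _ ?_ (S.e.mul_mem_bcE _ _ ht _ S.v_mem_E)
    have := S.e.mul_mem_bcE (Subalgebra.toSubmodule K) 1 K.one_mem _ S.u_mem_E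
    rwa [map_one, one_mul] at this
  have hone : (1 : D₀) ∈ S.e.bcE (Subalgebra.toSubmodule K) := by
    have := S.e.mul_mem_bcE (Subalgebra.toSubmodule K) 1 K.one_mem 1 (one_mem _)
    rwa [map_one, one_mul] at this
  have hpow : ∀ k : ℕ, S.Y t ^ k ∈ S.e.bcE (Subalgebra.toSubmodule K) := by
    intro k
    induction k with
    | zero => rw [pow_zero]; exact hone
    | succ k ih => rw [pow_succ]; exact S.e.bcE_mul K _ _ ih hY
  unfold SymData.MY
  rw [Submodule.span_le]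
  rintro _ ⟨p, hp, k, _, rfl⟩
  exact S.e.bcE_mul K _ _ (S.e.bc_le_bcE _ hp) (hpow k)

theorem lb_MY_mono (W W' : Submodule F D) (h : W ≤ W') (y : D₀) : S.MY W y ≤ S.MY W' y := by
  unfold SymData.MY
  apply Submodule.span_mono
  rintro _ ⟨p, hp, k, hk, rfl⟩
  exact ⟨p, S.e.bc_mono h hp, k, hk, rfl⟩

end

/-- the key step -/
theorem lb_step {s₀ s : St} (h : St.Cmin s₀ s) (r : ℕ) (hr : r.Prime) :
    ∃ s' : St, St.Cls s₀ s' ∧ s'.n2 = r ^ 2 * s.n2 ∧ r * s.m ≤ s'.m ∧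
      r * s.nK ≤ s'.dV + s.oK * s.nK := by
  obtain ⟨v, hv, hv0⟩ := Submodule.exists_mem_ne_zero_of_ne_bot h.1.2.2
  obtain ⟨ζ, hζ⟩ := s.rou r hr.pos
  obtain ⟨F₀, D₀, _, _, _, _, _, _, _, ⟨S⟩⟩ := exists_sym s.F s.D r hr ζ hζ
  obtain ⟨t, c₀, c₁, k₀, k₁, ht, hK, hgp, hc₀, hc₁⟩ := pair_primitive h v hv hv0
  -- basic memberships
  have hvL : v ∈ Algebra.adjoin s.F ({s.g []} : Set s.D) := Vs_le s.g hv
  have htK : t ∈ Kalg (Vs s.F s.g) := by
    have h1 : t ∈ Algebra.adjoin s.F ({t} : Set s.D) := Algebra.self_mem_adjoin_singleton s.F t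
    rw [hK] at h1
    exact h1
  have htL : t ∈ Algebra.adjoin s.F ({s.g []} : Set s.D) := Kalg_le s.g htK
  have hθL : s.g [] ∈ Algebra.adjoin s.F ({s.g []} : Set s.D) :=
    Algebra.self_mem_adjoin_singleton s.F _
  have hvθ : v * s.g [] = s.g [] * v := adjoin_comm _ v hvL _ hθL
  have htθ : t * s.g [] = s.g [] * t := adjoin_comm _ t htL _ hθL
  have huθ : S.u * S.e.i (s.g []) = S.e.i (s.g []) * S.u := (S.comm_u _).eq.symm
  have hvvθ : S.v * S.e.i (s.g []) = S.e.i (s.g []) * S.v := (S.comm_v _).eq.symm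
  -- the E-step
  have hx : S.e.linE s.g (fun j => algebraMap F₀ D₀ (S.e.φ (c₀ j)) * (![S.u, S.v] : Fin 2 → D₀) 0 +
      algebraMap F₀ D₀ (S.e.φ (c₁ j)) * (![S.u, S.v] : Fin 2 → D₀) 1) =
      S.e.i v * S.Y t + ((S.e.i k₀ * S.u + S.e.i k₁ * S.v) * S.e.i (s.g []) -
        S.e.i (s.g []) * (S.e.i k₀ * S.u + S.e.i k₁ * S.v)) := by
    have h1 : S.e.linE s.g (fun j => algebraMap F₀ D₀ (S.e.φ (c₀ j)) *
        (![S.u, S.v] : Fin 2 → D₀) 0 +
        algebraMap F₀ D₀ (S.e.φ (c₁ j)) * (![S.u, S.v] : Fin 2 → D₀) 1) =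
        S.e.linE s.g (fun j => algebraMap F₀ D₀ (S.e.φ (c₀ j)) * S.u) +
        S.e.linE s.g (fun j => algebraMap F₀ D₀ (S.e.φ (c₁ j)) * S.v) := by
      simp only [CExt.linE, Matrix.cons_val_zero, Matrix.cons_val_one, mul_add,
        Finset.sum_add_distrib]
    rw [h1, S.e.linE_const _ _ _ S.u_mem_E, S.e.linE_const _ _ _ S.v_mem_E, hc₀, hc₁]
    simp only [map_add, map_sub, map_mul, SymData.Y, add_mul, sub_mul, mul_add, mul_assoc,
      huθ, hvvθ]
    rw [← mul_assoc (S.e.i k₀), ← mul_assoc (S.e.i k₁)]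
    simp only [mul_assoc]
    abel
  have hxc : Commute (S.e.i v * S.Y t) (S.e.i (s.g [])) := by
    have h1 : Commute (S.e.i v) (S.e.i (s.g [])) := by
      show _ * _ = _ * _
      rw [← map_mul, ← map_mul, hvθ]
    have h2 : Commute (S.e.i t) (S.e.i (s.g [])) := by
      show _ * _ = _ * _
      rw [← map_mul, ← map_mul, htθ]
    have h3 : Commute (S.Y t) (S.e.i (s.g [])) := by
      unfold SymData.Y
      exact Commute.add_left huθ (h2.mul_left hvvθ)
    exact h1.mul_left h3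
  obtain ⟨s', hs'⟩ := ss1 s h.1.2.1 S.e c₀ c₁ hgp ![S.u, S.v]
    (by intro i; fin_cases i; exacts [S.u_mem_E, S.v_mem_E])
    (fun h' hh' hcomm => S.gen_uv hr.one_lt hζ h' hh' (hcomm 0) (hcomm 1))
    (S.e.i k₀ * S.u + S.e.i k₁ * S.v) (S.e.i v * S.Y t) hx hxc
  have hMYL := adjoin_eq_MY S hr.one_lt hζ (s.g []) v t hvL htL hv0
  have hYind := S.Y_indep hr.pos hζ t
  refine ⟨s', hs'.cls h.1, ?_, ?_, ?_⟩
  · rw [hs'.n2, S.finrank_D0]; rfl
  · refine le_trans (le_of_eq ?_) hs'.m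
    have h1 : finrank F₀ (Algebra.adjoin F₀ ({S.e.i (s.g []), S.e.i v * S.Y t} : Set D₀)) =
        finrank F₀ (S.MY (Subalgebra.toSubmodule (Algebra.adjoin s.F {s.g []})) (S.Y t)) := by
      rw [← hMYL]; rfl
    rw [h1, S.finrank_MY _ _ hYind]
    rfl
  · -- the dimension of V
    set W := Wsp (Vs s.F s.g) v with hWdef
    have hWK : W ≤ Subalgebra.toSubmodule (Kalg (Vs s.F s.g)) := fun p hp => hp.1
    have hWt : ∀ p ∈ W, (∀ κ ∈ Kalg (Vs s.F s.g), p * κ ∈ W) → p = 0 := by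
      intro p hp hall
      refine ntr_nondeg (Kalg (Vs s.F s.g)) p hp.1 ?_
      intro a ha
      have h1 := (hall a ha).2 1 (one_mem_V1 s.g v hv hv0)
      rw [one_mul] at h1
      rwa [ntr_comm]
    have hdim := finrank_MY_inf_le S hr.one_lt hζ (Kalg (Vs s.F s.g)) t hK W hWK hWt
    rw [hWdef, finrank_Wsp s.g v hv hv0] at hdim
    obtain ⟨M₀, hM₀, hM₀W, hM₀d⟩ := lb_compl
      (S.MY (Subalgebra.toSubmodule (Kalg (Vs s.F s.g))) (S.Y t)) (S.e.bcE W)
    rw [S.finrank_MY _ _ hYind] at hM₀d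
    obtain ⟨v', hv'L, hvv', hv'v⟩ := exists_inverse_mem _ v hvL hv0
    have hv'0 : v' ≠ 0 := by
      rintro rfl
      rw [mul_zero] at hvv'
      exact zero_ne_one hvv'
    have hiv'0 : S.e.i v' ≠ 0 := by
      intro h0
      have : S.e.i (v * v') = 0 := by rw [map_mul, h0, mul_zero]
      rw [hvv', map_one] at this
      exact one_ne_zero this
    have hinj : Function.Injective (LinearMap.mulRight F₀ (S.e.i v')) := by
      intro a b hab
      exact mul_right_cancel₀ hiv'0 hab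
    have hMd : finrank F₀ (M₀.map (LinearMap.mulRight F₀ (S.e.i v'))) = finrank F₀ M₀ :=
      (LinearEquiv.finrank_eq (Submodule.equivMapOfInjective _ hinj _)).symm
    have hV := hs'.V (M₀.map (LinearMap.mulRight F₀ (S.e.i v'))) ?_ ?_
    · have h3 : finrank s.F (Subalgebra.toSubmodule (Kalg (Vs s.F s.g))) = s.nK := rfl
      rw [h3] at hM₀d
      rw [hMd] at hV
      have h4 : oK s.F s.g * finrank s.F (Kalg (Vs s.F s.g)) = s.oK * s.nK := rfl
      rw [h4] at hdim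
      have h5 : r * s.nK ≤ finrank F₀ M₀ + s.oK * s.nK := hM₀d.trans (Nat.add_le_add_left hdim _)
      omega
    · -- contained in the algebra
      rw [Submodule.map_le_iff_le_comap]
      intro p hp
      have h1 : p ∈ Algebra.adjoin F₀ ({S.e.i (s.g []), S.e.i v * S.Y t} : Set D₀) := by
        rw [← Subalgebra.mem_toSubmodule, hMYL]
        exact lb_MY_mono S _ _ (Kalg_le s.g) _ (hM₀ hp)
      have h2 : S.e.i v' ∈ Algebra.adjoin F₀ ({S.e.i (s.g []), S.e.i v * S.Y t} : Set D₀) := by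
        rw [← Subalgebra.mem_toSubmodule, hMYL]
        have h3 := S.e.i_mem_bc (Subalgebra.toSubmodule (Algebra.adjoin s.F {s.g []})) v' hv'L
        unfold SymData.MY
        exact Submodule.subset_span ⟨S.e.i v', h3, 0, hr.pos, by rw [pow_zero, mul_one]⟩
      exact Subalgebra.mul_mem _ h1 h2
    · -- nondegeneracy
      rintro x ⟨p, hp, rfl⟩ hx1 _
      rw [LinearMap.mulRight_apply] at hx1 ⊢
      have hpW : p ∈ S.e.bcE W := by
        refine (S.e.orth_bcE (Kalg (Vs s.F s.g)) (V1 (Vs s.F s.g) v) W ?_ p).2 ⟨?_, ?_⟩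
        · intro x
          exact Iff.rfl
        · exact lb_MY_le_bcE S _ t htK (hM₀ hp)
        · intro d hd y hy
          obtain ⟨c, k, hck⟩ := S1a' h (v * d) hd
          have h1 := hx1 (fun j => algebraMap F₀ D₀ (S.e.φ (c j)) * y)
            (fun j => S.e.E.mul_mem (S.e.alg_mem_E _) hy)
          rw [S.e.linE_const _ _ _ hy, hck] at h1
          have hpθ : Commute (p * S.e.i v') (S.e.i (s.g [])) := by
            have h2 : Commute p (S.e.i (s.g [])) := by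
              rw [← S.e.mem_bcE_centralizer]
              refine S.e.bcE_mono ?_ (lb_MY_le_bcE S _ t htK (hM₀ hp))
              intro x hx
              have hxL := Kalg_le s.g hx
              exact (mem_cent (F := s.F) (s.g []) x).2 (adjoin_comm _ x hxL _ hθL)
            have h3 : Commute (S.e.i v') (S.e.i (s.g [])) := by
              show _ * _ = _ * _
              rw [← map_mul, ← map_mul, adjoin_comm _ v' hv'L _ hθL]
            exact h2.mul_left h3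
          have hyθ : y * S.e.i (s.g []) = S.e.i (s.g []) * y := ((S.e.comm_E hy _)).symm
          have h4 : p * S.e.i v' * (S.e.i (v * d + (k * s.g [] - s.g [] * k)) * y) =
              p * (S.e.i d * y) + (p * S.e.i v') * ((S.e.i k * y) * S.e.i (s.g []) -
                S.e.i (s.g []) * (S.e.i k * y)) := by
            rw [map_add, add_mul, mul_add]
            congr 1
            · rw [map_mul, mul_assoc p, ← mul_assoc (S.e.i v'), ← mul_assoc (S.e.i v'),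
                ← map_mul, hv'v, map_one, one_mul]
            · congr 1
              rw [map_sub, map_mul, map_mul, sub_mul, mul_assoc (S.e.i k), ← hyθ]
              simp only [mul_assoc]
          rw [h4, map_add, ntr_mul_comm_zero _ _ _ hpθ, add_zero] at h1
          rw [ntr_comm]
          exact h1
      have h0 : p ∈ M₀ ⊓ S.e.bcE W := ⟨hp, hpW⟩
      rw [hM₀W, Submodule.mem_bot] at h0
      rw [h0, zero_mul]

theorem LB {s₀ s : St} (h : St.Amin s₀ s) : ∃ C₀ : ℕ, ∀ B : ℕ, ∃ s' : St,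
    St.Amin s₀ s' ∧ B ≤ s'.nK ∧ s'.oK ≤ C₀ := by
  refine ⟨s.oK * s.nK, fun B => ?_⟩
  obtain ⟨r, hrB, hr⟩ := Nat.exists_infinite_primes (B + (s.aK + 1) * (s.oK * s.nK) + 1)
  obtain ⟨s', hC, hn, hm, hV⟩ := lb_step h.1 r hr
  have hnK : 0 < s.nK := nK_pos s.g
  have hle : r ≤ r * s.nK := Nat.le_mul_of_pos_right r hnK
  obtain ⟨h1, -, h3, -, h5⟩ := num_lemma h hC r hr.pos hn hm (s.oK * s.nK) hV (by omega)
  exact ⟨s', h1, by rw [h3]; omega, h5⟩

/-- existence of `Omin` states with `2 o + 2 ≤ dV` -/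
theorem exists_Omin {s₀ s : St} (h : St.Amin s₀ s) : ∃ (B : ℕ) (s' : St),
    St.Omin s₀ B s' ∧ 2 * s'.oK + 2 ≤ s'.dV := by
  obtain ⟨C₀, hC₀⟩ := LB h
  classical
  have hex : ∃ n : ℕ, ∃ s' : St, St.Amin s₀ s' ∧ 3 * C₀ + 2 ≤ s'.nK ∧ s'.oK = n := by
    obtain ⟨s', h1, h2, _⟩ := hC₀ (3 * C₀ + 2)
    exact ⟨s'.oK, s', h1, h2, rfl⟩
  obtain ⟨s', h1, h2, h3⟩ := Nat.find_spec hex
  have hmin : ∀ s'' : St, St.Amin s₀ s'' → 3 * C₀ + 2 ≤ s''.nK → s'.oK ≤ s''.oK := by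
    intro s'' h4 h5
    rw [h3]
    exact Nat.find_min' hex ⟨s'', h4, h5, rfl⟩
  refine ⟨3 * C₀ + 2, s', ⟨⟨h1, h2⟩, hmin⟩, ?_⟩
  have h4 : s'.oK ≤ C₀ := by
    obtain ⟨s'', h5, h6, h7⟩ := hC₀ (3 * C₀ + 2)
    exact (hmin s'' h5 h6).trans h7
  have h5 : s'.oK = s'.nK - s'.dV := rfl
  have h6 : s'.dV ≤ s'.nK := finrank_Vs_le s'.g h1.1.1.2.2
  omega

end Crest.Agent.R180
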