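import Mathlib
import Crest.Agent.R180.Red

/-!
# Piece RL: lifting solutions of linear constraints from the reduction (independent, needs only `Red`)

Let `M₂ = {m ∈ M | q j m = 0 ∀ j}`.  `dim M₂ ≥ dim M - o`; `red M₂ ⊂ {y ∈ red M | qb j y = 0 ∀ j} =: R₂`, and `dim R₂ = dim red M - o`
by independence (`hind`); `dim red M₂ = dim M₂`, `dim red M = dim M` (`finrank_red`).  So `red M₂ = R₂`.
-/

set_option autoImplicit false
set_option linter.unusedSectionVars false

namespace Crest.Agent.R180
open Module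

variable {F D : Type} [Field F] [Ring D] [Algebra F D] [FiniteDimensional F D]

theorem red_lift {κ : Type} [Finite κ] (M : Submodule (Lau F) (κ → Lau D)) {o : ℕ}
    (q : Fin o → M →ₗ[Lau F] Lau F) (qb : Fin o → (κ → D) →ₗ[F] F)
    (hq : ∀ j (m : M), (∀ k, IsInt (m.1 k)) →
      IsInt (q j m) ∧ (q j m).coeff 0 = qb j (fun k => (m.1 k).coeff 0))
    (hind : ∀ c : Fin o → F, (∀ y ∈ red M, ∑ j, c j * qb j y = 0) → c = 0)
    (y : κ → D) (hy : y ∈ red M) (hqy : ∀ j, qb j y = 0) :
    ∃ m : M, (∀ k, IsInt (m.1 k)) ∧ (∀ k, (m.1 k).coeff 0 = y k) ∧ ∀ j, q j m = 0 := by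
  classical
  let Q : M →ₗ[Lau F] (Fin o → Lau F) := LinearMap.pi q
  let M₂ : Submodule (Lau F) (κ → Lau D) := (LinearMap.ker Q).map M.subtype
  let Qb : red M →ₗ[F] (Fin o → F) := (LinearMap.pi qb) ∘ₗ (red M).subtype
  let R₂ : Submodule F (κ → D) := (LinearMap.ker Qb).map (red M).subtype
  -- dimension of `M₂`
  have hM₂ : finrank (Lau F) M ≤ o + finrank (Lau F) M₂ := by
    have h1 := LinearMap.finrank_range_add_finrank_ker Q
    have h2 : finrank (Lau F) (LinearMap.range Q) ≤ o := by
      have := Submodule.finrank_le (LinearMap.range Q)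
      simpa using this
    have h3 : finrank (Lau F) M₂ = finrank (Lau F) (LinearMap.ker Q) :=
      (LinearEquiv.finrank_eq (Submodule.equivMapOfInjective M.subtype
          M.injective_subtype (LinearMap.ker Q))).symm
    omega
  -- dimension of `R₂`
  have hsurj : LinearMap.range Qb = ⊤ := by
    by_contra hne
    obtain ⟨f, hf, hle⟩ := Submodule.exists_le_ker_of_lt_top _ (lt_top_iff_ne_top.2 hne)
    apply hf
    have hc : (fun j => f (Pi.single j 1)) = (0 : Fin o → F) := by
      apply hind
      intro z hz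
      have h1 : f (Qb ⟨z, hz⟩) = 0 := hle ⟨_, rfl⟩
      have h2 : Qb ⟨z, hz⟩ = ∑ j, (qb j z) • (Pi.single j (1 : F) : Fin o → F) := by
        funext i
        simp [Qb, Finset.sum_apply, Pi.single_apply]
      rw [h2, map_sum] at h1
      rw [← h1]
      refine Finset.sum_congr rfl fun j _ => ?_
      rw [map_smul, smul_eq_mul, mul_comm]
    apply LinearMap.pi_ext'
    intro j
    ext
    simpa using congrFun hc j
  have hR₂ : finrank F (red M) = o + finrank F R₂ := by
    have h1 := LinearMap.finrank_range_add_finrank_ker Qb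
    rw [hsurj, finrank_top] at h1
    have h3 : finrank F R₂ = finrank F (LinearMap.ker Qb) :=
      (LinearEquiv.finrank_eq (Submodule.equivMapOfInjective (red M).subtype
          (red M).injective_subtype (LinearMap.ker Qb))).symm
    simp at h1
    omega
  have hle : red M₂ ≤ R₂ := by
    rintro z ⟨w, hw, hwi, hw0⟩
    obtain ⟨m, hm, rfl⟩ := hw
    have hzM : z ∈ red M := ⟨m.1, m.2, hwi, hw0⟩
    refine ⟨⟨z, hzM⟩, ?_, rfl⟩
    show Qb ⟨z, hzM⟩ = 0
    funext j
    have h1 := (hq j m hwi).2
    have h2 : q j m = 0 := congrFun (hm : Q m = 0) j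
    have h3 : (fun k => (m.1 k).coeff 0) = z := funext hw0
    rw [h2, h3] at h1
    simpa [Qb] using h1.symm
  have heq : red M₂ = R₂ := by
    apply Submodule.eq_of_le_of_finrank_le hle
    have h1 := finrank_red M₂
    have h2 := finrank_red M
    omega
  have hyR : y ∈ R₂ := by
    refine ⟨⟨y, hy⟩, ?_, rfl⟩
    show Qb ⟨y, hy⟩ = 0
    funext j
    simpa [Qb] using hqy j
  rw [← heq] at hyR
  obtain ⟨w, ⟨m, hm, rfl⟩, hwi, hw0⟩ := hyR
  exact ⟨m, hwi, hw0, fun j => congrFun (hm : Q m = 0) j⟩

/-- integral basis of a subspace of `Lau D` whose reductions form a basis of the reduction -/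
theorem exists_int_basis (M : Submodule (Lau F) (Lau D)) :
    ∃ x : Fin (finrank (Lau F) M) → Lau D, (∀ j, x j ∈ M) ∧ (∀ j, IsInt (x j)) ∧
      LinearIndependent F (fun j => (x j).coeff 0) ∧
      Submodule.span (Lau F) (Set.range x) = M := by
  classical
  let b := finBasisOfFinrankEq F (red1 M) (finrank_red1 M)
  have hb : ∀ i, ∃ x ∈ M, IsInt x ∧ x.coeff 0 = (b i : D) := fun i => (b i).2
  choose x hxM hxI hx0 using hb
  have hli0 : LinearIndependent F (fun j => (x j).coeff 0) := by
    have h1 : (fun j => (x j).coeff 0) = fun i => (b i : D) := funext hx0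
    rw [h1]
    exact b.linearIndependent.map' (red1 M).subtype (Submodule.ker_subtype _)
  have hli : LinearIndependent (Lau F) x := lc1 x hxI hli0
  refine ⟨x, hxM, hxI, hli0, ?_⟩
  have hle : Submodule.span (Lau F) (Set.range x) ≤ M := by
    rw [Submodule.span_le]
    rintro _ ⟨i, rfl⟩
    exact hxM i
  apply Submodule.eq_of_le_of_finrank_le hle
  rw [finrank_span_eq_card hli]
  simp

end Crest.Agent.R180
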