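import Mathlib
import Crest.Agent.R180.NDAlg
import Crest.Agent.R180.RedLift
import Crest.Agent.R180.LB

/-!
# The non-degeneracy step: data (piece ND0) and structure

`NDat s₀ s B`: an `Omin` state `s`, a generic `t`, a symbol extension `S` of large prime degree `r ≥ 5`, and the E-step `E` in the direction
`p = c₀ u + c₁ v` (`U = 1 + ε (k₀ u + k₁ v)`), whose result `s' = s.next E` is again `Omin`, with `m' = r m`, `nK' = r nK`, `o' = o`.

**ND0 `exists_NDat`**: `0 ≠ v ∈ V`; `t` from `exists_generic` (T2), `c₀, c₁, k₀, k₁` from `pair_of_t`; a prime `r ≥ 5` with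
`(aK + 1) oK < r nK`, and `ζ` from `s.rou`, `S` from `exists_sym`, `T : EData` with `Q j = X * C (c₀_j u + c₁_j v)`,
`U = 1 + X * C (k₀ u + k₁ v)`, `E` from `exists_EStep`.  `LTerm` from `fp_one` (with `x = i v * Y`, `h = i k₀ * u + i k₁ * v`) and
`EStep.lterm`; `GenQ` from `gen_cond` (`Z = ![u, v]`, `gen_uv`); `next_ESout`.
`m' ≥ dim A = r m` (`adjoin_eq_MY`, `finrank_MY`, `Y_indep`); `dV' ≥ r nK - oK`: as in `LB.lean` with `MY_inf` instead of
`finrank_MY_inf_le` (`dim W = oK`, `finrank_Wsp`).  `num_lemma` with `o₁ = oK` gives `Amin s'`, `nK' = r nK`, `oK' ≤ oK`; `Omin s` gives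
`oK ≤ oK'`, so `oK' = oK` and `s'` is `Omin`.
-/

set_option autoImplicit false
set_option linter.unusedSectionVars false

namespace Crest.Agent.R180
open Module

structure NDat (s₀ s : St) (B : ℕ) where
  hO : St.Omin s₀ B s
  v : s.D
  t : s.D
  hv : v ∈ s.V
  hv0 : v ≠ 0
  ht : v * t ∈ s.V
  htF : ¬ ∃ a : s.F, t = algebraMap s.F s.D a
  hW : ∀ p ∈ Wsp s.V v, t * p ∈ Wsp s.V v → p = 0
  c₀ : s.ι → s.F
  c₁ : s.ι → s.F
  k₀ : s.D
  k₁ : s.D
  gp : GoodPair s.F s.X s.Y c₀ c₁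
  lin0 : lin s.F s.g c₀ = v + (k₀ * s.g [] - s.g [] * k₀)
  lin1 : lin s.F s.g c₁ = v * t + (k₁ * s.g [] - s.g [] * k₁)
  r : ℕ
  hr : r.Prime
  h5 : 5 ≤ r
  ζ : s.F
  hζ : IsPrimitiveRoot ζ r
  F₀ : Type
  D₀ : Type
  [fF : Field F₀]
  [cF : CharZero F₀]
  [rD : Ring D₀]
  [dD : IsDomain D₀]
  [aD : Algebra F₀ D₀]
  [fD : FiniteDimensional F₀ D₀]
  [zD : Algebra.IsCentral F₀ D₀]
  S : SymData s.F s.D F₀ D₀ r ζ
  T : EData S.e s.ι
  hQ : ∀ j, T.Q j = PowerSeries.X * PowerSeries.C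
    (algebraMap F₀ D₀ (S.e.φ (c₀ j)) * S.u + algebraMap F₀ D₀ (S.e.φ (c₁ j)) * S.v)
  hU : T.U = 1 + PowerSeries.X * PowerSeries.C (S.e.i k₀ * S.u + S.e.i k₁ * S.v)
  E : EStep T
  gen : GenQ T s.X s.Y
  lt : LTerm (E.Ψ s.g []) (S.e.i (s.g [])) (S.e.i v * S.Y t) 1
  hO' : St.Omin s₀ B (s.next E)
  hm : (s.next E).m = r * s.m
  hnK : (s.next E).nK = r * s.nK
  hoK : (s.next E).oK = s.oK
  hdV : (s.next E).dV + s.oK = r * s.nK

attribute [instance] NDat.fF NDat.cF NDat.rD NDat.dD NDat.aD NDat.fD NDat.zD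

/-- the dimension of `V` after the step -/
theorem nd0_V {s₀ s : St} (h : St.Cmin s₀ s) (v : s.D) (hv : v ∈ s.V) (hv0 : v ≠ 0) (t : s.D)
    (ht : v * t ∈ s.V) (hWt : ∀ p ∈ Wsp s.V v, t * p ∈ Wsp s.V v → p = 0)
    {r : ℕ} (hr : r.Prime) {ζ : s.F} (hζ : IsPrimitiveRoot ζ r) {F₀ D₀ : Type}
    [Field F₀] [CharZero F₀] [Ring D₀] [IsDomain D₀] [Algebra F₀ D₀]
    [FiniteDimensional F₀ D₀] [Algebra.IsCentral F₀ D₀] (S : SymData s.F s.D F₀ D₀ r ζ)
    (s' : St) (hs' : ESout s s' S.e (S.e.i v * S.Y t)) :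
    r * s.m ≤ s'.m ∧ r * s.nK ≤ s'.dV + s.oK := by
  have hvL : v ∈ Algebra.adjoin s.F ({s.g []} : Set s.D) := Vs_le s.g hv
  have htK : t ∈ Kalg (Vs s.F s.g) := V1_le_K s.g v hv hv0 ht
  have htL : t ∈ Algebra.adjoin s.F ({s.g []} : Set s.D) := Kalg_le s.g htK
  have hθL : s.g [] ∈ Algebra.adjoin s.F ({s.g []} : Set s.D) :=
    Algebra.self_mem_adjoin_singleton s.F _
  have hMYL := adjoin_eq_MY S hr.one_lt hζ (s.g []) v t hvL htL hv0
  have hYind := S.Y_indep hr.pos hζ t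
  refine ⟨?_, ?_⟩
  · refine le_trans (le_of_eq ?_) hs'.m
    have h1 : finrank F₀ (Algebra.adjoin F₀ ({S.e.i (s.g []), S.e.i v * S.Y t} : Set D₀)) =
        finrank F₀ (S.MY (Subalgebra.toSubmodule (Algebra.adjoin s.F {s.g []})) (S.Y t)) := by
      rw [← hMYL]; rfl
    rw [h1, S.finrank_MY _ _ hYind]
    rfl
  · -- the dimension of V
    set W := Wsp (Vs s.F s.g) v with hWdef
    have hWK : W ≤ Subalgebra.toSubmodule (Kalg (Vs s.F s.g)) := fun p hp => hp.1
    have hdim : finrank F₀ ((S.MY (Subalgebra.toSubmodule (Kalg (Vs s.F s.g))) (S.Y t) ⊓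
        S.e.bcE W : Submodule F₀ D₀)) = s.oK := by
      rw [MY_inf S hr.one_lt hζ (Kalg (Vs s.F s.g)) (Kalg_comm s.g v hv hv0) t htK W hWK hWt,
        S.e.finrank_bc, hWdef, finrank_Wsp s.g v hv hv0]
      rfl
    obtain ⟨M₀, hM₀, hM₀W, hM₀d⟩ := lb_compl
      (S.MY (Subalgebra.toSubmodule (Kalg (Vs s.F s.g))) (S.Y t)) (S.e.bcE W)
    rw [S.finrank_MY _ _ hYind] at hM₀d
    obtain ⟨v', hv'L, hvv', hv'v⟩ := exists_inverse_mem _ v hvL hv0
    have hv'0 : v' ≠ 0 := by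
      rintro rfl
      rw [mul_zero] at hvv'
      exact zero_ne_one hvv'
    have hiv'0 : S.e.i v' ≠ 0 := by
      intro h0
      have : S.e.i (v * v') = 0 := by rw [map_mul, h0, mul_zero]
      rw [hvv', map_one] at this
      exact one_ne_zero this
    have hinj : Function.Injective (LinearMap.mulRight F₀ (S.e.i v')) := by
      intro a b hab
      exact mul_right_cancel₀ hiv'0 hab
    have hMd : finrank F₀ (M₀.map (LinearMap.mulRight F₀ (S.e.i v'))) = finrank F₀ M₀ :=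
      (LinearEquiv.finrank_eq (Submodule.equivMapOfInjective _ hinj _)).symm
    have hV := hs'.V (M₀.map (LinearMap.mulRight F₀ (S.e.i v'))) ?_ ?_
    · have h3 : finrank s.F (Subalgebra.toSubmodule (Kalg (Vs s.F s.g))) = s.nK := rfl
      rw [h3] at hM₀d
      rw [hMd] at hV
      rw [hdim] at hM₀d
      omega
    · -- contained in the algebra
      rw [Submodule.map_le_iff_le_comap]
      intro p hp
      have h1 : p ∈ Algebra.adjoin F₀ ({S.e.i (s.g []), S.e.i v * S.Y t} : Set D₀) := by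
        rw [← Subalgebra.mem_toSubmodule, hMYL]
        exact lb_MY_mono S _ _ (Kalg_le s.g) _ (hM₀ hp)
      have h2 : S.e.i v' ∈ Algebra.adjoin F₀ ({S.e.i (s.g []), S.e.i v * S.Y t} : Set D₀) := by
        rw [← Subalgebra.mem_toSubmodule, hMYL]
        have h3 := S.e.i_mem_bc (Subalgebra.toSubmodule (Algebra.adjoin s.F {s.g []})) v' hv'L
        unfold SymData.MY
        exact Submodule.subset_span ⟨S.e.i v', h3, 0, hr.pos, by rw [pow_zero, mul_one]⟩
      exact Subalgebra.mul_mem _ h1 h2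
    · -- nondegeneracy
      rintro x ⟨p, hp, rfl⟩ hx1 _
      rw [LinearMap.mulRight_apply] at hx1 ⊢
      have hpW : p ∈ S.e.bcE W := by
        refine (S.e.orth_bcE (Kalg (Vs s.F s.g)) (V1 (Vs s.F s.g) v) W ?_ p).2 ⟨?_, ?_⟩
        · intro x
          exact Iff.rfl
        · exact lb_MY_le_bcE S _ t htK (hM₀ hp)
        · intro d hd y hy
          obtain ⟨c, k, hck⟩ := S1a' h (v * d) hd
          have h1 := hx1 (fun j => algebraMap F₀ D₀ (S.e.φ (c j)) * y)
            (fun j => S.e.E.mul_mem (S.e.alg_mem_E _) hy)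
          rw [S.e.linE_const _ _ _ hy, hck] at h1
          have hpθ : Commute (p * S.e.i v') (S.e.i (s.g [])) := by
            have h2 : Commute p (S.e.i (s.g [])) := by
              rw [← S.e.mem_bcE_centralizer]
              refine S.e.bcE_mono ?_ (lb_MY_le_bcE S _ t htK (hM₀ hp))
              intro x hx
              have hxL := Kalg_le s.g hx
              exact (mem_cent (F := s.F) (s.g []) x).2 (adjoin_comm _ x hxL _ hθL)
            have h3 : Commute (S.e.i v') (S.e.i (s.g [])) := by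
              show _ * _ = _ * _
              rw [← map_mul, ← map_mul, adjoin_comm _ v' hv'L _ hθL]
            exact h2.mul_left h3
          have hyθ : y * S.e.i (s.g []) = S.e.i (s.g []) * y := ((S.e.comm_E hy _)).symm
          have h4 : p * S.e.i v' * (S.e.i (v * d + (k * s.g [] - s.g [] * k)) * y) =
              p * (S.e.i d * y) + (p * S.e.i v') * ((S.e.i k * y) * S.e.i (s.g []) -
                S.e.i (s.g []) * (S.e.i k * y)) := by
            rw [map_add, add_mul, mul_add]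
            congr 1
            · rw [map_mul, mul_assoc p, ← mul_assoc (S.e.i v'), ← mul_assoc (S.e.i v'),
                ← map_mul, hv'v, map_one, one_mul]
            · congr 1
              rw [map_sub, map_mul, map_mul, sub_mul, mul_assoc (S.e.i k), ← hyθ]
              simp only [mul_assoc]
          rw [h4, map_add, ntr_mul_comm_zero _ _ _ hpθ, add_zero] at h1
          rw [ntr_comm]
          exact h1
      have h0 : p ∈ M₀ ⊓ S.e.bcE W := ⟨hp, hpW⟩
      rw [hM₀W, Submodule.mem_bot] at h0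
      rw [h0, zero_mul]

/-- **ND0** -/
theorem exists_NDat {s₀ s : St} {B : ℕ} (h : St.Omin s₀ B s) (hd : 2 * s.oK + 2 ≤ s.dV) :
    Nonempty (NDat s₀ s B) := by
  have hA : St.Amin s₀ s := h.1.1
  have hC : St.Cmin s₀ s := hA.1
  obtain ⟨v, hv, hv0⟩ := Submodule.exists_mem_ne_zero_of_ne_bot hC.1.2.2
  obtain ⟨t, ht, htF, hWt⟩ := exists_generic s.g v hv hv0 hd
  obtain ⟨c₀, c₁, k₀, k₁, hgp, hc₀, hc₁⟩ := pair_of_t hC v t hv hv0 ht htF
  obtain ⟨r, hrB, hr⟩ := Nat.exists_infinite_primes (5 + (s.aK + 1) * s.oK)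
  obtain ⟨ζ, hζ⟩ := s.rou r hr.pos
  obtain ⟨F₀, D₀, _, _, _, _, _, _, _, ⟨S⟩⟩ := exists_sym s.F s.D r hr ζ hζ
  -- basic memberships
  have hvL : v ∈ Algebra.adjoin s.F ({s.g []} : Set s.D) := Vs_le s.g hv
  have htK : t ∈ Kalg (Vs s.F s.g) := V1_le_K s.g v hv hv0 ht
  have htL : t ∈ Algebra.adjoin s.F ({s.g []} : Set s.D) := Kalg_le s.g htK
  have hθL : s.g [] ∈ Algebra.adjoin s.F ({s.g []} : Set s.D) :=
    Algebra.self_mem_adjoin_singleton s.F _
  have hvθ : v * s.g [] = s.g [] * v := adjoin_comm _ v hvL _ hθL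
  have htθ : t * s.g [] = s.g [] * t := adjoin_comm _ t htL _ hθL
  have huθ : S.u * S.e.i (s.g []) = S.e.i (s.g []) * S.u := (S.comm_u _).eq.symm
  have hvvθ : S.v * S.e.i (s.g []) = S.e.i (s.g []) * S.v := (S.comm_v _).eq.symm
  -- the E-step
  set ω : s.ι → D₀ := fun j => algebraMap F₀ D₀ (S.e.φ (c₀ j)) * S.u +
      algebraMap F₀ D₀ (S.e.φ (c₁ j)) * S.v with hω'
  have hω : ∀ j, ω j ∈ S.e.E := fun j =>
    add_mem (mul_mem (S.e.alg_mem_E _) S.u_mem_E) (mul_mem (S.e.alg_mem_E _) S.v_mem_E)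
  have hx : S.e.linE s.g ω =
      S.e.i v * S.Y t + ((S.e.i k₀ * S.u + S.e.i k₁ * S.v) * S.e.i (s.g []) -
        S.e.i (s.g []) * (S.e.i k₀ * S.u + S.e.i k₁ * S.v)) := by
    have h1 : S.e.linE s.g ω =
        S.e.linE s.g (fun j => algebraMap F₀ D₀ (S.e.φ (c₀ j)) * S.u) +
        S.e.linE s.g (fun j => algebraMap F₀ D₀ (S.e.φ (c₁ j)) * S.v) := by
      simp only [CExt.linE, hω', mul_add, Finset.sum_add_distrib]
    rw [h1, S.e.linE_const _ _ _ S.u_mem_E, S.e.linE_const _ _ _ S.v_mem_E, hc₀, hc₁]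
    simp only [map_add, map_sub, map_mul, SymData.Y, add_mul, sub_mul, mul_add, mul_assoc,
      huθ, hvvθ]
    rw [← mul_assoc (S.e.i k₀), ← mul_assoc (S.e.i k₁)]
    simp only [mul_assoc]
    abel
  have hxc : Commute (S.e.i v * S.Y t) (S.e.i (s.g [])) := by
    have h1 : Commute (S.e.i v) (S.e.i (s.g [])) := by
      show _ * _ = _ * _
      rw [← map_mul, ← map_mul, hvθ]
    have h2 : Commute (S.e.i t) (S.e.i (s.g [])) := by
      show _ * _ = _ * _
      rw [← map_mul, ← map_mul, htθ]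
    have h3 : Commute (S.Y t) (S.e.i (s.g [])) := by
      unfold SymData.Y
      exact Commute.add_left huθ (h2.mul_left hvvθ)
    exact h1.mul_left h3
  have f1 := fp_one S.e ω hω s.g _ _ hx
  let T : EData S.e s.ι :=
    { Q := fun j => PowerSeries.X * PowerSeries.C (ω j)
      Q0 := fun j => by simp
      QE := fun j n => nxtAux_mem s S.e (ω j) (hω j) n
      U := 1 + PowerSeries.X * PowerSeries.C (S.e.i k₀ * S.u + S.e.i k₁ * S.v)
      U0 := by simp }
  obtain ⟨E⟩ := exists_EStep T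
  have hgen : GenQ T s.X s.Y := by
    intro k hk k' hX hY
    have h1 : ∀ j, PowerSeries.coeff 1 (T.Q j) = ω j := fun j => nxtAux_coeff1 (ω j)
    simp only [h1] at hX hY
    exact S.e.gen_cond s.X s.Y c₀ c₁ hgp ![S.u, S.v]
      (by intro i; fin_cases i; exacts [S.u_mem_E, S.v_mem_E])
      (fun h' hh' hcomm => S.gen_uv hr.one_lt hζ h' hh' (hcomm 0) (hcomm 1)) k k' hk hX hY
  have hl : LTerm (E.Ψ s.g []) (S.e.i (s.g [])) (S.e.i v * S.Y t) 1 :=
    E.lterm s.g 1 le_rfl _ hxc f1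
  have hs' : ESout s (s.next E) S.e (S.e.i v * S.Y t) :=
    next_ESout s E hC.1.2.1 hgen 1 _ hl
  have hCls : St.Cls s₀ (s.next E) := hs'.cls hC.1
  have hn : (s.next E).n2 = r ^ 2 * s.n2 := by
    rw [hs'.n2, S.finrank_D0]; rfl
  obtain ⟨hm, hV⟩ := nd0_V hC v hv hv0 t ht hWt hr hζ S (s.next E) hs'
  have hnK : 0 < s.nK := nK_pos s.g
  have hle : r ≤ r * s.nK := Nat.le_mul_of_pos_right r hnK
  obtain ⟨g1, g2, g3, -, g5⟩ := num_lemma hA hCls r hr.pos hn hm s.oK hV (by omega)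
  have hB : B ≤ (s.next E).nK := by
    rw [g3]
    exact h.1.2.trans (Nat.le_mul_of_pos_left _ hr.pos)
  have hoK : (s.next E).oK = s.oK := le_antisymm g5 (h.2 _ g1 hB)
  have hO' : St.Omin s₀ B (s.next E) :=
    ⟨⟨g1, hB⟩, fun s'' h1 h2 => by rw [hoK]; exact h.2 s'' h1 h2⟩
  have hdV : (s.next E).dV + s.oK = r * s.nK := by
    have e1 : (s.next E).oK = (s.next E).nK - (s.next E).dV := rfl
    have e2 : (s.next E).dV ≤ (s.next E).nK := finrank_Vs_le (s.next E).g hCls.2.2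
    rw [hoK, g3] at e1
    rw [g3] at e2
    omega
  exact ⟨{ hO := h, v := v, t := t, hv := hv, hv0 := hv0, ht := ht, htF := htF, hW := hWt,
           c₀ := c₀, c₁ := c₁, k₀ := k₀, k₁ := k₁, gp := hgp, lin0 := hc₀, lin1 := hc₁,
           r := r, hr := hr, h5 := by omega, ζ := ζ, hζ := hζ, F₀ := F₀, D₀ := D₀, S := S, T := T,
           hQ := fun j => rfl, hU := rfl, E := E, gen := hgen, lt := hl, hO' := hO', hm := g2,
           hnK := g3, hoK := hoK, hdV := hdV }⟩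

namespace NDat
variable {s₀ s : St} {B : ℕ} (n : NDat s₀ s B)

/-- `X = v Y` -/
def Xe : n.D₀ := n.S.e.i n.v * n.S.Y n.t

/-- `A = F₀[θ, X]` -/
def A : Subalgebra n.F₀ n.D₀ := Algebra.adjoin n.F₀ ({n.S.e.i (s.g []), n.Xe} : Set n.D₀)

/-- the new state -/
noncomputable def s' : St := s.next n.E

/-- `Θ` -/
noncomputable def Θ : Lau n.D₀ := n.E.Ψ s.g []

theorem finrank_A : finrank n.F₀ n.A = n.r * s.m := by
  have hvL : n.v ∈ Algebra.adjoin s.F ({s.g []} : Set s.D) := Vs_le s.g n.hv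
  have htK : n.t ∈ Kalg (Vs s.F s.g) := V1_le_K s.g n.v n.hv n.hv0 n.ht
  have htL : n.t ∈ Algebra.adjoin s.F ({s.g []} : Set s.D) := Kalg_le s.g htK
  have hMYL := adjoin_eq_MY n.S n.hr.one_lt n.hζ (s.g []) n.v n.t hvL htL n.hv0
  have hYind := n.S.Y_indep n.hr.pos n.hζ n.t
  have h1 : finrank n.F₀ n.A =
      finrank n.F₀ (n.S.MY (Subalgebra.toSubmodule (Algebra.adjoin s.F {s.g []})) (n.S.Y n.t)) := by
    rw [← hMYL]; rfl
  rw [h1, n.S.finrank_MY _ _ hYind]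
  rfl

/-- `dim A = m'` in the form needed for `redAlg_L`, `K_ge`, `exists_V_lift` -/
theorem hmA : mdeg (Lau n.F₀) (n.E.Ψ s.g []) =
    finrank n.F₀ (Algebra.adjoin n.F₀ ({n.S.e.i (s.g []), n.S.e.i n.v * n.S.Y n.t} : Set n.D₀)) := by
  have h1 : mdeg (Lau n.F₀) (n.E.Ψ s.g []) = n.r * s.m := n.hm
  rw [h1]
  exact n.finrank_A.symm

end NDat
end Crest.Agent.R180
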