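import Mathlib

/-!
# Auxiliary file for piece PI: generic linear algebra and path matrices
-/

set_option autoImplicit false
set_option linter.unusedSectionVars false

namespace Crest.Agent.R180.PIAux
open Module

/-- generic kernels -/
theorem ker_generic {K V W : Type*} [Field K] [AddCommGroup V] [Module K V]
    [FiniteDimensional K V] [AddCommGroup W] [Module K W] (φ ψ : V →ₗ[K] W)
    (h : LinearMap.ker φ ≤ LinearMap.ker ψ) :
    ∃ B : Set K, B.Finite ∧ ∀ a ∉ B, ∀ x, φ x + a • ψ x = 0 → φ x = 0 := by
  obtain ⟨C, hC⟩ := Submodule.exists_isCompl (LinearMap.ker φ)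
  have hinj : LinearMap.ker (φ ∘ₗ C.subtype) = ⊥ := by
    rw [LinearMap.ker_eq_bot']
    intro c hc
    have h1 : (c : V) ∈ LinearMap.ker φ ⊓ C := ⟨hc, c.2⟩
    rw [hC.inf_eq_bot] at h1
    exact Subtype.ext ((Submodule.mem_bot K).mp h1)
  obtain ⟨π, hπ⟩ := LinearMap.exists_leftInverse_of_injective _ hinj
  set M : Module.End K C := π ∘ₗ ψ ∘ₗ C.subtype with hM
  refine ⟨{0} ∪ (fun a : K => -a⁻¹) ⁻¹' {μ | M.HasEigenvalue μ}, ?_, ?_⟩
  · refine (Set.finite_singleton 0).union (Set.Finite.preimage ?_ M.finite_hasEigenvalue)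
    intro a _ b _ hab
    exact inv_injective (neg_injective hab)
  · intro a ha x hx
    simp only [Set.mem_union, Set.mem_singleton_iff, Set.mem_preimage, Set.mem_ofPred_eq,
      not_or] at ha
    obtain ⟨ha0, ha1⟩ := ha
    obtain ⟨k, c, hkc⟩ := Submodule.codisjoint_iff_exists_add_eq.mp hC.codisjoint x
    obtain ⟨hk, hc, hkc⟩ := hkc
    have hφk : φ k = 0 := hk
    have hψk : ψ k = 0 := h hk
    have h1 : φ c + a • ψ c = 0 := by
      rw [← hkc, map_add, map_add, hφk, hψk, zero_add, zero_add] at hx
      exact hx
    set c' : C := ⟨c, hc⟩ with hc'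
    have h2 : c' + a • M c' = 0 := by
      have h3 := congrArg π h1
      rw [map_add, map_smul, map_zero] at h3
      have h4 : π (φ c) = c' := by
        have := LinearMap.congr_fun hπ c'
        exact this
      rw [h4] at h3
      exact h3
    have h5 : M c' = (-a⁻¹) • c' := by
      have h6 : a • M c' = - c' := by
        rw [eq_neg_iff_add_eq_zero, add_comm]; exact h2
      calc M c' = a⁻¹ • (a • M c') := by rw [smul_smul, inv_mul_cancel₀ ha0, one_smul]
        _ = (-a⁻¹) • c' := by rw [h6, smul_neg, neg_smul]
    have h7 : c' = 0 := by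
      by_contra hne
      apply ha1
      exact Module.End.hasEigenvalue_of_hasEigenvector
        (Module.End.hasEigenvector_iff.mpr ⟨Module.End.mem_eigenspace_iff.mpr h5, hne⟩)
    have h8 : c = 0 := congrArg Subtype.val h7
    rw [← hkc, map_add, hφk, h8, map_zero, zero_add]

section path
variable {F : Type} [Field F] {r : ℕ}

/-- labelled deterministic graph matrices -/
def pm (F : Type) [Field F] {r : ℕ} (f : Fin r → Fin r) (lab : Fin r → Option (Fin 2))
    (a : Fin 2) : Matrix (Fin r) (Fin r) F :=
  Matrix.of fun i j => if lab i = some a ∧ j = f i then 1 else 0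

/-- the word `m` is accepted from the state `i` -/
def acc (f : Fin r → Fin r) (lab : Fin r → Option (Fin 2)) : List (Fin 2) → Fin r → Prop
  | [], _ => True
  | a :: m, i => lab i = some a ∧ acc f lab m (f i)

instance accDec (f : Fin r → Fin r) (lab : Fin r → Option (Fin 2)) (m : List (Fin 2)) :
    ∀ i : Fin r, Decidable (acc f lab m i) := by
  induction m with
  | nil => intro i; unfold acc; infer_instance
  | cons a m ih => intro i; unfold acc; have := ih (f i); infer_instance

theorem pm_prod (f : Fin r → Fin r) (lab : Fin r → Option (Fin 2)) (m : List (Fin 2)) :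
    ∀ i j : Fin r, (m.map (pm F f lab)).prod i j =
      if acc f lab m i ∧ j = f^[m.length] i then 1 else 0 := by
  induction m with
  | nil =>
    intro i j
    simp only [List.map_nil, List.prod_nil, Matrix.one_apply, acc, true_and, List.length_nil,
      Function.iterate_zero, id]
    by_cases h : i = j
    · rw [if_pos h, if_pos h.symm]
    · rw [if_neg h, if_neg (fun h' => h h'.symm)]
  | cons a m ih =>
    intro i j
    rw [List.map_cons, List.prod_cons, Matrix.mul_apply, Finset.sum_eq_single (f i)]
    · rw [ih]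
      simp only [pm, Matrix.of_apply, acc, List.length_cons, Function.iterate_succ,
        Function.comp_apply, and_true]
      by_cases h1 : lab i = some a
      · simp [h1]
      · simp [h1]
    · intro l _ hl
      simp only [pm, Matrix.of_apply]
      rw [if_neg (fun h => hl h.2), zero_mul]
    · intro h
      exact absurd (Finset.mem_univ _) h

theorem iter_st (f : Fin r → Fin r) (st : ℕ → Fin r) (K : ℕ)
    (h1 : ∀ k < K, f (st k) = st (k + 1)) :
    ∀ n i, i + n ≤ K → f^[n] (st i) = st (i + n) := by
  intro n
  induction n with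
  | zero => intro i _; rfl
  | succ n ih =>
    intro i hi
    rw [Function.iterate_succ, Function.comp_apply, h1 i (by omega), ih (i + 1) (by omega)]
    congr 1
    omega

theorem acc_iff (f : Fin r → Fin r) (lab : Fin r → Option (Fin 2)) (st : ℕ → Fin r)
    (W : ℕ → Fin 2) (K : ℕ) (h1 : ∀ k < K, f (st k) = st (k + 1))
    (h2 : ∀ k < K, lab (st k) = some (W k)) :
    ∀ (m : List (Fin 2)) (i : ℕ), i + m.length ≤ K →
      (acc f lab m (st i) ↔ m = (List.range m.length).map (fun k => W (i + k))) := by
  intro m
  induction m with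
  | nil => intro i _; simp [acc]
  | cons a m ih =>
    intro i hi
    rw [List.length_cons] at hi
    have hi' : i < K := by omega
    have e : (List.range (a :: m).length).map (fun k => W (i + k)) =
        W i :: (List.range m.length).map (fun k => W (i + 1 + k)) := by
      rw [List.length_cons, List.range_succ_eq_map, List.map_cons, List.map_map]
      congr 1
      refine List.map_congr_left fun k _ => ?_
      simp only [Function.comp_apply]
      congr 1
      omega
    rw [e]
    unfold acc
    rw [h2 i hi', h1 i hi', ih (i + 1) (by omega), List.cons.injEq]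
    constructor
    · rintro ⟨h3, h4⟩
      exact ⟨(Option.some.inj h3).symm, h4⟩
    · rintro ⟨h3, h4⟩
      exact ⟨by rw [h3], h4⟩

/-- `κ(T)` for matrices -/
def kap (N : ℕ) (κ : List (Fin 2) → F) (T : Fin 2 → Matrix (Fin r) (Fin r) F) :
    Matrix (Fin r) (Fin r) F :=
  ∑ m : Fin N → Fin 2, κ (List.ofFn m) • ((List.ofFn m).map T).prod

theorem kap_apply (N : ℕ) (κ : List (Fin 2) → F) (f : Fin r → Fin r)
    (lab : Fin r → Option (Fin 2)) (i j : Fin r) :
    kap N κ (pm F f lab) i j = ∑ m : Fin N → Fin 2,
      if acc f lab (List.ofFn m) i ∧ j = f^[N] i then κ (List.ofFn m) else 0 := by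
  unfold kap
  rw [Matrix.sum_apply]
  refine Finset.sum_congr rfl fun m _ => ?_
  rw [Matrix.smul_apply, pm_prod, List.length_ofFn]
  split_ifs <;> simp

theorem kap_apply_st (N : ℕ) (κ : List (Fin 2) → F) (f : Fin r → Fin r)
    (lab : Fin r → Option (Fin 2)) (st : ℕ → Fin r)
    (W : ℕ → Fin 2) (K : ℕ) (h1 : ∀ k < K, f (st k) = st (k + 1))
    (h2 : ∀ k < K, lab (st k) = some (W k)) (i : ℕ) (hi : i + N ≤ K) :
    kap N κ (pm F f lab) (st i) (st (i + N)) =
      κ ((List.range N).map (fun k => W (i + k))) := by
  rw [kap_apply, Finset.sum_eq_single (fun k : Fin N => W (i + k))]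
  · have e : List.ofFn (fun k : Fin N => W (i + k)) = (List.range N).map (fun k => W (i + k)) := by
      apply List.ext_getElem
      · simp
      · intro n _ _
        simp
    rw [e, if_pos]
    refine ⟨?_, (iter_st f st K h1 N i hi).symm⟩
    rw [acc_iff f lab st W K h1 h2 _ i (by simpa using hi)]
    simp
  · intro m _ hm
    rw [if_neg]
    rintro ⟨ha, _⟩
    rw [acc_iff f lab st W K h1 h2 _ i (by simpa using hi)] at ha
    apply hm
    rw [List.length_ofFn] at ha
    funext k
    have h3 : (List.ofFn m)[(k : ℕ)]'(by simp) =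
        ((List.range N).map (fun k => W (i + k)))[(k : ℕ)]'(by simp) := by
      congr 1
    simpa using h3
  · intro h
    exact absurd (Finset.mem_univ _) h

/-- the nilpotent specialisation -/
theorem exists_off (N : ℕ) (hN : 1 ≤ N) (hNr : N < r) (κ : List (Fin 2) → F)
    (hκ : ∃ m : Fin N → Fin 2, κ (List.ofFn m) ≠ 0) :
    ∃ T : Fin 2 → Matrix (Fin r) (Fin r) F, ¬ ∃ c : F, kap N κ T = c • (1 : Matrix _ _ F) := by
  obtain ⟨w, hw⟩ := hκ
  set f : Fin r → Fin r := fun i => if h : (i : ℕ) + 1 < r then ⟨i + 1, h⟩ else i with hf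
  set lab : Fin r → Option (Fin 2) :=
    fun i => if h : (i : ℕ) < N then some (w ⟨i, h⟩) else none with hlab
  set st : ℕ → Fin r := fun k => if h : k < r then ⟨k, h⟩ else ⟨0, by omega⟩ with hst
  set W : ℕ → Fin 2 := fun k => if h : k < N then w ⟨k, h⟩ else 0 with hW
  have h1 : ∀ k < N, f (st k) = st (k + 1) := by
    intro k hk
    simp only [hf, hst]
    rw [dif_pos (show k < r by omega), dif_pos (show k + 1 < r by omega)]
    simp [show k + 1 < r by omega]
  have h2 : ∀ k < N, lab (st k) = some (W k) := by
    intro k hk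
    simp only [hlab, hst, hW]
    rw [dif_pos hk]
    simp [show k < r by omega, hk]
  refine ⟨pm F f lab, ?_⟩
  rintro ⟨c, hc⟩
  have h3 := kap_apply_st N κ f lab st W N h1 h2 0 (by omega)
  have h4 : (List.range N).map (fun k => W (0 + k)) = List.ofFn w := by
    apply List.ext_getElem
    · simp
    · intro n hn _
      have : n < N := by simpa using hn
      simp [hW, this]
  rw [h4, hc, Matrix.smul_apply, Matrix.one_apply, if_neg, smul_zero] at h3
  · exact hw h3.symm
  · intro h5
    have h6 : ((st 0 : Fin r) : ℕ) = ((st (0 + N) : Fin r) : ℕ) := by rw [h5]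
    simp only [hst] at h6
    rw [dif_pos (show 0 < r by omega), dif_pos (show 0 + N < r by omega)] at h6
    simp at h6
    omega

/-- the cyclic specialisation -/
theorem exists_tr (N : ℕ) (hN : 1 ≤ N) (hNr : N ≤ r) (κ : List (Fin 2) → F)
    (hκ : ∃ m : Fin N → Fin 2, ∑ k ∈ Finset.range N, κ ((List.ofFn m).rotate k) ≠ 0) :
    ∃ T : Fin 2 → Matrix (Fin r) (Fin r) F, (kap N κ T).trace ≠ 0 := by
  obtain ⟨w, hw⟩ := hκ
  have hmod : ∀ k, k % N < r := fun k => lt_of_lt_of_le (Nat.mod_lt _ (by omega)) hNr
  have hmod' : ∀ k, k % N < N := fun k => Nat.mod_lt _ (by omega)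
  set f : Fin r → Fin r := fun i => ⟨((i : ℕ) + 1) % N, hmod _⟩ with hf
  set lab : Fin r → Option (Fin 2) :=
    fun i => if h : (i : ℕ) < N then some (w ⟨i, h⟩) else none with hlab
  set st : ℕ → Fin r := fun k => ⟨k % N, hmod _⟩ with hst
  set W : ℕ → Fin 2 := fun k => w ⟨k % N, hmod' k⟩ with hW
  have h1 : ∀ k < 2 * N, f (st k) = st (k + 1) := by
    intro k _
    simp only [hf, hst, Fin.mk.injEq]
    rw [Nat.mod_add_mod]
  have h2 : ∀ k < 2 * N, lab (st k) = some (W k) := by
    intro k _
    simp only [hlab, hst, hW]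
    rw [dif_pos (hmod' k)]
  refine ⟨pm F f lab, ?_⟩
  have key : (kap N κ (pm F f lab)).trace =
      ∑ k ∈ Finset.range N, κ ((List.ofFn w).rotate k) := by
    rw [Matrix.trace]
    have e1 : ∑ i : Fin r, Matrix.diag (kap N κ (pm F f lab)) i =
        ∑ k ∈ Finset.range r, if k < N then κ ((List.ofFn w).rotate k) else 0 := by
      rw [Finset.sum_range (fun k => if k < N then κ ((List.ofFn w).rotate k) else 0)]
      refine Finset.sum_congr rfl fun i _ => ?_
      rw [Matrix.diag_apply]
      by_cases hi : (i : ℕ) < N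
      · rw [if_pos hi]
        have h3 := kap_apply_st N κ f lab st W (2 * N) h1 h2 i (by omega)
        have h4 : st (i : ℕ) = i := by
          simp only [hst]
          apply Fin.ext
          simp [Nat.mod_eq_of_lt hi]
        have h5 : st ((i : ℕ) + N) = i := by
          simp only [hst]
          apply Fin.ext
          simp [Nat.mod_eq_of_lt hi]
        rw [h4, h5] at h3
        rw [h3]
        congr 1
        apply List.ext_getElem
        · simp
        · intro n hn _
          simp only [List.getElem_map, List.getElem_range, List.getElem_rotate, List.getElem_ofFn,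
            List.length_ofFn, hW]
          congr 2
          rw [add_comm]
      · rw [if_neg hi, kap_apply]
        refine Finset.sum_eq_zero fun m _ => ?_
        rw [if_neg]
        rintro ⟨ha, _⟩
        obtain ⟨N', rfl⟩ := Nat.exists_eq_succ_of_ne_zero (show N ≠ 0 by omega)
        rw [List.ofFn_succ] at ha
        have := ha.1
        simp only [hlab] at this
        rw [dif_neg hi] at this
        exact absurd this (by simp)
    rw [e1, ← Finset.sum_filter]
    congr 1
    ext k
    simp only [Finset.mem_filter, Finset.mem_range]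
    omega
  rw [key]
  exact hw

end path
end Crest.Agent.R180.PIAux
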