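import Mathlib
import Crest.Agent.R180.SymApi
import Crest.Agent.R180.ClockShift
import Crest.Agent.R180.PIAux1

/-!
# Auxiliary file for piece PI: specialisation of symbol algebras to matrices
-/

set_option autoImplicit false
set_option linter.unusedSectionVars false

namespace Crest.Agent.R180
open Module

namespace SymData
variable {F D F₀ D₀ : Type} [Field F] [CharZero F] [Ring D] [IsDomain D] [Algebra F D]
    [FiniteDimensional F D] [Algebra.IsCentral F D]
    [Field F₀] [CharZero F₀] [Ring D₀] [IsDomain D₀] [Algebra F₀ D₀]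
    [FiniteDimensional F₀ D₀] [Algebra.IsCentral F₀ D₀] {r : ℕ} {ζ : F}
    (S : SymData F D F₀ D₀ r ζ)

section mats
variable (C Sh : Matrix (Fin r) (Fin r) F)

theorem sh_pow_mul_c (hSC : Sh * C = ζ • (C * Sh)) (j : ℕ) :
    Sh ^ j * C = ζ ^ j • (C * Sh ^ j) := by
  induction j with
  | zero => simp
  | succ j ih =>
    rw [pow_succ', mul_assoc, ih, Matrix.mul_smul, ← mul_assoc, hSC, Matrix.smul_mul, smul_smul,
      mul_assoc, ← pow_succ]

theorem sh_pow_mul_c_pow (hSC : Sh * C = ζ • (C * Sh)) (j k : ℕ) :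
    Sh ^ j * C ^ k = ζ ^ (j * k) • (C ^ k * Sh ^ j) := by
  induction k with
  | zero => simp
  | succ k ih =>
    rw [pow_succ, ← mul_assoc, ih, Matrix.smul_mul, mul_assoc, sh_pow_mul_c C Sh hSC,
      Matrix.mul_smul, smul_smul, ← mul_assoc, mul_add, mul_one, pow_add]

theorem mon_mul_mat (hSC : Sh * C = ζ • (C * Sh)) (i j k l : ℕ) :
    (C ^ i * Sh ^ j) * (C ^ k * Sh ^ l) = ζ ^ (j * k) • (C ^ (i + k) * Sh ^ (j + l)) := by
  calc (C ^ i * Sh ^ j) * (C ^ k * Sh ^ l) = C ^ i * (Sh ^ j * C ^ k) * Sh ^ l := by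
        simp only [mul_assoc]
    _ = ζ ^ (j * k) • (C ^ (i + k) * Sh ^ (j + l)) := by
        rw [sh_pow_mul_c_pow C Sh hSC, Matrix.mul_smul, Matrix.smul_mul, pow_add, pow_add]
        simp only [mul_assoc]

/-- trace of a nonconstant monomial -/
theorem trace_mon (hr : 1 < r) (hζ : IsPrimitiveRoot ζ r) (hSC : Sh * C = ζ • (C * Sh))
    (hC : C ^ r = 1) (hS : Sh ^ r = 1) (i j : ℕ) (hi : i < r) (hj : j < r)
    (hij : (i, j) ≠ (0, 0)) : (C ^ i * Sh ^ j).trace = 0 := by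
  have hr1 : r - 1 + 1 = r := by omega
  by_cases hi0 : i = 0
  · have hj0 : j ≠ 0 := by
      rintro rfl
      exact hij (by rw [hi0])
    subst hi0
    rw [pow_zero, one_mul]
    have e1 : C ^ (r - 1) * (Sh ^ j * C) = ζ ^ j • Sh ^ j := by
      rw [sh_pow_mul_c C Sh hSC, Matrix.mul_smul, ← mul_assoc, ← pow_succ, hr1, hC, one_mul]
    have e2 : (C ^ (r - 1) * (Sh ^ j * C)).trace = (Sh ^ j).trace := by
      rw [Matrix.trace_mul_comm, mul_assoc, ← pow_succ', hr1, hC, mul_one]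
    rw [e1, Matrix.trace_smul, smul_eq_mul] at e2
    have e3 : ζ ^ j ≠ 1 := hζ.pow_ne_one_of_pos_of_lt hj0 hj
    have e4 : (ζ ^ j - 1) * (Sh ^ j).trace = 0 := by rw [sub_mul, e2, one_mul, sub_self]
    rcases mul_eq_zero.mp e4 with h | h
    · exact absurd (sub_eq_zero.mp h) e3
    · exact h
  · have e1 : Sh * (C ^ i * Sh ^ j) * Sh ^ (r - 1) = ζ ^ i • (C ^ i * Sh ^ j) := by
      have e0 : Sh * C ^ i = ζ ^ i • (C ^ i * Sh) := by
        have := sh_pow_mul_c_pow C Sh hSC 1 i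
        simpa using this
      rw [← mul_assoc, e0, Matrix.smul_mul, Matrix.smul_mul]
      congr 1
      have e5 : Sh * (Sh ^ j * Sh ^ (r - 1)) = Sh ^ j * Sh ^ r := by
        rw [← pow_add, ← pow_succ', ← pow_add]
        congr 1
        omega
      rw [mul_assoc, mul_assoc, e5, hS, mul_one]
    have e2 : (Sh * (C ^ i * Sh ^ j) * Sh ^ (r - 1)).trace = (C ^ i * Sh ^ j).trace := by
      rw [mul_assoc, Matrix.trace_mul_comm, mul_assoc, ← pow_succ, hr1, hS, mul_one]
    rw [e1, Matrix.trace_smul, smul_eq_mul] at e2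
    have e3 : ζ ^ i ≠ 1 := hζ.pow_ne_one_of_pos_of_lt hi0 hi
    have e4 : (ζ ^ i - 1) * (C ^ i * Sh ^ j).trace = 0 := by rw [sub_mul, e2, one_mul, sub_self]
    rcases mul_eq_zero.mp e4 with h | h
    · exact absurd (sub_eq_zero.mp h) e3
    · exact h

/-- pair of monomials -/
noncomputable def monPair (a : F) (i j : ℕ) : D₀ × Matrix (Fin r) (Fin r) F :=
  (algebraMap F₀ D₀ (S.e.φ a) * (S.u ^ i * S.v ^ j), a • (C ^ i * Sh ^ j))

theorem monPair_mul (hSC : Sh * C = ζ • (C * Sh)) (a b : F) (i j k l : ℕ) :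
    S.monPair C Sh a i j * S.monPair C Sh b k l =
      S.monPair C Sh (a * b * ζ ^ (j * k)) (i + k) (j + l) := by
  unfold monPair
  rw [Prod.mk_mul_mk, Matrix.smul_mul, Matrix.mul_smul, mon_mul_mat C Sh hSC, smul_smul, smul_smul]
  refine Prod.ext ?_ rfl
  simp only
  have hc : ∀ (x : F₀) (y : D₀), y * algebraMap F₀ D₀ x = algebraMap F₀ D₀ x * y :=
    fun x y => (Algebra.commutes x y).symm
  calc algebraMap F₀ D₀ (S.e.φ a) * (S.u ^ i * S.v ^ j) *
        (algebraMap F₀ D₀ (S.e.φ b) * (S.u ^ k * S.v ^ l))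
      = algebraMap F₀ D₀ (S.e.φ a) * ((S.u ^ i * S.v ^ j) * algebraMap F₀ D₀ (S.e.φ b)) *
          (S.u ^ k * S.v ^ l) := by simp only [mul_assoc]
    _ = algebraMap F₀ D₀ (S.e.φ a) * algebraMap F₀ D₀ (S.e.φ b) *
          ((S.u ^ i * S.v ^ j) * (S.u ^ k * S.v ^ l)) := by
        rw [hc (S.e.φ b)]; simp only [mul_assoc]
    _ = _ := by
        rw [S.mon_mul, ← mul_assoc, ← map_mul, ← map_mul, SymData.z, ← map_pow, ← map_mul,
          ← map_mul]

/-- the monoid of monomial pairs -/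
noncomputable def monM (hSC : Sh * C = ζ • (C * Sh)) :
    Submonoid (D₀ × Matrix (Fin r) (Fin r) F) where
  carrier := {p | ∃ a i j, p = S.monPair C Sh a i j}
  mul_mem' := by
    rintro _ _ ⟨a, i, j, rfl⟩ ⟨b, k, l, rfl⟩
    exact ⟨_, _, _, S.monPair_mul C Sh hSC a b i j k l⟩
  one_mem' := ⟨1, 0, 0, by
    unfold monPair
    simp only [pow_zero, mul_one, map_one, one_smul]
    rfl⟩

/-- the semiring of pairs -/
noncomputable def G (hSC : Sh * C = ζ • (C * Sh)) :
    Subsemiring (D₀ × Matrix (Fin r) (Fin r) F) := (S.monM C Sh hSC).subsemiringClosure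

theorem monPair_mem (hSC : Sh * C = ζ • (C * Sh)) (a : F) (i j : ℕ) :
    S.monPair C Sh a i j ∈ S.G C Sh hSC := by
  unfold G
  rw [Submonoid.subsemiringClosure_mem]
  exact AddSubmonoid.subset_closure ⟨a, i, j, rfl⟩

/-- a double sum with one nonzero term -/
theorem sum_single2 {M : Type*} [AddCommMonoid M] (i0 j0 : Fin r) (f : Fin r → Fin r → M)
    (h : ∀ i j, ¬ (i = i0 ∧ j = j0) → f i j = 0) : ∑ i, ∑ j, f i j = f i0 j0 := by
  rw [Finset.sum_eq_single i0, Finset.sum_eq_single j0]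
  · intro j' _ hj'
    exact h _ _ (fun h => hj' h.2)
  · intro h; exact absurd (Finset.mem_univ _) h
  · intro i' _ hi'
    exact Finset.sum_eq_zero fun j' _ => h _ _ (fun h => hi' h.1)
  · intro h; exact absurd (Finset.mem_univ _) h

/-- normal form of the elements of `G` -/
theorem G_repr (hr : 0 < r) (hSC : Sh * C = ζ • (C * Sh)) (hC : C ^ r = 1) (hS : Sh ^ r = 1)
    (p : D₀ × Matrix (Fin r) (Fin r) F) (hp : p ∈ S.G C Sh hSC) :
    ∃ g : Fin r → Fin r → MvPolynomial (Fin 2) F,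
      p.1 = ∑ i, ∑ j, algebraMap F₀ D₀ (MvPolynomial.eval₂ S.e.φ ![S.s, S.t] (g i j)) *
        (S.u ^ (i : ℕ) * S.v ^ (j : ℕ)) ∧
      p.2 = ∑ i, ∑ j, (MvPolynomial.eval (fun _ => (1 : F)) (g i j)) •
        (C ^ (i : ℕ) * Sh ^ (j : ℕ)) := by
  unfold G at hp
  rw [Submonoid.subsemiringClosure_mem] at hp
  induction hp using AddSubmonoid.closure_induction with
  | mem x hx =>
    obtain ⟨a, i, j, rfl⟩ := hx
    set i0 : Fin r := ⟨i % r, Nat.mod_lt _ hr⟩ with hi0
    set j0 : Fin r := ⟨j % r, Nat.mod_lt _ hr⟩ with hj0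
    obtain ⟨g, hg, hg0⟩ : ∃ g : Fin r → Fin r → MvPolynomial (Fin 2) F,
        g i0 j0 = MvPolynomial.C a * MvPolynomial.X 0 ^ (i / r) * MvPolynomial.X 1 ^ (j / r) ∧
        ∀ i' j', ¬ (i' = i0 ∧ j' = j0) → g i' j' = 0 :=
      ⟨fun i' j' => if i' = i0 ∧ j' = j0 then
        MvPolynomial.C a * MvPolynomial.X 0 ^ (i / r) * MvPolynomial.X 1 ^ (j / r) else 0,
        by simp, fun i' j' h => if_neg h⟩
    refine ⟨g, ?_, ?_⟩
    · rw [sum_single2 i0 j0 _ (fun i' j' h => by rw [hg0 i' j' h]; simp), hg]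
      simp only [MvPolynomial.eval₂_mul, MvPolynomial.eval₂_C, MvPolynomial.eval₂_pow,
        MvPolynomial.eval₂_X, Matrix.cons_val_zero, Matrix.cons_val_one, monPair, hi0, hj0]
      have hu : S.u ^ i = algebraMap F₀ D₀ (S.s ^ (i / r)) * S.u ^ (i % r) := by
        conv_lhs => rw [← Nat.div_add_mod i r, pow_add, pow_mul, S.u_pow, ← map_pow]
      have hv : S.v ^ j = algebraMap F₀ D₀ (S.t ^ (j / r)) * S.v ^ (j % r) := by
        conv_lhs => rw [← Nat.div_add_mod j r, pow_add, pow_mul, S.v_pow, ← map_pow]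
      rw [hu, hv]
      have hc : S.u ^ (i % r) * algebraMap F₀ D₀ (S.t ^ (j / r)) =
          algebraMap F₀ D₀ (S.t ^ (j / r)) * S.u ^ (i % r) := (Algebra.commutes _ _).symm
      calc algebraMap F₀ D₀ (S.e.φ a) * (algebraMap F₀ D₀ (S.s ^ (i / r)) * S.u ^ (i % r) *
            (algebraMap F₀ D₀ (S.t ^ (j / r)) * S.v ^ (j % r)))
          = algebraMap F₀ D₀ (S.e.φ a) * (algebraMap F₀ D₀ (S.s ^ (i / r)) *
            ((S.u ^ (i % r) * algebraMap F₀ D₀ (S.t ^ (j / r))) * S.v ^ (j % r))) := by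
            simp only [mul_assoc]
        _ = _ := by rw [hc, map_mul, map_mul]; simp only [mul_assoc]
    · rw [sum_single2 i0 j0 _ (fun i' j' h => by rw [hg0 i' j' h]; simp), hg]
      simp only [map_mul, MvPolynomial.eval_C, map_pow, MvPolynomial.eval_X, one_pow, mul_one,
        monPair, hi0, hj0]
      have hu : C ^ i = C ^ (i % r) := by
        conv_lhs => rw [← Nat.div_add_mod i r, pow_add, pow_mul, hC, one_pow, one_mul]
      have hv : Sh ^ j = Sh ^ (j % r) := by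
        conv_lhs => rw [← Nat.div_add_mod j r, pow_add, pow_mul, hS, one_pow, one_mul]
      rw [hu, hv]
  | zero =>
    refine ⟨fun _ _ => 0, ?_, ?_⟩ <;> simp
  | add x y _ _ hx hy =>
    obtain ⟨g, h1, h2⟩ := hx
    obtain ⟨g', h1', h2'⟩ := hy
    refine ⟨fun i j => g i j + g' i j, ?_, ?_⟩
    · rw [Prod.fst_add, h1, h1', ← Finset.sum_add_distrib]
      refine Finset.sum_congr rfl fun i _ => ?_
      rw [← Finset.sum_add_distrib]
      refine Finset.sum_congr rfl fun j _ => ?_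
      rw [MvPolynomial.eval₂_add, map_add, add_mul]
    · rw [Prod.snd_add, h2, h2', ← Finset.sum_add_distrib]
      refine Finset.sum_congr rfl fun i _ => ?_
      rw [← Finset.sum_add_distrib]
      refine Finset.sum_congr rfl fun j _ => ?_
      rw [map_add, add_smul]

theorem alg_mem_bc (a : F₀) : algebraMap F₀ D₀ a ∈ S.e.bc (⊤ : Submodule F D) := by
  have h1 : S.e.i 1 ∈ S.e.bc (⊤ : Submodule F D) := Submodule.subset_span ⟨1, trivial, rfl⟩
  have h2 := (S.e.bc (⊤ : Submodule F D)).smul_mem a h1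
  rwa [map_one, Algebra.smul_def, mul_one] at h2

/-- scalars specialise to scalars -/
theorem scalar_of_scalar (hr : 0 < r) (hSC : Sh * C = ζ • (C * Sh)) (hC : C ^ r = 1)
    (hS : Sh ^ r = 1)
    (p : D₀ × Matrix (Fin r) (Fin r) F) (hp : p ∈ S.G C Sh hSC)
    (h : ∃ c : F₀, p.1 = algebraMap F₀ D₀ c) : ∃ c : F, p.2 = c • (1 : Matrix _ _ F) := by
  obtain ⟨g, h1, h2⟩ := S.G_repr C Sh hr hSC hC hS p hp
  obtain ⟨c, hc⟩ := h
  set z0 : Fin r := ⟨0, hr⟩ with hz0
  have key := S.coord_unique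
    (fun i j => algebraMap F₀ D₀ (MvPolynomial.eval₂ S.e.φ ![S.s, S.t] (g i j)) -
      if i = z0 ∧ j = z0 then algebraMap F₀ D₀ c else 0)
    (fun i j => by
      refine Submodule.sub_mem _ (S.alg_mem_bc _) ?_
      split_ifs
      · exact S.alg_mem_bc _
      · exact Submodule.zero_mem _)
    (by
      simp only [sub_mul, Finset.sum_sub_distrib]
      rw [← h1, hc]
      have e : ∑ i : Fin r, ∑ j : Fin r, (if i = z0 ∧ j = z0 then algebraMap F₀ D₀ c else 0) *
          (S.u ^ (i : ℕ) * S.v ^ (j : ℕ)) = algebraMap F₀ D₀ c := by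
        rw [Finset.sum_eq_single z0, Finset.sum_eq_single z0]
        · simp [hz0]
        · intro j' _ hj'
          rw [if_neg (fun h => hj' h.2), zero_mul]
        · intro h; exact absurd (Finset.mem_univ _) h
        · intro i' _ hi'
          refine Finset.sum_eq_zero fun j' _ => ?_
          rw [if_neg (fun h => hi' h.1), zero_mul]
        · intro h; exact absurd (Finset.mem_univ _) h
      rw [e, sub_self])
  have hg : ∀ i j, ¬ (i = z0 ∧ j = z0) → g i j = 0 := by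
    intro i j hij
    have := key i j
    rw [if_neg hij, sub_zero, map_eq_zero] at this
    exact S.algInd _ this
  refine ⟨MvPolynomial.eval (fun _ => (1 : F)) (g z0 z0), ?_⟩
  rw [h2, Finset.sum_eq_single z0, Finset.sum_eq_single z0]
  · simp [hz0]
  · intro j' _ hj'
    rw [hg _ _ (fun h => hj' h.2)]; simp
  · intro h; exact absurd (Finset.mem_univ _) h
  · intro i' _ hi'
    refine Finset.sum_eq_zero fun j' _ => ?_
    rw [hg _ _ (fun h => hi' h.1)]; simp
  · intro h; exact absurd (Finset.mem_univ _) h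

theorem ntr_alg (a : F₀) : ntr F₀ D₀ (algebraMap F₀ D₀ a) = a := by
  rw [Algebra.algebraMap_eq_smul_one, map_smul, ntr_one, smul_eq_mul, mul_one]

/-- trace zero specialises to trace zero -/
theorem trace_of_trace (hr : 1 < r) (hζ : IsPrimitiveRoot ζ r) (hSC : Sh * C = ζ • (C * Sh))
    (hC : C ^ r = 1) (hS : Sh ^ r = 1)
    (p : D₀ × Matrix (Fin r) (Fin r) F) (hp : p ∈ S.G C Sh hSC)
    (h : ntr F₀ D₀ p.1 = 0) : p.2.trace = 0 := by
  obtain ⟨g, h1, h2⟩ := S.G_repr C Sh (by omega) hSC hC hS p hp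
  set z0 : Fin r := ⟨0, by omega⟩ with hz0
  have e1 : ntr F₀ D₀ p.1 = MvPolynomial.eval₂ S.e.φ ![S.s, S.t] (g z0 z0) := by
    rw [h1, map_sum, Finset.sum_eq_single z0, map_sum, Finset.sum_eq_single z0]
    · simp [hz0, ntr_alg]
    · intro j' _ hj'
      refine S.ntr_mon hr hζ _ (S.alg_mem_bc _) _ _ z0.2 j'.2 ?_
      intro h
      apply hj'
      apply Fin.ext
      exact (Prod.mk.inj h).2
    · intro h; exact absurd (Finset.mem_univ _) h
    · intro i' _ hi'
      rw [map_sum]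
      refine Finset.sum_eq_zero fun j' _ => ?_
      refine S.ntr_mon hr hζ _ (S.alg_mem_bc _) _ _ i'.2 j'.2 ?_
      intro h
      apply hi'
      apply Fin.ext
      exact (Prod.mk.inj h).1
    · intro h; exact absurd (Finset.mem_univ _) h
  have hg : g z0 z0 = 0 := S.algInd _ (by rw [← e1, h])
  rw [h2, Matrix.trace_sum]
  refine Finset.sum_eq_zero fun i _ => ?_
  rw [Matrix.trace_sum]
  refine Finset.sum_eq_zero fun j _ => ?_
  rw [Matrix.trace_smul]
  by_cases hij : i = z0 ∧ j = z0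
  · rw [hij.1, hij.2, hg]; simp
  · rw [trace_mon C Sh hr hζ hSC hC hS i j i.2 j.2, smul_zero]
    intro h
    apply hij
    exact ⟨Fin.ext (Prod.mk.inj h).1, Fin.ext (Prod.mk.inj h).2⟩

/-- every matrix is a specialisation -/
theorem exists_lift (hr : 0 < r) (hSC : Sh * C = ζ • (C * Sh))
    (hli : LinearIndependent F (fun p : Fin r × Fin r => C ^ (p.1 : ℕ) * Sh ^ (p.2 : ℕ)))
    (T : Matrix (Fin r) (Fin r) F) : ∃ T' ∈ S.e.E, (T', T) ∈ S.G C Sh hSC := by
  have : Nonempty (Fin r) := ⟨⟨0, hr⟩⟩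
  have hcard : Fintype.card (Fin r × Fin r) = finrank F (Matrix (Fin r) (Fin r) F) := by
    rw [Module.finrank_matrix]; simp
  set b := basisOfLinearIndependentOfCardEqFinrank hli hcard with hb
  have hT : T = ∑ p : Fin r × Fin r, b.repr T p • (C ^ (p.1 : ℕ) * Sh ^ (p.2 : ℕ)) := by
    conv_lhs => rw [← b.sum_repr T]
    refine Finset.sum_congr rfl fun p _ => ?_
    rw [hb, coe_basisOfLinearIndependentOfCardEqFinrank]
  refine ⟨∑ p : Fin r × Fin r, algebraMap F₀ D₀ (S.e.φ (b.repr T p)) *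
    (S.u ^ (p.1 : ℕ) * S.v ^ (p.2 : ℕ)), ?_, ?_⟩
  · refine Subalgebra.sum_mem _ fun p _ => ?_
    exact Subalgebra.mul_mem _ (Subalgebra.algebraMap_mem _ _)
      (Subalgebra.mul_mem _ (Subalgebra.pow_mem _ S.u_mem_E _) (Subalgebra.pow_mem _ S.v_mem_E _))
  · have e : (∑ p : Fin r × Fin r, algebraMap F₀ D₀ (S.e.φ (b.repr T p)) *
        (S.u ^ (p.1 : ℕ) * S.v ^ (p.2 : ℕ)), T) =
        ∑ p : Fin r × Fin r, S.monPair C Sh (b.repr T p) p.1 p.2 := by
      refine Prod.ext ?_ ?_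
      · rw [Prod.fst_sum]; rfl
      · rw [Prod.snd_sum]
        exact hT
    rw [e]
    exact Subsemiring.sum_mem _ fun p _ => S.monPair_mem C Sh hSC _ _ _

end mats

end SymData
end Crest.Agent.R180
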