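import Mathlib
import Crest.Agent.R180.SymApi
import Crest.Agent.R180.ClockShift
import Crest.Agent.R180.PIAux2

/-!
# Piece PI: no identities of small degree in symbol algebras

`κ(Z) = Σ_{|m|=N} κ(m) Z_m`.

Specialisation.  Let `C, S` be clock and shift in `M_r(F)` (`exists_clock_shift`).  The set `G` of pairs
`(x, y) ∈ D₀ × M_r(F)` for which there are `g_{ij} ∈ MvPolynomial (Fin 2) F` with
`x = Σ_{i,j<r} g_{ij}(s,t) u^i v^j` and `y = Σ_{i,j<r} g_{ij}(1,1) C^i S^j` is a subring.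
If `(x,y) ∈ G` and `x` is a scalar (resp. has trace `0`), then by `algInd` the `g_{ij}` with `(i,j) ≠ 0` (resp. `g_{00}`)
vanish, so `y` is a scalar (resp. has trace `0`).  As the `C^i S^j` are a basis of `M_r(F)`, every pair of matrices
`T₀, T₁` is the specialisation of a pair `T'_i = Σ c_{kl} u^k v^l`, `c_{kl} ∈ F`.

Target matrices.  For a word `w` of length `N` with `κ(w) ≠ 0` (`N < r`): `T_a = Σ_{i < N, w_i = a} E_{i,i+1}`;
then `(T_m)_{0,N} = [m = w]`, so `κ(T)_{0,N} = κ(w) ≠ 0`: `κ(T)` is not scalar.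
For the trace version (`N ≤ r`): `T_a = Σ_{i<N, w_i=a} E_{i, i+1 mod N}`, `tr T_m = #{k < N : rotate w k = m}`,
`tr κ(T) = Σ_k κ(rotate w k) ≠ 0`.

Genericity.  Let `Z_i(a) = (u,v)_i + a T'_i`, `a ∈ F`.  Then `κ(Z(a)) = a^N κ(T') + (lower order in a)`, a nonzero polynomial
in `a` (modulo scalars, resp. after taking the trace).  The centralizer of `Z(a)` in `E₀` is `F₀` for all but finitely many
`a`: the linear map `h ↦ ([h, Z_0(a)], [h, Z_1(a)])` on the trace-zero part of `E₀` is injective for `a = 0` (`gen_uv`), so it has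
a left inverse there and the determinant of the composition is a nonzero polynomial in `a`.  `F` is infinite.
-/

set_option autoImplicit false
set_option linter.unusedSectionVars false

namespace Crest.Agent.R180
open Module

namespace SymData
variable {F D F₀ D₀ : Type} [Field F] [CharZero F] [Ring D] [IsDomain D] [Algebra F D]
    [FiniteDimensional F D] [Algebra.IsCentral F D]
    [Field F₀] [CharZero F₀] [Ring D₀] [IsDomain D₀] [Algebra F₀ D₀]
    [FiniteDimensional F₀ D₀] [Algebra.IsCentral F₀ D₀] {r : ℕ} {ζ : F}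
    (S : SymData F D F₀ D₀ r ζ)

/-- `κ(Z)` -/
noncomputable def evk (N : ℕ) (κ : List (Fin 2) → F) (Z : Fin 2 → D₀) : D₀ :=
  ∑ m : Fin N → Fin 2, algebraMap F₀ D₀ (S.e.φ (κ (List.ofFn m))) * ((List.ofFn m).map Z).prod

/-- `Z` generates `E₀` (its centralizer in `E₀` is `F₀`) -/
def GenZ (Z : Fin 2 → D₀) : Prop :=
  ∀ h ∈ S.e.E, (∀ i, h * Z i = Z i * h) → ∃ c : F₀, h = algebraMap F₀ D₀ c

open PIAux in
theorem evk_pair_mem (C Sh : Matrix (Fin r) (Fin r) F) (hSC : Sh * C = ζ • (C * Sh)) (N : ℕ)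
    (κ : List (Fin 2) → F) (T' : Fin 2 → D₀) (T : Fin 2 → Matrix (Fin r) (Fin r) F)
    (h : ∀ a, (T' a, T a) ∈ S.G C Sh hSC) :
    (S.evk N κ T', kap N κ T) ∈ S.G C Sh hSC := by
  have e : (S.evk N κ T', kap N κ T) = ∑ m : Fin N → Fin 2,
      S.monPair C Sh (κ (List.ofFn m)) 0 0 *
        ((List.ofFn m).map (fun a => (T' a, T a))).prod := by
    refine Prod.ext ?_ ?_
    · rw [Prod.fst_sum]
      unfold evk
      refine Finset.sum_congr rfl fun m _ => ?_
      rw [Prod.fst_mul]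
      have e1 : (((List.ofFn m).map (fun a => (T' a, T a))).prod).1 =
          ((List.ofFn m).map T').prod := by
        have := map_list_prod (RingHom.fst D₀ (Matrix (Fin r) (Fin r) F))
          ((List.ofFn m).map (fun a => (T' a, T a)))
        rw [List.map_map] at this
        exact this
      rw [e1]
      simp [monPair]
    · rw [Prod.snd_sum]
      unfold kap
      refine Finset.sum_congr rfl fun m _ => ?_
      rw [Prod.snd_mul]
      have e1 : (((List.ofFn m).map (fun a => (T' a, T a))).prod).2 =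
          ((List.ofFn m).map T).prod := by
        have := map_list_prod (RingHom.snd D₀ (Matrix (Fin r) (Fin r) F))
          ((List.ofFn m).map (fun a => (T' a, T a)))
        rw [List.map_map] at this
        exact this
      rw [e1]
      simp [monPair]
  rw [e]
  refine Subsemiring.sum_mem _ fun m _ => ?_
  refine Subsemiring.mul_mem _ (S.monPair_mem C Sh hSC _ _ _) ?_
  refine Subsemiring.list_prod_mem _ fun x hx => ?_
  rw [List.mem_map] at hx
  obtain ⟨a, _, rfl⟩ := hx
  exact h a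

/-- expansion of a product of `U_i + a T_i` -/
theorem exp_list (U T : Fin 2 → D₀) (m : List (Fin 2)) : ∃ c : ℕ → D₀,
    c m.length = (m.map T).prod ∧ (∀ j, m.length < j → c j = 0) ∧
    ∀ a : F₀, (m.map (fun i => U i + a • T i)).prod =
      ∑ j ∈ Finset.range (m.length + 1), a ^ j • c j := by
  induction m with
  | nil =>
    refine ⟨fun j => if j = 0 then 1 else 0, by simp, ?_, ?_⟩
    · intro j hj
      have : j ≠ 0 := by simpa using hj.ne'
      simp [this]
    · intro a; simp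
  | cons i m ih =>
    obtain ⟨c, h1, h2, h3⟩ := ih
    obtain ⟨c', hc0, hcs⟩ : ∃ c' : ℕ → D₀, c' 0 = U i * c 0 ∧
        ∀ j, c' (j + 1) = U i * c (j + 1) + T i * c j :=
      ⟨fun j => match j with
        | 0 => U i * c 0
        | j + 1 => U i * c (j + 1) + T i * c j, rfl, fun _ => rfl⟩
    refine ⟨c', ?_, ?_, ?_⟩
    · rw [List.length_cons, hcs, List.map_cons, List.prod_cons,
        h2 _ (Nat.lt_succ_self _), mul_zero, zero_add, h1]
    · intro j hj
      rw [List.length_cons] at hj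
      obtain ⟨j', rfl⟩ := Nat.exists_eq_succ_of_ne_zero (show j ≠ 0 by omega)
      rw [Nat.succ_eq_add_one, hcs]
      rw [h2 _ (by omega), h2 _ (by omega), mul_zero, mul_zero, add_zero]
    · intro a
      have e0 : ∑ j ∈ Finset.range (m.length + 1 + 1), a ^ j • c' j =
          ∑ j ∈ Finset.range (m.length + 1), a ^ (j + 1) • (U i * c (j + 1) + T i * c j) +
            U i * c 0 := by
        rw [Finset.sum_range_succ' (fun j => a ^ j • c' j) (m.length + 1), pow_zero, one_smul, hc0]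
        congr 1
        exact Finset.sum_congr rfl fun j _ => by rw [hcs]
      rw [List.map_cons, List.prod_cons, h3 a, List.length_cons, e0]
      have e1 : ∑ j ∈ Finset.range (m.length + 1), a ^ (j + 1) • (U i * c (j + 1) + T i * c j) =
          ∑ j ∈ Finset.range (m.length + 1), a ^ (j + 1) • (U i * c (j + 1)) +
          ∑ j ∈ Finset.range (m.length + 1), a ^ (j + 1) • (T i * c j) := by
        rw [← Finset.sum_add_distrib]
        exact Finset.sum_congr rfl fun j _ => smul_add _ _ _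
      have e2 : ∑ j ∈ Finset.range (m.length + 1), a ^ (j + 1) • (U i * c (j + 1)) +
          U i * c 0 = U i * ∑ j ∈ Finset.range (m.length + 1), a ^ j • c j := by
        have e3 : ∑ j ∈ Finset.range (m.length + 2), a ^ j • (U i * c j) =
            ∑ j ∈ Finset.range (m.length + 1), a ^ (j + 1) • (U i * c (j + 1)) + U i * c 0 := by
          rw [Finset.sum_range_succ']
          simp
        rw [← e3, Finset.sum_range_succ, h2 _ (Nat.lt_succ_self _), mul_zero, smul_zero, add_zero,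
          Finset.mul_sum]
        exact Finset.sum_congr rfl fun j _ => (mul_smul_comm _ _ _).symm
      have e4 : ∑ j ∈ Finset.range (m.length + 1), a ^ (j + 1) • (T i * c j) =
          (a • T i) * ∑ j ∈ Finset.range (m.length + 1), a ^ j • c j := by
        rw [Finset.mul_sum]
        refine Finset.sum_congr rfl fun j _ => ?_
        rw [smul_mul_smul_comm, pow_succ']
      rw [e1, add_mul, ← e2, ← e4]
      abel

open PIAux in
/-- generic deformation of `(u, v)` in the direction `T'` -/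
theorem generic_Z (hr : 1 < r) (hζ : IsPrimitiveRoot ζ r) (N : ℕ) (κ : List (Fin 2) → F)
    (T' : Fin 2 → D₀) (hT' : ∀ i, T' i ∈ S.e.E) (ℓ : D₀ →ₗ[F₀] F₀)
    (hℓ : ℓ (S.evk N κ T') ≠ 0) :
    ∃ Z : Fin 2 → D₀, (∀ i, Z i ∈ S.e.E) ∧ S.GenZ Z ∧ ℓ (S.evk N κ Z) ≠ 0 := by
  set U : Fin 2 → D₀ := ![S.u, S.v] with hU
  have hUE : ∀ i, U i ∈ S.e.E := by
    intro i
    fin_cases i
    · exact S.u_mem_E
    · exact S.v_mem_E
  -- commutator maps
  set cm : D₀ → (D₀ →ₗ[F₀] D₀) := fun x => LinearMap.mulRight F₀ x - LinearMap.mulLeft F₀ x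
    with hcm
  have hcm' : ∀ x h, cm x h = h * x - x * h := fun x h => by
    simp [hcm]
  set E' := Subalgebra.toSubmodule S.e.E with hE'
  set φ : E' →ₗ[F₀] D₀ × D₀ := (LinearMap.prod (cm (U 0)) (cm (U 1))) ∘ₗ E'.subtype with hφ
  set ψ : E' →ₗ[F₀] D₀ × D₀ := (LinearMap.prod (cm (T' 0)) (cm (T' 1))) ∘ₗ E'.subtype with hψ
  have hφ' : ∀ h : E', φ h = (cm (U 0) h, cm (U 1) h) := fun h => rfl
  have hψ' : ∀ h : E', ψ h = (cm (T' 0) h, cm (T' 1) h) := fun h => rfl
  have hscal : ∀ h : E', φ h = 0 → ∃ c : F₀, (h : D₀) = algebraMap F₀ D₀ c := by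
    intro h hh
    rw [hφ', Prod.mk_eq_zero, hcm', hcm', sub_eq_zero, sub_eq_zero] at hh
    exact S.gen_uv hr hζ h h.2 hh.1 hh.2
  have hker : LinearMap.ker φ ≤ LinearMap.ker ψ := by
    intro h hh
    obtain ⟨c, hc⟩ := hscal h hh
    rw [LinearMap.mem_ker, hψ', Prod.mk_eq_zero, hcm', hcm', hc, sub_eq_zero, sub_eq_zero]
    exact ⟨Algebra.commutes _ _, Algebra.commutes _ _⟩
  obtain ⟨B, hB, hB'⟩ := ker_generic φ ψ hker
  -- the polynomial
  choose c hc1 hc2 hc3 using fun m : Fin N → Fin 2 => exp_list (F₀ := F₀) U T' (List.ofFn m)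
  set A : ℕ → D₀ := fun j => ∑ m : Fin N → Fin 2,
    algebraMap F₀ D₀ (S.e.φ (κ (List.ofFn m))) * c m j with hA
  have hAN : A N = S.evk N κ T' := by
    unfold evk
    rw [hA]
    refine Finset.sum_congr rfl fun m _ => ?_
    have := hc1 m
    rw [List.length_ofFn] at this
    rw [this]
  have hev : ∀ a : F₀, S.evk N κ (fun i => U i + a • T' i) =
      ∑ j ∈ Finset.range (N + 1), a ^ j • A j := by
    intro a
    unfold evk
    have : ∀ m : Fin N → Fin 2, algebraMap F₀ D₀ (S.e.φ (κ (List.ofFn m))) *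
        ((List.ofFn m).map (fun i => U i + a • T' i)).prod =
        ∑ j ∈ Finset.range (N + 1), a ^ j • (algebraMap F₀ D₀ (S.e.φ (κ (List.ofFn m))) * c m j) := by
      intro m
      rw [hc3 m a, List.length_ofFn, Finset.mul_sum]
      exact Finset.sum_congr rfl fun j _ => mul_smul_comm _ _ _
    rw [Finset.sum_congr rfl fun m _ => this m, Finset.sum_comm]
    refine Finset.sum_congr rfl fun j _ => ?_
    rw [hA, Finset.smul_sum]
  set Q : Polynomial F₀ := ∑ j ∈ Finset.range (N + 1), Polynomial.monomial j (ℓ (A j)) with hQ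
  have hQ0 : Q ≠ 0 := by
    intro h0
    have h1 : Q.coeff N = ℓ (A N) := by
      rw [hQ, Polynomial.finsetSum_coeff, Finset.sum_eq_single N]
      · rw [Polynomial.coeff_monomial, if_pos rfl]
      · intro j _ hj
        rw [Polynomial.coeff_monomial, if_neg hj]
      · intro h
        exact absurd (Finset.mem_range.mpr (Nat.lt_succ_self N)) h
    rw [h0, Polynomial.coeff_zero, hAN] at h1
    exact hℓ h1.symm
  have hQev : ∀ a : F₀, Q.eval a = ℓ (S.evk N κ (fun i => U i + a • T' i)) := by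
    intro a
    rw [hev, hQ, Polynomial.eval_finsetSum, map_sum]
    refine Finset.sum_congr rfl fun j _ => ?_
    rw [Polynomial.eval_monomial, map_smul, smul_eq_mul, mul_comm]
  have hfin : (B ∪ {a | Q.IsRoot a}).Finite := hB.union (Polynomial.finite_setOfPred_isRoot hQ0)
  obtain ⟨a, ha⟩ := hfin.infinite_compl.nonempty
  rw [Set.mem_compl_iff, Set.mem_union, not_or] at ha
  refine ⟨fun i => U i + a • T' i, ?_, ?_, ?_⟩
  · intro i
    exact Subalgebra.add_mem _ (hUE i) (Subalgebra.smul_mem _ (hT' i) a)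
  · intro h hh hcomm
    have h1 : φ ⟨h, hh⟩ + a • ψ ⟨h, hh⟩ = 0 := by
      rw [hφ', hψ', Prod.smul_mk, Prod.mk_add_mk, Prod.mk_eq_zero]
      simp only [hcm']
      have key : ∀ i, h * U i - U i * h + a • (h * T' i - T' i * h) = 0 := by
        intro i
        have := hcomm i
        simp only [mul_add, add_mul, mul_smul_comm, smul_mul_assoc] at this
        rw [smul_sub]
        have h2 : h * U i - U i * h + (a • (h * T' i) - a • (T' i * h)) =
            (h * U i + a • (h * T' i)) - (U i * h + a • (T' i * h)) := by abel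
        rw [h2, this, sub_self]
      exact ⟨key 0, key 1⟩
    exact hscal ⟨h, hh⟩ (hB' a ha.1 _ h1)
  · rw [← hQev]
    exact ha.2

open PIAux in
theorem pi_off (hr : r.Prime) (hζ : IsPrimitiveRoot ζ r) (N : ℕ) (hN : 1 ≤ N) (hNr : N < r)
    (κ : List (Fin 2) → F) (hκ : ∃ m : Fin N → Fin 2, κ (List.ofFn m) ≠ 0) :
    ∃ Z : Fin 2 → D₀, (∀ i, Z i ∈ S.e.E) ∧ S.GenZ Z ∧
      ¬ ∃ c : F₀, S.evk N κ Z = algebraMap F₀ D₀ c := by
  obtain ⟨C, Sh, hC, hS, hSC, hli⟩ := exists_clock_shift F r hr.pos ζ hζ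
  obtain ⟨T, hT⟩ := exists_off (F := F) N hN hNr κ hκ
  choose T' hT'E hT'G using fun a => S.exists_lift C Sh hr.pos hSC hli (T a)
  have hmem := S.evk_pair_mem C Sh hSC N κ T' T hT'G
  have hns : ¬ ∃ c : F₀, S.evk N κ T' = algebraMap F₀ D₀ c := by
    intro h
    exact hT (S.scalar_of_scalar C Sh hr.pos hSC hC hS _ hmem h)
  have hnm : S.evk N κ T' ∉ Submodule.span F₀ {(1 : D₀)} := by
    intro h
    rw [Submodule.mem_span_singleton] at h
    obtain ⟨c, hc⟩ := h
    exact hns ⟨c, by rw [← hc, Algebra.algebraMap_eq_smul_one]⟩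
  obtain ⟨ℓ, hℓ, hℓ0⟩ := Submodule.exists_dual_map_eq_bot_of_notMem hnm inferInstance
  obtain ⟨Z, hZE, hZG, hZ⟩ := S.generic_Z hr.one_lt hζ N κ T' hT'E ℓ hℓ
  refine ⟨Z, hZE, hZG, ?_⟩
  rintro ⟨c, hc⟩
  apply hZ
  rw [hc]
  have : algebraMap F₀ D₀ c ∈ Submodule.span F₀ {(1 : D₀)} := by
    rw [Algebra.algebraMap_eq_smul_one]
    exact Submodule.smul_mem _ _ (Submodule.mem_span_singleton_self _)
  have h2 : ℓ (algebraMap F₀ D₀ c) ∈ (Submodule.span F₀ {(1 : D₀)}).map ℓ := ⟨_, this, rfl⟩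
  rw [hℓ0, Submodule.mem_bot] at h2
  exact h2

open PIAux in
theorem pi_tr (hr : r.Prime) (hζ : IsPrimitiveRoot ζ r) (N : ℕ) (hN : 1 ≤ N) (hNr : N ≤ r)
    (κ : List (Fin 2) → F)
    (hκ : ∃ m : Fin N → Fin 2, ∑ k ∈ Finset.range N, κ ((List.ofFn m).rotate k) ≠ 0) :
    ∃ Z : Fin 2 → D₀, (∀ i, Z i ∈ S.e.E) ∧ S.GenZ Z ∧ ntr F₀ D₀ (S.evk N κ Z) ≠ 0 := by
  obtain ⟨C, Sh, hC, hS, hSC, hli⟩ := exists_clock_shift F r hr.pos ζ hζ
  obtain ⟨T, hT⟩ := exists_tr (F := F) N hN hNr κ hκ
  choose T' hT'E hT'G using fun a => S.exists_lift C Sh hr.pos hSC hli (T a)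
  have hmem := S.evk_pair_mem C Sh hSC N κ T' T hT'G
  have hns : ntr F₀ D₀ (S.evk N κ T') ≠ 0 := by
    intro h
    exact hT (S.trace_of_trace C Sh hr.one_lt hζ hSC hC hS _ hmem h)
  exact S.generic_Z hr.one_lt hζ N κ T' hT'E (ntr F₀ D₀) hns

end SymData
end Crest.Agent.R180
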