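import Mathlib
import Crest.Agent.R180.S1a
import Crest.Agent.R180.PI
import Crest.Agent.R180.SymExist
import Crest.Agent.R180.SymY

/-!
# Piece S1b: at `c2`-minimal states the defects `K` of formal families take values in `L`

Suppose `K m₀ ∉ L`, `|m₀| = N`.  Choose an `F`-linear `ℓ : D → F` with `ℓ(L) = 0`, `ℓ(K m₀) ≠ 0`; a prime `r > N`, `ζ ∈ F` a
primitive `r`-th root of unity, `S : SymData` (`exists_sym`).  `pi_off` with `κ m = ℓ (K m)` gives a generating `Z ∈ E₀²` with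
`κ(Z) ∉ F₀`.  Put `H = evHom S.e Z N K`; `ext (fun' ℓ) H = κ(Z)`; `H` commutes with `θ`.
`κ(Z) = Σ c_{ij} u^i v^j` (`exists_coord_E`), some `c_{ij} ≠ 0` with `(i,j) ≠ 0`; `y = u^i v^j`, `y^r ∈ F₀`.
Let `0 ≠ v₁ ∈ V` and `c, k` with `lin g c = v₁ + [k,θ]` (`S1a'`).  Apply `ss` with `F₁ = Lau F₀`, `D₁ = Lau D₀`, `e = S.e.lau`,
`ω_j = c_j η^{-1} y` (`η^{-1} = epow (-1)`), so `x = i(v₁) η^{-1} y`, and `Z ∈ D₀ ⊂ D₁` (`lau_gen`); `X = η^{-1} v₁ y + H`
(`evHom` of `S.e.lau` at `lc ∘ Z` is `lc H`).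
`num_m` gives `dim A ≤ m' ≤ r m`, `A = F₁[θ, X]`, and `n2 s' = finrank D₀ = r² n2 s` (`lau_finrank`, `finrank_D0`).
`redAlg A ⊂ D₀` has the same dimension; it contains `θ` and `v₁ y` (residue of `η X`), hence (inverses) `L y^k F₀`,
`M = S.MY L y`, of dimension `r m` (`mon_pow_indep`, `finrank_MY`).  So `redAlg A = M`.
`x' = η X = v₁ y + η H`; `x'^r = (v₁ y)^r + η v₁^{r-1} avg_y(H) + O(η²)` and `(v₁y)^r ∈ L F₀ ⊂ A`, so
`v₁^{r-1} avg_y(H) ∈ redAlg A = M` and hence `avg_y(H) ∈ M` (`M` is a subalgebra containing the inverse of `v₁`).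
Apply `ext (fun' ℓ)`: it kills `M` (as `ℓ(L) = 0`), but maps `avg_y(H)` to `avg_y(κ(Z)) ≠ 0` (`avg_ne_zero`).
-/

set_option autoImplicit false
set_option linter.unusedSectionVars false

namespace Crest.Agent.R180
open Module

theorem s1b_pow {R : Type} [Ring R] {x : Lau R} {a b : R} {N : ℕ} (hN : 1 ≤ N)
    (hx : LExp x a b N) (n : ℕ) :
    LExp (x ^ n) (a ^ n) (∑ k ∈ Finset.range n, a ^ k * b * a ^ (n - 1 - k)) N := by
  induction n with
  | zero =>
    have h := lExp_const (1 : R) hN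
    refine LExp.congr (x := x ^ 0) ?_ (by rw [pow_zero]) (by rw [Finset.range_zero, Finset.sum_empty])
      (a := 1) (b := 0)
    rw [pow_zero]
    rw [map_one] at h
    exact h
  | succ n ih =>
    rw [pow_succ]
    refine (ih.mul hN hx).congr (by rw [pow_succ]) ?_
    rw [Finset.sum_range_succ, Finset.sum_mul, add_comm]
    congr 1
    · refine Finset.sum_congr rfl fun k hk => ?_
      rw [Finset.mem_range] at hk
      rw [mul_assoc, ← pow_succ]
      congr 2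
      omega
    · simp

section core
variable {F D F₀ D₀ : Type} [Field F] [CharZero F] [Ring D] [IsDomain D] [Algebra F D]
    [FiniteDimensional F D] [Algebra.IsCentral F D]
    [Field F₀] [CharZero F₀] [Ring D₀] [IsDomain D₀] [Algebra F₀ D₀]
    [FiniteDimensional F₀ D₀] [Algebra.IsCentral F₀ D₀] {r : ℕ} {ζ : F}
    (S : SymData F D F₀ D₀ r ζ)

/-- if `B` contains `i θ` then it contains `L F₀` -/
theorem s1b_bc_le (θ : D) (B : Subalgebra F₀ D₀) (hθ : S.e.i θ ∈ B) :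
    ∀ x ∈ S.e.bc (Subalgebra.toSubmodule (Algebra.adjoin F ({θ} : Set D))), x ∈ B := by
  intro x hx
  have hle : S.e.bc (Subalgebra.toSubmodule (Algebra.adjoin F ({θ} : Set D))) ≤
      Subalgebra.toSubmodule B := by
    unfold CExt.bc
    rw [Submodule.span_le]
    rintro _ ⟨w, hw, rfl⟩
    have hw' : w ∈ Algebra.adjoin F ({θ} : Set D) := hw
    show S.e.i w ∈ B
    induction hw' using Algebra.adjoin_induction with
    | mem x hx => rw [Set.mem_singleton_iff] at hx; rw [hx]; exact hθ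
    | algebraMap a => rw [S.e.i_alg]; exact B.algebraMap_mem _
    | add x y hx hy hx' hy' => rw [map_add]; exact B.add_mem (hx' hx) (hy' hy)
    | mul x y hx hy hx' hy' => rw [map_mul]; exact B.mul_mem (hx' hx) (hy' hy)
  exact hle hx

theorem s1b_core (hr : r.Prime) (hζ : IsPrimitiveRoot ζ r) (θ v₁ : D)
    (hv : v₁ ∈ Algebra.adjoin F ({θ} : Set D)) (hv0 : v₁ ≠ 0)
    (i j : Fin r) (hij : (i : ℕ) ≠ 0 ∨ (j : ℕ) ≠ 0) (H : D₀) (hH : Commute H (S.e.i θ))
    (hfin : finrank (Lau F₀) (Algebra.adjoin (Lau F₀) ({lc (S.e.i θ),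
      lc H + lc (S.e.i v₁) * (epow (-1) * lc (S.u ^ (i : ℕ) * S.v ^ (j : ℕ)))} : Set (Lau D₀))) ≤
      r * finrank F (Algebra.adjoin F ({θ} : Set D))) :
    S.avg (S.u ^ (i : ℕ) * S.v ^ (j : ℕ)) H ∈
      S.e.bcE (Subalgebra.toSubmodule (Algebra.adjoin F ({θ} : Set D))) := by
  set y := S.u ^ (i : ℕ) * S.v ^ (j : ℕ) with hy
  set L := Algebra.adjoin F ({θ} : Set D) with hL
  set X₁ : Lau D₀ := lc H + lc (S.e.i v₁) * (epow (-1) * lc y) with hX₁
  set A := Algebra.adjoin (Lau F₀) ({lc (S.e.i θ), X₁} : Set (Lau D₀)) with hA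
  have hyE : y ∈ S.e.E := S.e.E.mul_mem (S.e.E.pow_mem S.u_mem_E _) (S.e.E.pow_mem S.v_mem_E _)
  have hθA : (lc (S.e.i θ) : Lau D₀) ∈ A := Algebra.subset_adjoin (Set.mem_insert _ _)
  have hXA : X₁ ∈ A := Algebra.subset_adjoin (Set.mem_insert_of_mem _ rfl)
  set B := redAlg A with hB
  have hlcB : ∀ x : D₀, (lc x : Lau D₀) ∈ A → x ∈ B := fun x hx =>
    ⟨lc x, hx, isInt_lc x, lc_coeff_zero x⟩
  have hbcB := s1b_bc_le S θ B (hlcB _ hθA)
  -- lc of elements of `L F₀` in `A`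
  have hlcA : ∀ x ∈ L, (lc (S.e.i x) : Lau D₀) ∈ A := by
    intro x hx
    induction hx using Algebra.adjoin_induction with
    | mem x hx => rw [Set.mem_singleton_iff] at hx; rw [hx]; exact hθA
    | algebraMap a => rw [S.e.i_alg, ← lau_algebraMap_lc]; exact A.algebraMap_mem _
    | add x y _ _ hx hy => rw [map_add, map_add]; exact A.add_mem hx hy
    | mul x y _ _ hx hy => rw [map_mul, map_mul]; exact A.mul_mem hx hy
  -- `x' = η X₁`
  set x' : Lau D₀ := (epow 1 : Lau F₀) • X₁ with hx'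
  have hx'A : x' ∈ A := A.smul_mem hXA _
  have hx'eq : x' = lc (S.e.i v₁ * y) + epow 1 * lc H := by
    rw [hx', epow_smul, hX₁, mul_add, add_comm]
    congr 1
    rw [← mul_assoc, epow_comm 1 (lc (S.e.i v₁)), mul_assoc, ← mul_assoc (epow 1),
      ← epow_add]
    have : (1 : ℤ) + (-1) = 0 := by norm_num
    rw [this, epow_zero, one_mul]
    exact (map_mul lc (S.e.i v₁) y).symm
  have hexp : LExp x' (S.e.i v₁ * y) H 1 := by
    have h1 := lExp_const (S.e.i v₁ * y) (le_refl 1)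
    have h2 : LExp (epow 1 * lc H : Lau D₀) 0 H 1 := by
      refine ⟨?_, ?_, ?_, ?_⟩
      · intro n hn
        rw [epow_coeff_mul, lc_coeff_ne _ _ (by omega)]
      · rw [epow_coeff_mul, lc_coeff_ne _ _ (by omega)]
      · intro n h1 h2
        have : (n : ℤ) < 1 := by exact_mod_cast h2
        omega
      · rw [epow_coeff_mul]
        have : ((1 : ℕ) : ℤ) - 1 = 0 := by norm_num
        rw [this, lc_coeff_zero]
    rw [hx'eq]
    exact (h1.add h2).congr (add_zero _) (zero_add _)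
  have hvyB : S.e.i v₁ * y ∈ B := ⟨x', hx'A, hexp.int, hexp.zero⟩
  obtain ⟨w, hwL, hvw, hwv⟩ := exists_inverse_mem L v₁ hv hv0
  have hwB : S.e.i w ∈ B := hbcB _ (S.e.i_mem_bc _ _ hwL)
  have hyB : y ∈ B := by
    have h := B.mul_mem hwB hvyB
    rwa [← mul_assoc, ← map_mul, hwv, map_one, one_mul] at h
  -- `M`
  set M := S.MY (Subalgebra.toSubmodule L) y with hM
  have hMB : M ≤ Subalgebra.toSubmodule B := by
    rw [hM, SymData.MY, Submodule.span_le]
    rintro _ ⟨p, hp, k, -, rfl⟩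
    exact B.mul_mem (hbcB p hp) (B.pow_mem hyB k)
  have hMfin : finrank F₀ M = r * finrank F L := by
    have := S.finrank_MY (Subalgebra.toSubmodule L) y (S.mon_pow_indep hr hζ i j hij)
    exact this
  have hBfin : finrank F₀ (Subalgebra.toSubmodule B) ≤ finrank F₀ M := by
    rw [hMfin]
    have h1 : finrank F₀ (Subalgebra.toSubmodule B) = finrank (Lau F₀) A := finrank_redAlg A
    rw [h1]
    exact hfin
  have hMeq : M = Subalgebra.toSubmodule B := Submodule.eq_of_le_of_finrank_le hMB hBfin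
  -- the element
  have hpow := s1b_pow (le_refl 1) hexp r
  obtain ⟨a, -, ha⟩ := S.mon_pow_r hr.pos hζ i j
  rw [← hy] at ha
  have hvyc : Commute (S.e.i v₁) y := (S.e.mem_E_iff y).1 hyE v₁
  have hconst : (lc ((S.e.i v₁ * y) ^ r) : Lau D₀) ∈ A := by
    rw [hvyc.mul_pow, ha, ← map_pow, map_mul, ← lau_algebraMap_lc]
    exact A.mul_mem (hlcA _ (L.pow_mem hv r)) (A.algebraMap_mem _)
  have hz : S.e.i v₁ ^ (r - 1) * S.avg y H ∈ B := by
    refine ⟨(epow (-1) : Lau F₀) • (x' ^ r - lc ((S.e.i v₁ * y) ^ r)),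
      A.smul_mem (A.sub_mem (A.pow_mem hx'A r) hconst) _, ?_, ?_⟩
    · intro n hn
      rw [epow_smul, epow_coeff_mul, HahnSeries.coeff_sub]
      rcases lt_trichotomy (n - -1) 0 with h1 | h1 | h1
      · rw [hpow.int _ h1, isInt_lc _ _ h1, sub_zero]
      · rw [h1, hpow.zero, lc_coeff_zero, sub_self]
      · omega
    · rw [epow_smul, epow_coeff_mul, HahnSeries.coeff_sub]
      have h1 : (0 : ℤ) - -1 = ((1 : ℕ) : ℤ) := by norm_num
      rw [h1, hpow.top, lc_coeff_ne _ _ (by norm_num), sub_zero]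
      unfold SymData.avg
      rw [Finset.mul_sum]
      refine Finset.sum_congr rfl fun k hk => ?_
      rw [Finset.mem_range] at hk
      have hvH : Commute (S.e.i v₁) H := by
        have h2 : ∀ x ∈ L, Commute (S.e.i x) H := by
          intro x hx
          induction hx using Algebra.adjoin_induction with
          | mem x hx => rw [Set.mem_singleton_iff] at hx; rw [hx]; exact hH.symm
          | algebraMap a => rw [S.e.i_alg]; exact Algebra.commutes _ _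
          | add x y _ _ hx hy => rw [map_add]; exact hx.add_left hy
          | mul x y _ _ hx hy => rw [map_mul]; exact hx.mul_left hy
        exact h2 v₁ hv
      rw [hvyc.mul_pow, hvyc.mul_pow]
      have h3 : r - 1 = k + (r - 1 - k) := by omega
      have h4 : S.e.i v₁ ^ (r - 1) = S.e.i v₁ ^ k * S.e.i v₁ ^ (r - 1 - k) := by
        rw [← pow_add, ← h3]
      rw [h4]
      have c1 : Commute (S.e.i v₁ ^ (r - 1 - k)) (y ^ k) := (hvyc.pow_pow _ _)
      have c2 : Commute (S.e.i v₁ ^ (r - 1 - k)) H := hvH.pow_left _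
      calc S.e.i v₁ ^ k * y ^ k * H * (S.e.i v₁ ^ (r - 1 - k) * y ^ (r - 1 - k))
          = S.e.i v₁ ^ k * y ^ k * (H * S.e.i v₁ ^ (r - 1 - k)) * y ^ (r - 1 - k) := by
            simp only [mul_assoc]
        _ = S.e.i v₁ ^ k * (y ^ k * S.e.i v₁ ^ (r - 1 - k)) * H * y ^ (r - 1 - k) := by
            rw [← c2.eq]; simp only [mul_assoc]
        _ = S.e.i v₁ ^ k * S.e.i v₁ ^ (r - 1 - k) * (y ^ k * H * y ^ (r - 1 - k)) := by
            rw [← c1.eq]; simp only [mul_assoc]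
  have havg : S.avg y H ∈ B := by
    have h := B.mul_mem (B.pow_mem hwB (r - 1)) hz
    rwa [← mul_assoc, ← map_pow, ← map_pow, ← map_mul,
      ← ((show Commute w v₁ by rw [commute_iff_eq, hwv, hvw]).mul_pow (r - 1)), hwv, one_pow,
      map_one, one_mul] at h
  have havgM : S.avg y H ∈ M := by rw [hMeq]; exact havg
  have hMle : M ≤ S.e.bcE (Subalgebra.toSubmodule L) := by
    rw [hM, SymData.MY, Submodule.span_le]
    rintro _ ⟨p, hp, k, -, rfl⟩
    exact (S.e.bcE_mul_E _ p (y ^ k) (S.e.bc_le_bcE _ hp) (S.e.E.pow_mem hyE k)).1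
  exact hMle havgM


theorem s1b_prod_mem (Z : Fin 2 → D₀) (hZ : ∀ i, Z i ∈ S.e.E) (l : List (Fin 2)) :
    (l.map Z).prod ∈ S.e.E := by
  refine Subalgebra.list_prod_mem _ fun x hx => ?_
  rw [List.mem_map] at hx
  obtain ⟨a, -, rfl⟩ := hx
  exact hZ a

theorem s1b_ext_avg (ℓ : D →ₗ[F] F) (y H : D₀) (hy : y ∈ S.e.E) :
    S.e.ext (CExt.fun' F ℓ) (S.avg y H) = S.avg y (S.e.ext (CExt.fun' F ℓ) H) := by
  unfold SymData.avg
  rw [map_sum]
  refine Finset.sum_congr rfl fun k _ => ?_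
  rw [S.e.ext_mul_right _ _ _ (S.e.E.pow_mem hy _), S.e.ext_mul_left _ _ _ (S.e.E.pow_mem hy _)]

theorem s1b_ext_evHom (N : ℕ) (K : NPS (Fin 2) D) (ℓ : D →ₗ[F] F) (Z : Fin 2 → D₀)
    (hZ : ∀ i, Z i ∈ S.e.E) :
    S.e.ext (CExt.fun' F ℓ) (evHom S.e Z N K) = S.evk N (fun m => ℓ (K m)) Z := by
  unfold evHom SymData.evk
  rw [map_sum]
  refine Finset.sum_congr rfl fun m _ => ?_
  rw [S.e.ext_fun_apply _ _ _ (s1b_prod_mem S Z hZ _)]

theorem s1b_evHom_comm (N : ℕ) (K : NPS (Fin 2) D) (θ : D) (Z : Fin 2 → D₀)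
    (hZ : ∀ i, Z i ∈ S.e.E) (hK : ∀ m, Commute (K m) θ) :
    Commute (evHom S.e Z N K) (S.e.i θ) := by
  unfold evHom
  refine Commute.sum_left _ _ _ fun m _ => ?_
  refine Commute.mul_left ?_ ?_
  · exact (hK _).map S.e.i
  · exact ((S.e.mem_E_iff _).1 (s1b_prod_mem S Z hZ _) θ).symm

theorem s1b_evHom_lau (N : ℕ) (K : NPS (Fin 2) D) (Z : Fin 2 → D₀) :
    evHom S.e.lau (fun i => lc (Z i)) N K = lc (evHom S.e Z N K) := by
  unfold evHom
  rw [map_sum]
  refine Finset.sum_congr rfl fun m _ => ?_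
  rw [map_mul]
  congr 1
  rw [map_list_prod, List.map_map]
  rfl

end core

theorem S1b {s₀ s : St} (h : St.Cmin s₀ s) (N : ℕ) (w : s.ι → NPS (Fin 2) s.F)
    (U K : NPS (Fin 2) s.D) (fam : s.IsFam N w U K) (m : List (Fin 2)) : K m ∈ s.L := by
  classical
  by_contra hm
  have hmN : m.length = N := by
    by_contra hne
    rw [fam.Kdeg m hne] at hm
    exact hm (Subalgebra.zero_mem _)
  obtain ⟨ℓ, hℓm, hℓL⟩ : ∃ ℓ : s.D →ₗ[s.F] s.F, ℓ (K m) ≠ 0 ∧
      Subalgebra.toSubmodule s.L ≤ LinearMap.ker ℓ :=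
    Submodule.exists_le_ker_of_notMem (p := Subalgebra.toSubmodule s.L) hm
  obtain ⟨r, hrN, hr⟩ := Nat.exists_infinite_primes (N + 1)
  obtain ⟨ζ, hζ⟩ := s.rou r hr.pos
  obtain ⟨F₀, D₀, _, _, _, _, _, _, _, ⟨S⟩⟩ := exists_sym s.F s.D r hr ζ hζ
  have hN1 : 1 ≤ N := by have := fam.hN; omega
  obtain ⟨Z, hZE, hZgen, hZns⟩ := S.pi_off hr hζ N hN1 (by omega) (fun m => ℓ (K m)) (by
    subst hmN
    exact ⟨m.get, by rw [List.ofFn_get]; exact hℓm⟩)
  set H := evHom S.e Z N K with hH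
  have hext : S.e.ext (CExt.fun' s.F ℓ) H = S.evk N (fun m => ℓ (K m)) Z :=
    s1b_ext_evHom S N K ℓ Z hZE
  have hHθ : Commute H (S.e.i (s.g [])) := s1b_evHom_comm S N K _ Z hZE fam.Kcomm
  obtain ⟨c, hc⟩ := S.exists_coord_E (S.evk N (fun m => ℓ (K m)) Z) (by
    rw [← hext]; exact S.e.ext_fun_mem _ _)
  -- a nonscalar coordinate
  obtain ⟨i, j, hij, hcij⟩ : ∃ i j : Fin r, ((i : ℕ) ≠ 0 ∨ (j : ℕ) ≠ 0) ∧ c i j ≠ 0 := by
    by_contra hno
    push Not at hno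
    apply hZns
    refine ⟨c ⟨0, hr.pos⟩ ⟨0, hr.pos⟩, ?_⟩
    rw [hc, Finset.sum_eq_single ⟨0, hr.pos⟩, Finset.sum_eq_single ⟨0, hr.pos⟩]
    · simp
    · intro b _ hb
      rw [hno _ b (Or.inr fun h0 => hb (Fin.ext h0)), map_zero, zero_mul]
    · intro h0; exact absurd (Finset.mem_univ _) h0
    · intro b _ hb
      refine Finset.sum_eq_zero fun b' _ => ?_
      rw [hno b b' (Or.inl fun h0 => hb (Fin.ext h0)), map_zero, zero_mul]
    · intro h0; exact absurd (Finset.mem_univ _) h0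
  set y := S.u ^ (i : ℕ) * S.v ^ (j : ℕ) with hy
  have hyE : y ∈ S.e.E := S.e.E.mul_mem (S.e.E.pow_mem S.u_mem_E _) (S.e.E.pow_mem S.v_mem_E _)
  -- a nonzero element of `V`
  obtain ⟨v₁, hv₁, hv₁0⟩ := Submodule.exists_mem_ne_zero_of_ne_bot h.1.2.2
  obtain ⟨a, k, hak⟩ := S1a' h v₁ hv₁
  have hv₁L : v₁ ∈ Algebra.adjoin s.F ({s.g []} : Set s.D) := Vs_le s.g hv₁
  -- the E-step
  set η : Lau D₀ := epow (-1) * lc y with hη
  have hηE : η ∈ S.e.lau.E := by
    rw [S.e.lau_mem_E]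
    intro n
    rw [hη, epow_coeff_mul]
    by_cases hn : n - -1 = 0
    · rw [hn, lc_coeff_zero]; exact hyE
    · rw [lc_coeff_ne _ _ hn]; exact Subalgebra.zero_mem _
  have hZ' : ∀ i, (lc (Z i) : Lau D₀) ∈ S.e.lau.E := by
    intro i
    rw [S.e.lau_mem_E]
    intro n
    by_cases hn : n = 0
    · rw [hn, lc_coeff_zero]; exact hZE i
    · rw [lc_coeff_ne _ _ hn]; exact Subalgebra.zero_mem _
  have hcomm : ∀ d : s.D, Commute (S.e.lau.i d) η := (S.e.lau.mem_E_iff η).1 hηE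
  obtain ⟨s', hs'⟩ := ss s h.1.2.1 S.e.lau N w U K fam (fun i => lc (Z i)) hZ'
    (S.e.lau_gen Z hZgen)
    (fun j => algebraMap (Lau F₀) (Lau D₀) (S.e.lau.φ (a j)) * η)
    (fun j => S.e.lau.E.mul_mem (S.e.lau.E.algebraMap_mem _) hηE)
    (S.e.lau.i k * η) (S.e.lau.i v₁ * η) (by
      rw [S.e.lau.linE_const s.g a η hηE, hak, map_add, map_sub, map_mul, map_mul, add_mul, sub_mul]
      congr 1
      congr 1
      · rw [mul_assoc, (hcomm _).eq, ← mul_assoc]
      · rw [mul_assoc])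
    (((V_comm v₁ hv₁).map S.e.lau.i).mul_left (hcomm _).symm)
  have hcls := hs'.cls h.1
  have hn2 : s'.n2 = r ^ 2 * s.n2 := by
    rw [hs'.n2, lau_finrank, S.finrank_D0]; rfl
  have hm' := num_m h hcls r hn2
  have hfin := hs'.m.trans hm'
  have hXeq : evHom S.e.lau (fun i => lc (Z i)) N K + S.e.lau.i v₁ * η =
      lc H + lc (S.e.i v₁) * (epow (-1) * lc y) := by
    rw [s1b_evHom_lau]; rfl
  rw [hXeq] at hfin
  have hcore := s1b_core S hr hζ (s.g []) v₁ hv₁L hv₁0 i j hij H hHθ hfin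
  have h0 : S.e.ext (CExt.fun' s.F ℓ) (S.avg y H) = 0 := by
    refine S.e.ext_eq_zero_of_mem _ _ ?_ _ hcore
    intro x hx
    have hx' : ℓ x = 0 := hℓL hx
    show algebraMap s.F s.D (ℓ x) = 0
    rw [hx', map_zero]
  rw [s1b_ext_avg S ℓ y H hyE, hext, hc] at h0
  exact S.avg_ne_zero hr.one_lt hζ c i j hcij h0

end Crest.Agent.R180
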