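import Mathlib
import Crest.Agent.R180.S1b
import Crest.Agent.R180.SymY

/-!
# Auxiliary lemmas for piece S2
-/

set_option autoImplicit false
set_option linter.unusedSectionVars false

namespace Crest.Agent.R180
open Module

/-! ## general central extensions -/

/-- apply a linear map to the coefficients -/
def s2_map {F D : Type} [Field F] [Ring D] [Algebra F D] (f : D →ₗ[F] D) (k : NPS (Fin 2) D) :
    NPS (Fin 2) D := fun m => f (k m)

namespace CExt
variable {F D F₁ D₁ β : Type} [Field F] [Ring D] [Algebra F D] [Field F₁] [Ring D₁]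
    [Algebra F₁ D₁] (e : CExt F D F₁ D₁ β)

theorem s2_i_mem (A : Subalgebra F₁ D₁) (T : Set D) (hT : ∀ t ∈ T, e.i t ∈ A) :
    ∀ x ∈ Algebra.adjoin F T, e.i x ∈ A := by
  intro x hx
  induction hx using Algebra.adjoin_induction with
  | mem x hx => exact hT x hx
  | algebraMap a => rw [e.i_alg]; exact A.algebraMap_mem _
  | add x y _ _ hx hy => rw [map_add]; exact A.add_mem hx hy
  | mul x y _ _ hx hy => rw [map_mul]; exact A.mul_mem hx hy

theorem s2_bc_le (A : Subalgebra F₁ D₁) (W : Submodule F D) (h : ∀ w ∈ W, e.i w ∈ A) :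
    e.bc W ≤ Subalgebra.toSubmodule A := by
  refine Submodule.span_le.2 ?_
  rintro _ ⟨w, hw, rfl⟩
  exact h w hw

theorem s2_prod_mem (Z : Fin 2 → D₁) (hZ : ∀ i, Z i ∈ e.E) (l : List (Fin 2)) :
    (l.map Z).prod ∈ e.E := by
  apply list_prod_mem
  intro x hx
  obtain ⟨i, _, rfl⟩ := List.mem_map.1 hx
  exact hZ i

theorem s2_i_mul_evHom (a : D) (Z : Fin 2 → D₁) (N : ℕ) (k : NPS (Fin 2) D) :
    e.i a * evHom e Z N k = evHom e Z N (NPS.lsc a k) := by
  unfold evHom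
  rw [Finset.mul_sum]
  refine Finset.sum_congr rfl fun m _ => ?_
  rw [NPS.lsc_apply, map_mul, mul_assoc]

section fd
variable [FiniteDimensional F D] [IsDomain D] [Fintype β] [CharZero F]
  [Algebra.IsCentral F D]

theorem s2_ext_evHom (f : D →ₗ[F] D) (Z : Fin 2 → D₁) (hZ : ∀ i, Z i ∈ e.E) (N : ℕ)
    (k : NPS (Fin 2) D) : e.ext f (evHom e Z N k) = evHom e Z N (s2_map f k) := by
  unfold evHom
  rw [map_sum]
  refine Finset.sum_congr rfl fun m _ => ?_
  exact e.ext_apply f _ _ (e.s2_prod_mem Z hZ _)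

theorem s2_ext_bc (A : Subalgebra F D) (x z : D₁) (hx : x ∈ e.bc (Subalgebra.toSubmodule A)) :
    e.ext (pr F A) (x * z) = x * e.ext (pr F A) z := by
  induction hx using Submodule.span_induction with
  | mem x hx =>
    obtain ⟨κ, hκ, rfl⟩ := hx
    have h : (pr F A) ∘ₗ (LinearMap.mulLeft F κ) = (LinearMap.mulLeft F κ) ∘ₗ (pr F A) := by
      ext d
      exact pr_mul_left A κ d hκ
    have h2 := LinearMap.congr_fun (congrArg e.ext h) z
    rw [e.ext_comp, e.ext_comp, LinearMap.comp_apply, LinearMap.comp_apply, e.ext_mulL,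
      e.ext_mulL] at h2
    exact h2
  | zero => simp
  | add x y _ _ hx hy => rw [add_mul, map_add, hx, hy, add_mul]
  | smul a x _ hx => rw [smul_mul_assoc, map_smul, hx, smul_mul_assoc]

end fd
end CExt

/-! ## Laurent series -/

theorem s2_int_pow {R : Type} [Ring R] (x : Lau R) (hx : IsInt x) (k : ℕ) :
    IsInt (x ^ k) ∧ (x ^ k).coeff 0 = (x.coeff 0) ^ k := by
  induction k with
  | zero =>
    rw [pow_zero, pow_zero]
    exact ⟨isInt_lc 1, lc_coeff_zero 1⟩
  | succ k ih =>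
    obtain ⟨h1, h2⟩ := ih.1.mul hx
    rw [pow_succ, pow_succ]
    exact ⟨h1, by rw [h2, ih.2]⟩

theorem s2_epow_pow {R : Type} [Ring R] (k : ℕ) : (epow (k : ℤ) : Lau R) = (epow 1) ^ k := by
  induction k with
  | zero => rw [pow_zero]; exact epow_zero
  | succ k ih => rw [pow_succ, ← ih, ← epow_add]; push_cast; rfl

theorem s2_epow_mul_pow {R : Type} [Ring R] (k : ℕ) (x : Lau R) :
    (epow 1 * x) ^ k = epow (k : ℤ) * x ^ k := by
  have h : Commute (epow 1) x := epow_comm 1 x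
  rw [h.mul_pow, s2_epow_pow]

theorem s2_epow_cancel {R : Type} [Ring R] (k : ℤ) (x : Lau R) :
    epow k * (epow (-k) * x) = x := by
  rw [← mul_assoc, ← epow_add, add_neg_cancel, epow_zero, one_mul]

namespace SymData
variable {F D F₀ D₀ : Type} [Field F] [CharZero F] [Ring D] [IsDomain D] [Algebra F D]
    [FiniteDimensional F D] [Algebra.IsCentral F D]
    [Field F₀] [CharZero F₀] [Ring D₀] [IsDomain D₀] [Algebra F₀ D₀]
    [FiniteDimensional F₀ D₀] [Algebra.IsCentral F₀ D₀] {r : ℕ} {ζ : F}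
    (S : SymData F D F₀ D₀ r ζ)

theorem s2_i_ne_zero (v : D) (hv : v ≠ 0) : S.e.i v ≠ 0 := by
  obtain ⟨v', h1, _⟩ := exists_inverse F v hv
  intro h
  have h2 := congrArg S.e.i h1
  rw [map_mul, h, zero_mul, map_one] at h2
  exact zero_ne_one h2

theorem s2_lau_i (d : D) : S.e.lau.i d = lc (S.e.i d) := rfl

theorem s2_evHom_lau (Z : Fin 2 → D₀) (N : ℕ) (k : NPS (Fin 2) D) :
    evHom S.e.lau (fun i => lc (Z i)) N k = lc (evHom S.e Z N k) := by
  unfold evHom
  rw [map_sum]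
  refine Finset.sum_congr rfl fun m _ => ?_
  rw [map_mul, map_list_prod, List.map_map]
  rfl

theorem s2_lc_mem_E (x : D₀) (hx : x ∈ S.e.E) : (lc x : Lau D₀) ∈ S.e.lau.E := by
  rw [S.e.lau_mem_E]
  intro n
  by_cases h : n = 0
  · rw [h, lc_coeff_zero]; exact hx
  · rw [lc_coeff_ne _ _ h]; exact zero_mem _

theorem s2_epow_mul_mem_E (n : ℤ) (x : Lau D₀) (hx : x ∈ S.e.lau.E) :
    epow n * x ∈ S.e.lau.E := by
  rw [← epow_smul (F := F₀)]
  exact S.e.lau.E.smul_mem hx _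

/-- `redAlg F₁[θ, v Y] ⊇ Σ L y^k F₀` -/
theorem s2_MY_le (θ v : D) (hv : v ∈ Algebra.adjoin F ({θ} : Set D)) (hv0 : v ≠ 0)
    (Y : Lau D₀) (y : D₀) (hY : IsInt (epow 1 * Y)) (hy : (epow 1 * Y).coeff 0 = y) :
    S.MY (Subalgebra.toSubmodule (Algebra.adjoin F ({θ} : Set D))) y ≤
      Subalgebra.toSubmodule (redAlg (Algebra.adjoin (Lau F₀)
        ({S.e.lau.i θ, S.e.lau.i v * Y} : Set (Lau D₀)))) := by
  set A := Algebra.adjoin (Lau F₀) ({S.e.lau.i θ, S.e.lau.i v * Y} : Set (Lau D₀)) with hA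
  have hθA : S.e.lau.i θ ∈ A := Algebra.subset_adjoin (by simp)
  have hvYA : S.e.lau.i v * Y ∈ A := Algebra.subset_adjoin (by simp)
  have hiA : ∀ x ∈ Algebra.adjoin F ({θ} : Set D), S.e.lau.i x ∈ A :=
    S.e.lau.s2_i_mem A {θ} (by
      intro t ht
      rw [Set.mem_singleton_iff] at ht
      rw [ht]; exact hθA)
  have hired : ∀ x ∈ Algebra.adjoin F ({θ} : Set D), S.e.i x ∈ redAlg A := fun x hx =>
    ⟨S.e.lau.i x, hiA x hx, isInt_lc _, lc_coeff_zero _⟩
  have hvy : S.e.i v * y ∈ redAlg A := by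
    refine ⟨(epow 1 : Lau F₀) • (S.e.lau.i v * Y), A.smul_mem hvYA _, ?_, ?_⟩
    · rw [epow_smul, ← mul_assoc, epow_comm, mul_assoc]
      exact ((isInt_lc (S.e.i v)).mul hY).1
    · rw [epow_smul, ← mul_assoc, epow_comm, mul_assoc, s2_lau_i,
        ((isInt_lc (S.e.i v)).mul hY).2, hy, lc_coeff_zero]
  have hyA : y ∈ redAlg A :=
    quot_mem (redAlg A) (S.e.i v) y (S.s2_i_ne_zero v hv0) (hired v hv) hvy
  refine Submodule.span_le.2 ?_
  rintro _ ⟨p, hp, k, _, rfl⟩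
  exact (redAlg A).mul_mem (S.e.s2_bc_le (redAlg A) _ hired hp) ((redAlg A).pow_mem hyA k)

theorem s2_finrank_A (θ v : D) (hv : v ∈ Algebra.adjoin F ({θ} : Set D)) (hv0 : v ≠ 0)
    (Y : Lau D₀) (y : D₀) (hY : IsInt (epow 1 * Y)) (hy : (epow 1 * Y).coeff 0 = y)
    (hind : ∀ p : Fin r → D₀, (∀ k, p k ∈ S.e.bc (⊤ : Submodule F D)) →
      ∑ k, p k * y ^ (k : ℕ) = 0 → ∀ k, p k = 0) :
    r * finrank F (Algebra.adjoin F ({θ} : Set D)) ≤ finrank (Lau F₀)
      (Algebra.adjoin (Lau F₀) ({S.e.lau.i θ, S.e.lau.i v * Y} : Set (Lau D₀))) := by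
  have h1 := S.finrank_MY (Subalgebra.toSubmodule (Algebra.adjoin F ({θ} : Set D))) y hind
  have h2 := Submodule.finrank_mono (S.s2_MY_le θ v hv hv0 Y y hY hy)
  rw [h1] at h2
  have h3 := finrank_redAlg (Algebra.adjoin (Lau F₀)
    ({S.e.lau.i θ, S.e.lau.i v * Y} : Set (Lau D₀)))
  rw [← h3]
  exact h2

/-- the key kernel computation -/
theorem s2_ker (KK : Subalgebra F D) (lam : D) (hlam : pr F KK lam = 0) (N : ℕ)
    (k : NPS (Fin 2) D) (Z : Fin 2 → D₀) (hZ : ∀ i, Z i ∈ S.e.E) (y : D₀) (hyE : y ∈ S.e.E)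
    (hnc : ¬ Commute (S.evk N (fun m => ntr F D (lam * k m)) Z) y)
    (hind : ∀ p : Fin r → D₀, (∀ k, p k ∈ S.e.bc (⊤ : Submodule F D)) →
      ∑ k, p k * y ^ (k : ℕ) = 0 → ∀ k, p k = 0)
    (Y : Lau D₀) (hY : Y = lc (evHom S.e Z N k) + epow (-1) * lc y)
    (p : Fin r → Lau D₀) (q : Lau D₀)
    (hp : ∀ k, p k ∈ S.e.lau.bc (Subalgebra.toSubmodule KK))
    (hq : q ∈ S.e.lau.bc (Subalgebra.toSubmodule KK))
    (h0 : S.e.lau.ext (pr F KK) (∑ k, p k * Y ^ (k : ℕ) + q * (S.e.lau.i lam * Y)) = 0) :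
    (∀ k, p k = 0) ∧ q = 0 := by
  classical
  set f := pr F KK with hf
  -- `Q = π (λ Y)`
  set hh : D₀ := evHom S.e Z N (s2_map f (NPS.lsc lam k)) with hhh
  have hQ : S.e.lau.ext f (S.e.lau.i lam * Y) = lc hh := by
    have e1 : S.e.lau.i lam * Y = evHom S.e.lau (fun i => lc (Z i)) N (NPS.lsc lam k) +
        S.e.lau.i lam * (epow (-1) * lc y) := by
      rw [hY, mul_add, ← s2_evHom_lau, CExt.s2_i_mul_evHom]
    rw [e1, map_add, S.e.lau.s2_ext_evHom f _ (fun i => S.s2_lc_mem_E _ (hZ i)),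
      S.e.lau.ext_apply f lam _ (S.s2_epow_mul_mem_E _ _ (S.s2_lc_mem_E _ hyE)), hf, hlam,
      map_zero, zero_mul, add_zero, s2_evHom_lau]
  -- `η Y`
  have hηY : epow 1 * Y = lc y + epow 1 * lc (evHom S.e Z N k) := by
    rw [hY, mul_add, add_comm, s2_epow_cancel]
  have hint : IsInt (epow 1 * Y) := by
    rw [hηY]
    refine (isInt_lc y).add ?_
    intro n hn
    rw [epow_coeff_mul, lc_coeff_ne _ _ (by omega)]
  have hcoef : (epow 1 * Y).coeff 0 = y := by
    rw [hηY, HahnSeries.coeff_add, lc_coeff_zero, epow_coeff_mul, lc_coeff_ne _ _ (by omega),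
      add_zero]
  -- `P k = η^k π(Y^k)`
  have hP : ∀ j : ℕ, IsInt (epow (j : ℤ) * S.e.lau.ext f (Y ^ j)) ∧
      (epow (j : ℤ) * S.e.lau.ext f (Y ^ j)).coeff 0 = y ^ j := by
    intro j
    have e1 : epow (j : ℤ) * S.e.lau.ext f (Y ^ j) = S.e.lau.ext f ((epow 1 * Y) ^ j) := by
      rw [s2_epow_mul_pow, ← epow_smul (F := F₀), ← epow_smul (F := F₀), map_smul]
    obtain ⟨h1, h2⟩ := s2_int_pow _ hint j
    rw [e1]
    constructor
    · intro n hn
      rw [S.e.lau_ext, h1 n hn, map_zero]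
    · rw [S.e.lau_ext, h2, hcoef]
      have h3 := S.e.ext_apply f 1 (y ^ j) (S.e.E.pow_mem hyE j)
      rw [map_one, one_mul] at h3
      rw [h3, hf, pr_of_mem KK 1 (one_mem KK), map_one, one_mul]
  -- the relation
  have hrel : ∑ j : Fin r, (epow (-((j : ℕ) : ℤ)) * p j) *
      (epow ((j : ℕ) : ℤ) * S.e.lau.ext f (Y ^ (j : ℕ))) + q * lc hh = 0 := by
    rw [map_add, map_sum, S.e.lau.s2_ext_bc KK _ _ hq, hQ] at h0
    rw [← h0]
    congr 1
    refine Finset.sum_congr rfl fun j _ => ?_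
    rw [S.e.lau.s2_ext_bc KK _ _ (hp j), epow_comm _ (p j), mul_assoc, ← mul_assoc (epow _),
      ← epow_add, neg_add_cancel, epow_zero, one_mul]
  -- normalise
  by_contra hne
  let xx : Option (Fin r) → Lau D₀ := fun o => match o with
    | none => q
    | some j => epow (-((j : ℕ) : ℤ)) * p j
  have hxx : xx ≠ 0 := by
    intro hx0
    apply hne
    constructor
    · intro j
      have h1 : epow (-((j : ℕ) : ℤ)) * p j = 0 := congrFun hx0 (some j)
      rw [← s2_epow_cancel ((j : ℕ) : ℤ) (p j), h1, mul_zero]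
    · exact congrFun hx0 none
  obtain ⟨n, hn, o, ho⟩ := exists_normalize xx hxx
  -- reductions
  set a : Fin r → D₀ := fun j => (epow n * xx (some j)).coeff 0 with ha
  set b : D₀ := (epow n * xx none).coeff 0 with hb
  have haK : ∀ j, a j ∈ S.e.bc (Subalgebra.toSubmodule KK) := by
    intro j
    have h1 : a j = (p j).coeff (0 - n - (-((j : ℕ) : ℤ))) := by
      rw [ha]
      simp only [xx]
      rw [epow_coeff_mul, epow_coeff_mul]
    rw [h1]
    exact (S.e.lau_mem_bc _ _).1 (hp j) _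
  have hbK : b ∈ S.e.bc (Subalgebra.toSubmodule KK) := by
    have h1 : b = q.coeff (0 - n) := by
      rw [hb]
      simp only [xx]
      rw [epow_coeff_mul]
    rw [h1]
    exact (S.e.lau_mem_bc _ _).1 hq _
  have haT : ∀ j, a j ∈ S.e.bc (⊤ : Submodule F D) := fun j => S.e.bc_mono le_top (haK j)
  have hbT : b ∈ S.e.bc (⊤ : Submodule F D) := S.e.bc_mono le_top hbK
  -- reduced relation
  have hred : ∑ j, a j * y ^ (j : ℕ) + b * hh = 0 := by
    have h1 : ∑ j : Fin r, (epow n * xx (some j)) *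
      (epow ((j : ℕ) : ℤ) * S.e.lau.ext f (Y ^ (j : ℕ))) + (epow n * xx none) * lc hh = 0 := by
      have h2 := congrArg (fun z => epow n * z) hrel
      simp only [mul_add, Finset.mul_sum, mul_zero] at h2
      rw [← h2]
      congr 1
      · refine Finset.sum_congr rfl fun j _ => ?_
        rw [mul_assoc]
      · rw [mul_assoc]
    have h3 := congrArg (fun z : Lau D₀ => z.coeff 0) h1
    simp only [HahnSeries.coeff_add, lau_coeff_sum, HahnSeries.coeff_zero] at h3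
    rw [← h3]
    congr 1
    · refine Finset.sum_congr rfl fun j _ => ?_
      rw [((hn (some j)).mul (hP j).1).2, (hP j).2]
    · rw [((hn none).mul (isInt_lc hh)).2, lc_coeff_zero]
  -- commutator with `y`
  have hcomm : b * (hh * y - y * hh) = 0 := by
    have h1 : (∑ j, a j * y ^ (j : ℕ) + b * hh) * y - y * (∑ j, a j * y ^ (j : ℕ) + b * hh) =
        b * (hh * y - y * hh) := by
      have h2 : (∑ j, a j * y ^ (j : ℕ)) * y = y * ∑ j, a j * y ^ (j : ℕ) := by
        rw [Finset.sum_mul, Finset.mul_sum]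
        refine Finset.sum_congr rfl fun j _ => ?_
        rw [← mul_assoc y, ← (S.e.bc_comm_E (a j) y (haT j) hyE).eq, mul_assoc, mul_assoc,
          ← pow_succ, ← pow_succ']
      rw [add_mul, mul_add, h2, add_sub_add_left_eq_sub, mul_sub, mul_assoc, ← mul_assoc b y,
        (S.e.bc_comm_E b y hbT hyE).eq, mul_assoc y]
    rw [← h1, hred, zero_mul, mul_zero, sub_zero]
  have hb0 : b = 0 := by
    rcases mul_eq_zero.1 hcomm with h1 | h1
    · exact h1
    · exfalso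
      apply hnc
      have h2 : hh * y = y * hh := sub_eq_zero.1 h1
      have h3 := congrArg (S.e.ext (CExt.fun' F (ntr F D))) h2
      rw [S.e.ext_mul_right _ _ _ hyE, S.e.ext_mul_left _ _ _ hyE] at h3
      have h4 : S.e.ext (CExt.fun' F (ntr F D)) hh =
          S.evk N (fun m => ntr F D (lam * k m)) Z := by
        rw [hhh, S.e.s2_ext_evHom _ _ hZ]
        unfold evHom SymData.evk
        refine Finset.sum_congr rfl fun m _ => ?_
        congr 1
        have h5 := pr_spec KK (lam * k (List.ofFn m)) 1 (one_mem KK)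
        rw [one_mul, one_mul] at h5
        show S.e.i (algebraMap F D (ntr F D (f (lam * k (List.ofFn m))))) = _
        rw [S.e.i_alg, hf, h5]
      rw [h4] at h3
      exact h3
  rw [hb0, zero_mul, add_zero] at hred
  have ha0 := hind a haT hred
  rcases o with _ | j
  · exact ho hb0
  · exact ho (ha0 j)

/-- `x ⊥ KK ⊗ E₁` implies `π x = 0` -/
theorem s2_orth (KK : Subalgebra F D) (x : Lau D₀)
    (hx : ∀ w ∈ S.e.lau.bcE (Subalgebra.toSubmodule KK), ntr (Lau F₀) (Lau D₀) (x * w) = 0) :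
    S.e.lau.ext (pr F KK) x = 0 := by
  have h1 : x ∈ S.e.lau.bcE (LinearMap.ker (pr F KK)) := by
    rw [S.e.lau.orth_bcE ⊤ (Subalgebra.toSubmodule KK) (LinearMap.ker (pr F KK))]
    · refine ⟨?_, ?_⟩
      · have h2 : Subalgebra.toSubmodule (⊤ : Subalgebra F D) = ⊤ := rfl
        rw [h2, S.e.lau.bcE_top]
        trivial
      · intro d hd y hy
        rw [ntr_comm]
        exact hx _ (S.e.lau.mul_mem_bcE _ _ hd _ hy)
    · intro x
      rw [LinearMap.mem_ker]
      constructor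
      · intro h
        refine ⟨Algebra.mem_top, fun y hy => ?_⟩
        rw [← pr_spec KK x y hy, h, mul_zero, map_zero]
      · rintro ⟨_, h⟩
        exact pr_unique KK x 0 (zero_mem _) (fun a ha => by rw [h a ha, mul_zero, map_zero])
  rw [S.e.lau.bcE_ker] at h1
  exact h1

/-- the dimension count -/
theorem s2_dim (KK : Subalgebra F D) (lam : D) (hlam : pr F KK lam = 0) (N : ℕ)
    (k : NPS (Fin 2) D) (Z : Fin 2 → D₀) (hZ : ∀ i, Z i ∈ S.e.E) (y : D₀) (hyE : y ∈ S.e.E)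
    (hnc : ¬ Commute (S.evk N (fun m => ntr F D (lam * k m)) Z) y)
    (hind : ∀ p : Fin r → D₀, (∀ k, p k ∈ S.e.bc (⊤ : Submodule F D)) →
      ∑ k, p k * y ^ (k : ℕ) = 0 → ∀ k, p k = 0)
    (Y : Lau D₀) (hY : Y = lc (evHom S.e Z N k) + epow (-1) * lc y)
    (A : Subalgebra (Lau F₀) (Lau D₀)) (hYA : Y ∈ A) (hKA : ∀ x ∈ KK, S.e.lau.i x ∈ A)
    (hlamA : S.e.lau.i lam ∈ A) :
    (r + 1) * finrank F KK ≤ finrank (Lau F₀)
      ((S.e.lau.bcE (Subalgebra.toSubmodule KK)).map (pr (Lau F₀) A)) := by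
  classical
  let B : Submodule (Lau F₀) (Lau D₀) := S.e.lau.bc (Subalgebra.toSubmodule KK)
  have hBA : B ≤ Subalgebra.toSubmodule A := S.e.lau.s2_bc_le A _ hKA
  have hB : finrank (Lau F₀) B = finrank F KK := S.e.lau.finrank_bc _
  let G : Option (Fin r) → Lau D₀ := fun o => match o with
    | none => S.e.lau.i lam * Y
    | some j => Y ^ (j : ℕ)
  have hGA : ∀ o, G o ∈ A := by
    intro o
    rcases o with _ | j
    · exact A.mul_mem hlamA hYA
    · exact A.pow_mem hYA _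
  let Φ : (Option (Fin r) → B) →ₗ[Lau F₀] Lau D₀ :=
    ∑ o, LinearMap.mulRight (Lau F₀) (G o) ∘ₗ B.subtype ∘ₗ LinearMap.proj o
  have hΦ : ∀ x, Φ x = ∑ o, (x o : Lau D₀) * G o := by
    intro x
    simp [Φ]
  have hΦ' : ∀ x, Φ x = ∑ j : Fin r, (x (some j) : Lau D₀) * Y ^ (j : ℕ) +
      (x none : Lau D₀) * (S.e.lau.i lam * Y) := by
    intro x
    rw [hΦ, Fintype.sum_option, add_comm]
  let Nn : Submodule (Lau F₀) (Lau D₀) :=
    { carrier := {a | a ∈ A ∧ ∀ w ∈ S.e.lau.bcE (Subalgebra.toSubmodule KK),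
        ntr (Lau F₀) (Lau D₀) (a * w) = 0}
      zero_mem' := ⟨A.zero_mem, by simp⟩
      add_mem' := by
        rintro a b ⟨ha, ha'⟩ ⟨hb, hb'⟩
        exact ⟨A.add_mem ha hb, fun x hx => by rw [add_mul, map_add, ha' x hx, hb' x hx, add_zero]⟩
      smul_mem' := by
        rintro c a ⟨ha, ha'⟩
        exact ⟨A.smul_mem ha c, fun x hx => by
          rw [smul_mul_assoc, map_smul, ha' x hx, smul_zero]⟩ }
  have h1 := finrank_pr_map A (S.e.lau.bcE (Subalgebra.toSubmodule KK)) Nn (fun a => Iff.rfl)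
  have hkey : ∀ x, Φ x ∈ Nn → x = 0 := by
    intro x hx
    have h2 := S.s2_orth KK (Φ x) hx.2
    rw [hΦ'] at h2
    obtain ⟨h3, h4⟩ := S.s2_ker KK lam hlam N k Z hZ y hyE hnc hind Y hY _ _
      (fun j => (x (some j)).2) (x none).2 h2
    funext o
    rcases o with _ | j
    · exact Subtype.ext h4
    · exact Subtype.ext (h3 j)
  have hinj : Function.Injective Φ := by
    rw [← LinearMap.ker_eq_bot, LinearMap.ker_eq_bot']
    intro x hx
    apply hkey
    rw [hx]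
    exact Nn.zero_mem
  have hrange : finrank (Lau F₀) (LinearMap.range Φ) = (r + 1) * finrank F KK := by
    rw [LinearMap.finrank_range_of_inj hinj, Module.finrank_pi_fintype, Finset.sum_const, hB,
      Finset.card_univ, Fintype.card_option, Fintype.card_fin, smul_eq_mul]
  have hinf : LinearMap.range Φ ⊓ Nn = ⊥ := by
    rw [Submodule.eq_bot_iff]
    rintro _ ⟨⟨x, rfl⟩, hx⟩
    rw [hkey x hx, map_zero]
  have hsup : LinearMap.range Φ ⊔ Nn ≤ Subalgebra.toSubmodule A := by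
    refine sup_le ?_ (fun a ha => ha.1)
    rintro _ ⟨x, rfl⟩
    rw [hΦ]
    exact Submodule.sum_mem _ fun o _ => A.mul_mem (hBA (x o).2) (hGA o)
  have h2 := Submodule.finrank_sup_add_finrank_inf_eq (LinearMap.range Φ) Nn
  have h3 := Submodule.finrank_mono hsup
  rw [hinf, finrank_bot, add_zero, hrange] at h2
  have h4 : finrank (Lau F₀) (Subalgebra.toSubmodule A) = finrank (Lau F₀) A := rfl
  omega

end SymData

/-! ## `R ⊇ pr_A (𝕂 ⊗ E₁)` -/
section
variable {F D F₁ D₁ β : Type} [Field F] [CharZero F] [Ring D] [IsDomain D] [Algebra F D]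
    [FiniteDimensional F D] [Algebra.IsCentral F D]
    [Field F₁] [CharZero F₁] [Ring D₁] [IsDomain D₁] [Algebra F₁ D₁]
    [FiniteDimensional F₁ D₁] [Algebra.IsCentral F₁ D₁] [Fintype β] (e : CExt F D F₁ D₁ β)

theorem s2_R (A R : Subalgebra F₁ D₁) (T : Set D) (hTA : ∀ t ∈ T, e.i t ∈ A) (h1 : (1 : D) ∈ T)
    (hTR : ∀ t ∈ T, ∀ y ∈ e.E, pr F₁ A (e.i t * y) ∈ R) :
    (e.bcE (Subalgebra.toSubmodule (Algebra.adjoin F T))).map (pr F₁ A) ≤
      Subalgebra.toSubmodule R := by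
  have hKA : ∀ x ∈ Algebra.adjoin F T, e.i x ∈ A := e.s2_i_mem A T hTA
  have hE : ∀ y ∈ e.E, pr F₁ A y ∈ R := by
    intro y hy
    have := hTR 1 h1 y hy
    rwa [map_one, one_mul] at this
  have hKR : ∀ x ∈ Algebra.adjoin F T, e.i x ∈ R := by
    apply e.s2_i_mem R T
    intro t ht
    have := hTR t ht 1 (one_mem _)
    rwa [mul_one, pr_of_mem A _ (hTA t ht)] at this
  rw [Submodule.map_le_iff_le_comap]
  unfold CExt.bcE
  rw [Submodule.span_le]
  rintro _ ⟨w, hw, y, hy, rfl⟩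
  show pr F₁ A (e.i w * y) ∈ R
  rw [pr_mul_left A _ _ (hKA w hw)]
  exact R.mul_mem (hKR w hw) (hE y hy)

/-- commutators with `Θ` are killed by `pr A` if `A ⊂ Cent Θ` -/
theorem s2_pr_comm (A : Subalgebra F₁ D₁) (Θ h : D₁) (hA : ∀ a ∈ A, Commute a Θ) :
    pr F₁ A (h * Θ - Θ * h) = 0 := by
  apply pr_unique A _ _ (zero_mem _)
  intro a ha
  rw [ntr_mul_comm_zero Θ a h (hA a ha), mul_zero, map_zero]

end

end Crest.Agent.R180
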