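import Mathlib
import Crest.Agent.R180.NDat
import Crest.Agent.R180.S2Aux

/-!
# Piece ND1: reductions of `L''`, `K''`, `v''` and of `Nn''`

`n.s' = s.next n.E`, `F'' = Lau F₀`, `D'' = Lau D₀`.
* `redL`: `redAlg_L` with `n.lt`, `n.hmA`.
* `redK`: `K_ge` with `v₁ = i v`, `δ₁ = (algebraMap (φ (c₀ j)))` (`linE g δ₁ = i (lin g c₀)`, whose `pr_A` is `i v`): the algebra `R` generated by
  `{x : i v * x = pr_A (linE g δ)}` is contained in `redAlg K''`.  For `κ ∈ V₁` (`v κ ∈ V`, so `v κ + [k,θ] = lin g c'`, `S1a'`) and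
  `y ∈ E₀`: `x = i κ * pr_A(y) ∈ R`.  With `y = 1`: `i κ ∈ R`, so `bc 𝕂 ⊂ R` (`Kalg_eq`); with `κ = 1`: `pr_A(y) ∈ R`.  Hence
  `pr_A (𝕂⊗E₀) ⊂ R`, which contains `M_Y(𝕂) ⊂ A ∩ 𝕂⊗E₀`.  Dimensions: `dim redAlg K'' = nK'' = r nK = dim M_Y(𝕂)`.
* `exists_v`: `exists_V_lift` for `δ = c₀`.
* `nn_red`: `p = i v * x̄`.  `v'' x ∈ K''` has residue `p ∈ redAlg K'' = M_Y(𝕂)`; the `ε^1` coefficient of `ntr (x * lin (Ψ g) ξ) = 0`
  gives `ntr (x̄ * linE g δ) = 0` for all `δ ∈ E₀^ι`; for `δ = c' ⊗ y`, `lin g c' = v κ + [k,θ]`: `ntr (p i(κ) y) = 0`, so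
  `p ∈ W ⊗ E₀` (`orth_bcE`) and `p ∈ W F₀` (`MY_inf`).  Here `x̄ ∈ A` (`redL`; `x ∈ L''` because `v'' x ∈ K'' ⊂ L''`).
-/

set_option autoImplicit false
set_option linter.unusedSectionVars false

namespace Crest.Agent.R180
open Module

namespace NDat
variable {s₀ s : St} {B : ℕ} (n : NDat s₀ s B)

theorem nd1_hvL : n.v ∈ Algebra.adjoin s.F ({s.g []} : Set s.D) := Vs_le s.g n.hv

theorem nd1_htK : n.t ∈ Kalg (Vs s.F s.g) := by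
  obtain ⟨κ, hκ, h⟩ := Vs_sub s.g n.v (n.v * n.t) n.hv n.hv0 n.ht
  have : n.t = κ := mul_left_cancel₀ n.hv0 h
  rw [this]; exact hκ

theorem nd1_htL : n.t ∈ Algebra.adjoin s.F ({s.g []} : Set s.D) := Kalg_le s.g n.nd1_htK

theorem nd1_L_comm : ∀ x ∈ Algebra.adjoin s.F ({s.g []} : Set s.D),
    ∀ y ∈ Algebra.adjoin s.F ({s.g []} : Set s.D), x * y = y * x := by
  intro x hx y hy
  exact adjoin_comm _ x hx _ hy

theorem nd1_K_comm : ∀ x ∈ Kalg (Vs s.F s.g), ∀ y ∈ Kalg (Vs s.F s.g), x * y = y * x := by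
  intro x hx y hy
  exact adjoin_comm _ x (Kalg_le s.g hx) _ (Kalg_le s.g hy)

theorem nd1_A_eq : Subalgebra.toSubmodule n.A =
    n.S.MY (Subalgebra.toSubmodule (Algebra.adjoin s.F ({s.g []} : Set s.D))) (n.S.Y n.t) :=
  adjoin_eq_MY n.S n.hr.one_lt n.hζ (s.g []) n.v n.t n.nd1_hvL n.nd1_htL n.hv0

theorem nd1_i_mem_A (x : s.D) (hx : x ∈ Algebra.adjoin s.F ({s.g []} : Set s.D)) :
    n.S.e.i x ∈ n.A := by
  rw [← Subalgebra.mem_toSubmodule, n.nd1_A_eq]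
  have h3 := n.S.e.i_mem_bc (Subalgebra.toSubmodule (Algebra.adjoin s.F {s.g []})) x hx
  unfold SymData.MY
  exact Submodule.subset_span ⟨n.S.e.i x, h3, 0, n.hr.pos, by rw [pow_zero, mul_one]⟩

theorem nd1_MYK_le_A : n.S.MY (Subalgebra.toSubmodule (Kalg (Vs s.F s.g))) (n.S.Y n.t) ≤
    Subalgebra.toSubmodule n.A := by
  rw [n.nd1_A_eq]
  exact lb_MY_mono n.S _ _ (Kalg_le s.g) _

theorem nd1_A_comm : ∀ a ∈ n.A, Commute a (n.S.e.i (s.g [])) := by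
  intro a ha
  unfold A at ha
  induction ha using Algebra.adjoin_induction with
  | mem x hx =>
    rcases hx with rfl | hx
    · exact Commute.refl _
    · rw [Set.mem_singleton_iff] at hx
      rw [hx]
      exact n.lt.comm
  | algebraMap a => exact Algebra.commutes a _
  | add x y _ _ hx hy => exact hx.add_left hy
  | mul x y _ _ hx hy => exact hx.mul_left hy

/-- the linear part in the direction `c ⊗ y` -/
theorem nd1_linE (c : s.ι → s.F) (w k : s.D) (hck : lin s.F s.g c = w + (k * s.g [] - s.g [] * k))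
    (y : n.D₀) (hy : y ∈ n.S.e.E) :
    n.S.e.linE s.g (fun j => algebraMap n.F₀ n.D₀ (n.S.e.φ (c j)) * y) =
      n.S.e.i w * y + ((n.S.e.i k * y) * n.S.e.i (s.g []) - n.S.e.i (s.g []) * (n.S.e.i k * y)) := by
  have hyθ : y * n.S.e.i (s.g []) = n.S.e.i (s.g []) * y := ((n.S.e.comm_E hy _)).symm
  rw [n.S.e.linE_const _ _ _ hy, hck, map_add, add_mul]
  congr 1
  rw [map_sub, map_mul, map_mul, sub_mul, mul_assoc (n.S.e.i k), ← hyθ]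
  simp only [mul_assoc]

theorem nd1_pr_linE (c : s.ι → s.F) (w k : s.D)
    (hck : lin s.F s.g c = w + (k * s.g [] - s.g [] * k))
    (y : n.D₀) (hy : y ∈ n.S.e.E) :
    pr n.F₀ n.A (n.S.e.linE s.g (fun j => algebraMap n.F₀ n.D₀ (n.S.e.φ (c j)) * y)) =
      pr n.F₀ n.A (n.S.e.i w * y) := by
  rw [n.nd1_linE c w k hck y hy, map_add, s2_pr_comm n.A _ _ n.nd1_A_comm, add_zero]

theorem nd1_dir_mem (c : s.ι → s.F) (y : n.D₀) (hy : y ∈ n.S.e.E) (j : s.ι) :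
    algebraMap n.F₀ n.D₀ (n.S.e.φ (c j)) * y ∈ n.S.e.E :=
  n.S.e.E.mul_mem (n.S.e.alg_mem_E _) hy

theorem redL : redAlg (Algebra.adjoin (Lau n.F₀) ({n.E.Ψ s.g []} : Set (Lau n.D₀))) = n.A :=
  redAlg_L n.E s.g (n.S.e.i n.v * n.S.Y n.t) 1 n.lt n.hmA

theorem nd1_pr_c0 : pr n.F₀ n.A
    (n.S.e.linE s.g (fun j => algebraMap n.F₀ n.D₀ (n.S.e.φ (n.c₀ j)) * 1)) = n.S.e.i n.v := by
  rw [n.nd1_pr_linE n.c₀ n.v n.k₀ n.lin0 1 (one_mem _), mul_one]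
  exact pr_of_mem n.A _ (n.nd1_i_mem_A _ n.nd1_hvL)

theorem nd1_iv_ne : n.S.e.i n.v ≠ 0 := SymData.s2_i_ne_zero n.S n.v n.hv0

theorem nd1_finrank_K' : finrank (Lau n.F₀) (Kalg (Vs (Lau n.F₀) (n.E.Ψ s.g))) = n.r * s.nK :=
  n.hnK

theorem nd1_MYK_le_red : n.S.MY (Subalgebra.toSubmodule (Kalg (Vs s.F s.g))) (n.S.Y n.t) ≤
    Subalgebra.toSubmodule (redAlg (Kalg (Vs (Lau n.F₀) (n.E.Ψ s.g)))) := by
  have hK := K_ge n.E s.g (n.S.e.i n.v * n.S.Y n.t) 1 n.lt n.hmA (n.S.e.i n.v) n.nd1_iv_ne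
    (fun j => algebraMap n.F₀ n.D₀ (n.S.e.φ (n.c₀ j)) * 1)
    (n.nd1_dir_mem n.c₀ 1 (one_mem _)) n.nd1_pr_c0
  have hKal := Kalg_eq s.g n.v n.hv n.hv0
  have hR := s2_R n.S.e n.A (Algebra.adjoin n.F₀ {x | ∃ δ : s.ι → n.D₀, (∀ j, δ j ∈ n.S.e.E) ∧
        n.S.e.i n.v * x = pr n.F₀ n.A (n.S.e.linE s.g δ)}) {x | n.v * x ∈ Vs s.F s.g} ?_ ?_ ?_
  · rw [← hKal] at hR
    intro x hx
    have h1 : x ∈ n.S.e.bcE (Subalgebra.toSubmodule (Kalg (Vs s.F s.g))) :=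
      lb_MY_le_bcE n.S _ n.t n.nd1_htK hx
    have h2 : x ∈ n.A := n.nd1_MYK_le_A hx
    have h3 := hR (Submodule.mem_map_of_mem (f := pr n.F₀ n.A) h1)
    rw [pr_of_mem n.A x h2] at h3
    exact hK h3
  · intro t ht
    apply n.nd1_i_mem_A
    apply Kalg_le s.g
    rw [hKal]
    exact Algebra.subset_adjoin ht
  · show n.v * 1 ∈ Vs s.F s.g
    rw [mul_one]; exact n.hv
  · intro t ht y hy
    apply Algebra.subset_adjoin
    obtain ⟨c, k, hck⟩ := S1a' n.hO.1.1.1 (n.v * t) ht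
    refine ⟨fun j => algebraMap n.F₀ n.D₀ (n.S.e.φ (c j)) * y, n.nd1_dir_mem c y hy, ?_⟩
    have hiv : n.S.e.i (n.v * t) = n.S.e.i n.v * n.S.e.i t := map_mul _ _ _
    rw [n.nd1_pr_linE c _ k hck y hy, hiv, mul_assoc,
      pr_mul_left n.A _ _ (n.nd1_i_mem_A _ n.nd1_hvL)]

theorem redK : Subalgebra.toSubmodule (redAlg (Kalg (Vs (Lau n.F₀) (n.E.Ψ s.g)))) =
    n.S.MY (Subalgebra.toSubmodule s.K) (n.S.Y n.t) := by
  symm
  apply Submodule.eq_of_le_of_finrank_eq n.nd1_MYK_le_red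
  have h1 : finrank n.F₀ (redAlg (Kalg (Vs (Lau n.F₀) (n.E.Ψ s.g)))) = n.r * s.nK := by
    rw [finrank_redAlg]; exact n.hnK
  have h2 : finrank n.F₀ (Subalgebra.toSubmodule
      (redAlg (Kalg (Vs (Lau n.F₀) (n.E.Ψ s.g))))) = n.r * s.nK := h1
  rw [h2, n.S.finrank_MY _ _ (n.S.Y_indep n.hr.pos n.hζ n.t)]
  rfl

theorem exists_v : ∃ y ∈ Vs (Lau n.F₀) (n.E.Ψ s.g), IsInt y ∧ y.coeff 0 = n.S.e.i n.v := by
  obtain ⟨y, hy, hyi, hy0⟩ := exists_V_lift n.E s.g (n.S.e.i n.v * n.S.Y n.t) 1 n.lt n.hmA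
    (fun j => algebraMap n.F₀ n.D₀ (n.S.e.φ (n.c₀ j)) * 1) (n.nd1_dir_mem n.c₀ 1 (one_mem _))
  refine ⟨y, hy, hyi, ?_⟩
  rw [hy0]
  exact n.nd1_pr_c0

theorem nn_red (v'' : Lau n.D₀) (hv'' : v'' ∈ Vs (Lau n.F₀) (n.E.Ψ s.g)) (hvi : IsInt v'')
    (hv0 : v''.coeff 0 = n.S.e.i n.v) (x : Lau n.D₀) (hx : InN (Lau n.F₀) (n.E.Ψ s.g) v'' x)
    (hxi : IsInt x) :
    x.coeff 0 ∈ n.A ∧ n.S.e.i n.v * x.coeff 0 ∈ n.S.e.bc (Wsp s.V n.v) := by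
  obtain ⟨hx1, hx2⟩ := hx
  have hv''0 : v'' ≠ 0 := by
    rintro rfl
    rw [HahnSeries.coeff_zero] at hv0
    exact n.nd1_iv_ne hv0.symm
  have hxL : x ∈ Algebra.adjoin (Lau n.F₀) ({n.E.Ψ s.g []} : Set (Lau n.D₀)) :=
    quot_mem _ v'' x hv''0 (Vs_le (n.E.Ψ s.g) hv'') (Kalg_le (n.E.Ψ s.g) hx1)
  have hxA : x.coeff 0 ∈ n.A := by
    rw [← n.redL, mem_redAlg]
    exact ⟨x, hxL, hxi, rfl⟩
  refine ⟨hxA, ?_⟩
  -- `p ∈ MY K`
  have hp : n.S.e.i n.v * x.coeff 0 ∈ n.S.MY (Subalgebra.toSubmodule s.K) (n.S.Y n.t) := by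
    rw [← n.redK, Subalgebra.mem_toSubmodule, mem_redAlg]
    obtain ⟨h1, h2⟩ := hvi.mul hxi
    exact ⟨v'' * x, hx1, h1, by rw [h2, hv0]⟩
  -- orthogonality
  have horth : ∀ δ : s.ι → n.D₀, (∀ j, δ j ∈ n.S.e.E) →
      ntr n.F₀ n.D₀ (x.coeff 0 * n.S.e.linE s.g δ) = 0 := by
    intro δ hδ
    obtain ⟨δ', rfl⟩ := exists_dirE n.S.e δ hδ
    obtain ⟨h1, h2⟩ := lin_lead n.E s.g (fun p => (lc (δ' p) : Lau n.F₀)) (fun p => isInt_lc _)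
    obtain ⟨-, h3, -⟩ := coeff_mul_lead x
      (lin (Lau n.F₀) (n.E.Ψ s.g) (fun p => (lc (δ' p) : Lau n.F₀))) 0 1 hxi h1
    have h4 := hx2 (fun p => (lc (δ' p) : Lau n.F₀))
    have h5 := ntr_lau (F := n.F₀) (D := n.D₀)
      (x * lin (Lau n.F₀) (n.E.Ψ s.g) (fun p => (lc (δ' p) : Lau n.F₀))) (0 + 1)
    rw [h4, h3, HahnSeries.coeff_zero, h2] at h5
    have h6 : (fun p => (lc (δ' p) : Lau n.F₀).coeff 0) = δ' := by
      funext p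
      exact lc_coeff_zero _
    rw [h6] at h5
    exact h5.symm
  have hpW : n.S.e.i n.v * x.coeff 0 ∈ n.S.e.bcE (Wsp (Vs s.F s.g) n.v) := by
    refine (n.S.e.orth_bcE (Kalg (Vs s.F s.g)) (V1 (Vs s.F s.g) n.v) (Wsp (Vs s.F s.g) n.v)
      ?_ _).2 ⟨?_, ?_⟩
    · intro x
      exact Iff.rfl
    · exact lb_MY_le_bcE n.S _ n.t n.nd1_htK hp
    · intro d hd y hy
      obtain ⟨c, k, hck⟩ := S1a' n.hO.1.1.1 (n.v * d) hd
      have h1 := horth _ (n.nd1_dir_mem c y hy)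
      rw [n.nd1_linE c _ k hck y hy, mul_add, map_add,
        ntr_mul_comm_zero _ _ _ (n.nd1_A_comm _ hxA), add_zero] at h1
      have hdL : d ∈ Algebra.adjoin s.F ({s.g []} : Set s.D) :=
        Kalg_le s.g (V1_le_K s.g n.v n.hv n.hv0 hd)
      have h2 : n.S.e.i d * y * (n.S.e.i n.v * x.coeff 0) = n.S.e.i (n.v * d) * y * x.coeff 0 := by
        rw [← mul_assoc, mul_assoc (n.S.e.i d), ← n.S.e.comm_E hy, ← mul_assoc, ← map_mul,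
          nd1_L_comm d hdL n.v n.nd1_hvL]
      rw [h2, ntr_comm]
      exact h1
  have hfin : n.S.e.i n.v * x.coeff 0 ∈
      n.S.MY (Subalgebra.toSubmodule (Kalg (Vs s.F s.g))) (n.S.Y n.t) ⊓
        n.S.e.bcE (Wsp (Vs s.F s.g) n.v) := ⟨hp, hpW⟩
  rw [MY_inf n.S n.hr.one_lt n.hζ (Kalg (Vs s.F s.g)) nd1_K_comm n.t n.nd1_htK
    (Wsp (Vs s.F s.g) n.v) (fun p hp => hp.1) n.hW] at hfin
  exact hfin

/-- the space `Nn''` as a submodule, of dimension `oK` -/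
theorem exists_Nn (v'' : Lau n.D₀) (hv'' : v'' ∈ Vs (Lau n.F₀) (n.E.Ψ s.g)) (h0 : v'' ≠ 0) :
    ∃ M : Submodule (Lau n.F₀) (Lau n.D₀),
      (∀ x, x ∈ M ↔ InN (Lau n.F₀) (n.E.Ψ s.g) v'' x) ∧ finrank (Lau n.F₀) M = s.oK := by
  refine ⟨(Wsp (Vs (Lau n.F₀) (n.E.Ψ s.g)) v'').comap (LinearMap.mulLeft (Lau n.F₀) v''), ?_, ?_⟩
  · intro x
    rw [inN_iff (n.E.Ψ s.g) v'' hv'' h0 x]
    rfl
  · have hinj : Function.Injective (LinearMap.mulLeft (Lau n.F₀) v'') := by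
      intro a b hab
      exact mul_left_cancel₀ h0 hab
    have hbij : Function.Bijective (LinearMap.mulLeft (Lau n.F₀) v'') :=
      ⟨hinj, LinearMap.injective_iff_surjective.1 hinj⟩
    have h1 : finrank (Lau n.F₀) (Wsp (Vs (Lau n.F₀) (n.E.Ψ s.g)) v'') = s.oK := by
      rw [finrank_Wsp (n.E.Ψ s.g) v'' hv'' h0]
      exact n.hoK
    rw [← h1]
    have h2 : ((Wsp (Vs (Lau n.F₀) (n.E.Ψ s.g)) v'').comap
        (LinearMap.mulLeft (Lau n.F₀) v'')).map (LinearMap.mulLeft (Lau n.F₀) v'') =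
        Wsp (Vs (Lau n.F₀) (n.E.Ψ s.g)) v'' :=
      Submodule.map_comap_eq_of_surjective hbij.2 _
    conv_rhs => rw [← h2]
    exact LinearEquiv.finrank_eq (Submodule.equivMapOfInjective _ hinj _)

end NDat
end Crest.Agent.R180
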