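import Mathlib
import Crest.Agent.R180.ND1

/-!
# Piece ND5: the space `M = {(ξ,h) : lin (Ψ g) ξ = [h, Θ]}` and its reduction

`κ = (ι × β) ⊕ Unit`; the pair `(ξ, h)` is encoded as the vector with entries `algebraMap (ξ p)` and `h`.
Let `M̄ = {(δ, h̄) : δ ∈ F₀^{ι×β}, h̄ ∈ D₀ commutes with θ, linE g (dirE δ) - [h̄, X] ∈ [D₀, θ]}`.
* `red M ⊂ M̄`: for integral `(ξ,h) ∈ M`: order `0`: `0 = [h̄, θ]`; order `1` (`lin_lead`, `n.lt`): `linE g δ = [h̄, X] + [h₁, θ]`.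
* `dim M ≥ (|ι||β| - dV'') + dim Cent(Θ)` (`nd5_ge`, rank-nullity, `S1a` for the state `s' = s.next E`, which is `Cmin`).
* `dim M̄ ≤ (|ι||β| - dim pr_A(V ⊗ E₀)) + dim Cent(A)` (`nd5_le`).
  `pr_A (V ⊗ E₀)` has dimension `r nK - oK = dV''` (`nda3b`, `finrank_Wsp`, `n.hdV`), and
  `dim Cent(Θ) = dim Cent(A)` (`double_centralizer`).
So `dim M̄ ≤ dim M = dim red M` and `red M = M̄`.
-/

set_option autoImplicit false
set_option linter.unusedSectionVars false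

namespace Crest.Agent.R180
open Module

section gen
variable {K A κ : Type} [Field K] [CharZero K] [Ring A] [IsDomain A] [Algebra K A]
  [FiniteDimensional K A] [Fintype κ]

/-- encoding of pairs, linear version -/
noncomputable def nd5E (K A κ : Type) [Field K] [Ring A] [Algebra K A] :
    ((κ → K) × A) →ₗ[K] (κ ⊕ Unit → A) where
  toFun z := Sum.elim (fun p => algebraMap K A (z.1 p)) (fun _ => z.2)
  map_add' z w := by
    funext j; rcases j with p | p <;> simp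
  map_smul' a z := by
    funext j; rcases j with p | p <;> simp [Algebra.smul_def]

theorem nd5E_inj : Function.Injective (nd5E K A κ) := by
  intro z w h
  refine Prod.ext ?_ ?_
  · funext p
    have h1 := congrFun h (Sum.inl p)
    exact (algebraMap K A).injective h1
  · exact congrFun h (Sum.inr ())

/-- `h ↦ [h, Θ]` -/
noncomputable def nd5ad (K : Type) {A : Type} [Field K] [Ring A] [Algebra K A] (Θ : A) :
    A →ₗ[K] A := LinearMap.mulRight K Θ - LinearMap.mulLeft K Θ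

theorem nd5ad_apply (Θ h : A) : nd5ad K Θ h = h * Θ - Θ * h := rfl

theorem nd5_ge (T : (κ → K) →ₗ[K] A) (Θ : A) (V : Submodule K A)
    (hV : ∀ c, ∃ v ∈ V, ∃ k, T c = v + (k * Θ - Θ * k)) :
    Fintype.card κ + finrank K (LinearMap.ker (nd5ad K Θ)) ≤
      finrank K (LinearMap.ker (T ∘ₗ LinearMap.fst K (κ → K) A -
        nd5ad K Θ ∘ₗ LinearMap.snd K (κ → K) A)) + finrank K V := by
  set Φ := T ∘ₗ LinearMap.fst K (κ → K) A - nd5ad K Θ ∘ₗ LinearMap.snd K (κ → K) A with hΦ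
  have h1 := LinearMap.finrank_range_add_finrank_ker Φ
  rw [Module.finrank_prod, Module.finrank_fintype_fun_eq_card] at h1
  have h2 := LinearMap.finrank_range_add_finrank_ker (nd5ad K Θ)
  have h3 : LinearMap.range Φ ≤ V ⊔ LinearMap.range (nd5ad K Θ) := by
    rintro _ ⟨z, rfl⟩
    obtain ⟨v, hv, k, hk⟩ := hV z.1
    have : Φ z = v + nd5ad K Θ (k - z.2) := by
      rw [hΦ, LinearMap.sub_apply, LinearMap.comp_apply, LinearMap.comp_apply,
        LinearMap.fst_apply, LinearMap.snd_apply, hk, nd5ad_apply, nd5ad_apply]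
      noncomm_ring
    rw [this]
    exact Submodule.add_mem_sup hv ⟨_, rfl⟩
  have h4 := Submodule.finrank_mono h3
  have h5 := Submodule.finrank_add_le_finrank_add_finrank V (LinearMap.range (nd5ad K Θ))
  omega

/-- the projection to the centralizer of `θ` vanishes exactly on `[A, θ]` -/
theorem nd5_pr_iff (θ x : A) : pr K (Subalgebra.centralizer K ({θ} : Set A)) x = 0 ↔
    ∃ k, x = k * θ - θ * k := by
  constructor
  · intro h
    refine mem_comm_of_orth (F := K) θ x fun c hc => ?_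
    rw [← pr_spec (F := K) (Subalgebra.centralizer K ({θ} : Set A)) x c ((mem_cent θ c).2 hc), h,
      mul_zero, map_zero]
  · rintro ⟨k, rfl⟩
    refine pr_unique _ _ _ (Subalgebra.zero_mem _) fun a ha => ?_
    rw [mul_zero, map_zero]
    exact ntr_mul_comm_zero θ a k ((mem_cent θ a).1 ha)

/-- the reduced map `(δ,h) ↦ π (T δ) - [h,X]` on `K^κ × Cent(θ)` -/
noncomputable def nd5Φ (T : (κ → K) →ₗ[K] A) (θ X : A) :
    ((κ → K) × Subalgebra.toSubmodule (Subalgebra.centralizer K ({θ} : Set A))) →ₗ[K] A :=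
  (pr K (Subalgebra.centralizer K ({θ} : Set A)) ∘ₗ T) ∘ₗ LinearMap.fst K _ _ -
    (nd5ad K X ∘ₗ (Subalgebra.toSubmodule (Subalgebra.centralizer K ({θ} : Set A))).subtype) ∘ₗ
      LinearMap.snd K _ _

theorem nd5Φ_apply (T : (κ → K) →ₗ[K] A) (θ X : A)
    (z : (κ → K) × Subalgebra.toSubmodule (Subalgebra.centralizer K ({θ} : Set A))) :
    nd5Φ T θ X z = pr K (Subalgebra.centralizer K ({θ} : Set A)) (T z.1) -
      (z.2.1 * X - X * z.2.1) := rfl

theorem nd5_mem_ker (T : (κ → K) →ₗ[K] A) (θ X : A) (hX : Commute X θ)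
    (z : (κ → K) × Subalgebra.toSubmodule (Subalgebra.centralizer K ({θ} : Set A))) :
    z ∈ LinearMap.ker (nd5Φ T θ X) ↔
      ∃ k, T z.1 = (z.2.1 * X - X * z.2.1) + (k * θ - θ * k) := by
  have hXc : X ∈ Subalgebra.centralizer K ({θ} : Set A) := (mem_cent θ X).2 hX
  have hbr : z.2.1 * X - X * z.2.1 ∈ Subalgebra.centralizer K ({θ} : Set A) :=
    Subalgebra.sub_mem _ (Subalgebra.mul_mem _ z.2.2 hXc) (Subalgebra.mul_mem _ hXc z.2.2)
  rw [LinearMap.mem_ker, nd5Φ_apply]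
  nth_rewrite 1 [← pr_of_mem (F := K) _ _ hbr]
  rw [← map_sub, nd5_pr_iff]
  refine exists_congr fun k => ?_
  rw [sub_eq_iff_eq_add, add_comm]

theorem nd5_le (T : (κ → K) →ₗ[K] A) (θ X : A) (hX : Commute X θ) (W : Submodule K A)
    (hWθ : ∀ w ∈ W, Commute w θ)
    (hWT : ∀ w ∈ W, ∃ c k, w = T c + (k * θ - θ * k))
    (B : Subalgebra K A) (hB : ∀ x ∈ B, Commute x X) :
    finrank K (LinearMap.ker (nd5Φ T θ X)) + finrank K (W.map (pr K B)) ≤
      Fintype.card κ + finrank K ((LinearMap.ker (nd5ad K θ) ⊓ LinearMap.ker (nd5ad K X) :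
        Submodule K A)) := by
  set C := Subalgebra.centralizer K ({θ} : Set A) with hC
  have hXc : X ∈ C := (mem_cent θ X).2 hX
  -- rank-nullity for `nd5Φ`
  have h1 := LinearMap.finrank_range_add_finrank_ker (nd5Φ T θ X)
  rw [Module.finrank_prod, Module.finrank_fintype_fun_eq_card] at h1
  have hC' : finrank K (Subalgebra.toSubmodule C) =
    finrank K (Subalgebra.toSubmodule (Subalgebra.centralizer K ({θ} : Set A))) := rfl
  -- rank-nullity for `[·,X]` on `C`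
  set a := (nd5ad K X) ∘ₗ (Subalgebra.toSubmodule C).subtype with ha
  have h2 := LinearMap.finrank_range_add_finrank_ker a
  have hker : finrank K (LinearMap.ker a) =
      finrank K ((LinearMap.ker (nd5ad K θ) ⊓ LinearMap.ker (nd5ad K X) : Submodule K A)) := by
    have hinj : Function.Injective (Subalgebra.toSubmodule C).subtype :=
      Submodule.injective_subtype _
    rw [(Submodule.equivMapOfInjective _ hinj (LinearMap.ker a)).finrank_eq]
    have hmap : (LinearMap.ker a).map (Subalgebra.toSubmodule C).subtype =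
        (LinearMap.ker (nd5ad K θ) ⊓ LinearMap.ker (nd5ad K X) : Submodule K A) := by
      ext x
      simp only [Submodule.mem_map, LinearMap.mem_ker, Submodule.mem_inf]
      constructor
      · rintro ⟨y, hy, rfl⟩
        refine ⟨?_, hy⟩
        have := (mem_cent (F := K) θ y.1).1 y.2
        rw [nd5ad_apply, sub_eq_zero]
        exact this.eq
      · rintro ⟨hx1, hx2⟩
        have : x ∈ C := (mem_cent (F := K) θ x).2 (by
          rw [nd5ad_apply, sub_eq_zero] at hx1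
          exact hx1)
        exact ⟨⟨x, this⟩, hx2, rfl⟩
    rw [hmap]
  -- the range contains `W ⊔ [C,X]`
  have h3 : W ⊔ LinearMap.range a ≤ LinearMap.range (nd5Φ T θ X) := by
    refine sup_le ?_ ?_
    · intro w hw
      obtain ⟨c, k, hk⟩ := hWT w hw
      refine ⟨(c, 0), ?_⟩
      rw [nd5Φ_apply]
      have h5 : T c = w + ((-k) * θ - θ * (-k)) := by rw [hk]; noncomm_ring
      have h6 : pr K C ((-k) * θ - θ * (-k)) = 0 := (nd5_pr_iff θ _).2 ⟨-k, rfl⟩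
      show pr K C (T c) - ((0 : A) * X - X * (0 : A)) = w
      rw [h5, map_add, h6, pr_of_mem _ _ ((mem_cent θ w).2 (hWθ w hw))]
      simp
    · rintro _ ⟨y, rfl⟩
      refine ⟨(0, -y), ?_⟩
      rw [nd5Φ_apply]
      show pr K C (T 0) - (((-y : Subalgebra.toSubmodule C) : A) * X -
        X * ((-y : Subalgebra.toSubmodule C) : A)) = (y : A) * X - X * (y : A)
      rw [map_zero, map_zero, Submodule.coe_neg]
      noncomm_ring
  have h4 := Submodule.finrank_mono h3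
  -- dimension of `W ⊔ [C,X]`
  set U := W ⊔ LinearMap.range a with hU
  have h5 := LinearMap.finrank_range_add_finrank_ker ((pr K B).domRestrict U)
  have h6 : finrank K (W.map (pr K B)) ≤ finrank K (LinearMap.range ((pr K B).domRestrict U)) := by
    apply Submodule.finrank_mono
    rintro _ ⟨w, hw, rfl⟩
    exact ⟨⟨w, Submodule.mem_sup_left hw⟩, rfl⟩
  have h7 : finrank K (LinearMap.range a) ≤ finrank K (LinearMap.ker ((pr K B).domRestrict U)) := by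
    rw [(Submodule.equivMapOfInjective _ (Submodule.injective_subtype U)
      (LinearMap.ker ((pr K B).domRestrict U))).finrank_eq]
    apply Submodule.finrank_mono
    rintro _ ⟨y, rfl⟩
    refine ⟨⟨a y, Submodule.mem_sup_right ⟨y, rfl⟩⟩, ?_, rfl⟩
    show (pr K B) (a y) = 0
    refine pr_unique _ _ _ (Subalgebra.zero_mem _) fun b hb => ?_
    rw [mul_zero, map_zero]
    exact ntr_mul_comm_zero X b y.1 (hB b hb)
  omega

end gen

namespace NDat
variable {s₀ s : St} {B : ℕ} (n : NDat s₀ s B)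

/-- index type for pairs `(ξ, h)` -/
abbrev Idx : Type := (s.ι × (Fin n.r × Fin n.r)) ⊕ Unit

/-- encoding of a pair -/
noncomputable def enc (ξ : s.ι × (Fin n.r × Fin n.r) → Lau n.F₀) (h : Lau n.D₀) :
    n.Idx → Lau n.D₀ :=
  Sum.elim (fun p => algebraMap (Lau n.F₀) (Lau n.D₀) (ξ p)) (fun _ => h)

/-- encoding of a reduced pair -/
noncomputable def encb (δ : s.ι × (Fin n.r × Fin n.r) → n.F₀) (h : n.D₀) : n.Idx → n.D₀ :=
  Sum.elim (fun p => algebraMap n.F₀ n.D₀ (δ p)) (fun _ => h)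

theorem enc_eq (ξ : s.ι × (Fin n.r × Fin n.r) → Lau n.F₀) (h : Lau n.D₀) :
    n.enc ξ h = nd5E (Lau n.F₀) (Lau n.D₀) _ (ξ, h) := rfl

theorem encb_eq (δ : s.ι × (Fin n.r × Fin n.r) → n.F₀) (h : n.D₀) :
    n.encb δ h = nd5E n.F₀ n.D₀ _ (δ, h) := rfl

/-- `M = {(ξ,h) : lin (Ψ g) ξ = [h,Θ]}` -/
noncomputable def Msp : Submodule (Lau n.F₀) (n.Idx → Lau n.D₀) where
  carrier := {z | ∃ (ξ : s.ι × (Fin n.r × Fin n.r) → Lau n.F₀) (h : Lau n.D₀), z = n.enc ξ h ∧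
    lin (Lau n.F₀) (n.E.Ψ s.g) ξ = h * n.E.Ψ s.g [] - n.E.Ψ s.g [] * h}
  zero_mem' := by
    refine ⟨0, 0, ?_, by simp⟩
    rw [enc_eq]
    exact (map_zero (nd5E (Lau n.F₀) (Lau n.D₀) (s.ι × (Fin n.r × Fin n.r)))).symm
  add_mem' := by
    rintro _ _ ⟨ξ, h, rfl, h1⟩ ⟨ξ', h', rfl, h1'⟩
    refine ⟨ξ + ξ', h + h', ?_, ?_⟩
    · rw [enc_eq, enc_eq, enc_eq, ← map_add]; rfl
    · rw [map_add, h1, h1']; noncomm_ring
  smul_mem' := by
    rintro a _ ⟨ξ, h, rfl, h1⟩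
    refine ⟨a • ξ, a • h, ?_, ?_⟩
    · rw [enc_eq, enc_eq, ← map_smul]; rfl
    · rw [map_smul, h1, smul_sub, smul_mul_assoc, mul_smul_comm]

theorem mem_Msp (ξ : s.ι × (Fin n.r × Fin n.r) → Lau n.F₀) (h : Lau n.D₀) :
    n.enc ξ h ∈ n.Msp ↔
      lin (Lau n.F₀) (n.E.Ψ s.g) ξ = h * n.E.Ψ s.g [] - n.E.Ψ s.g [] * h := by
  constructor
  · rintro ⟨ξ', h', h1, h2⟩
    rw [enc_eq, enc_eq] at h1
    have h3 := nd5E_inj h1
    rw [Prod.mk.injEq] at h3
    rw [h3.1, h3.2, h2]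
  · intro h1
    exact ⟨ξ, h, rfl, h1⟩

theorem nd5_lead (ξ : s.ι × (Fin n.r × Fin n.r) → Lau n.F₀) (h : Lau n.D₀)
    (hξ : ∀ p, IsInt (ξ p)) (hh : IsInt h)
    (hM : lin (Lau n.F₀) (n.E.Ψ s.g) ξ = h * n.E.Ψ s.g [] - n.E.Ψ s.g [] * h) :
    Commute (h.coeff 0) (n.S.e.i (s.g [])) ∧
    (∀ j < 1, (lin (Lau n.F₀) (n.E.Ψ s.g) ξ).coeff j = 0) ∧
    (lin (Lau n.F₀) (n.E.Ψ s.g) ξ).coeff 1 =
      (h.coeff 0 * n.Xe - n.Xe * h.coeff 0) +
        (h.coeff 1 * n.S.e.i (s.g []) - n.S.e.i (s.g []) * h.coeff 1) := by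
  have h1 := lin_lead n.E s.g ξ hξ
  have h2 := comm_lead h (n.E.Ψ s.g []) 0 hh n.lt.int
  rw [← hM, n.lt.zero, h1.1 0 (by norm_num), zero_add] at h2
  have h3 : (n.E.Ψ s.g []).coeff 1 = n.Xe := n.lt.top
  rw [h3] at h2
  refine ⟨?_, h1.1, h2.2⟩
  have := h2.1
  exact (sub_eq_zero.1 this.symm)

/-- the linear map `δ ↦ linE g (dirE δ)` -/
noncomputable def nd5T : (s.ι × (Fin n.r × Fin n.r) → n.F₀) →ₗ[n.F₀] n.D₀ where
  toFun δ := n.S.e.linE s.g (dirE n.S.e δ)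
  map_add' δ δ' := by
    simp only [CExt.linE, dirE, Pi.add_apply, add_smul, Finset.sum_add_distrib, mul_add]
  map_smul' a δ := by
    simp only [CExt.linE, dirE, Pi.smul_apply, smul_eq_mul, mul_smul, Finset.smul_sum,
      RingHom.id_apply, mul_smul_comm, Finset.mul_sum]

theorem nd5T_apply (δ : s.ι × (Fin n.r × Fin n.r) → n.F₀) :
    n.nd5T δ = n.S.e.linE s.g (dirE n.S.e δ) := rfl

/-- the reduced space `M̄` -/
noncomputable def Mbar : Submodule n.F₀ (n.Idx → n.D₀) :=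
  (LinearMap.ker (nd5Φ n.nd5T (n.S.e.i (s.g [])) n.Xe)).map
    ((nd5E n.F₀ n.D₀ (s.ι × (Fin n.r × Fin n.r))) ∘ₗ
      LinearMap.prodMap LinearMap.id (Subalgebra.toSubmodule
        (Subalgebra.centralizer n.F₀ ({n.S.e.i (s.g [])} : Set n.D₀))).subtype)

theorem Xe_comm : Commute n.Xe (n.S.e.i (s.g [])) := n.lt.comm

theorem mem_Mbar (δ : s.ι × (Fin n.r × Fin n.r) → n.F₀) (h : n.D₀) :
    n.encb δ h ∈ n.Mbar ↔ Commute h (n.S.e.i (s.g [])) ∧
      ∃ k : n.D₀, n.S.e.linE s.g (dirE n.S.e δ) =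
        (h * n.Xe - n.Xe * h) + (k * n.S.e.i (s.g []) - n.S.e.i (s.g []) * k) := by
  constructor
  · rintro ⟨⟨δ', h'⟩, h1, h2⟩
    have h3 := nd5E_inj (h2.trans (n.encb_eq δ h))
    have h4 : δ' = δ := congrArg Prod.fst h3
    have h5 : (h' : n.D₀) = h := congrArg Prod.snd h3
    have h6 := (nd5_mem_ker n.nd5T _ n.Xe n.Xe_comm _).1 h1
    subst h4
    refine ⟨?_, ?_⟩
    · rw [← h5]; exact (mem_cent (F := n.F₀) _ _).1 h'.2
    · rw [← h5]; exact h6
  · rintro ⟨h1, h2⟩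
    refine ⟨(δ, ⟨h, (mem_cent (F := n.F₀) _ _).2 h1⟩), ?_, rfl⟩
    exact (nd5_mem_ker n.nd5T _ n.Xe n.Xe_comm _).2 h2

theorem red_sub (y : n.Idx → n.D₀) (hy : y ∈ red n.Msp) :
    ∃ δ h, y = n.encb δ h ∧ n.encb δ h ∈ n.Mbar := by
  obtain ⟨x, ⟨ξ, h, rfl, hM⟩, hi, h0⟩ := hy
  have hξ : ∀ p, IsInt (ξ p) := by
    intro p j hj
    have h1 := hi (Sum.inl p) j hj
    have h2 : algebraMap n.F₀ n.D₀ ((ξ p).coeff j) = 0 := h1
    exact (algebraMap n.F₀ n.D₀).injective (by rw [h2, map_zero])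
  have hh : IsInt h := hi (Sum.inr ())
  refine ⟨fun p => (ξ p).coeff 0, h.coeff 0, ?_, ?_⟩
  · funext j
    rcases j with p | p
    · exact (h0 (Sum.inl p)).symm
    · exact (h0 (Sum.inr p)).symm
  · rw [mem_Mbar]
    obtain ⟨h1, -, h3⟩ := n.nd5_lead ξ h hξ hh hM
    exact ⟨h1, h.coeff 1, by rw [← h3, (lin_lead n.E s.g ξ hξ).2]⟩

theorem A_comm : ∀ x ∈ n.A, ∀ y ∈ n.A, x * y = y * x := by
  intro x hx y hy
  have := (Algebra.isMulCommutative_adjoin n.F₀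
    (s := ({n.S.e.i (s.g []), n.Xe} : Set n.D₀)) (by
    rintro a ha b hb
    simp only [Set.mem_insert_iff, Set.mem_singleton_iff] at ha hb
    rcases ha with rfl | rfl <;> rcases hb with rfl | rfl
    · rfl
    · exact n.Xe_comm.eq.symm
    · exact n.Xe_comm.eq
    · rfl)).is_comm.comm ⟨x, hx⟩ ⟨y, hy⟩
  exact congrArg Subtype.val this

theorem centralizer_A (x : n.D₀) :
    x ∈ Subalgebra.centralizer n.F₀ (n.A : Set n.D₀) ↔
      x ∈ (LinearMap.ker (nd5ad n.F₀ (n.S.e.i (s.g []))) ⊓ LinearMap.ker (nd5ad n.F₀ n.Xe) :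
        Submodule n.F₀ n.D₀) := by
  rw [Submodule.mem_inf, LinearMap.mem_ker, LinearMap.mem_ker, nd5ad_apply, nd5ad_apply,
    sub_eq_zero, sub_eq_zero, Subalgebra.mem_centralizer_iff]
  constructor
  · intro h
    exact ⟨(h _ (Algebra.subset_adjoin (by simp))).symm,
      (h _ (Algebra.subset_adjoin (by simp))).symm⟩
  · rintro ⟨h1, h2⟩ y hy
    have : n.A ≤ Subalgebra.centralizer n.F₀ ({x} : Set n.D₀) := by
      refine Algebra.adjoin_le ?_
      rintro z hz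
      simp only [Set.mem_insert_iff, Set.mem_singleton_iff] at hz
      rcases hz with rfl | rfl
      · exact (mem_cent x _).2 h1.symm
      · exact (mem_cent x _).2 h2.symm
    exact ((mem_cent x y).1 (this hy)).eq

theorem finrank_cent_A : finrank n.F₀ ((LinearMap.ker (nd5ad n.F₀ (n.S.e.i (s.g []))) ⊓
      LinearMap.ker (nd5ad n.F₀ n.Xe) : Submodule n.F₀ n.D₀)) * finrank n.F₀ n.A =
      finrank n.F₀ n.D₀ := by
  have h1 := double_centralizer (F := n.F₀) n.A n.A_comm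
  have h2 : Subalgebra.toSubmodule (Subalgebra.centralizer n.F₀ (n.A : Set n.D₀)) =
      (LinearMap.ker (nd5ad n.F₀ (n.S.e.i (s.g []))) ⊓ LinearMap.ker (nd5ad n.F₀ n.Xe) :
        Submodule n.F₀ n.D₀) := by
    ext x
    exact n.centralizer_A x
  rw [← h2]
  exact h1

theorem finrank_cent_Θ : finrank (Lau n.F₀) (LinearMap.ker (nd5ad (Lau n.F₀) (n.E.Ψ s.g []))) *
      finrank n.F₀ n.A = finrank n.F₀ n.D₀ := by
  have h1 := double_centralizer (F := Lau n.F₀)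
    (Algebra.adjoin (Lau n.F₀) ({n.E.Ψ s.g []} : Set (Lau n.D₀))) (adjoin_comm _)
  have h2 : Subalgebra.toSubmodule (Subalgebra.centralizer (Lau n.F₀)
      ((Algebra.adjoin (Lau n.F₀) ({n.E.Ψ s.g []} : Set (Lau n.D₀)) : Subalgebra _ _) :
        Set (Lau n.D₀))) = LinearMap.ker (nd5ad (Lau n.F₀) (n.E.Ψ s.g [])) := by
    ext x
    rw [Subalgebra.mem_toSubmodule, centralizer_adjoin, LinearMap.mem_ker, nd5ad_apply,
      sub_eq_zero]
    rfl
  have h3 := n.hmA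
  rw [mdeg] at h3
  rw [← h2, ← lau_finrank (F := n.F₀) (D := n.D₀), ← h1]
  congr 1
  exact h3.symm

theorem finrank_Msp : Fintype.card (s.ι × (Fin n.r × Fin n.r)) +
    finrank (Lau n.F₀) (LinearMap.ker (nd5ad (Lau n.F₀) (n.E.Ψ s.g []))) ≤
    finrank (Lau n.F₀) n.Msp + (s.next n.E).dV := by
  have h1 := nd5_ge (lin (Lau n.F₀) (n.E.Ψ s.g)) (n.E.Ψ s.g []) (Vs (Lau n.F₀) (n.E.Ψ s.g))
    (fun c => S1a (s := s.next n.E) n.hO'.1.1.1 c)
  have h2 : n.Msp = (LinearMap.ker (lin (Lau n.F₀) (n.E.Ψ s.g) ∘ₗ LinearMap.fst (Lau n.F₀) _ _ -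
      nd5ad (Lau n.F₀) (n.E.Ψ s.g []) ∘ₗ LinearMap.snd (Lau n.F₀) _ _)).map
      (nd5E (Lau n.F₀) (Lau n.D₀) (s.ι × (Fin n.r × Fin n.r))) := by
    ext z
    constructor
    · rintro ⟨ξ, h, rfl, hM⟩
      refine ⟨(ξ, h), ?_, rfl⟩
      show lin (Lau n.F₀) (n.E.Ψ s.g) ξ - (h * n.E.Ψ s.g [] - n.E.Ψ s.g [] * h) = 0
      rw [hM, sub_self]
    · rintro ⟨⟨ξ, h⟩, hM, rfl⟩
      exact ⟨ξ, h, rfl, sub_eq_zero.1 hM⟩
  rw [h2, ← (Submodule.equivMapOfInjective _ nd5E_inj _).finrank_eq]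
  exact h1

theorem finrank_Mbar : finrank n.F₀ n.Mbar + (s.next n.E).dV ≤
    Fintype.card (s.ι × (Fin n.r × Fin n.r)) +
    finrank n.F₀ ((LinearMap.ker (nd5ad n.F₀ (n.S.e.i (s.g []))) ⊓
      LinearMap.ker (nd5ad n.F₀ n.Xe) : Submodule n.F₀ n.D₀)) := by
  have hVL : ∀ v ∈ s.V, v ∈ Algebra.adjoin s.F ({s.g []} : Set s.D) := fun v hv => Vs_le s.g hv
  have hCmin : St.Cmin s₀ s := n.hO.1.1.1
  -- the dimension of `pr_A (V ⊗ E₀)`
  have hKL : s.K ≤ Algebra.adjoin s.F ({s.g []} : Set s.D) := Kalg_le s.g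
  have htV1 : n.t ∈ V1 (Vs s.F s.g) n.v := n.ht
  have htK : n.t ∈ s.K := V1_le_K s.g n.v n.hv n.hv0 htV1
  have hr1 : 1 < n.r := by have := n.h5; omega
  have hA : finrank n.F₀ ((n.S.e.bcE s.V).map (pr n.F₀ n.A)) + s.oK = n.r * s.nK := by
    have h1 := nda3b n.S hr1 n.hζ (s.g []) s.K hKL n.v n.t (hVL _ n.hv) n.hv0 htK
      (V1 (Vs s.F s.g) n.v) (Wsp (Vs s.F s.g) n.v) (V1_le_K s.g n.v n.hv n.hv0)
      (fun x => Iff.rfl) n.hW s.V (by
        intro x
        constructor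
        · intro hx
          obtain ⟨κ, -, hκ⟩ := Vs_sub s.g n.v x n.hv n.hv0 hx
          exact ⟨κ, by show n.v * κ ∈ Vs s.F s.g; rw [← hκ]; exact hx, hκ⟩
        · rintro ⟨y, hy, rfl⟩
          exact hy)
    have h2 := finrank_Wsp s.g n.v n.hv n.hv0
    rw [h2] at h1
    exact h1
  have hdV := n.hdV
  have h1 := nd5_le n.nd5T (n.S.e.i (s.g [])) n.Xe n.Xe_comm (n.S.e.bcE s.V) (by
      intro w hw
      rw [← n.S.e.mem_bcE_centralizer]
      refine n.S.e.bcE_mono ?_ hw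
      intro v hv
      rw [Subalgebra.mem_toSubmodule, mem_cent]
      exact V_comm v hv) (by
      intro w hw
      unfold CExt.bcE at hw
      induction hw using Submodule.span_induction with
      | mem w hw =>
        obtain ⟨v, hv, y, hy, rfl⟩ := hw
        obtain ⟨c, k, hk⟩ := S1a' hCmin v hv
        obtain ⟨δ', hδ'⟩ := exists_dirE n.S.e
          (fun j => algebraMap n.F₀ n.D₀ (n.S.e.φ (c j)) * y)
          (fun j => Subalgebra.mul_mem _ (n.S.e.alg_mem_E _) hy)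
        refine ⟨δ', -(n.S.e.i k * y), ?_⟩
        rw [nd5T_apply, ← hδ', n.S.e.linE_const s.g c y hy, hk]
        have hcy := (n.S.e.mem_E_iff y).1 hy (s.g [])
        have h1 : n.S.e.i k * y * n.S.e.i (s.g []) = n.S.e.i k * n.S.e.i (s.g []) * y := by
          rw [mul_assoc, ← hcy.eq, mul_assoc]
        have h2 : n.S.e.i (s.g []) * (n.S.e.i k * y) = n.S.e.i (s.g []) * n.S.e.i k * y := by
          rw [mul_assoc]
        rw [map_add, map_sub, map_mul, map_mul, neg_mul, mul_neg, h1, h2]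
        noncomm_ring
      | zero => exact ⟨0, 0, by simp⟩
      | add a b _ _ ha hb =>
        obtain ⟨c, k, hk⟩ := ha
        obtain ⟨c', k', hk'⟩ := hb
        refine ⟨c + c', k + k', ?_⟩
        rw [map_add, hk, hk']
        noncomm_ring
      | smul c a _ ha =>
        obtain ⟨c', k, hk⟩ := ha
        refine ⟨c • c', c • k, ?_⟩
        rw [map_smul, hk, smul_mul_assoc, mul_smul_comm, smul_add, smul_sub]) n.A
      (fun x hx => n.A_comm x hx n.Xe (Algebra.subset_adjoin (by simp)))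
  have h2 : finrank n.F₀ n.Mbar = finrank n.F₀
      (LinearMap.ker (nd5Φ n.nd5T (n.S.e.i (s.g [])) n.Xe)) := by
    unfold Mbar
    refine (Submodule.equivMapOfInjective _ ?_ _).finrank_eq.symm
    rw [LinearMap.coe_comp]
    refine nd5E_inj.comp ?_
    rw [LinearMap.coe_prodMap]
    exact Function.Injective.prodMap Function.injective_id (Submodule.injective_subtype _)
  rw [h2]
  have h3 : (s.next n.E).dV = finrank n.F₀ ((n.S.e.bcE s.V).map (pr n.F₀ n.A)) := by omega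
  rw [h3]
  exact h1

theorem red_Msp_eq : red n.Msp = n.Mbar := by
  refine Submodule.eq_of_le_of_finrank_le ?_ ?_
  · intro y hy
    obtain ⟨δ, h, rfl, h1⟩ := n.red_sub y hy
    exact h1
  · rw [finrank_red]
    have h1 := n.finrank_Msp
    have h2 := n.finrank_Mbar
    have h3 := n.finrank_cent_A
    have h4 := n.finrank_cent_Θ
    have h5 : 0 < finrank n.F₀ n.A := finrank_pos
    have h6 := Nat.eq_of_mul_eq_mul_right h5 (h3.trans h4.symm)
    omega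

/-- **ND5** -/
theorem mem_red_Msp (δ : s.ι × (Fin n.r × Fin n.r) → n.F₀) (h : n.D₀) :
    n.encb δ h ∈ red n.Msp ↔ Commute h (n.S.e.i (s.g [])) ∧
      ∃ k : n.D₀, n.S.e.linE s.g (dirE n.S.e δ) =
        (h * n.Xe - n.Xe * h) + (k * n.S.e.i (s.g []) - n.S.e.i (s.g []) * k) := by
  rw [red_Msp_eq, mem_Mbar]

/-- every element of `red M` is an encoded pair -/
theorem red_Msp_enc (y : n.Idx → n.D₀) (hy : y ∈ red n.Msp) : ∃ δ h, y = n.encb δ h := by
  obtain ⟨δ, h, h1, -⟩ := n.red_sub y hy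
  exact ⟨δ, h, h1⟩

/-- leading term of the second order form: for integral `(ξ_a,h_a), (ξ,h) ∈ M`, integral `x` commuting with `Θ`, `x̄ ∈ A`:
`ntr (x * (quad ξ_a ξ + lin ξ_a * h)) = ε ntr (x̄ [h̄_a, X] h̄) + O(ε²)`  (`quad_lead`, `lin_lead`, `ntr_lau`; the `[k,θ]` part of
`linE g δ_a` does not contribute since `h̄ x̄` commutes with `θ`). -/
theorem q_lead (ξa ξ : s.ι × (Fin n.r × Fin n.r) → Lau n.F₀) (ha h : Lau n.D₀) (x : Lau n.D₀)
    (h1 : ∀ p, IsInt (ξa p)) (h2 : IsInt ha) (h3 : ∀ p, IsInt (ξ p)) (h4 : IsInt h)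
    (hx : IsInt x) (hxA : x.coeff 0 ∈ n.A)
    (hMa : lin (Lau n.F₀) (n.E.Ψ s.g) ξa = ha * n.E.Ψ s.g [] - n.E.Ψ s.g [] * ha)
    (hM : lin (Lau n.F₀) (n.E.Ψ s.g) ξ = h * n.E.Ψ s.g [] - n.E.Ψ s.g [] * h) :
    (∀ j : ℤ, j < 1 → (ntr (Lau n.F₀) (Lau n.D₀) (x * (quad (Lau n.F₀) (n.E.Ψ s.g) ξa ξ +
        lin (Lau n.F₀) (n.E.Ψ s.g) ξa * h))).coeff j = 0) ∧
    (ntr (Lau n.F₀) (Lau n.D₀) (x * (quad (Lau n.F₀) (n.E.Ψ s.g) ξa ξ +
        lin (Lau n.F₀) (n.E.Ψ s.g) ξa * h))).coeff 1 =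
      ntr n.F₀ n.D₀ (x.coeff 0 * (ha.coeff 0 * n.Xe - n.Xe * ha.coeff 0) * h.coeff 0) := by
  obtain ⟨-, a1, a2⟩ := n.nd5_lead ξa ha h1 h2 hMa
  obtain ⟨b0, -, -⟩ := n.nd5_lead ξ h h3 h4 hM
  have hq := quad_lead n.E s.g ξa ξ h1 h3
  obtain ⟨c1, c2, -⟩ := coeff_mul_lead _ h 1 0 a1 h4
  rw [add_zero] at c1 c2
  set z := quad (Lau n.F₀) (n.E.Ψ s.g) ξa ξ + lin (Lau n.F₀) (n.E.Ψ s.g) ξa * h with hz
  have z1 : ∀ j < 1, z.coeff j = 0 := by
    intro j hj
    rw [hz, HahnSeries.coeff_add, hq j (by omega), c1 j hj, add_zero]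
  have z2 : z.coeff 1 = (lin (Lau n.F₀) (n.E.Ψ s.g) ξa).coeff 1 * h.coeff 0 := by
    rw [hz, HahnSeries.coeff_add, hq 1 (by norm_num), c2, zero_add]
  obtain ⟨d1, d2, -⟩ := coeff_mul_lead x z 0 1 hx z1
  rw [zero_add] at d1 d2
  refine ⟨fun j hj => by rw [ntr_lau, d1 j hj, map_zero], ?_⟩
  rw [ntr_lau, d2, z2, a2, ← mul_assoc, mul_add, add_mul, map_add]
  have hxθ : Commute (x.coeff 0) (n.S.e.i (s.g [])) :=
    n.A_comm _ hxA _ (Algebra.subset_adjoin (by simp))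
  have key : ntr n.F₀ n.D₀ (x.coeff 0 * (ha.coeff 1 * n.S.e.i (s.g []) -
      n.S.e.i (s.g []) * ha.coeff 1) * h.coeff 0) = 0 := by
    rw [ntr_comm, ← mul_assoc]
    exact ntr_mul_comm_zero _ _ _ (b0.mul_left hxθ)
  rw [key, add_zero]

end NDat
end Crest.Agent.R180
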