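import Mathlib
import Crest.Agent.R180.ND5

/-!
# ND7, auxiliary file 1: algebra in `D₀`
-/

set_option autoImplicit false
set_option linter.unusedSectionVars false

namespace Crest.Agent.R180
open Module

namespace NDat
variable {s₀ s : St} {B : ℕ} (n : NDat s₀ s B)

/-- `h̄_a = t v²`, `h̄_b = t v³` -/
def hA : n.D₀ := n.S.e.i n.t * n.S.v ^ 2
def hB : n.D₀ := n.S.e.i n.t * n.S.v ^ 3

theorem nd7_cmin (n : NDat s₀ s B) : St.Cmin s₀ s := n.hO.1.1.1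

theorem nd7_tV1 : n.t ∈ V1 s.V n.v := n.ht

theorem nd7_one : (1 : s.D) ∈ V1 s.V n.v := by
  show n.v * 1 ∈ s.V
  rw [mul_one]; exact n.hv

theorem nd7_V1K : V1 s.V n.v ≤ Subalgebra.toSubmodule s.K := V1_le_K s.g n.v n.hv n.hv0

theorem nd7_tK : n.t ∈ s.K := n.nd7_V1K n.nd7_tV1

theorem nd7_KL (_n : NDat s₀ s B) : s.K ≤ Algebra.adjoin s.F ({s.g []} : Set s.D) := Kalg_le s.g

theorem nd7_vL : n.v ∈ Algebra.adjoin s.F ({s.g []} : Set s.D) := Vs_le s.g n.hv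

theorem nd7_Kcomm (n : NDat s₀ s B) : ∀ x ∈ s.K, ∀ y ∈ s.K, x * y = y * x := fun x hx y hy =>
  adjoin_comm (s.g []) x (n.nd7_KL hx) y (n.nd7_KL hy)

theorem nd7_WK (n : NDat s₀ s B) : Wsp s.V n.v ≤ Subalgebra.toSubmodule s.K := fun _ hx => hx.1

/-- elements of `𝕂 ⊗ E₀` commute with `L` -/
theorem nd7_comm (k : n.D₀) (hk : k ∈ n.S.e.bcE (Subalgebra.toSubmodule s.K)) (l : s.D)
    (hl : l ∈ Algebra.adjoin s.F ({s.g []} : Set s.D)) : Commute k (n.S.e.i l) := by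
  unfold CExt.bcE at hk
  induction hk using Submodule.span_induction with
  | mem z hz =>
    obtain ⟨w, hw, y, hy, rfl⟩ := hz
    refine Commute.mul_left ?_ ?_
    · show n.S.e.i w * n.S.e.i l = n.S.e.i l * n.S.e.i w
      rw [← map_mul, ← map_mul, adjoin_comm (s.g []) w (n.nd7_KL hw) l hl]
    · exact ((n.S.e.mem_E_iff y).1 hy l).symm
  | zero => exact Commute.zero_left _
  | add a b _ _ ha hb => exact ha.add_left hb
  | smul c a _ ha => exact ha.smul_left c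

theorem nd7_comm_v (k : n.D₀) (hk : k ∈ n.S.e.bcE (Subalgebra.toSubmodule s.K)) :
    k * n.S.e.i n.v = n.S.e.i n.v * k := (n.nd7_comm k hk n.v n.nd7_vL).eq

theorem nd7_comm_θ (k : n.D₀) (hk : k ∈ n.S.e.bcE (Subalgebra.toSubmodule s.K)) :
    Commute k (n.S.e.i (s.g [])) :=
  n.nd7_comm k hk (s.g []) (Algebra.self_mem_adjoin_singleton s.F (s.g []))

theorem nd7_iv_ne : n.S.e.i n.v ≠ 0 := by
  intro h
  have := n.S.e.i_indep (κ := Unit) (fun _ => n.v) (by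
    rw [linearIndependent_unique_iff]; exact n.hv0)
  rw [linearIndependent_unique_iff] at this
  exact this h

theorem nd7_Y_mem : n.S.Y n.t ∈ n.S.e.bcE (Subalgebra.toSubmodule s.K) := by
  unfold SymData.Y
  refine Submodule.add_mem _ ?_ ?_
  · have := n.S.e.mul_mem_bcE (Subalgebra.toSubmodule s.K) 1 (Subalgebra.one_mem _) _ n.S.u_mem_E
    rwa [map_one, one_mul] at this
  · exact n.S.e.mul_mem_bcE _ _ n.nd7_tK _ n.S.v_mem_E

theorem nd7_tv_mem (j : ℕ) :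
    n.S.e.i n.t * n.S.v ^ j ∈ n.S.e.bcE (Subalgebra.toSubmodule s.K) :=
  n.S.e.mul_mem_bcE _ _ n.nd7_tK _ (pow_mem n.S.v_mem_E j)

theorem nd7_hA_mem : n.hA ∈ n.S.e.bcE (Subalgebra.toSubmodule s.K) := n.nd7_tv_mem 2
theorem nd7_hB_mem : n.hB ∈ n.S.e.bcE (Subalgebra.toSubmodule s.K) := n.nd7_tv_mem 3

/-- `[k, X] = v [k, Y]` -/
theorem nd7_brX (k : n.D₀) (hk : k ∈ n.S.e.bcE (Subalgebra.toSubmodule s.K)) :
    k * n.Xe - n.Xe * k = n.S.e.i n.v * (k * n.S.Y n.t - n.S.Y n.t * k) := by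
  unfold Xe
  rw [← mul_assoc, n.nd7_comm_v k hk, mul_sub, mul_assoc, mul_assoc]

/-- `[t v^j, Y] = (ζ^j - 1) t u v^j` -/
theorem nd7_brY (j : ℕ) : (n.S.e.i n.t * n.S.v ^ j) * n.S.Y n.t -
    n.S.Y n.t * (n.S.e.i n.t * n.S.v ^ j) =
      (n.S.z ^ j - 1) • (n.S.e.i n.t * (n.S.u * n.S.v ^ j)) := by
  have h1 : n.S.v ^ j * n.S.u = n.S.z ^ j • (n.S.u * n.S.v ^ j) := by
    have := n.S.v_pow_mul_u_pow j 1
    simpa using this
  have h2 : n.S.v ^ j * n.S.e.i n.t = n.S.e.i n.t * n.S.v ^ j :=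
    ((n.S.comm_v n.t).pow_right j).eq.symm
  have h3 : n.S.u * n.S.e.i n.t = n.S.e.i n.t * n.S.u := (n.S.comm_u n.t).eq.symm
  have h4 : n.S.v * n.S.e.i n.t = n.S.e.i n.t * n.S.v := (n.S.comm_v n.t).eq.symm
  have h5 : n.S.v ^ j * n.S.v = n.S.v * n.S.v ^ j := by rw [← pow_succ, ← pow_succ']
  unfold SymData.Y
  have e1 : n.S.e.i n.t * n.S.v ^ j * (n.S.u + n.S.e.i n.t * n.S.v) =
      n.S.e.i n.t * (n.S.v ^ j * n.S.u) + n.S.e.i n.t * (n.S.v ^ j * n.S.e.i n.t) * n.S.v := by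
    noncomm_ring
  have e2 : (n.S.u + n.S.e.i n.t * n.S.v) * (n.S.e.i n.t * n.S.v ^ j) =
      (n.S.u * n.S.e.i n.t) * n.S.v ^ j + n.S.e.i n.t * (n.S.v * n.S.e.i n.t) * n.S.v ^ j := by
    noncomm_ring
  rw [e1, e2, h1, h2, h3, h4]
  have e3 : n.S.e.i n.t * (n.S.e.i n.t * n.S.v ^ j) * n.S.v =
      n.S.e.i n.t * (n.S.e.i n.t * n.S.v) * n.S.v ^ j := by
    simp only [mul_assoc, h5]
  rw [e3, sub_smul, one_smul, mul_smul_comm]
  simp only [mul_assoc]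
  abel

theorem nd7_brY_mem (j : ℕ) : (n.S.e.i n.t * n.S.v ^ j) * n.S.Y n.t -
    n.S.Y n.t * (n.S.e.i n.t * n.S.v ^ j) ∈ n.S.e.bcE (V1 s.V n.v) := by
  rw [nd7_brY]
  exact Submodule.smul_mem _ _ (n.S.e.mul_mem_bcE _ _ n.nd7_tV1 _
    (mul_mem n.S.u_mem_E (pow_mem n.S.v_mem_E j)))

theorem nd7_linE_add (δ δ' : s.ι → n.D₀) :
    n.S.e.linE s.g (δ + δ') = n.S.e.linE s.g δ + n.S.e.linE s.g δ' := by
  unfold CExt.linE
  rw [← Finset.sum_add_distrib]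
  exact Finset.sum_congr rfl fun j _ => by rw [Pi.add_apply, mul_add]

theorem nd7_linE_smul (c : n.F₀) (δ : s.ι → n.D₀) :
    n.S.e.linE s.g (c • δ) = c • n.S.e.linE s.g δ := by
  unfold CExt.linE
  rw [Finset.smul_sum]
  exact Finset.sum_congr rfl fun j _ => by rw [Pi.smul_apply, mul_smul_comm]

/-- elements of `V ⊗ E₀` occur as linear parts -/
theorem nd7_exists_dir (x : n.D₀) (hx : x ∈ n.S.e.bcE s.V) : ∃ δ : s.ι → n.D₀,
    (∀ j, δ j ∈ n.S.e.E) ∧ ∃ k : n.D₀, n.S.e.linE s.g δ =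
      x + (k * n.S.e.i (s.g []) - n.S.e.i (s.g []) * k) := by
  unfold CExt.bcE at hx
  induction hx using Submodule.span_induction with
  | mem z hz =>
    obtain ⟨w, hw, y, hy, rfl⟩ := hz
    obtain ⟨c, k, hk⟩ := S1a' n.nd7_cmin w hw
    refine ⟨fun j => algebraMap n.F₀ n.D₀ (n.S.e.φ (c j)) * y,
      fun j => mul_mem (n.S.e.alg_mem_E _) hy, n.S.e.i k * y, ?_⟩
    rw [n.S.e.linE_const s.g c y hy, hk]
    have hy' : y * n.S.e.i (s.g []) = n.S.e.i (s.g []) * y :=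
      ((n.S.e.mem_E_iff y).1 hy (s.g [])).eq.symm
    rw [map_add, map_sub, map_mul, map_mul, mul_assoc (n.S.e.i k) y, hy']
    noncomm_ring
  | zero =>
    refine ⟨0, fun j => zero_mem _, 0, ?_⟩
    unfold CExt.linE
    simp
  | add a b _ _ ha hb =>
    obtain ⟨δ, h1, k, h2⟩ := ha
    obtain ⟨δ', h1', k', h2'⟩ := hb
    refine ⟨δ + δ', fun j => add_mem (h1 j) (h1' j), k + k', ?_⟩
    rw [nd7_linE_add, h2, h2']
    noncomm_ring
  | smul c a _ ha =>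
    obtain ⟨δ, h1, k, h2⟩ := ha
    refine ⟨c • δ, fun j => Subalgebra.smul_mem _ (h1 j) c, c • k, ?_⟩
    rw [nd7_linE_smul, h2, smul_add, smul_sub, smul_mul_assoc, mul_smul_comm]

theorem nd7_vV1 (x : n.D₀) (hx : x ∈ n.S.e.bcE (V1 s.V n.v)) :
    n.S.e.i n.v * x ∈ n.S.e.bcE s.V := by
  have := n.S.e.ext_mem_bcE (LinearMap.mulLeft s.F n.v) (V1 s.V n.v) s.V
    (fun w hw => hw) x hx
  rwa [n.S.e.ext_mulL] at this

theorem test_pair (k : n.D₀) (hk : k ∈ n.S.e.bcE (Subalgebra.toSubmodule s.K))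
    (hkY : k * n.S.Y n.t - n.S.Y n.t * k ∈ n.S.e.bcE (V1 s.V n.v)) :
    ∃ δ : s.ι × (Fin n.r × Fin n.r) → n.F₀, n.encb δ k ∈ red n.Msp := by
  obtain ⟨δ, hδ, c, hc⟩ := n.nd7_exists_dir _ (n.nd7_vV1 _ hkY)
  obtain ⟨δ', hδ'⟩ := exists_dirE n.S.e δ hδ
  refine ⟨δ', (n.mem_red_Msp δ' k).2 ⟨n.nd7_comm_θ k hk, c, ?_⟩⟩
  rw [← hδ', hc, n.nd7_brX k hk]

/-- the special directions -/
theorem exists_special : ∃ δa δb : s.ι × (Fin n.r × Fin n.r) → n.F₀,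
    n.encb δa n.hA ∈ red n.Msp ∧ n.encb δb n.hB ∈ red n.Msp := by
  obtain ⟨δa, ha⟩ := n.test_pair n.hA n.nd7_hA_mem (n.nd7_brY_mem 2)
  obtain ⟨δb, hb⟩ := n.test_pair n.hB n.nd7_hB_mem (n.nd7_brY_mem 3)
  exact ⟨δa, δb, ha, hb⟩

/-- `A` is commutative -/
theorem nd7_A_comm : ∀ x ∈ n.A, ∀ y ∈ n.A, x * y = y * x := by
  intro x hx y hy
  have hc : n.S.e.i (s.g []) * n.Xe = n.Xe * n.S.e.i (s.g []) := by
    unfold Xe
    rw [← mul_assoc, ← map_mul, adjoin_comm (s.g []) (s.g [])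
      (Algebra.self_mem_adjoin_singleton s.F (s.g [])) n.v n.nd7_vL, map_mul, mul_assoc,
      ← (n.nd7_comm_θ _ n.nd7_Y_mem).eq, mul_assoc]
  have := (Algebra.isMulCommutative_adjoin n.F₀
    (s := ({n.S.e.i (s.g []), n.Xe} : Set n.D₀)) (by
    rintro a (rfl | ha) b (rfl | hb)
    · rfl
    · rw [Set.mem_singleton_iff] at hb; rw [hb]; exact hc
    · rw [Set.mem_singleton_iff] at ha; rw [ha]; exact hc.symm
    · rw [Set.mem_singleton_iff] at ha hb; rw [ha, hb])).is_comm.comm ⟨x, hx⟩ ⟨y, hy⟩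
  exact congrArg Subtype.val this

theorem nd7_hr1 : 1 < n.r := by have := n.h5; omega

theorem nd7_tL : n.t ∈ Algebra.adjoin s.F ({s.g []} : Set s.D) := n.nd7_KL n.nd7_tK

theorem nd7_toSub_A : Subalgebra.toSubmodule n.A =
    n.S.MY (Subalgebra.toSubmodule (Algebra.adjoin s.F {s.g []})) (n.S.Y n.t) :=
  adjoin_eq_MY n.S n.nd7_hr1 n.hζ (s.g []) n.v n.t n.nd7_vL n.nd7_tL n.hv0

theorem nd7_bcL_A (p : n.D₀)
    (hp : p ∈ n.S.e.bc (Subalgebra.toSubmodule (Algebra.adjoin s.F {s.g []}))) : p ∈ n.A := by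
  rw [← Subalgebra.mem_toSubmodule, nd7_toSub_A]
  exact Submodule.subset_span ⟨p, hp, 0, by have := n.h5; omega, by rw [pow_zero, mul_one]⟩

theorem nd7_iv_A : n.S.e.i n.v ∈ n.A := n.nd7_bcL_A _ (n.S.e.i_mem_bc _ _ n.nd7_vL)

/-- `ntr (x [h̄, X] k) = - ntr (v x h̄ [k, Y])` for `x ∈ A`, `v x ∈ bc 𝕂`, `h̄ ∈ 𝕂 ⊗ E₀` -/
theorem nd7_key_aux (x : n.D₀) (hxA : x ∈ n.A)
    (hp : n.S.e.i n.v * x ∈ n.S.e.bc (Subalgebra.toSubmodule s.K)) (h k : n.D₀)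
    (hh : h ∈ n.S.e.bcE (Subalgebra.toSubmodule s.K)) :
    ntr n.F₀ n.D₀ (x * (h * n.Xe - n.Xe * h) * k) =
      - ntr n.F₀ n.D₀ (n.S.e.i n.v * x * h * (k * n.S.Y n.t - n.S.Y n.t * k)) := by
  have h1 : x * n.S.e.i n.v = n.S.e.i n.v * x := n.nd7_A_comm x hxA _ n.nd7_iv_A
  have h2 : (n.S.e.i n.v * x) * n.S.Y n.t = n.S.Y n.t * (n.S.e.i n.v * x) :=
    ymy_bc_comm n.S s.K n.t (fun y hy => n.nd7_Kcomm y hy n.t n.nd7_tK) _ hp
  set p := n.S.e.i n.v * x with hpdef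
  set Y := n.S.Y n.t with hY
  have e1 : x * (h * n.Xe - n.Xe * h) * k = p * h * Y * k - p * Y * h * k := by
    rw [n.nd7_brX h hh, ← mul_assoc, h1]
    noncomm_ring
  have e2 : p * h * (k * Y - Y * k) = (p * h * k) * Y - p * h * Y * k := by noncomm_ring
  rw [e1, e2, map_sub, map_sub, ntr_comm (p * h * k) Y, h2]
  have e3 : Y * (p * h * k) = Y * p * h * k := by noncomm_ring
  rw [e3]
  ring

theorem nd_key (x x' : n.D₀) (hxA : x ∈ n.A) (hxA' : x' ∈ n.A)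
    (hp : n.S.e.i n.v * x ∈ n.S.e.bc (Wsp s.V n.v))
    (hp' : n.S.e.i n.v * x' ∈ n.S.e.bc (Wsp s.V n.v))
    (h : ∀ k ∈ n.S.e.bcE (Subalgebra.toSubmodule s.K),
      k * n.S.Y n.t - n.S.Y n.t * k ∈ n.S.e.bcE (V1 s.V n.v) →
      ntr n.F₀ n.D₀ (x * (n.hA * n.Xe - n.Xe * n.hA) * k) +
        ntr n.F₀ n.D₀ (x' * (n.hB * n.Xe - n.Xe * n.hB) * k) = 0) : x = 0 ∧ x' = 0 := by
  have hpK := n.S.e.bc_mono n.nd7_WK hp
  have hpK' := n.S.e.bc_mono n.nd7_WK hp'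
  have hcond : ∀ k ∈ n.S.e.bcE (Subalgebra.toSubmodule s.K),
      k * n.S.Y n.t - n.S.Y n.t * k ∈ n.S.e.bcE (V1 s.V n.v) →
      ntr n.F₀ n.D₀ ((n.S.e.i n.v * x * n.hA + n.S.e.i n.v * x' * n.hB) *
        (k * n.S.Y n.t - n.S.Y n.t * k)) = 0 := by
    intro k hk hkY
    have h1 := h k hk hkY
    rw [n.nd7_key_aux x hxA hpK n.hA k n.nd7_hA_mem,
      n.nd7_key_aux x' hxA' hpK' n.hB k n.nd7_hB_mem] at h1
    rw [add_mul, map_add]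
    linear_combination -h1
  have haK : n.S.e.i n.v * x * n.hA + n.S.e.i n.v * x' * n.hB ∈
      n.S.e.bcE (Subalgebra.toSubmodule s.K) :=
    Submodule.add_mem _
      (n.S.e.bcE_mul s.K _ _ (n.S.e.bc_le_bcE _ hpK) n.nd7_hA_mem)
      (n.S.e.bcE_mul s.K _ _ (n.S.e.bc_le_bcE _ hpK') n.nd7_hB_mem)
  obtain ⟨w, hw, hw2⟩ := nda2 n.S n.nd7_hr1 n.hζ s.K n.nd7_Kcomm n.t n.nd7_tK (V1 s.V n.v)
    (Wsp s.V n.v) n.nd7_V1K (fun x => Iff.rfl) _ haK hcond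
  have h3 := nda1 n.S n.h5 n.hζ s.K n.nd7_Kcomm n.t n.nd7_tK (Wsp s.V n.v) n.nd7_WK n.hW
    (n.S.e.i n.v * x) (n.S.e.i n.v * x') w hp hp' hw (by
      have e : n.S.e.i n.v * x * n.S.e.i n.t * n.S.v ^ 2 +
          n.S.e.i n.v * x' * n.S.e.i n.t * n.S.v ^ 3 - w =
          n.S.e.i n.v * x * n.hA + n.S.e.i n.v * x' * n.hB - w := by
        unfold hA hB
        simp only [mul_assoc]
      rw [e]; exact hw2)
  exact ⟨(mul_eq_zero.1 h3.1).resolve_left n.nd7_iv_ne,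
    (mul_eq_zero.1 h3.2).resolve_left n.nd7_iv_ne⟩

end NDat
end Crest.Agent.R180
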