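import Mathlib
import Crest.Agent.R180.NDAux1

/-!
# ND7, auxiliary file 2: the good pair
-/

set_option autoImplicit false
set_option linter.unusedSectionVars false

namespace Crest.Agent.R180
open Module

namespace NDat
variable {s₀ s : St} {B : ℕ} (n : NDat s₀ s B)

theorem nd7_Q1 (j : s.ι) : PowerSeries.coeff 1 (n.T.Q j) =
    algebraMap n.F₀ n.D₀ (n.S.e.φ (n.c₀ j)) * n.S.u +
      algebraMap n.F₀ n.D₀ (n.S.e.φ (n.c₁ j)) * n.S.v := by
  rw [n.hQ j]; exact nxtAux_coeff1 _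

theorem nd7_Q1_mem (j : s.ι) : PowerSeries.coeff 1 (n.T.Q j) ∈ n.S.e.E := n.T.QE j 1

theorem nd7_commE (x : n.D₀) (hx : x ∈ n.S.e.E) (d : s.D) :
    x * n.S.e.i d = n.S.e.i d * x := ((n.S.e.mem_E_iff x).1 hx d).eq.symm

/-- `linE g [h₀, p] = [h₀, X] + [k, θ]` -/
theorem nd7_linE_Q (h₀ : n.D₀) (hh : h₀ ∈ n.S.e.E) : ∃ k : n.D₀,
    n.S.e.linE s.g (fun j => h₀ * PowerSeries.coeff 1 (n.T.Q j) -
      PowerSeries.coeff 1 (n.T.Q j) * h₀) =
    (h₀ * n.Xe - n.Xe * h₀) + (k * n.S.e.i (s.g []) - n.S.e.i (s.g []) * k) := by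
  set hu := h₀ * n.S.u - n.S.u * h₀ with hhu
  set hv := h₀ * n.S.v - n.S.v * h₀ with hhv
  have huE : hu ∈ n.S.e.E := sub_mem (mul_mem hh n.S.u_mem_E) (mul_mem n.S.u_mem_E hh)
  have hvE : hv ∈ n.S.e.E := sub_mem (mul_mem hh n.S.v_mem_E) (mul_mem n.S.v_mem_E hh)
  have e1 : (fun j => h₀ * PowerSeries.coeff 1 (n.T.Q j) -
      PowerSeries.coeff 1 (n.T.Q j) * h₀) =
      (fun j => algebraMap n.F₀ n.D₀ (n.S.e.φ (n.c₀ j)) * hu) +
      (fun j => algebraMap n.F₀ n.D₀ (n.S.e.φ (n.c₁ j)) * hv) := by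
    funext j
    rw [Pi.add_apply, nd7_Q1, hhu, hhv]
    have a1 := Algebra.commutes (n.S.e.φ (n.c₀ j)) h₀
    have a2 := Algebra.commutes (n.S.e.φ (n.c₁ j)) h₀
    rw [mul_add, add_mul, ← mul_assoc, ← mul_assoc, ← a1, ← a2]
    simp only [mul_sub, mul_assoc]
    abel
  refine ⟨n.S.e.i n.k₀ * hu + n.S.e.i n.k₁ * hv, ?_⟩
  rw [e1, nd7_linE_add, n.S.e.linE_const s.g n.c₀ hu huE, n.S.e.linE_const s.g n.c₁ hv hvE,
    n.lin0, n.lin1]
  have q1 := n.nd7_commE hu huE (s.g [])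
  have q2 := n.nd7_commE hv hvE (s.g [])
  have q3 := n.nd7_commE h₀ hh n.v
  have q4 := n.nd7_commE h₀ hh n.t
  have e2 : h₀ * n.Xe - n.Xe * h₀ = n.S.e.i n.v * hu + n.S.e.i n.v * n.S.e.i n.t * hv := by
    unfold Xe SymData.Y
    have : h₀ * (n.S.e.i n.v * (n.S.u + n.S.e.i n.t * n.S.v)) =
        (h₀ * n.S.e.i n.v) * n.S.u + (h₀ * n.S.e.i n.v) * n.S.e.i n.t * n.S.v := by noncomm_ring
    rw [this, q3]
    have : n.S.e.i n.v * h₀ * n.S.e.i n.t * n.S.v =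
      n.S.e.i n.v * (h₀ * n.S.e.i n.t) * n.S.v := by noncomm_ring
    rw [this, q4, hhu, hhv]
    noncomm_ring
  have e3 : (n.S.e.i n.k₀ * hu + n.S.e.i n.k₁ * hv) * n.S.e.i (s.g []) =
      n.S.e.i n.k₀ * (hu * n.S.e.i (s.g [])) + n.S.e.i n.k₁ * (hv * n.S.e.i (s.g [])) := by
    noncomm_ring
  rw [e2, e3, q1, q2]
  simp only [map_add, map_sub, map_mul]
  noncomm_ring

theorem nd7_dirE_add (δ δ' : s.ι × (Fin n.r × Fin n.r) → n.F₀) :
    dirE n.S.e (fun p => δ p + δ' p) = dirE n.S.e δ + dirE n.S.e δ' := by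
  funext j
  rw [Pi.add_apply]
  unfold dirE
  rw [← Finset.sum_add_distrib]
  exact Finset.sum_congr rfl fun k _ => add_smul _ _ _

theorem nd7_dirE_smul (c : n.F₀) (δ : s.ι × (Fin n.r × Fin n.r) → n.F₀) :
    dirE n.S.e (fun p => c * δ p) = c • dirE n.S.e δ := by
  funext j
  rw [Pi.smul_apply]
  unfold dirE
  rw [Finset.smul_sum]
  exact Finset.sum_congr rfl fun k _ => mul_smul _ _ _

theorem nd7_lau_mul {x y : Lau n.F₀} (hx : IsInt x) (hy : IsInt y) :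
    IsInt (x * y) ∧ (x * y).coeff 0 = x.coeff 0 * y.coeff 0 := IsInt.mul hx hy

theorem nd_good (a b : s.ι × (Fin n.r × Fin n.r) → Lau n.F₀) (ha : ∀ p, IsInt (a p))
    (hb : ∀ p, IsInt (b p))
    (hka : ∃ k : n.D₀, n.S.e.linE s.g (dirE n.S.e fun p => (a p).coeff 0) =
      (n.hA * n.Xe - n.Xe * n.hA) + (k * n.S.e.i (s.g []) - n.S.e.i (s.g []) * k))
    (hkb : ∃ k : n.D₀, n.S.e.linE s.g (dirE n.S.e fun p => (b p).coeff 0) =
      (n.hB * n.Xe - n.Xe * n.hB) + (k * n.S.e.i (s.g []) - n.S.e.i (s.g []) * k)) :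
    GoodPair (Lau n.F₀) (n.E.Ψ s.X) (n.E.Ψ s.Y) a b := by
  intro α β h hX hY
  by_contra hne
  have hne' : (![α, β] : Fin 2 → Lau n.F₀) ≠ 0 := by
    intro h0
    exact hne ⟨congrFun h0 0, congrFun h0 1⟩
  obtain ⟨N, hN1, k, hk⟩ := exists_normalize ![α, β] hne'
  have hαi : IsInt (epow N * α) := hN1 0
  have hβi : IsInt (epow N * β) := hN1 1
  set α' : Lau n.F₀ := epow N * α with hα'
  set β' : Lau n.F₀ := epow N * β with hβ'
  have hδi : ∀ p, IsInt ((α' • a + β' • b) p) := fun p =>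
    IsInt.add (n.nd7_lau_mul hαi (ha p)).1 (n.nd7_lau_mul hβi (hb p)).1
  have hδ0 : ∀ p, ((α' • a + β' • b) p).coeff 0 =
      α'.coeff 0 * (a p).coeff 0 + β'.coeff 0 * (b p).coeff 0 := by
    intro p
    have e1 := (n.nd7_lau_mul hαi (ha p)).2
    have e2 := (n.nd7_lau_mul hβi (hb p)).2
    show (α' * a p + β' * b p).coeff 0 = _
    rw [HahnSeries.coeff_add, e1, e2]
  have hsc : α' • a + β' • b = (epow N : Lau n.F₀) • (α • a + β • b) := by
    rw [smul_add, smul_smul, smul_smul]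
  have hX' : lin (Lau n.F₀) (n.E.Ψ s.X) (α' • a + β' • b) =
      ((epow N : Lau n.F₀) • h) * n.E.Ψ s.X [] - n.E.Ψ s.X [] * ((epow N : Lau n.F₀) • h) := by
    rw [hsc, map_smul, hX, smul_sub, smul_mul_assoc, mul_smul_comm]
  have hY' : lin (Lau n.F₀) (n.E.Ψ s.Y) (α' • a + β' • b) =
      ((epow N : Lau n.F₀) • h) * n.E.Ψ s.Y [] - n.E.Ψ s.Y [] * ((epow N : Lau n.F₀) • h) := by
    rw [hsc, map_smul, hY, smul_sub, smul_mul_assoc, mul_smul_comm]
  obtain ⟨h₀, hh₀, h', h1, h2⟩ := inner_lead n.E s.X s.Y n.hO.1.1.1.1.2.1.1 n.gen _ hδi _ hX' hY'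
  have hdir : (fun j => ∑ k, ((α' • a + β' • b) (j, k)).coeff 0 • n.S.e.b k) =
      dirE n.S.e (fun p => ((α' • a + β' • b) p).coeff 0) := rfl
  rw [hdir] at h1 h2
  have h3 := alg_der s.X s.Y s.g s.hg _ _ (fun j => dirE_mem n.S.e _ j)
    (fun j => sub_mem (mul_mem hh₀ (n.nd7_Q1_mem j)) (mul_mem (n.nd7_Q1_mem j) hh₀)) h' h1 h2
  obtain ⟨k₂, hk₂⟩ := n.nd7_linE_Q h₀ hh₀
  obtain ⟨ka, hka⟩ := hka
  obtain ⟨kb, hkb⟩ := hkb
  have hd2 : dirE n.S.e (fun p => ((α' • a + β' • b) p).coeff 0) =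
      α'.coeff 0 • dirE n.S.e (fun p => (a p).coeff 0) +
        β'.coeff 0 • dirE n.S.e (fun p => (b p).coeff 0) := by
    rw [← nd7_dirE_smul, ← nd7_dirE_smul, ← nd7_dirE_add]
    congr 1
    funext p
    exact hδ0 p
  rw [hd2, nd7_linE_add, nd7_linE_smul, nd7_linE_smul, hka, hkb, hk₂] at h3
  set ab := α'.coeff 0 with hab
  set bb := β'.coeff 0 with hbb
  set G := ab • n.hA + bb • n.hB - h₀ with hG
  have hGK : G ∈ n.S.e.bcE (Subalgebra.toSubmodule s.K) := by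
    refine Submodule.sub_mem _ (Submodule.add_mem _ (Submodule.smul_mem _ _ n.nd7_hA_mem)
      (Submodule.smul_mem _ _ n.nd7_hB_mem)) ?_
    have := n.S.e.mul_mem_bcE (Subalgebra.toSubmodule s.K) 1 (Subalgebra.one_mem _) _ hh₀
    rwa [map_one, one_mul] at this
  have hGX : G * n.Xe - n.Xe * G = (h' + k₂ - ab • ka - bb • kb) * n.S.e.i (s.g []) -
      n.S.e.i (s.g []) * (h' + k₂ - ab • ka - bb • kb) := by
    have e1 : G * n.Xe - n.Xe * G = ab • (n.hA * n.Xe - n.Xe * n.hA) +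
        bb • (n.hB * n.Xe - n.Xe * n.hB) - (h₀ * n.Xe - n.Xe * h₀) := by
      rw [hG]
      simp only [sub_mul, mul_sub, add_mul, mul_add, smul_mul_assoc, mul_smul_comm, smul_sub]
      abel
    have e2 : ab • (n.hA * n.Xe - n.Xe * n.hA) + bb • (n.hB * n.Xe - n.Xe * n.hB) -
        (h₀ * n.Xe - n.Xe * h₀) =
        (ab • (n.hA * n.Xe - n.Xe * n.hA + (ka * n.S.e.i (s.g []) - n.S.e.i (s.g []) * ka)) +
        bb • (n.hB * n.Xe - n.Xe * n.hB + (kb * n.S.e.i (s.g []) - n.S.e.i (s.g []) * kb))) -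
        ab • (ka * n.S.e.i (s.g []) - n.S.e.i (s.g []) * ka) -
        bb • (kb * n.S.e.i (s.g []) - n.S.e.i (s.g []) * kb) - (h₀ * n.Xe - n.Xe * h₀) := by
      simp only [smul_add, smul_sub]
      abel
    rw [e1, e2, h3]
    simp only [sub_mul, mul_sub, add_mul, mul_add, smul_mul_assoc, mul_smul_comm, smul_sub]
    abel
  have hXθ : Commute n.Xe (n.S.e.i (s.g [])) :=
    n.nd7_A_comm n.Xe (Algebra.subset_adjoin (Set.mem_insert_of_mem _ rfl)) _
      (Algebra.subset_adjoin (Set.mem_insert _ _))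
  have hGθ : Commute G (n.S.e.i (s.g [])) := n.nd7_comm_θ G hGK
  have hcomm : Commute (G * n.Xe - n.Xe * G) (n.S.e.i (s.g [])) :=
    (hGθ.mul_left hXθ).sub_left (hXθ.mul_left hGθ)
  have h0 := decomp_unique n.F₀ (n.S.e.i (s.g [])) _ _ hcomm hGX
  rw [n.nd7_brX G hGK] at h0
  have hGY : Commute G (n.S.Y n.t) := sub_eq_zero.1 ((mul_eq_zero.1 h0).resolve_left n.nd7_iv_ne)
  obtain ⟨p, hp, hp2⟩ := n.S.Y_cent n.nd7_hr1 n.hζ s.K n.nd7_Kcomm n.t n.nd7_tK G hGK hGY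
  have hGM : G ∈ n.S.MY (Subalgebra.toSubmodule s.K) (n.S.Y n.t) := (n.S.mem_MY _ _ _).2 ⟨p, hp, hp2⟩
  -- NDA1 with `W = F · 1`
  have h1W : (1 : n.D₀) ∈ n.S.e.bc (Submodule.span s.F {(1 : s.D)}) := by
    have := n.S.e.i_mem_bc (Submodule.span s.F {(1 : s.D)}) 1 (Submodule.mem_span_singleton_self 1)
    rwa [map_one] at this
  have h4 := nda1 n.S n.h5 n.hζ s.K n.nd7_Kcomm n.t n.nd7_tK (Submodule.span s.F {(1 : s.D)})
    (by
      rw [Submodule.span_le]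
      rintro x hx
      rw [Set.mem_singleton_iff] at hx
      rw [hx]; exact s.K.one_mem)
    (by
      intro q hq htq
      rw [Submodule.mem_span_singleton] at hq htq
      obtain ⟨c, rfl⟩ := hq
      obtain ⟨c', hc'⟩ := htq
      by_contra hq0
      have hc : c ≠ 0 := by
        rintro rfl
        exact hq0 (zero_smul _ _)
      apply n.htF
      refine ⟨c⁻¹ * c', ?_⟩
      rw [Algebra.algebraMap_eq_smul_one, mul_smul, hc', mul_smul_comm, mul_one, smul_smul,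
        inv_mul_cancel₀ hc, one_smul])
    (ab • (1 : n.D₀)) (bb • (1 : n.D₀)) h₀ (Submodule.smul_mem _ _ h1W)
    (Submodule.smul_mem _ _ h1W)
    (by
      have := n.S.e.mul_mem_bcE (Submodule.span s.F {(1 : s.D)}) 1
        (Submodule.mem_span_singleton_self 1) _ hh₀
      rwa [map_one, one_mul] at this)
    (by
      have e : ab • (1 : n.D₀) * n.S.e.i n.t * n.S.v ^ 2 + bb • (1 : n.D₀) * n.S.e.i n.t * n.S.v ^ 3
          - h₀ = G := by
        rw [hG]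
        unfold hA hB
        simp only [smul_mul_assoc, one_mul]
      rw [e]; exact hGM)
  have hab0 : ab = 0 := by
    have := h4.1
    rw [smul_eq_zero] at this
    exact this.resolve_right one_ne_zero
  have hbb0 : bb = 0 := by
    have := h4.2
    rw [smul_eq_zero] at this
    exact this.resolve_right one_ne_zero
  fin_cases k
  · exact hk hab0
  · exact hk hbb0

end NDat
end Crest.Agent.R180
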