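import Mathlib
import Crest.Agent.R180.ND5
import Crest.Agent.R180.NDAux1
import Crest.Agent.R180.NDAux2

/-!
# Piece ND7: non-degenerate states exist

Write `u, v_s` for the symbol generators, `v'' ∈ V''` integral with residue `i v` (`exists_v`).
Test pairs: for `k ∈ 𝕂 ⊗ E₀` (`𝕂 = s.K`) with `[k, Y] ∈ V₁ ⊗ E₀` (`V₁ = V1 s.V v`) there is `δ` with `linE g (dirE δ) = [k, X] + [·,θ]`
(`[k, X] = v [k, Y] ∈ V ⊗ E₀`, `S1a'`, `exists_dirE`), so `encb δ k ∈ red M` (`mem_red_Msp`).  Lemma `test_pair`.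
Special ones: `ā = (ζ² - 1) c₁ ⊗ u v_s²`, `h̄_a = t v_s²`; `b̄ = (ζ³-1) c₁ ⊗ u v_s³`, `h̄_b = t v_s³` (`[t v_s^j, u + t v_s] = (ζ^j - 1) t u v_s^j`).

**Key lemma (`nd_key`)**: if `p, p' ∈ bc W` (`W = Wsp s.V v`) and `ntr (v⁻¹p [h̄_a,X] k) + ntr (v⁻¹p' [h̄_b,X] k) = 0` for all test `k`, then `p = p' = 0`:
`ntr (p [h̄_a,Y] k) = - ntr (p h̄_a [k,Y])`, so `p h̄_a + p' h̄_b` is orthogonal to all `[k,Y] ∈ V₁⊗E₀`; `nda2` gives
`p t v_s² + p' t v_s³ - w ∈ M_Y(𝕂)`, `w ∈ W⊗E₀`; `nda1`.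

**Choice of a, b.**  `(a, h_a) ∈ M` integral lifting `(ā, h̄_a)`.  Let `x_j` (`j < o`) be an integral basis of `Nn''` (`exists_Nn`,
`exists_int_basis`), `p_j = i v * x̄_j` (independent, in `bc W`, `nn_red`).  Constraints `q_j(ξ,h) = ε^{-1} ntr (x_j (quad a ξ + lin a * h))` on `M`; by
`q_lead` residue `qb_j(δ,k) = ntr (x̄_j [h̄_a, X] k)`.  `hind` of `red_lift` = `nd_key` with `p' = 0`.  `qb_j(b̄, h̄_b) = 0` since `h̄_a, h̄_b, p_j`
commute and the trace is cyclic.  `red_lift` gives `(b, h_b) ∈ M` integral lifting `(b̄, h̄_b)` with `q_j(b,h_b) = 0` for all `j`.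

**Conclusions.**  (1) `ntr (x * G2 a b h_b) = 0` on `Nn''` (basis).
(2) non-degeneracy: `x, x' ∈ Nn''` not both zero, scale to be integral, not both residues zero (`exists_normalize`); the `ε^1` coefficient of
the hypothesis for lifts of test pairs and `nd_key` give `i v x̄ = i v x̄' = 0`, contradiction.
(3) `GoodPair a b` for `s'`: let `α a + β b` be inner by `h` for `Ψ X, Ψ Y`; if `(α,β) ≠ 0`, scale.  `inner_lead`, `alg_der` (for `g`, `s.hg`):
`linE g δ̄ = [h',θ] + linE g ([h₀,p_j])`, `h₀ ∈ E₀`, `δ̄ = ᾱ ā + β̄ b̄`, `p_j = c₀_j u + c₁_j v_s`.  Modulo `[D₀,θ]`: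
left side `[ᾱ h̄_a + β̄ h̄_b, X]`, right side `[h₀, X]` (`lin0`, `lin1`).  Both commute with `θ`, so (`decomp_unique`)
`ᾱ h̄_a + β̄ h̄_b - h₀` commutes with `Y`, lies in `M_Y(𝕂)` (`Y_cent`), and `nda1` with `W = F·1` (`t ∉ F`) gives `ᾱ = β̄ = 0`, contradiction.
-/

set_option autoImplicit false
set_option linter.unusedSectionVars false

namespace Crest.Agent.R180
open Module

section quad
variable {F D ι : Type} [Field F] [Ring D] [Algebra F D] [Fintype ι] (g : NPS ι D)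

theorem nd7_quad_add (a ξ ξ' : ι → F) :
    quad F g a (ξ + ξ') = quad F g a ξ + quad F g a ξ' := by
  unfold quad
  rw [← Finset.sum_add_distrib]
  refine Finset.sum_congr rfl fun j _ => ?_
  rw [← Finset.sum_add_distrib]
  refine Finset.sum_congr rfl fun k _ => ?_
  rw [← add_smul, Pi.add_apply, mul_add]

theorem nd7_quad_smul (a ξ : ι → F) (c : F) :
    quad F g a (c • ξ) = c • quad F g a ξ := by
  unfold quad
  rw [Finset.smul_sum]
  refine Finset.sum_congr rfl fun j _ => ?_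
  rw [Finset.smul_sum]
  refine Finset.sum_congr rfl fun k _ => ?_
  rw [smul_smul, Pi.smul_apply, smul_eq_mul]
  congr 1
  ring

end quad

namespace NDat
variable {s₀ s : St} {B : ℕ} (n : NDat s₀ s B)

theorem nd7_am_inj (x y : n.F₀) (h : algebraMap n.F₀ n.D₀ x = algebraMap n.F₀ n.D₀ y) : x = y :=
  FaithfulSMul.algebraMap_injective n.F₀ n.D₀ h

theorem nd7_enc_int (ξ : s.ι × (Fin n.r × Fin n.r) → Lau n.F₀) (h : Lau n.D₀)
    (hi : ∀ k, IsInt (n.enc ξ h k)) : (∀ p, IsInt (ξ p)) ∧ IsInt h := by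
  refine ⟨fun p m hm => ?_, hi (Sum.inr ())⟩
  have h1 : (algebraMap (Lau n.F₀) (Lau n.D₀) (ξ p)).coeff m = 0 := hi (Sum.inl p) m hm
  rw [lau_algebraMap_coeff] at h1
  exact n.nd7_am_inj _ _ (by rw [h1, map_zero])

theorem nd7_enc_coeff (ξ : s.ι × (Fin n.r × Fin n.r) → Lau n.F₀) (h : Lau n.D₀) :
    (fun k => (n.enc ξ h k).coeff 0) = n.encb (fun p => (ξ p).coeff 0) (h.coeff 0) := by
  funext k
  rcases k with p | u
  · show (algebraMap (Lau n.F₀) (Lau n.D₀) (ξ p)).coeff 0 = algebraMap n.F₀ n.D₀ ((ξ p).coeff 0)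
    rw [lau_algebraMap_coeff]
  · rfl

theorem nd7_encb_inj (δ δ' : s.ι × (Fin n.r × Fin n.r) → n.F₀) (h h' : n.D₀)
    (he : n.encb δ h = n.encb δ' h') : δ = δ' ∧ h = h' := by
  refine ⟨funext fun p => ?_, congrFun he (Sum.inr ())⟩
  exact n.nd7_am_inj _ _ (congrFun he (Sum.inl p))

theorem nd7_ntr_alg (a : Lau n.F₀) :
    ntr (Lau n.F₀) (Lau n.D₀) (algebraMap (Lau n.F₀) (Lau n.D₀) a) = a := by
  rw [Algebra.algebraMap_eq_smul_one, map_smul, ntr_one, smul_eq_mul, mul_one]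

/-- lifting a pair from the reduction -/
theorem nd7_lift (δ : s.ι × (Fin n.r × Fin n.r) → n.F₀) (h : n.D₀)
    (hy : n.encb δ h ∈ red n.Msp) : ∃ (ξ : s.ι × (Fin n.r × Fin n.r) → Lau n.F₀)
      (k : Lau n.D₀), n.enc ξ k ∈ n.Msp ∧ (∀ p, IsInt (ξ p)) ∧ IsInt k ∧
        (∀ p, (ξ p).coeff 0 = δ p) ∧ k.coeff 0 = h := by
  obtain ⟨z, hz, hzi, hz0⟩ := (mem_red _ _).1 hy
  obtain ⟨ξ, k, rfl, hl⟩ := hz
  obtain ⟨h1, h2⟩ := n.nd7_enc_int ξ k hzi
  have h3 : n.encb (fun p => (ξ p).coeff 0) (k.coeff 0) = n.encb δ h := by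
    rw [← nd7_enc_coeff]
    exact funext hz0
  obtain ⟨h4, h5⟩ := n.nd7_encb_inj _ _ _ _ h3
  exact ⟨ξ, k, (n.mem_Msp ξ k).2 hl, h1, h2, fun p => congrFun h4 p, h5⟩

/-- the second order form `G₂` -/
noncomputable def gg (a ξ : s.ι × (Fin n.r × Fin n.r) → Lau n.F₀) (k : Lau n.D₀) : Lau n.D₀ :=
  quad (Lau n.F₀) (n.E.Ψ s.g) a ξ + lin (Lau n.F₀) (n.E.Ψ s.g) a * k

/-- the constraint functional -/
noncomputable def qf (a : s.ι × (Fin n.r × Fin n.r) → Lau n.F₀) (x : Lau n.D₀) :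
    (n.Idx → Lau n.D₀) →ₗ[Lau n.F₀] Lau n.F₀ where
  toFun z := epow (-1) * ntr (Lau n.F₀) (Lau n.D₀) (x * n.gg a
    (fun p => ntr (Lau n.F₀) (Lau n.D₀) (z (Sum.inl p))) (z (Sum.inr ())))
  map_add' z z' := by
    have e1 : (fun p => ntr (Lau n.F₀) (Lau n.D₀) ((z + z') (Sum.inl p))) =
        (fun p => ntr (Lau n.F₀) (Lau n.D₀) (z (Sum.inl p))) +
        (fun p => ntr (Lau n.F₀) (Lau n.D₀) (z' (Sum.inl p))) := by
      funext p
      rw [Pi.add_apply, Pi.add_apply, map_add]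
    have e2 : n.gg a (fun p => ntr (Lau n.F₀) (Lau n.D₀) ((z + z') (Sum.inl p)))
        ((z + z') (Sum.inr ())) =
        n.gg a (fun p => ntr (Lau n.F₀) (Lau n.D₀) (z (Sum.inl p))) (z (Sum.inr ())) +
        n.gg a (fun p => ntr (Lau n.F₀) (Lau n.D₀) (z' (Sum.inl p))) (z' (Sum.inr ())) := by
      unfold gg
      rw [e1, nd7_quad_add, Pi.add_apply, mul_add]
      abel
    rw [e2, mul_add, map_add, mul_add]
  map_smul' c z := by
    have e1 : (fun p => ntr (Lau n.F₀) (Lau n.D₀) ((c • z) (Sum.inl p))) =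
        c • (fun p => ntr (Lau n.F₀) (Lau n.D₀) (z (Sum.inl p))) := by
      funext p
      rw [Pi.smul_apply, Pi.smul_apply, map_smul]
    have e2 : n.gg a (fun p => ntr (Lau n.F₀) (Lau n.D₀) ((c • z) (Sum.inl p)))
        ((c • z) (Sum.inr ())) =
        c • n.gg a (fun p => ntr (Lau n.F₀) (Lau n.D₀) (z (Sum.inl p))) (z (Sum.inr ())) := by
      unfold gg
      rw [e1, nd7_quad_smul, Pi.smul_apply, mul_smul_comm, smul_add]
    rw [e2, mul_smul_comm, map_smul, smul_eq_mul, smul_eq_mul, RingHom.id_apply]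
    ring

theorem qf_enc (a : s.ι × (Fin n.r × Fin n.r) → Lau n.F₀) (x : Lau n.D₀)
    (ξ : s.ι × (Fin n.r × Fin n.r) → Lau n.F₀) (k : Lau n.D₀) :
    n.qf a x (n.enc ξ k) = epow (-1) * ntr (Lau n.F₀) (Lau n.D₀) (x * n.gg a ξ k) := by
  have e1 : (fun p => ntr (Lau n.F₀) (Lau n.D₀) (n.enc ξ k (Sum.inl p))) = ξ := by
    funext p
    exact n.nd7_ntr_alg (ξ p)
  show epow (-1) * ntr (Lau n.F₀) (Lau n.D₀) (x * n.gg a
    (fun p => ntr (Lau n.F₀) (Lau n.D₀) (n.enc ξ k (Sum.inl p))) (n.enc ξ k (Sum.inr ()))) = _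
  rw [e1]
  rfl

/-- the reduced constraint functional -/
noncomputable def qfb (x : n.D₀) : (n.Idx → n.D₀) →ₗ[n.F₀] n.F₀ where
  toFun y := ntr n.F₀ n.D₀ (x * (n.hA * n.Xe - n.Xe * n.hA) * y (Sum.inr ()))
  map_add' y y' := by rw [Pi.add_apply, mul_add, map_add]
  map_smul' c y := by rw [Pi.smul_apply, mul_smul_comm, map_smul, RingHom.id_apply]

theorem qfb_encb (x : n.D₀) (δ : s.ι × (Fin n.r × Fin n.r) → n.F₀) (k : n.D₀) :
    n.qfb x (n.encb δ k) = ntr n.F₀ n.D₀ (x * (n.hA * n.Xe - n.Xe * n.hA) * k) := rfl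

/-- `ntr (x [h̄_a, X] h̄_b) = 0` -/
theorem nd7_ab (x : n.D₀) (hxA : x ∈ n.A)
    (hp : n.S.e.i n.v * x ∈ n.S.e.bc (Subalgebra.toSubmodule s.K)) :
    ntr n.F₀ n.D₀ (x * (n.hA * n.Xe - n.Xe * n.hA) * n.hB) = 0 := by
  rw [n.nd7_key_aux x hxA hp n.hA n.hB n.nd7_hA_mem, neg_eq_zero]
  set p := n.S.e.i n.v * x with hpdef
  have h1 : ∀ q ∈ n.S.e.bc (Subalgebra.toSubmodule s.K), ∀ j : ℕ,
      Commute q (n.S.e.i n.t * n.S.v ^ j) := by
    intro q hq j
    have h2 : q * n.S.e.i n.t = n.S.e.i n.t * q :=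
      ymy_bc_comm_i n.S s.K n.t (fun y hy => n.nd7_Kcomm y hy n.t n.nd7_tK) q hq
    have h3 : Commute q n.S.v :=
      n.S.e.bc_comm_E q n.S.v (n.S.e.bc_mono le_top hq) n.S.v_mem_E
    exact Commute.mul_right h2 (h3.pow_right j)
  have hAB : Commute n.hA n.hB := by
    have a1 : Commute (n.S.e.i n.t) (n.S.v ^ 3) := (n.S.comm_v n.t).pow_right 3
    have a2 : Commute (n.S.v ^ 2) (n.S.e.i n.t) := ((n.S.comm_v n.t).pow_right 2).symm
    have a3 : Commute (n.S.v ^ 2) (n.S.v ^ 3) := Commute.pow_pow_self _ _ _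
    exact ((Commute.refl _).mul_right a1).mul_left (a2.mul_right a3)
  have hpB : Commute p n.hB := h1 p hp 3
  have hpY : p * n.S.Y n.t = n.S.Y n.t * p :=
    ymy_bc_comm n.S s.K n.t (fun y hy => n.nd7_Kcomm y hy n.t n.nd7_tK) _ hp
  have hpAB : Commute (p * n.hA) n.hB := hpB.mul_left hAB
  have e1 : p * n.hA * (n.hB * n.S.Y n.t - n.S.Y n.t * n.hB) =
      (p * n.hA * n.hB) * n.S.Y n.t - (p * n.hA) * n.S.Y n.t * n.hB := by
    rw [mul_sub]; simp only [mul_assoc]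
  rw [e1, map_sub, ntr_comm ((p * n.hA) * n.S.Y n.t) n.hB, ← mul_assoc, ← hpAB.eq, sub_self]

end NDat

/-- **ND** -/
theorem nd {s₀ s : St} {B : ℕ} (h : St.Omin s₀ B s) (hd : 2 * s.oK + 2 ≤ s.dV) :
    ∃ s' : St, St.Omin s₀ B s' ∧ 2 * s'.oK + 2 ≤ s'.dV ∧
      ∃ v ∈ s'.V, v ≠ 0 ∧ ∃ (a b : s'.ι → s'.F) (ha hb : s'.D),
        s'.InLam a ha ∧ s'.InLam b hb ∧ GoodPair s'.F s'.X s'.Y a b ∧
        (∀ x, InN s'.F s'.g v x → ntr s'.F s'.D (x * s'.G2 a b hb) = 0) ∧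
        (∀ x x', InN s'.F s'.g v x → InN s'.F s'.g v x' →
          (∀ ξ k, s'.InLam ξ k →
            ntr s'.F s'.D (x * s'.G2 a ξ k) + ntr s'.F s'.D (x' * s'.G2 b ξ k) = 0) →
          x = 0 ∧ x' = 0) := by
  obtain ⟨n⟩ := exists_NDat h hd
  have hVne : s.V ≠ ⊥ := h.1.1.1.1.2.2
  have hdVn : s.dV ≤ s.nK := finrank_Vs_le s.g hVne
  have hoKd : s.oK = s.nK - s.dV := rfl
  have hr := n.h5
  have hbig : 2 * (s.next n.E).oK + 2 ≤ (s.next n.E).dV := by
    have h1 := n.hdV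
    have h2 := n.hoK
    have h3 : s.nK ≤ n.r * s.nK := Nat.le_mul_of_pos_left _ (by omega)
    omega
  refine ⟨s.next n.E, n.hO', hbig, ?_⟩
  obtain ⟨v'', hvV, hvi, hv0⟩ := n.exists_v
  have hvne : v'' ≠ 0 := by
    intro h0
    apply n.nd7_iv_ne
    rw [← hv0, h0]
    rfl
  obtain ⟨M, hM, -⟩ := n.exists_Nn v'' hvV hvne
  obtain ⟨xs, hxM, hxi, hxind, hxspan⟩ := exists_int_basis M
  have hxN : ∀ j, InN (Lau n.F₀) (n.E.Ψ s.g) v'' (xs j) := fun j => (hM _).1 (hxM j)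
  have hxr : ∀ j, (xs j).coeff 0 ∈ n.A ∧
      n.S.e.i n.v * (xs j).coeff 0 ∈ n.S.e.bc (Wsp s.V n.v) := fun j =>
    n.nn_red v'' hvV hvi hv0 (xs j) (hxN j) (hxi j)
  obtain ⟨δa, δb, hδa, hδb⟩ := n.exists_special
  obtain ⟨a, ha, haM, hai, hhai, haδ, haA⟩ := n.nd7_lift δa n.hA hδa
  have hla := (n.mem_Msp a ha).1 haM
  -- the second direction
  obtain ⟨m, hmi, hm0, hmq⟩ := red_lift n.Msp
    (fun j => (n.qf a (xs j)) ∘ₗ n.Msp.subtype) (fun j => n.qfb ((xs j).coeff 0))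
    (by
      intro j m hmi
      obtain ⟨ξ, k, hmk, hl⟩ := m.2
      have hmi' : ∀ q, IsInt (n.enc ξ k q) := by rw [← hmk]; exact hmi
      obtain ⟨h1, h2⟩ := n.nd7_enc_int ξ k hmi'
      obtain ⟨q1, q2⟩ := n.q_lead a ξ ha k (xs j) hai hhai h1 h2 (hxi j) (hxr j).1 hla hl
      have e1 : ((n.qf a (xs j)) ∘ₗ n.Msp.subtype) m =
          epow (-1) * ntr (Lau n.F₀) (Lau n.D₀) (xs j * n.gg a ξ k) := by
        rw [← n.qf_enc, ← hmk]
        rfl
      have e2 : (fun q => ((m : n.Idx → Lau n.D₀) q).coeff 0) =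
          n.encb (fun p => (ξ p).coeff 0) (k.coeff 0) := by
        rw [← n.nd7_enc_coeff, hmk]
      rw [e1, e2, n.qfb_encb]
      refine ⟨fun i hi => ?_, ?_⟩
      · rw [epow_coeff_mul]
        exact q1 _ (by omega)
      · rw [epow_coeff_mul]
        have : (0 : ℤ) - -1 = 1 := by norm_num
        rw [this]
        rw [haA] at q2
        exact q2)
    (by
      intro c hc
      have hsA : ∑ j, c j • (xs j).coeff 0 ∈ n.A :=
        Subalgebra.sum_mem _ fun j _ => Subalgebra.smul_mem _ (hxr j).1 _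
      have hsW : n.S.e.i n.v * ∑ j, c j • (xs j).coeff 0 ∈ n.S.e.bc (Wsp s.V n.v) := by
        rw [Finset.mul_sum]
        refine Submodule.sum_mem _ fun j _ => ?_
        rw [mul_smul_comm]
        exact Submodule.smul_mem _ _ (hxr j).2
      have h1 := (n.nd_key (∑ j, c j • (xs j).coeff 0) 0 hsA (zero_mem _) hsW
        (by rw [mul_zero]; exact zero_mem _) (by
          intro k hk hkY
          obtain ⟨δ, hδ⟩ := n.test_pair k hk hkY
          have h2 := hc _ hδ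
          simp only [n.qfb_encb] at h2
          rw [zero_mul, zero_mul, map_zero, add_zero, Finset.sum_mul, Finset.sum_mul, map_sum,
            ← h2]
          refine Finset.sum_congr rfl fun j _ => ?_
          rw [smul_mul_assoc, smul_mul_assoc, map_smul, smul_eq_mul])).1
      funext j
      exact Fintype.linearIndependent_iff.1 hxind c h1 j)
    (n.encb δb n.hB) hδb
    (by
      intro j
      rw [n.qfb_encb]
      exact n.nd7_ab _ (hxr j).1 (n.S.e.bc_mono n.nd7_WK (hxr j).2))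
  obtain ⟨b, hb, hmk, hlb⟩ := m.2
  have hmi' : ∀ q, IsInt (n.enc b hb q) := by rw [← hmk]; exact hmi
  obtain ⟨hbi, hhbi⟩ := n.nd7_enc_int b hb hmi'
  have hb0 : n.encb (fun p => (b p).coeff 0) (hb.coeff 0) = n.encb δb n.hB := by
    rw [← n.nd7_enc_coeff, ← hmk]
    exact funext hm0
  obtain ⟨hbδ, hbB⟩ := n.nd7_encb_inj _ _ _ _ hb0
  have hqb : ∀ j, ntr (Lau n.F₀) (Lau n.D₀) (xs j * n.gg a b hb) = 0 := by
    intro j
    have h1 : n.qf a (xs j) (n.enc b hb) = 0 := by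
      rw [← hmk]
      exact hmq j
    rw [n.qf_enc] at h1
    refine (mul_eq_zero.1 h1).resolve_left ?_
    intro h0
    have : (epow (-1) : Lau n.F₀).coeff (-1) = 0 := by rw [h0]; rfl
    rw [epow, HahnSeries.coeff_single_same] at this
    exact one_ne_zero this
  have hka := ((n.mem_red_Msp δa n.hA).1 hδa).2
  have hkb := ((n.mem_red_Msp δb n.hB).1 hδb).2
  have eδa : δa = fun p => (a p).coeff 0 := funext fun p => (haδ p).symm
  have eδb : δb = fun p => (b p).coeff 0 := hbδ.symm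
  rw [eδa] at hka
  rw [eδb] at hkb
  refine ⟨v'', hvV, hvne, a, b, ha, hb, hla, hlb, n.nd_good a b hai hbi hka hkb, ?_, ?_⟩
  · intro x hx
    change Lau n.D₀ at x
    have hxM' : x ∈ Submodule.span (Lau n.F₀) (Set.range xs) := by
      rw [hxspan]; exact (hM x).2 hx
    have h1 : ntr (Lau n.F₀) (Lau n.D₀) (x * n.gg a b hb) = 0 := by
      induction hxM' using Submodule.span_induction with
      | mem z hz =>
        obtain ⟨j, rfl⟩ := hz
        exact hqb j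
      | zero => rw [zero_mul, map_zero]
      | add z w _ _ hz hw => rw [add_mul, map_add, hz ((hM z).1 (by rw [← hxspan]; assumption)), hw ((hM w).1 (by rw [← hxspan]; assumption)), add_zero]
      | smul c z _ hz => rw [smul_mul_assoc, map_smul, hz ((hM z).1 (by rw [← hxspan]; assumption)), smul_zero]
    exact h1
  · intro x x' hx hx' hxx
    change Lau n.D₀ at x
    change Lau n.D₀ at x'
    by_contra hne
    have hne' : (![x, x'] : Fin 2 → Lau n.D₀) ≠ 0 := by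
      intro h0
      exact hne ⟨congrFun h0 0, congrFun h0 1⟩
    obtain ⟨N, hN1, k, hk⟩ := exists_normalize ![x, x'] hne'
    have hyi : IsInt ((epow N : Lau n.F₀) • x) := by rw [epow_smul]; exact hN1 0
    have hyi' : IsInt ((epow N : Lau n.F₀) • x') := by rw [epow_smul]; exact hN1 1
    set y := (epow N : Lau n.F₀) • x with hy
    set y' := (epow N : Lau n.F₀) • x' with hy'
    have hyN : InN (Lau n.F₀) (n.E.Ψ s.g) v'' y := (hM y).1 (M.smul_mem _ ((hM x).2 hx))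
    have hyN' : InN (Lau n.F₀) (n.E.Ψ s.g) v'' y' := (hM y').1 (M.smul_mem _ ((hM x').2 hx'))
    obtain ⟨hyA, hyW⟩ := n.nn_red v'' hvV hvi hv0 y hyN hyi
    obtain ⟨hyA', hyW'⟩ := n.nn_red v'' hvV hvi hv0 y' hyN' hyi'
    have h1 := n.nd_key (y.coeff 0) (y'.coeff 0) hyA hyA' hyW hyW' (by
      intro k₀ hk₀ hk₀Y
      obtain ⟨δ, hδ⟩ := n.test_pair k₀ hk₀ hk₀Y
      obtain ⟨ξ, c, hξM, hξi, hci, hξδ, hc0⟩ := n.nd7_lift δ k₀ hδ
      have hlξ := (n.mem_Msp ξ c).1 hξM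
      obtain ⟨-, q1⟩ := n.q_lead a ξ ha c y hai hhai hξi hci hyi hyA hla hlξ
      obtain ⟨-, q2⟩ := n.q_lead b ξ hb c y' hbi hhbi hξi hci hyi' hyA' hlb hlξ
      rw [haA, hc0] at q1
      rw [hbB, hc0] at q2
      have h2 : ntr (Lau n.F₀) (Lau n.D₀) (x * n.gg a ξ c) +
          ntr (Lau n.F₀) (Lau n.D₀) (x' * n.gg b ξ c) = 0 := hxx ξ c hlξ
      have h3 : ntr (Lau n.F₀) (Lau n.D₀) (y * n.gg a ξ c) +
          ntr (Lau n.F₀) (Lau n.D₀) (y' * n.gg b ξ c) = 0 := by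
        rw [hy, hy', smul_mul_assoc, smul_mul_assoc, map_smul, map_smul, ← smul_add, h2, smul_zero]
      rw [← q1, ← q2, ← HahnSeries.coeff_add]
      have h4 := congrArg (fun z : Lau n.F₀ => z.coeff 1) h3
      exact h4)
    fin_cases k
    · exact hk (by
        have : (epow N * x : Lau n.D₀) = y := by rw [hy, epow_smul]
        show (epow N * x : Lau n.D₀).coeff 0 = 0
        rw [this]; exact h1.1)
    · exact hk (by
        have : (epow N * x' : Lau n.D₀) = y' := by rw [hy', epow_smul]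
        show (epow N * x' : Lau n.D₀).coeff 0 = 0
        rw [this]; exact h1.2)

end Crest.Agent.R180
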