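import Mathlib
import Crest.Agent.R180.S1b
import Crest.Agent.R180.S2Aux

/-!
# Piece S2: at `(c2,a)`-minimal states the defects `K` take values in `v K(s)`, `0 ≠ v ∈ V`

`K m ∈ L` by S1b; put `k(m) = v⁻¹ K m ∈ L`.  Suppose `k(m₀) ∉ K(s) =: 𝕂`.  Choose `λ ∈ L`, `λ ⊥ 𝕂` (for `ntr`) with
`ntr (λ k(m₀)) ≠ 0`.  `κ(m) = ntr (λ k(m))`; prime `r > N`, `pi_off` gives `Z` with `κ(Z) ∉ F₀`; choose `y ∈ {u, v}` not commuting
with `κ(Z)` (`gen_uv`).  With `c, k₀` such that `lin g c = v + [k₀,θ]`, apply `ss` (`D₁ = Lau D₀`) with `ω_j = c_j η^{-1} y`: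
`X = v Y`, `Y = η^{-1} y + k(Z)`, `A = F₁[θ,X]`.  As in S1b, `num_m` gives `m' ≤ r m`, `redAlg A ⊇ S.MY L y` gives `dim A ≥ r m`; so
`m' = r m = dim A` and `s'` is `Cmin` (`num_cmin`).
`ESout.K` with `v₁ = i v`, `δ₁ = c`: `nK s' ≥ dim R`, `R = F₁[ t pr_A(e) : t ∈ V₁, e ∈ E₁ ]` (for `δ = c' ⊗ e`:
`linE g δ = (v' + [k',θ]) e`, `pr_A` of it is `v' pr_A(e)`, `v' ∈ V`).
`R ⊇ pr_A(𝕂 ⊗ E₁)`, of dimension `≥ (r+1) nK s`: the elements `κ Y^k` (`k < r`) and `κ λ Y` (`κ ∈ 𝕂`) of `A` span a space of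
dimension `(r+1) nK` meeting `(𝕂 ⊗ E₁)^⊥` trivially: with `π = ext (pr_𝕂)` (orthogonal projection to `𝕂 ⊗ E₁`, which is `𝕂`-linear)
suppose `Σ κ_k π(Y^k) + κ' π(λ Y) = 0`, `κ_k, κ' ∈ bc 𝕂`.  `π(λ Y) = h(Z) := Σ pr_𝕂(λ k(m)) Z_m` (as `pr_𝕂 λ = 0`), `η^k π(Y^k) ≡ y^k`.
Normalise and reduce modulo `η`: `Σ κ̄_k y^k + κ̄' h(Z) = 0`, not all zero; the commutator with `y` gives `κ̄' [h(Z), y] = 0`, but
`ext (fun' ntr)` maps `h(Z)` to `κ(Z)` which does not commute with `y`, so `κ̄' = 0` and then all `κ̄_k = 0`, contradiction.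
Hence `nK s' ≥ (r+1) nK s`, `aK s' · nK s' = r aK s nK s`, so `aK s' < aK s`, contradiction to `Amin`.
-/

set_option autoImplicit false
set_option linter.unusedSectionVars false

namespace Crest.Agent.R180
open Module

theorem S2 {s₀ s : St} (h : St.Amin s₀ s) (N : ℕ) (w : s.ι → NPS (Fin 2) s.F)
    (U K : NPS (Fin 2) s.D) (fam : s.IsFam N w U K) (v : s.D) (hv : v ∈ s.V) (hv0 : v ≠ 0)
    (m : List (Fin 2)) : ∃ κ ∈ s.K, K m = v * κ := by
  classical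
  by_contra hcon
  push Not at hcon
  have hKL : ∀ m, K m ∈ s.L := fun m => S1b h.1 N w U K fam m
  have hvL : v ∈ s.L := Vs_le s.g hv
  obtain ⟨v', hv'L, hv1, hv2⟩ := exists_inverse_mem s.L v hvL hv0
  have hcomL : ∀ x ∈ s.L, Commute x (s.g []) := fun x hx =>
    adjoin_comm (s.g []) x hx _ (Algebra.self_mem_adjoin_singleton s.F (s.g []))
  -- `k = v⁻¹ K`
  obtain ⟨k, hk⟩ : ∃ k : NPS (Fin 2) s.D, k = NPS.lsc v' K := ⟨_, rfl⟩
  have hkL : ∀ m, k m ∈ s.L := fun m => by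
    rw [hk]; exact s.L.mul_mem hv'L (hKL m)
  have hKk : K = NPS.lsc v k := by
    apply NPS.ext
    intro m
    rw [hk, NPS.lsc_apply, NPS.lsc_apply, ← mul_assoc, hv1, one_mul]
  have hkm : k m ∉ s.K := fun hk' => hcon (k m) hk' (by
    conv_lhs => rw [hKk]
    rfl)
  have hlen : m.length = N := by
    by_contra hl
    apply hkm
    rw [hk, NPS.lsc_apply, fam.Kdeg m hl, mul_zero]
    exact zero_mem _
  subst hlen
  -- `λ`
  have hKL' : s.K ≤ s.L := Kalg_le s.g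
  obtain ⟨l', hl'⟩ : ∃ l', l' = k m - pr s.F s.K (k m) := ⟨_, rfl⟩
  have hl'0 : l' ≠ 0 := fun h0 => hkm (by
    rw [hl', sub_eq_zero] at h0
    rw [h0]; exact pr_mem _ _)
  have hl'L : l' ∈ s.L := by
    rw [hl']; exact s.L.sub_mem (hkL m) (hKL' (pr_mem _ _))
  obtain ⟨a, haL, ha1, ha2⟩ := exists_inverse_mem s.L l' hl'L hl'0
  obtain ⟨lam, hlam⟩ : ∃ lam, lam = a - pr s.F s.K a := ⟨_, rfl⟩
  have hlamL : lam ∈ s.L := by
    rw [hlam]; exact s.L.sub_mem haL (hKL' (pr_mem _ _))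
  have hlam0 : pr s.F s.K lam = 0 := by
    rw [hlam, map_sub, pr_of_mem s.K _ (pr_mem _ _), sub_self]
  have hlam1 : ntr s.F s.D (lam * k m) ≠ 0 := by
    have e1 : lam * k m = lam * l' + lam * pr s.F s.K (k m) := by
      rw [hl']; noncomm_ring
    have e2 : ntr s.F s.D (lam * pr s.F s.K (k m)) = 0 := by
      rw [ntr_comm, ← pr_spec s.K lam _ (pr_mem _ _), hlam0, mul_zero, map_zero]
    have e3 : ntr s.F s.D (pr s.F s.K a * l') = 0 := by
      rw [hl', mul_sub, map_sub, pr_spec s.K (k m) _ (pr_mem _ _), sub_self]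
    rw [e1, map_add, e2, add_zero, hlam, sub_mul, map_sub, e3, sub_zero, ha2, ntr_one]
    exact one_ne_zero
  -- the symbol extension
  obtain ⟨r, hrN, hr⟩ := Nat.exists_infinite_primes (m.length + 1)
  obtain ⟨ζ, hζ⟩ := s.rou r hr.pos
  obtain ⟨F₀, D₀, _, _, _, _, _, _, _, ⟨S⟩⟩ := exists_sym s.F s.D r hr ζ hζ
  obtain ⟨Z, hZE, hZgen, hZk⟩ := S.pi_off hr hζ m.length (by have := fam.hN; omega) (by omega)
    (fun m => ntr s.F s.D (lam * k m)) ⟨m.get, by rw [List.ofFn_get]; exact hlam1⟩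
  have hκE : S.evk m.length (fun m => ntr s.F s.D (lam * k m)) Z ∈ S.e.E := by
    unfold SymData.evk
    exact sum_mem fun l _ => mul_mem (S.e.alg_mem_E _) (S.e.s2_prod_mem Z hZE _)
  obtain ⟨i, j, hij, hnc⟩ : ∃ i j : Fin r, ((i : ℕ) ≠ 0 ∨ (j : ℕ) ≠ 0) ∧
      ¬ Commute (S.evk m.length (fun m => ntr s.F s.D (lam * k m)) Z)
        (S.u ^ (i : ℕ) * S.v ^ (j : ℕ)) := by
    by_contra hc
    push Not at hc
    apply hZk
    apply S.gen_uv hr.one_lt hζ _ hκE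
    · have := hc ⟨1, hr.one_lt⟩ ⟨0, hr.pos⟩ (Or.inl one_ne_zero)
      simpa using this.eq
    · have := hc ⟨0, hr.pos⟩ ⟨1, hr.one_lt⟩ (Or.inr one_ne_zero)
      simpa using this.eq
  obtain ⟨y, hy⟩ : ∃ y, y = S.u ^ (i : ℕ) * S.v ^ (j : ℕ) := ⟨_, rfl⟩
  have hind := S.mon_pow_indep hr hζ i j hij
  rw [← hy] at hnc hind
  have hyE : y ∈ S.e.E := by
    rw [hy]; exact mul_mem (pow_mem S.u_mem_E _) (pow_mem S.v_mem_E _)
  obtain ⟨c, k₀, hc⟩ := S1a' h.1 v hv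
  -- the E-step
  obtain ⟨yy, hyy⟩ : ∃ yy : Lau D₀, yy = epow (-1) * lc y := ⟨_, rfl⟩
  have hyyE : yy ∈ S.e.lau.E := by
    rw [hyy]; exact S.s2_epow_mul_mem_E _ _ (S.s2_lc_mem_E _ hyE)
  -- general computation of `linE`
  have hlinE : ∀ (x k' : s.D) (c' : s.ι → s.F) (z : Lau D₀), z ∈ S.e.lau.E →
      lin s.F s.g c' = x + (k' * s.g [] - s.g [] * k') →
      S.e.lau.linE s.g (fun j => algebraMap (Lau F₀) (Lau D₀) (S.e.lau.φ (c' j)) * z) =
        S.e.lau.i x * z + ((S.e.lau.i k' * z) * S.e.lau.i (s.g []) -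
          S.e.lau.i (s.g []) * (S.e.lau.i k' * z)) := by
    intro x k' c' z hz hx
    rw [S.e.lau.linE_const s.g c' z hz, hx, map_add, map_sub, map_mul, map_mul, add_mul, sub_mul,
      mul_assoc _ _ z, S.e.lau.comm_E hz (s.g [])]
    simp only [mul_assoc]
  have hcomm_i : ∀ x ∈ s.L, Commute (S.e.lau.i x) (S.e.lau.i (s.g [])) := fun x hx =>
    (hcomL x hx).map S.e.lau.i
  have hcomm_E : ∀ z ∈ S.e.lau.E, Commute z (S.e.lau.i (s.g [])) := fun z hz =>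
    ((S.e.lau.mem_E_iff z).1 hz (s.g [])).symm
  obtain ⟨s', hs'⟩ := ss s h.1.1.2.1 S.e.lau m.length w U K fam (fun i => lc (Z i))
    (fun i => S.s2_lc_mem_E _ (hZE i)) (S.e.lau_gen Z hZgen)
    (fun j => algebraMap (Lau F₀) (Lau D₀) (S.e.lau.φ (c j)) * yy)
    (fun j => mul_mem (S.e.lau.alg_mem_E _) hyyE)
    (S.e.lau.i k₀ * yy) (S.e.lau.i v * yy) (hlinE v k₀ c yy hyyE hc)
    ((hcomm_i v hvL).mul_left (hcomm_E yy hyyE))
  obtain ⟨Y, hY⟩ : ∃ Y, Y = lc (evHom S.e Z m.length k) + yy := ⟨_, rfl⟩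
  have hX : evHom S.e.lau (fun i => lc (Z i)) m.length K + S.e.lau.i v * yy =
      S.e.lau.i v * Y := by
    rw [hY, mul_add, ← S.s2_evHom_lau, CExt.s2_i_mul_evHom, ← hKk]
  rw [hX] at hs'
  obtain ⟨A, hA⟩ : ∃ A, A = Algebra.adjoin (Lau F₀)
    ({S.e.lau.i (s.g []), S.e.lau.i v * Y} : Set (Lau D₀)) := ⟨_, rfl⟩
  have hm := hs'.m
  have hKK := hs'.K
  rw [← hA] at hm hKK
  -- `η Y`
  have hηY : epow 1 * Y = lc y + epow 1 * lc (evHom S.e Z m.length k) := by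
    rw [hY, hyy, mul_add, add_comm, s2_epow_cancel]
  have hint : IsInt (epow 1 * Y) := by
    rw [hηY]
    refine (isInt_lc y).add ?_
    intro n hn
    rw [epow_coeff_mul, lc_coeff_ne _ _ (by omega)]
  have hcoef : (epow 1 * Y).coeff 0 = y := by
    rw [hηY, HahnSeries.coeff_add, lc_coeff_zero, epow_coeff_mul, lc_coeff_ne _ _ (by omega),
      add_zero]
  have hfr : r * s.m ≤ finrank (Lau F₀) A := by
    rw [hA]
    exact S.s2_finrank_A (s.g []) v hvL hv0 Y y hint hcoef hind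
  have hcls : St.Cls s₀ s' := hs'.cls h.1.1
  have hn2 : s'.n2 = r ^ 2 * s.n2 := by
    rw [hs'.n2, lau_finrank, S.finrank_D0]
    rfl
  obtain ⟨hm', hcmin⟩ := num_cmin h.1 hcls r hr.pos hn2 (hfr.trans hm)
  have hmA : s'.m = finrank (Lau F₀) A := le_antisymm (hm'.le.trans hfr) hm
  -- elements of `A`
  have hθA : S.e.lau.i (s.g []) ∈ A := by
    rw [hA]; exact Algebra.subset_adjoin (by simp)
  have hvYA : S.e.lau.i v * Y ∈ A := by
    rw [hA]; exact Algebra.subset_adjoin (by simp)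
  have hLA : ∀ x ∈ s.L, S.e.lau.i x ∈ A := S.e.lau.s2_i_mem A {s.g []} (by
    intro t ht
    rw [Set.mem_singleton_iff] at ht
    rw [ht]; exact hθA)
  have hiv0 : S.e.lau.i v ≠ 0 := by
    intro h0
    have h1 := congrArg S.e.lau.i hv1
    rw [map_mul, h0, zero_mul, map_one] at h1
    exact zero_ne_one h1
  have hYA : Y ∈ A := quot_mem A _ Y hiv0 (hLA v hvL) hvYA
  -- `A ⊂ Cent θ`
  have hkcomm : Commute (lc (evHom S.e Z m.length k)) (S.e.lau.i (s.g [])) := by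
    rw [← S.s2_evHom_lau]
    unfold evHom
    refine Commute.sum_left _ _ _ fun l _ => ?_
    exact (hcomm_i _ (hkL _)).mul_left (hcomm_E _ (S.e.lau.s2_prod_mem _
      (fun i => S.s2_lc_mem_E _ (hZE i)) _))
  have hAcomm : ∀ a ∈ A, Commute a (S.e.lau.i (s.g [])) := by
    have h1 : A ≤ Subalgebra.centralizer (Lau F₀) ({S.e.lau.i (s.g [])} : Set (Lau D₀)) := by
      rw [hA]
      refine Algebra.adjoin_le ?_
      rintro x (rfl | rfl)
      · exact (mem_cent _ _).2 (Commute.refl _)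
      · refine (mem_cent _ _).2 ((hcomm_i v hvL).mul_left ?_)
        rw [hY]
        exact hkcomm.add_left (hcomm_E yy hyyE)
    exact fun a ha => (mem_cent _ _).1 (h1 ha)
  have hprlin : ∀ (x k' : s.D) (c' : s.ι → s.F) (z : Lau D₀), z ∈ S.e.lau.E →
      lin s.F s.g c' = x + (k' * s.g [] - s.g [] * k') →
      pr (Lau F₀) A (S.e.lau.linE s.g
        (fun j => algebraMap (Lau F₀) (Lau D₀) (S.e.lau.φ (c' j)) * z)) =
        pr (Lau F₀) A (S.e.lau.i x * z) := by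
    intro x k' c' z hz hx
    rw [hlinE x k' c' z hz hx, map_add, s2_pr_comm A _ _ hAcomm, add_zero]
  have hR := hKK hmA (S.e.lau.i v) hiv0
    (fun j => algebraMap (Lau F₀) (Lau D₀) (S.e.lau.φ (c j)) * 1)
    (fun j => mul_mem (S.e.lau.alg_mem_E _) (one_mem _)) (by
      rw [hprlin v k₀ c 1 (one_mem _) hc, mul_one, pr_of_mem A _ (hLA v hvL)])
  have hKeq : s.K = Algebra.adjoin s.F {x | v * x ∈ s.V} := Kalg_eq s.g v hv hv0
  have hle := s2_R S.e.lau A (Algebra.adjoin (Lau F₀) {x | ∃ δ : s.ι → Lau D₀,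
      (∀ j, δ j ∈ S.e.lau.E) ∧ S.e.lau.i v * x = pr (Lau F₀) A (S.e.lau.linE s.g δ)})
    {x | v * x ∈ s.V} (by
      intro t ht
      apply hLA
      apply hKL'
      rw [hKeq]
      exact Algebra.subset_adjoin ht) (by
      show v * 1 ∈ s.V
      rw [mul_one]; exact hv) (by
      intro t ht z hz
      apply Algebra.subset_adjoin
      obtain ⟨c', k', hc'⟩ := S1a' h.1 (v * t) ht
      refine ⟨fun j => algebraMap (Lau F₀) (Lau D₀) (S.e.lau.φ (c' j)) * z,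
        fun j => mul_mem (S.e.lau.alg_mem_E _) hz, ?_⟩
      rw [hprlin (v * t) k' c' z hz hc', S.e.lau.i.map_mul v t, mul_assoc,
        pr_mul_left A _ _ (hLA v hvL)])
  rw [← hKeq] at hle
  have hdim := S.s2_dim s.K lam hlam0 m.length k Z hZE y hyE hnc hind Y (by rw [hY, hyy]) A hYA
    (fun x hx => hLA x (hKL' hx)) (hLA lam hlamL)
  have hfin := (hdim.trans (Submodule.finrank_mono hle)).trans hR
  -- numerical contradiction
  have hnK : finrank s.F s.K = s.nK := rfl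
  rw [hnK] at hfin
  have h1 : s.aK * s.nK = s.m := aK_mul s.g
  have h2 : s'.aK * s'.nK = s'.m := aK_mul s'.g
  have h3 : s.aK ≤ s'.aK := h.2 s' hcmin
  have h4 : 0 < s.m := mdeg_pos (s.g [])
  have h5 : s.aK * ((r + 1) * s.nK) ≤ s'.aK * s'.nK := Nat.mul_le_mul h3 hfin
  rw [h2, hm', ← h1] at h5
  rw [← h1] at h4
  nlinarith

end Crest.Agent.R180
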