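import Mathlib
import Crest.Agent.R180.S1a
import Crest.Agent.R180.PI
import Crest.Agent.R180.YStep

/-!
# Auxiliary lemmas for piece S3 (helper30)

`M_Y = Σ_{k<r} (W F₁) y^k ⊂ D₁ = D₀((η))`, `y` integral with residue `Y₀`.
-/

set_option autoImplicit false
set_option linter.unusedSectionVars false

namespace Crest.Agent.R180
open Module

theorem s3_int_pow {R : Type} [Ring R] (y : Lau R) (hy : IsInt y) (k : ℕ) :
    IsInt (y ^ k) ∧ (y ^ k).coeff 0 = (y.coeff 0) ^ k := by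
  induction k with
  | zero =>
    rw [pow_zero, pow_zero]
    have h : (1 : Lau R) = lc 1 := (map_one _).symm
    rw [h]
    exact ⟨isInt_lc 1, lc_coeff_zero 1⟩
  | succ k ih =>
    rw [pow_succ, pow_succ]
    have h := ih.1.mul hy
    exact ⟨h.1, by rw [h.2, ih.2]⟩

section
variable {F D F₀ D₀ : Type} [Field F] [CharZero F] [Ring D] [IsDomain D] [Algebra F D]
    [FiniteDimensional F D] [Algebra.IsCentral F D]
    [Field F₀] [CharZero F₀] [Ring D₀] [IsDomain D₀] [Algebra F₀ D₀]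
    [FiniteDimensional F₀ D₀] [Algebra.IsCentral F₀ D₀] {r : ℕ} {ζ : F}
    (S : SymData F D F₀ D₀ r ζ)

theorem s3_indep (y : Lau D₀) (hi : IsInt y)
    (hy : ∀ p : Fin r → D₀, (∀ k, p k ∈ S.e.bc (⊤ : Submodule F D)) →
      ∑ k, p k * (y.coeff 0) ^ (k : ℕ) = 0 → ∀ k, p k = 0)
    (p : Fin r → Lau D₀) (hp : ∀ k, p k ∈ S.e.lau.bc (⊤ : Submodule F D))
    (h : ∑ k, p k * y ^ (k : ℕ) = 0) : ∀ k, p k = 0 := by
  by_contra hne
  have hp0 : p ≠ 0 := by
    rintro rfl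
    exact hne fun _ => rfl
  obtain ⟨n, h1, k0, h2⟩ := exists_normalize p hp0
  have h3 : ∑ k, (epow n * p k) * y ^ (k : ℕ) = 0 := by
    have : ∑ k, (epow n * p k) * y ^ (k : ℕ) = epow n * ∑ k, p k * y ^ (k : ℕ) := by
      rw [Finset.mul_sum]
      exact Finset.sum_congr rfl fun k _ => mul_assoc _ _ _
    rw [this, h, mul_zero]
  have h4 : ∑ k : Fin r, (epow n * p k).coeff 0 * (y.coeff 0) ^ (k : ℕ) = 0 := by
    have h5 : (∑ k : Fin r, (epow n * p k) * y ^ (k : ℕ)).coeff 0 = 0 := by rw [h3]; rfl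
    rw [lau_coeff_sum] at h5
    rw [← h5]
    refine Finset.sum_congr rfl fun k _ => ?_
    rw [((h1 k).mul (s3_int_pow y hi k).1).2, (s3_int_pow y hi k).2]
  refine h2 (hy (fun k => (epow n * p k).coeff 0) (fun k => ?_) h4 k0)
  show (epow n * p k).coeff 0 ∈ _
  rw [epow_coeff_mul]
  exact (S.e.lau_mem_bc ⊤ (p k)).1 (hp k) _

/-- `Σ_{k<r} (W F₁) y^k` -/
noncomputable def s3MYL (W : Submodule F D) (y : Lau D₀) : Submodule (Lau F₀) (Lau D₀) :=
  LinearMap.range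
    ({ toFun := fun p => ∑ k, (p k : Lau D₀) * y ^ (k : ℕ)
       map_add' := by intro p q; simp [add_mul, Finset.sum_add_distrib]
       map_smul' := by intro c p; simp [Finset.smul_sum] } :
      (Fin r → S.e.lau.bc W) →ₗ[Lau F₀] Lau D₀)

theorem s3_mem_MYL (W : Submodule F D) (y x : Lau D₀) : x ∈ s3MYL S W y ↔
    ∃ p : Fin r → Lau D₀, (∀ k, p k ∈ S.e.lau.bc W) ∧ x = ∑ k, p k * y ^ (k : ℕ) := by
  rw [s3MYL, LinearMap.mem_range]
  constructor
  · rintro ⟨p, rfl⟩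
    exact ⟨fun k => (p k : Lau D₀), fun k => (p k).2, rfl⟩
  · rintro ⟨p, hp, rfl⟩
    exact ⟨fun k => ⟨p k, hp k⟩, rfl⟩

theorem s3_finrank_MYL (W : Submodule F D) (y : Lau D₀) (hi : IsInt y)
    (hy : ∀ p : Fin r → D₀, (∀ k, p k ∈ S.e.bc (⊤ : Submodule F D)) →
      ∑ k, p k * (y.coeff 0) ^ (k : ℕ) = 0 → ∀ k, p k = 0) :
    finrank (Lau F₀) (s3MYL S W y) = r * finrank F W := by
  rw [s3MYL, LinearMap.finrank_range_of_inj, Module.finrank_pi_fintype]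
  · simp [S.e.lau.finrank_bc]
  · rw [injective_iff_map_eq_zero]
    intro p hp
    funext k
    have := s3_indep S y hi hy (fun k => (p k : Lau D₀))
      (fun k => S.e.lau.bc_mono le_top (p k).2) hp k
    exact Subtype.ext this

theorem s3_MY_le_red1 (W : Submodule F D) (y : Lau D₀) (hi : IsInt y) :
    S.MY W (y.coeff 0) ≤ red1 (s3MYL S W y) := by
  intro x hx
  rw [S.mem_MY] at hx
  obtain ⟨p, hp, rfl⟩ := hx
  refine Submodule.sum_mem _ fun k _ => ?_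
  refine ⟨lc (p k) * y ^ (k : ℕ), ?_, ((isInt_lc _).mul (s3_int_pow y hi k).1).1, ?_⟩
  · rw [s3_mem_MYL]
    refine ⟨Pi.single k (lc (p k)), ?_, ?_⟩
    · intro j
      by_cases hj : j = k
      · subst hj
        rw [Pi.single_eq_same, S.e.lau_mem_bc]
        intro n
        by_cases hn : n = 0
        · subst hn; rw [lc_coeff_zero]; exact hp _
        · rw [lc_coeff_ne _ _ hn]; exact zero_mem _
      · rw [Pi.single_eq_of_ne hj]; exact zero_mem _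
    · rw [Finset.sum_eq_single k]
      · rw [Pi.single_eq_same]
      · intro j _ hj
        rw [Pi.single_eq_of_ne hj, zero_mul]
      · simp
  · rw [((isInt_lc _).mul (s3_int_pow y hi k).1).2, lc_coeff_zero, (s3_int_pow y hi k).2]

theorem s3_red1_MYL (W : Submodule F D) (y : Lau D₀) (hi : IsInt y)
    (hy : ∀ p : Fin r → D₀, (∀ k, p k ∈ S.e.bc (⊤ : Submodule F D)) →
      ∑ k, p k * (y.coeff 0) ^ (k : ℕ) = 0 → ∀ k, p k = 0) :
    red1 (s3MYL S W y) = S.MY W (y.coeff 0) := by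
  symm
  apply Submodule.eq_of_le_of_finrank_eq (s3_MY_le_red1 S W y hi)
  rw [finrank_red1, s3_finrank_MYL S W y hi hy, S.finrank_MY W _ hy]

theorem s3_red1_inf (M N : Submodule (Lau F₀) (Lau D₀)) :
    red1 (M ⊓ N) ≤ red1 M ⊓ red1 N := by
  rintro x ⟨y, hy, hi, h0⟩
  exact ⟨⟨y, hy.1, hi, h0⟩, ⟨y, hy.2, hi, h0⟩⟩

theorem s3_red1_bcE (W : Submodule F D) : red1 (S.e.lau.bcE W) ≤ S.e.bcE W := by
  rintro x ⟨y, hy, _, rfl⟩
  exact (S.e.lau_mem_bcE W y).1 hy 0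

/-- `M_Y(K) ∩ (W ⊗ E₁) = W F₁` -/
theorem s3_MYL_inf (hr : 1 < r) (hζ : IsPrimitiveRoot ζ r) (K : Subalgebra F D)
    (hK : ∀ x ∈ K, ∀ y ∈ K, x * y = y * x) (t : D) (ht : t ∈ K) (W : Submodule F D)
    (hW : W ≤ Subalgebra.toSubmodule K) (hWt : ∀ p ∈ W, t * p ∈ W → p = 0)
    (y : Lau D₀) (hi : IsInt y) (h0 : y.coeff 0 = S.Y t) :
    s3MYL S (Subalgebra.toSubmodule K) y ⊓ S.e.lau.bcE W = S.e.lau.bc W := by
  have hy : ∀ p : Fin r → D₀, (∀ k, p k ∈ S.e.bc (⊤ : Submodule F D)) →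
      ∑ k, p k * (y.coeff 0) ^ (k : ℕ) = 0 → ∀ k, p k = 0 := by
    rw [h0]; exact S.Y_indep (by omega) hζ t
  symm
  have hle : S.e.lau.bc W ≤ s3MYL S (Subalgebra.toSubmodule K) y ⊓ S.e.lau.bcE W := by
    intro x hx
    refine ⟨?_, S.e.lau.bc_le_bcE W hx⟩
    rw [SetLike.mem_coe, s3_mem_MYL]
    have hr0 : 0 < r := by omega
    refine ⟨Pi.single ⟨0, hr0⟩ x, ?_, ?_⟩
    · intro j
      by_cases hj : j = ⟨0, hr0⟩
      · subst hj; rw [Pi.single_eq_same]; exact S.e.lau.bc_mono hW hx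
      · rw [Pi.single_eq_of_ne hj]; exact zero_mem _
    · rw [Finset.sum_eq_single ⟨0, hr0⟩]
      · rw [Pi.single_eq_same, pow_zero, mul_one]
      · intro j _ hj
        rw [Pi.single_eq_of_ne hj, zero_mul]
      · simp
  apply Submodule.eq_of_le_of_finrank_le hle
  rw [← finrank_red1, S.e.lau.finrank_bc, ← S.e.finrank_bc]
  apply Submodule.finrank_mono
  refine (s3_red1_inf _ _).trans ?_
  rw [s3_red1_MYL S _ y hi hy, h0, ← MY_inf S hr hζ K hK t ht W hW hWt]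
  exact inf_le_inf_left _ (s3_red1_bcE S W)

theorem s3_MYL_le (K : Subalgebra F D) (y : Lau D₀)
    (hy : y ∈ S.e.lau.bcE (Subalgebra.toSubmodule K)) :
    s3MYL S (Subalgebra.toSubmodule K) y ≤ S.e.lau.bcE (Subalgebra.toSubmodule K) := by
  intro x hx
  rw [s3_mem_MYL] at hx
  obtain ⟨p, hp, rfl⟩ := hx
  have hpow : ∀ k : ℕ, y ^ k ∈ S.e.lau.bcE (Subalgebra.toSubmodule K) := by
    intro k
    induction k with
    | zero =>
      rw [pow_zero]
      have := S.e.lau.mul_mem_bcE (Subalgebra.toSubmodule K) 1 (one_mem K) 1 (one_mem _)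
      rwa [map_one, mul_one] at this
    | succ k ih => rw [pow_succ]; exact S.e.lau.bcE_mul K _ _ ih hy
  exact Submodule.sum_mem _ fun k _ => S.e.lau.bcE_mul K _ _ (S.e.lau.bc_le_bcE _ (hp k)) (hpow k)

/-- The subspace used to estimate `dV` of the next state -/
theorem s3_main (hr : 1 < r) (hζ : IsPrimitiveRoot ζ r) (K : Subalgebra F D)
    (hK : ∀ x ∈ K, ∀ y ∈ K, x * y = y * x) (t : D) (ht : t ∈ K) (V₁ W : Submodule F D)
    (hW : ∀ x, x ∈ W ↔ x ∈ K ∧ ∀ y ∈ V₁, ntr F D (y * x) = 0)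
    (hWt : ∀ p ∈ W, t * p ∈ W → p = 0)
    (y : Lau D₀) (hi : IsInt y) (h0 : y.coeff 0 = S.Y t)
    (hyK : y ∈ S.e.lau.bcE (Subalgebra.toSubmodule K)) (Y' : Lau D₀)
    (c : D) (hc : c ∈ W) (hcY : ntr (Lau F₀) (Lau D₀) (S.e.lau.i c * Y') ≠ 0) :
    ∃ M₀ : Submodule (Lau F₀) (Lau D₀), M₀ ≤ s3MYL S (Subalgebra.toSubmodule K) y ∧
      r * finrank F K ≤ finrank (Lau F₀) M₀ + (finrank F W - 1) ∧
      ∀ p ∈ M₀, (∀ d ∈ V₁, ∀ z ∈ S.e.lau.E, ntr (Lau F₀) (Lau D₀) (S.e.lau.i d * z * p) = 0) →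
        ntr (Lau F₀) (Lau D₀) (p * Y') = 0 → p = 0 := by
  have hWK : W ≤ Subalgebra.toSubmodule K := fun x hx => ((hW x).1 hx).1
  have hy : ∀ p : Fin r → D₀, (∀ k, p k ∈ S.e.bc (⊤ : Submodule F D)) →
      ∑ k, p k * (y.coeff 0) ^ (k : ℕ) = 0 → ∀ k, p k = 0 := by
    rw [h0]; exact S.Y_indep (by omega) hζ t
  have hinf := s3_MYL_inf S hr hζ K hK t ht W hWK hWt y hi h0
  let f : Lau D₀ →ₗ[Lau F₀] Lau F₀ :=
    ntr (Lau F₀) (Lau D₀) ∘ₗ LinearMap.mulRight (Lau F₀) Y'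
  let Nl : Submodule (Lau F₀) (Lau D₀) := S.e.lau.bc W ⊓ LinearMap.ker f
  have hNlt : Nl < S.e.lau.bc W := by
    refine lt_of_le_of_ne inf_le_left fun h => hcY ?_
    have h1 : S.e.lau.i c ∈ Nl := by rw [h]; exact S.e.lau.i_mem_bc W c hc
    exact h1.2
  have hNf : finrank (Lau F₀) Nl ≤ finrank F W - 1 := by
    have := Submodule.finrank_lt_finrank_of_lt hNlt
    rw [S.e.lau.finrank_bc] at this
    omega
  have hNM : Nl ≤ s3MYL S (Subalgebra.toSubmodule K) y := by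
    refine inf_le_left.trans ?_
    rw [← hinf]
    exact inf_le_left
  obtain ⟨C, hC⟩ := Submodule.exists_isCompl Nl
  refine ⟨C ⊓ s3MYL S (Subalgebra.toSubmodule K) y, inf_le_right, ?_, ?_⟩
  · have h1 := Submodule.finrank_sup_add_finrank_inf_eq Nl (C ⊓ s3MYL S (Subalgebra.toSubmodule K) y)
    have h2 : Nl ⊔ C ⊓ s3MYL S (Subalgebra.toSubmodule K) y = s3MYL S (Subalgebra.toSubmodule K) y := by
      rw [← sup_inf_assoc_of_le C hNM, hC.sup_eq_top, top_inf_eq]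
    have h3 : Nl ⊓ (C ⊓ s3MYL S (Subalgebra.toSubmodule K) y) = ⊥ := by
      rw [← inf_assoc, hC.inf_eq_bot, bot_inf_eq]
    rw [h2, h3, s3_finrank_MYL S _ y hi hy] at h1
    have h4 : finrank (Lau F₀) (⊥ : Submodule (Lau F₀) (Lau D₀)) = 0 := finrank_bot _ _
    have h5 : finrank F (Subalgebra.toSubmodule K) = finrank F K := rfl
    rw [h4, h5] at h1
    omega
  · rintro p ⟨hpC, hpM⟩ h1 h2
    have h3 : p ∈ S.e.lau.bcE W :=
      (S.e.lau.orth_bcE K V₁ W hW p).2 ⟨s3_MYL_le S K y hyK hpM, h1⟩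
    have h4 : p ∈ S.e.lau.bc W := by rw [← hinf]; exact ⟨hpM, h3⟩
    have h5 : p ∈ Nl ⊓ C := ⟨⟨h4, h2⟩, hpC⟩
    rwa [hC.inf_eq_bot, Submodule.mem_bot] at h5

/-- `evHom` in the Laurent extension -/
theorem s3_evHom_lau (Z : Fin 2 → D₀) (N : ℕ) (f : NPS (Fin 2) D) :
    evHom S.e.lau (fun i => (lc (Z i) : Lau D₀)) N f = lc (evHom S.e Z N f) := by
  unfold evHom
  rw [map_sum]
  refine Finset.sum_congr rfl fun m _ => ?_
  rw [map_mul, map_list_prod, List.map_map]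
  rfl

/-- partial trace of `k(Z)` -/
theorem s3_ntr_evk (Z : Fin 2 → D₀) (hZ : ∀ i, Z i ∈ S.e.E) (N : ℕ) (f : NPS (Fin 2) D) (c : D) :
    ntr F₀ D₀ (S.e.i c * evHom S.e Z N f) =
      ntr F₀ D₀ (S.evk N (fun m => ntr F D (c * f m)) Z) := by
  unfold evHom SymData.evk
  rw [Finset.mul_sum, map_sum, map_sum]
  refine Finset.sum_congr rfl fun m _ => ?_
  have hm : ((List.ofFn m).map Z).prod ∈ S.e.E := by
    refine Subalgebra.list_prod_mem _ fun y hy => ?_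
    obtain ⟨i, _, rfl⟩ := List.mem_map.1 hy
    exact hZ i
  rw [← mul_assoc, ← map_mul, S.e.ntr_mul _ _ hm, CExt.ntr_alg_mul]

end

section
variable {F D F₁ D₁ β : Type} [Field F] [CharZero F] [Ring D] [IsDomain D] [Algebra F D]
    [FiniteDimensional F D] [Algebra.IsCentral F D]
    [Field F₁] [CharZero F₁] [Ring D₁] [IsDomain D₁] [Algebra F₁ D₁]
    [FiniteDimensional F₁ D₁] [Algebra.IsCentral F₁ D₁] [Fintype β]
    (e : CExt F D F₁ D₁ β)

theorem s3_evHom_mul (Z : Fin 2 → D₁) (N : ℕ) (v : D) (K k : NPS (Fin 2) D)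
    (h : ∀ m, K m = v * k m) : evHom e Z N K = e.i v * evHom e Z N k := by
  unfold evHom
  rw [Finset.mul_sum]
  refine Finset.sum_congr rfl fun m _ => ?_
  rw [h, map_mul, mul_assoc]

theorem s3_evHom_mem (Z : Fin 2 → D₁) (hZ : ∀ i, Z i ∈ e.E) (N : ℕ) (K : Subalgebra F D)
    (k : NPS (Fin 2) D) (h : ∀ m, k m ∈ K) :
    evHom e Z N k ∈ e.bcE (Subalgebra.toSubmodule K) := by
  unfold evHom
  refine Submodule.sum_mem _ fun m _ => ?_
  refine e.mul_mem_bcE _ _ (h _) _ ?_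
  refine Subalgebra.list_prod_mem _ fun y hy => ?_
  obtain ⟨i, _, rfl⟩ := List.mem_map.1 hy
  exact hZ i

theorem s3_i_mem (θ : D) (X : D₁) (l : D) (hl : l ∈ Algebra.adjoin F ({θ} : Set D)) :
    e.i l ∈ Algebra.adjoin F₁ ({e.i θ, X} : Set D₁) := by
  refine Algebra.adjoin_induction
    (p := fun x _ => e.i x ∈ Algebra.adjoin F₁ ({e.i θ, X} : Set D₁)) ?_ ?_ ?_ ?_ hl
  · intro y hy
    rw [Set.mem_singleton_iff] at hy
    subst hy
    exact Algebra.subset_adjoin (by simp)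
  · intro a
    rw [e.i_alg]
    exact Subalgebra.algebraMap_mem _ _
  · intro y z _ _ hy hz
    rw [map_add]; exact Subalgebra.add_mem _ hy hz
  · intro y z _ _ hy hz
    rw [map_mul]; exact Subalgebra.mul_mem _ hy hz

theorem s3_bc_le (θ : D) (X : D₁) (K : Subalgebra F D)
    (hK : K ≤ Algebra.adjoin F ({θ} : Set D)) :
    e.bc (Subalgebra.toSubmodule K) ≤
      Subalgebra.toSubmodule (Algebra.adjoin F₁ ({e.i θ, X} : Set D₁)) := by
  rw [CExt.bc, Submodule.span_le]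
  rintro _ ⟨w, hw, rfl⟩
  exact s3_i_mem e θ X w (hK hw)

theorem s3_comm (θ X : D₁) (hX : Commute X θ) (x : D₁)
    (hx : x ∈ Algebra.adjoin F₁ ({θ, X} : Set D₁)) : Commute x θ := by
  refine Algebra.adjoin_induction (p := fun x _ => Commute x θ) ?_ ?_ ?_ ?_ hx
  · rintro y (rfl | rfl)
    · exact Commute.refl _
    · exact hX
  · intro a
    exact Algebra.commutes _ _
  · intro y z _ _ hy hz
    exact hy.add_left hz
  · intro y z _ _ hy hz
    exact hy.mul_left hz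

end

/-- Orthogonality to the linear part gives orthogonality to `V ⊗ E`. -/
theorem s3_orth {s₀ s : St} (hC : St.Cmin s₀ s) {F₁ D₁ β : Type} [Field F₁] [CharZero F₁]
    [Ring D₁] [IsDomain D₁] [Algebra F₁ D₁] [FiniteDimensional F₁ D₁] [Algebra.IsCentral F₁ D₁]
    [Fintype β] (e : CExt s.F s.D F₁ D₁ β) (x : D₁) (hxc : Commute x (e.i (s.g [])))
    (hx : ∀ δ : s.ι → D₁, (∀ j, δ j ∈ e.E) → ntr F₁ D₁ (x * e.linE s.g δ) = 0)
    (w : s.D) (hw : w ∈ s.V) (z : D₁) (hz : z ∈ e.E) : ntr F₁ D₁ (x * (e.i w * z)) = 0 := by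
  obtain ⟨c, k, hck⟩ := S1a' hC w hw
  have h1 := hx (fun j => algebraMap F₁ D₁ (e.φ (c j)) * z)
    (fun j => mul_mem (e.alg_mem_E _) hz)
  rw [e.linE_const _ _ _ hz, hck, map_add, add_mul, mul_add, map_add] at h1
  have h2 : e.i (k * s.g [] - s.g [] * k) * z =
      (e.i k * z) * e.i (s.g []) - e.i (s.g []) * (e.i k * z) := by
    have h3 : e.i (s.g []) * z = z * e.i (s.g []) := ((e.mem_E_iff z).1 hz (s.g [])).eq
    rw [map_sub, map_mul, map_mul, sub_mul, mul_assoc, h3, mul_assoc, mul_assoc]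
  rw [h2, ntr_mul_comm_zero _ _ _ hxc, add_zero] at h1
  exact h1

end Crest.Agent.R180
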