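import Mathlib
import Crest.Agent.R180.S2
import Crest.Agent.R180.YStep
import Crest.Agent.R180.S3Aux

/-!
# Piece S3: at `o`-minimal states the defects are cyclically trivial modulo `V`

Let `0 ≠ v ∈ V`, `V₁ = v⁻¹ V`, `𝕂 = K(s)`, `W = Wsp V v`.  `S2`: `K m = v k(m)`, `k(m) ∈ 𝕂`.
Suppose `Σ_{j<N} K (rotate m₀ j) ∉ V` for some `m₀` (`|m₀| = N`; for other lengths `K = 0`).  By `mem_V_iff_orth` there is `c ∈ W` with
`Σ_j κ (rotate m₀ j) ≠ 0`, `κ(m) = ntr (c k(m))`.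
`exists_generic` (T2) gives `t ∈ V₁ \ F` with `p, t p ∈ W ⇒ p = 0`; `pair_of_t` gives `c₀, c₁, k₀, k₁`.
Prime `r ≥ N` large; `pi_tr` gives `Z` with `ntr (κ(Z)) ≠ 0`.  `ss` with `F₁ = Lau F₀`, `D₁ = Lau D₀`, `e = S.e.lau`,
`ω_j = η^{-1} (c₀_j u + c₁_j v)`: `X = v Y`, `Y = η^{-1} (u + t v) + k(Z)`, `k(Z) = evHom S.e Z N (v⁻¹ K)`.
Write `Y₀ = S.Y t`.  `A = F₁[θ, X]`; `redAlg A ⊇ F₀[θ, v Y₀]` so `m' ≥ r m` (`adjoin_eq_MY`, `finrank_MY`, `Y_indep`).
Let `M_Y = Σ_{k<r} (𝕂 F₁) Y^k ⊂ 𝕂 ⊗ E₁`, `dim M_Y = r nK` and `red1 M_Y = S.MY 𝕂 Y₀` (residues of `(η Y)^k`, `lc1`).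
`M_Y ∩ (W ⊗ E₁) = W F₁`: its reduction is contained in `S.MY 𝕂 Y₀ ∩ (W ⊗ E₀) = W F₀` (`MY_inf`), so it has dimension
`≤ o = dim W F₁`, and it contains `W F₁`.
Let `Null = {x ∈ W F₁ : ntr (x Y) = 0}`; `ntr (i c' Y) = ntr (i c' k(Z))` for `c' ∈ W` and `ntr (i c k(Z)) = ntr (κ(Z)) ≠ 0`, so
`dim Null ≤ o - 1`.  Let `M₀` be a complement of `Null` in `M_Y`, `M = M₀ v⁻¹ ⊂ A`.  If `x = p v⁻¹ ∈ M` kills all `linE g δ` and `X`, then
`p ∈ W ⊗ E₁` (`orth_bcE`), so `p ∈ W F₁`, and `ntr (p Y) = 0`, so `p ∈ Null`, `p = 0`.  `ESout.V`: `dV s' ≥ r nK - (o-1)`.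
`num_lemma` with `o₁ = o - 1` (`r` large): `s'` is `Amin`, `nK s' = r nK s ≥ B`, `oK s' ≤ o - 1 < o` (`o ≥ 1` since `c ≠ 0`), contradiction to `Omin`.
-/

set_option autoImplicit false
set_option linter.unusedSectionVars false

namespace Crest.Agent.R180
open Module

/-- the core: existence of the next state with small defect `o`. -/
theorem s3_core {s₀ s : St} (hA : St.Amin s₀ s) (N : ℕ)
    (w : s.ι → NPS (Fin 2) s.F) (U K : NPS (Fin 2) s.D) (fam : s.IsFam N w U K)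
    (v : s.D) (hv : v ∈ s.V) (hv0 : v ≠ 0) (k : NPS (Fin 2) s.D) (hkK : ∀ m, k m ∈ s.K)
    (hKk : ∀ m, K m = v * k m) (t : s.D) (htV : v * t ∈ s.V)
    (htW : ∀ p ∈ Wsp (Vs s.F s.g) v, t * p ∈ Wsp (Vs s.F s.g) v → p = 0)
    (c₀ c₁ : s.ι → s.F) (k₀ k₁ : s.D)
    (hc₀ : lin s.F s.g c₀ = v + (k₀ * s.g [] - s.g [] * k₀))
    (hc₁ : lin s.F s.g c₁ = v * t + (k₁ * s.g [] - s.g [] * k₁))
    (c : s.D) (hc : c ∈ Wsp (Vs s.F s.g) v)
    (r : ℕ) (hr : 1 < r) (ζ : s.F) (hζ : IsPrimitiveRoot ζ r)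
    {F₀ D₀ : Type} [Field F₀] [CharZero F₀] [Ring D₀] [IsDomain D₀] [Algebra F₀ D₀]
    [FiniteDimensional F₀ D₀] [Algebra.IsCentral F₀ D₀] (S : SymData s.F s.D F₀ D₀ r ζ)
    (Z : Fin 2 → D₀) (hZ : ∀ i, Z i ∈ S.e.E) (hgen : S.GenZ Z)
    (hκ : ntr F₀ D₀ (S.evk N (fun m => ntr s.F s.D (c * k m)) Z) ≠ 0) :
    ∃ s' : St, St.Cls s₀ s' ∧ s'.n2 = r ^ 2 * s.n2 ∧ r * s.m ≤ s'.m ∧
      r * s.nK ≤ s'.dV + (s.oK - 1) := by
  have hCm : St.Cmin s₀ s := hA.1
  have hCls : St.Cls s₀ s := hCm.1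
  have hr0 : 0 < r := by omega
  -- the element `Y'`
  set kZ : D₀ := evHom S.e Z N k with hkZ
  set y : Lau D₀ := lc (S.Y t) + epow 1 * lc kZ with hy
  set Y' : Lau D₀ := epow (-1) * lc (S.Y t) + lc kZ with hY'
  have hyY : y = epow 1 * Y' := by
    rw [hy, hY', mul_add, ← mul_assoc, ← epow_add]
    have : (1 : ℤ) + -1 = 0 := by norm_num
    rw [this, epow_zero, one_mul]
  have hyi : IsInt y := by
    refine (isInt_lc _).add ?_
    intro n hn
    rw [epow_coeff_mul]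
    exact lc_coeff_ne _ _ (by omega)
  have hy0 : y.coeff 0 = S.Y t := by
    rw [hy, HahnSeries.coeff_add, lc_coeff_zero, epow_coeff_mul, lc_coeff_ne _ _ (by norm_num),
      add_zero]
  -- the direction
  have huE : (epow (-1) * lc S.u : Lau D₀) ∈ S.e.lau.E := by
    rw [S.e.lau_mem_E]
    intro n
    rw [epow_coeff_mul]
    by_cases h0 : n - -1 = 0
    · rw [h0, lc_coeff_zero]; exact S.u_mem_E
    · rw [lc_coeff_ne _ _ h0]; exact zero_mem _
  have hvE : (epow (-1) * lc S.v : Lau D₀) ∈ S.e.lau.E := by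
    rw [S.e.lau_mem_E]
    intro n
    rw [epow_coeff_mul]
    by_cases h0 : n - -1 = 0
    · rw [h0, lc_coeff_zero]; exact S.v_mem_E
    · rw [lc_coeff_ne _ _ h0]; exact zero_mem _
  set yu : Lau D₀ := epow (-1) * lc S.u with hyu
  set yv : Lau D₀ := epow (-1) * lc S.v with hyv
  set ω : s.ι → Lau D₀ := fun j =>
    algebraMap (Lau F₀) (Lau D₀) (S.e.lau.φ (c₀ j)) * yu +
      algebraMap (Lau F₀) (Lau D₀) (S.e.lau.φ (c₁ j)) * yv with hω
  have hωE : ∀ j, ω j ∈ S.e.lau.E := fun j =>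
    add_mem (mul_mem (S.e.lau.alg_mem_E _) huE) (mul_mem (S.e.lau.alg_mem_E _) hvE)
  have hlin : S.e.lau.linE s.g ω = S.e.lau.i (lin s.F s.g c₀) * yu +
      S.e.lau.i (lin s.F s.g c₁) * yv := by
    rw [← S.e.lau.linE_const s.g c₀ yu huE, ← S.e.lau.linE_const s.g c₁ yv hvE]
    unfold CExt.linE
    rw [← Finset.sum_add_distrib]
    exact Finset.sum_congr rfl fun j _ => mul_add _ _ _
  have hcomm : ∀ (kk : s.D) (z : Lau D₀), z ∈ S.e.lau.E →
      S.e.lau.i (kk * s.g [] - s.g [] * kk) * z =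
        (S.e.lau.i kk * z) * S.e.lau.i (s.g []) - S.e.lau.i (s.g []) * (S.e.lau.i kk * z) := by
    intro kk z hz
    have h3 : S.e.lau.i (s.g []) * z = z * S.e.lau.i (s.g []) :=
      ((S.e.lau.mem_E_iff z).1 hz (s.g [])).eq
    rw [map_sub, map_mul, map_mul, sub_mul, mul_assoc, h3, mul_assoc, mul_assoc]
  have hx : S.e.lau.linE s.g ω = (S.e.lau.i v * yu + S.e.lau.i (v * t) * yv) +
      ((S.e.lau.i k₀ * yu + S.e.lau.i k₁ * yv) * S.e.lau.i (s.g []) -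
        S.e.lau.i (s.g []) * (S.e.lau.i k₀ * yu + S.e.lau.i k₁ * yv)) := by
    rw [hlin, hc₀, hc₁, map_add, map_add, add_mul, add_mul, hcomm k₀ yu huE, hcomm k₁ yv hvE,
      add_mul, mul_add]
    abel
  have hvθ : Commute v (s.g []) := V_comm v hv
  have hvtθ : Commute (v * t) (s.g []) := V_comm (v * t) htV
  have hxc : Commute (S.e.lau.i v * yu + S.e.lau.i (v * t) * yv) (S.e.lau.i (s.g [])) := by
    refine Commute.add_left (Commute.mul_left (hvθ.map _) ?_) (Commute.mul_left (hvtθ.map _) ?_)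
    · exact ((S.e.lau.mem_E_iff yu).1 huE (s.g [])).symm
    · exact ((S.e.lau.mem_E_iff yv).1 hvE (s.g [])).symm
  have hZ' : ∀ i, (lc (Z i) : Lau D₀) ∈ S.e.lau.E := by
    intro i
    rw [S.e.lau_mem_E]
    intro n
    by_cases h0 : n = 0
    · rw [h0, lc_coeff_zero]; exact hZ i
    · rw [lc_coeff_ne _ _ h0]; exact zero_mem _
  obtain ⟨s', hs'⟩ := ss s hCls.2.1 S.e.lau N w U K fam (fun i => (lc (Z i) : Lau D₀)) hZ'
    (S.e.lau_gen Z hgen) ω hωE _ _ hx hxc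
  -- `X = v Y'`
  have hX : evHom S.e.lau (fun i => (lc (Z i) : Lau D₀)) N K +
      (S.e.lau.i v * yu + S.e.lau.i (v * t) * yv) = S.e.lau.i v * Y' := by
    rw [s3_evHom_mul S.e.lau _ N v K k hKk, s3_evHom_lau, ← hkZ, hY', mul_add, add_comm]
    congr 1
    have h1 : (lc (S.Y t) : Lau D₀) = lc S.u + S.e.lau.i t * lc S.v := by
      show lc (S.u + S.e.i t * S.v) = lc S.u + lc (S.e.i t) * lc S.v
      rw [map_add, map_mul]
    rw [h1, map_mul, mul_assoc, ← mul_add, hyu, hyv]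
    congr 1
    rw [mul_add]
    congr 1
    rw [← mul_assoc, ← mul_assoc, epow_comm]
  have hXc : Commute (S.e.lau.i v * Y') (S.e.lau.i (s.g [])) := by
    rw [← hX]
    refine Commute.add_left ?_ hxc
    unfold evHom
    refine Commute.sum_left _ _ _ fun m _ => ?_
    refine Commute.mul_left ((fam.Kcomm _).map S.e.lau.i) ?_
    refine Commute.symm ?_
    refine Commute.list_prod_right _ _ fun y hy => ?_
    obtain ⟨i, _, rfl⟩ := List.mem_map.1 hy
    exact (S.e.lau.mem_E_iff _).1 (hZ' i) _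
  rw [hX] at hs'
  have hvL : v ∈ Algebra.adjoin s.F ({s.g []} : Set s.D) := Vs_le s.g hv
  have htK : t ∈ Kalg (Vs s.F s.g) := V1_le_K s.g v hv hv0 htV
  have htL : t ∈ Algebra.adjoin s.F ({s.g []} : Set s.D) := Kalg_le s.g htK
  set A := Algebra.adjoin (Lau F₀)
    ({S.e.lau.i (s.g []), S.e.lau.i v * Y'} : Set (Lau D₀)) with hAdef
  have hXA : S.e.lau.i v * Y' ∈ A := Algebra.subset_adjoin (by simp)
  have hvy : S.e.lau.i v * y ∈ A := by
    have h1 : S.e.lau.i v * y = (epow 1 : Lau F₀) • (S.e.lau.i v * Y') := by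
      rw [epow_smul, hyY, ← mul_assoc, ← mul_assoc, epow_comm]
    rw [h1]
    exact A.smul_mem hXA _
  refine ⟨s', hs'.cls hCls, ?_, ?_, ?_⟩
  · rw [hs'.n2, lau_finrank, S.finrank_D0]
    rfl
  · refine le_trans ?_ hs'.m
    rw [← hAdef, ← finrank_redAlg]
    have h2 : finrank F₀ (Algebra.adjoin F₀ ({S.e.i (s.g []), S.e.i v * S.Y t} : Set D₀)) =
        r * s.m := by
      have h3 := adjoin_eq_MY S hr hζ (s.g []) v t hvL htL hv0
      have h4 := S.finrank_MY (Subalgebra.toSubmodule (Algebra.adjoin s.F ({s.g []} : Set s.D)))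
        (S.Y t) (S.Y_indep hr0 hζ t)
      rw [← h3] at h4
      exact h4
    rw [← h2]
    have h5 : Algebra.adjoin F₀ ({S.e.i (s.g []), S.e.i v * S.Y t} : Set D₀) ≤ redAlg A := by
      rw [Algebra.adjoin_le_iff]
      rintro x (rfl | rfl)
      · refine ⟨lc (S.e.i (s.g [])), Algebra.subset_adjoin (Or.inl rfl), isInt_lc _,
          lc_coeff_zero _⟩
      · refine ⟨S.e.lau.i v * y, hvy, ((isInt_lc (S.e.i v)).mul hyi).1, ?_⟩
        have := ((isInt_lc (S.e.i v)).mul hyi).2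
        rw [lc_coeff_zero, hy0] at this
        exact this
    exact Submodule.finrank_mono (s := Subalgebra.toSubmodule
      (Algebra.adjoin F₀ ({S.e.i (s.g []), S.e.i v * S.Y t} : Set D₀)))
      (t := Subalgebra.toSubmodule (redAlg A)) h5
  · have hYE : S.Y t ∈ S.e.bcE (Subalgebra.toSubmodule (Kalg (Vs s.F s.g))) := by
      refine add_mem ?_ (S.e.mul_mem_bcE _ _ htK _ S.v_mem_E)
      have := S.e.mul_mem_bcE (Subalgebra.toSubmodule (Kalg (Vs s.F s.g))) 1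
        (one_mem (Kalg (Vs s.F s.g))) S.u S.u_mem_E
      rwa [map_one, one_mul] at this
    have hkE : kZ ∈ S.e.bcE (Subalgebra.toSubmodule (Kalg (Vs s.F s.g))) :=
      s3_evHom_mem S.e Z hZ N _ k hkK
    have hyK : y ∈ S.e.lau.bcE (Subalgebra.toSubmodule (Kalg (Vs s.F s.g))) := by
      rw [S.e.lau_mem_bcE]
      intro n
      rw [hy, HahnSeries.coeff_add, epow_coeff_mul]
      refine add_mem ?_ ?_
      · by_cases h0 : n = 0
        · rw [h0, lc_coeff_zero]; exact hYE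
        · rw [lc_coeff_ne _ _ h0]; exact zero_mem _
      · by_cases h0 : n - 1 = 0
        · rw [h0, lc_coeff_zero]; exact hkE
        · rw [lc_coeff_ne _ _ h0]; exact zero_mem _
    have hcY : ntr (Lau F₀) (Lau D₀) (S.e.lau.i c * Y') ≠ 0 := by
      intro h0
      apply hκ
      rw [← s3_ntr_evk S Z hZ N k c]
      have h1 := ntr_lau (F := F₀) (S.e.lau.i c * Y') 0
      rw [h0] at h1
      have h2 : (S.e.lau.i c * Y').coeff 0 = S.e.i c * kZ := by
        have h3 : (S.e.lau.i c * Y').coeff 0 = S.e.i c * Y'.coeff 0 := lc_mul_coeff _ _ _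
        rw [h3, hY', HahnSeries.coeff_add, lc_coeff_zero, epow_coeff_mul,
          lc_coeff_ne _ _ (by norm_num), zero_add]
      rw [h2] at h1
      exact h1.symm
    obtain ⟨M₀, hM₀, hdim, hnd⟩ := s3_main S hr hζ (Kalg (Vs s.F s.g))
      (Kalg_comm s.g v hv hv0) t htK (V1 (Vs s.F s.g) v) (Wsp (Vs s.F s.g) v)
      (fun x => Iff.rfl) htW y hyi hy0 hyK Y' c hc hcY
    obtain ⟨vi, hviL, hvvi, hviv⟩ := exists_inverse_mem _ v hvL hv0
    have hi1 : S.e.lau.i vi * S.e.lau.i v = 1 := by rw [← map_mul, hviv, map_one]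
    have hi2 : S.e.lau.i v * S.e.lau.i vi = 1 := by rw [← map_mul, hvvi, map_one]
    have hviA : S.e.lau.i vi ∈ A := s3_i_mem S.e.lau _ _ vi hviL
    have hyA : y ∈ A := by
      have h1 : y = S.e.lau.i vi * (S.e.lau.i v * y) := by rw [← mul_assoc, hi1, one_mul]
      rw [h1]
      exact A.mul_mem hviA hvy
    have hMA : s3MYL S (Subalgebra.toSubmodule (Kalg (Vs s.F s.g))) y ≤ Subalgebra.toSubmodule A := by
      intro x hx
      rw [s3_mem_MYL] at hx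
      obtain ⟨p, hp, rfl⟩ := hx
      refine Submodule.sum_mem _ fun j _ => A.mul_mem ?_ (A.pow_mem hyA _)
      exact s3_bc_le S.e.lau (s.g []) (S.e.lau.i v * Y') _ (Kalg_le s.g) (hp j)
    let f : Lau D₀ →ₗ[Lau F₀] Lau D₀ := LinearMap.mulRight (Lau F₀) (S.e.lau.i vi)
    have hf : Function.Injective f := by
      rw [injective_iff_map_eq_zero]
      intro x hx
      have h1 : x * S.e.lau.i vi = 0 := hx
      have h2 : x * S.e.lau.i vi * S.e.lau.i v = 0 := by rw [h1, zero_mul]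
      rwa [mul_assoc, hi1, mul_one] at h2
    have hfr : finrank (Lau F₀) (M₀.map f) = finrank (Lau F₀) M₀ :=
      (Submodule.equivMapOfInjective f hf M₀).symm.finrank_eq
    have hV := hs'.V (M₀.map f) (by
      rintro _ ⟨p, hp, rfl⟩
      exact A.mul_mem (hMA (hM₀ hp)) hviA) (by
      rintro _ ⟨p, hp, rfl⟩ h1 h2
      have hpA : p * S.e.lau.i vi ∈ A := A.mul_mem (hMA (hM₀ hp)) hviA
      have hxc' : Commute (p * S.e.lau.i vi) (S.e.lau.i (s.g [])) := s3_comm _ _ hXc _ hpA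
      have hp0 : p = 0 := by
        refine hnd p hp ?_ ?_
        · intro d hd z hz
          have h3 := s3_orth hCm S.e.lau (p * S.e.lau.i vi) hxc' h1 (v * d) hd z hz
          have h4 : p * S.e.lau.i vi * (S.e.lau.i (v * d) * z) = p * (S.e.lau.i d * z) := by
            rw [map_mul, mul_assoc, mul_assoc, ← mul_assoc (S.e.lau.i vi), hi1, one_mul]
          rw [h4, ntr_comm] at h3
          exact h3
        · have h4 : p * S.e.lau.i vi * (S.e.lau.i v * Y') = p * Y' := by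
            rw [mul_assoc, ← mul_assoc (S.e.lau.i vi), hi1, one_mul]
          rw [← h4]
          exact h2
      rw [hp0, map_zero])
    rw [hfr] at hV
    have h5 : finrank s.F (Wsp (Vs s.F s.g) v) = s.oK := finrank_Wsp s.g v hv hv0
    rw [h5] at hdim
    have h6 : finrank s.F (Kalg (Vs s.F s.g)) = s.nK := rfl
    rw [h6] at hdim
    omega

theorem S3 {s₀ s : St} {B : ℕ} (h : St.Omin s₀ B s) (hd : 2 * s.oK + 2 ≤ s.dV) (N : ℕ)
    (w : s.ι → NPS (Fin 2) s.F) (U K : NPS (Fin 2) s.D) (fam : s.IsFam N w U K)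
    (m : List (Fin 2)) :
    ∑ j ∈ Finset.range N, K (m.rotate j) ∈ s.V := by
  by_contra hm
  have hA : St.Amin s₀ s := h.1.1
  have hCm : St.Cmin s₀ s := hA.1
  have hCls : St.Cls s₀ s := hCm.1
  have hlen : m.length = N := by
    by_contra hne
    apply hm
    have : ∀ j ∈ Finset.range N, K (m.rotate j) = 0 := fun j _ =>
      fam.Kdeg _ (by rwa [List.length_rotate])
    rw [Finset.sum_eq_zero this]
    exact zero_mem _
  obtain ⟨v, hv, hv0⟩ : ∃ v ∈ s.V, v ≠ 0 := (Submodule.ne_bot_iff _).1 hCls.2.2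
  choose k hkK hKk using S2 hA N w U K fam v hv hv0
  -- the functional
  obtain ⟨c, hc, hcs⟩ : ∃ c ∈ Wsp (Vs s.F s.g) v,
      ntr s.F s.D (c * ∑ j ∈ Finset.range N, k (m.rotate j)) ≠ 0 := by
    by_contra hno
    push Not at hno
    apply hm
    have h1 : ∑ j ∈ Finset.range N, K (m.rotate j) =
        v * ∑ j ∈ Finset.range N, k (m.rotate j) := by
      rw [Finset.mul_sum]
      exact Finset.sum_congr rfl fun j _ => hKk _
    rw [h1]
    exact (mem_V_iff_orth s.g v hv hv0 _).2 ⟨sum_mem fun j _ => hkK _, hno⟩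
  obtain ⟨t, htV, htF, htW⟩ := exists_generic s.g v hv hv0 hd
  obtain ⟨c₀, c₁, k₀, k₁, hgp, hc₀, hc₁⟩ := pair_of_t hCm v t hv hv0 htV htF
  obtain ⟨r, hrN, hrp⟩ := Nat.exists_infinite_primes (N + (s.aK + 1) * s.oK + 1)
  obtain ⟨ζ, hζ⟩ := s.rou r hrp.pos
  obtain ⟨F₀, D₀, _, _, _, _, _, _, _, ⟨S⟩⟩ := exists_sym s.F s.D r hrp ζ hζ
  have hN1 : 1 ≤ N := le_trans (by norm_num) fam.hN
  obtain ⟨Z, hZ, hgen, hκ⟩ := S.pi_tr hrp hζ N hN1 (by omega)
    (fun m => ntr s.F s.D (c * k m)) (by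
      subst hlen
      refine ⟨m.get, ?_⟩
      rw [List.ofFn_get]
      rwa [Finset.mul_sum, map_sum] at hcs)
  obtain ⟨s', hC', hn', hm', hV'⟩ := s3_core hA N w U K fam v hv hv0 k hkK hKk t htV htW
    c₀ c₁ k₀ k₁ hc₀ hc₁ c hc r hrp.one_lt ζ hζ S Z hZ hgen hκ
  have ho1 : 1 ≤ s.oK := by
    have h1 := finrank_Wsp s.g v hv hv0
    have h2 : 0 < finrank s.F (Wsp (Vs s.F s.g) v) := by
      rw [Module.finrank_pos_iff_exists_ne_zero]
      refine ⟨⟨c, hc⟩, ?_⟩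
      intro h0
      apply hcs
      have : c = 0 := congrArg Subtype.val h0
      rw [this, zero_mul, map_zero]
    have h3 : s.oK = finrank s.F (Wsp (Vs s.F s.g) v) := h1.symm
    omega
  have hnK := num_nK_pos s
  obtain ⟨hA', -, hnK', -, ho'⟩ := num_lemma hA hC' r hrp.pos hn' hm' (s.oK - 1) hV' (by
    have h1 : (s.aK + 1) * (s.oK - 1) ≤ (s.aK + 1) * s.oK := Nat.mul_le_mul_left _ (by omega)
    have h2 : r * 1 ≤ r * s.nK := Nat.mul_le_mul_left _ hnK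
    omega)
  have h4 := h.2 s' hA' (by
    rw [hnK']
    have h1 := h.1.2
    have h2 : 1 * s.nK ≤ r * s.nK := Nat.mul_le_mul_right _ hrp.pos
    omega)
  omega

end Crest.Agent.R180
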