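import Mathlib
import Crest.Agent.R180.Eval
import Crest.Agent.R180.NPSApi

/-!
# SOLVE, auxiliary file 1: low order terms of a substitution and of its perturbations
-/

set_option autoImplicit false
set_option linter.unusedSectionVars false

namespace Crest.Agent.R180
open Module

section prod
variable {κ D : Type} [Ring D]

theorem slv_mul_left_eq (f g : NPS κ D) (N : ℕ) (hf : ∀ m : List κ, m.length < N → f m = 0)
    (m : List κ) (hm : m.length = N) : (f * g) m = f m * g [] := by
  rw [NPS.mul_apply, hm, Finset.sum_range_succ, Finset.sum_eq_zero, zero_add]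
  · rw [← hm, List.take_length, List.drop_length]
  · intro k hk
    rw [Finset.mem_range] at hk
    rw [hf _ (by rw [List.length_take]; omega), zero_mul]

theorem slv_mul_left_succ (f g : NPS κ D) (N : ℕ) (hf : ∀ m : List κ, m.length < N → f m = 0)
    (m : List κ) (hm : m.length = N + 1) :
    (f * g) m = f m * g [] + f (m.take N) * g (m.drop N) := by
  rw [NPS.mul_apply, hm, Finset.sum_range_succ, Finset.sum_range_succ, Finset.sum_eq_zero, zero_add]
  · rw [← hm, List.take_length, List.drop_length, add_comm]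
  · intro k hk
    rw [Finset.mem_range] at hk
    rw [hf _ (by rw [List.length_take]; omega), zero_mul]

theorem slv_mul_right_eq (f g : NPS κ D) (N : ℕ) (hg : ∀ m : List κ, m.length < N → g m = 0)
    (m : List κ) (hm : m.length = N) : (f * g) m = f [] * g m := by
  rw [NPS.mul_apply, Finset.sum_range_succ', Finset.sum_eq_zero, zero_add]
  · simp
  · intro k hk
    rw [Finset.mem_range] at hk
    rw [hg _ (by rw [List.length_drop]; omega), mul_zero]

theorem slv_mul_right_succ (f g : NPS κ D) (N : ℕ) (hg : ∀ m : List κ, m.length < N → g m = 0)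
    (m : List κ) (hm : m.length = N + 1) :
    (f * g) m = f [] * g m + f (m.take 1) * g (m.drop 1) := by
  rw [NPS.mul_apply, hm, Finset.sum_range_succ', Finset.sum_range_succ', Finset.sum_eq_zero, zero_add]
  · simp [add_comm]
  · intro k hk
    rw [Finset.mem_range] at hk
    rw [hg _ (by rw [List.length_drop]; omega), mul_zero]

end prod

section subst
variable {F D ι : Type} [Field F] [Ring D] [Algebra F D] [Fintype ι] [DecidableEq ι]

theorem slv_lin_def (f : NPS ι D) (c : ι → F) : lin F f c = ∑ j, c j • f [j] := rfl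

theorem slv_subst_nil {κ : Type} (w : ι → NPS κ F) (f : NPS ι D) :
    (subst w f : NPS κ D) [] = f [] := by
  unfold subst
  simp

theorem slv_subst_var {κ : Type} (w : ι → NPS κ F) (w0 : ∀ j, w j [] = 0) (j : ι) :
    (subst w (NPS.var j : NPS ι D) : NPS κ D) = NPS.map (algebraMap F D) (w j) := by
  refine NPS.ext fun m => ?_
  rw [NPS.map_apply]
  cases m with
  | nil =>
    rw [slv_subst_nil, w0, map_zero]
    simp [NPS.var]
  | cons i m =>
    unfold subst
    rw [Finset.sum_eq_single 1]
    · rw [Finset.sum_eq_single (fun _ => j)]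
      · simp [NPS.var]
      · intro l _ hl
        have h0 : (NPS.var j : NPS ι D) (List.ofFn l) = 0 := by
          unfold NPS.var
          rw [if_neg]
          intro h
          apply hl
          funext k
          have : k = 0 := Subsingleton.elim _ _
          subst this
          simpa using h
        rw [h0, mul_zero]
      · intro h; exact absurd (Finset.mem_univ _) h
    · intro k _ hk
      refine Finset.sum_eq_zero fun l _ => ?_
      have h0 : (NPS.var j : NPS ι D) (List.ofFn l) = 0 := by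
        unfold NPS.var
        rw [if_neg]
        intro h
        apply hk
        have := congrArg List.length h
        simpa using this
      rw [h0, mul_zero]
    · intro h
      exact absurd (Finset.mem_range.2 (by simp)) h

theorem slv_decomp (f : NPS ι D) :
    f = NPS.C (f []) + ∑ j, (NPS.var j : NPS ι D) * NPS.tl j f := by
  refine NPS.ext fun m => ?_
  rw [NPS.add_apply, EvalAux.nps_sum_apply]
  cases m with
  | nil => simp [NPS.var]
  | cons a m =>
    rw [NPS.C_cons, zero_add, Finset.sum_eq_single a]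
    · rw [NPS.var_mul_cons, if_pos rfl, NPS.tl_apply]
    · intro b _ hb
      rw [NPS.var_mul_cons, if_neg (fun h => hb h.symm)]
    · intro h; exact absurd (Finset.mem_univ _) h

/-- recursion for the substitution -/
theorem slv_subst_rec {κ : Type} (w : ι → NPS κ F) (w0 : ∀ j, w j [] = 0) (f : NPS ι D) :
    (subst w f : NPS κ D) = NPS.C (f []) +
      ∑ j, NPS.map (algebraMap F D) (w j) * subst w (NPS.tl j f) := by
  obtain ⟨Φ, hΦ, hC⟩ := exists_substHom (D := D) w w0
  have h1 : Φ f = Φ (NPS.C (f []) + ∑ j, (NPS.var j : NPS ι D) * NPS.tl j f) :=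
    congrArg Φ (slv_decomp f)
  rw [map_add, hC, map_sum] at h1
  rw [← hΦ f, h1]
  congr 1
  refine Finset.sum_congr rfl fun j _ => ?_
  rw [map_mul, hΦ, hΦ, slv_subst_var w w0]

theorem slv_subst_one {κ : Type} (w : ι → NPS κ F) (w0 : ∀ j, w j [] = 0) (f : NPS ι D) (i : κ) :
    (subst w f : NPS κ D) [i] = lin F f (fun j => w j [i]) := by
  rw [slv_subst_rec w w0, NPS.add_apply, NPS.C_cons, zero_add, EvalAux.nps_sum_apply, slv_lin_def]
  refine Finset.sum_congr rfl fun j _ => ?_
  rw [NPS.mul_one_letter, NPS.map_apply, NPS.map_apply, w0, map_zero, zero_mul, zero_add,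
    slv_subst_nil, NPS.tl_apply, Algebra.smul_def]

theorem slv_subst_two {κ : Type} (w : ι → NPS κ F) (w0 : ∀ j, w j [] = 0) (f : NPS ι D) (i k : κ) :
    (subst w f : NPS κ D) [i, k] = lin F f (fun j => w j [i, k]) +
      quad F f (fun j => w j [i]) (fun j => w j [k]) := by
  rw [slv_subst_rec w w0, NPS.add_apply, NPS.C_cons, zero_add, EvalAux.nps_sum_apply, slv_lin_def,
    quad, ← Finset.sum_add_distrib]
  refine Finset.sum_congr rfl fun j _ => ?_
  rw [NPS.mul_two_letters, NPS.map_apply, NPS.map_apply, NPS.map_apply, w0, map_zero, zero_mul,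
    zero_add, slv_subst_nil, NPS.tl_apply, slv_subst_one w w0, slv_lin_def, Algebra.smul_def,
    add_comm, Finset.mul_sum]
  congr 1
  refine Finset.sum_congr rfl fun l _ => ?_
  rw [mul_smul, Algebra.smul_def (w j [i])]
  rfl

/-- the perturbation, recursively -/
theorem slv_pert_rec {κ : Type} (w δ : ι → NPS κ F) (w0 : ∀ j, w j [] = 0) (δ0 : ∀ j, δ j [] = 0)
    (f : NPS ι D) (m : List κ) :
    (subst (fun j => w j + δ j) f : NPS κ D) m - (subst w f : NPS κ D) m =
      ∑ j, ((NPS.map (algebraMap F D) (δ j) * subst (fun j => w j + δ j) (NPS.tl j f)) m +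
        (NPS.map (algebraMap F D) (w j) * (subst (fun j => w j + δ j) (NPS.tl j f) -
          subst w (NPS.tl j f))) m) := by
  have w0' : ∀ j, (fun j => w j + δ j) j [] = 0 := by
    intro j
    show w j [] + δ j [] = 0
    rw [w0, δ0, add_zero]
  conv_lhs => rw [slv_subst_rec _ w0', slv_subst_rec w w0]
  rw [NPS.add_apply, NPS.add_apply, add_sub_add_left_eq_sub, EvalAux.nps_sum_apply,
    EvalAux.nps_sum_apply, ← Finset.sum_sub_distrib]
  refine Finset.sum_congr rfl fun j _ => ?_
  have key : (NPS.map (algebraMap F D) (w j + δ j) * subst (fun j => w j + δ j) (NPS.tl j f) -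
      NPS.map (algebraMap F D) (w j) * subst w (NPS.tl j f) : NPS κ D) =
      (NPS.map (algebraMap F D) (δ j) * subst (fun j => w j + δ j) (NPS.tl j f)) +
        (NPS.map (algebraMap F D) (w j) * (subst (fun j => w j + δ j) (NPS.tl j f) -
          subst w (NPS.tl j f))) := by
    rw [map_add]
    noncomm_ring
  exact congrFun key m

theorem slv_pert_lt {κ : Type} (w δ : ι → NPS κ F) (w0 : ∀ j, w j [] = 0) (N : ℕ) (hN : 1 ≤ N)
    (hδ : ∀ j, ∀ m : List κ, m.length < N → δ j m = 0) :
    ∀ n ≤ N, ∀ (f : NPS ι D) (m : List κ), m.length < n →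
      ((subst (fun j => w j + δ j) f : NPS κ D) - (subst w f : NPS κ D)) m = 0 := by
  have δ0 : ∀ j, δ j [] = 0 := fun j => hδ j [] (by simp; omega)
  intro n
  induction n with
  | zero => intro _ f m hm; omega
  | succ n ih =>
    intro hn f m hm
    rw [NPS.sub_apply, slv_pert_rec w δ w0 δ0]
    refine Finset.sum_eq_zero fun j _ => ?_
    rw [NPS.mul_order N 0 _ _ (fun m hm => by rw [NPS.map_apply, hδ j m hm, map_zero])
      (fun m hm => by omega) m (by omega), zero_add]
    refine NPS.mul_order 1 n _ _ (fun m hm => ?_) (fun m hm => ih (by omega) _ m hm) m (by omega)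
    have : m = [] := List.length_eq_zero_iff.1 (by omega)
    rw [this, NPS.map_apply, w0, map_zero]

theorem slv_pert_eq {κ : Type} (w δ : ι → NPS κ F) (w0 : ∀ j, w j [] = 0) (N : ℕ) (hN : 1 ≤ N)
    (hδ : ∀ j, ∀ m : List κ, m.length < N → δ j m = 0) (f : NPS ι D) (m : List κ)
    (hm : m.length = N) :
    ((subst (fun j => w j + δ j) f : NPS κ D) - (subst w f : NPS κ D)) m =
      lin F f (fun j => δ j m) := by
  have δ0 : ∀ j, δ j [] = 0 := fun j => hδ j [] (by simp; omega)
  rw [NPS.sub_apply, slv_pert_rec w δ w0 δ0, slv_lin_def]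
  refine Finset.sum_congr rfl fun j _ => ?_
  rw [slv_mul_left_eq _ _ N (fun m hm => by rw [NPS.map_apply, hδ j m hm, map_zero]) m hm,
    slv_mul_right_eq _ _ N (fun m hm => slv_pert_lt w δ w0 N hN hδ N le_rfl _ m hm) m hm,
    NPS.map_apply, NPS.map_apply, w0, map_zero, zero_mul, add_zero, slv_subst_nil, NPS.tl_apply,
    Algebra.smul_def]

theorem slv_pert_succ {κ : Type} (w δ : ι → NPS κ F) (w0 : ∀ j, w j [] = 0) (N : ℕ) (hN : 2 ≤ N)
    (hδ : ∀ j, ∀ m : List κ, m.length < N → δ j m = 0) (f : NPS ι D) (m : List κ)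
    (hm : m.length = N + 1) :
    ((subst (fun j => w j + δ j) f : NPS κ D) - (subst w f : NPS κ D)) m =
      lin F f (fun j => δ j m) + quad F f (fun j => δ j (m.take N)) (fun j => w j (m.drop N)) +
        quad F f (fun j => w j (m.take 1)) (fun j => δ j (m.drop 1)) := by
  have δ0 : ∀ j, δ j [] = 0 := fun j => hδ j [] (by simp; omega)
  have w0' : ∀ j, (fun j => w j + δ j) j [] = 0 := by
    intro j
    show w j [] + δ j [] = 0
    rw [w0, δ0, add_zero]
  obtain ⟨l, hl⟩ : ∃ l, m.drop N = [l] := by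
    rw [← List.length_eq_one_iff, List.length_drop]; omega
  rw [NPS.sub_apply, slv_pert_rec w δ w0 δ0, slv_lin_def, quad, quad, ← Finset.sum_add_distrib,
    ← Finset.sum_add_distrib]
  refine Finset.sum_congr rfl fun j _ => ?_
  rw [slv_mul_left_succ _ _ N (fun m hm => by rw [NPS.map_apply, hδ j m hm, map_zero]) m hm,
    slv_mul_right_succ _ _ N (fun m hm => slv_pert_lt w δ w0 N (by omega) hδ N le_rfl _ m hm) m hm,
    NPS.map_apply, NPS.map_apply, NPS.map_apply, NPS.map_apply, w0, map_zero, zero_mul, zero_add,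
    slv_subst_nil, NPS.tl_apply, ← Algebra.smul_def,
    slv_pert_eq w δ w0 N (by omega) hδ _ (m.drop 1) (by rw [List.length_drop]; omega), hl,
    slv_subst_one _ w0', slv_lin_def, slv_lin_def, Finset.mul_sum, Finset.mul_sum]
  congr 1
  · congr 1
    refine Finset.sum_congr rfl fun k _ => ?_
    have : (w k + δ k) [l] = w k [l] := by
      show w k [l] + δ k [l] = w k [l]
      rw [hδ k [l] (by simp; omega), add_zero]
    show (algebraMap F D) (δ j (List.take N m)) * ((w k + δ k) [l] • NPS.tl j f [k]) =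
      (δ j (List.take N m) * w k [l]) • f [j, k]
    rw [this, mul_smul, ← Algebra.smul_def]
    rfl
  · refine Finset.sum_congr rfl fun k _ => ?_
    rw [mul_smul, ← Algebra.smul_def]
    rfl

/-- the defect -/
noncomputable def slvE {κ : Type} (g : NPS ι D) (w : ι → NPS κ F) (U : NPS κ D) : NPS κ D :=
  (subst w g : NPS κ D) * U - U * NPS.C (g [])

/-- `G₂` -/
noncomputable def slvG2 (g : NPS ι D) (ξ ξ' : ι → F) (h : D) : D := quad F g ξ ξ' + lin F g ξ * h

theorem slvE_nil {κ : Type} (g : NPS ι D) (w : ι → NPS κ F) (U : NPS κ D) (U0 : U [] = 1) :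
    slvE g w U [] = 0 := by
  unfold slvE
  rw [NPS.sub_apply, NPS.mul_nil, NPS.mul_nil, slv_subst_nil, U0]
  simp

theorem slvE_one {κ : Type} (g : NPS ι D) (w : ι → NPS κ F) (w0 : ∀ j, w j [] = 0) (U : NPS κ D)
    (U0 : U [] = 1) (i : κ) :
    slvE g w U [i] = lin F g (fun j => w j [i]) + (g [] * U [i] - U [i] * g []) := by
  unfold slvE
  rw [NPS.sub_apply, NPS.mul_one_letter, NPS.mul_C, slv_subst_nil, slv_subst_one w w0, U0]
  noncomm_ring

theorem slvE_two {κ : Type} (g : NPS ι D) (w : ι → NPS κ F) (w0 : ∀ j, w j [] = 0) (U : NPS κ D)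
    (U0 : U [] = 1) (i k : κ) :
    slvE g w U [i, k] = lin F g (fun j => w j [i, k]) +
      slvG2 g (fun j => w j [i]) (fun j => w j [k]) (U [k]) +
      (g [] * U [i, k] - U [i, k] * g []) := by
  unfold slvE slvG2
  rw [NPS.sub_apply, NPS.mul_two_letters, NPS.mul_C, slv_subst_nil, slv_subst_one w w0,
    slv_subst_two w w0, U0]
  noncomm_ring

theorem slvE_pert_aux {κ : Type} (g : NPS ι D) (w δ : ι → NPS κ F) (U η : NPS κ D)
    (m : List κ) :
    slvE g (fun j => w j + δ j) (U + η) m = slvE g w U m +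
      (((subst (fun j => w j + δ j) g : NPS κ D) - (subst w g : NPS κ D)) * (U + η)) m +
      ((subst w g : NPS κ D) * η) m - η m * g [] := by
  have key : slvE g (fun j => w j + δ j) (U + η) = slvE g w U +
      (((subst (fun j => w j + δ j) g : NPS κ D) - (subst w g : NPS κ D)) * (U + η)) +
      ((subst w g : NPS κ D) * η) - η * NPS.C (g []) := by
    unfold slvE
    noncomm_ring
  rw [← NPS.mul_C]
  exact congrFun key m

theorem slvE_pert_lt {κ : Type} (g : NPS ι D) (w δ : ι → NPS κ F) (w0 : ∀ j, w j [] = 0)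
    (U η : NPS κ D) (N : ℕ) (hN : 1 ≤ N)
    (hδ : ∀ j, ∀ m : List κ, m.length < N → δ j m = 0)
    (hη : ∀ m : List κ, m.length < N → η m = 0) (m : List κ) (hm : m.length < N) :
    slvE g (fun j => w j + δ j) (U + η) m = slvE g w U m := by
  rw [slvE_pert_aux, hη m hm, zero_mul, sub_zero,
    NPS.mul_order N 0 _ _ (fun m hm => slv_pert_lt w δ w0 N hN hδ N le_rfl _ m hm)
      (fun m hm => by omega) m (by omega),
    NPS.mul_order 0 N _ _ (fun m hm => by omega) hη m (by omega)]
  simp

theorem slvE_pert_eq {κ : Type} (g : NPS ι D) (w δ : ι → NPS κ F) (w0 : ∀ j, w j [] = 0)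
    (U η : NPS κ D) (U0 : U [] = 1) (N : ℕ) (hN : 1 ≤ N)
    (hδ : ∀ j, ∀ m : List κ, m.length < N → δ j m = 0)
    (hη : ∀ m : List κ, m.length < N → η m = 0) (m : List κ) (hm : m.length = N) :
    slvE g (fun j => w j + δ j) (U + η) m = slvE g w U m + lin F g (fun j => δ j m) +
      (g [] * η m - η m * g []) := by
  have h0 : (U + η) [] = 1 := by
    rw [NPS.add_apply, U0, hη [] (by simp; omega), add_zero]
  rw [slvE_pert_aux,
    slv_mul_left_eq _ _ N (fun m hm => slv_pert_lt w δ w0 N hN hδ N le_rfl _ m hm) m hm,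
    slv_mul_right_eq _ _ N hη m hm, h0, slv_pert_eq w δ w0 N hN hδ g m hm, slv_subst_nil, mul_one]
  abel

theorem slvE_pert_succ {κ : Type} (g : NPS ι D) (w δ : ι → NPS κ F) (w0 : ∀ j, w j [] = 0)
    (U η : NPS κ D) (U0 : U [] = 1) (N : ℕ) (hN : 2 ≤ N)
    (hδ : ∀ j, ∀ m : List κ, m.length < N → δ j m = 0)
    (hη : ∀ m : List κ, m.length < N → η m = 0) (m : List κ) (hm : m.length = N + 1) :
    slvE g (fun j => w j + δ j) (U + η) m = slvE g w U m + lin F g (fun j => δ j m) +
      (g [] * η m - η m * g []) +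
      slvG2 g (fun j => δ j (m.take N)) (fun j => w j (m.drop N)) (U (m.drop N)) +
      slvG2 g (fun j => w j (m.take 1)) (fun j => δ j (m.drop 1)) (η (m.drop 1)) := by
  have h0 : (U + η) [] = 1 := by
    rw [NPS.add_apply, U0, hη [] (by simp; omega), add_zero]
  have h1 : (U + η) (m.drop N) = U (m.drop N) := by
    rw [NPS.add_apply, hη _ (by rw [List.length_drop]; omega), add_zero]
  obtain ⟨i, hi⟩ : ∃ i, m.take 1 = [i] := by
    rw [← List.length_eq_one_iff, List.length_take]; omega
  rw [slvE_pert_aux,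
    slv_mul_left_succ _ _ N (fun m hm => slv_pert_lt w δ w0 N (by omega) hδ N le_rfl _ m hm) m hm,
    slv_mul_right_succ _ _ N hη m hm, h0, h1, slv_pert_succ w δ w0 N hN hδ g m hm, slv_subst_nil,
    slv_pert_eq w δ w0 N (by omega) hδ g (m.take N) (by rw [List.length_take]; omega), hi,
    slv_subst_one w w0, mul_one]
  unfold slvG2
  abel

end subst
end Crest.Agent.R180
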