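import Mathlib
import Crest.Agent.R180.S3
import Crest.Agent.R180.SolveAux1

/-!
# SOLVE, auxiliary file 2
-/

set_option autoImplicit false
set_option linter.unusedSectionVars false

namespace Crest.Agent.R180
open Module

section
variable {s : St}

theorem slv_lin_zero : lin s.F s.g (fun _ => 0) = 0 := map_zero (lin s.F s.g)

theorem slv_fam (w : s.ι → NPS (Fin 2) s.F) (U : NPS (Fin 2) s.D) (w0 : ∀ j, w j [] = 0)
    (U0 : U [] = 1) (gp : GoodPair s.F s.X s.Y (fun j => w j [0]) (fun j => w j [1]))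
    (N : ℕ) (hN : 2 ≤ N) (hlt : ∀ m : List (Fin 2), m.length < N → slvE s.g w U m = 0)
    (hc : ∀ m : List (Fin 2), m.length = N → Commute (slvE s.g w U m) (s.g [])) :
    s.IsFam N w U (fun m => if m.length = N then slvE s.g w U m else 0) := by
  refine ⟨hN, w0, gp, U0, fun m hm => if_neg hm, fun m => ?_, fun m hm => ?_⟩
  · show Commute (if m.length = N then slvE s.g w U m else 0) (s.g [])
    split_ifs with h
    · exact hc m h
    · exact Commute.zero_left _
  · set K : NPS (Fin 2) s.D := fun m => if m.length = N then slvE s.g w U m else 0 with hK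
    have hKlt : ∀ m : List (Fin 2), m.length < N → K m = 0 := by
      intro m hm
      simp only [hK]
      rw [if_neg (by omega)]
    have h1 : ((subst w s.g : NPS (Fin 2) s.D) * U) m = slvE s.g w U m +
        (U * NPS.C (s.g []) : NPS (Fin 2) s.D) m := by
      unfold slvE
      rw [NPS.sub_apply, sub_add_cancel]
    rw [h1, mul_add, NPS.add_apply, add_comm]
    congr 1
    rcases Nat.lt_or_ge m.length N with h | h
    · rw [hlt m h, NPS.mul_order 0 N U K (fun m hm => by omega) hKlt m (by omega)]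
    · have h2 : m.length = N := by omega
      rw [slv_mul_right_eq U K N hKlt m h2, U0, one_mul]
      simp only [hK]
      rw [if_pos h2]

theorem slv_S2 {s₀ : St} (h : St.Amin s₀ s) (w : s.ι → NPS (Fin 2) s.F) (U : NPS (Fin 2) s.D)
    (w0 : ∀ j, w j [] = 0) (U0 : U [] = 1)
    (gp : GoodPair s.F s.X s.Y (fun j => w j [0]) (fun j => w j [1]))
    (N : ℕ) (hN : 2 ≤ N) (hlt : ∀ m : List (Fin 2), m.length < N → slvE s.g w U m = 0)
    (hc : ∀ m : List (Fin 2), m.length = N → Commute (slvE s.g w U m) (s.g []))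
    (v : s.D) (hv : v ∈ s.V) (hv0 : v ≠ 0) (m : List (Fin 2)) (hm : m.length = N) :
    ∃ κ ∈ s.K, slvE s.g w U m = v * κ := by
  have := S2 h N w U _ (slv_fam w U w0 U0 gp N hN hlt hc) v hv hv0 m
  simpa [hm] using this

theorem slv_S3 {s₀ : St} {B : ℕ} (h : St.Omin s₀ B s) (hd : 2 * s.oK + 2 ≤ s.dV)
    (w : s.ι → NPS (Fin 2) s.F) (U : NPS (Fin 2) s.D)
    (w0 : ∀ j, w j [] = 0) (U0 : U [] = 1)
    (gp : GoodPair s.F s.X s.Y (fun j => w j [0]) (fun j => w j [1]))
    (N : ℕ) (hN : 2 ≤ N) (hlt : ∀ m : List (Fin 2), m.length < N → slvE s.g w U m = 0)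
    (hc : ∀ m : List (Fin 2), m.length = N → Commute (slvE s.g w U m) (s.g []))
    (m : List (Fin 2)) (hm : m.length = N) :
    ∑ j ∈ Finset.range N, slvE s.g w U (m.rotate j) ∈ s.V := by
  have := S3 h hd N w U _ (slv_fam w U w0 U0 gp N hN hlt hc) m
  simpa [hm] using this

/-- making the defect commute with `θ` -/
theorem slv_comm (w : s.ι → NPS (Fin 2) s.F) (U : NPS (Fin 2) s.D)
    (w0 : ∀ j, w j [] = 0) (U0 : U [] = 1) (n : ℕ) (hn : 1 ≤ n) :
    ∃ U' : NPS (Fin 2) s.D, (∀ m : List (Fin 2), m.length ≠ n → U' m = U m) ∧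
      (∀ m : List (Fin 2), m.length < n → slvE s.g w U' m = slvE s.g w U m) ∧
      ∀ m : List (Fin 2), m.length = n → Commute (slvE s.g w U' m) (s.g []) ∧
        ∃ k, slvE s.g w U m = slvE s.g w U' m + (k * s.g [] - s.g [] * k) := by
  choose c k hc hk using fun m : List (Fin 2) => exists_decomp s.F (s.g []) (slvE s.g w U m)
  let η : NPS (Fin 2) s.D := fun m => if m.length = n then k m else 0
  have hη : ∀ m : List (Fin 2), m.length < n → η m = 0 := by
    intro m hm
    simp only [η]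
    rw [if_neg (by omega)]
  have hw : (fun j => w j + (0 : s.ι → NPS (Fin 2) s.F) j) = w := by
    funext j
    simp
  have h1 := slvE_pert_lt s.g w 0 w0 U η n hn (fun j m _ => rfl) hη
  have h2 := slvE_pert_eq s.g w 0 w0 U η U0 n hn (fun j m _ => rfl) hη
  rw [hw] at h1 h2
  have h3 : ∀ m : List (Fin 2), m.length = n → slvE s.g w (U + η) m = c m := by
    intro m hm
    have e1 : η m = k m := by
      simp only [η]
      rw [if_pos hm]
    have e2 : lin s.F s.g (fun j => (0 : s.ι → NPS (Fin 2) s.F) j m) = 0 := slv_lin_zero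
    rw [h2 m hm, e2, e1, hk m]
    abel
  refine ⟨U + η, fun m hm => ?_, h1, fun m hm => ⟨?_, k m, ?_⟩⟩
  · rw [NPS.add_apply]
    simp only [η]
    rw [if_neg hm, add_zero]
  · rw [h3 m hm]; exact hc m
  · rw [h3 m hm]; exact hk m

/-- killing a defect in `V` -/
theorem slv_kill {s₀ : St} (h : St.Cmin s₀ s) (w : s.ι → NPS (Fin 2) s.F) (U : NPS (Fin 2) s.D)
    (w0 : ∀ j, w j [] = 0) (U0 : U [] = 1) (n : ℕ) (hn : 1 ≤ n)
    (hlt : ∀ m : List (Fin 2), m.length < n → slvE s.g w U m = 0)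
    (hV : ∀ m : List (Fin 2), m.length = n → slvE s.g w U m ∈ s.V) :
    ∃ (w' : s.ι → NPS (Fin 2) s.F) (U' : NPS (Fin 2) s.D),
      (∀ j, ∀ m : List (Fin 2), m.length ≠ n → w' j m = w j m) ∧
      (∀ m : List (Fin 2), m.length ≠ n → U' m = U m) ∧
      ∀ m : List (Fin 2), m.length ≤ n → slvE s.g w' U' m = 0 := by
  have h0 : ∀ m : List (Fin 2), ∃ (c : s.ι → s.F) (k : s.D), m.length = n →
      lin s.F s.g c = - slvE s.g w U m + (k * s.g [] - s.g [] * k) := by
    intro m
    by_cases hm : m.length = n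
    · obtain ⟨c, k, hk⟩ := S1a' h (- slvE s.g w U m) (s.V.neg_mem (hV m hm))
      exact ⟨c, k, fun _ => hk⟩
    · exact ⟨0, 0, fun h => absurd h hm⟩
  choose c k hk using h0
  let η : NPS (Fin 2) s.D := fun m => if m.length = n then k m else 0
  have hη : ∀ m : List (Fin 2), m.length < n → η m = 0 := by
    intro m hm
    simp only [η]
    rw [if_neg (by omega)]
  let δ : s.ι → NPS (Fin 2) s.F := fun j m => if m.length = n then c m j else 0
  have hδ : ∀ j, ∀ m : List (Fin 2), m.length < n → δ j m = 0 := by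
    intro j m hm
    simp only [δ]
    rw [if_neg (by omega)]
  refine ⟨fun j => w j + δ j, U + η, fun j m hm => ?_, fun m hm => ?_, fun m hm => ?_⟩
  · show w j m + δ j m = w j m
    simp only [δ]
    rw [if_neg hm, add_zero]
  · rw [NPS.add_apply]
    simp only [η]
    rw [if_neg hm, add_zero]
  · rcases Nat.lt_or_ge m.length n with h1 | h1
    · rw [slvE_pert_lt s.g w δ w0 U η n hn hδ hη m h1, hlt m h1]
    · have h2 : m.length = n := by omega
      have e1 : η m = k m := by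
        simp only [η]
        rw [if_pos h2]
      have e2 : (fun j => δ j m) = c m := by
        funext j
        simp only [δ]
        rw [if_pos h2]
      rw [slvE_pert_eq s.g w δ w0 U η U0 n hn hδ hη m h2, e1, e2, hk m h2]
      abel

section pairing
variable {v : s.D} (hv : v ∈ s.V) (hv0 : v ≠ 0)
include hv hv0

theorem slv_N_mem (x : s.D) (hx : InN s.F s.g v x) :
    x ∈ Algebra.adjoin s.F ({s.g []} : Set s.D) :=
  quot_mem _ v x hv0 (Vs_le s.g hv) (Kalg_le s.g hx.1)

theorem slv_N_comm (x : s.D) (hx : InN s.F s.g v x) : Commute x (s.g []) :=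
  adjoin_comm (s.g []) x (slv_N_mem hv hv0 x hx) (s.g [])
    (Algebra.self_mem_adjoin_singleton s.F (s.g []))

theorem slv_N_brk (x : s.D) (hx : InN s.F s.g v x) (k : s.D) :
    ntr s.F s.D (x * (k * s.g [] - s.g [] * k)) = 0 :=
  ntr_mul_comm_zero (s.g []) x k (slv_N_comm hv hv0 x hx)

theorem slv_N_V (x : s.D) (hx : InN s.F s.g v x) (y : s.D) (hy : y ∈ s.V) :
    ntr s.F s.D (x * y) = 0 :=
  (mem_Vs_orth s.g x (slv_N_mem hv hv0 x hx)).2 hx.2 y hy

theorem slv_N_dual (κ : s.D) (hκ : κ ∈ s.K)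
    (h : ∀ x, InN s.F s.g v x → ntr s.F s.D (x * (v * κ)) = 0) : v * κ ∈ s.V := by
  refine (mem_V_iff_orth s.g v hv hv0 κ).2 ⟨hκ, fun p hp => ?_⟩
  obtain ⟨y, h1, h2⟩ := exists_inverse s.F v hv0
  have h3 : v * (y * p) = p := by rw [← mul_assoc, h1, one_mul]
  have hN : InN s.F s.g v (y * p) := (inN_iff s.g v hv hv0 (y * p)).2 (by rw [h3]; exact hp)
  have h4 := h _ hN
  have h5 : (y * p) * (v * κ) = p * κ := by
    rw [← mul_assoc, adjoin_comm (s.g []) (y * p) (slv_N_mem hv hv0 _ hN) v (Vs_le s.g hv), h3]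
  rwa [h5] at h4

end pairing

/-- the space `Nn` -/
def slvN (s : St) (v : s.D) : Submodule s.F s.D where
  carrier := {x | InN s.F s.g v x}
  zero_mem' := ⟨by rw [mul_zero]; exact Subalgebra.zero_mem _, fun ξ => by rw [zero_mul, map_zero]⟩
  add_mem' := by
    rintro x y ⟨h1, h2⟩ ⟨h3, h4⟩
    exact ⟨by rw [mul_add]; exact Subalgebra.add_mem _ h1 h3,
      fun ξ => by rw [add_mul, map_add, h2, h4, add_zero]⟩
  smul_mem' := by
    rintro c x ⟨h1, h2⟩
    exact ⟨by rw [mul_smul_comm]; exact Subalgebra.smul_mem _ h1 c,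
      fun ξ => by rw [smul_mul_assoc, map_smul, h2, smul_zero]⟩

/-- the space `Λ` with witnesses -/
def slvLam (s : St) : Submodule s.F ((s.ι → s.F) × s.D) where
  carrier := {p | s.InLam p.1 p.2}
  zero_mem' := by
    show lin s.F s.g 0 = 0 * s.g [] - s.g [] * 0
    rw [map_zero]; simp
  add_mem' := by
    rintro ⟨ξ, k⟩ ⟨ξ', k'⟩ h1 h2
    have h1' : lin s.F s.g ξ = k * s.g [] - s.g [] * k := h1
    have h2' : lin s.F s.g ξ' = k' * s.g [] - s.g [] * k' := h2
    show lin s.F s.g (ξ + ξ') = (k + k') * s.g [] - s.g [] * (k + k')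
    rw [map_add, h1', h2']
    noncomm_ring
  smul_mem' := by
    rintro c ⟨ξ, k⟩ h1
    have h1' : lin s.F s.g ξ = k * s.g [] - s.g [] * k := h1
    show lin s.F s.g (c • ξ) = (c • k) * s.g [] - s.g [] * (c • k)
    rw [map_smul, h1', smul_mul_assoc, mul_smul_comm, smul_sub]

theorem slv_quad_add_right (a ξ ξ' : s.ι → s.F) :
    quad s.F s.g a (ξ + ξ') = quad s.F s.g a ξ + quad s.F s.g a ξ' := by
  unfold quad
  rw [← Finset.sum_add_distrib]
  refine Finset.sum_congr rfl fun j _ => ?_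
  rw [← Finset.sum_add_distrib]
  refine Finset.sum_congr rfl fun k _ => ?_
  rw [← add_smul, Pi.add_apply, mul_add]

theorem slv_quad_smul_right (a ξ : s.ι → s.F) (c : s.F) :
    quad s.F s.g a (c • ξ) = c • quad s.F s.g a ξ := by
  unfold quad
  rw [Finset.smul_sum]
  refine Finset.sum_congr rfl fun j _ => ?_
  rw [Finset.smul_sum]
  refine Finset.sum_congr rfl fun k _ => ?_
  rw [smul_smul, Pi.smul_apply, smul_eq_mul]
  congr 1
  ring

theorem slv_quad_add_left (a ξ ξ' : s.ι → s.F) :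
    quad s.F s.g (ξ + ξ') a = quad s.F s.g ξ a + quad s.F s.g ξ' a := by
  unfold quad
  rw [← Finset.sum_add_distrib]
  refine Finset.sum_congr rfl fun j _ => ?_
  rw [← Finset.sum_add_distrib]
  refine Finset.sum_congr rfl fun k _ => ?_
  rw [← add_smul, Pi.add_apply, add_mul]

theorem slv_quad_smul_left (a ξ : s.ι → s.F) (c : s.F) :
    quad s.F s.g (c • ξ) a = c • quad s.F s.g ξ a := by
  unfold quad
  rw [Finset.smul_sum]
  refine Finset.sum_congr rfl fun j _ => ?_
  rw [Finset.smul_sum]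
  refine Finset.sum_congr rfl fun k _ => ?_
  rw [smul_smul, Pi.smul_apply, smul_eq_mul, mul_assoc]

theorem slv_G2_add_right (a ξ ξ' : s.ι → s.F) (k k' : s.D) :
    s.G2 a (ξ + ξ') (k + k') = s.G2 a ξ k + s.G2 a ξ' k' := by
  unfold St.G2
  rw [slv_quad_add_right, mul_add]
  abel

theorem slv_G2_smul_right (a ξ : s.ι → s.F) (k : s.D) (c : s.F) :
    s.G2 a (c • ξ) (c • k) = c • s.G2 a ξ k := by
  unfold St.G2
  rw [slv_quad_smul_right, mul_smul_comm, smul_add]

theorem slv_G2_add_left (a ξ ξ' : s.ι → s.F) (k : s.D) :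
    s.G2 (ξ + ξ') a k = s.G2 ξ a k + s.G2 ξ' a k := by
  unfold St.G2
  rw [slv_quad_add_left, map_add, add_mul]
  abel

theorem slv_G2_smul_left (a ξ : s.ι → s.F) (k : s.D) (c : s.F) :
    s.G2 (c • ξ) a k = c • s.G2 ξ a k := by
  unfold St.G2
  rw [slv_quad_smul_left, map_smul, smul_mul_assoc, smul_add]

/-- non-degeneracy gives surjectivity -/
theorem slv_surj (v : s.D) (a b : s.ι → s.F)
    (hnd : ∀ x x', InN s.F s.g v x → InN s.F s.g v x' →
      (∀ ξ k, s.InLam ξ k →
        ntr s.F s.D (x * s.G2 a ξ k) + ntr s.F s.D (x' * s.G2 b ξ k) = 0) → x = 0 ∧ x' = 0)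
    (y₀ y₁ : s.D) : ∃ (ξ : s.ι → s.F) (k : s.D), s.InLam ξ k ∧
      (∀ x, InN s.F s.g v x → ntr s.F s.D (x * s.G2 a ξ k) = - ntr s.F s.D (x * y₀)) ∧
      (∀ x, InN s.F s.g v x → ntr s.F s.D (x * s.G2 b ξ k) = - ntr s.F s.D (x * y₁)) := by
  let T : slvLam s →ₗ[s.F] Module.Dual s.F (slvN s v × slvN s v) :=
    LinearMap.mk₂ s.F (fun p q => ntr s.F s.D ((q.1 : s.D) * s.G2 a p.1.1 p.1.2) +
      ntr s.F s.D ((q.2 : s.D) * s.G2 b p.1.1 p.1.2))
      (by
        intro p p' q
        have e1 : s.G2 a (p + p').1.1 (p + p').1.2 = s.G2 a p.1.1 p.1.2 + s.G2 a p'.1.1 p'.1.2 :=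
          slv_G2_add_right a _ _ _ _
        have e2 : s.G2 b (p + p').1.1 (p + p').1.2 = s.G2 b p.1.1 p.1.2 + s.G2 b p'.1.1 p'.1.2 :=
          slv_G2_add_right b _ _ _ _
        rw [e1, e2, mul_add, mul_add, map_add, map_add]
        abel)
      (by
        intro c p q
        have e1 : s.G2 a (c • p).1.1 (c • p).1.2 = c • s.G2 a p.1.1 p.1.2 :=
          slv_G2_smul_right a _ _ _
        have e2 : s.G2 b (c • p).1.1 (c • p).1.2 = c • s.G2 b p.1.1 p.1.2 :=
          slv_G2_smul_right b _ _ _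
        rw [e1, e2, mul_smul_comm, mul_smul_comm, map_smul, map_smul, smul_add])
      (by
        intro p q q'
        have e1 : (((q + q').1 : slvN s v) : s.D) = q.1 + q'.1 := rfl
        have e2 : (((q + q').2 : slvN s v) : s.D) = q.2 + q'.2 := rfl
        rw [e1, e2, add_mul, add_mul, map_add, map_add]
        abel)
      (by
        intro c p q
        have e1 : (((c • q).1 : slvN s v) : s.D) = c • (q.1 : s.D) := rfl
        have e2 : (((c • q).2 : slvN s v) : s.D) = c • (q.2 : s.D) := rfl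
        rw [e1, e2, smul_mul_assoc, smul_mul_assoc, map_smul, map_smul, smul_add])
  have hT : ∀ p q, T p q = ntr s.F s.D ((q.1 : s.D) * s.G2 a p.1.1 p.1.2) +
      ntr s.F s.D ((q.2 : s.D) * s.G2 b p.1.1 p.1.2) := fun p q => rfl
  have hco : (LinearMap.range T).dualCoannihilator = ⊥ := by
    rw [Submodule.eq_bot_iff]
    rintro ⟨x, x'⟩ hx
    rw [Submodule.mem_dualCoannihilator] at hx
    obtain ⟨h1, h2⟩ := hnd x x' x.2 x'.2 (fun ξ k hk => by
      have := hx (T ⟨(ξ, k), hk⟩) ⟨_, rfl⟩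
      rw [hT] at this
      exact this)
    exact Prod.ext (Subtype.ext h1) (Subtype.ext h2)
  have htop : LinearMap.range T = ⊤ := by
    rw [← Subspace.dualCoannihilator_dualAnnihilator_eq (W := LinearMap.range T), hco]
    exact Submodule.dualAnnihilator_bot
  let φ : Module.Dual s.F (slvN s v × slvN s v) :=
    -(((ntr s.F s.D) ∘ₗ (LinearMap.mulRight s.F y₀) ∘ₗ (slvN s v).subtype) ∘ₗ LinearMap.fst s.F _ _ +
      ((ntr s.F s.D) ∘ₗ (LinearMap.mulRight s.F y₁) ∘ₗ (slvN s v).subtype) ∘ₗ LinearMap.snd s.F _ _)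
  have hφ : ∀ q, φ q = -(ntr s.F s.D ((q.1 : s.D) * y₀) + ntr s.F s.D ((q.2 : s.D) * y₁)) :=
    fun q => rfl
  obtain ⟨p, hp⟩ : φ ∈ LinearMap.range T := by rw [htop]; trivial
  have hp' : ∀ q : (slvN s v) × (slvN s v), ntr s.F s.D ((q.1 : s.D) * s.G2 a p.1.1 p.1.2) +
      ntr s.F s.D ((q.2 : s.D) * s.G2 b p.1.1 p.1.2) =
        -(ntr s.F s.D ((q.1 : s.D) * y₀) + ntr s.F s.D ((q.2 : s.D) * y₁)) := by
    intro q
    rw [← hT, hp, hφ]
  refine ⟨p.1.1, p.1.2, p.2, fun x hx => ?_, fun x hx => ?_⟩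
  · have := hp' (⟨x, hx⟩, 0)
    simpa using this
  · have := hp' (0, ⟨x, hx⟩)
    simpa using this

end
end Crest.Agent.R180
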