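import Mathlib
import Crest.Agent.R180.S3
import Crest.Agent.R180.SolveAux1
import Crest.Agent.R180.SolveAux2

/-!
# Piece SOLVE: order by order solution at a non-degenerate state

Let `θ = g []`, `0 ≠ v ∈ V`, `Nn = {x | InN v x}` (`v x ∈ W`), `q_x(ξ,ξ') = ntr (x * G2 ξ ξ' h')` for `InLam ξ' h'`, `ξ ∈ Λ`
(independent of `h'`: `x ∈ L` and `ntr (x * lin g ξ * C) = 0` for `C` commuting with `θ` as `lin g ξ ∈ [D,θ]`).
`V = {y : y = v κ, κ ∈ 𝕂, ntr (x y) = 0 ∀ x ∈ Nn}` (`mem_V_iff_orth`, `inN_iff`).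

**Step 2 (antisymmetry).** For a good pair `(ξ₀, ξ₁)` in `Λ` (witnesses `h₀`, `h₁`) consider the linear family
`w_j(z) = ξ₀_j z₀ + ξ₁_j z₁`, `U = 1 + h₀ z₀ + h₁ z₁ + u₂`, where `u₂` (degree 2) is chosen with `K m ∈ Cent θ` (`exists_decomp`):
`K [i,j] = G2 ξ_i ξ_j h_j + [θ, u₂]`.  It is an `IsFam` with `N = 2`.  S3 gives (after pairing with `x ∈ Nn ⊂ L`)
`q_x(ξ_i, ξ_i) = 0` and `q_x(ξ₀, ξ₁) + q_x(ξ₁, ξ₀) = 0`.  If `(a,b)` is a good pair in `Λ` and `ξ ∈ Λ` arbitrary: `(a, ξ + t b)` is a good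
pair for all but one `t ∈ F` (if `ξ + t₁ b`, `ξ + t₂ b` are both dependent on `a` modulo inner ones, so is `b`); so
`q_x(a, ξ) + q_x(ξ, a) = 0` for all `ξ ∈ Λ` (use `q_x(a,b) + q_x(b,a) = 0`), and the same for `b`.

**Step 3 (induction).** Claim(N), `N ≥ 1`... : there are `w`, `U` with `w_j [] = 0`, `w_j [0] = a_j`, `w_j [1] = b_j`, `U [] = 1`, and
`(subst w g * U) m = (U * C θ) m` for all `|m| ≤ N`; the step `N → N+1` changes `w` only in degrees `≥ N` and `U` in degrees `≥ N`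
(for `N = 1`: only degree `≥ 2` of `w`).  Start `N = 1`: linear family, `U = 1 + h_a z₀ + h_b z₁`.
Step: after adding `u` of degree `N+1` to `U` the defect of degree `N+1`, `K m = (subst w g * U - U * C θ) m`, commutes with `θ`
(`exists_decomp`), so `(w, U, K)` is an `IsFam` with `N+1`.  By S2 and S3 (case `N+1 ≥ 2`) `K m = v κ(m)`, and the sums over rotations
are in `V`.  For `N = 1`: for `x ∈ Nn`: `ntr (x K [0,1]) = q_x(a,b) = 0` by hypothesis `hab`, so `K [0,1] ∈ V`, and then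
`K [1,0] ∈ V`, `K [i,i] ∈ V` by S3.
For `N ≥ 2` put `n = N+1`, `Y(m) = -(1/n) Σ_{k<n} k • K (m.rotate k)`; then `Y(m) - Y(m.rotate 1)... = K(m) - (1/n) Σ_k K(m.rotate k)`
(mind the direction of rotation: use `m.rotate 1 = tail ++ [head]`; we need `Y'(m) - Y'(last :: init) ≡ K(m)` mod `V`; equivalently
solve with the inverse rotation).  By non-degeneracy `hnd` (linear algebra: the map `Λ → (Nn ⊕ Nn)^*`,
`ξ ↦ ((x,x') ↦ q_x(a,ξ) + q_{x'}(b,ξ))` is onto) choose for each word `m'` of length `N` an element `ξ(m') ∈ Λ`, witness `h(m')`, with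
`q_x(a, ξ(m')) = - ntr (x Y(0 :: m'))`, `q_x(b, ξ(m')) = - ntr (x Y(1 :: m'))` for all `x ∈ Nn`.
Replace `w` by `w + ξ` (degree `N`), `U` by `U + h(·)` (degree `N`): the degree `N` equation is kept (`lin g ξ + θ h - h θ = 0`) and the
degree `N+1` defect becomes `K(m) + G2 a_{m₀} ξ(tail m) h(tail m) + G2 ξ(init m) a_{last} h_{last}` (+ commutators with `θ`), whose pairing with
`x ∈ Nn` is `ntr (x K(m)) - ntr (x Y(m)) + ntr (x Y(last :: init)) = 0` by antisymmetry.  The new defect `K'` (made to commute with `θ`) is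
again `v κ'(m)` by S2, so `K'(m) ∈ V`; choose `ω(m) ∈ F^ι`, with `lin g ω(m) = - K'(m) + [k,θ]` (`S1a'`), and add `ω` to `w` in degree `N+1`,
and a correction of `U` in degree `N+1`.  This gives Claim(N+1).
The limit `w, U` (coefficients stabilise) satisfies the equation in all degrees.
-/

set_option autoImplicit false
set_option linter.unusedSectionVars false

namespace Crest.Agent.R180
open Module

section
variable {s : St}

/-- `a, b` good; `ξ` arbitrary -/
theorem slv_gp (a b ξ : s.ι → s.F) (gp : GoodPair s.F s.X s.Y a b) :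
    GoodPair s.F s.X s.Y a ξ ∨ GoodPair s.F s.X s.Y a (ξ + b) := by
  by_contra hcon
  rw [not_or] at hcon
  obtain ⟨h1, h2⟩ := hcon
  unfold GoodPair at h1 h2
  push Not at h1 h2
  obtain ⟨α₁, β₁, k₁, hX1, hY1, hz1⟩ := h1
  obtain ⟨α₂, β₂, k₂, hX2, hY2, hz2⟩ := h2
  have hb1 : β₁ ≠ 0 := by
    intro hb
    subst hb
    have := gp α₁ 0 k₁ (by rw [zero_smul] at hX1 ⊢; exact hX1) (by rw [zero_smul] at hY1 ⊢; exact hY1)
    exact hz1 this.1 rfl
  have hb2 : β₂ ≠ 0 := by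
    intro hb
    subst hb
    have := gp α₂ 0 k₂ (by rw [zero_smul] at hX2 ⊢; exact hX2) (by rw [zero_smul] at hY2 ⊢; exact hY2)
    exact hz2 this.1 rfl
  have hv : (β₁ * α₂ - β₂ * α₁) • a + (β₁ * β₂) • b =
      β₁ • (α₂ • a + β₂ • (ξ + b)) - β₂ • (α₁ • a + β₁ • ξ) := by
    ext j
    simp only [Pi.add_apply, Pi.smul_apply, Pi.sub_apply, smul_eq_mul]
    ring
  have h3 := gp (β₁ * α₂ - β₂ * α₁) (β₁ * β₂) (β₁ • k₂ - β₂ • k₁)
    (by
      rw [hv, map_sub, map_smul, map_smul, hX1, hX2]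
      simp only [smul_sub, sub_mul, mul_sub, smul_mul_assoc, mul_smul_comm]
      abel)
    (by
      rw [hv, map_sub, map_smul, map_smul, hY1, hY2]
      simp only [smul_sub, sub_mul, mul_sub, smul_mul_assoc, mul_smul_comm]
      abel)
  exact (mul_ne_zero hb1 hb2) h3.2

theorem slv_gp_symm (a b : s.ι → s.F) (gp : GoodPair s.F s.X s.Y a b) :
    GoodPair s.F s.X s.Y b a := by
  intro α β k hX hY
  have := gp β α k (by rw [add_comm]; exact hX) (by rw [add_comm]; exact hY)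
  exact ⟨this.2, this.1⟩

/-- the linear family -/
def slvW (A : Fin 2 → s.ι → s.F) (j : s.ι) : NPS (Fin 2) s.F := fun m => match m with
  | [] => 0
  | [i] => A i j
  | _ :: _ :: _ => 0

def slvU (HA : Fin 2 → s.D) : NPS (Fin 2) s.D := fun m => match m with
  | [] => 1
  | [i] => HA i
  | _ :: _ :: _ => 0

theorem slv_lin_lt (A : Fin 2 → s.ι → s.F) (HA : Fin 2 → s.D) (hL : ∀ i, s.InLam (A i) (HA i))
    (m : List (Fin 2)) (hm : m.length < 2) : slvE s.g (slvW A) (slvU HA) m = 0 := by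
  match m, hm with
  | [], _ => exact slvE_nil s.g _ _ rfl
  | [i], _ =>
    rw [slvE_one s.g _ (fun j => rfl) _ rfl]
    have h1 : lin s.F s.g (fun j => slvW A j [i]) = HA i * s.g [] - s.g [] * HA i := hL i
    have h2 : slvU HA [i] = HA i := rfl
    rw [h1, h2]
    abel
  | _ :: _ :: _, h => simp at h

theorem slv_lin_two (A : Fin 2 → s.ι → s.F) (HA : Fin 2 → s.D) (i k : Fin 2) :
    slvE s.g (slvW A) (slvU HA) [i, k] = s.G2 (A i) (A k) (HA k) := by
  rw [slvE_two s.g _ (fun j => rfl) _ rfl]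
  have h1 : lin s.F s.g (fun j => slvW A j [i, k]) = 0 := slv_lin_zero
  have h2 : slvU HA [i, k] = 0 := rfl
  rw [h1, h2, mul_zero, zero_mul, sub_zero, zero_add, add_zero]
  rfl

variable {s₀ : St} {B : ℕ} (h : St.Omin s₀ B s) (hd : 2 * s.oK + 2 ≤ s.dV)
  {v : s.D} (hv : v ∈ s.V) (hv0 : v ≠ 0)
include h hd hv hv0

theorem slv_anti0 (A : Fin 2 → s.ι → s.F) (HA : Fin 2 → s.D) (hL : ∀ i, s.InLam (A i) (HA i))
    (gp : GoodPair s.F s.X s.Y (A 0) (A 1)) (x : s.D) (hx : InN s.F s.g v x) :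
    ntr s.F s.D (x * s.G2 (A 0) (A 1) (HA 1)) + ntr s.F s.D (x * s.G2 (A 1) (A 0) (HA 0)) = 0 := by
  obtain ⟨U', hU, hE, hE'⟩ := slv_comm (slvW A) (slvU HA) (fun j => rfl) rfl 2 (by norm_num)
  have hU0 : U' [] = 1 := hU [] (by simp)
  have h1 := slv_S3 h hd (slvW A) U' (fun j => rfl) hU0 gp 2 le_rfl
    (fun m hm => by rw [hE m hm]; exact slv_lin_lt A HA hL m hm) (fun m hm => (hE' m hm).1)
    [0, 1] rfl
  have h2 := slv_N_V hv hv0 x hx _ h1
  rw [Finset.sum_range_succ, Finset.sum_range_one, mul_add, map_add] at h2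
  have h3 : ∀ i k : Fin 2, ntr s.F s.D (x * slvE s.g (slvW A) U' [i, k]) =
      ntr s.F s.D (x * s.G2 (A i) (A k) (HA k)) := by
    intro i k
    obtain ⟨c, hc⟩ := (hE' [i, k] rfl).2
    rw [slv_lin_two] at hc
    rw [hc, mul_add, map_add, slv_N_brk hv hv0 x hx, add_zero]
  rw [← h3, ← h3]
  exact h2

theorem slv_anti1 (a b : s.ι → s.F) (ha hb : s.D) (hLa : s.InLam a ha) (hLb : s.InLam b hb)
    (gp : GoodPair s.F s.X s.Y a b) (ξ : s.ι → s.F) (k : s.D) (hξ : s.InLam ξ k) (x : s.D)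
    (hx : InN s.F s.g v x) :
    ntr s.F s.D (x * s.G2 a ξ k) + ntr s.F s.D (x * s.G2 ξ a ha) = 0 := by
  have h0 := slv_anti0 h hd hv hv0 ![a, b] ![ha, hb]
    (fun i => by fin_cases i <;> assumption) gp x hx
  have h0' : ntr s.F s.D (x * s.G2 a b hb) + ntr s.F s.D (x * s.G2 b a ha) = 0 := h0
  rcases slv_gp a b ξ gp with h1 | h1
  · have h2 := slv_anti0 h hd hv hv0 ![a, ξ] ![ha, k]
      (fun i => by fin_cases i <;> assumption) h1 x hx
    exact h2
  · have hL : s.InLam (ξ + b) (k + hb) := by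
      have e := (slvLam s).add_mem (x := (ξ, k)) (y := (b, hb)) hξ hLb
      exact e
    have h2 := slv_anti0 h hd hv hv0 ![a, ξ + b] ![ha, k + hb]
      (fun i => by fin_cases i <;> assumption) h1 x hx
    have h2' : ntr s.F s.D (x * s.G2 a (ξ + b) (k + hb)) +
        ntr s.F s.D (x * s.G2 (ξ + b) a ha) = 0 := h2
    rw [slv_G2_add_right, slv_G2_add_left, mul_add, mul_add, map_add, map_add] at h2'
    linear_combination h2' - h0'

omit h hd hv hv0 in
theorem slv_tel {F : Type} [Field F] (κ : ℕ → F) (n : ℕ) :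
    ∑ j ∈ Finset.range n, ((j : F) * κ j - (j : F) * κ (j + 1)) =
      - (n : F) * κ n + ∑ j ∈ Finset.range n, κ (j + 1) := by
  induction n with
  | zero => simp
  | succ n ih =>
    rw [Finset.sum_range_succ, ih, Finset.sum_range_succ]
    push_cast
    ring

omit h hd hv hv0 in
theorem slv_rot {F : Type} [Field F] [CharZero F] (κ : ℕ → F) (n : ℕ) (hn : 0 < n)
    (hper : κ n = κ 0) (hsum : ∑ j ∈ Finset.range n, κ j = 0) :
    ∑ j ∈ Finset.range n, ((j : F) / n) * κ j - ∑ j ∈ Finset.range n, ((j : F) / n) * κ (j + 1) =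
      - κ 0 := by
  have hn' : (n : F) ≠ 0 := Nat.cast_ne_zero.2 (by omega)
  have h1 : ∑ j ∈ Finset.range n, κ (j + 1) = 0 := by
    have e1 := Finset.sum_range_succ κ n
    have e2 := Finset.sum_range_succ' κ n
    rw [e1, hsum, hper] at e2
    linear_combination -e2
  have h2 := slv_tel κ n
  rw [h1, hper, add_zero] at h2
  rw [← Finset.sum_sub_distrib]
  have h3 : ∀ j ∈ Finset.range n, ((j : F) / n) * κ j - ((j : F) / n) * κ (j + 1) =
      ((j : F) * κ j - (j : F) * κ (j + 1)) * (n : F)⁻¹ := by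
    intro j _
    field_simp
  rw [Finset.sum_congr rfl h3, ← Finset.sum_mul, h2]
  field_simp

/-- induction hypothesis -/
structure SlvP (s : St) (A : Fin 2 → s.ι → s.F) (HA : Fin 2 → s.D) (N : ℕ)
    (w : s.ι → NPS (Fin 2) s.F) (U : NPS (Fin 2) s.D) : Prop where
  w0 : ∀ j, w j [] = 0
  wA : ∀ i j, w j [i] = A i j
  U0 : U [] = 1
  UA : ∀ i, U [i] = HA i
  eq : ∀ m : List (Fin 2), m.length ≤ N → slvE s.g w U m = 0

omit h hd hv hv0 in
theorem slv_sum_ntr {α : Type} (t : Finset α) (c : α → s.F) (f : α → s.D) (x : s.D) :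
    ntr s.F s.D (x * ∑ j ∈ t, c j • f j) = ∑ j ∈ t, c j * ntr s.F s.D (x * f j) := by
  rw [Finset.mul_sum, map_sum]
  refine Finset.sum_congr rfl fun j _ => ?_
  rw [mul_smul_comm, map_smul, smul_eq_mul]

theorem slv_step (A : Fin 2 → s.ι → s.F) (HA : Fin 2 → s.D)
    (hL : ∀ i, s.InLam (A i) (HA i)) (gp : GoodPair s.F s.X s.Y (A 0) (A 1))
    (hnd : ∀ x x', InN s.F s.g v x → InN s.F s.g v x' →
      (∀ ξ k, s.InLam ξ k →
        ntr s.F s.D (x * s.G2 (A 0) ξ k) + ntr s.F s.D (x' * s.G2 (A 1) ξ k) = 0) →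
        x = 0 ∧ x' = 0)
    (N : ℕ) (hN : 2 ≤ N) (w : s.ι → NPS (Fin 2) s.F) (U : NPS (Fin 2) s.D)
    (P : SlvP s A HA N w U) :
    ∃ (w' : s.ι → NPS (Fin 2) s.F) (U' : NPS (Fin 2) s.D), SlvP s A HA (N + 1) w' U' ∧
      ∀ m : List (Fin 2), m.length < N → (∀ j, w' j m = w j m) ∧ U' m = U m := by
  have hanti : ∀ (i : Fin 2) (ξ : s.ι → s.F) (k : s.D), s.InLam ξ k → ∀ x, InN s.F s.g v x →
      ntr s.F s.D (x * s.G2 (A i) ξ k) + ntr s.F s.D (x * s.G2 ξ (A i) (HA i)) = 0 := by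
    intro i ξ k hξ x hx
    fin_cases i
    · exact slv_anti1 h hd hv hv0 (A 0) (A 1) (HA 0) (HA 1) (hL 0) (hL 1) gp ξ k hξ x hx
    · exact slv_anti1 h hd hv hv0 (A 1) (A 0) (HA 1) (HA 0) (hL 1) (hL 0) (slv_gp_symm _ _ gp)
        ξ k hξ x hx
  have hAmin : St.Amin s₀ s := h.1.1
  have hCmin : St.Cmin s₀ s := hAmin.1
  have hgpw : ∀ w' : s.ι → NPS (Fin 2) s.F, (∀ i j, w' j [i] = A i j) →
      GoodPair s.F s.X s.Y (fun j => w' j [0]) (fun j => w' j [1]) := by
    intro w' hw'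
    have e0 : (fun j => w' j [0]) = A 0 := funext fun j => hw' 0 j
    have e1 : (fun j => w' j [1]) = A 1 := funext fun j => hw' 1 j
    rw [e0, e1]
    exact gp
  -- first correction
  obtain ⟨U₁, hU₁, hE₁, hE₁'⟩ := slv_comm w U P.w0 P.U0 (N + 1) (by omega)
  have hU₁0 : U₁ [] = 1 := by rw [hU₁ [] (by simp)]; exact P.U0
  have hU₁A : ∀ i, U₁ [i] = HA i := fun i => by
    rw [hU₁ [i] (by simp; omega)]; exact P.UA i
  have hE₁lt : ∀ m : List (Fin 2), m.length < N + 1 → slvE s.g w U₁ m = 0 := by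
    intro m hm
    rw [hE₁ m hm]
    exact P.eq m (by omega)
  have hS3 := slv_S3 h hd w U₁ P.w0 hU₁0 (hgpw w P.wA) (N + 1) (by omega) hE₁lt
    (fun m hm => (hE₁' m hm).1)
  -- the choice
  let Yv : List (Fin 2) → s.D := fun m => ∑ j ∈ Finset.range (N + 1),
    ((j : s.F) / ((N + 1 : ℕ) : s.F)) • slvE s.g w U₁ (m.rotate (j + 1))
  choose ξ k hLam hξa hξb using fun m : List (Fin 2) =>
    slv_surj v (A 0) (A 1) hnd (Yv (0 :: m)) (Yv (1 :: m))
  have hξ : ∀ (i : Fin 2) (m : List (Fin 2)) (x : s.D), InN s.F s.g v x →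
      ntr s.F s.D (x * s.G2 (A i) (ξ m) (k m)) = - ntr s.F s.D (x * Yv (i :: m)) := by
    intro i m x hx
    fin_cases i
    · exact hξa m x hx
    · exact hξb m x hx
  let η : NPS (Fin 2) s.D := fun m => if m.length = N then k m else 0
  let δ : s.ι → NPS (Fin 2) s.F := fun j m => if m.length = N then ξ m j else 0
  have hη : ∀ m : List (Fin 2), m.length < N → η m = 0 := by
    intro m hm
    simp only [η]
    rw [if_neg (by omega)]
  have hη1 : ∀ m : List (Fin 2), m.length = N → η m = k m := by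
    intro m hm
    simp only [η]
    rw [if_pos hm]
  have hη2 : ∀ m : List (Fin 2), m.length = N + 1 → η m = 0 := by
    intro m hm
    simp only [η]
    rw [if_neg (by omega)]
  have hδ : ∀ j, ∀ m : List (Fin 2), m.length < N → δ j m = 0 := by
    intro j m hm
    simp only [δ]
    rw [if_neg (by omega)]
  have hδ1 : ∀ m : List (Fin 2), m.length = N → (fun j => δ j m) = ξ m := by
    intro m hm
    funext j
    simp only [δ]
    rw [if_pos hm]
  have hδ2 : ∀ m : List (Fin 2), m.length = N + 1 → (fun j => δ j m) = fun _ => 0 := by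
    intro m hm
    funext j
    simp only [δ]
    rw [if_neg (by omega)]
  set w₂ : s.ι → NPS (Fin 2) s.F := fun j => w j + δ j with hw₂
  have hw₂lt : ∀ m : List (Fin 2), m.length < N → ∀ j, w₂ j m = w j m := by
    intro m hm j
    show w j m + δ j m = w j m
    rw [hδ j m hm, add_zero]
  have hw₂0 : ∀ j, w₂ j [] = 0 := fun j => by rw [hw₂lt [] (by simp; omega) j]; exact P.w0 j
  have hw₂A : ∀ i j, w₂ j [i] = A i j := fun i j => by
    rw [hw₂lt [i] (by simp; omega) j]; exact P.wA i j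
  have hU₂lt : ∀ m : List (Fin 2), m.length < N → (U₁ + η) m = U m := by
    intro m hm
    rw [NPS.add_apply, hη m hm, add_zero, hU₁ m (by omega)]
  have hU₂0 : (U₁ + η) [] = 1 := by rw [hU₂lt [] (by simp; omega)]; exact P.U0
  have hE₂lt : ∀ m : List (Fin 2), m.length < N + 1 → slvE s.g w₂ (U₁ + η) m = 0 := by
    intro m hm
    rcases Nat.lt_or_ge m.length N with h1 | h1
    · rw [hw₂, slvE_pert_lt s.g w δ P.w0 U₁ η N (by omega) hδ hη m h1]
      exact hE₁lt m hm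
    · have h2 : m.length = N := by omega
      have h3 : lin s.F s.g (ξ m) = k m * s.g [] - s.g [] * k m := hLam m
      rw [hw₂, slvE_pert_eq s.g w δ P.w0 U₁ η hU₁0 N (by omega) hδ hη m h2, hδ1 m h2, hη1 m h2,
        hE₁lt m hm, h3]
      abel
  have hE₂ : ∀ m : List (Fin 2), m.length = N + 1 → ∀ x, InN s.F s.g v x →
      ntr s.F s.D (x * slvE s.g w₂ (U₁ + η) m) = 0 := by
    intro m hm x hx
    obtain ⟨i, hi⟩ : ∃ i, m.take 1 = [i] := by
      rw [← List.length_eq_one_iff, List.length_take]; omega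
    obtain ⟨l, hl⟩ : ∃ l, m.drop N = [l] := by
      rw [← List.length_eq_one_iff, List.length_drop]; omega
    have e1 : (fun j => w j [i]) = A i := funext fun j => P.wA i j
    have e2 : (fun j => w j [l]) = A l := funext fun j => P.wA l j
    have hd1 : (m.drop 1).length = N := by rw [List.length_drop]; omega
    have ht1 : (m.take N).length = N := by rw [List.length_take]; omega
    have hz : lin s.F s.g (fun _ => (0 : s.F)) = 0 := slv_lin_zero
    have hm1 : i :: m.drop 1 = m := by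
      have := List.take_append_drop 1 m
      rw [hi] at this
      exact this
    have hm2 : m.take N ++ [l] = m := by
      have := List.take_append_drop N m
      rw [hl] at this
      exact this
    rw [hw₂, slvE_pert_succ s.g w δ P.w0 U₁ η hU₁0 N hN hδ hη m hm, hδ2 m hm, hη2 m hm,
      hδ1 _ ht1, hδ1 _ hd1, hη1 _ hd1, hi, hl, e1, e2, hU₁A, hz]
    rw [mul_zero, zero_mul, sub_zero, add_zero, add_zero, mul_add, mul_add, map_add, map_add]
    have q1 : ntr s.F s.D (x * slvG2 s.g (ξ (m.take N)) (A l) (HA l)) =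
        ntr s.F s.D (x * Yv (l :: m.take N)) := by
      have h1 := hanti l (ξ (m.take N)) (k (m.take N)) (hLam _) x hx
      have h2 := hξ l (m.take N) x hx
      have h3 : s.G2 (ξ (m.take N)) (A l) (HA l) = slvG2 s.g (ξ (m.take N)) (A l) (HA l) := rfl
      rw [← h3]
      linear_combination h1 - h2
    have q2 : ntr s.F s.D (x * slvG2 s.g (A i) (ξ (m.drop 1)) (k (m.drop 1))) =
        - ntr s.F s.D (x * Yv m) := by
      have h2 := hξ i (m.drop 1) x hx
      rw [hm1] at h2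
      exact h2
    rw [q1, q2]
    have q3 : ntr s.F s.D (x * Yv (l :: m.take N)) = ∑ j ∈ Finset.range (N + 1),
        ((j : s.F) / ((N + 1 : ℕ) : s.F)) * ntr s.F s.D (x * slvE s.g w U₁ (m.rotate j)) := by
      simp only [Yv]
      rw [slv_sum_ntr]
      refine Finset.sum_congr rfl fun j _ => ?_
      rw [List.rotate_cons_succ, hm2]
    have q4 : ntr s.F s.D (x * Yv m) = ∑ j ∈ Finset.range (N + 1),
        ((j : s.F) / ((N + 1 : ℕ) : s.F)) * ntr s.F s.D (x * slvE s.g w U₁ (m.rotate (j + 1))) := by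
      simp only [Yv]
      rw [slv_sum_ntr]
    have q5 := slv_rot (fun j => ntr s.F s.D (x * slvE s.g w U₁ (m.rotate j))) (N + 1) (by omega)
      (by
        show ntr s.F s.D (x * slvE s.g w U₁ (m.rotate (N + 1))) =
          ntr s.F s.D (x * slvE s.g w U₁ (m.rotate 0))
        rw [← hm, List.rotate_length, List.rotate_zero])
      (by
        rw [← map_sum, ← Finset.mul_sum]
        exact slv_N_V hv hv0 x hx _ (hS3 m hm))
    rw [q3, q4]
    have q6 : ntr s.F s.D (x * slvE s.g w U₁ (m.rotate 0)) = ntr s.F s.D (x * slvE s.g w U₁ m) := by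
      rw [List.rotate_zero]
    simp only [q6] at q5
    linear_combination q5
  -- second correction
  obtain ⟨U₃, hU₃, hE₃, hE₃'⟩ := slv_comm w₂ (U₁ + η) hw₂0 hU₂0 (N + 1) (by omega)
  have hU₃0 : U₃ [] = 1 := by rw [hU₃ [] (by simp)]; exact hU₂0
  have hE₃lt : ∀ m : List (Fin 2), m.length < N + 1 → slvE s.g w₂ U₃ m = 0 := by
    intro m hm
    rw [hE₃ m hm]
    exact hE₂lt m hm
  have hE₃V : ∀ m : List (Fin 2), m.length = N + 1 → slvE s.g w₂ U₃ m ∈ s.V := by
    intro m hm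
    obtain ⟨κ, hκ, e⟩ := slv_S2 hAmin w₂ U₃ hw₂0 hU₃0 (hgpw w₂ hw₂A) (N + 1) (by omega) hE₃lt
      (fun m hm => (hE₃' m hm).1) v hv hv0 m hm
    rw [e]
    refine slv_N_dual hv hv0 κ hκ fun x hx => ?_
    rw [← e]
    obtain ⟨c, hc⟩ := (hE₃' m hm).2
    have := hE₂ m hm x hx
    rw [hc, mul_add, map_add, slv_N_brk hv hv0 x hx, add_zero] at this
    exact this
  obtain ⟨w₄, U₄, hw₄, hU₄, hE₄⟩ := slv_kill hCmin w₂ U₃ hw₂0 hU₃0 (N + 1) (by omega) hE₃lt hE₃V
  refine ⟨w₄, U₄, ⟨fun j => ?_, fun i j => ?_, ?_, fun i => ?_, hE₄⟩, fun m hm => ⟨fun j => ?_, ?_⟩⟩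
  · rw [hw₄ j [] (by simp)]; exact hw₂0 j
  · rw [hw₄ j [i] (by simp; omega)]; exact hw₂A i j
  · rw [hU₄ [] (by simp)]; exact hU₃0
  · rw [hU₄ [i] (by simp; omega), hU₃ [i] (by simp; omega), hU₂lt [i] (by simp; omega)]
    exact P.UA i
  · rw [hw₄ j m (by omega), hw₂lt m hm j]
  · rw [hU₄ m (by omega), hU₃ m (by omega), hU₂lt m hm]

theorem slv_step1 (A : Fin 2 → s.ι → s.F) (HA : Fin 2 → s.D)
    (hL : ∀ i, s.InLam (A i) (HA i)) (gp : GoodPair s.F s.X s.Y (A 0) (A 1))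
    (hab : ∀ x, InN s.F s.g v x → ntr s.F s.D (x * s.G2 (A 0) (A 1) (HA 1)) = 0) :
    ∃ (w' : s.ι → NPS (Fin 2) s.F) (U' : NPS (Fin 2) s.D), SlvP s A HA 2 w' U' := by
  have hAmin : St.Amin s₀ s := h.1.1
  have hCmin : St.Cmin s₀ s := hAmin.1
  obtain ⟨U', hU, hE, hE'⟩ := slv_comm (slvW A) (slvU HA) (fun j => rfl) rfl 2 (by norm_num)
  have hU0 : U' [] = 1 := hU [] (by simp)
  have hlt : ∀ m : List (Fin 2), m.length < 2 → slvE s.g (slvW A) U' m = 0 := by
    intro m hm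
    rw [hE m hm]
    exact slv_lin_lt A HA hL m hm
  have h1 := slv_S3 h hd (slvW A) U' (fun j => rfl) hU0 gp 2 le_rfl hlt
    (fun m hm => (hE' m hm).1)
  have h3 : ∀ x, InN s.F s.g v x → ∀ i k : Fin 2,
      ntr s.F s.D (x * slvE s.g (slvW A) U' [i, k]) =
        ntr s.F s.D (x * s.G2 (A i) (A k) (HA k)) := by
    intro x hx i k
    obtain ⟨c, hc⟩ := (hE' [i, k] rfl).2
    rw [slv_lin_two] at hc
    rw [hc, mul_add, map_add, slv_N_brk hv hv0 x hx, add_zero]
  have h01 : slvE s.g (slvW A) U' [0, 1] ∈ s.V := by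
    obtain ⟨κ, hκ, e⟩ := slv_S2 hAmin (slvW A) U' (fun j => rfl) hU0 gp 2 le_rfl hlt
      (fun m hm => (hE' m hm).1) v hv hv0 [0, 1] rfl
    rw [e]
    refine slv_N_dual hv hv0 κ hκ fun x hx => ?_
    rw [← e, h3 x hx]
    exact hab x hx
  have hsum : ∀ i k : Fin 2, slvE s.g (slvW A) U' [i, k] + slvE s.g (slvW A) U' [k, i] ∈ s.V := by
    intro i k
    have := h1 [i, k] rfl
    rw [Finset.sum_range_succ, Finset.sum_range_one] at this
    exact this
  have h10 : slvE s.g (slvW A) U' [1, 0] ∈ s.V := by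
    have := s.V.sub_mem (hsum 0 1) h01
    rwa [add_sub_cancel_left] at this
  have hii : ∀ i : Fin 2, slvE s.g (slvW A) U' [i, i] ∈ s.V := by
    intro i
    have := hsum i i
    rw [← two_smul s.F] at this
    exact (s.V.smul_mem_iff (two_ne_zero)).1 this
  have hV : ∀ m : List (Fin 2), m.length = 2 → slvE s.g (slvW A) U' m ∈ s.V := by
    intro m hm
    obtain ⟨i, k, rfl⟩ := List.length_eq_two.1 hm
    fin_cases i <;> fin_cases k
    · exact hii 0
    · exact h01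
    · exact h10
    · exact hii 1
  obtain ⟨w₄, U₄, hw₄, hU₄, hE₄⟩ := slv_kill hCmin (slvW A) U' (fun j => rfl) hU0 2 (by norm_num)
    hlt hV
  refine ⟨w₄, U₄, ⟨fun j => ?_, fun i j => ?_, ?_, fun i => ?_, hE₄⟩⟩
  · rw [hw₄ j [] (by simp)]; rfl
  · rw [hw₄ j [i] (by simp)]; rfl
  · rw [hU₄ [] (by simp)]; exact hU0
  · rw [hU₄ [i] (by simp), hU [i] (by simp)]; rfl

end

theorem solve {s₀ s : St} {B : ℕ} (h : St.Omin s₀ B s) (hd : 2 * s.oK + 2 ≤ s.dV)
    (v : s.D) (hv : v ∈ s.V) (hv0 : v ≠ 0) (a b : s.ι → s.F) (ha hb : s.D)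
    (hLa : s.InLam a ha) (hLb : s.InLam b hb) (hgp : GoodPair s.F s.X s.Y a b)
    (hab : ∀ x, InN s.F s.g v x → ntr s.F s.D (x * s.G2 a b hb) = 0)
    (hnd : ∀ x x', InN s.F s.g v x → InN s.F s.g v x' →
      (∀ ξ k, s.InLam ξ k →
        ntr s.F s.D (x * s.G2 a ξ k) + ntr s.F s.D (x' * s.G2 b ξ k) = 0) → x = 0 ∧ x' = 0) :
    ∃ (w : s.ι → NPS (Fin 2) s.F) (U : NPS (Fin 2) s.D),
      (∀ j, w j [] = 0) ∧ (∀ j, w j [0] = a j) ∧ (∀ j, w j [1] = b j) ∧ U [] = 1 ∧
      (subst w s.g : NPS (Fin 2) s.D) * U = U * NPS.C (s.g []) := by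
  let A : Fin 2 → s.ι → s.F := ![a, b]
  let HA : Fin 2 → s.D := ![ha, hb]
  have hL : ∀ i, s.InLam (A i) (HA i) := fun i => by fin_cases i <;> assumption
  have gp : GoodPair s.F s.X s.Y (A 0) (A 1) := hgp
  obtain ⟨w₂, U₂, P₂⟩ := slv_step1 h hd hv hv0 A HA hL gp hab
  let Sol : ℕ → Type := fun n => {p : (s.ι → NPS (Fin 2) s.F) × NPS (Fin 2) s.D //
    SlvP s A HA (n + 2) p.1 p.2}
  have hstep : ∀ (n : ℕ) (p : Sol n), ∃ q : Sol (n + 1), ∀ m : List (Fin 2), m.length < n + 2 →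
      (∀ j, q.1.1 j m = p.1.1 j m) ∧ q.1.2 m = p.1.2 m := by
    intro n p
    obtain ⟨w', U', P', hst⟩ := slv_step h hd hv hv0 A HA hL gp hnd (n + 2) (by omega) p.1.1 p.1.2 p.2
    exact ⟨⟨(w', U'), P'⟩, hst⟩
  choose nx hnx using hstep
  let sq : ∀ n, Sol n := fun n => Nat.rec (motive := Sol) ⟨(w₂, U₂), P₂⟩ (fun n p => nx n p) n
  have hsq : ∀ n, sq (n + 1) = nx n (sq n) := fun n => rfl
  have hst : ∀ (m : List (Fin 2)) (n : ℕ), m.length ≤ n →
      (∀ j, (sq n).1.1 j m = (sq m.length).1.1 j m) ∧ (sq n).1.2 m = (sq m.length).1.2 m := by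
    intro m n hn
    induction n, hn using Nat.le_induction with
    | base => exact ⟨fun j => rfl, rfl⟩
    | succ n hn ih =>
      obtain ⟨h1, h2⟩ := hnx n (sq n) m (by omega)
      rw [hsq]
      exact ⟨fun j => by rw [h1 j, ih.1 j], by rw [h2, ih.2]⟩
  let w : s.ι → NPS (Fin 2) s.F := fun j m => (sq m.length).1.1 j m
  let U : NPS (Fin 2) s.D := fun m => (sq m.length).1.2 m
  have hE : ∀ m : List (Fin 2), slvE s.g w U m = 0 := by
    intro m
    set n := m.length with hn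
    let δ : s.ι → NPS (Fin 2) s.F := fun j => w j - (sq n).1.1 j
    let η : NPS (Fin 2) s.D := U - (sq n).1.2
    have hδ : ∀ j, ∀ m' : List (Fin 2), m'.length < n + 1 → δ j m' = 0 := by
      intro j m' hm'
      show (sq m'.length).1.1 j m' - (sq n).1.1 j m' = 0
      rw [(hst m' n (by omega)).1 j, sub_self]
    have hη : ∀ m' : List (Fin 2), m'.length < n + 1 → η m' = 0 := by
      intro m' hm'
      show (sq m'.length).1.2 m' - (sq n).1.2 m' = 0
      rw [(hst m' n (by omega)).2, sub_self]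
    have h1 := slvE_pert_lt s.g (sq n).1.1 δ (sq n).2.w0 (sq n).1.2 η (n + 1) (by omega) hδ hη m
      (by omega)
    have e1 : (fun j => (sq n).1.1 j + δ j) = w := by
      funext j
      show (sq n).1.1 j + (w j - (sq n).1.1 j) = w j
      abel
    have e2 : (sq n).1.2 + η = U := by
      show (sq n).1.2 + (U - (sq n).1.2) = U
      abel
    rw [e1, e2] at h1
    rw [h1]
    exact (sq n).2.eq m (by omega)
  refine ⟨w, U, fun j => (sq 0).2.w0 j, fun j => (sq 1).2.wA 0 j, fun j => (sq 1).2.wA 1 j,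
    (sq 0).2.U0, ?_⟩
  have h0 : slvE s.g w U = 0 := NPS.ext hE
  unfold slvE at h0
  exact sub_eq_zero.1 h0

end Crest.Agent.R180
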