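import Mathlib
import Crest.Agent.R180.Stage
import Crest.Agent.R180.PI
import Crest.Agent.R180.SymExist

/-!
# Piece START
-/

set_option autoImplicit false
set_option linter.unusedSectionVars false

namespace Crest.Agent.R180
open Module

theorem startAux_coeff {R : Type} [Ring R] (Z : Fin 2 → R) (L : List (Fin 2)) :
    PowerSeries.coeff L.length ((L.map (fun j => PowerSeries.X * PowerSeries.C (Z j))).prod) =
      (L.map Z).prod := by
  induction L with
  | nil => simp
  | cons a L ih =>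
    rw [List.map_cons, List.prod_cons, List.length_cons, mul_assoc, PowerSeries.coeff_succ_X_mul,
      PowerSeries.coeff_C_mul, ih, List.map_cons, List.prod_cons]

section key
variable {F D F₁ D₁ β : Type} [Field F] [CharZero F] [Ring D] [IsDomain D] [Algebra F D]
    [FiniteDimensional F D] [Algebra.IsCentral F D]
    [Field F₁] [CharZero F₁] [Ring D₁] [IsDomain D₁] [Algebra F₁ D₁]
    [FiniteDimensional F₁ D₁] [Algebra.IsCentral F₁ D₁]
    [Fintype β] [DecidableEq β]
    {e : CExt F D F₁ D₁ β} {T : EData e (Fin 2)} (S : EStep T)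

theorem startAux_nil (g : NPS (Fin 2) D) (p : Polynomial F) :
    (Polynomial.aeval g p) [] = Polynomial.aeval (g []) p := by
  have h := Polynomial.hom_eval₂ p (algebraMap F (NPS (Fin 2) D)) (NPS.const : NPS (Fin 2) D →+* D) g
  rw [Polynomial.aeval_def, Polynomial.aeval_def]
  exact h

theorem startAux_Psi (g : NPS (Fin 2) D) (p : Polynomial F) :
    S.Ψ (Polynomial.aeval g p) [] = Polynomial.aeval (S.Ψ g [])
      (p.map ((lc : F₁ →+* Lau F₁).comp e.φ)) := by
  have h := Polynomial.hom_eval₂ p (algebraMap F (NPS (Fin 2) D))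
    ((NPS.const : NPS (Fin 2 × β) (Lau D₁) →+* Lau D₁).comp S.Ψ) g
  have h1 : ((NPS.const : NPS (Fin 2 × β) (Lau D₁) →+* Lau D₁).comp S.Ψ).comp
      (algebraMap F (NPS (Fin 2) D)) =
      (algebraMap (Lau F₁) (Lau D₁)).comp ((lc : F₁ →+* Lau F₁).comp e.φ) := by
    ext1 a
    change (S.Ψ (algebraMap F (NPS (Fin 2) D) a)) [] = _
    rw [NPS.algebraMap_def, S.Ψ_scalar]
    rfl
  rw [h1] at h
  rw [Polynomial.aeval_def, Polynomial.aeval_def, Polynomial.eval₂_map]
  exact h

theorem startAux_V (Z : Fin 2 → D₁) (hZ : ∀ i, Z i ∈ e.E)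
    (hQ : ∀ j, T.Q j = PowerSeries.X * PowerSeries.C (Z j)) (hU : T.U = 1)
    (g : NPS (Fin 2) D) (N : ℕ)
    (hN : ∀ m : List (Fin 2), m.length < N → (Polynomial.aeval g (minpoly F (g []))) m = 0)
    (ℓ : D →ₗ[F] F)
    (hne : ∑ m : Fin N → Fin 2, algebraMap F₁ D₁
      (e.φ (ℓ ((Polynomial.aeval g (minpoly F (g []))) (List.ofFn m)))) *
        ((List.ofFn m).map Z).prod ≠ 0) : Vs (Lau F₁) (S.Ψ g) ≠ ⊥ := by
  intro hV
  have h1 := start_aux S g hV
  set h := Polynomial.aeval g (minpoly F (g [])) with hh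
  rw [← startAux_Psi S g (minpoly F (g [])), ← hh] at h1
  have h2 := S.Ψ_spec h []
  rw [h1, hU, mul_zero, mul_one] at h2
  have h3 : S.ev h [] = 0 := by
    apply HahnSeries.ofPowerSeries_injective (Γ := ℤ)
    rw [map_zero]
    exact h2.symm
  rw [S.ev_nil] at h3
  have h4 : PowerSeries.coeff N (evQ e T.Q h) = 0 := by rw [h3, map_zero]
  rw [evQ, PowerSeries.coeff_mk, Finset.sum_range_succ, Finset.sum_eq_zero, zero_add] at h4
  · apply hne
    have h5 : e.ext (CExt.fun' F ℓ) (∑ l : Fin N → Fin 2, e.i (h (List.ofFn l)) *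
        PowerSeries.coeff N ((List.ofFn l).map T.Q).prod) = 0 := by rw [h4, map_zero]
    rw [map_sum] at h5
    rw [← h5]
    refine Finset.sum_congr rfl fun m _ => ?_
    have h6 : PowerSeries.coeff N ((List.ofFn m).map T.Q).prod = ((List.ofFn m).map Z).prod := by
      have h7 := startAux_coeff Z (List.ofFn m)
      rw [List.length_ofFn] at h7
      rw [← h7]
      congr 3
      funext j
      exact hQ j
    rw [h6]
    symm
    apply e.ext_fun_apply
    refine Subalgebra.list_prod_mem _ fun y hy => ?_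
    obtain ⟨i, _, rfl⟩ := List.mem_map.1 hy
    exact hZ i
  · intro k hk
    rw [Finset.mem_range] at hk
    refine Finset.sum_eq_zero fun l _ => ?_
    rw [hN (List.ofFn l) (by rw [List.length_ofFn]; exact hk), map_zero, zero_mul]

end key

/-- **START**.  If `g` is not algebraic there is a reachable good state with `V ≠ 0`.
Let `p = minpoly F θ`, `θ = g []`, `h = p(g) ≠ 0`, `N` = minimal length of a word with `h m₀ ≠ 0` (`N ≥ 1` as `h [] = p(θ) = 0`);
`ℓ (h m₀) ≠ 0`, `κ m = ℓ (h m)`; prime `r > N`, `S : SymData`, `pi_off` gives `Z`, `κ(Z) ∉ F₀`, in particular `≠ 0`.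
E-step with `e = S.e`, `Q_j = X * C (Z j)`, `U = 1` (`exists_EStep`); `GenQ` from `gen_cond` with `a = ![1,0]`, `b = ![0,1]`
(so `p_j = Z j`); `good_next`, `next_reach`.  If `V' = 0`: `start_aux` gives `p(Ψ g []) = 0`, so `(Ψ h) [] = 0`, i.e. `evQ h = 0`
(`ev_nil`); but `coeff N (evQ h) = Σ_{|m|=N} i (h m) Z_m`, whose image under `ext (fun' ℓ)` is `κ(Z) ≠ 0`. -/
theorem start (σ : Stage) (g : NPS (Fin 2) σ.D) (hg : g ∈ AlgXY σ.F σ.X σ.Y)
    (hna : ¬ IsIntegral σ.F g) : ∃ s', St.Cls (σ.toSt g hg) s' := by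
  classical
  have hint : IsIntegral σ.F (g []) := Algebra.IsIntegral.isIntegral _
  set h := Polynomial.aeval g (minpoly σ.F (g [])) with hh
  have hne : h ≠ 0 := by
    intro h0
    exact hna ⟨minpoly σ.F (g []), minpoly.monic hint, by rw [← Polynomial.aeval_def]; exact h0⟩
  have hnil : h [] = 0 := by
    rw [hh, startAux_nil, minpoly.aeval]
  have hex : ∃ N : ℕ, ∃ m : List (Fin 2), m.length = N ∧ h m ≠ 0 := by
    by_contra hcon
    apply hne
    ext m
    by_contra hm
    exact hcon ⟨m.length, m, rfl, hm⟩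
  set N := Nat.find hex with hNdef
  obtain ⟨m₀, hm₀, hm₀ne⟩ := Nat.find_spec hex
  have hmin : ∀ m : List (Fin 2), m.length < N → h m = 0 := by
    intro m hm
    by_contra hcon
    exact Nat.find_min hex hm ⟨m, rfl, hcon⟩
  have hN1 : 1 ≤ N := by
    by_contra hcon
    have h0 : N = 0 := by omega
    have : m₀ = [] := by
      rw [← List.length_eq_zero_iff, hm₀, ← hNdef, h0]
    rw [this] at hm₀ne
    exact hm₀ne hnil
  obtain ⟨ℓ, hℓ⟩ : ∃ ℓ : σ.D →ₗ[σ.F] σ.F, ℓ (h m₀) ≠ 0 := by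
    by_contra hcon
    push Not at hcon
    exact hm₀ne ((Module.forall_dual_apply_eq_zero_iff σ.F (h m₀)).1 hcon)
  obtain ⟨r, hrN, hr⟩ := Nat.exists_infinite_primes (N + 1)
  obtain ⟨ζ, hζ⟩ := σ.rou r hr.pos
  obtain ⟨F₀, D₀, _, _, _, _, _, _, _, ⟨S⟩⟩ := exists_sym σ.F σ.D r hr ζ hζ
  obtain ⟨Z, hZE, hZgen, hZ⟩ := S.pi_off hr hζ N hN1 (by omega) (fun m => ℓ (h m))
    ⟨fun i => m₀.get (i.cast hm₀.symm), by
      have : List.ofFn (fun i : Fin N => m₀.get (i.cast hm₀.symm)) = m₀ := by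
        apply List.ext_get
        · rw [List.length_ofFn, hm₀]
        · intro n h1 h2
          simp
      rw [this]
      exact hℓ⟩
  have hZ0 : S.evk N (fun m => ℓ (h m)) Z ≠ 0 := by
    intro h0
    exact hZ ⟨0, by rw [h0, map_zero]⟩
  let T : EData S.e (Fin 2) :=
    { Q := fun j => PowerSeries.X * PowerSeries.C (Z j)
      Q0 := fun j => by simp
      QE := fun j n => nxtAux_mem (σ.toSt g hg) S.e (Z j) (hZE j) n
      U := 1
      U0 := by simp }
  obtain ⟨S'⟩ := exists_EStep T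
  have hgood : (σ.toSt g hg).Good := ⟨σ.g1, ![1, 0], ![0, 1], σ.gp⟩
  have hgen : GenQ T σ.X σ.Y := by
    intro k hk k' hX hY
    have h1 : ∀ j, PowerSeries.coeff 1 (T.Q j) = Z j := fun j => nxtAux_coeff1 (Z j)
    simp only [h1] at hX hY
    have h2 : ∀ j : Fin 2, algebraMap F₀ D₀ (S.e.φ ((![1, 0] : Fin 2 → σ.F) j)) * Z 0 +
        algebraMap F₀ D₀ (S.e.φ ((![0, 1] : Fin 2 → σ.F) j)) * Z 1 = Z j := by
      intro j
      fin_cases j <;> simp
    refine S.e.gen_cond σ.X σ.Y ![1, 0] ![0, 1] σ.gp Z hZE hZgen k k' hk ?_ ?_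
    · simp only [h2]; exact hX
    · simp only [h2]; exact hY
  refine ⟨St.next (σ.toSt g hg) (e := S.e) (T := T) S', next_reach (σ.toSt g hg) (e := S.e) (T := T) S', ?_, ?_⟩
  · exact good_next S' σ.X σ.Y hgood hgen
  · exact startAux_V S' Z hZE (fun j => rfl) rfl g N hmin ℓ hZ0

end Crest.Agent.R180
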