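import Mathlib
import Crest.Agent.R180.Stage
import Crest.Agent.R180.Start
import Crest.Agent.R180.ND
import Crest.Agent.R180.Solve
import Crest.Agent.R180.LB

/-!
# Piece STEP
-/

set_option autoImplicit false
set_option linter.unusedSectionVars false

namespace Crest.Agent.R180
open Module

/-- minimal states exist (well-ordering of `ℕ`) -/
theorem exists_Amin {s₀ s : St} (h : St.Cls s₀ s) : ∃ s', St.Amin s₀ s' := by
  classical
  have hex : ∃ n : ℕ, ∃ s' : St, St.Cls s₀ s' ∧ s'.c2 = n := ⟨s.c2, s, h, rfl⟩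
  obtain ⟨s₁, h₁, e₁⟩ := Nat.find_spec hex
  have hC : St.Cmin s₀ s₁ := ⟨h₁, fun s' hs' => by
    rw [e₁]; exact Nat.find_min' hex ⟨s', hs', rfl⟩⟩
  have hex2 : ∃ n : ℕ, ∃ s' : St, St.Cmin s₀ s' ∧ s'.aK = n := ⟨s₁.aK, s₁, hC, rfl⟩
  obtain ⟨s₂, h₂, e₂⟩ := Nat.find_spec hex2
  exact ⟨s₂, h₂, fun s' hs' => by rw [e₂]; exact Nat.find_min' hex2 ⟨s', hs', rfl⟩⟩

/-- conjugation by an invertible series, on constants -/
noncomputable def stpConj {ι F D : Type} [Field F] [Ring D] [Algebra F D] (U V : NPS ι D)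
    (h1 : U * V = 1) (h2 : V * U = 1) : D →ₐ[F] NPS ι D where
  toFun d := U * NPS.C d * V
  map_one' := by rw [map_one, mul_one, h1]
  map_mul' x y := by
    rw [map_mul]
    calc U * (NPS.C x * NPS.C y) * V = U * NPS.C x * (V * U) * NPS.C y * V := by
          rw [h2, mul_one, mul_assoc U (NPS.C x)]
      _ = U * NPS.C x * V * (U * NPS.C y * V) := by simp only [mul_assoc]
  map_zero' := by rw [map_zero, mul_zero, zero_mul]
  map_add' x y := by rw [map_add, mul_add, add_mul]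
  commutes' a := by
    rw [← NPS.algebraMap_def, ← Algebra.commutes, mul_assoc, h1, mul_one]

/-- **STEP**.  `start`, `exists_Amin`, `exists_Omin`, `nd`, `solve`; then substitute `w` (`exists_substHom`):
`Φ : NPS ι D' → NPS (Fin 2) D'`, `Φ g = U θ U⁻¹` is a root of `minpoly θ`; `(Φ f) [] = f []`,
`(Φ f) [i] = lin f (a or b)`, so `Good1`, `GoodPair` hold for `Φ X, Φ Y`. -/
theorem stage_step (σ : Stage) (g : NPS (Fin 2) σ.D) (hg : g ∈ AlgXY σ.F σ.X σ.Y) :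
    ∃ (σ' : Stage) (Ψ : NPS (Fin 2) σ.D →+* NPS (Fin 2) σ'.D) (φ : σ.F →+* σ'.F),
      (∀ a, Ψ (algebraMap σ.F _ a) = algebraMap σ'.F _ (φ a)) ∧
      Ψ σ.X = σ'.X ∧ Ψ σ.Y = σ'.Y ∧ IsIntegral σ'.F (Ψ g) := by
  by_cases hint : IsIntegral σ.F g
  · exact ⟨σ, RingHom.id _, RingHom.id _, fun a => rfl, rfl, rfl, hint⟩
  obtain ⟨s', hs'⟩ := start σ g hg hint
  obtain ⟨sA, hA⟩ := exists_Amin hs'
  obtain ⟨B, s1, hO, hd⟩ := exists_Omin hA
  obtain ⟨s2, hO2, hd2, v, hv, hv0, a, b, ha, hb, hLa, hLb, hgp, hab, hnd⟩ := nd hO hd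
  obtain ⟨w, U, hw0, hwa, hwb, hU0, hsub⟩ :=
    solve hO2 hd2 v hv hv0 a b ha hb hLa hLb hgp hab hnd
  obtain ⟨Φ, hΦ, hΦC⟩ := exists_substHom (D := s2.D) w hw0
  have hcls : St.Cls (σ.toSt g hg) s2 := hO2.1.1.1.1
  obtain ⟨⟨Ψ₀, φ₀, h1, h2, h3, h4⟩, hgood, -⟩ := hcls
  have hnil : ∀ f, (Φ f) [] = f [] := fun f => by rw [hΦ, slv_subst_nil]
  have hone : ∀ f, ∀ i, (Φ f) [i] = lin s2.F f (fun j => w j [i]) := fun f i => by
    rw [hΦ, slv_subst_one w hw0]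
  have hlin : ∀ (f : NPS s2.ι s2.D) (α β : s2.F), lin s2.F (Φ f) (α • (![1, 0] : Fin 2 → s2.F) + β • ![0, 1]) =
      lin s2.F f (α • a + β • b) := by
    intro f α β
    have e1 : lin s2.F (Φ f) (α • (![1, 0] : Fin 2 → s2.F) + β • ![0, 1]) =
        α • (Φ f) [0] + β • (Φ f) [1] := by
      have e0 : lin s2.F (Φ f) (α • (![1, 0] : Fin 2 → s2.F) + β • ![0, 1]) =
        ∑ j : Fin 2, (α • (![1, 0] : Fin 2 → s2.F) + β • ![0, 1] : Fin 2 → s2.F) j • (Φ f) [j] :=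
          rfl
      rw [e0, Fin.sum_univ_two]
      simp
    have e2 : (fun j => w j [0]) = a := funext hwa
    have e3 : (fun j => w j [1]) = b := funext hwb
    rw [e1, hone, hone, e2, e3, map_add, map_smul, map_smul]
  refine ⟨{ F := s2.F, D := s2.D, rou := s2.rou, X := Φ s2.X, Y := Φ s2.Y,
            g1 := ?_, gp := ?_ }, Φ.comp Ψ₀, φ₀, ?_, ?_, ?_, ?_⟩
  · intro k hX hY
    rw [hnil] at hX hY
    exact hgood.1 k hX hY
  · intro α β k hX hY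
    rw [hlin, hnil] at hX hY
    exact hgp α β k hX hY
  · intro x
    show Φ (Ψ₀ (NPS.C (algebraMap σ.F σ.D x))) = NPS.C (algebraMap s2.F s2.D (φ₀ x))
    rw [show Ψ₀ (NPS.C (algebraMap σ.F σ.D x)) = NPS.C (algebraMap s2.F s2.D (φ₀ x)) from h1 x,
      hΦC]
  · show Φ (Ψ₀ σ.X) = Φ s2.X
    rw [show Ψ₀ σ.X = s2.X from h2]
  · show Φ (Ψ₀ σ.Y) = Φ s2.Y
    rw [show Ψ₀ σ.Y = s2.Y from h3]
  · show IsIntegral s2.F (Φ (Ψ₀ g))
    rw [show Ψ₀ g = s2.g from h4, hΦ]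
    obtain ⟨V, hUV, hVU, -⟩ := NPS.exists_inv U hU0
    have e1 : (subst w s2.g : NPS (Fin 2) s2.D) = stpConj (F := s2.F) U V hUV hVU (s2.g []) := by
      show _ = U * NPS.C (s2.g []) * V
      rw [← hsub, mul_assoc, hUV, mul_one]
    rw [e1]
    exact IsIntegral.map _ (IsIntegral.of_finite s2.F (s2.g []))

end Crest.Agent.R180
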