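import Mathlib
import Crest.Agent.R180.Step

/-!
# The tower of stages and the final division ring (pieces TOWER, FINDIM, LIMIT)
-/

set_option autoImplicit false
set_option linter.unusedSectionVars false

namespace Crest.Agent.R180
open Module

/-- an infinite tower of stages with countable subrings `k n` of scalars such that every element of
`k n ⟨X,Y⟩` becomes algebraic over some `k m` and nonzero elements of `k n` are invertible in `k (n+1)`. -/
structure Tower where
  σ : ℕ → Stage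
  Ψ : ∀ n, NPS (Fin 2) (σ n).D →+* NPS (Fin 2) (σ (n + 1)).D
  φ : ∀ n, (σ n).F →+* (σ (n + 1)).F
  comp : ∀ n a, Ψ n (algebraMap (σ n).F _ a) = algebraMap (σ (n + 1)).F _ (φ n a)
  ΨX : ∀ n, Ψ n (σ n).X = (σ (n + 1)).X
  ΨY : ∀ n, Ψ n (σ n).Y = (σ (n + 1)).Y
  k : ∀ n, Subring (σ n).F
  kc : ∀ n, Countable (k n)
  kφ : ∀ n, ∀ a ∈ k n, φ n a ∈ k (n + 1)
  kinv : ∀ n, ∀ a ∈ k n, a ≠ 0 → (φ n a)⁻¹ ∈ k (n + 1)
  /-- iterated map -/
  map : ∀ n j, NPS (Fin 2) (σ n).D →+* NPS (Fin 2) (σ (n + j)).D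
  map_zero : ∀ n, map n 0 = RingHom.id _
  map_succ : ∀ n j, map n (j + 1) = (Ψ (n + j)).comp (map n j)
  alg : ∀ n, ∀ g ∈ Subring.closure ((fun a => algebraMap (σ n).F (NPS (Fin 2) (σ n).D) a) '' (k n) ∪
      {(σ n).X, (σ n).Y}), ∃ (j : ℕ) (p : Polynomial (σ (n + j)).F), p.Monic ∧
      (∀ i, p.coeff i ∈ k (n + j)) ∧ Polynomial.aeval (map n j g) p = 0

/-- coefficients of a letter -/
theorem tw_var_apply {D : Type} [Ring D] (i j : Fin 2) :
    (NPS.var i : NPS (Fin 2) D) [j] = if j = i then 1 else 0 := by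
  unfold NPS.var
  simp only [List.cons.injEq, and_true]

theorem tw_lin_var {D : Type} [CommRing D] {F : Type} [Field F] [Algebra F D] (i : Fin 2)
    (c : Fin 2 → F) : lin F (NPS.var i : NPS (Fin 2) D) c = algebraMap F D (c i) := by
  change ∑ j, c j • (NPS.var i : NPS (Fin 2) D) [j] = _
  simp only [tw_var_apply, Algebra.smul_def, mul_one, mul_zero, mul_ite]
  simp

/-- the initial stage: `F = D = ℂ`, `X = w₀`, `Y = w₁` (`Complex.isPrimitiveRoot_exp`) -/
theorem exists_stage0 : Nonempty Stage := by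
  refine ⟨{ F := ℂ, D := ℂ, rou := ?_, X := NPS.var 0, Y := NPS.var 1, g1 := ?_, gp := ?_ }⟩
  · intro n hn
    exact ⟨_, Complex.isPrimitiveRoot_exp n hn.ne'⟩
  · intro h _ _
    exact ⟨h, rfl⟩
  · intro α β h h1 h2
    rw [tw_lin_var] at h1 h2
    simp only [Pi.add_apply, Pi.smul_apply, Matrix.cons_val_zero, Matrix.cons_val_one,
      smul_eq_mul, mul_one, mul_zero, add_zero, zero_add, Algebra.algebraMap_self,
      RingHom.id_apply] at h1 h2
    constructor
    · rw [h1]; ring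
    · rw [h2]; ring

/-- the ring generated by `k`, `X`, `Y` -/
def TwRk (σ : Stage) (k : Subring σ.F) : Subring (NPS (Fin 2) σ.D) :=
  Subring.closure ((fun a => algebraMap σ.F (NPS (Fin 2) σ.D) a) '' k ∪ {σ.X, σ.Y})

theorem tw_countable_closure {A : Type} [Ring A] (s : Set A) (hs : s.Countable) :
    Countable (Subring.closure s) := by
  have h1 : Cardinal.mk (Algebra.adjoin ℤ s) ≤ Cardinal.aleph0 := by
    refine (Algebra.cardinalMk_adjoin_le ℤ s).trans ?_
    refine max_le (max_le ?_ ?_) le_rfl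
    · exact Cardinal.mk_le_aleph0
    · exact Cardinal.le_aleph0_iff_set_countable.mpr hs
  have : Countable (Algebra.adjoin ℤ s) := Cardinal.mk_le_aleph0_iff.mp h1
  have hle : Subring.closure s ≤ (Algebra.adjoin ℤ s).toSubring :=
    Subring.closure_le.2 Algebra.subset_adjoin
  exact (Subring.inclusion_injective hle).countable

theorem tw_countable_sfclosure {A : Type} [Field A] (s : Set A) (hs : s.Countable) :
    Countable (Subfield.closure s) := by
  have h1 : Cardinal.mk (Subfield.closure s) ≤ Cardinal.aleph0 := by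
    refine (Subfield.cardinalMk_closure_le_max s).trans ?_
    exact max_le (Cardinal.le_aleph0_iff_set_countable.mpr hs) le_rfl
  exact Cardinal.mk_le_aleph0_iff.mp h1

theorem TwRk_le (σ : Stage) (k : Subring σ.F) : TwRk σ k ≤ AlgXY σ.F σ.X σ.Y := by
  refine Subring.closure_le.2 ?_
  rintro z (⟨a, _, rfl⟩ | hz)
  · exact Subring.subset_closure (Or.inl ⟨a, rfl⟩)
  · exact Subring.subset_closure (Or.inr hz)

theorem exists_TwEnum (σ : Stage) (k : Subfield σ.F) (kc : Countable k) :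
    ∃ e : ℕ → NPS (Fin 2) σ.D, (∀ m, e m ∈ AlgXY σ.F σ.X σ.Y) ∧
      ∀ g ∈ TwRk σ k.toSubring, ∃ m, e m = g := by
  have hc : Countable (TwRk σ k.toSubring) := by
    apply tw_countable_closure
    refine Set.Countable.union ?_ (Set.Finite.countable (Set.toFinite _))
    exact Set.Countable.image (Set.countable_coe_iff.mp kc) _
  obtain ⟨f, hf⟩ := exists_surjective_nat (TwRk σ k.toSubring)
  refine ⟨fun m => (f m : NPS (Fin 2) σ.D), fun m => TwRk_le σ _ (f m).2, fun g hg => ?_⟩
  obtain ⟨m, hm⟩ := hf ⟨g, hg⟩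
  exact ⟨m, by simp [hm]⟩

/-- state of the tower construction -/
structure TwS where
  σ : Stage
  k : Subfield σ.F
  kc : Countable k
  T : ℕ → ℕ → NPS (Fin 2) σ.D
  hT : ∀ i m, T i m ∈ AlgXY σ.F σ.X σ.Y

/-- one step of the tower construction -/
structure TwStep (n : ℕ) (s : TwS) where
  s' : TwS
  Ψ : NPS (Fin 2) s.σ.D →+* NPS (Fin 2) s'.σ.D
  φ : s.σ.F →+* s'.σ.F
  comp : ∀ a, Ψ (algebraMap s.σ.F _ a) = algebraMap s'.σ.F _ (φ a)
  ΨX : Ψ s.σ.X = s'.σ.X
  ΨY : Ψ s.σ.Y = s'.σ.Y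
  kφ : ∀ a ∈ s.k, φ a ∈ s'.k
  hT : ∀ i ≤ n, ∀ m, s'.T i m = Ψ (s.T i m)
  hN : ∀ g ∈ TwRk s'.σ s'.k.toSubring, ∃ m, s'.T (n + 1) m = g
  alg : ∃ p : Polynomial s'.σ.F, p.Monic ∧ (∀ i, p.coeff i ∈ s'.k) ∧
     Polynomial.aeval (Ψ (s.T n.unpair.1 n.unpair.2)) p = 0

theorem exists_TwStep (n : ℕ) (s : TwS) : Nonempty (TwStep n s) := by
  obtain ⟨σ', Ψ, φ, hcomp, hX, hY, hint⟩ :=
    stage_step s.σ (s.T n.unpair.1 n.unpair.2) (s.hT _ _)
  obtain ⟨p, hpm, hp⟩ := hint
  set k' : Subfield σ'.F := Subfield.closure (φ '' (s.k : Set s.σ.F) ∪ Set.range p.coeff) with hk'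
  have hkc' : Countable k' := by
    apply tw_countable_sfclosure
    refine Set.Countable.union ?_ (Set.countable_range _)
    exact Set.Countable.image (Set.countable_coe_iff.mp s.kc) _
  obtain ⟨e, he1, he2⟩ := exists_TwEnum σ' k' hkc'
  have hΨ : ∀ f ∈ AlgXY s.σ.F s.σ.X s.σ.Y, Ψ f ∈ AlgXY σ'.F σ'.X σ'.Y := by
    intro f hf
    have hle : AlgXY s.σ.F s.σ.X s.σ.Y ≤ (AlgXY σ'.F σ'.X σ'.Y).comap Ψ := by
      refine Subring.closure_le.2 ?_
      rintro z (⟨a, rfl⟩ | hz)
      · change Ψ _ ∈ AlgXY σ'.F σ'.X σ'.Y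
        have : Ψ (NPS.C (algebraMap s.σ.F s.σ.D a)) = NPS.C (algebraMap σ'.F σ'.D (φ a)) :=
          hcomp a
        simp only [this]
        exact Subring.subset_closure (Or.inl ⟨φ a, rfl⟩)
      · change Ψ _ ∈ AlgXY σ'.F σ'.X σ'.Y
        rcases hz with rfl | hz
        · rw [hX]; exact Subring.subset_closure (Or.inr (by simp))
        · rw [Set.mem_singleton_iff] at hz
          subst hz
          rw [hY]; exact Subring.subset_closure (Or.inr (by simp))
    exact hle hf
  refine ⟨{ s' := { σ := σ', k := k', kc := hkc',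
                    T := fun i m => if i ≤ n then Ψ (s.T i m) else e m, hT := ?_ },
            Ψ := Ψ, φ := φ, comp := hcomp, ΨX := hX, ΨY := hY, kφ := ?_, hT := ?_, hN := ?_,
            alg := ?_ }⟩
  · intro i m
    split_ifs
    · exact hΨ _ (s.hT i m)
    · exact he1 m
  · intro a ha
    exact Subfield.subset_closure (Or.inl ⟨a, ha, rfl⟩)
  · intro i hi m
    simp only [if_pos hi]
  · intro g hg
    obtain ⟨m, hm⟩ := he2 g hg
    refine ⟨m, ?_⟩
    simp only [show ¬ (n + 1 ≤ n) by omega, if_false]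
    exact hm
  · exact ⟨p, hpm, fun i => Subfield.subset_closure (Or.inr ⟨i, rfl⟩), hp⟩

theorem exists_TwInit : ∃ s : TwS, ∀ g ∈ TwRk s.σ s.k.toSubring, ∃ m, s.T 0 m = g := by
  obtain ⟨σ⟩ := exists_stage0
  have hkc := tw_countable_sfclosure (∅ : Set σ.F) Set.countable_empty
  obtain ⟨e, he1, he2⟩ := exists_TwEnum σ (Subfield.closure ∅) hkc
  exact ⟨⟨σ, Subfield.closure ∅, hkc, fun _ m => e m, fun _ m => he1 m⟩, he2⟩

/-- **TOWER**: dovetailing.  Recursively: at step `n` a stage with a countable subfield `k n` of `F`; the rings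
`R n = ring generated by k n, X, Y` are countable; enumerate all `R i` (`i ≤ n`) and at step `n` treat the element with code `n`
(`Nat.unpair`): apply `stage_step` to its image, let `k (n+1)` be the subfield generated by `φ (k n)` and the coefficients of the
monic polynomial (so all `k n` are countable subfields, which gives `kinv`). -/
theorem exists_tower : Nonempty Tower := by
  classical
  obtain ⟨s₀, hs₀⟩ := exists_TwInit
  let st : ∀ (n : ℕ) (s : TwS), TwStep n s := fun n s => (exists_TwStep n s).some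
  let seq : ℕ → TwS := fun n => Nat.rec s₀ (fun n s => (st n s).s') n
  have hseq : ∀ n, seq (n + 1) = (st n (seq n)).s' := fun n => rfl
  let Ψ : ∀ n, NPS (Fin 2) (seq n).σ.D →+* NPS (Fin 2) (seq (n + 1)).σ.D :=
    fun n => (st n (seq n)).Ψ
  let φ : ∀ n, (seq n).σ.F →+* (seq (n + 1)).σ.F := fun n => (st n (seq n)).φ
  let map : ∀ n j, NPS (Fin 2) (seq n).σ.D →+* NPS (Fin 2) (seq (n + j)).σ.D :=
    fun n j => Nat.rec (RingHom.id _) (fun j f => (Ψ (n + j)).comp f) j
  -- the enumeration at stage `n`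
  have henum : ∀ n, ∀ g ∈ TwRk (seq n).σ (seq n).k.toSubring, ∃ m, (seq n).T n m = g := by
    intro n
    cases n with
    | zero => exact hs₀
    | succ n => exact (st n (seq n)).hN
  have hTmap : ∀ n d m, (seq (n + d)).T n m = map n d ((seq n).T n m) := by
    intro n d m
    induction d with
    | zero => rfl
    | succ d ih =>
        have h1 : (seq (n + (d + 1))).T n m = Ψ (n + d) ((seq (n + d)).T n m) :=
          (st (n + d) (seq (n + d))).hT n (Nat.le_add_right n d) m
        rw [h1, ih]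
        rfl
  refine ⟨{ σ := fun n => (seq n).σ, Ψ := Ψ, φ := φ, comp := ?_, ΨX := ?_, ΨY := ?_,
            k := fun n => (seq n).k.toSubring, kc := ?_, kφ := ?_, kinv := ?_, map := map,
            map_zero := ?_, map_succ := ?_, alg := ?_ }⟩
  · intro n a; exact (st n (seq n)).comp a
  · intro n; exact (st n (seq n)).ΨX
  · intro n; exact (st n (seq n)).ΨY
  · intro n; exact (seq n).kc
  · intro n a ha; exact (st n (seq n)).kφ a ha
  · intro n a ha _
    exact (seq (n + 1)).k.inv_mem ((st n (seq n)).kφ a ha)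
  · intro n; rfl
  · intro n j; rfl
  · intro n g hg
    obtain ⟨m, hm⟩ := henum n g hg
    obtain ⟨d, hd⟩ : ∃ d, Nat.pair n m = n + d := Nat.exists_eq_add_of_le (Nat.left_le_pair n m)
    obtain ⟨p, hpm, hpk, hp⟩ := (st (n + d) (seq (n + d))).alg
    refine ⟨d + 1, p, hpm, hpk, ?_⟩
    have h1 : (n + d).unpair = (n, m) := by rw [← hd, Nat.unpair_pair]
    rw [h1] at hp
    have h2 : (seq (n + d)).T n m = map n d g := by rw [hTmap, hm]
    simp only at hp
    rw [h2] at hp
    exact hp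

end Crest.Agent.R180
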