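import Mathlib
import Crest.Agent.R180.Tower

/-!
# Piece LIM1: the direct limit of a tower
`exists_limit`: the direct limit of the rings `NPS (Fin 2) (T.σ n).D` along `T.Ψ` (e.g. Mathlib's `DirectLimit` with a directed
system built from `T.Ψ`, or `Σ n, NPS …` modulo eventual equality).  It is a domain because each ring is (`NPS.isDomain`), of
characteristic zero because each ring is.
-/

set_option autoImplicit false
set_option linter.unusedSectionVars false

namespace Crest.Agent.R180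
open Module

/-- `R n = k n ⟨X, Y⟩` -/
def Tower.Rn (T : Tower) (n : ℕ) : Subring (NPS (Fin 2) (T.σ n).D) :=
  Subring.closure ((fun a => algebraMap (T.σ n).F (NPS (Fin 2) (T.σ n).D) a) '' (T.k n) ∪
      {(T.σ n).X, (T.σ n).Y})

structure Limit (T : Tower) where
  R : Type
  [rR : Ring R]
  [dR : IsDomain R]
  [cR : CharZero R]
  ι : ∀ n, NPS (Fin 2) (T.σ n).D →+* R
  comm : ∀ n x, ι (n + 1) (T.Ψ n x) = ι n x
  ker : ∀ n x, ι n x = 0 → ∃ j, T.map n j x = 0

attribute [instance] Limit.rR Limit.dR Limit.cR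

namespace LimAux

variable (T : Tower)

/-- the rings of the tower -/
abbrev RR (n : ℕ) : Type := NPS (Fin 2) (T.σ n).D

/-- the transition maps -/
def f (i j : ℕ) (h : i ≤ j) : RR T i →+* RR T j :=
  Nat.leRecOn (C := fun k => RR T i →+* RR T k) h (fun {k} g => (T.Ψ k).comp g) (RingHom.id _)

theorem f_self (i : ℕ) (h : i ≤ i) : f T i i h = RingHom.id _ := Nat.leRecOn_self _

theorem f_succ (i j : ℕ) (h : i ≤ j) (h' : i ≤ j + 1) :
    f T i (j + 1) h' = (T.Ψ j).comp (f T i j h) := by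
  unfold f
  rw [Nat.leRecOn_succ h]

theorem f_trans (i j k : ℕ) (hij : i ≤ j) (hjk : j ≤ k) :
    f T i k (hij.trans hjk) = (f T j k hjk).comp (f T i j hij) := by
  induction k, hjk using Nat.le_induction with
  | base => rw [f_self]; rfl
  | succ k hjk ih =>
    rw [f_succ T i k (hij.trans hjk), f_succ T j k hjk, ih]
    rfl

theorem map_eq (n j : ℕ) : T.map n j = f T n (n + j) (Nat.le_add_right n j) := by
  induction j with
  | zero => rw [T.map_zero]; exact (f_self T n _).symm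
  | succ j ih =>
    rw [T.map_succ, ih]
    exact (f_succ T n (n + j) _ _).symm

instance directed : DirectedSystem (RR T) (fun i j h => f T i j h) where
  map_self i x := by rw [f_self]; rfl
  map_map i j k hij hjk x := by
    rw [f_trans T k j i hij hjk]; rfl

/-- the limit ring -/
abbrev Lim : Type := DirectLimit (RR T) (f T)

/-- the canonical maps -/
noncomputable def of (n : ℕ) : RR T n →+* Lim T := DirectLimit.Ring.of (RR T) (f T) n

theorem of_zero (n : ℕ) (x : RR T n) (hx : of T n x = 0) : ∃ m h, f T n m h x = 0 := by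
  have := (DirectLimit.exists_eq_zero (f := f T) ⟨n, x⟩).1 hx
  exact this

theorem of_rep2 (z w : Lim T) : ∃ n x y, z = of T n x ∧ w = of T n y :=
  DirectLimit.exists_eq_mk₂ (f T) z w

theorem of_f (i j : ℕ) (h : i ≤ j) (x : RR T i) : of T j (f T i j h x) = of T i x :=
  DirectLimit.Ring.of_f h x

instance nontrivRR (n : ℕ) : Nontrivial (RR T n) := by
  have : IsDomain (RR T n) := inferInstance
  infer_instance

instance charZeroRR (n : ℕ) : CharZero (RR T n) :=
  (RingHom.charZero_iff (algebraMap (T.σ n).F (RR T n)).injective).1 inferInstance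

instance nontriv : Nontrivial (Lim T) := by
  refine ⟨⟨0, 1, fun h => ?_⟩⟩
  have h1 : of T 0 1 = 0 := by rw [map_one]; exact h.symm
  obtain ⟨m, h, hm⟩ := of_zero T 0 1 h1
  rw [map_one] at hm
  exact one_ne_zero hm

instance noZeroDiv : NoZeroDivisors (Lim T) where
  eq_zero_or_eq_zero_of_mul_eq_zero := by
    intro a b hab
    obtain ⟨n, x, y, rfl, rfl⟩ := of_rep2 T a b
    rw [← map_mul] at hab
    obtain ⟨m, h, hm⟩ := of_zero T n _ hab
    rw [map_mul] at hm
    rcases mul_eq_zero.1 hm with h0 | h0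
    · left; rw [← of_f T n m h, h0, map_zero]
    · right; rw [← of_f T n m h, h0, map_zero]

instance charZero : CharZero (Lim T) := by
  refine charZero_of_inj_zero fun n hn => ?_
  have h1 : of T 0 (n : RR T 0) = 0 := by rw [map_natCast]; exact hn
  obtain ⟨m, h, hm⟩ := of_zero T 0 _ h1
  rw [map_natCast] at hm
  exact_mod_cast hm

end LimAux

theorem exists_limit (T : Tower) : Nonempty (Limit T) := by
  refine ⟨{ R := LimAux.Lim T, dR := NoZeroDivisors.to_isDomain _, ι := LimAux.of T, comm := ?_, ker := ?_ }⟩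
  · intro n x
    have h := LimAux.of_f T n (n + 1) (Nat.le_succ n) x
    rw [LimAux.f_succ T n n le_rfl, LimAux.f_self] at h
    exact h
  · intro n x hx
    obtain ⟨m, h, hm⟩ := LimAux.of_zero T n x hx
    obtain ⟨j, rfl⟩ := Nat.exists_eq_add_of_le h
    exact ⟨j, by rw [LimAux.map_eq]; exact hm⟩

namespace Limit
variable {T : Tower} (L : Limit T)

theorem Kinf_lift (n j : ℕ) (a : (T.σ n).F) (ha : a ∈ T.k n) :
    ∃ a' ∈ T.k (n + j), L.ι n (algebraMap (T.σ n).F _ a) =
      L.ι (n + j) (algebraMap (T.σ (n + j)).F _ a') := by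
  induction j with
  | zero => exact ⟨a, ha, rfl⟩
  | succ j ih =>
    obtain ⟨a', ha', h⟩ := ih
    exact ⟨T.φ (n + j) a', T.kφ _ _ ha', by rw [h, ← L.comm, T.comp]; rfl⟩

theorem Kinf_common (n m : ℕ) (a : (T.σ n).F) (ha : a ∈ T.k n) (b : (T.σ m).F) (hb : b ∈ T.k m) :
    ∃ l, ∃ a' ∈ T.k l, ∃ b' ∈ T.k l,
      L.ι n (algebraMap (T.σ n).F _ a) = L.ι l (algebraMap (T.σ l).F _ a') ∧
      L.ι m (algebraMap (T.σ m).F _ b) = L.ι l (algebraMap (T.σ l).F _ b') := by
  rcases le_total n m with h | h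
  · obtain ⟨j, rfl⟩ := Nat.exists_eq_add_of_le h
    obtain ⟨a', ha', e⟩ := L.Kinf_lift n j a ha
    exact ⟨n + j, a', ha', b, hb, e, rfl⟩
  · obtain ⟨j, rfl⟩ := Nat.exists_eq_add_of_le h
    obtain ⟨b', hb', e⟩ := L.Kinf_lift m j b hb
    exact ⟨m + j, a, ha, b', hb', rfl, e⟩

/-- union of the images of the `k n` -/
def Kinf : Subring L.R where
  carrier := {z | ∃ n, ∃ a ∈ T.k n, z = L.ι n (algebraMap (T.σ n).F _ a)}
  zero_mem' := ⟨0, 0, zero_mem _, by rw [map_zero, map_zero]⟩
  one_mem' := ⟨0, 1, one_mem _, by rw [map_one, map_one]⟩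
  add_mem' := by
    rintro _ _ ⟨n, a, ha, rfl⟩ ⟨m, b, hb, rfl⟩
    obtain ⟨l, a', ha', b', hb', e1, e2⟩ := L.Kinf_common n m a ha b hb
    exact ⟨l, a' + b', add_mem ha' hb', by rw [e1, e2, map_add, map_add]⟩
  neg_mem' := by
    rintro _ ⟨n, a, ha, rfl⟩
    exact ⟨n, -a, neg_mem ha, by rw [map_neg, map_neg]⟩
  mul_mem' := by
    rintro _ _ ⟨n, a, ha, rfl⟩ ⟨m, b, hb, rfl⟩
    obtain ⟨l, a', ha', b', hb', e1, e2⟩ := L.Kinf_common n m a ha b hb
    exact ⟨l, a' * b', mul_mem ha' hb', by rw [e1, e2, map_mul, map_mul]⟩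

theorem mem_Kinf (z : L.R) :
    z ∈ L.Kinf ↔ ∃ n, ∃ a ∈ T.k n, z = L.ι n (algebraMap (T.σ n).F _ a) := Iff.rfl

def x : L.R := L.ι 0 (T.σ 0).X
def y : L.R := L.ι 0 (T.σ 0).Y

/-- the ring generated by `Kinf` and `x`, `y` -/
def E : Subring L.R := Subring.closure ((L.Kinf : Set L.R) ∪ {L.x, L.y})

theorem ι_map (n j : ℕ) (f : NPS (Fin 2) (T.σ n).D) : L.ι (n + j) (T.map n j f) = L.ι n f := by
  induction j with
  | zero => rw [T.map_zero]; rfl
  | succ j ih =>
    rw [T.map_succ]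
    exact (L.comm (n + j) _).trans ih

end Limit
end Crest.Agent.R180
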