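import Mathlib
import Crest.Agent.R180.Limit

/-!
# Piece LIM2: elementary properties of `E`
`E_lift`: the elements `ι n f`, `f ∈ R n`, form an increasing union of subrings containing the generators.
`E_inv`: a nonzero `e ∈ E` satisfies a monic equation with coefficients in the central field `Kinf`; cancel powers of `e` (domain) to
get a nonzero constant term, then `e * (…) = const`, invertible.
-/

set_option autoImplicit false
set_option linter.unusedSectionVars false

namespace Crest.Agent.R180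
open Module

theorem lim2_countable_closure {R : Type} [Ring R] (s : Set R) (hs : s.Countable) :
    Countable (Subring.closure s) := by
  have : Countable s := hs.to_subtype
  have h1 : Countable (FreeAlgebra ℤ s) := by
    rw [← Cardinal.mk_le_aleph0_iff]
    refine (FreeAlgebra.cardinalMk_le_max ℤ s).trans ?_
    simp
  let g : FreeAlgebra ℤ s →ₐ[ℤ] R := FreeAlgebra.lift ℤ (Subtype.val)
  have h2 : Subring.closure s ≤ g.toRingHom.range := by
    rw [Subring.closure_le]
    intro x hx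
    refine ⟨FreeAlgebra.ι ℤ ⟨x, hx⟩, ?_⟩
    show g (FreeAlgebra.ι ℤ ⟨x, hx⟩) = x
    simp [g]
  have h3 : (g.toRingHom.range : Set R).Countable := by
    rw [RingHom.coe_range]
    exact Set.countable_range _
  exact (h3.mono h2).to_subtype

namespace Limit
variable {T : Tower} (L : Limit T)

theorem lim2_Ψ_mem (n : ℕ) (f : NPS (Fin 2) (T.σ n).D) (hf : f ∈ T.Rn n) :
    T.Ψ n f ∈ T.Rn (n + 1) := by
  unfold Tower.Rn at hf
  induction hf using Subring.closure_induction with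
  | mem x hx =>
    rcases hx with ⟨a, ha, rfl⟩ | hx
    · show T.Ψ n (algebraMap (T.σ n).F _ a) ∈ _
      rw [T.comp]
      exact Subring.subset_closure (Or.inl ⟨_, T.kφ n a ha, rfl⟩)
    · rcases hx with rfl | hx
      · rw [T.ΨX]
        exact Subring.subset_closure (Or.inr (Or.inl rfl))
      · rw [Set.mem_singleton_iff] at hx
        rw [hx, T.ΨY]
        exact Subring.subset_closure (Or.inr (Or.inr rfl))
  | zero => rw [map_zero]; exact Subring.zero_mem _
  | one => rw [map_one]; exact Subring.one_mem _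
  | add x y _ _ hx hy => rw [map_add]; exact Subring.add_mem _ hx hy
  | neg x _ hx => rw [map_neg]; exact Subring.neg_mem _ hx
  | mul x y _ _ hx hy => rw [map_mul]; exact Subring.mul_mem _ hx hy

theorem lim2_lift_le (n m : ℕ) (hnm : n ≤ m) (f : NPS (Fin 2) (T.σ n).D) (hf : f ∈ T.Rn n) :
    ∃ f' ∈ T.Rn m, L.ι n f = L.ι m f' := by
  induction m, hnm using Nat.le_induction with
  | base => exact ⟨f, hf, rfl⟩
  | succ m _ ih =>
    obtain ⟨f', hf', h⟩ := ih
    exact ⟨T.Ψ m f', lim2_Ψ_mem m f' hf', by rw [h, L.comm]⟩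

theorem lim2_k_le (n m : ℕ) (hnm : n ≤ m) (a : (T.σ n).F) (ha : a ∈ T.k n) :
    ∃ a' ∈ T.k m, L.ι n (algebraMap (T.σ n).F _ a) = L.ι m (algebraMap (T.σ m).F _ a') := by
  induction m, hnm using Nat.le_induction with
  | base => exact ⟨a, ha, rfl⟩
  | succ m _ ih =>
    obtain ⟨a', ha', h⟩ := ih
    exact ⟨T.φ m a', T.kφ m a' ha', by rw [h, ← L.comm, T.comp]⟩

theorem E_lift (e : L.R) (he : e ∈ L.E) : ∃ n, ∃ f ∈ T.Rn n, e = L.ι n f := by
  have key : ∀ (op : ∀ n, NPS (Fin 2) (T.σ n).D → NPS (Fin 2) (T.σ n).D → NPS (Fin 2) (T.σ n).D)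
      (op' : L.R → L.R → L.R) (h1 : ∀ n f g, f ∈ T.Rn n → g ∈ T.Rn n → op n f g ∈ T.Rn n)
      (h2 : ∀ n f g, L.ι n (op n f g) = op' (L.ι n f) (L.ι n g)) (a b : L.R)
      (ha : ∃ n, ∃ f ∈ T.Rn n, a = L.ι n f) (hb : ∃ n, ∃ f ∈ T.Rn n, b = L.ι n f),
      ∃ n, ∃ f ∈ T.Rn n, op' a b = L.ι n f := by
    intro op op' h1 h2 a b ha hb
    obtain ⟨n, f, hf, rfl⟩ := ha
    obtain ⟨m, g, hg, rfl⟩ := hb
    obtain ⟨f', hf', e1⟩ := L.lim2_lift_le n (max n m) (le_max_left _ _) f hf
    obtain ⟨g', hg', e2⟩ := L.lim2_lift_le m (max n m) (le_max_right _ _) g hg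
    exact ⟨max n m, op _ f' g', h1 _ _ _ hf' hg', by rw [h2, e1, e2]⟩
  unfold E at he
  induction he using Subring.closure_induction with
  | mem x hx =>
    rcases hx with hx | hx
    · obtain ⟨n, a, ha, rfl⟩ := (L.mem_Kinf x).1 hx
      exact ⟨n, _, Subring.subset_closure (Or.inl ⟨a, ha, rfl⟩), rfl⟩
    · rcases hx with rfl | hx
      · exact ⟨0, _, Subring.subset_closure (Or.inr (Or.inl rfl)), rfl⟩
      · rw [Set.mem_singleton_iff] at hx
        exact ⟨0, _, Subring.subset_closure (Or.inr (Or.inr rfl)), hx⟩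
  | zero => exact ⟨0, 0, Subring.zero_mem _, (map_zero _).symm⟩
  | one => exact ⟨0, 1, Subring.one_mem _, (map_one _).symm⟩
  | add x y _ _ hx hy =>
    exact key (fun _ f g => f + g) (fun a b => a + b) (fun _ _ _ hf hg => Subring.add_mem _ hf hg)
      (fun _ _ _ => map_add _ _ _) _ _ hx hy
  | neg x _ hx =>
    obtain ⟨n, f, hf, rfl⟩ := hx
    exact ⟨n, -f, Subring.neg_mem _ hf, (map_neg _ _).symm⟩
  | mul x y _ _ hx hy =>
    exact key (fun _ f g => f * g) (fun a b => a * b) (fun _ _ _ hf hg => Subring.mul_mem _ hf hg)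
      (fun _ _ _ => map_mul _ _ _) _ _ hx hy

theorem lim2_ιX (n : ℕ) : L.ι n (T.σ n).X = L.x := by
  induction n with
  | zero => rfl
  | succ n ih => rw [← T.ΨX, L.comm, ih]

theorem lim2_ιY (n : ℕ) : L.ι n (T.σ n).Y = L.y := by
  induction n with
  | zero => rfl
  | succ n ih => rw [← T.ΨY, L.comm, ih]

theorem lim2_K_mem_E (z : L.R) (hz : z ∈ L.Kinf) : z ∈ L.E :=
  Subring.subset_closure (Or.inl hz)

theorem ι_mem_E (n : ℕ) (f : NPS (Fin 2) (T.σ n).D) (hf : f ∈ T.Rn n) : L.ι n f ∈ L.E := by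
  unfold Tower.Rn at hf
  induction hf using Subring.closure_induction with
  | mem x hx =>
    rcases hx with ⟨a, ha, rfl⟩ | hx
    · exact L.lim2_K_mem_E _ ((L.mem_Kinf _).2 ⟨n, a, ha, rfl⟩)
    · rcases hx with rfl | hx
      · rw [L.lim2_ιX]
        exact Subring.subset_closure (Or.inr (Or.inl rfl))
      · rw [Set.mem_singleton_iff] at hx
        rw [hx, L.lim2_ιY]
        exact Subring.subset_closure (Or.inr (Or.inr rfl))
  | zero => rw [map_zero]; exact Subring.zero_mem _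
  | one => rw [map_one]; exact Subring.one_mem _
  | add x y _ _ hx hy => rw [map_add]; exact Subring.add_mem _ hx hy
  | neg x _ hx => rw [map_neg]; exact Subring.neg_mem _ hx
  | mul x y _ _ hx hy => rw [map_mul]; exact Subring.mul_mem _ hx hy

theorem E_countable : Countable L.E := by
  apply lim2_countable_closure
  refine Set.Countable.union ?_ ((Set.countable_singleton _).insert _)
  have h : (L.Kinf : Set L.R) = ⋃ n, Set.range (fun a : T.k n =>
      L.ι n (algebraMap (T.σ n).F _ (a : (T.σ n).F))) := by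
    ext z
    rw [SetLike.mem_coe, L.mem_Kinf, Set.mem_iUnion]
    constructor
    · rintro ⟨n, a, ha, rfl⟩
      exact ⟨n, ⟨a, ha⟩, rfl⟩
    · rintro ⟨n, ⟨a, ha⟩, rfl⟩
      exact ⟨n, a, ha, rfl⟩
  rw [h]
  refine Set.countable_iUnion fun n => ?_
  have := T.kc n
  exact Set.countable_range _

theorem Kinf_central (z : L.R) (hz : z ∈ L.Kinf) (e : L.R) (he : e ∈ L.E) : z * e = e * z := by
  obtain ⟨n, a, ha, rfl⟩ := (L.mem_Kinf z).1 hz
  obtain ⟨m, f, hf, rfl⟩ := L.E_lift e he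
  obtain ⟨a', ha', e1⟩ := L.lim2_k_le n (max n m) (le_max_left _ _) a ha
  obtain ⟨f', hf', e2⟩ := L.lim2_lift_le m (max n m) (le_max_right _ _) f hf
  rw [e1, e2, ← map_mul, ← map_mul, Algebra.commutes]

theorem Kinf_inv (z : L.R) (hz : z ∈ L.Kinf) (h0 : z ≠ 0) : ∃ z' ∈ L.Kinf, z * z' = 1 := by
  obtain ⟨n, a, ha, rfl⟩ := (L.mem_Kinf z).1 hz
  have ha0 : a ≠ 0 := by
    rintro rfl
    apply h0
    rw [map_zero, map_zero]
  refine ⟨L.ι (n + 1) (algebraMap (T.σ (n + 1)).F _ (T.φ n a)⁻¹),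
    (L.mem_Kinf _).2 ⟨n + 1, _, T.kinv n a ha ha0, rfl⟩, ?_⟩
  rw [← L.comm, T.comp, ← map_mul, ← map_mul, mul_inv_cancel₀, map_one, map_one]
  rwa [Ne, map_eq_zero]

/-- every element of `E` is a root of a monic polynomial over `Kinf` -/
theorem E_alg (e : L.R) (he : e ∈ L.E) : ∃ (d : ℕ) (c : ℕ → L.R), (∀ i, c i ∈ L.Kinf) ∧
    e ^ d = ∑ i ∈ Finset.range d, c i * e ^ i := by
  obtain ⟨n, f, hf, rfl⟩ := L.E_lift e he
  obtain ⟨j, p, hp, hpk, h0⟩ := T.alg n f hf
  refine ⟨p.natDegree, fun i => - L.ι (n + j) (algebraMap (T.σ (n + j)).F _ (p.coeff i)), ?_, ?_⟩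
  · intro i
    exact L.Kinf.neg_mem ((L.mem_Kinf _).2 ⟨n + j, _, hpk i, rfl⟩)
  · rw [← L.ι_map n j f]
    rw [Polynomial.aeval_eq_sum_range, Finset.sum_range_succ, hp.coeff_natDegree, one_smul] at h0
    have h1 := congrArg (L.ι (n + j)) h0
    rw [map_add, map_sum, map_zero, map_pow] at h1
    rw [eq_neg_of_add_eq_zero_right h1, ← Finset.sum_neg_distrib]
    refine Finset.sum_congr rfl fun i _ => ?_
    rw [Algebra.smul_def, map_mul, map_pow, neg_mul]

theorem E_inv (e : L.R) (he : e ∈ L.E) (h0 : e ≠ 0) : ∃ e' ∈ L.E, e * e' = 1 ∧ e' * e = 1 := by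
  have key : ∀ (d : ℕ) (c : ℕ → L.R), (∀ i, c i ∈ L.Kinf) →
      e ^ d = ∑ i ∈ Finset.range d, c i * e ^ i → ∃ e' ∈ L.E, e * e' = 1 := by
    intro d
    induction d with
    | zero =>
      intro c _ h
      rw [pow_zero, Finset.range_zero, Finset.sum_empty] at h
      exact absurd h one_ne_zero
    | succ d ih =>
      intro c hc h
      rw [Finset.sum_range_succ', pow_zero, mul_one] at h
      have h1 : ∑ i ∈ Finset.range d, c (i + 1) * e ^ (i + 1) =
          e * ∑ i ∈ Finset.range d, c (i + 1) * e ^ i := by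
        rw [Finset.mul_sum]
        refine Finset.sum_congr rfl fun i _ => ?_
        rw [pow_succ', ← mul_assoc, L.Kinf_central _ (hc _) e he, mul_assoc]
      rw [h1, pow_succ'] at h
      by_cases hc0 : c 0 = 0
      · rw [hc0, add_zero] at h
        exact ih (fun i => c (i + 1)) (fun i => hc _) (mul_left_cancel₀ h0 h)
      · obtain ⟨z, hz, hz1⟩ := L.Kinf_inv _ (hc 0) hc0
        refine ⟨(e ^ d - ∑ i ∈ Finset.range d, c (i + 1) * e ^ i) * z, ?_, ?_⟩
        · refine L.E.mul_mem (L.E.sub_mem (L.E.pow_mem he _) (L.E.sum_mem fun i _ => ?_))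
            (L.lim2_K_mem_E _ hz)
          exact L.E.mul_mem (L.lim2_K_mem_E _ (hc _)) (L.E.pow_mem he _)
        · rw [← mul_assoc, mul_sub, h, add_sub_cancel_left, hz1]
  obtain ⟨d, c, hc, h⟩ := L.E_alg e he
  obtain ⟨e', he', h1⟩ := key d c hc h
  refine ⟨e', he', h1, ?_⟩
  have : e * (e' * e) = e * 1 := by rw [← mul_assoc, h1, one_mul, mul_one]
  exact mul_left_cancel₀ h0 this

end Limit
end Crest.Agent.R180
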