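import Mathlib
import Crest.Agent.R180.Lim2
import Crest.Agent.R180.FinDim

/-!
# Piece LIM3: `E` is not finite over `Kinf`
Suppose `E = Σ Kinf b_i`.  `1 = Σ μ_i b_i`, `x b_i = Σ κ_{ij} b_j`, `y b_i = Σ λ_{ij} b_j`.  Lift all `b_i`, `μ`, `κ`, `λ` to a common stage `n`
(`E_lift`, `Limit.comm`, `mem_Kinf`), and go further up (`Limit.ker`) so that the finitely many relations hold in
`NPS (Fin 2) (T.σ n).D` with `X`, `Y` of stage `n` (`ΨX`, `ΨY`).  `M = Σ F b_i` contradicts `stage_infinite`.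
-/

set_option autoImplicit false
set_option linter.unusedSectionVars false

namespace Crest.Agent.R180
open Module

namespace Limit
variable {T : Tower} (L : Limit T)

private theorem lim3_lift (z : L.R) (hz : z ∈ L.E) :
    ∀ᶠ n in Filter.atTop, ∃ f : NPS (Fin 2) (T.σ n).D, L.ι n f = z := by
  obtain ⟨n0, f, _, rfl⟩ := L.E_lift z hz
  refine Filter.eventually_atTop.2 ⟨n0, fun n hn => ?_⟩
  obtain ⟨j, rfl⟩ := Nat.exists_eq_add_of_le hn
  exact ⟨T.map n0 j f, L.ι_map n0 j f⟩

private theorem lim3_liftK (z : L.R) (hz : z ∈ L.Kinf) :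
    ∀ᶠ n in Filter.atTop, ∃ a : (T.σ n).F, L.ι n (algebraMap (T.σ n).F _ a) = z := by
  obtain ⟨n0, a, _, rfl⟩ := (L.mem_Kinf z).1 hz
  refine Filter.eventually_atTop.2 ⟨n0, fun n hn => ?_⟩
  obtain ⟨j, rfl⟩ := Nat.exists_eq_add_of_le hn
  clear hn
  induction j with
  | zero => exact ⟨a, rfl⟩
  | succ j ih =>
    obtain ⟨a', ha'⟩ := ih
    refine ⟨T.φ (n0 + j) a', ?_⟩
    rw [← ha']
    change L.ι (n0 + j + 1) (algebraMap (T.σ (n0 + j + 1)).F _ (T.φ (n0 + j) a')) = _
    rw [← T.comp, L.comm]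

private theorem lim3_x (n : ℕ) : L.ι n (T.σ n).X = L.x := by
  induction n with
  | zero => rfl
  | succ n ih => rw [← T.ΨX, L.comm, ih]

private theorem lim3_y (n : ℕ) : L.ι n (T.σ n).Y = L.y := by
  induction n with
  | zero => rfl
  | succ n ih => rw [← T.ΨY, L.comm, ih]

private theorem lim3_mapX (n j : ℕ) : T.map n j (T.σ n).X = (T.σ (n + j)).X := by
  induction j with
  | zero => rw [T.map_zero]; rfl
  | succ j ih =>
    rw [T.map_succ, RingHom.comp_apply, ih]
    exact T.ΨX (n + j)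

private theorem lim3_mapY (n j : ℕ) : T.map n j (T.σ n).Y = (T.σ (n + j)).Y := by
  induction j with
  | zero => rw [T.map_zero]; rfl
  | succ j ih =>
    rw [T.map_succ, RingHom.comp_apply, ih]
    exact T.ΨY (n + j)

private theorem lim3_mapalg (n j : ℕ) (a : (T.σ n).F) :
    ∃ a' : (T.σ (n + j)).F, T.map n j (algebraMap (T.σ n).F _ a)
      = algebraMap (T.σ (n + j)).F _ a' := by
  induction j with
  | zero => exact ⟨a, by rw [T.map_zero]; rfl⟩
  | succ j ih =>
    obtain ⟨a', ha'⟩ := ih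
    refine ⟨T.φ (n + j) a', ?_⟩
    rw [T.map_succ, RingHom.comp_apply, ha']
    exact T.comp (n + j) a'

private theorem lim3_ker (n : ℕ) (z : NPS (Fin 2) (T.σ n).D) (hz : L.ι n z = 0) :
    ∀ᶠ j in Filter.atTop, T.map n j z = 0 := by
  obtain ⟨j0, h0⟩ := L.ker n z hz
  refine Filter.eventually_atTop.2 ⟨j0, fun j hj => ?_⟩
  induction j, hj using Nat.le_induction with
  | base => exact h0
  | succ j _ ih => rw [T.map_succ, RingHom.comp_apply, ih, map_zero]

theorem not_finite : ¬ ∃ (d : ℕ) (b : Fin d → L.R), (∀ i, b i ∈ L.E) ∧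
    ∀ e ∈ L.E, ∃ c : Fin d → L.R, (∀ i, c i ∈ L.Kinf) ∧ e = ∑ i, c i * b i := by
  rintro ⟨d, b, hb, hs⟩
  have hxE : L.x ∈ L.E := Subring.subset_closure (Or.inr (by simp))
  have hyE : L.y ∈ L.E := Subring.subset_closure (Or.inr (by simp))
  obtain ⟨μ, hμ, h1⟩ := hs 1 L.E.one_mem
  choose κ hκ hx using fun i => hs (L.x * b i) (L.E.mul_mem hxE (hb i))
  choose l hl hy using fun i => hs (L.y * b i) (L.E.mul_mem hyE (hb i))
  obtain ⟨N, hN1, hN2, hN3, hN4⟩ := ((Filter.eventually_all.2 fun i => L.lim3_lift (b i) (hb i)).and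
    ((Filter.eventually_all.2 fun i => L.lim3_liftK (μ i) (hμ i)).and
    ((Filter.eventually_all.2 fun i => Filter.eventually_all.2 fun j =>
      L.lim3_liftK (κ i j) (hκ i j)).and
    (Filter.eventually_all.2 fun i => Filter.eventually_all.2 fun j =>
      L.lim3_liftK (l i j) (hl i j))))).exists
  choose b' hb' using hN1
  choose μ' hμ' using hN2
  choose κ' hκ' using hN3
  choose l' hl' using hN4
  have r1 : L.ι N (1 - ∑ i, algebraMap (T.σ N).F _ (μ' i) * b' i) = 0 := by
    simp only [map_sub, map_sum, map_mul, map_one, hμ', hb']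
    rw [← h1, sub_self]
  have r2 : ∀ i, L.ι N ((T.σ N).X * b' i - ∑ j, algebraMap (T.σ N).F _ (κ' i j) * b' j) = 0 := by
    intro i
    simp only [map_sub, map_sum, map_mul, hκ', hb', L.lim3_x]
    rw [← hx, sub_self]
  have r3 : ∀ i, L.ι N ((T.σ N).Y * b' i - ∑ j, algebraMap (T.σ N).F _ (l' i j) * b' j) = 0 := by
    intro i
    simp only [map_sub, map_sum, map_mul, hl', hb', L.lim3_y]
    rw [← hy, sub_self]
  obtain ⟨J, hJ1, hJ2, hJ3⟩ := ((L.lim3_ker N _ r1).and
    ((Filter.eventually_all.2 fun i => L.lim3_ker N _ (r2 i)).and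
    (Filter.eventually_all.2 fun i => L.lim3_ker N _ (r3 i)))).exists
  choose A hA using fun a => lim3_mapalg (T := T) N J a
  simp only [map_sub, map_sum, map_mul, map_one, hA, lim3_mapX, lim3_mapY, sub_eq_zero]
    at hJ1 hJ2 hJ3
  simp only [← Algebra.smul_def] at hJ1 hJ2 hJ3
  have hmem : ∀ c : Fin d → (T.σ (N + J)).F, ∑ i, c i • T.map N J (b' i)
      ∈ Submodule.span (T.σ (N + J)).F (Set.range fun i => T.map N J (b' i)) := fun c =>
    Submodule.sum_mem _ fun i _ => Submodule.smul_mem _ _ (Submodule.subset_span ⟨i, rfl⟩)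
  refine stage_infinite (T.σ (N + J))
    (Submodule.span (T.σ (N + J)).F (Set.range fun i => T.map N J (b' i)))
    (FiniteDimensional.span_of_finite _ (Set.finite_range _)) ?_ ?_ ?_
  · rw [hJ1]; exact hmem _
  · intro m hm
    induction hm using Submodule.span_induction with
    | mem x hx =>
      obtain ⟨i, rfl⟩ := hx
      change (T.σ (N + J)).X * T.map N J (b' i) ∈ _
      rw [hJ2]; exact hmem _
    | zero => rw [mul_zero]; exact Submodule.zero_mem _
    | add x y _ _ hx hy => rw [mul_add]; exact Submodule.add_mem _ hx hy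
    | smul a x _ hx => rw [mul_smul_comm]; exact Submodule.smul_mem _ _ hx
  · intro m hm
    induction hm using Submodule.span_induction with
    | mem x hx =>
      obtain ⟨i, rfl⟩ := hx
      change (T.σ (N + J)).Y * T.map N J (b' i) ∈ _
      rw [hJ3]; exact hmem _
    | zero => rw [mul_zero]; exact Submodule.zero_mem _
    | add x y _ _ hx hy => rw [mul_add]; exact Submodule.add_mem _ hx hy
    | smul a x _ hx => rw [mul_smul_comm]; exact Submodule.smul_mem _ _ hx

end Limit
end Crest.Agent.R180
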