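import Mathlib
import Crest.Agent.R180.Lim3

/-!
# Piece LIM4: the final statement (pure algebra)

`abstract_final`: let `R` be a ring (domain), `K ⊂ E` subrings of `R`, `K` central in `E` and a field, `E` generated by `K, x, y`, every element of
`E` algebraic over `K`, nonzero elements of `E` invertible in `E`, `E` countable, and `E` not finite over `K`.
Then `D = E` is a division ring with the required properties.
If `D` were finite dimensional over its centre `Z`: choose a `Z`-basis `b_i` of `D`; let `Z₀ ⊂ Z` be the subring generated by `K`, the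
structure constants of `b_i b_j`, and the coordinates of `1, x, y`.  `Z₀` is generated over the field `K` by finitely many commuting
algebraic elements, so it is finite over `K` (`Algebra.finite_adjoin_of_finite_of_isIntegral` or similar).  `Σ Z₀ b_i` is a subring containing
`K, x, y`, so it is all of `D`, which is therefore finite over `K`: contradiction.
-/

set_option autoImplicit false
set_option linter.unusedSectionVars false

namespace Crest.Agent.R180
open Module

theorem lim4_finite_of_center (K Z E : Type) [CommRing K] [CommRing Z] [Ring E] [Algebra K Z]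
    [Algebra Z E] [Algebra K E] [IsScalarTower K Z E] (hint : ∀ z : Z, IsIntegral K z)
    [Module.Finite Z E] (x y : E) (hgen : Algebra.adjoin K ({x, y} : Set E) = ⊤) :
    Module.Finite K E := by
  classical
  obtain ⟨n, b, hb⟩ := Module.Finite.exists_fin (R := Z) (M := E)
  have hco : ∀ e : E, ∃ c : Fin n → Z, ∑ i, c i • b i = e := by
    intro e
    have : e ∈ Submodule.span Z (Set.range b) := by rw [hb]; trivial
    exact (Submodule.mem_span_range_iff_exists_fun Z).mp this
  choose co hco using hco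
  let S : Set Z := (⋃ i : Fin n, ⋃ j : Fin n, Set.range (co (b i * b j))) ∪
    (Set.range (co 1) ∪ (Set.range (co x) ∪ Set.range (co y)))
  have hS : S.Finite := by
    refine Set.Finite.union ?_ ((Set.finite_range _).union
      ((Set.finite_range _).union (Set.finite_range _)))
    exact Set.finite_iUnion fun i => Set.finite_iUnion fun j => Set.finite_range _
  let Z₀ : Subalgebra K Z := Algebra.adjoin K S
  have hZ₀ : Module.Finite K Z₀ :=
    Algebra.finite_adjoin_of_finite_of_isIntegral hS fun z _ => hint z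
  have hSZ : ∀ z ∈ S, z ∈ Z₀ := fun z hz => Algebra.subset_adjoin hz
  let M : Submodule Z₀ E := Submodule.span Z₀ (Set.range b)
  have hmem : ∀ e : E, (∀ i, co e i ∈ S) → e ∈ M := by
    intro e he
    rw [← hco e]
    refine Submodule.sum_mem _ fun i _ => ?_
    have h1 : (⟨co e i, hSZ _ (he i)⟩ : Z₀) • b i ∈ M :=
      Submodule.smul_mem _ _ (Submodule.subset_span ⟨i, rfl⟩)
    exact h1
  have h1M : (1 : E) ∈ M := hmem 1 fun i => Or.inr (Or.inl ⟨i, rfl⟩)
  have hxM : x ∈ M := hmem x fun i => Or.inr (Or.inr (Or.inl ⟨i, rfl⟩))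
  have hyM : y ∈ M := hmem y fun i => Or.inr (Or.inr (Or.inr ⟨i, rfl⟩))
  have hbb : ∀ i j, b i * b j ∈ M := fun i j => hmem _ fun k =>
    Or.inl (Set.mem_iUnion.mpr ⟨i, Set.mem_iUnion.mpr ⟨j, ⟨k, rfl⟩⟩⟩)
  have hmul : ∀ m m' : E, m ∈ M → m' ∈ M → m * m' ∈ M := by
    intro m m' hm hm'
    refine Submodule.span_induction₂ (p := fun a b _ _ => a * b ∈ M) ?_ ?_ ?_ ?_ ?_ ?_ ?_ hm hm'
    · rintro _ _ ⟨i, rfl⟩ ⟨j, rfl⟩; exact hbb i j
    · intro a _; rw [zero_mul]; exact M.zero_mem
    · intro a _; rw [mul_zero]; exact M.zero_mem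
    · intro a a' c _ _ _ h1 h2; rw [add_mul]; exact M.add_mem h1 h2
    · intro a a' c _ _ _ h1 h2; rw [mul_add]; exact M.add_mem h1 h2
    · intro r a c _ _ h; rw [smul_mul_assoc]; exact M.smul_mem r h
    · intro r a c _ _ h; rw [mul_smul_comm]; exact M.smul_mem r h
  let A : Subalgebra Z₀ E := M.toSubalgebra h1M hmul
  have hA : (⊤ : Subalgebra K E) ≤ A.restrictScalars K := by
    rw [← hgen]
    apply Algebra.adjoin_le
    rintro z (rfl | hz)
    · exact hxM
    · rw [Set.mem_singleton_iff] at hz; subst hz; exact hyM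
  have hM : M = ⊤ := by
    rw [eq_top_iff]
    intro e _
    exact hA (Algebra.mem_top (x := e))
  have hfin : Module.Finite Z₀ E := ⟨⟨(Set.finite_range b).toFinset, by
    rw [Set.Finite.coe_toFinset]; exact hM⟩⟩
  exact Module.Finite.trans Z₀ E

theorem lim4_adjoin_aux {R : Type} [Ring R] (K : Type) [CommRing K] (E : Subring R) [Algebra K E]
    {s : Set R} (A : Subalgebra K E) (hA : ∀ z ∈ s, ∃ a : E, a ∈ A ∧ (a : R) = z) (e : E)
    (he : e.1 ∈ Subring.closure s) : e ∈ A := by
  have h1 : Subring.closure s ≤ A.toSubring.map E.subtype := by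
    rw [Subring.closure_le]
    intro z hz
    obtain ⟨a, ha, haz⟩ := hA z hz
    exact ⟨a, ha, haz⟩
  obtain ⟨e', he', hee⟩ := h1 he
  have : e' = e := Subtype.ext hee
  rw [← this]
  exact he'

set_option maxHeartbeats 1000000 in
theorem abstract_final (R : Type) [Ring R] [IsDomain R] [CharZero R] (K E : Subring R) (x y : R)
    (hx : x ∈ E) (hy : y ∈ E) (hKE : K ≤ E)
    (hgen : E = Subring.closure ((K : Set R) ∪ {x, y}))
    (hcount : Countable E)
    (hcentral : ∀ z ∈ K, ∀ e ∈ E, z * e = e * z)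
    (hKinv : ∀ z ∈ K, z ≠ 0 → ∃ z' ∈ K, z * z' = 1)
    (halg : ∀ e ∈ E, ∃ (d : ℕ) (c : ℕ → R), (∀ i, c i ∈ K) ∧
      e ^ d = ∑ i ∈ Finset.range d, c i * e ^ i)
    (hinv : ∀ e ∈ E, e ≠ 0 → ∃ e' ∈ E, e * e' = 1 ∧ e' * e = 1)
    (hfin : ¬ ∃ (d : ℕ) (b : Fin d → R), (∀ i, b i ∈ E) ∧
      ∀ e ∈ E, ∃ c : Fin d → R, (∀ i, c i ∈ K) ∧ e = ∑ i, c i * b i) :
    ∃ (D : Type) (_ : DivisionRing D), Countable D ∧ CharZero D ∧
      Algebra.IsAlgebraic (Subring.center D) D ∧
      (∃ x y : D, Algebra.adjoin (Subring.center D) ({x, y} : Set D) = ⊤) ∧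
      ¬ FiniteDimensional (Subring.center D) D := by
  classical
  have hunit : ∀ a : E, IsUnit a ∨ a = 0 := by
    intro a
    by_cases ha : a = 0
    · exact Or.inr ha
    · left
      obtain ⟨e', he', h1, h2⟩ := hinv a.1 a.2 (fun h => ha (Subtype.ext h))
      exact ⟨⟨a, ⟨e', he'⟩, Subtype.ext h1, Subtype.ext h2⟩, rfl⟩
  letI hDR : DivisionRing E := DivisionRing.ofIsUnitOrEqZero hunit
  -- the commutative ring `K`
  letI hKc : CommRing K :=
    { (inferInstance : Ring K) with
      mul_comm := fun a b => Subtype.ext (hcentral a.1 a.2 b.1 (hKE b.2)) }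
  let φ : K →+* Subring.center E :=
    { toFun := fun z => ⟨⟨z.1, hKE z.2⟩, by
        rw [Subring.mem_center_iff]
        intro g
        exact Subtype.ext (hcentral z.1 z.2 g.1 g.2).symm⟩
      map_one' := rfl
      map_mul' := fun _ _ => rfl
      map_zero' := rfl
      map_add' := fun _ _ => rfl }
  letI hKZ : Algebra K (Subring.center E) := φ.toAlgebra
  letI hKEa : Algebra K E := Algebra.compHom E φ
  haveI hst : IsScalarTower K (Subring.center E) E := IsScalarTower.of_algebraMap_eq fun _ => rfl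
  have hsm : ∀ (k : K) (e : E), ((k • e : E) : R) = k.1 * e.1 := fun k e => rfl
  have halgMap : ∀ k : K, ((algebraMap K E k : E) : R) = k.1 := fun k => rfl
  -- integrality
  have hintE : ∀ e : E, IsIntegral K e := by
    intro e
    obtain ⟨d, c, hc, he⟩ := halg e.1 e.2
    refine ⟨Polynomial.X ^ d - ∑ i ∈ Finset.range d, Polynomial.C ⟨c i, hc i⟩ * Polynomial.X ^ i,
      ?_, ?_⟩
    · refine Polynomial.Monic.sub_of_left (Polynomial.monic_X_pow d) ?_
      rw [Polynomial.degree_X_pow]
      rw [← Polynomial.mem_degreeLT]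
      refine Submodule.sum_mem _ fun i hi => ?_
      rw [Polynomial.mem_degreeLT]
      refine (Polynomial.degree_C_mul_X_pow_le _ _).trans_lt ?_
      exact_mod_cast Finset.mem_range.mp hi
    · rw [← Polynomial.aeval_def, map_sub, map_pow, Polynomial.aeval_X, map_sum]
      apply Subtype.ext
      have h1 : ∀ i, ((Polynomial.aeval e (Polynomial.C (⟨c i, hc i⟩ : K) * Polynomial.X ^ i) : E)
          : R) = c i * e.1 ^ i := by
        intro i
        rw [map_mul, map_pow, Polynomial.aeval_X, Polynomial.aeval_C]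
        rfl
      have h2 : ((∑ i ∈ Finset.range d,
          Polynomial.aeval e (Polynomial.C (⟨c i, hc i⟩ : K) * Polynomial.X ^ i) : E) : R) =
          ∑ i ∈ Finset.range d, c i * e.1 ^ i := by
        rw [AddSubmonoidClass.coe_finsetSum]
        exact Finset.sum_congr rfl fun i _ => h1 i
      change ((e ^ d : E) : R) - _ = 0
      rw [h2]
      change e.1 ^ d - _ = 0
      rw [he, sub_self]
  have hintZ : ∀ z : Subring.center E, IsIntegral K z := by
    intro z
    exact (isIntegral_algHom_iff (IsScalarTower.toAlgHom K (Subring.center E) E)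
      (fun a b h => Subtype.ext h)).mp (hintE (z : E))
  have hgenK : Algebra.adjoin K ({⟨x, hx⟩, ⟨y, hy⟩} : Set E) = ⊤ := by
    rw [eq_top_iff]
    intro e _
    have hA : ∀ z : R, z ∈ (K : Set R) ∪ {x, y} →
        ∃ a : E, a ∈ Algebra.adjoin K ({⟨x, hx⟩, ⟨y, hy⟩} : Set E) ∧ (a : R) = z := by
      rintro z (hz | hz)
      · exact ⟨algebraMap K E ⟨z, hz⟩, Subalgebra.algebraMap_mem _ _, halgMap _⟩
      · rcases hz with rfl | hz
        · exact ⟨⟨z, hx⟩, Algebra.subset_adjoin (Or.inl rfl), rfl⟩
        · rw [Set.mem_singleton_iff] at hz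
          subst hz
          exact ⟨⟨z, hy⟩, Algebra.subset_adjoin (Or.inr rfl), rfl⟩
    have h2 : e.1 ∈ Subring.closure ((K : Set R) ∪ {x, y}) := by
      rw [← hgen]; exact e.2
    exact lim4_adjoin_aux K E _ hA _ h2
  refine ⟨E, hDR, hcount, ?_, ?_, ?_, ?_⟩
  · exact E.subtype.charZero
  · exact ⟨fun e => (hintE e).tower_top.isAlgebraic⟩
  · refine ⟨⟨x, hx⟩, ⟨y, hy⟩, ?_⟩
    have h1 : (⊤ : Subalgebra K E) ≤
        (Algebra.adjoin (Subring.center E) ({⟨x, hx⟩, ⟨y, hy⟩} : Set E)).restrictScalars K := by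
      rw [← hgenK]
      apply Algebra.adjoin_le
      intro z hz
      exact Algebra.subset_adjoin hz
    rw [eq_top_iff]
    intro e _
    exact h1 (Algebra.mem_top (x := e))
  · intro hfd
    apply hfin
    have := lim4_finite_of_center K (Subring.center E) E hintZ ⟨x, hx⟩ ⟨y, hy⟩ hgenK
    obtain ⟨d, b, hb⟩ := Module.Finite.exists_fin (R := K) (M := E)
    refine ⟨d, fun i => (b i).1, fun i => (b i).2, ?_⟩
    intro e he
    have h1 : (⟨e, he⟩ : E) ∈ Submodule.span K (Set.range b) := by rw [hb]; trivial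
    obtain ⟨c, hc⟩ := (Submodule.mem_span_range_iff_exists_fun K).mp h1
    refine ⟨fun i => (c i).1, fun i => (c i).2, ?_⟩
    have h2 := congrArg Subtype.val hc
    rw [AddSubmonoidClass.coe_finsetSum] at h2
    exact h2.symm

theorem tower_final (T : Tower) :
    ∃ (D : Type) (_ : DivisionRing D), Countable D ∧ CharZero D ∧
      Algebra.IsAlgebraic (Subring.center D) D ∧
      (∃ x y : D, Algebra.adjoin (Subring.center D) ({x, y} : Set D) = ⊤) ∧
      ¬ FiniteDimensional (Subring.center D) D := by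
  obtain ⟨L⟩ := exists_limit T
  refine abstract_final L.R L.Kinf L.E L.x L.y ?_ ?_ ?_ rfl L.E_countable
    (fun z hz e he => L.Kinf_central z hz e he) L.Kinf_inv L.E_alg L.E_inv L.not_finite
  · exact Subring.subset_closure (by simp)
  · exact Subring.subset_closure (by simp)
  · exact fun z hz => Subring.subset_closure (Or.inl hz)

end Crest.Agent.R180
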