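import Mathlib
import Crest.Agent.R180.YStep

/-!
# Piece NDA1: algebra in `D₀` for the non-degeneracy step

Setting: `𝕂 ⊂ L = F[θ] ⊂ D` commutative subalgebras, `t ∈ 𝕂`, `0 ≠ v ∈ L`, `Y = u + t v_sym`, `X = i v * Y`,
`A = F₀[θ, X] = M_Y(L)` (`adjoin_eq_MY`).
-/

set_option autoImplicit false
set_option linter.unusedSectionVars false

namespace Crest.Agent.R180
open Module

variable {F D F₀ D₀ : Type} [Field F] [CharZero F] [Ring D] [IsDomain D] [Algebra F D]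
    [FiniteDimensional F D] [Algebra.IsCentral F D]
    [Field F₀] [CharZero F₀] [Ring D₀] [IsDomain D₀] [Algebra F₀ D₀]
    [FiniteDimensional F₀ D₀] [Algebra.IsCentral F₀ D₀] {r : ℕ} {ζ : F}
    (S : SymData F D F₀ D₀ r ζ)

/-- **NDA1**.  `p t v² + p' t v³ - w = Σ p_k Y^k` with `p, p' ∈ W F₀`, `w ∈ W ⊗ E₀` implies `p = p' = 0`.
By `Ycoef` (with `zz 2 = - p t`, `zz 3 = - p' t`): for `k ≥ 2`, `p_k, p_k t ∈ W F₀`, so `p_k = 0` (`bc_inj`, commutativity of `𝕂`); then the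
`v²`, `v³` coefficients give `p t, p' t ∈ W F₀`, so `p = p' = 0`. -/
theorem nda1 (hr : 5 ≤ r) (hζ : IsPrimitiveRoot ζ r) (K : Subalgebra F D)
    (hK : ∀ x ∈ K, ∀ y ∈ K, x * y = y * x) (t : D) (ht : t ∈ K) (W : Submodule F D)
    (hW : W ≤ Subalgebra.toSubmodule K) (hWt : ∀ p ∈ W, t * p ∈ W → p = 0)
    (p p' w : D₀) (hp : p ∈ S.e.bc W) (hp' : p' ∈ S.e.bc W) (hw : w ∈ S.e.bcE W)
    (h : p * S.e.i t * S.v ^ 2 + p' * S.e.i t * S.v ^ 3 - w ∈
      S.MY (Subalgebra.toSubmodule K) (S.Y t)) : p = 0 ∧ p' = 0 := by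
  have hr0 : 0 < r := by omega
  have hinj := S.e.bc_inj W t hWt
  have hcomm : ∀ x ∈ S.e.bc W, x * S.e.i t = S.e.i t * x := fun x hx =>
    (S.sy_bcA_comm K hK x (S.e.i t) (S.e.bc_mono hW hx) (S.e.i_mem_bc _ _ ht)).eq
  have hinj' : ∀ x ∈ S.e.bc W, x * S.e.i t ∈ S.e.bc W → x = 0 := fun x hx hx' =>
    hinj x hx (by rwa [← hcomm x hx])
  obtain ⟨q, hq, hsum⟩ := (S.mem_MY _ _ _).1 h
  have htop : ∀ x ∈ S.e.bc W, x * S.e.i t ∈ S.e.bc (⊤ : Submodule F D) := fun x hx =>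
    S.sy_bc_top_mul _ _ (S.e.bc_mono le_top hx) (S.e.i_mem_bc _ _ trivial)
  set k2 : Fin r := ⟨2, by omega⟩ with hk2
  set k3 : Fin r := ⟨3, by omega⟩ with hk3
  have hk23 : k2 ≠ k3 := by
    intro h
    have := congrArg Fin.val h
    simp [hk2, hk3] at this
  set zz : Fin r → D₀ := Pi.single k2 (-(p * S.e.i t)) + Pi.single k3 (-(p' * S.e.i t)) with hzz
  have hz2 : zz k2 = -(p * S.e.i t) := by
    rw [hzz, Pi.add_apply, Pi.single_eq_same, Pi.single_eq_of_ne hk23, add_zero]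
  have hz3 : zz k3 = -(p' * S.e.i t) := by
    rw [hzz, Pi.add_apply, Pi.single_eq_same, Pi.single_eq_of_ne hk23.symm, zero_add]
  have hzmem : ∀ k, zz k ∈ S.e.bc (⊤ : Submodule F D) := by
    intro k
    rw [hzz, Pi.add_apply]
    refine add_mem ?_ ?_
    · by_cases hk : k = k2
      · subst hk
        rw [Pi.single_eq_same]
        exact neg_mem (htop p hp)
      · rw [Pi.single_eq_of_ne hk]
        exact zero_mem _
    · by_cases hk : k = k3
      · subst hk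
        rw [Pi.single_eq_same]
        exact neg_mem (htop p' hp')
      · rw [Pi.single_eq_of_ne hk]
        exact zero_mem _
  have hzsum : ∑ k, zz k * S.v ^ (k : ℕ) = -(p * S.e.i t * S.v ^ 2 + p' * S.e.i t * S.v ^ 3) := by
    have h1 : ∀ (k₀ : Fin r) (x : D₀), ∑ k, (Pi.single k₀ x : Fin r → D₀) k * S.v ^ (k : ℕ) =
        x * S.v ^ (k₀ : ℕ) := by
      intro k₀ x
      rw [Finset.sum_eq_single k₀]
      · rw [Pi.single_eq_same]
      · intro k _ hk
        rw [Pi.single_eq_of_ne hk, zero_mul]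
      · intro h; exact absurd (Finset.mem_univ _) h
    simp only [hzz, Pi.add_apply, add_mul, Finset.sum_add_distrib]
    rw [h1, h1, hk2, hk3]
    simp only [neg_mul, neg_add]
  have hC := S.Ycoef hr0 hζ t W q zz (fun k => S.e.bc_mono le_top (hq k)) hzmem (by
    rw [← hsum, hzsum]
    have : p * S.e.i t * S.v ^ 2 + p' * S.e.i t * S.v ^ 3 - w +
        -(p * S.e.i t * S.v ^ 2 + p' * S.e.i t * S.v ^ 3) = -w := by abel
    rw [this]
    exact neg_mem hw)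
  have hq0 : ∀ k : Fin r, 2 ≤ (k : ℕ) → q k = 0 := by
    intro k hk
    have h0 := hC.1 k 0 (by omega)
    have h1 := hC.1 k 1 (by omega)
    rw [pow_zero, map_one, mul_one] at h0
    rw [pow_one] at h1
    exact hinj' _ h0 h1
  have hfin : ∀ k : Fin r, 2 ≤ (k : ℕ) → zz k ∈ S.e.bc W := by
    intro k hk
    obtain ⟨c, -, h1⟩ := hC.2 k
    rwa [hq0 k hk, zero_mul, zero_add] at h1
  have h2 := hfin k2 (le_refl 2)
  have h3 := hfin k3 (by show 2 ≤ 3; norm_num)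
  rw [hz2, neg_mem_iff] at h2
  rw [hz3, neg_mem_iff] at h3
  exact ⟨hinj' p hp h2, hinj' p' hp' h3⟩

end Crest.Agent.R180
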