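import Mathlib
import Crest.Agent.R180.YStep

/-!
# Piece NDA2: algebra in `D₀` for the non-degeneracy step

Setting: `𝕂 ⊂ L = F[θ] ⊂ D` commutative subalgebras, `t ∈ 𝕂`, `0 ≠ v ∈ L`, `Y = u + t v_sym`, `X = i v * Y`,
`A = F₀[θ, X] = M_Y(L)` (`adjoin_eq_MY`).
-/

set_option autoImplicit false
set_option linter.unusedSectionVars false

namespace Crest.Agent.R180
open Module

namespace CExt
variable {F D F₁ D₁ β : Type} [Field F] [Ring D] [Algebra F D] [Field F₁] [Ring D₁]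
    [Algebra F₁ D₁] (e : CExt F D F₁ D₁ β)

/-- `A ⊗ E₁` as a subalgebra -/
def nda2_sub (A : Subalgebra F D) : Subalgebra F₁ D₁ :=
  Submodule.toSubalgebra (e.bcE (Subalgebra.toSubmodule A))
    (Submodule.subset_span ⟨1, A.one_mem, 1, one_mem _, by simp⟩)
    (by
      intro x y hx hy
      induction hx using Submodule.span_induction with
      | mem z hz =>
        obtain ⟨w, hw, p, hp, rfl⟩ := hz
        induction hy using Submodule.span_induction with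
        | mem z' hz' =>
          obtain ⟨w', hw', p', hp', rfl⟩ := hz'
          have hc : p * e.i w' = e.i w' * p := ((e.mem_E_iff p).1 hp w').eq.symm
          have : e.i w * p * (e.i w' * p') = e.i (w * w') * (p * p') := by
            rw [map_mul, mul_assoc, ← mul_assoc p, hc]; simp only [mul_assoc]
          rw [this]
          exact Submodule.subset_span ⟨w * w', A.mul_mem hw hw', p * p', mul_mem hp hp', rfl⟩
        | zero => rw [mul_zero]; exact zero_mem _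
        | add a b _ _ ha hb => rw [mul_add]; exact add_mem ha hb
        | smul c a _ ha => rw [mul_smul_comm]; exact Submodule.smul_mem _ _ ha
      | zero => rw [zero_mul]; exact zero_mem _
      | add a b _ _ ha hb => rw [add_mul]; exact add_mem ha hb
      | smul c a _ ha => rw [smul_mul_assoc]; exact Submodule.smul_mem _ _ ha)

theorem mem_nda2_sub (A : Subalgebra F D) (x : D₁) :
    x ∈ e.nda2_sub A ↔ x ∈ e.bcE (Subalgebra.toSubmodule A) := Iff.rfl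

end CExt

variable {F D F₀ D₀ : Type} [Field F] [CharZero F] [Ring D] [IsDomain D] [Algebra F D]
    [FiniteDimensional F D] [Algebra.IsCentral F D]
    [Field F₀] [CharZero F₀] [Ring D₀] [IsDomain D₀] [Algebra F₀ D₀]
    [FiniteDimensional F₀ D₀] [Algebra.IsCentral F₀ D₀] {r : ℕ} {ζ : F}
    (S : SymData F D F₀ D₀ r ζ)

/-- **NDA2**.  Orthogonality in `𝕂 ⊗ E₀` (the form `ntr (xy)` is nondegenerate on it): let `V₁, W ≤ 𝕂` with `W = V₁^⊥ ∩ 𝕂`.
If `a ∈ 𝕂 ⊗ E₀` is orthogonal to all `[h, Y] ∈ V₁ ⊗ E₀`, `h ∈ 𝕂 ⊗ E₀`, then `a ∈ W ⊗ E₀ + M_Y(𝕂)`.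
Proof: `[𝕂⊗E₀, Y] = M_Y(𝕂)^⊥` in `𝕂⊗E₀` (`ad Y` is skew-adjoint, its kernel is `M_Y(𝕂)` by `Y_cent`), `(V₁ ⊗ E₀)^⊥ = W ⊗ E₀`
(`orth_bcE`), and `(S ∩ T)^⊥ = S^⊥ + T^⊥`. -/
theorem nda2 (hr : 1 < r) (hζ : IsPrimitiveRoot ζ r) (K : Subalgebra F D)
    (hK : ∀ x ∈ K, ∀ y ∈ K, x * y = y * x) (t : D) (ht : t ∈ K) (V₁ W : Submodule F D)
    (hV₁ : V₁ ≤ Subalgebra.toSubmodule K)
    (hW : ∀ x, x ∈ W ↔ x ∈ K ∧ ∀ y ∈ V₁, ntr F D (y * x) = 0)
    (a : D₀) (ha : a ∈ S.e.bcE (Subalgebra.toSubmodule K))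
    (h : ∀ k ∈ S.e.bcE (Subalgebra.toSubmodule K), k * S.Y t - S.Y t * k ∈ S.e.bcE V₁ →
      ntr F₀ D₀ (a * (k * S.Y t - S.Y t * k)) = 0) :
    ∃ w ∈ S.e.bcE W, a - w ∈ S.MY (Subalgebra.toSubmodule K) (S.Y t) := by
  let B : Subalgebra F₀ D₀ := S.e.nda2_sub K
  have hBmem : ∀ x, x ∈ B ↔ x ∈ S.e.bcE (Subalgebra.toSubmodule K) := fun x => Iff.rfl
  have hE : ∀ y ∈ S.e.E, y ∈ B := fun y hy =>
    Submodule.subset_span ⟨1, K.one_mem, y, hy, by simp⟩
  have hYB : S.Y t ∈ B := by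
    refine B.add_mem (hE _ S.u_mem_E) ?_
    exact Submodule.subset_span ⟨t, ht, S.v, S.v_mem_E, rfl⟩
  let Yb : B := ⟨S.Y t, hYB⟩
  let S₁ : Submodule F₀ B := (S.e.bcE V₁).comap B.val.toLinearMap
  let T₁ : Submodule F₀ B := LinearMap.range (LinearMap.mulRight F₀ Yb - LinearMap.mulLeft F₀ Yb)
  have hnd := trB_nondeg (F := F₀) B
  have hrefl := trB_isRefl (F := F₀) B
  have key : (⟨a, ha⟩ : B) ∈ (trB B).orthogonal S₁ ⊔ (trB B).orthogonal T₁ := by
    rw [← LinearMap.BilinForm.orthogonal_orthogonal hnd hrefl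
      ((trB B).orthogonal S₁ ⊔ (trB B).orthogonal T₁), LinearMap.BilinForm.mem_orthogonal_iff]
    intro n hn
    have hn1 : n ∈ S₁ := by
      rw [← LinearMap.BilinForm.orthogonal_orthogonal hnd hrefl S₁]
      exact LinearMap.BilinForm.orthogonal_le (le_sup_left) hn
    have hn2 : n ∈ T₁ := by
      rw [← LinearMap.BilinForm.orthogonal_orthogonal hnd hrefl T₁]
      exact LinearMap.BilinForm.orthogonal_le (le_sup_right) hn
    obtain ⟨k, hk⟩ := hn2
    have hk' : (n : D₀) = (k : D₀) * S.Y t - S.Y t * (k : D₀) := by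
      rw [← hk]; rfl
    have h1 : (k : D₀) * S.Y t - S.Y t * (k : D₀) ∈ S.e.bcE V₁ := by
      rw [← hk']; exact hn1
    have h2 := h k k.2 h1
    change trB B n ⟨a, ha⟩ = 0
    rw [trB_apply, ntr_comm, hk']
    exact h2
  obtain ⟨w, hw, m, hm, hwm⟩ := Submodule.mem_sup.1 key
  have hwm' : a = (w : D₀) + (m : D₀) := by
    have := congrArg Subtype.val hwm
    exact this.symm
  refine ⟨(w : D₀), ?_, ?_⟩
  · rw [S.e.orth_bcE K V₁ W hW]
    refine ⟨w.2, ?_⟩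
    intro d hd y hy
    rw [LinearMap.BilinForm.mem_orthogonal_iff] at hw
    have hdy : S.e.i d * y ∈ S.e.bcE V₁ := S.e.mul_mem_bcE _ _ hd _ hy
    have hdyB : S.e.i d * y ∈ B := S.e.bcE_mono hV₁ hdy
    exact hw ⟨S.e.i d * y, hdyB⟩ hdy
  · have ham : a - (w : D₀) = (m : D₀) := by rw [hwm']; abel
    rw [ham]
    have hcomm : Commute (m : D₀) (S.Y t) := by
      have h0 : S.Y t * (m : D₀) - (m : D₀) * S.Y t = 0 := by
        apply ntr_nondeg B _ (B.sub_mem (B.mul_mem hYB m.2) (B.mul_mem m.2 hYB))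
        intro k hk
        rw [LinearMap.BilinForm.mem_orthogonal_iff] at hm
        have h1 := hm ((LinearMap.mulRight F₀ Yb - LinearMap.mulLeft F₀ Yb) ⟨k, hk⟩)
          ⟨⟨k, hk⟩, rfl⟩
        have h2 : ntr F₀ D₀ ((k * S.Y t - S.Y t * k) * (m : D₀)) = 0 := h1
        rw [sub_mul, map_sub, mul_assoc, ntr_comm (S.Y t * k), ← mul_assoc (m : D₀),
          ntr_comm _ k, ← map_sub, ← mul_sub] at h2
        exact h2
      exact (sub_eq_zero.1 h0).symm
    obtain ⟨p, hp, hp'⟩ := S.Y_cent hr hζ K hK t ht (m : D₀) m.2 hcomm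
    rw [S.mem_MY]
    exact ⟨p, hp, hp'⟩

end Crest.Agent.R180
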