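import Mathlib
import Crest.Agent.R180.YStep

/-!
# Piece NDA3: algebra in `D₀` for the non-degeneracy step

Setting: `𝕂 ⊂ L = F[θ] ⊂ D` commutative subalgebras, `t ∈ 𝕂`, `0 ≠ v ∈ L`, `Y = u + t v_sym`, `X = i v * Y`,
`A = F₀[θ, X] = M_Y(L)` (`adjoin_eq_MY`).
-/

set_option autoImplicit false
set_option linter.unusedSectionVars false

namespace Crest.Agent.R180
open Module

variable {F D F₀ D₀ : Type} [Field F] [CharZero F] [Ring D] [IsDomain D] [Algebra F D]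
    [FiniteDimensional F D] [Algebra.IsCentral F D]
    [Field F₀] [CharZero F₀] [Ring D₀] [IsDomain D₀] [Algebra F₀ D₀]
    [FiniteDimensional F₀ D₀] [Algebra.IsCentral F₀ D₀] {r : ℕ} {ζ : F}
    (S : SymData F D F₀ D₀ r ζ)

section aux

theorem nda3_adjoin_comm (θ : D) : ∀ x ∈ Algebra.adjoin F ({θ} : Set D),
    ∀ y ∈ Algebra.adjoin F ({θ} : Set D), x * y = y * x := by
  intro x hx y hy
  have := (Algebra.isMulCommutative_adjoin F (s := ({θ} : Set D)) (by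
    rintro a ha b hb
    rw [Set.mem_singleton_iff] at ha hb
    rw [ha, hb])).is_comm.comm ⟨x, hx⟩ ⟨y, hy⟩
  exact congrArg Subtype.val this

theorem nda3_Y_comm (t x : D) (h : x * t = t * x) : S.e.i x * S.Y t = S.Y t * S.e.i x := by
  unfold SymData.Y
  rw [mul_add, add_mul, (S.comm_u x).eq, ← mul_assoc, ← map_mul, h, map_mul, mul_assoc,
    (S.comm_v x).eq, mul_assoc]

theorem nda3_bc_comm (K : Subalgebra F D) (t : D) (h : ∀ x ∈ K, x * t = t * x) (p : D₀)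
    (hp : p ∈ S.e.bc (Subalgebra.toSubmodule K)) : p * S.Y t = S.Y t * p := by
  induction hp using Submodule.span_induction with
  | mem z hz =>
    obtain ⟨w, hw, rfl⟩ := hz
    exact nda3_Y_comm S t w (h w hw)
  | zero => simp
  | add z w _ _ hz hw => rw [add_mul, mul_add, hz, hw]
  | smul a z _ hz => rw [smul_mul_assoc, mul_smul_comm, hz]

theorem nda3_one_mem (K : Subalgebra F D) : (1 : D₀) ∈ S.e.bc (Subalgebra.toSubmodule K) := by
  have := S.e.i_mem_bc (Subalgebra.toSubmodule K) 1 K.one_mem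
  rwa [map_one] at this

theorem nda3_Yr_mem (hr : 0 < r) (hζ : IsPrimitiveRoot ζ r) (K : Subalgebra F D) (t : D)
    (ht : t ∈ K) : (S.Y t) ^ r ∈ S.e.bc (Subalgebra.toSubmodule K) := by
  rw [S.Y_pow_r hr hζ, S.u_pow, S.v_pow]
  refine Submodule.add_mem _ ?_ ?_
  · rw [Algebra.algebraMap_eq_smul_one]
    exact Submodule.smul_mem _ _ (nda3_one_mem S K)
  · rw [Algebra.algebraMap_eq_smul_one, mul_smul_comm, mul_one]
    exact Submodule.smul_mem _ _ (S.e.i_mem_bc _ _ (K.pow_mem ht r))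

theorem nda3_mul_Y (hr : 0 < r) (hζ : IsPrimitiveRoot ζ r) (K : Subalgebra F D) (t : D)
    (ht : t ∈ K) (x : D₀) (hx : x ∈ S.MY (Subalgebra.toSubmodule K) (S.Y t)) :
    x * S.Y t ∈ S.MY (Subalgebra.toSubmodule K) (S.Y t) := by
  unfold SymData.MY at hx
  induction hx using Submodule.span_induction with
  | mem z hz =>
    obtain ⟨p, hp, k, hk, rfl⟩ := hz
    rw [mul_assoc, ← pow_succ]
    rcases Nat.lt_or_ge (k + 1) r with h | h
    · exact Submodule.subset_span ⟨p, hp, k + 1, h, rfl⟩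
    · have : k + 1 = r := by omega
      rw [this]
      exact Submodule.subset_span ⟨p * S.Y t ^ r, S.e.bc_mul K _ _ hp (nda3_Yr_mem S hr hζ K t ht),
        0, hr, by rw [pow_zero, mul_one]⟩
  | zero => rw [zero_mul]; exact Submodule.zero_mem _
  | add z w _ _ hz hw => rw [add_mul]; exact Submodule.add_mem _ hz hw
  | smul a z _ hz => rw [smul_mul_assoc]; exact Submodule.smul_mem _ _ hz

theorem nda3_mul_bc (K : Subalgebra F D) (hK : ∀ x ∈ K, ∀ y ∈ K, x * y = y * x) (t : D)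
    (ht : t ∈ K) (x : D₀) (hx : x ∈ S.MY (Subalgebra.toSubmodule K) (S.Y t)) (q : D₀)
    (hq : q ∈ S.e.bc (Subalgebra.toSubmodule K)) :
    x * q ∈ S.MY (Subalgebra.toSubmodule K) (S.Y t) := by
  have hqY : ∀ k : ℕ, S.Y t ^ k * q = q * S.Y t ^ k := by
    intro k
    have : Commute q (S.Y t) := nda3_bc_comm S K t (fun x hx => hK x hx t ht) q hq
    exact (this.pow_right k).eq.symm
  unfold SymData.MY at hx
  induction hx using Submodule.span_induction with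
  | mem z hz =>
    obtain ⟨p, hp, k, hk, rfl⟩ := hz
    rw [mul_assoc, hqY, ← mul_assoc]
    exact Submodule.subset_span ⟨p * q, S.e.bc_mul K _ _ hp hq, k, hk, rfl⟩
  | zero => rw [zero_mul]; exact Submodule.zero_mem _
  | add z w _ _ hz hw => rw [add_mul]; exact Submodule.add_mem _ hz hw
  | smul a z _ hz => rw [smul_mul_assoc]; exact Submodule.smul_mem _ _ hz

theorem nda3_mul (hr : 0 < r) (hζ : IsPrimitiveRoot ζ r) (K : Subalgebra F D)
    (hK : ∀ x ∈ K, ∀ y ∈ K, x * y = y * x) (t : D)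
    (ht : t ∈ K) (x : D₀) (hx : x ∈ S.MY (Subalgebra.toSubmodule K) (S.Y t)) (y : D₀)
    (hy : y ∈ S.MY (Subalgebra.toSubmodule K) (S.Y t)) :
    x * y ∈ S.MY (Subalgebra.toSubmodule K) (S.Y t) := by
  unfold SymData.MY at hy
  induction hy using Submodule.span_induction with
  | mem z hz =>
    obtain ⟨p, hp, k, hk, rfl⟩ := hz
    clear hk
    rw [← mul_assoc]
    have h1 := nda3_mul_bc S K hK t ht x hx p hp
    induction k with
    | zero => rw [pow_zero, mul_one]; exact h1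
    | succ k ih => rw [pow_succ, ← mul_assoc]; exact nda3_mul_Y S hr hζ K t ht _ ih
  | zero => rw [mul_zero]; exact Submodule.zero_mem _
  | add z w _ _ hz hw => rw [mul_add]; exact Submodule.add_mem _ hz hw
  | smul a z _ hz => rw [mul_smul_comm]; exact Submodule.smul_mem _ _ hz

theorem nda3_bc_le_MY (hr : 0 < r) (W : Submodule F D) (y : D₀) : S.e.bc W ≤ S.MY W y := by
  intro p hp
  exact Submodule.subset_span ⟨p, hp, 0, hr, by rw [pow_zero, mul_one]⟩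

/-- `M_Y(𝕂)` as a subalgebra -/
def nda3AK (hr : 0 < r) (hζ : IsPrimitiveRoot ζ r) (K : Subalgebra F D)
    (hK : ∀ x ∈ K, ∀ y ∈ K, x * y = y * x) (t : D) (ht : t ∈ K) : Subalgebra F₀ D₀ where
  carrier := {x | x ∈ S.MY (Subalgebra.toSubmodule K) (S.Y t)}
  mul_mem' := fun {x y} hx hy => nda3_mul S hr hζ K hK t ht x hx y hy
  add_mem' := fun {x y} hx hy =>
    Submodule.add_mem (S.MY (Subalgebra.toSubmodule K) (S.Y t)) hx hy
  algebraMap_mem' := fun a => by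
    show algebraMap F₀ D₀ a ∈ S.MY (Subalgebra.toSubmodule K) (S.Y t)
    rw [Algebra.algebraMap_eq_smul_one]
    exact Submodule.smul_mem _ _ (nda3_bc_le_MY S hr _ _ (nda3_one_mem S _))

theorem nda3_mem_AK (hr : 0 < r) (hζ : IsPrimitiveRoot ζ r) (K : Subalgebra F D)
    (hK : ∀ x ∈ K, ∀ y ∈ K, x * y = y * x) (t : D) (ht : t ∈ K) (x : D₀) :
    x ∈ nda3AK S hr hζ K hK t ht ↔ x ∈ S.MY (Subalgebra.toSubmodule K) (S.Y t) := Iff.rfl

theorem nda3_toSub_AK (hr : 0 < r) (hζ : IsPrimitiveRoot ζ r) (K : Subalgebra F D)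
    (hK : ∀ x ∈ K, ∀ y ∈ K, x * y = y * x) (t : D) (ht : t ∈ K) :
    Subalgebra.toSubmodule (nda3AK S hr hζ K hK t ht) =
      S.MY (Subalgebra.toSubmodule K) (S.Y t) := by
  ext x; exact Iff.rfl

theorem nda3_MY_mono {W W' : Submodule F D} (h : W ≤ W') (y : D₀) : S.MY W y ≤ S.MY W' y := by
  unfold SymData.MY
  apply Submodule.span_mono
  rintro _ ⟨p, hp, k, hk, rfl⟩
  exact ⟨p, S.e.bc_mono h hp, k, hk, rfl⟩

theorem nda3_Y_mem (K : Subalgebra F D) (t : D) (ht : t ∈ K) :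
    S.Y t ∈ S.e.bcE (Subalgebra.toSubmodule K) := by
  unfold SymData.Y
  refine Submodule.add_mem _ ?_ (S.e.mul_mem_bcE _ _ ht _ S.v_mem_E)
  have := S.e.mul_mem_bcE (Subalgebra.toSubmodule K) 1 K.one_mem _ S.u_mem_E
  rwa [map_one, one_mul] at this

theorem nda3_one_mem_bcE (K : Subalgebra F D) :
    (1 : D₀) ∈ S.e.bcE (Subalgebra.toSubmodule K) :=
  S.e.bc_le_bcE _ (nda3_one_mem S K)

theorem nda3_Ypow_mem (K : Subalgebra F D) (t : D) (ht : t ∈ K) (k : ℕ) :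
    S.Y t ^ k ∈ S.e.bcE (Subalgebra.toSubmodule K) := by
  induction k with
  | zero => rw [pow_zero]; exact nda3_one_mem_bcE S K
  | succ k ih => rw [pow_succ]; exact S.e.bcE_mul K _ _ ih (nda3_Y_mem S K t ht)

theorem nda3_MY_le_bcE (K : Subalgebra F D) (t : D) (ht : t ∈ K) :
    S.MY (Subalgebra.toSubmodule K) (S.Y t) ≤ S.e.bcE (Subalgebra.toSubmodule K) := by
  unfold SymData.MY
  rw [Submodule.span_le]
  rintro _ ⟨p, hp, k, _, rfl⟩
  exact S.e.bcE_mul K _ _ (S.e.bc_le_bcE _ hp) (nda3_Ypow_mem S K t ht k)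

/-- `ntr (i(l) z) = ntr (i(pr_𝕂 l) z)` for `z ∈ 𝕂 ⊗ E₀` -/
theorem nda3_ntr_pr (K : Subalgebra F D) (l : D) (z : D₀)
    (hz : z ∈ S.e.bcE (Subalgebra.toSubmodule K)) :
    ntr F₀ D₀ (S.e.i l * z) = ntr F₀ D₀ (S.e.i (pr F K l) * z) := by
  unfold CExt.bcE at hz
  induction hz using Submodule.span_induction with
  | mem z hz =>
    obtain ⟨κ, hκ, y, hy, rfl⟩ := hz
    rw [← mul_assoc, ← mul_assoc, ← map_mul, ← map_mul, S.e.ntr_mul _ _ hy, S.e.ntr_mul _ _ hy,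
      ntr_comm l κ, ntr_comm (pr F K l) κ, pr_spec K l κ hκ]
  | zero => rw [mul_zero, mul_zero]
  | add z w _ _ hz hw => rw [mul_add, mul_add, map_add, map_add, hz, hw]
  | smul a z _ hz => rw [mul_smul_comm, mul_smul_comm, map_smul, map_smul, hz]

end aux

section
variable (hr : 1 < r) (hζ : IsPrimitiveRoot ζ r) (θ : D) (K : Subalgebra F D)
  (hKL : K ≤ Algebra.adjoin F {θ}) (v t : D) (hv : v ∈ Algebra.adjoin F {θ}) (hv0 : v ≠ 0)
  (ht : t ∈ K)

include hr hζ hKL hv hv0 ht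

theorem nda3_K_comm : ∀ x ∈ K, ∀ y ∈ K, x * y = y * x := fun x hx y hy =>
  nda3_adjoin_comm θ x (hKL hx) y (hKL hy)

/-- the projection to `A` agrees with the projection to `M_Y(𝕂)` on `𝕂 ⊗ E₀` -/
theorem nda3_pr_eq (hr0 : 0 < r) (hK : ∀ x ∈ K, ∀ y ∈ K, x * y = y * x) (x : D₀)
    (hx : x ∈ S.e.bcE (Subalgebra.toSubmodule K)) :
    pr F₀ (Algebra.adjoin F₀ ({S.e.i θ, S.e.i v * S.Y t} : Set D₀)) x =
      pr F₀ (nda3AK S hr0 hζ K hK t ht) x := by
  have hA := adjoin_eq_MY S hr hζ θ v t hv (hKL ht) hv0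
  set A := Algebra.adjoin F₀ ({S.e.i θ, S.e.i v * S.Y t} : Set D₀) with hAdef
  set AK := nda3AK S hr0 hζ K hK t ht with hAK
  have hmemA : ∀ a, a ∈ A ↔
      a ∈ S.MY (Subalgebra.toSubmodule (Algebra.adjoin F {θ})) (S.Y t) := by
    intro a
    rw [← hA, Subalgebra.mem_toSubmodule]
  have hy : pr F₀ AK x ∈ AK := pr_mem AK x
  have hyE : pr F₀ AK x ∈ S.e.bcE (Subalgebra.toSubmodule K) :=
    nda3_MY_le_bcE S K t ht hy
  apply pr_unique
  · rw [hmemA]
    exact nda3_MY_mono S (Subalgebra.toSubmodule.monotone hKL) _ hy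
  · intro a ha
    rw [hmemA] at ha
    unfold SymData.MY at ha
    induction ha using Submodule.span_induction with
    | mem a ha =>
      obtain ⟨p, hp, k, hk, rfl⟩ := ha
      unfold CExt.bc at hp
      induction hp using Submodule.span_induction with
      | mem p hp =>
        obtain ⟨l, hl, rfl⟩ := hp
        have h1 : S.e.i (pr F K l) * S.Y t ^ k ∈ AK :=
          Submodule.subset_span ⟨_, S.e.i_mem_bc _ _ (pr_mem K l), k, hk, rfl⟩
        rw [mul_assoc, mul_assoc,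
          nda3_ntr_pr S K l _ (S.e.bcE_mul K _ _ (nda3_Ypow_mem S K t ht k) hx),
          nda3_ntr_pr S K l _ (S.e.bcE_mul K _ _ (nda3_Ypow_mem S K t ht k) hyE),
          ← mul_assoc, ← mul_assoc, pr_spec AK x _ h1]
      | zero => simp
      | add z w _ _ hz hw =>
        rw [add_mul, add_mul, add_mul, map_add, map_add, hz, hw]
      | smul c z _ hz =>
        rw [smul_mul_assoc, smul_mul_assoc, smul_mul_assoc, map_smul, map_smul, hz]
    | zero => simp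
    | add z w _ _ hz hw => rw [add_mul, add_mul, map_add, map_add, hz, hw]
    | smul c z _ hz => rw [smul_mul_assoc, smul_mul_assoc, map_smul, map_smul, hz]

/-- **NDA3a**.  `pr_A` maps `𝕂 ⊗ E₀` to `M_Y(𝕂)`.
Let `A_K = M_Y(𝕂)` (a subalgebra) and `y = pr_{A_K} x`.  For `a = i(l) a'` (`l ∈ L`, `a' ∈ A_K`), `z ∈ 𝕂⊗E₀`:
`ntr (i(l) z) = ntr (i(pr_𝕂 l) z)`, so `ntr (a x) = ntr (i(pr_𝕂 l) a' x) = ntr (i(pr_𝕂 l) a' y) = ntr (a y)`. -/
theorem nda3a (x : D₀) (hx : x ∈ S.e.bcE (Subalgebra.toSubmodule K)) :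
    pr F₀ (Algebra.adjoin F₀ ({S.e.i θ, S.e.i v * S.Y t} : Set D₀)) x ∈
      S.MY (Subalgebra.toSubmodule K) (S.Y t) := by
  have hr0 : 0 < r := by omega
  have hK : ∀ x ∈ K, ∀ y ∈ K, x * y = y * x := nda3_K_comm hr hζ θ K hKL v t hv hv0 ht
  rw [nda3_pr_eq S hr hζ θ K hKL v t hv hv0 ht hr0 hK x hx]
  exact pr_mem (nda3AK S hr0 hζ K hK t ht) x

/-- **NDA3b**.  `dim pr_A (V ⊗ E₀) = r dim 𝕂 - dim W` where `V = v V₁`, `V₁ ≤ 𝕂`, `W = V₁^⊥ ∩ 𝕂`, `M_Y(𝕂) ∩ (W ⊗ E₀) = W F₀`.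
`pr_A(V⊗E₀) = v pr_A(V₁⊗E₀) = v pr_{A_K}(V₁ ⊗ E₀)`; `finrank_pr_map` for `A_K`. -/
theorem nda3b (V₁ W : Submodule F D) (hV₁ : V₁ ≤ Subalgebra.toSubmodule K)
    (hW : ∀ x, x ∈ W ↔ x ∈ K ∧ ∀ y ∈ V₁, ntr F D (y * x) = 0)
    (hWt : ∀ p ∈ W, t * p ∈ W → p = 0) (V : Submodule F D)
    (hV : ∀ x, x ∈ V ↔ ∃ y ∈ V₁, x = v * y) :
    finrank F₀ ((S.e.bcE V).map
      (pr F₀ (Algebra.adjoin F₀ ({S.e.i θ, S.e.i v * S.Y t} : Set D₀)))) + finrank F W =
      r * finrank F K := by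
  have hr0 : 0 < r := by omega
  have hK : ∀ x ∈ K, ∀ y ∈ K, x * y = y * x := nda3_K_comm hr hζ θ K hKL v t hv hv0 ht
  have hA := adjoin_eq_MY S hr hζ θ v t hv (hKL ht) hv0
  have hWK : W ≤ Subalgebra.toSubmodule K := fun x hx => ((hW x).1 hx).1
  have hvA : S.e.i v ∈ Algebra.adjoin F₀ ({S.e.i θ, S.e.i v * S.Y t} : Set D₀) := by
    rw [← Subalgebra.mem_toSubmodule, hA]
    exact nda3_bc_le_MY S hr0 _ _ (S.e.i_mem_bc _ _ hv)
  have hv0' : S.e.i v ≠ 0 := by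
    obtain ⟨w, h1, h2⟩ := exists_inverse (F := F) v hv0
    intro h
    have := congrArg S.e.i h1
    rw [map_mul, h, zero_mul, map_one] at this
    exact zero_ne_one this
  -- `V ⊗ E₀ = i v * (V₁ ⊗ E₀)`
  have hbcV : S.e.bcE V = (S.e.bcE V₁).map (LinearMap.mulLeft F₀ (S.e.i v)) := by
    apply le_antisymm
    · unfold CExt.bcE
      rw [Submodule.span_le]
      rintro _ ⟨w, hw, y, hy, rfl⟩
      obtain ⟨w', hw', rfl⟩ := (hV w).1 hw
      refine ⟨S.e.i w' * y, Submodule.subset_span ⟨w', hw', y, hy, rfl⟩, ?_⟩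
      rw [LinearMap.mulLeft_apply, map_mul, mul_assoc]
    · rw [Submodule.map_le_iff_le_comap]
      unfold CExt.bcE
      rw [Submodule.span_le]
      rintro _ ⟨w, hw, y, hy, rfl⟩
      refine Submodule.subset_span ⟨v * w, (hV _).2 ⟨w, hw, rfl⟩, y, hy, ?_⟩
      rw [LinearMap.mulLeft_apply, map_mul, mul_assoc]
  have hV₁E : S.e.bcE V₁ ≤ S.e.bcE (Subalgebra.toSubmodule K) := S.e.bcE_mono hV₁
  have hmap : (S.e.bcE V).map
      (pr F₀ (Algebra.adjoin F₀ ({S.e.i θ, S.e.i v * S.Y t} : Set D₀))) =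
      ((S.e.bcE V₁).map (pr F₀ (nda3AK S hr0 hζ K hK t ht))).map
        (LinearMap.mulLeft F₀ (S.e.i v)) := by
    rw [hbcV]
    ext z
    simp only [Submodule.mem_map]
    constructor
    · rintro ⟨_, ⟨x, hx, rfl⟩, rfl⟩
      refine ⟨_, ⟨x, hx, rfl⟩, ?_⟩
      rw [LinearMap.mulLeft_apply, LinearMap.mulLeft_apply, pr_mul_left _ _ _ hvA,
        nda3_pr_eq S hr hζ θ K hKL v t hv hv0 ht hr0 hK x (hV₁E hx)]
    · rintro ⟨_, ⟨x, hx, rfl⟩, rfl⟩
      refine ⟨_, ⟨x, hx, rfl⟩, ?_⟩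
      rw [LinearMap.mulLeft_apply, LinearMap.mulLeft_apply, pr_mul_left _ _ _ hvA,
        nda3_pr_eq S hr hζ θ K hKL v t hv hv0 ht hr0 hK x (hV₁E hx)]
  have hinj : Function.Injective (LinearMap.mulLeft F₀ (S.e.i v)) := by
    intro a b hab
    simpa [hv0'] using hab
  have hfin : finrank F₀ ((S.e.bcE V).map
      (pr F₀ (Algebra.adjoin F₀ ({S.e.i θ, S.e.i v * S.Y t} : Set D₀)))) =
      finrank F₀ ((S.e.bcE V₁).map (pr F₀ (nda3AK S hr0 hζ K hK t ht))) := by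
    rw [hmap]
    exact (Submodule.equivMapOfInjective _ hinj _).finrank_eq.symm
  have hN : ∀ a, a ∈ S.e.bc W ↔ a ∈ nda3AK S hr0 hζ K hK t ht ∧
      ∀ w ∈ S.e.bcE V₁, ntr F₀ D₀ (a * w) = 0 := by
    intro a
    rw [← MY_inf S hr hζ K hK t ht W hWK hWt, Submodule.mem_inf,
      S.e.orth_bcE K V₁ W hW a]
    constructor
    · rintro ⟨h1, h2, h3⟩
      refine ⟨h1, fun w hw => ?_⟩
      unfold CExt.bcE at hw
      induction hw using Submodule.span_induction with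
      | mem w hw =>
        obtain ⟨d, hd, y, hy, rfl⟩ := hw
        rw [ntr_comm]
        exact h3 d hd y hy
      | zero => simp
      | add z w _ _ hz hw => rw [mul_add, map_add, hz, hw, add_zero]
      | smul c z _ hz => rw [mul_smul_comm, map_smul, hz, smul_zero]
    · rintro ⟨h1, h2⟩
      refine ⟨h1, nda3_MY_le_bcE S K t ht h1, fun d hd y hy => ?_⟩
      rw [ntr_comm]
      exact h2 _ (S.e.mul_mem_bcE _ _ hd _ hy)
  have h1 := finrank_pr_map (nda3AK S hr0 hζ K hK t ht) (S.e.bcE V₁) (S.e.bc W) hN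
  have h2 : finrank F₀ (nda3AK S hr0 hζ K hK t ht) = r * finrank F K := by
    have h3 : finrank F₀ (nda3AK S hr0 hζ K hK t ht) =
        finrank F₀ (Subalgebra.toSubmodule (nda3AK S hr0 hζ K hK t ht)) := rfl
    rw [h3, nda3_toSub_AK, S.finrank_MY _ _ (fun p hp h => S.Y_indep hr0 hζ t p hp h)]
    rfl
  rw [hfin, ← h2, ← h1, S.e.finrank_bc]

end

end Crest.Agent.R180
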