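import Mathlib
import Crest.Agent.R180.YStep

/-!
# Piece NDA4: algebra in `D₀` for the non-degeneracy step

Setting: `𝕂 ⊂ L = F[θ] ⊂ D` commutative subalgebras, `t ∈ 𝕂`, `0 ≠ v ∈ L`, `Y = u + t v_sym`, `X = i v * Y`,
`A = F₀[θ, X] = M_Y(L)` (`adjoin_eq_MY`).
-/

set_option autoImplicit false
set_option linter.unusedSectionVars false

namespace Crest.Agent.R180
open Module

/-- version of `mem_comm_of_orth` inside a subalgebra `C` -/
theorem nda4_mem_comm {F D : Type} [Field F] [CharZero F] [Ring D] [IsDomain D] [Algebra F D]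
    [FiniteDimensional F D] (C : Subalgebra F D) (X : D) (hX : X ∈ C) (x : D) (hx : x ∈ C)
    (h : ∀ c ∈ C, Commute c X → ntr F D (c * x) = 0) : ∃ h ∈ C, x = h * X - X * h := by
  let X' : C := ⟨X, hX⟩
  let R : Submodule F C := LinearMap.range (LinearMap.mulRight F X' - LinearMap.mulLeft F X')
  have hR : ∀ y, y ∈ (trB C).orthogonal R → Commute (y : D) X := by
    intro y
    rw [LinearMap.BilinForm.mem_orthogonal_iff]
    intro h
    have : X * (y : D) - (y : D) * X = 0 := by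
      apply ntr_nondeg C _ (C.sub_mem (C.mul_mem hX y.2) (C.mul_mem y.2 hX))
      intro a ha
      have h1 := h (⟨a, ha⟩ * X' - X' * ⟨a, ha⟩) ⟨⟨a, ha⟩, by simp⟩
      rw [trB_apply] at h1
      have e1 : ((⟨a, ha⟩ * X' - X' * ⟨a, ha⟩ : C) : D) = a * X - X * a := rfl
      rw [e1, sub_mul, map_sub, mul_assoc, mul_assoc, ntr_comm X (a * y), mul_assoc,
        ← map_sub, ← mul_sub] at h1
      exact h1
    exact (sub_eq_zero.1 this).symm
  have hx' : (⟨x, hx⟩ : C) ∈ (trB C).orthogonal ((trB C).orthogonal R) := by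
    rw [LinearMap.BilinForm.mem_orthogonal_iff]
    intro c hc
    rw [trB_apply]
    exact h c c.2 (hR c hc)
  rw [LinearMap.BilinForm.orthogonal_orthogonal (trB_nondeg C) (trB_isRefl C)] at hx'
  obtain ⟨h, hh⟩ := hx'
  refine ⟨h, h.2, ?_⟩
  have := congrArg Subtype.val hh
  simpa using this.symm

variable {F D F₀ D₀ : Type} [Field F] [CharZero F] [Ring D] [IsDomain D] [Algebra F D]
    [FiniteDimensional F D] [Algebra.IsCentral F D]
    [Field F₀] [CharZero F₀] [Ring D₀] [IsDomain D₀] [Algebra F₀ D₀]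
    [FiniteDimensional F₀ D₀] [Algebra.IsCentral F₀ D₀] {r : ℕ} {ζ : F}
    (S : SymData F D F₀ D₀ r ζ)

/-- `π = ext pr_A` is a left `A ⊗ E₀`-linear map -/
theorem nda4_pi_left (A : Subalgebra F D) (a c : D₀)
    (ha : a ∈ S.e.bcE (Subalgebra.toSubmodule A)) :
    S.e.ext (pr F A) (a * c) = a * S.e.ext (pr F A) c := by
  induction ha using Submodule.span_induction with
  | mem z hz =>
    obtain ⟨w, hw, y, hy, rfl⟩ := hz
    have h1 : ∀ d : D₀, S.e.ext (pr F A) (S.e.i w * d) = S.e.i w * S.e.ext (pr F A) d := by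
      intro d
      rw [← S.e.ext_mulL, ← S.e.ext_mulL, ← LinearMap.comp_apply, ← LinearMap.comp_apply,
        ← S.e.ext_comp, ← S.e.ext_comp]
      congr 2
      ext d
      simp only [LinearMap.comp_apply, LinearMap.mulLeft_apply]
      exact pr_mul_left A w d hw
    rw [mul_assoc, h1, S.e.ext_mul_left _ _ _ hy, mul_assoc]
  | zero => simp
  | add z w _ _ hz hw => rw [add_mul, map_add, hz, hw, add_mul]
  | smul b z _ hz => rw [smul_mul_assoc, map_smul, hz, smul_mul_assoc]

/-- `π = ext pr_A` is a right `A ⊗ E₀`-linear map -/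
theorem nda4_pi_right (A : Subalgebra F D) (a c : D₀)
    (ha : a ∈ S.e.bcE (Subalgebra.toSubmodule A)) :
    S.e.ext (pr F A) (c * a) = S.e.ext (pr F A) c * a := by
  induction ha using Submodule.span_induction with
  | mem z hz =>
    obtain ⟨w, hw, y, hy, rfl⟩ := hz
    have h1 : ∀ d : D₀, S.e.ext (pr F A) (d * S.e.i w) = S.e.ext (pr F A) d * S.e.i w := by
      intro d
      rw [← S.e.ext_mulR, ← S.e.ext_mulR, ← LinearMap.comp_apply, ← LinearMap.comp_apply,
        ← S.e.ext_comp, ← S.e.ext_comp]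
      congr 2
      ext d
      simp only [LinearMap.comp_apply, LinearMap.mulRight_apply]
      exact pr_mul_right A w d hw
    rw [← mul_assoc, S.e.ext_mul_right _ _ _ hy, h1, mul_assoc]
  | zero => simp
  | add z w _ _ hz hw => rw [mul_add, map_add, hz, hw, mul_add]
  | smul b z _ hz => rw [mul_smul_comm, map_smul, hz, mul_smul_comm]

/-- `ntr (π(c) x) = ntr (c x)` for `x ∈ A ⊗ E₀` -/
theorem nda4_ntr_pi (A : Subalgebra F D) (c x : D₀)
    (hx : x ∈ S.e.bcE (Subalgebra.toSubmodule A)) :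
    ntr F₀ D₀ (S.e.ext (pr F A) c * x) = ntr F₀ D₀ (c * x) := by
  rw [← nda4_pi_right S A x c hx]
  generalize c * x = z
  refine S.e.de_induction (P := fun z => ntr F₀ D₀ (S.e.ext (pr F A) z) = ntr F₀ D₀ z)
    (by simp) ?_ ?_ z
  · intro x y hx hy
    rw [map_add, map_add, hx, hy, map_add]
  · intro d y hy
    rw [S.e.ext_apply _ _ _ hy, S.e.ntr_mul _ _ hy, S.e.ntr_mul _ _ hy]
    have := pr_spec (F := F) A d 1 A.one_mem
    rw [one_mul, one_mul] at this
    rw [this]

section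
variable (hr : 1 < r) (hζ : IsPrimitiveRoot ζ r) (θ : D) (K : Subalgebra F D)
  (hKL : K ≤ Algebra.adjoin F {θ}) (v t : D) (hv : v ∈ Algebra.adjoin F {θ}) (hv0 : v ≠ 0)
  (ht : t ∈ K)

include hr hζ hKL hv hv0 ht

/-- **NDA4**.  If `x ∈ L ⊗ E₀` and `pr_A x = 0` then `x = [h, X]` with `h` commuting with `θ`.
In the algebra `C₁ = Cent(θ)` (nondegenerate form), `[C₁, X]` is the orthogonal complement of `Cent(θ, X)`; for `c ∈ Cent(θ,X)`,
`π(c)` (`π = ext (pr_L)`, a bimodule projection onto `L ⊗ E₀`) commutes with `X`, so it is in `M_Y(L) = A` (`Y_cent`), and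
`ntr (c x) = ntr (π(c) x) = 0`. -/
theorem nda4 (x : D₀)
    (hx : x ∈ S.e.bcE (Subalgebra.toSubmodule (Algebra.adjoin F {θ})))
    (hpr : pr F₀ (Algebra.adjoin F₀ ({S.e.i θ, S.e.i v * S.Y t} : Set D₀)) x = 0) :
    ∃ h : D₀, Commute h (S.e.i θ) ∧
      x = h * (S.e.i v * S.Y t) - (S.e.i v * S.Y t) * h := by
  have hLc : ∀ x ∈ Algebra.adjoin F ({θ} : Set D),
      ∀ y ∈ Algebra.adjoin F ({θ} : Set D), x * y = y * x := by
    intro x hx y hy
    have := (Algebra.isMulCommutative_adjoin F (s := ({θ} : Set D)) (by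
      rintro a ha b hb
      rw [Set.mem_singleton_iff] at ha hb
      rw [ha, hb])).is_comm.comm ⟨x, hx⟩ ⟨y, hy⟩
    exact congrArg Subtype.val this
  have hθL : θ ∈ Algebra.adjoin F ({θ} : Set D) := Algebra.self_mem_adjoin_singleton F θ
  have htL : t ∈ Algebra.adjoin F ({θ} : Set D) := hKL ht
  -- elements of `L ⊗ E₀` commute with `i l`
  have hcommL : ∀ l ∈ Algebra.adjoin F ({θ} : Set D), ∀ z ∈ S.e.bcE
      (Subalgebra.toSubmodule (Algebra.adjoin F {θ})), Commute z (S.e.i l) := by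
    intro l hl z hz
    induction hz using Submodule.span_induction with
    | mem z hz =>
      obtain ⟨w, hw, y, hy, rfl⟩ := hz
      refine Commute.mul_left ?_ ?_
      · show S.e.i w * S.e.i l = S.e.i l * S.e.i w
        rw [← map_mul, ← map_mul, hLc w hw l hl]
      · exact ((S.e.mem_E_iff y).1 hy l).symm
    | zero => exact Commute.zero_left _
    | add a b _ _ ha hb => exact ha.add_left hb
    | smul c a _ ha => exact ha.smul_left c
  have hYmem : S.Y t ∈ S.e.bcE (Subalgebra.toSubmodule (Algebra.adjoin F {θ})) := by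
    rw [S.Y_zero_add]
    refine Submodule.add_mem _ ?_ ?_
    · have := S.e.mul_mem_bcE (Subalgebra.toSubmodule (Algebra.adjoin F {θ})) 1
        (Subalgebra.one_mem _) _ S.u_mem_E
      rwa [map_one, one_mul] at this
    · exact S.e.mul_mem_bcE _ _ htL _ S.v_mem_E
  have hXmem : S.e.i v * S.Y t ∈ S.e.bcE (Subalgebra.toSubmodule (Algebra.adjoin F {θ})) :=
    S.e.bcE_mul _ _ _ (S.e.bc_le_bcE _ (S.e.i_mem_bc _ _ hv)) hYmem
  obtain ⟨h, hh, hh2⟩ := nda4_mem_comm (F := F₀) (Subalgebra.centralizer F₀ ({S.e.i θ} : Set D₀))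
    (S.e.i v * S.Y t) ((mem_cent _ _).2 (hcommL θ hθL _ hXmem)) x
    ((mem_cent _ _).2 (hcommL θ hθL _ hx)) (by
    intro c _ hcX
    rw [← nda4_ntr_pi S _ c x hx]
    set z := S.e.ext (pr F (Algebra.adjoin F ({θ} : Set D))) c with hz
    have hzL : z ∈ S.e.bcE (Subalgebra.toSubmodule (Algebra.adjoin F {θ})) :=
      S.e.ext_mem_of_range _ _ (fun w => pr_mem _ w) c
    have hzX : z * (S.e.i v * S.Y t) = S.e.i v * S.Y t * z := by
      rw [hz, ← nda4_pi_left S _ _ c hXmem, ← nda4_pi_right S _ _ c hXmem, hcX.eq]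
    have hzY : Commute z (S.Y t) := by
      have h1 : S.e.i v * (z * S.Y t) = S.e.i v * (S.Y t * z) := by
        rw [← mul_assoc, ← (hcommL v hv z hzL).eq, mul_assoc, hzX, mul_assoc]
      have hiv : S.e.i v ≠ 0 := by
        intro h0
        apply hv0
        have hinj := S.e.bc_inj (⊤ : Submodule F D)
        have := S.e.i_indep (κ := Unit) (fun _ => v) (by
          rw [linearIndependent_unique_iff]; exact hv0)
        rw [linearIndependent_unique_iff] at this
        exact absurd h0 this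
      exact mul_left_cancel₀ hiv h1
    obtain ⟨p, hp, hp2⟩ := S.Y_cent hr hζ (Algebra.adjoin F ({θ} : Set D)) hLc t htL z hzL hzY
    have hzA : z ∈ Algebra.adjoin F₀ ({S.e.i θ, S.e.i v * S.Y t} : Set D₀) := by
      rw [← Subalgebra.mem_toSubmodule, adjoin_eq_MY S hr hζ θ v t hv htL hv0, S.mem_MY]
      exact ⟨p, hp, hp2⟩
    rw [← pr_spec _ x z hzA, hpr, mul_zero, map_zero])
  exact ⟨h, (mem_cent _ _).1 hh, hh2⟩

end

end Crest.Agent.R180
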